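import Vale.Agent.P219.Ge1

/-!
The modified distance: Taylor estimates.
-/

open scoped ContDiff Topology ENNReal
open MeasureTheory Set Filter Metric

noncomputable section

namespace Vale.Agent.P219

variable {n k : ℕ} {b : ℝ}

theorem ge2_fd {X V : Type*} [NormedAddCommGroup X] [NormedSpace ℝ X] [NormedAddCommGroup V]
    [NormedSpace ℝ V] {G : X → E n → V} (hG : ContDiff ℝ ∞ fun p : X × E n => G p.1 p.2) :
    ContDiff ℝ ∞ fun p : X × E n => fderiv ℝ (G p.1) p.2 :=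
  ContDiff.fderiv (m := ∞) (f := fun (p : X × E n) y => G p.1 y) (g := Prod.snd)
    (hG.comp (contDiff_fst.fst.prodMk contDiff_snd)) contDiff_snd (le_of_eq rfl)

theorem ge2_taylor {g : E n → ℝ} (hg : ContDiff ℝ ∞ g) {x v : E n} {q M : ℝ} (h0 : g x = 0)
    (h1 : fderiv ℝ g x = 0)
    (h2 : ∀ t ∈ Icc (0 : ℝ) 1, |fderiv ℝ (fderiv ℝ g) (x + t • v) v v - q| ≤ M) :
    |g (x + v) - q / 2| ≤ M := by
  have hd : Differentiable ℝ g := hg.differentiable (by simp)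
  have hg' : ContDiff ℝ ∞ (fderiv ℝ g) := hg.fderiv_right (m := ∞) (le_of_eq rfl)
  have hd' : Differentiable ℝ (fderiv ℝ g) := hg'.differentiable (by simp)
  have hl : ∀ t : ℝ, HasDerivAt (fun t : ℝ => x + t • v) v t := fun t => by
    simpa using ((hasDerivAt_id t).smul_const v).const_add x
  have hφ : ∀ t : ℝ, HasDerivAt (fun t : ℝ => g (x + t • v) - t ^ 2 * (q / 2))
      (fderiv ℝ g (x + t • v) v - t * q) t := fun t => by
    have a := (hd (x + t • v)).hasFDerivAt.comp_hasDerivAt t (hl t)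
    have c := (hasDerivAt_pow 2 t).mul_const (q / 2)
    refine (a.sub c).congr_deriv ?_
    push_cast
    ring
  have hψ : ∀ t : ℝ, HasDerivAt (fun t : ℝ => fderiv ℝ g (x + t • v) v - t * q)
      (fderiv ℝ (fderiv ℝ g) (x + t • v) v v - q) t := fun t => by
    have a := (hd' (x + t • v)).hasFDerivAt.comp_hasDerivAt t (hl t)
    have a' := a.clm_apply (hasDerivAt_const t v)
    have c := (hasDerivAt_id t).mul_const q
    refine (a'.sub c).congr_deriv ?_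
    simp
  have hM : 0 ≤ M := (abs_nonneg _).trans (h2 0 ⟨le_rfl, zero_le_one⟩)
  have s1 := norm_image_sub_le_of_norm_deriv_le_segment'
    (f := fun t : ℝ => fderiv ℝ g (x + t • v) v - t * q) (a := 0) (b := 1) (C := M)
    (fun t _ => (hψ t).hasDerivWithinAt) (fun t ht => h2 t (Ico_subset_Icc_self ht))
  have s2 := norm_image_sub_le_of_norm_deriv_le_segment_01'
    (f := fun t : ℝ => g (x + t • v) - t ^ 2 * (q / 2)) (C := M)
    (fun t _ => (hφ t).hasDerivWithinAt) (fun t ht => by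
      have := s1 t (Ico_subset_Icc_self ht)
      simp only [zero_smul, add_zero, h1, zero_apply, zero_mul, sub_zero]
        at this
      exact this.trans (mul_le_of_le_one_right hM ht.2.le))
  simpa [h0] using s2

theorem ge2_quad {X : Type*} [NormedAddCommGroup X] [NormedSpace ℝ X] {G : X → E n → ℝ}
    (hG : ContDiff ℝ ∞ fun p : X × E n => G p.1 p.2) {A : Set X} (hA : IsCompact A)
    {K : Set (E n)} (hK : IsCompact K) :
    ∃ C > 0, ∀ a ∈ A, ∀ x ∈ K, ∀ y ∈ K, G a x = 0 → fderiv ℝ (G a) x = 0 →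
      |G a y| ≤ C * ‖x - y‖ ^ 2 := by
  obtain ⟨R, hR⟩ := hK.isBounded.subset_closedBall 0
  have hH := (ge2_fd (G := fun a => fderiv ℝ (G a)) (ge2_fd hG)).continuous
  obtain ⟨C, hC⟩ := (hA.prod (isCompact_closedBall (0 : E n) R)).exists_bound_of_continuousOn
    hH.continuousOn
  refine ⟨|C| + 1, by positivity, fun a ha x hx y hy h0 h1 => ?_⟩
  have hg : ContDiff ℝ ∞ (G a) := hG.comp (contDiff_const.prodMk contDiff_id)
  have := ge2_taylor hg (v := y - x) (q := 0) (M := (|C| + 1) * ‖x - y‖ ^ 2) h0 h1 fun t ht => by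
    have hm : x + t • (y - x) ∈ closedBall (0 : E n) R :=
      (convex_closedBall 0 R).add_smul_sub_mem (hR hx) (hR hy) ht
    have h3 := hC (a, x + t • (y - x)) ⟨ha, hm⟩
    have h4 := (fderiv ℝ (fderiv ℝ (G a)) (x + t • (y - x))).le_opNorm₂ (y - x) (y - x)
    rw [sub_zero, ← Real.norm_eq_abs, norm_sub_rev x y]
    refine h4.trans ?_
    rw [mul_assoc, ← sq]
    exact mul_le_mul_of_nonneg_right (h3.trans ((le_abs_self C).trans (by linarith)))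
      (sq_nonneg _)
  simpa using this

namespace Geo

section general

variable (Γ : Geo n b) {K : Set (E n)}

theorem ge2_fderiv_self (o : E n) : fderiv ℝ (Γ.σ o) o = 0 := by
  refine IsLocalMin.fderiv_eq_zero (Eventually.of_forall fun y => ?_)
  rw [Γ.self]
  exact Γ.nonneg o y

theorem ge2_gr_self (o : E n) : Γ.gr (Γ.σ o) o = 0 :=
  Γ.gr_ext fun ξ => by simp [Γ.ge2_fderiv_self]

theorem ge2_hess (o v : E n) : fderiv ℝ (fderiv ℝ (Γ.σ o)) o v v = ‖Γ.Fi o v‖ ^ 2 := by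
  obtain ⟨ξ, rfl⟩ : ∃ ξ, v = Γ.F o ξ := ⟨Γ.Fi o v, (Γ.right o v).symm⟩
  rw [Γ.left, ← Γ.hess0 o ξ]
  have hy : HasFDerivAt (Γ.gr (Γ.σ o)) (fderiv ℝ (Γ.gr (Γ.σ o)) o) o :=
    ((Γ.gr_sm o).differentiable (by simp) o).hasFDerivAt
  have hF : HasFDerivAt Γ.F (fderiv ℝ Γ.F o) o := (Γ.sF.differentiable (by simp) o).hasFDerivAt
  have hD : HasFDerivAt (fderiv ℝ (Γ.σ o)) (fderiv ℝ (fderiv ℝ (Γ.σ o)) o) o :=
    (((Γ.sm o).fderiv_right (m := ∞) (le_of_eq rfl)).differentiable (by simp) o).hasFDerivAt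
  have e1 : Γ.B (Γ.gr (Γ.σ o)) o ξ = fderiv ℝ (Γ.gr (Γ.σ o)) o (Γ.F o ξ) := by
    rw [Frame.B, (hF.clm_apply hy).fderiv]
    simp [Γ.ge2_gr_self, Γ.left]
  have h1 := (hy.inner ℝ (hasFDerivAt_const ξ o)).fderiv
  have h2 := (hD.clm_apply (hF.clm_apply (hasFDerivAt_const ξ o))).fderiv
  have e2 : (fun p => inner ℝ (Γ.gr (Γ.σ o) p) ξ) = fun p => fderiv ℝ (Γ.σ o) p (Γ.F p ξ) :=
    funext fun p => Γ.inner_gr _ _ _
  rw [e2, h2] at h1
  have h3 := congrArg (fun L : E n →L[ℝ] ℝ => L (Γ.F o ξ)) h1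
  rw [e1]
  simpa [Γ.ge2_fderiv_self] using h3

theorem ge2_norm_le (x₀ v : E n) : ‖v‖ ^ 2 ≤ (‖Γ.F x₀‖ ^ 2 + 1) * ‖Γ.Fi x₀ v‖ ^ 2 := by
  have h := (Γ.F x₀).le_opNorm (Γ.Fi x₀ v)
  rw [Γ.right] at h
  have h2 := pow_le_pow_left₀ (norm_nonneg _) h 2
  nlinarith [sq_nonneg ‖Γ.Fi x₀ v‖]

theorem taylor (x₀ : E n) {ε : ℝ} (hε : 0 < ε) : ∃ U ∈ 𝓝 x₀, ∀ x ∈ U, ∀ y ∈ U,
    |2 * Γ.σ x y - ‖Γ.Fi x₀ (x - y)‖ ^ 2| ≤ ε * ‖Γ.Fi x₀ (x - y)‖ ^ 2 := by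
  have hH := (ge2_fd (G := fun a => fderiv ℝ (Γ.σ a)) (ge2_fd Γ.smooth)).continuous
  obtain ⟨A, hA⟩ : ∃ A, A = ‖Γ.F x₀‖ ^ 2 + 1 := ⟨_, rfl⟩
  have hA0 : 0 < A := by rw [hA]; positivity
  obtain ⟨δ, hδ, h⟩ := Metric.continuousAt_iff.1 (hH.continuousAt (x := (x₀, x₀)))
    (ε / (2 * A)) (by positivity)
  refine ⟨ball x₀ δ, ball_mem_nhds _ hδ, fun x hx y hy => ?_⟩
  have := ge2_taylor (Γ.sm x) (v := y - x) (q := ‖Γ.Fi x₀ (y - x)‖ ^ 2)
    (M := ε / 2 * ‖Γ.Fi x₀ (y - x)‖ ^ 2) (Γ.self x) (Γ.ge2_fderiv_self x) fun t ht => by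
      have hm : x + t • (y - x) ∈ ball x₀ δ := (convex_ball x₀ δ).add_smul_sub_mem hx hy ht
      have h3 := h (x := (x, x + t • (y - x))) (by
        rw [Prod.dist_eq]
        exact max_lt hx hm)
      rw [dist_eq_norm] at h3
      have h4 := (fderiv ℝ (fderiv ℝ (Γ.σ x)) (x + t • (y - x)) -
        fderiv ℝ (fderiv ℝ (Γ.σ x₀)) x₀).le_opNorm₂ (y - x) (y - x)
      rw [sub_apply, sub_apply, Γ.ge2_hess,
        Real.norm_eq_abs, mul_assoc, ← sq] at h4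
      have h5 := Γ.ge2_norm_le x₀ (y - x)
      rw [← hA] at h5
      calc _ ≤ _ := h4
        _ ≤ ε / (2 * A) * (A * ‖Γ.Fi x₀ (y - x)‖ ^ 2) :=
          mul_le_mul h3.le h5 (sq_nonneg _) (by positivity)
        _ = _ := by field_simp
  have e : ‖Γ.Fi x₀ (x - y)‖ = ‖Γ.Fi x₀ (y - x)‖ := by rw [← neg_sub y x, map_neg, norm_neg]
  rw [add_sub_cancel] at this
  rw [e]
  obtain ⟨h1, h2⟩ := abs_le.1 this
  exact abs_le.2 ⟨by linarith, by linarith⟩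

theorem ge2_lower (hK : IsCompact K) : ∃ c > 0, ∀ p ∈ K ×ˢ K, c * ‖p.1 - p.2‖ ^ 2 ≤ Γ.σ p.1 p.2 := by
  refine (hK.prod hK).induction_on
    (p := fun S => ∃ c > 0, ∀ p ∈ S, c * ‖p.1 - p.2‖ ^ 2 ≤ Γ.σ p.1 p.2) ?_ ?_ ?_ ?_
  · exact ⟨1, one_pos, fun p hp => hp.elim⟩
  · rintro s t hst ⟨c, hc, h⟩
    exact ⟨c, hc, fun p hp => h p (hst hp)⟩
  · rintro s t ⟨c, hc, h⟩ ⟨c', hc', h'⟩
    refine ⟨min c c', lt_min hc hc', ?_⟩
    rintro p (hp | hp)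
    · exact (mul_le_mul_of_nonneg_right (min_le_left _ _) (sq_nonneg _)).trans (h p hp)
    · exact (mul_le_mul_of_nonneg_right (min_le_right _ _) (sq_nonneg _)).trans (h' p hp)
  · rintro ⟨x, y⟩ -
    by_cases hxy : x = y
    · subst hxy
      obtain ⟨U, hU, h⟩ := Γ.taylor x (ε := 1 / 2) (by norm_num)
      obtain ⟨A, hA⟩ : ∃ A, A = ‖Γ.F x‖ ^ 2 + 1 := ⟨_, rfl⟩
      have hA0 : 0 < A := by rw [hA]; positivity
      refine ⟨U ×ˢ U, mem_nhdsWithin_of_mem_nhds (prod_mem_nhds hU hU), 1 / (4 * A),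
        by positivity, fun p hp => ?_⟩
      have h1 := (abs_le.1 (h _ hp.1 _ hp.2)).1
      have h2 := Γ.ge2_norm_le x (p.1 - p.2)
      rw [← hA] at h2
      calc _ ≤ 1 / (4 * A) * (A * ‖Γ.Fi x (p.1 - p.2)‖ ^ 2) :=
          mul_le_mul_of_nonneg_left h2 (by positivity)
        _ = ‖Γ.Fi x (p.1 - p.2)‖ ^ 2 / 4 := by field_simp
        _ ≤ _ := by linarith
    · have hσ := Γ.pos x y hxy
      have hc : Continuous fun p : E n × E n =>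
          Γ.σ x y / (‖x - y‖ ^ 2 + 1) * ‖p.1 - p.2‖ ^ 2 := by fun_prop
      have hlt : Γ.σ x y / (‖x - y‖ ^ 2 + 1) * ‖x - y‖ ^ 2 < Γ.σ x y := by
        rw [div_mul_eq_mul_div, div_lt_iff₀ (by positivity)]
        nlinarith
      refine ⟨{p | Γ.σ x y / (‖x - y‖ ^ 2 + 1) * ‖p.1 - p.2‖ ^ 2 < Γ.σ p.1 p.2},
        mem_nhdsWithin_of_mem_nhds ((isOpen_lt hc Γ.cont).mem_nhds hlt),
        Γ.σ x y / (‖x - y‖ ^ 2 + 1), by positivity, fun p hp => le_of_lt hp⟩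

theorem cmp (hK : IsCompact K) : ∃ c > 0, ∃ C > 0, ∀ x ∈ K, ∀ y ∈ K,
    c * ‖x - y‖ ^ 2 ≤ Γ.σ x y ∧ Γ.σ x y ≤ C * ‖x - y‖ ^ 2 := by
  obtain ⟨c, hc, h⟩ := Γ.ge2_lower hK
  obtain ⟨C, hC, h'⟩ := ge2_quad Γ.smooth hK hK
  exact ⟨c, hc, C, hC, fun x hx y hy => ⟨h (x, y) ⟨hx, hy⟩,
    (le_abs_self _).trans (h' x hx x hx y hy (Γ.self x) (Γ.ge2_fderiv_self x))⟩⟩

theorem ge2_lip (R : ℝ) : ∃ L > 0, ∀ x ∈ closedBall (0 : E n) R, ∀ y ∈ closedBall (0 : E n) R,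
    ∀ w ∈ closedBall (0 : E n) R, √(Γ.σ w x) ≤ √(Γ.σ w y) + L * ‖x - y‖ := by
  have hB := isCompact_closedBall (0 : E n) R
  obtain ⟨C, hC, hg⟩ := Γ.grad_le hB
  obtain ⟨M, hM⟩ := hB.exists_bound_of_continuousOn Γ.sFi.continuous.continuousOn
  refine ⟨C * (|M| + 1), by positivity, fun x hx y hy w hw => ?_⟩
  refine le_of_forall_pos_le_add fun η hη => ?_
  have hpos : ∀ p, 0 < Γ.σ w p + η ^ 2 := fun p => by
    have := Γ.nonneg w p
    positivity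
  have hd : ∀ p, HasFDerivAt (fun p => √(Γ.σ w p + η ^ 2))
      ((1 / (2 * √(Γ.σ w p + η ^ 2))) • fderiv ℝ (Γ.σ w) p) p := fun p =>
    ((Γ.diff w p).hasFDerivAt.add_const (η ^ 2)).sqrt (hpos p).ne'
  have hb : ∀ p ∈ closedBall (0 : E n) R,
      ‖(1 / (2 * √(Γ.σ w p + η ^ 2))) • fderiv ℝ (Γ.σ w) p‖ ≤ C * (|M| + 1) := fun p hp => by
    have hs : 0 < √(Γ.σ w p + η ^ 2) := Real.sqrt_pos.2 (hpos p)
    have h1 : ‖fderiv ℝ (Γ.σ w) p‖ ≤ C * √(Γ.σ w p) * (|M| + 1) := by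
      refine ContinuousLinearMap.opNorm_le_bound _ (by positivity) fun v => ?_
      have e : fderiv ℝ (Γ.σ w) p v = inner ℝ (Γ.gr (Γ.σ w) p) (Γ.Fi p v) := by
        rw [Γ.inner_gr, Γ.right]
      have h2 : ‖Γ.Fi p v‖ ≤ (|M| + 1) * ‖v‖ := ((Γ.Fi p).le_opNorm v).trans
        (mul_le_mul_of_nonneg_right ((hM p hp).trans ((le_abs_self M).trans (by linarith)))
          (norm_nonneg _))
      rw [e, mul_assoc (C * √(Γ.σ w p))]
      exact (norm_inner_le_norm _ _).trans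
        (mul_le_mul (hg w hw p hp) h2 (norm_nonneg _) (by positivity))
    have h3 : √(Γ.σ w p) ≤ √(Γ.σ w p + η ^ 2) := Real.sqrt_le_sqrt (by nlinarith)
    rw [norm_smul, Real.norm_of_nonneg (by positivity), div_mul_eq_mul_div, one_mul,
      div_le_iff₀ (by positivity)]
    have h4 : 0 ≤ C * (|M| + 1) := by positivity
    nlinarith [mul_le_mul_of_nonneg_left h3 h4, mul_nonneg h4 hs.le]
  have h5 := (convex_closedBall (0 : E n) R).norm_image_sub_le_of_norm_hasFDerivWithin_le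
    (fun p _ => (hd p).hasFDerivWithinAt) hb hy hx
  have h6 : √(Γ.σ w x) ≤ √(Γ.σ w x + η ^ 2) := Real.sqrt_le_sqrt (by nlinarith)
  have h7 : √(Γ.σ w y + η ^ 2) ≤ √(Γ.σ w y) + η := by
    rw [Real.sqrt_le_left (by positivity), add_sq, Real.sq_sqrt (Γ.nonneg w y)]
    have : 0 ≤ 2 * √(Γ.σ w y) * η := by positivity
    linarith
  have h8 := (abs_le.1 ((Real.norm_eq_abs _).symm.trans_le h5)).2
  linarith

theorem sqrt_lip (hK : IsCompact K) : ∃ C > 0, ∀ x ∈ K, ∀ y ∈ K, ∀ w ∈ K,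
    √(Γ.σ x w) ≤ √(Γ.σ y w) + C * √(Γ.σ x y) := by
  obtain ⟨R, hR⟩ := hK.isBounded.subset_closedBall 0
  obtain ⟨L, hL, h⟩ := Γ.ge2_lip R
  obtain ⟨c, hc, h'⟩ := Γ.ge2_lower hK
  have hs : 0 < √c := Real.sqrt_pos.2 hc
  refine ⟨L / √c, by positivity, fun x hx y hy w hw => ?_⟩
  have h1 := h x (hR hx) y (hR hy) w (hR hw)
  have h2 : √c * ‖x - y‖ ≤ √(Γ.σ x y) := by
    refine Real.le_sqrt_of_sq_le ?_
    rw [mul_pow, Real.sq_sqrt hc.le]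
    exact h' (x, y) ⟨hx, hy⟩
  have h3 : L * ‖x - y‖ ≤ L / √c * √(Γ.σ x y) := by
    calc L * ‖x - y‖ = L / √c * (√c * ‖x - y‖) := by field_simp
      _ ≤ _ := mul_le_mul_of_nonneg_left h2 (by positivity)
  rw [Γ.symm x w, Γ.symm y w]
  linarith

end general

theorem Hs_upper (Γ : Geo (k + 1) b) {K : Set (E (k + 1))} (hK : IsCompact K) :
    ∃ C > 0, ∀ o ∈ K, ∀ z : E (k + 1) × E (k + 1), z.1 ∈ K → ‖z.2‖ = 1 →
      Γ.Hs o z ≤ k * (1 + b ^ 2 * Γ.σ o z.1) + C * Γ.σ o z.1 := by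
  have hB : ContDiff ℝ ∞ fun p : (E (k + 1) × E (k + 1)) × E (k + 1) =>
      Γ.B (Γ.gr (Γ.σ p.1.1)) p.2 :=
    (Γ.contDiff_B₂ (y := fun o => Γ.gr (Γ.σ o)) Γ.gr_sm₂).comp
      (contDiff_fst.fst.prodMk contDiff_snd)
  have hσ : ContDiff ℝ ∞ fun p : (E (k + 1) × E (k + 1)) × E (k + 1) => Γ.σ p.1.1 p.2 :=
    Γ.smooth.comp (contDiff_fst.fst.prodMk contDiff_snd)
  have hG : ContDiff ℝ ∞ fun p : (E (k + 1) × E (k + 1)) × E (k + 1) =>
      Γ.Hs p.1.1 (p.2, p.1.2) - k * (1 + b ^ 2 * Γ.σ p.1.1 p.2) :=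
    ((contDiff_tr.comp hB).sub
      ((hB.clm_apply contDiff_fst.snd).inner ℝ contDiff_fst.snd)).sub
      (contDiff_const.mul (contDiff_const.add (contDiff_const.mul hσ)))
  obtain ⟨C, hC, h⟩ := ge2_quad
    (G := fun (a : E (k + 1) × E (k + 1)) x => Γ.Hs a.1 (x, a.2) - k * (1 + b ^ 2 * Γ.σ a.1 x))
    hG (hK.prod (isCompact_sphere (0 : E (k + 1)) 1)) hK
  obtain ⟨c, hc, h'⟩ := Γ.ge2_lower hK
  refine ⟨C / c, by positivity, fun o ho z hz hν => ?_⟩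
  have h0 : Γ.Hs o (o, z.2) - k * (1 + b ^ 2 * Γ.σ o o) = 0 := by
    rw [Geo.Hs, Frame.dT, tr_sub_inner hν]
    simp only [Γ.hess0, sum_prj_sq hν, Γ.self]
    push_cast
    ring
  have h1 : fderiv ℝ (fun x => Γ.Hs o (x, z.2) - k * (1 + b ^ 2 * Γ.σ o x)) o = 0 := by
    refine IsLocalMin.fderiv_eq_zero (Eventually.of_forall fun y => ?_)
    have := Γ.Hs_lower (z := (y, z.2)) o hν
    simp only at this ⊢
    linarith
  have h2 := (le_abs_self _).trans (h (o, z.2) ⟨ho, by simpa using hν⟩ o ho z.1 hz h0 h1)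
  have h3 : C * ‖o - z.1‖ ^ 2 ≤ C / c * Γ.σ o z.1 := by
    calc C * ‖o - z.1‖ ^ 2 = C / c * (c * ‖o - z.1‖ ^ 2) := by field_simp
      _ ≤ _ := mul_le_mul_of_nonneg_left (h' (o, z.1) ⟨ho, hz⟩) (by positivity)
  simp only [Prod.mk.eta] at h2
  linarith

end Geo


end Vale.Agent.P219
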