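import Vale.Agent.P219.Hardy
import Vale.Agent.P219.Ge2

/-!
The Sobolev inequality kills the part above a level.
-/

open scoped ContDiff Topology ENNReal
open MeasureTheory Set Filter Metric

noncomputable section

namespace Vale.Agent.P219

variable {n k : ℕ} {b : ℝ}

theorem abs_deriv_sq (s : ℝ) : HasDerivAt (fun t : ℝ => max t 0 ^ 2) (2 * max s 0) s := by
  rcases lt_trichotomy s 0 with h | h | h
  · have : (fun t : ℝ => max t 0 ^ 2) =ᶠ[𝓝 s] fun _ => 0 := by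
      filter_upwards [Iio_mem_nhds h] with t ht
      rw [max_eq_right (le_of_lt ht)]
      simp
    rw [max_eq_right h.le, mul_zero]
    exact (hasDerivAt_const s (0 : ℝ)).congr_of_eventuallyEq this
  · subst h
    rw [hasDerivAt_iff_isLittleO_nhds_zero]
    simp only [zero_add, max_self, mul_zero, smul_zero, sub_zero, ne_eq, OfNat.ofNat_ne_zero,
      not_false_eq_true, zero_pow]
    refine Asymptotics.IsBigO.trans_isLittleO ?_
      (Asymptotics.isLittleO_pow_id (𝕜 := ℝ) (n := 2) one_lt_two)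
    refine Asymptotics.IsBigO.of_bound' (Eventually.of_forall fun t => ?_)
    rw [Real.norm_eq_abs, Real.norm_eq_abs, abs_of_nonneg (sq_nonneg _),
      abs_of_nonneg (sq_nonneg _)]
    rcases le_total t 0 with ht | ht
    · rw [max_eq_right ht]
      nlinarith [sq_nonneg t]
    · rw [max_eq_left ht]
  · have : (fun t : ℝ => max t 0 ^ 2) =ᶠ[𝓝 s] fun t => t ^ 2 := by
      filter_upwards [Ioi_mem_nhds h] with t ht
      rw [max_eq_left (le_of_lt ht)]
    rw [max_eq_left h.le]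
    have h2 : HasDerivAt (fun t : ℝ => t ^ 2) (2 * s) s := by
      simpa using hasDerivAt_pow 2 s
    exact h2.congr_of_eventuallyEq this

/-- A smoothed positive part. -/
def absXi (a e s : ℝ) : ℝ := √(max (s - a) 0 ^ 2 + e ^ 2) - e

theorem absXi_deriv (a : ℝ) {e : ℝ} (he : 0 < e) (s : ℝ) :
    HasDerivAt (absXi a e) (max (s - a) 0 / √(max (s - a) 0 ^ 2 + e ^ 2)) s := by
  have h1 : HasDerivAt (fun t : ℝ => max (t - a) 0 ^ 2) (2 * max (s - a) 0) s := by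
    have := (abs_deriv_sq (s - a)).comp s ((hasDerivAt_id s).sub_const a)
    simpa [Function.comp_def] using this
  have h2 := ((h1.add_const (e ^ 2)).sqrt (by positivity)).sub_const e
  rw [mul_div_mul_left _ _ two_ne_zero] at h2
  exact h2

theorem absXi_sm (a : ℝ) {e : ℝ} (he : 0 < e) : ContDiff ℝ 1 (absXi a e) := by
  rw [contDiff_one_iff_deriv]
  refine ⟨fun s => (absXi_deriv a he s).differentiableAt, ?_⟩
  rw [funext fun s => (absXi_deriv a he s).deriv]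
  refine Continuous.div (by fun_prop) (by fun_prop) fun s => ?_
  exact (Real.sqrt_pos.2 (by positivity)).ne'

theorem absXi_nonneg (a : ℝ) {e : ℝ} (he : 0 ≤ e) (s : ℝ) : 0 ≤ absXi a e s := by
  rw [absXi, sub_nonneg]
  exact Real.le_sqrt_of_sq_le (by nlinarith [sq_nonneg (max (s - a) 0)])

theorem absXi_le (a : ℝ) {e : ℝ} (he : 0 ≤ e) (s : ℝ) : absXi a e s ≤ max (s - a) 0 := by
  rw [absXi, sub_le_iff_le_add]
  have h : 0 ≤ max (s - a) 0 := le_max_right _ _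
  exact Real.sqrt_le_iff.2 ⟨by positivity, by nlinarith [mul_nonneg h he]⟩

theorem absXi_der_le (a : ℝ) {e : ℝ} (he : 0 < e) (s : ℝ) :
    |max (s - a) 0 / √(max (s - a) 0 ^ 2 + e ^ 2)| ≤ 1 := by
  have h : 0 ≤ max (s - a) 0 := le_max_right _ _
  have h3 : 0 < √(max (s - a) 0 ^ 2 + e ^ 2) := Real.sqrt_pos.2 (by positivity)
  rw [abs_of_nonneg (by positivity), div_le_one h3]
  exact Real.le_sqrt_of_sq_le (by nlinarith [sq_nonneg e])

theorem abs_memLp (W : Vf n) {f : E n × E n → ℝ} (hf : Continuous f) (p : ℝ≥0∞) :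
    MemLp f p W.V := by
  obtain ⟨C, hC⟩ :=
    (W.cpt.prod (isCompact_sphere (0 : E n) 1)).exists_bound_of_continuousOn hf.continuousOn
  refine MemLp.of_bound hf.aestronglyMeasurable C ?_
  filter_upwards [W.supp] with z hz
  exact hC z ⟨hz.1, by simpa using hz.2⟩

theorem abs_holder (hk : 3 ≤ k) (W : Vf n) {l ξ : E n × E n → ℝ} (hl : Continuous l)
    (hξ : Continuous ξ) (l0 : ∀ z, 0 < l z) (ξ0 : ∀ z, 0 ≤ ξ z) {S : Set (E n × E n)}
    (hS : MeasurableSet S) (hz : ∀ z, z ∉ S → ξ z = 0) {c : ℝ} (hc : ∫ z in S, l z ∂W.V ≤ c) :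
    ∫ z, l z * ξ z ^ 2 ∂W.V ≤
      (∫ z, l z * ξ z ^ qq k ∂W.V) ^ (2 / qq k) * c ^ (2 / k : ℝ) := by
  have k3 : (3 : ℝ) ≤ k := by exact_mod_cast hk
  have k2 : (0 : ℝ) < k - 2 := by linarith
  have k0 : (0 : ℝ) < k := by linarith
  have q0 : 0 < qq k := by unfold qq; positivity
  have hpq : (qq k / 2).HolderConjugate (k / 2) := by
    rw [Real.holderConjugate_iff]
    constructor
    · unfold qq
      rw [lt_div_iff₀ two_pos, lt_div_iff₀ k2]
      linarith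
    · unfold qq
      field_simp
      ring
  have cf : Continuous fun z => l z ^ (2 / qq k) * ξ z ^ 2 :=
    (hl.rpow_const fun z => Or.inl (l0 z).ne').mul (hξ.pow 2)
  have cg : Continuous fun z => l z ^ (2 / k : ℝ) := hl.rpow_const fun z => Or.inl (l0 z).ne'
  have cq : Continuous fun z => l z * ξ z ^ qq k :=
    hl.mul (hξ.rpow_const fun z => Or.inr q0.le)
  have h := integral_mul_le_Lp_mul_Lq_of_nonneg (μ := W.V.restrict S) hpq
    (f := fun z => l z ^ (2 / qq k) * ξ z ^ 2) (g := fun z => l z ^ (2 / k : ℝ))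
    (Eventually.of_forall fun z => mul_nonneg (Real.rpow_nonneg (l0 z).le _) (sq_nonneg _))
    (Eventually.of_forall fun z => Real.rpow_nonneg (l0 z).le _)
    ((abs_memLp W cf _).restrict S) ((abs_memLp W cg _).restrict S)
  have e1 : ∀ z, l z ^ (2 / qq k) * ξ z ^ 2 * l z ^ (2 / k : ℝ) = l z * ξ z ^ 2 := by
    intro z
    have : 2 / qq k + 2 / (k : ℝ) = 1 := by
      unfold qq
      field_simp
      ring
    rw [mul_right_comm, ← Real.rpow_add (l0 z), this, Real.rpow_one]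
  have e2 : ∀ z, (l z ^ (2 / qq k) * ξ z ^ 2) ^ (qq k / 2) = l z * ξ z ^ qq k := by
    intro z
    rw [Real.mul_rpow (Real.rpow_nonneg (l0 z).le _) (sq_nonneg _), ← Real.rpow_mul (l0 z).le,
      ← Real.rpow_natCast, ← Real.rpow_mul (ξ0 z)]
    have a1 : 2 / qq k * (qq k / 2) = 1 := by field_simp
    have a2 : ((2 : ℕ) : ℝ) * (qq k / 2) = qq k := by push_cast; ring
    rw [a1, a2, Real.rpow_one]
  have e3 : ∀ z, (l z ^ (2 / k : ℝ)) ^ (k / 2 : ℝ) = l z := by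
    intro z
    have a1 : 2 / (k : ℝ) * (k / 2) = 1 := by field_simp
    rw [← Real.rpow_mul (l0 z).le, a1, Real.rpow_one]
  simp only [e1, e2, e3, one_div_div] at h
  have n1 : ∀ z, 0 ≤ l z * ξ z ^ qq k := fun z => mul_nonneg (l0 z).le (Real.rpow_nonneg (ξ0 z) _)
  have r1 : ∫ z in S, l z * ξ z ^ 2 ∂W.V = ∫ z, l z * ξ z ^ 2 ∂W.V :=
    setIntegral_eq_integral_of_forall_compl_eq_zero fun z hzS => by simp [hz z hzS]
  have r2 : ∫ z in S, l z * ξ z ^ qq k ∂W.V ≤ ∫ z, l z * ξ z ^ qq k ∂W.V :=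
    setIntegral_le_integral (W.integrable cq) (Eventually.of_forall n1)
  have p1 : 0 ≤ ∫ z in S, l z * ξ z ^ qq k ∂W.V := integral_nonneg n1
  have p2 : 0 ≤ ∫ z in S, l z ∂W.V := integral_nonneg fun z => (l0 z).le
  rw [← r1]
  refine h.trans (mul_le_mul (Real.rpow_le_rpow p1 r2 (by positivity))
    (Real.rpow_le_rpow p2 hc (by positivity)) (Real.rpow_nonneg p2 _)
    (Real.rpow_nonneg (p1.trans r2) _))

namespace Geo

variable (Γ : Geo (k + 1) b) {W : Vf (k + 1)} {h : ℝ} {γ : E (k + 1) → ℝ} {K : Set (E (k + 1))}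

theorem abs_energy (hk : 3 ≤ k) (hF : Γ.FV W h γ) (C : ℝ) {o : E (k + 1)} {τ : ℝ} (hτ : 0 < τ)
    {CH : ℝ} (hCH : 0 < CH)
    (hH : ∀ z : E (k + 1) × E (k + 1), z.1 ∈ W.K → ‖z.2‖ = 1 →
      Γ.Hs o z ≤ k * (1 + b ^ 2 * Γ.σ o z.1) + CH * Γ.σ o z.1)
    {u w : E (k + 1) → ℝ} (hu : ContDiff ℝ 1 u) (hw : ContDiff ℝ 1 w)
    (h2 : ∀ x, w x ^ 2 ≤ u x ^ 2) (he : ∀ z, ‖Γ.er o τ w z‖ ≤ ‖Γ.er o τ u z‖) :
    Γ.En W C w ≤ ∫ z, ‖Γ.er o τ u z‖ ^ 2 ∂W.V +
      ck k * ∫ z, u z.1 ^ 2 * (Γ.P o τ z - γ z.1) ^ 2 ∂W.V +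
      (be k * CH + ck k * b ^ 2 + |C| + 1) * ∫ z, u z.1 ^ 2 ∂W.V +
      ck k * ∫ z, w z.1 ^ 2 * Γ.la o τ z.1 ^ 2 ∂W.V := by
  have k3 : (3 : ℝ) ≤ k := by exact_mod_cast hk
  have c0 : 0 ≤ ck k := by
    unfold ck
    exact div_nonneg (mul_nonneg (by linarith) (by linarith)) (by norm_num)
  have b0 : 0 ≤ be k := by
    unfold be
    linarith
  have cu : Continuous fun z : E (k + 1) × E (k + 1) => u z.1 := hu.continuous.comp continuous_fst
  have cw : Continuous fun z : E (k + 1) × E (k + 1) => w z.1 := hw.continuous.comp continuous_fst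
  have cγ : Continuous fun z : E (k + 1) × E (k + 1) => γ z.1 := hF.cont.comp continuous_fst
  have cP := Γ.cont_P o hτ
  have cD : Continuous fun z : E (k + 1) × E (k + 1) => Γ.D o τ z.1 :=
    (Γ.D_sm o τ).continuous.comp continuous_fst
  have cσ : Continuous fun z : E (k + 1) × E (k + 1) => Γ.σ o z.1 :=
    (Γ.sm o).continuous.comp continuous_fst
  have cH := Γ.cont_Hs o
  have H := Γ.hardy hF o hτ hw
  have i1 : ∫ z, ‖Γ.er o τ w z‖ ^ 2 ∂W.V ≤ ∫ z, ‖Γ.er o τ u z‖ ^ 2 ∂W.V :=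
    W.integral_mono ((Γ.cont_er o hτ hw).norm.pow 2) ((Γ.cont_er o hτ hu).norm.pow 2)
      fun z _ _ => pow_le_pow_left₀ (norm_nonneg _) (he z) 2
  have i2 : ∫ z, w z.1 ^ 2 * (Γ.P o τ z - γ z.1) ^ 2 ∂W.V ≤
      ∫ z, u z.1 ^ 2 * (Γ.P o τ z - γ z.1) ^ 2 ∂W.V :=
    W.integral_mono ((cw.pow 2).mul ((cP.sub cγ).pow 2)) ((cu.pow 2).mul ((cP.sub cγ).pow 2))
      fun z _ _ => mul_le_mul_of_nonneg_right (h2 _) (sq_nonneg _)
  have i3 : ∫ z, 2 * be k * aa b τ * w z.1 ^ 2 / Γ.D o τ z.1 *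
      (Γ.Hs o z - k * (1 + b ^ 2 * Γ.σ o z.1)) ∂W.V ≤ be k * CH * ∫ z, u z.1 ^ 2 ∂W.V := by
    rw [← integral_const_mul]
    refine W.integral_mono ?_ (continuous_const.mul (cu.pow 2)) fun z h1 h3 => ?_
    · exact ((continuous_const.mul (cw.pow 2)).div cD fun z => (Γ.D_pos o hτ z.1).ne').mul
        (cH.sub (continuous_const.mul (continuous_const.add (continuous_const.mul cσ))))
    · have d0 := Γ.D_pos o hτ z.1
      have a0 : 0 ≤ aa b τ := zero_le_one.trans (aa_ge b τ)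
      have s0 := Γ.nonneg o z.1
      have t1 : Γ.Hs o z - k * (1 + b ^ 2 * Γ.σ o z.1) ≤ CH * Γ.σ o z.1 := by
        linarith [hH z h1 h3]
      have t2 : 2 * aa b τ * Γ.σ o z.1 ≤ Γ.D o τ z.1 := by
        unfold Geo.D
        nlinarith [sq_nonneg τ]
      calc _ ≤ 2 * be k * aa b τ * w z.1 ^ 2 / Γ.D o τ z.1 * (CH * Γ.σ o z.1) :=
            mul_le_mul_of_nonneg_left t1 (by positivity)
        _ = be k * CH * w z.1 ^ 2 * (2 * aa b τ * Γ.σ o z.1 / Γ.D o τ z.1) := by ring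
        _ ≤ be k * CH * u z.1 ^ 2 * 1 :=
            mul_le_mul (mul_le_mul_of_nonneg_left (h2 _) (by positivity))
              ((div_le_one d0).2 t2) (by positivity) (by positivity)
        _ = _ := mul_one _
  have i4 : -(b ^ 2) * ∫ z, u z.1 ^ 2 ∂W.V ≤ ∫ z, w z.1 ^ 2 * (γ z.1 ^ 2 - b ^ 2) ∂W.V := by
    rw [← integral_const_mul]
    refine W.integral_mono (continuous_const.mul (cu.pow 2))
      ((cw.pow 2).mul ((cγ.pow 2).sub continuous_const)) fun z _ _ => ?_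
    nlinarith [mul_nonneg (sq_nonneg (w z.1)) (sq_nonneg (γ z.1)),
      mul_le_mul_of_nonneg_left (h2 z.1) (sq_nonneg b)]
  have i5 : ∫ z, w z.1 ^ 2 ∂W.V ≤ ∫ z, u z.1 ^ 2 ∂W.V :=
    W.integral_mono (cw.pow 2) (cu.pow 2) fun z _ _ => h2 _
  have i6 : 0 ≤ ∫ z, w z.1 ^ 2 ∂W.V := integral_nonneg fun z => sq_nonneg _
  have i7 : C * ∫ z, w z.1 ^ 2 ∂W.V ≤ |C| * ∫ z, u z.1 ^ 2 ∂W.V :=
    (mul_le_mul_of_nonneg_right (le_abs_self C) i6).trans
      (mul_le_mul_of_nonneg_left i5 (abs_nonneg C))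
  have j2 := mul_le_mul_of_nonneg_left i2 c0
  have j4 := mul_le_mul_of_nonneg_left i4 c0
  unfold Frame.En
  nlinarith

theorem absorb (hk : 3 ≤ k) (hF : Γ.FV W h γ) (hK : IsCompact K) {C Y : ℝ} (hY : 0 < Y)
    (hS : Γ.Sob W C Y) : ∃ C' > 0, ∀ o ∈ K, ∀ τ > 0, ∀ u : E (k + 1) → ℝ, ContDiff ℝ 1 u →
      (∀ x, 0 ≤ u x) → ∀ a c : ℝ, 0 ≤ a → 0 ≤ c → ck k * c ^ (2 / k : ℝ) ≤ Y / 2 →
      ∫ z in {z | a < Γ.vv o τ u z.1}, Γ.la o τ z.1 ^ k ∂W.V ≤ c →
      Y / 2 * (∫ z, Γ.la o τ z.1 ^ k * max (Γ.vv o τ u z.1 - a) 0 ^ qq k ∂W.V) ^ (2 / qq k) ≤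
        ∫ z, ‖Γ.er o τ u z‖ ^ 2 ∂W.V +
          ck k * ∫ z, u z.1 ^ 2 * (Γ.P o τ z - γ z.1) ^ 2 ∂W.V +
          C' * ∫ z, u z.1 ^ 2 ∂W.V := by
  have k3 : (3 : ℝ) ≤ k := by exact_mod_cast hk
  have k2 : (0 : ℝ) < k - 2 := by linarith
  have q0 : 0 < qq k := by unfold qq; positivity
  have c0 : 0 ≤ ck k := by unfold ck; positivity
  have b0 : 0 ≤ be k := by unfold be; positivity
  obtain ⟨CH, hCH, hH⟩ := Γ.Hs_upper (hK.union W.cpt)
  refine ⟨be k * CH + ck k * b ^ 2 + |C| + 1, by positivity, ?_⟩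
  intro o ho τ hτ u hu u0 a c ha hc hcY hm
  have l0 := Γ.la_pos o hτ
  have sl : ContDiff ℝ 1 (Γ.la o τ) := (Γ.la_sm o hτ).of_le (by simp)
  have sU : ContDiff ℝ 1 fun x => Γ.la o τ x ^ be k :=
    sl.rpow_const_of_ne fun x => (l0 x).ne'
  have U0 : ∀ x, 0 < Γ.la o τ x ^ be k := fun x => Real.rpow_pos_of_pos (l0 x) _
  have sv := Γ.vv_sm o hτ hu
  have v0 : ∀ x, 0 ≤ Γ.vv o τ u x := fun x => div_nonneg (u0 x) (U0 x).le
  have cl : Continuous fun z : E (k + 1) × E (k + 1) => Γ.la o τ z.1 ^ k :=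
    (sl.continuous.comp continuous_fst).pow k
  have cv : Continuous fun z : E (k + 1) × E (k + 1) => Γ.vv o τ u z.1 :=
    sv.continuous.comp continuous_fst
  obtain ⟨R, hR⟩ : ∃ R, R = ∫ z, ‖Γ.er o τ u z‖ ^ 2 ∂W.V +
      ck k * ∫ z, u z.1 ^ 2 * (Γ.P o τ z - γ z.1) ^ 2 ∂W.V +
      (be k * CH + ck k * b ^ 2 + |C| + 1) * ∫ z, u z.1 ^ 2 ∂W.V := ⟨_, rfl⟩
  rw [← hR]
  have key : ∀ e > 0, Y / 2 *
      (∫ z, Γ.la o τ z.1 ^ k * absXi a e (Γ.vv o τ u z.1) ^ qq k ∂W.V) ^ (2 / qq k) ≤ R := by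
    intro e he
    have sξ : ContDiff ℝ 1 fun x => absXi a e (Γ.vv o τ u x) := (absXi_sm a he).comp sv
    obtain ⟨w, hw⟩ : ∃ w : E (k + 1) → ℝ,
        w = fun x => Γ.la o τ x ^ be k * absXi a e (Γ.vv o τ u x) := ⟨_, rfl⟩
    have sw : ContDiff ℝ 1 w := hw ▸ sU.mul sξ
    have w0 : ∀ x, 0 ≤ w x := fun x => hw ▸ mul_nonneg (U0 x).le (absXi_nonneg a he.le _)
    have wu : ∀ x, w x ≤ u x := by
      intro x
      have h1 : absXi a e (Γ.vv o τ u x) ≤ Γ.vv o τ u x :=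
        (absXi_le a he.le _).trans (max_le (by linarith) (v0 x))
      have h2 : Γ.la o τ x ^ be k * Γ.vv o τ u x = u x := by
        unfold Geo.vv
        field_simp [(U0 x).ne']
      rw [hw, ← h2]
      exact mul_le_mul_of_nonneg_left h1 (U0 x).le
    have vw : Γ.vv o τ w = fun x => absXi a e (Γ.vv o τ u x) := by
      funext x
      rw [Geo.vv, hw]
      field_simp [(U0 x).ne']
    have er : ∀ z, ‖Γ.er o τ w z‖ ≤ ‖Γ.er o τ u z‖ := by
      intro z
      rw [Γ.er_eq o hτ sw, Γ.er_eq o hτ hu, vw,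
        Γ.gt_comp (absXi_deriv a he _) (sv.differentiable one_ne_zero _), norm_smul, norm_smul,
        norm_smul]
      refine mul_le_mul_of_nonneg_left ?_ (norm_nonneg _)
      exact mul_le_of_le_one_left (norm_nonneg _) (absXi_der_le a he _)
    have en := Γ.abs_energy hk hF C hτ hCH
      (fun z h1 h2 => hH o (Or.inl ho) z (Or.inr h1) h2) hu sw
      (fun x => pow_le_pow_left₀ (w0 x) (wu x) 2) er
    rw [← hR] at en
    have sob := hS w sw w0
    have e1 : ∀ x, w x ^ qq k = Γ.la o τ x ^ k * absXi a e (Γ.vv o τ u x) ^ qq k := by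
      intro x
      have : be k * qq k = k := by
        unfold be qq
        field_simp
      rw [hw, Real.mul_rpow (U0 x).le (absXi_nonneg a he.le _), ← Real.rpow_mul (l0 x).le, this,
        Real.rpow_natCast]
    have e2 : ∀ x, w x ^ 2 * Γ.la o τ x ^ 2 = Γ.la o τ x ^ k * absXi a e (Γ.vv o τ u x) ^ 2 := by
      intro x
      have h1 : (Γ.la o τ x ^ be k) ^ 2 * Γ.la o τ x ^ 2 = Γ.la o τ x ^ k := by
        rw [← Real.rpow_natCast _ k, ← Real.rpow_natCast, ← Real.rpow_natCast,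
          ← Real.rpow_mul (l0 x).le, ← Real.rpow_add (l0 x)]
        congr 1
        unfold be
        push_cast
        ring
      rw [hw, ← h1]
      ring
    simp only [e1] at sob
    simp only [e2] at en
    have ho := abs_holder hk W cl (ξ := fun z => absXi a e (Γ.vv o τ u z.1))
      (sξ.continuous.comp continuous_fst) (fun z => pow_pos (l0 _) k)
      (fun z => absXi_nonneg a he.le _) (S := {z | a < Γ.vv o τ u z.1})
      (isOpen_lt continuous_const cv).measurableSet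
      (fun z hz => le_antisymm ((absXi_le a he.le _).trans
        (max_le (by simpa using hz) le_rfl)) (absXi_nonneg a he.le _)) hm
    have X0 : 0 ≤ (∫ z, Γ.la o τ z.1 ^ k * absXi a e (Γ.vv o τ u z.1) ^ qq k ∂W.V) ^ (2 / qq k) :=
      Real.rpow_nonneg (integral_nonneg fun z => mul_nonneg (pow_pos (l0 _) k).le
        (Real.rpow_nonneg (absXi_nonneg a he.le _) _)) _
    have j1 := mul_le_mul_of_nonneg_left ho c0
    have j2 := mul_le_mul_of_nonneg_left hcY X0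
    nlinarith
  have lim : Tendsto (fun j : ℕ => ∫ z, Γ.la o τ z.1 ^ k *
      absXi a (1 / ((j : ℝ) + 1)) (Γ.vv o τ u z.1) ^ qq k ∂W.V) atTop
      (𝓝 (∫ z, Γ.la o τ z.1 ^ k * max (Γ.vv o τ u z.1 - a) 0 ^ qq k ∂W.V)) := by
    have cm : Continuous fun z : E (k + 1) × E (k + 1) =>
        Γ.la o τ z.1 ^ k * max (Γ.vv o τ u z.1 - a) 0 ^ qq k :=
      cl.mul (((cv.sub continuous_const).max continuous_const).rpow_const fun _ => Or.inr q0.le)
    refine tendsto_integral_of_dominated_convergence _ (fun j => ?_) (W.integrable cm)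
      (fun j => Eventually.of_forall fun z => ?_) (Eventually.of_forall fun z => ?_)
    · exact (cl.mul (((absXi_sm a Nat.one_div_pos_of_nat).continuous.comp cv).rpow_const
        fun _ => Or.inr q0.le)).aestronglyMeasurable
    · have p0 : (0 : ℝ) ≤ 1 / ((j : ℝ) + 1) := Nat.one_div_pos_of_nat.le
      rw [Real.norm_eq_abs, abs_of_nonneg (mul_nonneg (pow_pos (l0 _) k).le
        (Real.rpow_nonneg (absXi_nonneg a p0 _) _))]
      exact mul_le_mul_of_nonneg_left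
        (Real.rpow_le_rpow (absXi_nonneg a p0 _) (absXi_le a p0 _) q0.le) (pow_pos (l0 _) k).le
    · have c1 : Continuous fun e : ℝ => Γ.la o τ z.1 ^ k * absXi a e (Γ.vv o τ u z.1) ^ qq k := by
        refine continuous_const.mul (Continuous.rpow_const ?_ fun _ => Or.inr q0.le)
        unfold absXi
        fun_prop
      have c2 := (c1.tendsto 0).comp tendsto_one_div_add_atTop_nhds_zero_nat
      have c3 : absXi a 0 (Γ.vv o τ u z.1) = max (Γ.vv o τ u z.1 - a) 0 := by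
        simp [absXi]
      rw [c3] at c2
      exact c2
  have lim2 := (lim.rpow_const (p := 2 / qq k) (Or.inr (by positivity))).const_mul (Y / 2)
  exact le_of_tendsto' lim2 fun j => key _ Nat.one_div_pos_of_nat

end Geo


end Vale.Agent.P219
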