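import Vale.Agent.P219.AreaB

/-!
The perimeter is at most the Hausdorff measure of the boundary.
-/

open scoped ContDiff Topology ENNReal
open MeasureTheory Set Filter Metric

noncomputable section

namespace Vale.Agent.P219

variable {n k : ℕ} {b : ℝ}

namespace Frame

variable (Φ : Frame (k + 1)) {M : Type*} [MetricSpace M] [MeasurableSpace M] [BorelSpace M]

theorem area_zero {Ω : Set (E (k + 1))} (hΩ : Dom Ω) {ρ : E (k + 1) → ℝ} (hρ : ContDiff ℝ 1 ρ)
    (hs : ∀ p ∈ frontier Ω, p ∉ tsupport ρ) {y : E (k + 1) → E (k + 1)} (hy : ContDiff ℝ 1 y) :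
    ∫ p in Ω, Φ.dv (fun p => ρ p • y p) p = 0 := by
  have h1 : ∀ p ∈ Ω, Ω.indicator ρ =ᶠ[𝓝 p] ρ := fun p hp => by
    filter_upwards [hΩ.isOpen.mem_nhds hp] with q hq using indicator_of_mem hq _
  have h2 : ∀ p ∉ Ω, Ω.indicator ρ =ᶠ[𝓝 p] fun _ => 0 := fun p hp => by
    by_cases hc : p ∈ closure Ω
    · have h3 := notMem_tsupport_iff_eventuallyEq.1
        (hs p (by rw [hΩ.isOpen.frontier_eq]; exact ⟨hc, hp⟩))
      filter_upwards [h3] with q hq
      by_cases hq' : q ∈ Ω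
      · rw [indicator_of_mem hq', hq, Pi.zero_apply]
      · exact indicator_of_notMem hq' _
    · filter_upwards [isClosed_closure.isOpen_compl.mem_nhds hc] with q hq
      exact indicator_of_notMem (fun h => hq (subset_closure h)) _
  have h3 : ContDiff ℝ 1 (Ω.indicator ρ) := by
    refine contDiff_iff_contDiffAt.2 fun p => ?_
    by_cases hp : p ∈ Ω
    · exact hρ.contDiffAt.congr_of_eventuallyEq (h1 p hp)
    · exact contDiffAt_const.congr_of_eventuallyEq (h2 p hp)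
  have h4 : HasCompactSupport fun p => Ω.indicator ρ p • y p :=
    HasCompactSupport.intro hΩ.bdd.isCompact_closure fun p hp => by
      rw [indicator_of_notMem (fun h => hp (subset_closure h)), zero_smul]
  have h5 : ContDiff ℝ 1 fun p => Ω.indicator ρ p • y p := h3.smul hy
  have h6 := setIntegral_eq_integral_of_forall_compl_eq_zero
    (f := Φ.dv fun p => Ω.indicator ρ p • y p) (s := Ω) (μ := volume) fun p hp => by
      rw [Φ.dv_congr (y' := fun _ => 0) (by
        filter_upwards [h2 p hp] with q hq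
        rw [hq, zero_smul])]
      simp [dv, dive, tr]
  rw [← Φ.integral_dv h5 h4, ← h6]
  refine setIntegral_congr_fun hΩ.isOpen.measurableSet fun p hp => Φ.dv_congr ?_
  filter_upwards [h1 p hp] with q hq
  rw [hq]

theorem area_eps (ψ : M ≃ₜ E (k + 1)) (hψ : Φ.Bilip ψ) {Ω : Set (E (k + 1))} (hΩ : Dom Ω)
    {ε : ℝ} (hε : 0 < ε) {y : E (k + 1) → E (k + 1)} (hy : ContDiff ℝ 1 y) (hy1 : ∀ p, ‖y p‖ ≤ 1) :
    ENNReal.ofReal (∫ p in Ω, Φ.dv y p) ≤ ENNReal.ofReal (1 + ε) * μHE[k] (ψ ⁻¹' frontier Ω) := by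
  classical
  have hBM : BM Ω := ⟨hΩ.isOpen.measurableSet, hΩ.bdd⟩
  have hex : ∀ x : frontier Ω, ∃ (V : Set (E (k + 1))) (χ : E (k + 1) → ℝ), IsOpen V ∧ x.1 ∈ V ∧
      ContDiff ℝ 1 χ ∧ (∀ p, 0 ≤ χ p ∧ χ p ≤ 1) ∧ (∀ p ∈ V, χ p = 1) ∧
      ∀ ρ : E (k + 1) → ℝ, ContDiff ℝ 1 ρ → (∀ p, 0 ≤ ρ p) →
        ENNReal.ofReal (∫ p in Ω, Φ.dv (fun p => (ρ p * χ p) • y p) p) ≤ ENNReal.ofReal (1 + ε) *
          ∫⁻ p in ψ ⁻¹' frontier Ω, ENNReal.ofReal (ρ (ψ p) * χ (ψ p)) ∂μHE[k] := by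
    intro x
    obtain ⟨U, hU, hxU, h⟩ := Φ.area_loc ψ hψ hΩ x.2 hε
    obtain ⟨r, hr, hrU⟩ := Metric.isOpen_iff.1 hU _ hxU
    obtain ⟨L, -, hL⟩ := exists_bump (n := k + 1)
    obtain ⟨χ, h1, h2, h3, h4, h5, -⟩ := hL x.1 r hr
    have h6 : ContDiff ℝ 1 χ := h1.of_le (by exact_mod_cast le_top)
    exact ⟨ball x.1 (r / 2), χ, isOpen_ball, mem_ball_self (half_pos hr), h6, h4,
      fun p hp => h5 p (ball_subset_closedBall hp), fun ρ hρ h0 =>
        h (fun p => ρ p * χ p) (hρ.mul h6) h2.mul_left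
          ((tsupport_mul_subset_right.trans h3).trans hrU)
          (fun p => mul_nonneg (h0 p) (h4 p).1) y hy hy1⟩
  choose V χ hV hxV hχ h01 hV1 hle using hex
  have key : ∀ s : Finset (frontier Ω), ∀ ρ : E (k + 1) → ℝ, ContDiff ℝ 1 ρ → (∀ p, 0 ≤ ρ p) →
      (∀ p ∈ frontier Ω, p ∈ tsupport ρ → ∃ x ∈ s, p ∈ V x) →
      ENNReal.ofReal (∫ p in Ω, Φ.dv (fun p => ρ p • y p) p) ≤ ENNReal.ofReal (1 + ε) *
        ∫⁻ p in ψ ⁻¹' frontier Ω, ENNReal.ofReal (ρ (ψ p)) ∂μHE[k] := by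
    intro s
    induction s using Finset.induction_on with
    | empty =>
      intro ρ hρ h0 hs
      rw [Φ.area_zero hΩ hρ (fun p hp h => by simpa using hs p hp h) hy, ENNReal.ofReal_zero]
      exact zero_le
    | insert x s hx ih =>
      intro ρ hρ h0 hs
      have hc1 : ContDiff ℝ 1 fun p => ρ p * χ x p := hρ.mul (hχ x)
      have hc2 : ContDiff ℝ 1 fun p => ρ p * (1 - χ x p) := hρ.mul (contDiff_const.sub (hχ x))
      have hs1 : ContDiff ℝ 1 fun p => (ρ p * χ x p) • y p := hc1.smul hy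
      have hs2 : ContDiff ℝ 1 fun p => (ρ p * (1 - χ x p)) • y p := hc2.smul hy
      have hm : Measurable fun p : M => ENNReal.ofReal (ρ (ψ p) * χ x (ψ p)) :=
        (hc1.continuous.comp ψ.continuous).measurable.ennreal_ofReal
      have h1 := hle x ρ hρ h0
      have h2 := ih _ hc2 (fun p => mul_nonneg (h0 p) (sub_nonneg.2 (h01 x p).2)) fun p hp h => by
        obtain ⟨x', hx', hp'⟩ := hs p hp (tsupport_mul_subset_left h)
        rcases Finset.mem_insert.1 hx' with rfl | hx'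
        · refine absurd h (notMem_tsupport_iff_eventuallyEq.2 ?_)
          filter_upwards [(hV x').mem_nhds hp'] with q hq
          rw [hV1 x' q hq, sub_self, mul_zero, Pi.zero_apply]
        · exact ⟨x', hx', hp'⟩
      have h3 : ∫ p in Ω, Φ.dv (fun p => ρ p • y p) p
          = (∫ p in Ω, Φ.dv (fun p => (ρ p * χ x p) • y p) p)
            + ∫ p in Ω, Φ.dv (fun p => (ρ p * (1 - χ x p)) • y p) p := by
        rw [← integral_add (hBM.integrableOn (Φ.cont_dv hs1)) (hBM.integrableOn (Φ.cont_dv hs2))]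
        refine integral_congr_ae (Eventually.of_forall fun p => ?_)
        refine Eq.trans ?_ (Φ.dv_add (hs1.differentiable one_ne_zero p)
          (hs2.differentiable one_ne_zero p))
        refine Φ.dv_congr (Eventually.of_forall fun q => ?_)
        simp only [← add_smul]
        congr 1
        ring
      rw [h3]
      refine ENNReal.ofReal_add_le.trans ((add_le_add h1 h2).trans (le_of_eq ?_))
      rw [← mul_add, ← lintegral_add_left hm]
      congr 1
      refine lintegral_congr fun p => ?_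
      rw [← ENNReal.ofReal_add (mul_nonneg (h0 _) (h01 x _).1)
        (mul_nonneg (h0 _) (sub_nonneg.2 (h01 x _).2))]
      congr 1
      ring
  have hK : IsCompact (frontier Ω) :=
    hΩ.bdd.isCompact_closure.of_isClosed_subset isClosed_frontier frontier_subset_closure
  obtain ⟨s, hs⟩ := hK.elim_finite_subcover V hV fun p hp => mem_iUnion.2 ⟨⟨p, hp⟩, hxV _⟩
  have h := key s (fun _ => 1) contDiff_const (fun _ => zero_le_one) fun p hp _ => by
    simpa using hs hp
  simpa using h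

theorem per_le_area (ψ : M ≃ₜ E (k + 1)) (hψ : Φ.Bilip ψ) {Ω : Set (E (k + 1))} (hΩ : Dom Ω) :
    Φ.per Ω ≤ μHE[k] (ψ ⁻¹' frontier Ω) := by
  refine iSup_le fun y => iSup_le fun hy => iSup_le fun hy1 => ?_
  by_cases ht : μHE[k] (ψ ⁻¹' frontier Ω) = ⊤
  · rw [ht]
    exact le_top
  have h1 : Tendsto (fun ε : ℝ => ENNReal.ofReal (1 + ε)) (𝓝[>] 0) (𝓝 1) := by
    have h2 : Continuous fun ε : ℝ => ENNReal.ofReal (1 + ε) :=
      ENNReal.continuous_ofReal.comp (by fun_prop)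
    simpa using (h2.tendsto 0).mono_left nhdsWithin_le_nhds
  have h3 := ENNReal.Tendsto.mul_const h1 (Or.inr ht)
  rw [one_mul] at h3
  refine ge_of_tendsto h3 ?_
  filter_upwards [self_mem_nhdsWithin] with ε hε using Φ.area_eps ψ hψ hΩ hε hy hy1

end Frame


end Vale.Agent.P219
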