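import Vale.Agent.P219.Fr2

/-!
The divergence of fields pointing into a domain, and a slicing bound.
-/

open scoped ContDiff Topology ENNReal
open MeasureTheory Set Filter Metric

noncomputable section

namespace Vale.Agent.P219

variable {n k : ℕ} {b : ℝ}

theorem areaA_dive_zero {Z : E n → E n} {x : E n} (hx : x ∉ tsupport Z) : dive Z x = 0 := by
  unfold dive
  rw [fderiv_of_notMem_tsupport ℝ hx]
  simp [tr]

theorem areaA_supp_dive {Z : E n → E n} (hc : HasCompactSupport Z) :
    HasCompactSupport (dive Z) :=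
  HasCompactSupport.intro hc fun _ hx => areaA_dive_zero hx

theorem areaA_step {U : Set (E n)} {φ : E n → ℝ} (hU : IsOpen U) (hφ : ContDiffOn ℝ 1 φ U)
    {Z : E n → E n} (hZ : ContDiff ℝ 1 Z) (hc : HasCompactSupport Z) (hs : tsupport Z ⊆ U)
    (h : ∀ x ∈ U, fderiv ℝ φ x (Z x) ≤ 0) {χ : ℝ → ℝ} (hχ : ContDiff ℝ 1 χ)
    (hd : ∀ t, deriv χ t ≤ 0) :
    Continuous (fun x => χ (φ x) * dive Z x) ∧ ∫ x, χ (φ x) * dive Z x ≤ 0 := by
  have hU' : ∀ x ∈ U, ContDiffAt ℝ 1 (fun p => χ (φ p)) x := fun x hx =>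
    hχ.contDiffAt.comp x (hφ.contDiffAt (hU.mem_nhds hx))
  have hout : ∀ x, x ∉ tsupport Z → ∀ᶠ p in 𝓝 x, p ∉ tsupport Z := fun x hx =>
    (isClosed_tsupport Z).isOpen_compl.mem_nhds hx
  have hW : ContDiff ℝ 1 fun p => χ (φ p) • Z p := by
    rw [contDiff_iff_contDiffAt]
    intro x
    by_cases hx : x ∈ tsupport Z
    · exact (hU' x (hs hx)).smul hZ.contDiffAt
    · refine (contDiffAt_const (c := (0 : E n))).congr_of_eventuallyEq ?_
      filter_upwards [hout x hx] with p hp
      rw [image_eq_zero_of_notMem_tsupport hp, smul_zero]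
  have hWc : HasCompactSupport fun p => χ (φ p) • Z p :=
    HasCompactSupport.intro hc fun p hp => by
      rw [image_eq_zero_of_notMem_tsupport hp, smul_zero]
  have hcont : Continuous fun x => χ (φ x) * dive Z x := by
    rw [continuous_iff_continuousAt]
    intro x
    by_cases hx : x ∈ tsupport Z
    · exact (hU' x (hs hx)).continuousAt.mul (cont_dive hZ).continuousAt
    · refine (continuousAt_const (y := (0 : ℝ))).congr ?_
      filter_upwards [hout x hx] with p hp
      rw [areaA_dive_zero hp, mul_zero]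
  refine ⟨hcont, ?_⟩
  rw [← integral_dive hW hWc]
  refine integral_mono (hcont.integrable_of_hasCompactSupport (areaA_supp_dive hc).mul_left)
    ((cont_dive hW).integrable_of_hasCompactSupport (areaA_supp_dive hWc)) fun x => ?_
  by_cases hx : x ∈ tsupport Z
  · have hxU := hs hx
    have dφ : DifferentiableAt ℝ φ x :=
      (hφ.contDiffAt (hU.mem_nhds hxU)).differentiableAt (by simp)
    have dχ : HasDerivAt χ (deriv χ (φ x)) (φ x) :=
      (hχ.differentiable (by simp) _).hasDerivAt
    have e1 := (dχ.comp_hasFDerivAt x dφ.hasFDerivAt).fderiv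
    have e2 : fderiv ℝ (fun p => χ (φ p)) x = deriv χ (φ x) • fderiv ℝ φ x := e1
    change χ (φ x) * dive Z x ≤ dive (fun p => χ (φ p) • Z p) x
    rw [dive_smul ((hU' x hxU).differentiableAt (by simp)) (hZ.differentiable (by simp) x), e2]
    have := mul_nonneg_of_nonpos_of_nonpos (hd (φ x)) (h x hxU)
    simpa using this
  · have hx' : x ∉ tsupport fun p => χ (φ p) • Z p := fun hh =>
      hx (tsupport_smul_subset_right _ _ hh)
    change χ (φ x) * dive Z x ≤ dive (fun p => χ (φ p) • Z p) x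
    rw [areaA_dive_zero hx, areaA_dive_zero hx', mul_zero]

theorem div_nonpos {Ω U : Set (E n)} {φ : E n → ℝ} (hU : IsOpen U) (hφ : ContDiffOn ℝ 1 φ U)
    (hΩ : MeasurableSet Ω) (he : Ω ∩ U = {y ∈ U | φ y < 0}) {Z : E n → E n} (hZ : ContDiff ℝ 1 Z)
    (hc : HasCompactSupport Z) (hs : tsupport Z ⊆ U) (h : ∀ x ∈ U, fderiv ℝ φ x (Z x) ≤ 0) :
    ∫ x in Ω, dive Z x ≤ 0 := by
  obtain ⟨c, L, hc1, -, hc0, hc2, hc3, hc4, -⟩ := exists_cut (a := 0) (c := 1) one_pos
  have hc1' : ContDiff ℝ 1 c := hc1.of_le (by exact_mod_cast le_top)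
  have step : ∀ j : ℕ, Continuous (fun x => c (-(j : ℝ) * φ x) * dive Z x) ∧
      ∫ x, c (-(j : ℝ) * φ x) * dive Z x ≤ 0 := fun j => by
    refine areaA_step hU hφ hZ hc hs h (χ := fun t => c (-(j : ℝ) * t))
      (hc1'.comp (contDiff_const.mul contDiff_id)) fun t => ?_
    have d1 : HasDerivAt c (deriv c (-(j : ℝ) * t)) (-(j : ℝ) * t) :=
      (hc1'.differentiable (by simp) _).hasDerivAt
    have d2 : HasDerivAt (fun t : ℝ => -(j : ℝ) * t) (-(j : ℝ)) t := by
      simpa using (hasDerivAt_id t).const_mul (-(j : ℝ))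
    have d3 : deriv (fun t => c (-(j : ℝ) * t)) t = deriv c (-(j : ℝ) * t) * -(j : ℝ) :=
      (d1.comp t d2).deriv
    rw [d3]
    have := (hc4 (-(j : ℝ) * t)).1
    have hj : (0 : ℝ) ≤ j := Nat.cast_nonneg j
    nlinarith
  have hint : Integrable (dive Z) :=
    (cont_dive hZ).integrable_of_hasCompactSupport (areaA_supp_dive hc)
  have lim : Tendsto (fun j : ℕ => ∫ x, c (-(j : ℝ) * φ x) * dive Z x) atTop
      (𝓝 (∫ x, Ω.indicator (dive Z) x)) := by
    refine tendsto_integral_of_dominated_convergence (fun x => ‖dive Z x‖)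
      (fun j => (step j).1.aestronglyMeasurable) hint.norm (fun j => Eventually.of_forall fun x => ?_)
      (Eventually.of_forall fun x => ?_)
    · rw [norm_mul]
      have h1 := hc3 (-(j : ℝ) * φ x)
      have h2 : ‖c (-(j : ℝ) * φ x)‖ ≤ 1 := by
        rw [Real.norm_eq_abs, abs_of_nonneg h1.1]
        exact h1.2
      exact mul_le_of_le_one_left (norm_nonneg _) h2
    · by_cases hx : x ∈ U
      · by_cases hφx : φ x < 0
        · have hxΩ : x ∈ Ω := by
            have : x ∈ Ω ∩ U := by rw [he]; exact ⟨hx, hφx⟩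
            exact this.1
          rw [indicator_of_mem hxΩ]
          refine tendsto_const_nhds.congr' ?_
          obtain ⟨N, hN⟩ := exists_nat_ge (1 / (-φ x))
          filter_upwards [eventually_ge_atTop N] with j hj
          have hj' : (N : ℝ) ≤ j := by exact_mod_cast hj
          rw [div_le_iff₀ (by linarith)] at hN
          rw [hc2 _ (by nlinarith), one_mul]
        · have hxΩ : x ∉ Ω := fun hh => by
            have : x ∈ Ω ∩ U := ⟨hh, hx⟩
            rw [he] at this
            exact hφx this.2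
          rw [indicator_of_notMem hxΩ]
          refine tendsto_const_nhds.congr fun j => ?_
          have hj : (0 : ℝ) ≤ j := Nat.cast_nonneg j
          rw [hc0 _ (by nlinarith [not_lt.mp hφx]), zero_mul]
      · have h0 : dive Z x = 0 := areaA_dive_zero fun hh => hx (hs hh)
        have h1 : Ω.indicator (dive Z) x = 0 := by
          by_cases hh : x ∈ Ω
          · rw [indicator_of_mem hh, h0]
          · rw [indicator_of_notMem hh]
        rw [h1, h0]
        simp
  rw [← integral_indicator hΩ]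
  exact le_of_tendsto' lim fun j => (step j).2

/-- The integral along one line. -/
theorem areaA_line {Ω U : Set (E n)} {φ : E n → ℝ} {e : E n} (he1 : ‖e‖ = 1)
    (hU : IsOpen U) (hUc : Convex ℝ U) (hφ : ContDiffOn ℝ 1 φ U) (hΩ : IsOpen Ω)
    (he : Ω ∩ U = {y ∈ U | φ y < 0}) (hd : ∀ x ∈ U, 0 < fderiv ℝ φ x e) {ζ : E n → ℝ}
    (hζ : ContDiff ℝ 1 ζ) (hc : HasCompactSupport ζ) (hs : tsupport ζ ⊆ U) (z : E n) :
    ∫ t : ℝ, Ω.indicator (fun x => fderiv ℝ ζ x e) (t • e + z) = 0 ∨ ∃ t₀ : ℝ,
      t₀ • e + z ∈ frontier Ω ∧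
      ∫ t : ℝ, Ω.indicator (fun x => fderiv ℝ ζ x e) (t • e + z) = ζ (t₀ • e + z) := by
  set γ : ℝ → E n := fun t => t • e + z with hγ
  have hγd : ∀ t, HasDerivAt γ e t := fun t => by
    have h1 := ((hasDerivAt_id t).smul_const e).add_const z
    rw [one_smul] at h1
    exact h1
  have hγc : ContDiff ℝ 1 γ := (contDiff_id.smul contDiff_const).add contDiff_const
  have hiso : Isometry γ := by
    refine Isometry.of_dist_eq fun s t => ?_
    simp only [hγ, dist_add_right]
    rw [dist_eq_norm, dist_eq_norm, ← sub_smul, norm_smul, he1, mul_one]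
  set η : ℝ → ℝ := fun t => ζ (γ t) with hη
  have hηc : ContDiff ℝ 1 η := hζ.comp hγc
  have hηs : HasCompactSupport η := hc.comp_isClosedEmbedding hiso.isClosedEmbedding
  have hηd : ∀ t, HasDerivAt η (fderiv ℝ ζ (γ t) e) t := fun t =>
    (hζ.differentiable (by simp) _).hasFDerivAt.comp_hasDerivAt t (hγd t)
  have hder : ∀ t, deriv η t = fderiv ℝ ζ (γ t) e := fun t => (hηd t).deriv
  have hout : ∀ t, γ t ∉ U → fderiv ℝ ζ (γ t) e = 0 := fun t ht => by
    rw [fderiv_of_notMem_tsupport ℝ fun hh => ht (hs hh)]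
    rfl
  set J : Set ℝ := γ ⁻¹' U with hJ
  have hJo : IsOpen J := hU.preimage hγc.continuous
  have hJc : Convex ℝ J := by
    intro s hs t ht a b ha hb hab
    have h1 := hUc hs ht ha hb hab
    have h2 : γ (a • s + b • t) = a • γ s + b • γ t := by
      simp only [hγ, smul_add, smul_smul, add_smul, smul_eq_mul]
      calc (a * s) • e + (b * t) • e + z = (a * s) • e + (b * t) • e + (a + b) • z := by
            rw [hab, one_smul]
        _ = _ := by rw [add_smul]; abel
    change γ (a • s + b • t) ∈ U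
    rwa [h2]
  have hψd : ∀ t ∈ J, HasDerivAt (fun t => φ (γ t)) (fderiv ℝ φ (γ t) e) t := fun t ht =>
    ((hφ.contDiffAt (hU.mem_nhds ht)).differentiableAt (by simp)).hasFDerivAt.comp_hasDerivAt t
      (hγd t)
  have hψc : ContinuousOn (fun t => φ (γ t)) J := fun t ht =>
    (hψd t ht).continuousAt.continuousWithinAt
  have hmono : StrictMonoOn (fun t => φ (γ t)) J :=
    strictMonoOn_of_deriv_pos hJc hψc fun t ht => by
      have ht' := interior_subset ht
      rw [(hψd t ht').deriv]
      exact hd _ ht'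
  have hmem : ∀ t ∈ J, γ t ∈ Ω ↔ φ (γ t) < 0 := fun t ht => by
    constructor
    · intro hh
      have : γ t ∈ Ω ∩ U := ⟨hh, ht⟩
      rw [he] at this
      exact this.2
    · intro hh
      have : γ t ∈ Ω ∩ U := by rw [he]; exact ⟨ht, hh⟩
      exact this.1
  change ∫ t : ℝ, Ω.indicator (fun x => fderiv ℝ ζ x e) (γ t) = 0 ∨ ∃ t₀ : ℝ,
      γ t₀ ∈ frontier Ω ∧ ∫ t : ℝ, Ω.indicator (fun x => fderiv ℝ ζ x e) (γ t) = ζ (γ t₀)
  by_cases h0 : ∃ t₀ ∈ J, φ (γ t₀) = 0
  · obtain ⟨t₀, ht₀, hz⟩ := h0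
    have hlt : ∀ t ∈ J, γ t ∈ Ω ↔ t < t₀ := fun t ht => by
      rw [hmem t ht, ← hz]
      exact hmono.lt_iff_lt ht ht₀
    refine Or.inr ⟨t₀, ?_, ?_⟩
    · rw [hΩ.frontier_eq]
      refine ⟨?_, fun hh => lt_irrefl _ ((hlt t₀ ht₀).1 hh)⟩
      have h1 : Tendsto γ (𝓝[<] t₀) (𝓝 (γ t₀)) :=
        (hγc.continuous.tendsto t₀).mono_left nhdsWithin_le_nhds
      refine mem_closure_of_tendsto h1 ?_
      filter_upwards [self_mem_nhdsWithin, mem_nhdsWithin_of_mem_nhds (hJo.mem_nhds ht₀)]
        with t h2 h3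
      exact (hlt t h3).2 h2
    · have h1 : ∀ t, Ω.indicator (fun x => fderiv ℝ ζ x e) (γ t) =
          (Iio t₀).indicator (deriv η) t := fun t => by
        by_cases ht : t ∈ J
        · by_cases h2 : t < t₀
          · rw [indicator_of_mem ((hlt t ht).2 h2), indicator_of_mem (show t ∈ Iio t₀ from h2),
              hder]
          · rw [indicator_of_notMem fun hh => h2 ((hlt t ht).1 hh),
              indicator_of_notMem (show t ∉ Iio t₀ from h2)]
        · have h3 := hout t ht
          simp only [indicator, hder, h3, ite_self]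
      simp_rw [h1]
      rw [integral_indicator measurableSet_Iio, ← integral_Iic_eq_integral_Iio]
      exact HasCompactSupport.integral_Iic_deriv_eq hηc hηs t₀
  · left
    by_cases h1 : ∃ t₁ ∈ J, φ (γ t₁) < 0
    · obtain ⟨t₁, ht₁, hneg⟩ := h1
      have h2 : ∀ t ∈ J, φ (γ t) < 0 := fun t ht => by
        by_contra hcon
        obtain ⟨t₀, h3, h4⟩ := hJc.isPreconnected.intermediate_value ht₁ ht hψc
          (show (0 : ℝ) ∈ Icc (φ (γ t₁)) (φ (γ t)) from ⟨hneg.le, not_lt.mp hcon⟩)
        exact h0 ⟨t₀, h3, h4⟩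
      have h3 : ∀ t, Ω.indicator (fun x => fderiv ℝ ζ x e) (γ t) = deriv η t := fun t => by
        by_cases ht : t ∈ J
        · rw [indicator_of_mem ((hmem t ht).2 (h2 t ht)), hder]
        · have h3 := hout t ht
          simp only [indicator, hder, h3, ite_self]
      simp_rw [h3]
      exact integral_eq_zero_of_hasDerivAt_of_integrable (f := η)
        (fun t => (hηc.differentiable (by simp) t).hasDerivAt)
        ((hηc.continuous_deriv le_rfl).integrable_of_hasCompactSupport hηs.deriv)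
        (hηc.continuous.integrable_of_hasCompactSupport hηs)
    · have h3 : ∀ t, Ω.indicator (fun x => fderiv ℝ ζ x e) (γ t) = 0 := fun t => by
        by_cases ht : t ∈ J
        · exact indicator_of_notMem (fun hh => h1 ⟨t, ht, (hmem t ht).1 hh⟩) _
        · have h3 := hout t ht
          simp only [indicator, h3, ite_self]
      simp [h3]

theorem areaA_mp {e : E n} (he1 : ‖e‖ = 1) :
    MeasurePreserving (fun q : ℝ × (ℝ ∙ e)ᗮ => q.1 • e + (q.2 : E n)) (volume.prod volume)
      volume := by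
  have h1 := ((ℝ ∙ e).measurePreserving_measurableEquivProd (0 : E n)).symm
  rw [InnerProductSpace.euclideanHausdorffMeasure_eq_volume] at h1
  have h2 := (LinearIsometryEquiv.toSpanUnitSingleton (𝕜 := ℝ) e he1).measurePreserving.prod
    (MeasurePreserving.id (volume : Measure (ℝ ∙ e)ᗮ))
  have h3 := h1.comp h2
  have h4 : (fun q : ℝ × (ℝ ∙ e)ᗮ => q.1 • e + (q.2 : E n)) =
      ((ℝ ∙ e).measurableEquivProd (0 : E n)).symm ∘
        Prod.map (LinearIsometryEquiv.toSpanUnitSingleton (𝕜 := ℝ) e he1) id := by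
    funext q
    simp
  rw [h4]
  exact h3

theorem slice_le {Ω U : Set (E (k + 1))} {φ : E (k + 1) → ℝ} {e : E (k + 1)} (he1 : ‖e‖ = 1)
    (hU : IsOpen U) (hUc : Convex ℝ U) (hφ : ContDiffOn ℝ 1 φ U) (hΩ : IsOpen Ω)
    (he : Ω ∩ U = {y ∈ U | φ y < 0}) (hd : ∀ x ∈ U, 0 < fderiv ℝ φ x e) {ζ : E (k + 1) → ℝ}
    (hζ : ContDiff ℝ 1 ζ) (hc : HasCompactSupport ζ) (hs : tsupport ζ ⊆ U) (h0 : ∀ x, 0 ≤ ζ x) :
    ENNReal.ofReal (∫ x in Ω, fderiv ℝ ζ x e) ≤
      ∫⁻ t in Ioi (0 : ℝ), μHE[k] (frontier Ω ∩ {x | t ≤ ζ x}) := by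
  set G : E (k + 1) → ℝ := Ω.indicator fun x => fderiv ℝ ζ x e with hG
  have hGi : Integrable G := by
    refine Integrable.indicator ?_ hΩ.measurableSet
    refine Continuous.integrable_of_hasCompactSupport
      ((hζ.continuous_fderiv (by simp)).clm_apply continuous_const) ?_
    exact HasCompactSupport.intro hc fun x hx => by
      rw [fderiv_of_notMem_tsupport ℝ hx]
      rfl
  have hmp := areaA_mp he1
  have hGT : Integrable (fun q : ℝ × (ℝ ∙ e)ᗮ => G (q.1 • e + (q.2 : E (k + 1))))
      (volume.prod volume) := hmp.integrable_comp_of_integrable hGi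
  set I : (ℝ ∙ e)ᗮ → ℝ := fun z => ∫ t : ℝ, G (t • e + (z : E (k + 1))) with hI
  have hIi : Integrable I := hGT.integral_prod_right
  have e1 : ∫ x in Ω, fderiv ℝ ζ x e = ∫ z, I z := by
    rw [← integral_indicator hΩ.measurableSet, ← hG, ← hmp.map_eq,
      integral_map hmp.measurable.aemeasurable (by rw [hmp.map_eq]; exact hGi.1),
      integral_prod_symm _ hGT]
  have hrank : Module.finrank ℝ (ℝ ∙ e)ᗮ = k := by
    have h1 := (ℝ ∙ e).finrank_add_finrank_orthogonal
    rw [finrank_span_singleton (by rintro rfl; simp at he1), finrank_euclideanSpace_fin] at h1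
    omega
  have hlip : LipschitzWith 1 ((ℝ ∙ e)ᗮ.orthogonalProjectionOnto) :=
    ContinuousLinearMap.lipschitzWith_of_opNorm_le (Submodule.orthogonalProjectionOnto_norm_le _)
  rw [e1]
  calc ENNReal.ofReal (∫ z, I z) ≤ ENNReal.ofReal (∫ z, max (I z) 0) :=
        ENNReal.ofReal_le_ofReal (integral_mono hIi hIi.pos_part fun z => le_max_left _ _)
    _ = ∫⁻ z, ENNReal.ofReal (max (I z) 0) :=
        ofReal_integral_eq_lintegral_ofReal hIi.pos_part
          (Eventually.of_forall fun z => le_max_right _ _)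
    _ = ∫⁻ t in Ioi (0 : ℝ), volume {z | t ≤ max (I z) 0} :=
        lintegral_eq_lintegral_meas_le _ (Eventually.of_forall fun z => le_max_right _ _)
          hIi.pos_part.aemeasurable
    _ ≤ _ := by
        refine setLIntegral_mono' measurableSet_Ioi fun t ht => ?_
        have ht' : 0 < t := ht
        have hsub : {z | t ≤ max (I z) 0} ⊆
            (ℝ ∙ e)ᗮ.orthogonalProjectionOnto '' (frontier Ω ∩ {x | t ≤ ζ x}) := by
          intro z hz
          have hz' : t ≤ I z := by
            rcases le_max_iff.1 (show t ≤ max (I z) 0 from hz) with h | h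
            · exact h
            · linarith
          rcases areaA_line he1 hU hUc hφ hΩ he hd hζ hc hs (z : E (k + 1)) with h | ⟨t₀, h1, h2⟩
          · have : I z = 0 := h
            linarith
          · have h3 : I z = ζ (t₀ • e + z) := h2
            refine ⟨t₀ • e + z, ⟨h1, by rw [h3] at hz'; exact hz'⟩, ?_⟩
            rw [map_add, map_smul, Submodule.orthogonalProjectionOnto_mem_subspace_eq_self,
              Submodule.orthogonalProjectionOnto_orthogonalComplement_singleton_eq_zero]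
            simp
        refine (measure_mono hsub).trans ?_
        rw [← InnerProductSpace.euclideanHausdorffMeasure_eq_volume, hrank,
          Measure.euclideanHausdorffMeasure_def, Measure.euclideanHausdorffMeasure_def,
          Measure.smul_apply, Measure.smul_apply]
        have := hlip.hausdorffMeasure_image_le (d := (k : ℝ)) (Nat.cast_nonneg k)
          (frontier Ω ∩ {x | t ≤ ζ x})
        simp only [ENNReal.coe_one, ENNReal.one_rpow, one_mul] at this
        simp only [ENNReal.smul_def, smul_eq_mul]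
        gcongr


end Vale.Agent.P219
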