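import Vale.Agent.P219.AreaA

/-!
The local comparison of perimeter and Hausdorff measure.
-/

open scoped ContDiff Topology ENNReal NNReal
open MeasureTheory Set Filter Metric

noncomputable section

namespace Vale.Agent.P219

variable {n k : ℕ} {b : ℝ}

theorem areab_lip {X Y : Type*} [MetricSpace X] [MeasurableSpace X] [BorelSpace X]
    [MetricSpace Y] [MeasurableSpace Y] [BorelSpace Y] {f : X → Y} {s : Set X} {K : ℝ}
    (hK : 0 ≤ K) (h : ∀ p ∈ s, ∀ q ∈ s, dist (f p) (f q) ≤ K * dist p q) (d : ℕ) :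
    μHE[d] (f '' s) ≤ ENNReal.ofReal (K ^ d) * μHE[d] s := by
  lift K to ℝ≥0 using hK
  have h1 : LipschitzOnWith K f s := LipschitzOnWith.of_dist_le_mul h
  have h2 := h1.hausdorffMeasure_image_le (d := d) (Nat.cast_nonneg d)
  rw [ENNReal.rpow_natCast, ← ENNReal.ofReal_coe_nnreal, ← ENNReal.ofReal_pow (NNReal.coe_nonneg _)]
    at h2
  simp only [Measure.euclideanHausdorffMeasure_def, Measure.smul_apply, ENNReal.smul_def,
    smul_eq_mul]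
  rw [mul_left_comm]
  exact mul_le_mul_right h2 _

namespace Frame

variable (Φ : Frame (k + 1)) {M : Type*} [MetricSpace M] [MeasurableSpace M] [BorelSpace M]

theorem areab_div {Ω U : Set (E (k + 1))} {φ : E (k + 1) → ℝ} (hU : IsOpen U)
    (hφ : ContDiffOn ℝ 1 φ U) (hΩ : BM Ω) (he : Ω ∩ U = {y ∈ U | φ y < 0}) {c : ℝ}
    {v : E (k + 1)} (hv : ∀ p ∈ U, Φ.m p * ‖Φ.gr φ p‖ ≤ c * fderiv ℝ φ p v)
    {ζ : E (k + 1) → ℝ} (hζ : ContDiff ℝ 1 ζ) (hc : HasCompactSupport ζ) (hs : tsupport ζ ⊆ U)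
    (h0 : ∀ p, 0 ≤ ζ p) {y : E (k + 1) → E (k + 1)} (hy : ContDiff ℝ 1 y) (hy1 : ∀ p, ‖y p‖ ≤ 1) :
    ∫ p in Ω, Φ.dv (fun p => ζ p • y p) p ≤ c * ∫ p in Ω, fderiv ℝ ζ p v := by
  have h1 : (1 : WithTop ℕ∞) ≤ (⊤ : ℕ∞) := by exact_mod_cast le_top
  have hζy : ContDiff ℝ 1 fun p => ζ p • y p := hζ.smul hy
  have hA : ContDiff ℝ 1 fun p => Φ.m p • Φ.F p (ζ p • y p) :=
    (Φ.m_smooth.of_le h1).smul ((Φ.sF.of_le h1).clm_apply hζy)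
  have hB0 : ContDiff ℝ 1 fun p => -c * ζ p := contDiff_const.mul hζ
  have hB : ContDiff ℝ 1 fun p => (-c * ζ p) • v := hB0.smul contDiff_const
  have hz : ∀ p, p ∉ tsupport ζ → Φ.m p • Φ.F p (ζ p • y p) + (-c * ζ p) • v = 0 := fun p hp => by
    simp [image_eq_zero_of_notMem_tsupport hp]
  have hsub : (tsupport fun p => Φ.m p • Φ.F p (ζ p • y p) + (-c * ζ p) • v) ⊆ tsupport ζ :=
    closure_minimal (fun p hp => by_contra fun h => hp (hz p h)) (isClosed_tsupport _)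
  have h2 := div_nonpos hU hφ hΩ.meas he
    (Z := fun p => Φ.m p • Φ.F p (ζ p • y p) + (-c * ζ p) • v) (hA.add hB)
    (hc.of_isClosed_subset (isClosed_tsupport _) hsub) (hsub.trans hs) fun p hp => by
      have h3 : fderiv ℝ φ p (Φ.F p (y p)) ≤ ‖Φ.gr φ p‖ := by
        rw [← Φ.inner_gr]
        exact (real_inner_le_norm _ _).trans (mul_le_of_le_one_right (norm_nonneg _) (hy1 p))
      have h4 := mul_le_mul_of_nonneg_left h3 (Φ.m_pos p).le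
      have h5 := mul_le_mul_of_nonneg_left (h4.trans (hv p hp)) (h0 p)
      simp only [map_add, map_smul, smul_eq_mul]
      linarith
  have hcv : Continuous fun p => c * fderiv ℝ ζ p v :=
    continuous_const.mul ((hζ.continuous_fderiv one_ne_zero).clm_apply continuous_const)
  have h6 : ∀ p, dive (fun p => Φ.m p • Φ.F p (ζ p • y p) + (-c * ζ p) • v) p
      = Φ.dv (fun p => ζ p • y p) p - c * fderiv ℝ ζ p v := fun p => by
    rw [dive_add (hA.differentiable one_ne_zero p) (hB.differentiable one_ne_zero p),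
      dive_smul_const (hB0.differentiable one_ne_zero p),
      fderiv_const_mul (hζ.differentiable one_ne_zero p)]
    simp only [dv, smul_apply, smul_eq_mul]
    ring
  simp only [h6] at h2
  rw [integral_sub (hΩ.integrableOn (Φ.cont_dv hζy)) (hΩ.integrableOn hcv),
    integral_const_mul] at h2
  linarith

theorem areab_near {U₀ : Set (E (k + 1))} {φ : E (k + 1) → ℝ} {x : E (k + 1)} (hU : IsOpen U₀)
    (hx : x ∈ U₀) (hφ : ContDiffOn ℝ 1 φ U₀) (hd : fderiv ℝ φ x ≠ 0) {δ : ℝ} (hδ : 0 < δ) :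
    ∃ e : E (k + 1), ‖e‖ = 1 ∧ ∀ᶠ p in 𝓝 x, 0 < fderiv ℝ φ p (Φ.F x e) ∧
      Φ.m p * ‖Φ.gr φ p‖ ≤ (1 + δ) * Φ.m x * fderiv ℝ φ p (Φ.F x e) := by
  have hg : Φ.gr φ x ≠ 0 := fun h => hd (by
    ext v
    rw [← Φ.right x v, ← Φ.inner_gr, h, inner_zero_left, zero_apply])
  have hn : 0 < ‖Φ.gr φ x‖ := norm_pos_iff.2 hg
  have hc : ContinuousAt (fderiv ℝ φ) x :=
    (hφ.continuousOn_fderiv_of_isOpen hU le_rfl).continuousAt (hU.mem_nhds hx)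
  have hgc : ContinuousAt (Φ.gr φ) x := by
    rw [funext (Φ.fr1_gr_eq φ)]
    exact tendsto_finsetSum _ fun i _ =>
      ((hc.clm_apply (Φ.sF.continuous.continuousAt.clm_apply continuousAt_const)).smul
        continuousAt_const)
  refine ⟨‖Φ.gr φ x‖⁻¹ • Φ.gr φ x, norm_smul_inv_norm hg, ?_⟩
  have he : fderiv ℝ φ x (Φ.F x (‖Φ.gr φ x‖⁻¹ • Φ.gr φ x)) = ‖Φ.gr φ x‖ := by
    rw [← Φ.inner_gr, inner_smul_right, real_inner_self_eq_norm_sq]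
    field_simp
  have h1 : ContinuousAt (fun p => fderiv ℝ φ p (Φ.F x (‖Φ.gr φ x‖⁻¹ • Φ.gr φ x))) x :=
    hc.clm_apply continuousAt_const
  refine (continuousAt_const.eventually_lt h1 (by rwa [he])).and ?_
  refine ((Φ.m_smooth.continuous.continuousAt.mul hgc.norm).eventually_lt
    ((continuousAt_const (y := (1 + δ) * Φ.m x)).mul h1) ?_).mono fun p hp => hp.le
  have := mul_pos (Φ.m_pos x) hn
  show Φ.m x * ‖Φ.gr φ x‖ < (1 + δ) * Φ.m x * fderiv ℝ φ x _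
  rw [he]
  nlinarith

theorem areab_der (x e : E (k + 1)) {f : E (k + 1) → ℝ} {w : E (k + 1)}
    (hf : DifferentiableAt ℝ f (Φ.F x w)) :
    fderiv ℝ (fun w => f (Φ.F x w)) w e = fderiv ℝ f (Φ.F x w) (Φ.F x e) := by
  have h : HasFDerivAt (fun w => f (Φ.F x w)) _ w := hf.hasFDerivAt.comp w (Φ.F x).hasFDerivAt
  rw [h.fderiv]
  rfl

theorem areab_chg (x e : E (k + 1)) {Ω : Set (E (k + 1))} (hΩ : IsOpen Ω) {ζ : E (k + 1) → ℝ}
    (hζ : ContDiff ℝ 1 ζ) : ∫ p in Ω, fderiv ℝ ζ p (Φ.F x e)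
      = |(Φ.F x).det| * ∫ w in Φ.F x ⁻¹' Ω, fderiv ℝ (fun w => ζ (Φ.F x w)) w e := by
  have h := integral_image_eq_integral_abs_det_fderiv_smul volume
    (hΩ.preimage (Φ.F x).continuous).measurableSet
    (fun w _ => (Φ.F x).hasFDerivAt.hasFDerivWithinAt)
    (Function.LeftInverse.injective (Φ.left x)).injOn fun p => fderiv ℝ ζ p (Φ.F x e)
  rw [image_preimage_eq _ (Function.RightInverse.surjective (Φ.right x))] at h
  rw [h, ← integral_const_mul]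
  refine integral_congr_ae (Eventually.of_forall fun w => ?_)
  simp only [Φ.areab_der x e (hζ.differentiable one_ne_zero _), smul_eq_mul]

theorem areab_homeo (x : E (k + 1)) : ∃ L : E (k + 1) ≃ₜ E (k + 1), (L : _ → _) = Φ.F x :=
  ⟨(ContinuousLinearEquiv.equivOfInverse (Φ.F x) (Φ.Fi x) (Φ.left x) (Φ.right x)).toHomeomorph, rfl⟩

theorem areab_layer (ψ : M ≃ₜ E (k + 1)) (x : E (k + 1)) (Ω : Set (E (k + 1))) {K : ℝ}
    (hK : 0 ≤ K) {ζ : E (k + 1) → ℝ} (hζ : Continuous ζ) (h0 : ∀ p, 0 ≤ ζ p)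
    (hlip : ∀ p q : M, 0 < ζ (ψ p) → 0 < ζ (ψ q) → ‖Φ.Fi x (ψ p - ψ q)‖ ≤ K * dist p q) :
    ∫⁻ t in Ioi (0 : ℝ), μHE[k] (frontier (Φ.F x ⁻¹' Ω) ∩ {w | t ≤ ζ (Φ.F x w)})
      ≤ ENNReal.ofReal (K ^ k) * ∫⁻ p in ψ ⁻¹' frontier Ω, ENNReal.ofReal (ζ (ψ p)) ∂μHE[k] := by
  have hm : Measurable fun q : M => ζ (ψ q) := (hζ.comp ψ.continuous).measurable
  obtain ⟨L, hL⟩ := Φ.areab_homeo x
  have hfr : frontier (Φ.F x ⁻¹' Ω) = Φ.F x ⁻¹' frontier Ω := by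
    rw [← hL, L.preimage_frontier]
  rw [lintegral_eq_lintegral_meas_le _ (Eventually.of_forall fun q => h0 _) hm.aemeasurable,
    ← lintegral_const_mul' _ _ ENNReal.ofReal_ne_top, hfr]
  refine setLIntegral_mono' measurableSet_Ioi fun t ht => ?_
  rw [Measure.restrict_apply (measurableSet_le measurable_const hm)]
  refine le_trans (measure_mono fun w hw => ?_)
    (areab_lip (f := fun q => Φ.Fi x (ψ q)) hK (fun p hp q hq => ?_) k)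
  · refine ⟨ψ.symm (Φ.F x w), ⟨?_, ?_⟩, ?_⟩
    · simpa using hw.2
    · simpa using hw.1
    · simp only [Homeomorph.apply_symm_apply, Φ.left]
  · rw [dist_eq_norm, ← map_sub]
    exact hlip p q (lt_of_lt_of_le ht hp.1) (lt_of_lt_of_le ht hq.1)

theorem areab_slice {Ω U₀ : Set (E (k + 1))} {φ : E (k + 1) → ℝ} {x e c : E (k + 1)} {r : ℝ}
    (he : ‖e‖ = 1) (hU₀ : IsOpen U₀) (hφ : ContDiffOn ℝ 1 φ U₀) (hΩ : IsOpen Ω)
    (hmem : ∀ p ∈ U₀, p ∈ Ω ↔ φ p < 0)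
    (hball : ∀ w ∈ ball c r, Φ.F x w ∈ U₀ ∧ 0 < fderiv ℝ φ (Φ.F x w) (Φ.F x e))
    {ζ : E (k + 1) → ℝ} (hζ : ContDiff ℝ 1 ζ) (hc : HasCompactSupport ζ)
    (hs : tsupport ζ ⊆ Φ.Fi x ⁻¹' ball c r) (h0 : ∀ p, 0 ≤ ζ p) :
    ENNReal.ofReal (∫ w in Φ.F x ⁻¹' Ω, fderiv ℝ (fun w => ζ (Φ.F x w)) w e) ≤
      ∫⁻ t in Ioi (0 : ℝ), μHE[k] (frontier (Φ.F x ⁻¹' Ω) ∩ {w | t ≤ ζ (Φ.F x w)}) := by
  obtain ⟨L, hL⟩ := Φ.areab_homeo x
  have h1 : HasCompactSupport fun w => ζ (Φ.F x w) := by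
    rw [← hL]
    exact hc.comp_homeomorph L
  have h2 : ContDiffOn ℝ 1 (fun w => φ (Φ.F x w)) (ball c r) :=
    hφ.comp (Φ.F x).contDiff.contDiffOn fun w hw => (hball w hw).1
  have h3 : ContDiff ℝ 1 fun w => ζ (Φ.F x w) := hζ.comp (Φ.F x).contDiff
  refine slice_le he isOpen_ball (convex_ball c r) h2 (hΩ.preimage (Φ.F x).continuous)
    (Set.ext fun w => ⟨fun h => ⟨h.2, (hmem _ (hball w h.2).1).1 h.1⟩,
      fun h => ⟨(hmem _ (hball w h.1).1).2 h.2, h.1⟩⟩) (fun w hw => ?_) h3 h1 (fun w hw => ?_)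
    fun w => h0 _
  · rw [Φ.areab_der x e
      ((hφ.contDiffAt (hU₀.mem_nhds (hball w hw).1)).differentiableAt one_ne_zero)]
    exact (hball w hw).2
  · have h4 := hs (tsupport_comp_subset_preimage ζ (Φ.F x).continuous hw)
    rwa [mem_preimage, Φ.left] at h4

theorem area_loc (ψ : M ≃ₜ E (k + 1)) (hψ : Φ.Bilip ψ) {Ω : Set (E (k + 1))} (hΩ : Dom Ω)
    {x : E (k + 1)} (hx : x ∈ frontier Ω) {ε : ℝ} (hε : 0 < ε) : ∃ U, IsOpen U ∧ x ∈ U ∧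
      ∀ ζ : E (k + 1) → ℝ, ContDiff ℝ 1 ζ → HasCompactSupport ζ → tsupport ζ ⊆ U →
        (∀ p, 0 ≤ ζ p) → ∀ y : E (k + 1) → E (k + 1), ContDiff ℝ 1 y → (∀ p, ‖y p‖ ≤ 1) →
        ENNReal.ofReal (∫ p in Ω, Φ.dv (fun p => ζ p • y p) p) ≤ ENNReal.ofReal (1 + ε) *
          ∫⁻ p in ψ ⁻¹' frontier Ω, ENNReal.ofReal (ζ (ψ p)) ∂μHE[k] := by
  obtain ⟨U₀, φ, hU₀, hx₀, hφ, hd, hΩU⟩ := hΩ.bdry x hx
  obtain ⟨δ, hδ, hδε⟩ : ∃ δ > 0, (1 + δ) * (1 + δ) ^ k ≤ 1 + ε := by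
    have h1 : ContinuousAt (fun δ : ℝ => (1 + δ) * (1 + δ) ^ k) 0 := by fun_prop
    have h2 := (h1.eventually_lt (continuousAt_const (y := 1 + ε)) (by simpa using hε)).filter_mono
      (nhdsWithin_le_nhds (s := Ioi 0))
    obtain ⟨δ, h3, h4⟩ := (h2.and self_mem_nhdsWithin).exists
    exact ⟨δ, h4, h3.le⟩
  have hδ1 : 0 ≤ 1 + δ := by linarith
  obtain ⟨e, he, hnear⟩ := Φ.areab_near hU₀ hx₀ hφ hd hδ
  obtain ⟨U₁, hU₁, hlip⟩ := hψ x δ hδ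
  have hall : ∀ᶠ p in 𝓝 x, ((0 < fderiv ℝ φ p (Φ.F x e) ∧
      Φ.m p * ‖Φ.gr φ p‖ ≤ (1 + δ) * Φ.m x * fderiv ℝ φ p (Φ.F x e)) ∧ p ∈ U₀) ∧ p ∈ U₁ :=
    (hnear.and (hU₀.mem_nhds hx₀)).and hU₁
  have hten : Tendsto (Φ.F x) (𝓝 (Φ.Fi x x)) (𝓝 x) := by
    simpa only [Φ.right] using (Φ.F x).continuous.tendsto (Φ.Fi x x)
  obtain ⟨r, hr, hball⟩ := Metric.eventually_nhds_iff_ball.1 (hten.eventually hall)
  have hU : ∀ p, Φ.Fi x p ∈ ball (Φ.Fi x x) r → ((0 < fderiv ℝ φ p (Φ.F x e) ∧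
      Φ.m p * ‖Φ.gr φ p‖ ≤ (1 + δ) * Φ.m x * fderiv ℝ φ p (Φ.F x e)) ∧ p ∈ U₀) ∧ p ∈ U₁ :=
    fun p hp => by simpa only [Φ.right] using hball _ hp
  have hmem : ∀ p ∈ U₀, p ∈ Ω ↔ φ p < 0 := fun p hp =>
    ⟨fun h => (hΩU.subset ⟨h, hp⟩).2, fun h => (hΩU.symm.subset ⟨hp, h⟩).1⟩
  have hUo : IsOpen (Φ.Fi x ⁻¹' ball (Φ.Fi x x) r) := isOpen_ball.preimage (Φ.Fi x).continuous
  refine ⟨Φ.Fi x ⁻¹' ball (Φ.Fi x x) r, hUo, mem_preimage.2 (mem_ball_self hr),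
    fun ζ hζ hc hs h0 y hy hy1 => ?_⟩
  have h1 := Φ.areab_div hUo (hφ.mono fun p hp => (hU p hp).1.2) ⟨hΩ.isOpen.measurableSet, hΩ.bdd⟩
    (Set.ext fun p => ⟨fun h => ⟨h.2, (hmem p (hU p h.2).1.2).1 h.1⟩,
      fun h => ⟨(hmem p (hU p h.1).1.2).2 h.2, h.1⟩⟩)
    (fun p hp => (hU p hp).1.1.2) hζ hc hs h0 hy hy1
  have h3 := Φ.areab_slice he hU₀ hφ hΩ.isOpen hmem
    (fun w hw => ⟨(hball w hw).1.2, (hball w hw).1.1.1⟩) hζ hc hs h0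
  have h5 : ∀ q : M, 0 < ζ (ψ q) → ψ q ∈ U₁ := fun q hq =>
    (hU _ (hs (subset_tsupport _ hq.ne'))).2
  have h4 := Φ.areab_layer ψ x Ω hδ1 hζ.continuous h0
    fun p q hp hq => (hlip p q (h5 p hp) (h5 q hq)).1
  rw [Φ.areab_chg x e hΩ.isOpen hζ, mul_assoc, ← mul_assoc (Φ.m x), Φ.m_det, one_mul] at h1
  refine (ENNReal.ofReal_le_ofReal h1).trans ?_
  rw [ENNReal.ofReal_mul hδ1]
  refine (mul_le_mul_right (h3.trans h4) _).trans ?_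
  rw [← mul_assoc, ← ENNReal.ofReal_mul hδ1]
  exact mul_le_mul_left (ENNReal.ofReal_le_ofReal hδε) _

end Frame


end Vale.Agent.P219
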