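import Vale.Agent.P219.Dens

/-!
Averaging the kernel.
-/

open scoped ContDiff Topology ENNReal
open MeasureTheory Set Filter Metric

noncomputable section

namespace Vale.Agent.P219

variable {n k : ℕ} {b : ℝ}

theorem avg_ker_nonneg (k : ℕ) {ρ s : ℝ} (hρ : 0 ≤ ρ) (hs : 0 ≤ s) : 0 ≤ ker k ρ s := by
  unfold ker
  positivity

theorem avg_sq_rpow (j : ℕ) {t : ℝ} (ht : 0 ≤ t) :
    (t ^ 2) ^ (-((j : ℝ) / 2)) = (t ^ j)⁻¹ := by
  rw [← Real.rpow_natCast t 2, ← Real.rpow_mul ht, ← Real.rpow_natCast t j, ← Real.rpow_neg ht]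
  congr 1
  push_cast
  ring

theorem avg_ker_near (k : ℕ) {ρ s : ℝ} (hρ : 0 < ρ) (hs : 0 ≤ s) :
    ker k ρ s ≤ s ^ (-((k - 1 : ℝ) / 2)) := by
  have h1 : (ρ ^ 2 + s) ^ (-((k : ℝ) / 2)) ≤ (ρ ^ k)⁻¹ := by
    rw [← avg_sq_rpow k hρ.le]
    exact Real.rpow_le_rpow_of_nonpos (by positivity) (by linarith)
      (neg_nonpos.2 (by positivity))
  have h2 : 0 ≤ s ^ (-((k - 1 : ℝ) / 2)) := by positivity
  unfold ker
  calc _ ≤ ρ ^ k * s ^ (-((k - 1 : ℝ) / 2)) * (ρ ^ k)⁻¹ := by gcongr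
    _ = _ := by field_simp

theorem avg_ker_far (j : ℕ) {ρ s a : ℝ} (hρ : 0 ≤ ρ) (ha : 0 < a) (hs : a ^ 2 ≤ s) :
    ker (j + 1) ρ s ≤ ρ ^ (j + 1) * (a ^ j)⁻¹ * (a ^ (j + 1))⁻¹ := by
  have h0 : 0 < a ^ 2 := by positivity
  have h1 : (ρ ^ 2 + s) ^ (-(((j + 1 : ℕ) : ℝ) / 2)) ≤ (a ^ (j + 1))⁻¹ := by
    rw [← avg_sq_rpow (j + 1) ha.le]
    exact Real.rpow_le_rpow_of_nonpos h0 (by nlinarith [sq_nonneg ρ])
      (neg_nonpos.2 (by positivity))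
  have h2 : s ^ (-((((j + 1 : ℕ) : ℝ) - 1) / 2)) ≤ (a ^ j)⁻¹ := by
    have e : (((j + 1 : ℕ) : ℝ) - 1) = j := by push_cast; ring
    rw [e, ← avg_sq_rpow j ha.le]
    exact Real.rpow_le_rpow_of_nonpos h0 hs (neg_nonpos.2 (by positivity))
  have h3 : 0 ≤ (ρ ^ 2 + s) ^ (-(((j + 1 : ℕ) : ℝ) / 2)) :=
    Real.rpow_nonneg (by nlinarith [sq_nonneg ρ]) _
  unfold ker
  gcongr

theorem avg_near_alg (j : ℕ) {c M τ s : ℝ} (hc : 0 ≤ c) (hM : 0 < M) (hτ : 0 < τ) (hs : 0 ≤ s)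
    (h : τ ^ 2 + 2 * s ≤ M * τ ^ 2) :
    c * τ ≤ c * (M / 2) ^ j * τ ^ (j + 1) * lam s τ ^ j := by
  have h1 : 2 / (M * τ) ≤ lam s τ := by
    unfold lam
    rw [div_le_div_iff₀ (by positivity) (by positivity)]
    nlinarith
  calc c * τ = c * (M / 2) ^ j * τ ^ (j + 1) * (2 / (M * τ)) ^ j := by
        rw [div_pow, div_pow, mul_pow]
        field_simp
        ring
    _ ≤ _ := by gcongr

theorem avg_far_alg (j : ℕ) {c R τ a : ℝ} (hc : 0 ≤ c) (hR : 0 ≤ R) (hτ : 0 < τ) (ha : τ ≤ a) :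
    (R ^ 2 * τ) ^ (j + 1) * ((a / 2) ^ j)⁻¹ * ((a / 2) ^ (j + 1))⁻¹ * (c * (R * τ) ^ (j + 1)) ≤
      c * R ^ (3 * (j + 1)) * 2 ^ (j + 1) * 3 ^ j * τ ^ (j + 1) * lam (a ^ 2) τ ^ j := by
  have ha0 : 0 < a := hτ.trans_le ha
  have h1 : 2 * τ / (3 * a ^ 2) ≤ lam (a ^ 2) τ := by
    unfold lam
    refine div_le_div_of_nonneg_left (by positivity) (by positivity) ?_
    nlinarith
  have h2 : τ / a ≤ 1 := (div_le_one ha0).2 ha
  calc _ = c * R ^ (3 * (j + 1)) * 2 ^ (j + 1) * 3 ^ j * τ ^ (j + 1) *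
        (2 * τ / (3 * a ^ 2)) ^ j * (τ / a) := by
        simp only [div_pow, mul_pow]
        field_simp
        ring
    _ ≤ c * R ^ (3 * (j + 1)) * 2 ^ (j + 1) * 3 ^ j * τ ^ (j + 1) *
        (2 * τ / (3 * a ^ 2)) ^ j * 1 := by gcongr
    _ ≤ _ := by
        rw [mul_one]
        gcongr

theorem avg_meas_ker (k : ℕ) (ρ : ℝ) : Measurable (ker k ρ) := by
  unfold ker
  fun_prop

namespace Geo

variable (Γ : Geo (k + 1) b) {W : Vf (k + 1)} {h : ℝ} {γ : E (k + 1) → ℝ} {K : Set (E (k + 1))}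

theorem avg (hk : 3 ≤ k) (hF : Γ.FV W h γ) (hK : IsCompact K) {R : ℝ} (hR : 1 ≤ R) :
    ∃ C > 0, ∀ o ∈ K, ∀ τ > 0, ∀ A : Set (E (k + 1) × E (k + 1)), MeasurableSet A →
      (∀ x ∈ A, Γ.σ o x.1 ≤ (R * τ) ^ 2) → ∀ y ∈ W.K,
      ∫⁻ x in A, ENNReal.ofReal (ker k (R ^ 2 * τ) (Γ.σ x.1 y)) ∂W.V ≤
        ENNReal.ofReal (C * τ ^ k * lam (Γ.σ o y) τ ^ (k - 1)) := by
  obtain ⟨j, rfl⟩ : ∃ j, k = j + 1 := ⟨k - 1, by omega⟩
  have hK' : IsCompact (K ∪ W.K) := hK.union W.cpt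
  obtain ⟨C0, hC0, h0⟩ := Γ.sqrt_lip hK'
  obtain ⟨C1, hC1, h1⟩ := Γ.dens_ker hk hF W.cpt
  obtain ⟨C2, hC2, h2⟩ := Γ.dens_ball hk hF hK
  have hR0 : 0 < R := one_pos.trans_le hR
  set L := (2 * C0 + 1) * R with hL
  have hL1 : 1 ≤ L := by nlinarith
  set Cn := C1 * (C2 ^ (1 / ((j + 1 : ℕ) : ℝ)) * R) * ((1 + 2 * L ^ 2) / 2) ^ j with hCn
  set Cf := C2 * R ^ (3 * (j + 1)) * 2 ^ (j + 1) * 3 ^ j with hCf
  have hCn0 : 0 < Cn := by positivity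
  have hCf0 : 0 < Cf := by positivity
  refine ⟨Cn + Cf, by positivity, fun o ho τ hτ A hA hAo y hy => ?_⟩
  have hs := Γ.nonneg o y
  have hl := lam_pos hs hτ
  have hV : W.V.real A ≤ C2 * (R * τ) ^ (j + 1) :=
    (measureReal_mono (fun x hx => hAo x hx)).trans (h2 o ho (R * τ) (by positivity))
  rw [Nat.add_sub_cancel]
  rcases le_total (Γ.σ o y) ((L * τ) ^ 2) with hc | hc
  · have a1 : ∫⁻ x in A, ENNReal.ofReal (ker (j + 1) (R ^ 2 * τ) (Γ.σ x.1 y)) ∂W.V ≤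
        ∫⁻ x in A, ENNReal.ofReal (Γ.σ y x.1 ^ (-((((j + 1 : ℕ) : ℝ) - 1) / 2))) ∂W.V := by
      refine lintegral_mono fun x => ENNReal.ofReal_le_ofReal ?_
      rw [Γ.symm y]
      exact avg_ker_near _ (by positivity) (Γ.nonneg _ _)
    refine (a1.trans (h1 y hy A hA)).trans (ENNReal.ofReal_le_ofReal ?_)
    have a2 : W.V.real A ^ (1 / ((j + 1 : ℕ) : ℝ)) ≤ C2 ^ (1 / ((j + 1 : ℕ) : ℝ)) * R * τ := by
      refine (Real.rpow_le_rpow measureReal_nonneg hV (by positivity)).trans (le_of_eq ?_)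
      rw [Real.mul_rpow hC2.le (by positivity), one_div,
        Real.pow_rpow_inv_natCast (by positivity) (by omega), mul_assoc]
    have a3 := avg_near_alg j (c := C1 * (C2 ^ (1 / ((j + 1 : ℕ) : ℝ)) * R)) (M := 1 + 2 * L ^ 2)
      (by positivity) (by positivity) hτ hs (by nlinarith)
    calc _ ≤ C1 * (C2 ^ (1 / ((j + 1 : ℕ) : ℝ)) * R * τ) := by gcongr
      _ = C1 * (C2 ^ (1 / ((j + 1 : ℕ) : ℝ)) * R) * τ := by ring
      _ ≤ Cn * τ ^ (j + 1) * lam (Γ.σ o y) τ ^ j := a3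
      _ ≤ _ := by
        gcongr
        linarith
  · set a := √(Γ.σ o y) with ha
    have hLa : L * τ ≤ a := Real.le_sqrt_of_sq_le hc
    have hτa : τ ≤ a := le_trans (by nlinarith) hLa
    have ha0 : 0 < a := hτ.trans_le hτa
    have ha2 : a ^ 2 = Γ.σ o y := Real.sq_sqrt hs
    set B := (R ^ 2 * τ) ^ (j + 1) * ((a / 2) ^ j)⁻¹ * ((a / 2) ^ (j + 1))⁻¹ with hB
    have hB0 : 0 ≤ B := by positivity
    have a1 : ∀ᵐ x ∂W.V.restrict A,
        ENNReal.ofReal (ker (j + 1) (R ^ 2 * τ) (Γ.σ x.1 y)) ≤ ENNReal.ofReal B := by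
      filter_upwards [ae_restrict_mem hA, ae_restrict_of_ae W.supp] with x hx hx'
      refine ENNReal.ofReal_le_ofReal (avg_ker_far j (by positivity) (by positivity) ?_)
      have b1 := h0 o (Or.inl ho) x.1 (Or.inr hx'.1) y (Or.inr hy)
      have b2 : √(Γ.σ o x.1) ≤ R * τ := Real.sqrt_le_iff.2 ⟨by positivity, hAo x hx⟩
      have b3 : C0 * √(Γ.σ o x.1) ≤ C0 * (R * τ) := by gcongr
      have b4 : a / 2 ≤ √(Γ.σ x.1 y) := by
        have : 0 ≤ R * τ := by positivity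
        nlinarith
      exact (Real.le_sqrt (by positivity) (Γ.nonneg _ _)).1 b4
    refine (lintegral_mono_ae a1).trans ?_
    rw [setLIntegral_const, ← ofReal_measureReal, ← ENNReal.ofReal_mul hB0]
    refine ENNReal.ofReal_le_ofReal ?_
    have a3 := avg_far_alg j hC2.le hR0.le hτ hτa
    rw [ha2] at a3
    calc _ ≤ B * (C2 * (R * τ) ^ (j + 1)) := by gcongr
      _ ≤ Cf * τ ^ (j + 1) * lam (Γ.σ o y) τ ^ j := a3
      _ ≤ _ := by
        gcongr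
        linarith

theorem good_point (hk : 3 ≤ k) (hF : Γ.FV W h γ) (hK : IsCompact K) {R c : ℝ} (hR : 1 ≤ R)
    (hc : 0 < c) : ∃ C > 0, ∀ o ∈ K, ∀ τ > 0, ∀ A : Set (E (k + 1) × E (k + 1)),
      MeasurableSet A → (∀ x ∈ A, Γ.σ o x.1 ≤ (R * τ) ^ 2) → c * τ ^ k ≤ W.V.real A →
      ∀ f : E (k + 1) × E (k + 1) → ℝ, Continuous f → (∀ w, 0 ≤ f w) →
      ∀ p : E (k + 1) × E (k + 1) → Prop, (∀ᵐ z ∂W.V, p z) → ∃ x ∈ A, p x ∧
        ∫⁻ w, ENNReal.ofReal (ker k (R ^ 2 * τ) (Γ.σ x.1 w.1) * f w) ∂W.V ≤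
          ENNReal.ofReal (C * ∫ w, lam (Γ.σ o w.1) τ ^ (k - 1) * f w ∂W.V) := by
  obtain ⟨C, hC, h1⟩ := Γ.avg hk hF hK hR
  refine ⟨C / c, by positivity, fun o ho τ hτ A hA hAo hV f hf hf0 p hp => ?_⟩
  have hR0 : 0 < R := one_pos.trans_le hR
  have hm1 : Measurable fun q : (E (k + 1) × E (k + 1)) × (E (k + 1) × E (k + 1)) =>
      ker k (R ^ 2 * τ) (Γ.σ q.1.1 q.2.1) :=
    (avg_meas_ker k _).comp (Γ.cont.comp (continuous_fst.fst.prodMk continuous_snd.fst)).measurable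
  have hm2 : Measurable fun q : (E (k + 1) × E (k + 1)) × (E (k + 1) × E (k + 1)) =>
      ENNReal.ofReal (ker k (R ^ 2 * τ) (Γ.σ q.1.1 q.2.1) * f q.2) :=
    (hm1.mul (hf.comp continuous_snd).measurable).ennreal_ofReal
  set G : E (k + 1) × E (k + 1) → ℝ≥0∞ := fun x =>
    ∫⁻ w, ENNReal.ofReal (ker k (R ^ 2 * τ) (Γ.σ x.1 w.1) * f w) ∂W.V with hG
  have hGm : Measurable G := hm2.lintegral_prod_right'
  set I := ∫ w, lam (Γ.σ o w.1) τ ^ (k - 1) * f w ∂W.V with hI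
  have hl0 : ∀ w : E (k + 1) × E (k + 1), 0 ≤ lam (Γ.σ o w.1) τ ^ (k - 1) * f w := fun w =>
    mul_nonneg (pow_nonneg (lam_pos (Γ.nonneg _ _) hτ).le _) (hf0 w)
  have hlc : Continuous fun w : E (k + 1) × E (k + 1) => lam (Γ.σ o w.1) τ ^ (k - 1) * f w :=
    (((Γ.cont_lam o hτ).continuous.comp continuous_fst).pow _).mul hf
  have hI0 : 0 ≤ I := integral_nonneg hl0
  have a1 : ∫⁻ x in A, G x ∂W.V ≤ ENNReal.ofReal (C * τ ^ k * I) := by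
    rw [hG, lintegral_lintegral_swap hm2.aemeasurable, hI, ← integral_const_mul,
      ofReal_integral_eq_lintegral_ofReal ((W.integrable hlc).const_mul _)
        (Eventually.of_forall fun w => mul_nonneg (by positivity) (hl0 w))]
    refine lintegral_mono_ae ?_
    filter_upwards [W.supp] with w hw
    have b1 : ∀ x : E (k + 1) × E (k + 1),
        ENNReal.ofReal (ker k (R ^ 2 * τ) (Γ.σ x.1 w.1) * f w) =
          ENNReal.ofReal (ker k (R ^ 2 * τ) (Γ.σ x.1 w.1)) * ENNReal.ofReal (f w) := fun x =>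
      ENNReal.ofReal_mul' (hf0 w)
    simp only [b1]
    rw [lintegral_mul_const' _ _ ENNReal.ofReal_ne_top, ← mul_assoc,
      ENNReal.ofReal_mul' (hf0 w)]
    gcongr
    exact h1 o ho τ hτ A hA hAo w.1 hw.1
  have hpos : 0 < c * τ ^ k := by positivity
  have hA0 : W.V A ≠ 0 := by
    intro e
    rw [Measure.real, e] at hV
    simp only [ENNReal.toReal_zero] at hV
    linarith
  have a2 := measure_le_setLAverage_pos hA0 (measure_ne_top _ _) (f := G) hGm.aemeasurable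
  rw [← measure_sdiff_null (ae_iff.1 hp)] at a2
  obtain ⟨x, ⟨hx1, hx2⟩, hx3⟩ := nonempty_of_measure_ne_zero a2.ne'
  refine ⟨x, hx1, not_not.1 hx3, hx2.trans ?_⟩
  rw [setLAverage_eq]
  refine ENNReal.div_le_of_le_mul (a1.trans ?_)
  rw [← ofReal_measureReal (μ := W.V) (s := A), ← ENNReal.ofReal_mul (by positivity)]
  refine ENNReal.ofReal_le_ofReal ?_
  calc C * τ ^ k * I = C / c * I * (c * τ ^ k) := by field_simp
    _ ≤ _ := by gcongr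

end Geo


end Vale.Agent.P219
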