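import Vale.Agent.P219.Dens

/-!
Balancing.
-/

open scoped ContDiff Topology ENNReal
open MeasureTheory Set Filter Metric

noncomputable section

namespace Vale.Agent.P219

variable {n k : ℕ} {b : ℝ}

theorem bal_bound {X : Type*} [MetricSpace X] [ProperSpace X] (W : Vf n)
    {G : X → E n × E n → ℝ} (hG : Continuous fun p : X × (E n × E n) => G p.1 p.2) (x₀ : X) :
    ∃ C : ℝ, ∀ᵐ z ∂W.V, ∀ x ∈ closedBall x₀ 1, ‖G x z‖ ≤ C := by
  obtain ⟨C, hC⟩ := ((isCompact_closedBall x₀ 1).prod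
    (W.cpt.prod (isCompact_sphere (0 : E n) 1))).exists_bound_of_continuousOn hG.continuousOn
  refine ⟨C, ?_⟩
  filter_upwards [W.supp] with z hz x hx
  exact hC (x, z) ⟨hx, hz.1, by simpa using hz.2⟩

theorem bal_cont {X : Type*} [MetricSpace X] [ProperSpace X] (W : Vf n)
    {G : X → E n × E n → ℝ} (hG : Continuous fun p : X × (E n × E n) => G p.1 p.2) :
    Continuous fun x => ∫ z, G x z ∂W.V := by
  refine continuous_iff_continuousAt.2 fun x₀ => ?_
  obtain ⟨C, hC⟩ := bal_bound W hG x₀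
  refine continuousAt_of_dominated (bound := fun _ => C) (Eventually.of_forall fun x =>
    (hG.comp (Continuous.prodMk_right x)).aestronglyMeasurable) ?_ (integrable_const C)
    (Eventually.of_forall fun z => (hG.comp (Continuous.prodMk_left z)).continuousAt)
  filter_upwards [closedBall_mem_nhds x₀ one_pos] with x hx
  filter_upwards [hC] with z hz using hz x hx

theorem bal_deriv (W : Vf n) {G G' : ℝ → E n × E n → ℝ} (hG : ∀ t, Continuous (G t))
    (hG' : Continuous fun p : ℝ × (E n × E n) => G' p.1 p.2)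
    (hd : ∀ z t, HasDerivAt (fun s => G s z) (G' t z) t) (t₀ : ℝ) :
    HasDerivAt (fun t => ∫ z, G t z ∂W.V) (∫ z, G' t₀ z ∂W.V) t₀ := by
  obtain ⟨C, hC⟩ := bal_bound W hG' t₀
  exact (hasDerivAt_integral_of_dominated_loc_of_deriv_le (bound := fun _ => C)
    (closedBall_mem_nhds t₀ one_pos) (Eventually.of_forall fun t => (hG t).aestronglyMeasurable)
    (W.integrable (hG t₀)) (hG'.comp (Continuous.prodMk_right t₀)).aestronglyMeasurable hC
    (integrable_const C) (Eventually.of_forall fun z t _ => hd z t)).2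

namespace Geo

section general

variable (Γ : Geo n b)

theorem bal_contσ {X : Type*} [TopologicalSpace X] {o x : X → E n} (ho : Continuous o)
    (hx : Continuous x) : Continuous fun p => Γ.σ (o p) (x p) :=
  Γ.cont.comp (ho.prodMk hx)

theorem bal_contD {X : Type*} [TopologicalSpace X] {o x : X → E n} {τ : X → ℝ}
    (ho : Continuous o) (hτ : Continuous τ) (hx : Continuous x) :
    Continuous fun p => Γ.D (o p) (τ p) (x p) := by
  have h := Γ.bal_contσ ho hx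
  simp only [D, aa]
  fun_prop

/-- The logarithmic potential density. -/
def balφ (o : E n) (s : ℝ) (x : E n) : ℝ := Real.log (Γ.D o (Real.exp s) x) - s

theorem bal_contφ {X : Type*} [TopologicalSpace X] {o x : X → E n} {s : X → ℝ}
    (ho : Continuous o) (hs : Continuous s) (hx : Continuous x) :
    Continuous fun p => Γ.balφ (o p) (s p) (x p) :=
  ((Γ.bal_contD ho (Real.continuous_exp.comp hs) hx).log
    fun _ => (Γ.D_pos _ (Real.exp_pos _) _).ne').sub hs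

theorem bal_D_ge (o : E n) (τ : ℝ) (x : E n) : τ ^ 2 + 2 * Γ.σ o x ≤ Γ.D o τ x := by
  have h1 := aa_ge b τ
  have h2 := Γ.nonneg o x
  simp only [D]
  nlinarith

theorem bal_low {o x : E n} {s c : ℝ} (h : Real.exp c ≤ Γ.D o (Real.exp s) x) :
    c - s ≤ Γ.balφ o s x := by
  have h1 := Real.log_le_log (Real.exp_pos c) h
  rw [Real.log_exp] at h1
  simp only [balφ]
  linarith

theorem bal_low₁ (o : E n) (s : ℝ) (x : E n) : s ≤ Γ.balφ o s x := by
  have h1 : Real.exp (s + s) ≤ Γ.D o (Real.exp s) x := by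
    have h2 := Γ.bal_D_ge o (Real.exp s) x
    have h3 := Γ.nonneg o x
    rw [Real.exp_add]
    nlinarith
  have h2 := Γ.bal_low h1
  linarith

theorem bal_low₂ {o x : E n} (s : ℝ) {M : ℝ} (h : Real.exp M ^ 2 ≤ Γ.σ o x) :
    M ≤ Γ.balφ o s x := by
  have h1 : Real.exp (M + s) ≤ Γ.D o (Real.exp s) x := by
    have h2 := Γ.bal_D_ge o (Real.exp s) x
    rw [Real.exp_add]
    nlinarith [sq_nonneg (Real.exp s - Real.exp M), sq_nonneg (Real.exp s), sq_nonneg (Real.exp M)]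
  have h2 := Γ.bal_low h1
  linarith

theorem bal_low₃ {o x : E n} (s : ℝ) {L : ℝ} (h : Real.exp L ^ 2 ≤ Γ.σ o x) :
    2 * L - s ≤ Γ.balφ o s x := by
  refine Γ.bal_low ?_
  have h2 := Γ.bal_D_ge o (Real.exp s) x
  rw [two_mul, Real.exp_add]
  nlinarith [sq_nonneg (Real.exp s), sq_nonneg (Real.exp L)]

theorem bal_dσ (o v x : E n) (t : ℝ) : HasDerivAt (fun s : ℝ => Γ.σ (o + s • v) x)
    (inner ℝ (Γ.Xi (o + t • v) x) (Γ.Fi (o + t • v) v)) t := by
  have h1 : HasDerivAt (fun s : ℝ => o + s • v) v t := by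
    simpa using ((hasDerivAt_id t).smul_const v).const_add o
  have h2 := (Γ.diff x (o + t • v)).hasFDerivAt.comp_hasDerivAt t h1
  rw [Xi, Frame.inner_gr, Γ.right]
  simp only [Γ.symm _ x]
  exact h2

theorem bal_d₁ (o v x : E n) (s t : ℝ) : HasDerivAt (fun r : ℝ => Γ.balφ (o + r • v) s x)
    (2 * aa b (Real.exp s) * inner ℝ (Γ.Xi (o + t • v) x) (Γ.Fi (o + t • v) v) /
      Γ.D (o + t • v) (Real.exp s) x) t := by
  have h1 : HasDerivAt (fun r : ℝ => Γ.D (o + r • v) (Real.exp s) x)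
      (2 * aa b (Real.exp s) * inner ℝ (Γ.Xi (o + t • v) x) (Γ.Fi (o + t • v) v)) t :=
    ((Γ.bal_dσ o v x t).const_mul _).const_add _
  exact (h1.log (Γ.D_pos _ (Real.exp_pos s) _).ne').sub_const s

theorem bal_d₂ (o x : E n) (t : ℝ) :
    HasDerivAt (fun s : ℝ => Γ.balφ o s x) (Γ.ps o (Real.exp t) x) t := by
  have h0 : HasDerivAt (fun s : ℝ => Real.exp s ^ 2) (2 * Real.exp t ^ 2) t := by
    have h := (Real.hasDerivAt_exp t).mul (Real.hasDerivAt_exp t)
    have e1 : Real.exp t * Real.exp t + Real.exp t * Real.exp t = 2 * Real.exp t ^ 2 := by ring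
    rw [e1] at h
    simp only [sq]
    rw [← sq]
    exact h
  have h1 : HasDerivAt (fun s : ℝ => Γ.D o (Real.exp s) x)
      (2 * Real.exp t ^ 2 + 2 * (b ^ 2 * (2 * Real.exp t ^ 2) / 4) * Γ.σ o x) t :=
    h0.add (((((h0.const_mul (b ^ 2)).div_const 4).const_add 1).const_mul 2).mul_const _)
  have hD := (Γ.D_pos o (Real.exp_pos t) x).ne'
  have h2 := (h1.log hD).sub (hasDerivAt_id' t)
  have e2 : (2 * Real.exp t ^ 2 + 2 * (b ^ 2 * (2 * Real.exp t ^ 2) / 4) * Γ.σ o x) /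
      Γ.D o (Real.exp t) x - 1 = Γ.ps o (Real.exp t) x := by
    rw [ps, div_sub_one hD]
    congr 1
    simp only [D, aa]
    ring
  rw [e2] at h2
  exact h2

variable {W : Vf n} {ρ : E n → ℝ}

theorem bal_ge (hρ : Continuous ρ) (h0 : ∀ x, 0 ≤ ρ x) (h1 : ∫ z, ρ z.1 ∂W.V = 1) {o : E n}
    {s M : ℝ} (h : ∀ x ∈ W.K, M ≤ Γ.balφ o s x) : M ≤ ∫ z, ρ z.1 * Γ.balφ o s z.1 ∂W.V := by
  have hρ' : Continuous fun z : E n × E n => ρ z.1 := hρ.comp continuous_fst
  have h2 : ∫ z, ρ z.1 * M ∂W.V ≤ ∫ z, ρ z.1 * Γ.balφ o s z.1 ∂W.V :=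
    W.integral_mono (hρ'.mul continuous_const)
      (hρ'.mul (Γ.bal_contφ continuous_const continuous_const continuous_fst))
      fun z hz _ => mul_le_mul_of_nonneg_left (h z.1 hz) (h0 z.1)
  rwa [integral_mul_const, h1, one_mul] at h2

theorem bal_small (hρ : Continuous ρ) (h0 : ∀ x, 0 ≤ ρ x) (h1 : ∫ z, ρ z.1 ∂W.V = 1) {o : E n}
    {s L R : ℝ} (hR : ∀ x ∈ W.K, ρ x ≤ R) (hs : s ≤ L)
    (hV : R * W.V.real {w | Γ.σ o w.1 ≤ Real.exp L ^ 2} ≤ 1 / 4) :
    3 * L / 2 - s / 2 ≤ ∫ z, ρ z.1 * Γ.balφ o s z.1 ∂W.V := by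
  have hρ' : Continuous fun z : E n × E n => ρ z.1 := hρ.comp continuous_fst
  have hA : MeasurableSet {w : E n × E n | Γ.σ o w.1 ≤ Real.exp L ^ 2} :=
    (isClosed_le (Γ.bal_contσ continuous_const continuous_fst) continuous_const).measurableSet
  have i1 : Integrable (fun z : E n × E n => ρ z.1 * (2 * L - s)) W.V :=
    W.integrable (hρ'.mul continuous_const)
  have i2 : Integrable ({w : E n × E n | Γ.σ o w.1 ≤ Real.exp L ^ 2}.indicator
      fun _ => (2 * L - 2 * s) * R) W.V := (integrable_const _).indicator hA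
  have h2 : ∫ z, (ρ z.1 * (2 * L - s) - {w : E n × E n | Γ.σ o w.1 ≤ Real.exp L ^ 2}.indicator
      (fun _ => (2 * L - 2 * s) * R) z) ∂W.V ≤ ∫ z, ρ z.1 * Γ.balφ o s z.1 ∂W.V := by
    refine integral_mono_ae (i1.sub i2) (W.integrable
      (hρ'.mul (Γ.bal_contφ continuous_const continuous_const continuous_fst))) ?_
    filter_upwards [W.supp] with z hz
    by_cases hzA : z ∈ {w : E n × E n | Γ.σ o w.1 ≤ Real.exp L ^ 2}
    · rw [indicator_of_mem hzA]
      have h3 := mul_le_mul_of_nonneg_left (Γ.bal_low₁ o s z.1) (h0 z.1)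
      have h4 := mul_le_mul_of_nonneg_left (hR z.1 hz.1) (show 0 ≤ 2 * L - 2 * s by linarith)
      linarith
    · rw [indicator_of_notMem hzA, sub_zero]
      exact mul_le_mul_of_nonneg_left (Γ.bal_low₃ s (le_of_lt (not_le.1 hzA))) (h0 z.1)
  rw [integral_sub i1 i2, integral_mul_const, h1, integral_indicator_const _ hA, smul_eq_mul] at h2
  have h3 := mul_le_mul_of_nonneg_left hV (show 0 ≤ 2 * L - 2 * s by linarith)
  linarith

theorem bal_first (hρ : Continuous ρ) {o : E n} {s : ℝ}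
    (hmin : ∀ o', ∫ z, ρ z.1 * Γ.balφ o s z.1 ∂W.V ≤ ∫ z, ρ z.1 * Γ.balφ o' s z.1 ∂W.V) :
    ∫ z, (ρ z.1 * Γ.la o (Real.exp s) z.1) • Γ.Xi o z.1 ∂W.V = 0 := by
  have hρ' : Continuous fun z : E n × E n => ρ z.1 := hρ.comp continuous_fst
  have hτ := Real.exp_pos s
  refine ext_inner_left ℝ fun ξ => ?_
  have hl : Continuous fun p : ℝ × (E n × E n) => o + p.1 • Γ.F o ξ := by fun_prop
  have hx : Continuous fun p : ℝ × (E n × E n) => p.2.1 := by fun_prop
  have hd := bal_deriv W (G := fun t z => ρ z.1 * Γ.balφ (o + t • Γ.F o ξ) s z.1)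
    (G' := fun t z => ρ z.1 * (2 * aa b (Real.exp s) *
      inner ℝ (Γ.Xi (o + t • Γ.F o ξ) z.1) (Γ.Fi (o + t • Γ.F o ξ) (Γ.F o ξ)) /
      Γ.D (o + t • Γ.F o ξ) (Real.exp s) z.1))
    (fun t => hρ'.mul (Γ.bal_contφ continuous_const continuous_const continuous_fst))
    ((hρ.comp hx).mul ((continuous_const.mul
      ((Γ.Xi_sm₂.continuous.comp (hl.prodMk hx)).inner (𝕜 := ℝ)
        ((Γ.sFi.continuous.comp hl).clm_apply continuous_const))).div
      (Γ.bal_contD hl continuous_const hx) fun _ => (Γ.D_pos _ hτ _).ne'))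
    (fun z t => (Γ.bal_d₁ o (Γ.F o ξ) z.1 s t).const_mul _) 0
  have hm : IsLocalMin (fun t : ℝ => ∫ z, ρ z.1 * Γ.balφ (o + t • Γ.F o ξ) s z.1 ∂W.V) 0 :=
    Eventually.of_forall fun t => by
      simp only [zero_smul, add_zero]
      exact hmin _
  have h0 := hm.hasDerivAt_eq_zero hd
  simp only [zero_smul, add_zero, Γ.left] at h0
  have hi : Integrable (fun z : E n × E n => (ρ z.1 * Γ.la o (Real.exp s) z.1) • Γ.Xi o z.1) W.V :=
    W.integrable ((hρ'.mul ((Γ.la_sm o hτ).continuous.comp continuous_fst)).smul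
      ((Γ.Xi_sm o).continuous.comp continuous_fst))
  have ha : aa b (Real.exp s) ≠ 0 := (lt_of_lt_of_le one_pos (aa_ge b _)).ne'
  rw [← integral_inner hi, inner_zero_right]
  have h1 : ∀ z : E n × E n, inner ℝ ξ ((ρ z.1 * Γ.la o (Real.exp s) z.1) • Γ.Xi o z.1) =
      Real.exp s / aa b (Real.exp s) * (ρ z.1 * (2 * aa b (Real.exp s) *
        inner ℝ (Γ.Xi o z.1) ξ / Γ.D o (Real.exp s) z.1)) := fun z => by
    have hD := (Γ.D_pos o hτ z.1).ne'
    rw [inner_smul_right, real_inner_comm, la]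
    field_simp
  simp only [h1]
  rw [integral_const_mul, h0, mul_zero]

theorem bal_second (hρ : Continuous ρ) {o : E n} {s : ℝ}
    (hmin : ∀ s', ∫ z, ρ z.1 * Γ.balφ o s z.1 ∂W.V ≤ ∫ z, ρ z.1 * Γ.balφ o s' z.1 ∂W.V) :
    ∫ z, ρ z.1 * Γ.ps o (Real.exp s) z.1 ∂W.V = 0 := by
  have hρ' : Continuous fun z : E n × E n => ρ z.1 := hρ.comp continuous_fst
  have hx : Continuous fun p : ℝ × (E n × E n) => p.2.1 := by fun_prop
  have ht : Continuous fun p : ℝ × (E n × E n) => Real.exp p.1 := by fun_prop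
  have hσ := Γ.bal_contσ (continuous_const (y := o)) hx
  have hd := bal_deriv W (G := fun t z => ρ z.1 * Γ.balφ o t z.1)
    (G' := fun t z => ρ z.1 * Γ.ps o (Real.exp t) z.1)
    (fun t => hρ'.mul (Γ.bal_contφ continuous_const continuous_const continuous_fst))
    ((hρ.comp hx).mul (Continuous.div (by simp only [aa]; fun_prop)
      (Γ.bal_contD continuous_const ht hx) fun _ => (Γ.D_pos _ (Real.exp_pos _) _).ne'))
    (fun z t => (Γ.bal_d₂ o z.1 t).const_mul _) s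
  exact IsLocalMin.hasDerivAt_eq_zero (Eventually.of_forall hmin) hd

end general

variable (Γ : Geo (k + 1) b) {W : Vf (k + 1)} {h : ℝ} {γ : E (k + 1) → ℝ} {K : Set (E (k + 1))}

theorem bal_min (hk : 3 ≤ k) (hF : Γ.FV W h γ) {ρ : E (k + 1) → ℝ} (hρ : Continuous ρ)
    (h0 : ∀ x, 0 ≤ ρ x) (h1 : ∫ z, ρ z.1 ∂W.V = 1) : ∃ p : E (k + 1) × ℝ, ∀ q : E (k + 1) × ℝ,
      ∫ z, ρ z.1 * Γ.balφ p.1 p.2 z.1 ∂W.V ≤ ∫ z, ρ z.1 * Γ.balφ q.1 q.2 z.1 ∂W.V := by
  have hc : Continuous fun p : E (k + 1) × ℝ => ∫ z, ρ z.1 * Γ.balφ p.1 p.2 z.1 ∂W.V :=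
    bal_cont W (G := fun (p : E (k + 1) × ℝ) z => ρ z.1 * Γ.balφ p.1 p.2 z.1)
      ((hρ.comp continuous_snd.fst).mul
        (Γ.bal_contφ continuous_fst.fst continuous_fst.snd continuous_snd.fst))
  refine hc.exists_forall_le' (0, 0) ?_
  generalize ∫ z, ρ z.1 * Γ.balφ ((0, 0) : E (k + 1) × ℝ).1 ((0, 0) : E (k + 1) × ℝ).2 z.1 ∂W.V = M
  have hK := Γ.isCompact_near W.cpt (Real.exp M ^ 2)
  obtain ⟨C, hC, hb⟩ := Γ.dens_ball hk hF hK
  obtain ⟨R₀, hR₀⟩ := W.cpt.exists_bound_of_continuousOn hρ.continuousOn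
  have hR : ∀ x ∈ W.K, ρ x ≤ max R₀ 1 := fun x hx =>
    ((le_abs_self _).trans (hR₀ x hx)).trans (le_max_left _ _)
  have hR1 : 0 < max R₀ 1 := lt_max_of_lt_right one_pos
  generalize max R₀ 1 = R at hR hR1
  obtain ⟨L, hL⟩ : ∃ L : ℝ, R * (C * Real.exp L ^ k) ≤ 1 / 4 := by
    have hr : 0 < min 1 (1 / (4 * R * C)) := lt_min one_pos (by positivity)
    refine ⟨Real.log (min 1 (1 / (4 * R * C))), ?_⟩
    rw [Real.exp_log hr]
    have h2 : min 1 (1 / (4 * R * C)) ^ k ≤ 1 / (4 * R * C) :=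
      (pow_le_of_le_one hr.le (min_le_left _ _) (by omega)).trans (min_le_right _ _)
    calc R * (C * min 1 (1 / (4 * R * C)) ^ k) ≤ R * (C * (1 / (4 * R * C))) := by gcongr
      _ = 1 / 4 := by field_simp
  filter_upwards [(hK.prod (isCompact_Icc (a := min L (3 * L - 2 * M)) (b := M))).compl_mem_cocompact]
    with p hp
  by_cases ho : p.1 ∈ {o | ∃ x ∈ W.K, Γ.σ o x ≤ Real.exp M ^ 2}
  · by_cases hs : p.2 ≤ M
    · have hs' : p.2 < min L (3 * L - 2 * M) := by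
        by_contra hcon
        exact hp ⟨ho, not_lt.1 hcon, hs⟩
      have h2 := Γ.bal_small hρ h0 h1 (o := p.1) hR (hs'.le.trans (min_le_left _ _))
        ((mul_le_mul_of_nonneg_left (hb _ ho _ (Real.exp_pos L)) hR1.le).trans hL)
      have h3 := hs'.le.trans (min_le_right _ _)
      linarith
    · exact Γ.bal_ge hρ h0 h1 fun x _ => (not_le.1 hs).le.trans (Γ.bal_low₁ _ _ x)
  · refine Γ.bal_ge hρ h0 h1 fun x hx => Γ.bal_low₂ _ ?_
    by_contra hcon
    exact ho ⟨x, hx, (not_le.1 hcon).le⟩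

theorem balance (hk : 3 ≤ k) (hF : Γ.FV W h γ) {ρ : E (k + 1) → ℝ} (hρ : Continuous ρ)
    (h0 : ∀ x, 0 ≤ ρ x) (h1 : ∫ z, ρ z.1 ∂W.V = 1) : ∃ o τ, 0 < τ ∧ Γ.Bal W ρ o τ := by
  obtain ⟨p, hp⟩ := Γ.bal_min hk hF hρ h0 h1
  exact ⟨p.1, Real.exp p.2, Real.exp_pos _, Γ.bal_first hρ fun o' => hp (o', p.2),
    Γ.bal_second hρ fun s' => hp (p.1, s')⟩

end Geo


end Vale.Agent.P219
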