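import Vale.Agent.P219.Chart0

/-!
The Riemannian manifolds of Mathlib in charts.
-/

open scoped ContDiff Topology Manifold Bundle
open Set Filter

set_option maxSynthPendingDepth 3

noncomputable section

namespace Vale.Agent.P219.R

variable {n : ℕ} {b : ℝ}

/-- The differential of the inverse chart. -/
def brD {M : Type*} [TopologicalSpace M] [ChartedSpace (E n) M]
    (e : OpenPartialHomeomorph M (E n)) (y : E n) :
    E n →L[ℝ] TangentSpace 𝓘(ℝ, E n) (e.symm y) := mfderiv 𝓘(ℝ, E n) 𝓘(ℝ, E n) e.symm y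

/-- The metric in a chart. -/
def brG {M : Type*} [TopologicalSpace M] [ChartedSpace (E n) M]
    [Bundle.RiemannianBundle fun x : M => TangentSpace 𝓘(ℝ, E n) x]
    (e : OpenPartialHomeomorph M (E n)) (y : E n) : Bil n :=
  (innerSL ℝ).bilinearComp (brD e y) (brD e y)

/-- The inner product at a point. -/
def brI {M : Type*} [TopologicalSpace M] [ChartedSpace (E n) M]
    [Bundle.RiemannianBundle fun x : M => TangentSpace 𝓘(ℝ, E n) x] (p : M) (u v : E n) : ℝ :=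
  @inner ℝ (TangentSpace 𝓘(ℝ, E n) p) _ u v

section Aux

variable {M : Type*} [MetricSpace M] [ChartedSpace (E n) M] {e : OpenPartialHomeomorph M (E n)}

theorem br_md (he : e ∈ At n M) : e.MDifferentiable 𝓘(ℝ, E n) 𝓘(ℝ, E n) :=
  ⟨(contMDiffOn_of_mem_maximalAtlas he).mdifferentiableOn (by simp),
    (contMDiffOn_symm_of_mem_maximalAtlas he).mdifferentiableOn (by simp)⟩

theorem br_chain {F : Type*} [NormedAddCommGroup F] [NormedSpace ℝ F] (he : e ∈ At n M)
    {f : F → E n} {a : F} (hf : DifferentiableAt ℝ f a) (ha : f a ∈ e.target) (u : F) :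
    mfderiv 𝓘(ℝ, F) 𝓘(ℝ, E n) (e.symm ∘ f) a u = brD e (f a) (fderiv ℝ f a u) := by
  rw [(((br_md he).mdifferentiableAt_symm ha).hasMFDerivAt.comp a
    hf.hasFDerivAt.hasMFDerivAt).mfderiv]
  rfl

theorem br_sec [IsManifold 𝓘(ℝ, E n) ∞ M] (he : e ∈ At n M) (u : E n) :
    ContMDiffOn 𝓘(ℝ, E n) (𝓘(ℝ, E n).prod 𝓘(ℝ, E n)) ∞ (fun y : E n => (⟨e.symm y, brD e y u⟩ :
      Bundle.TotalSpace (E n) (TangentSpace 𝓘(ℝ, E n) (M := M)))) e.target := by
  have h1 := (contMDiffOn_symm_of_mem_maximalAtlas he).contMDiffOn_tangentMapWithin (m := ∞)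
    (by simp) e.open_target.uniqueMDiffOn
  have h2 := (contMDiff_vectorSpace_iff_contDiff (𝕜 := ℝ) (n := ∞)
    (V := fun _ : E n => u)).2 contDiff_const
  refine (h1.comp h2.contMDiffOn fun y hy => hy).congr fun y hy => ?_
  simp only [Function.comp, tangentMapWithin, mfderivWithin_of_isOpen e.open_target hy, brD]
  rfl

variable [Bundle.RiemannianBundle fun x : M => TangentSpace 𝓘(ℝ, E n) x]

theorem br_ip (e : OpenPartialHomeomorph M (E n)) (y u v : E n) :
    brG e y u v = brI (e.symm y) (brD e y u) (brD e y v) := rfl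

theorem br_norm (p : M) (v : TangentSpace 𝓘(ℝ, E n) p) : ‖v‖ ^ 2 = brI p v v :=
  (real_inner_self_eq_norm_sq v).symm

theorem br_speed (he : e ∈ At n M) {β : ℝ → E n} {t : ℝ} (hβ : DifferentiableAt ℝ β t)
    (ht : β t ∈ e.target) : ‖mfderiv 𝓘(ℝ, ℝ) 𝓘(ℝ, E n) (e.symm ∘ β) t 1‖ ^ 2 =
      brG e (β t) (deriv β t) (deriv β t) := by
  exact (br_norm _ _).trans (congrArg₂ (brI _) (br_chain he hβ ht 1) (br_chain he hβ ht 1))

theorem br_smooth [IsManifold 𝓘(ℝ, E n) ∞ M]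
    [IsContMDiffRiemannianBundle 𝓘(ℝ, E n) ∞ (E n) fun x : M => TangentSpace 𝓘(ℝ, E n) x]
    (he : e ∈ At n M) : ContDiffOn ℝ ∞ (brG e) e.target :=
  contDiffOn_clm_apply.2 fun u => contDiffOn_clm_apply.2 fun w =>
    ContMDiffOn.contDiffOn (ContMDiffOn.inner_bundle (F := E n) (IB := 𝓘(ℝ, E n))
      (E := fun x : M => TangentSpace 𝓘(ℝ, E n) x) (br_sec he u) (br_sec he w))

theorem br_pos (he : e ∈ At n M) {y : E n} (hy : y ∈ e.target) : PD (brG e y) :=
  ⟨fun u v => real_inner_comm (brD e y v) (brD e y u), fun _ hu => real_inner_self_pos.2 fun h =>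
    hu ((br_md he).symm.mfderiv_injective hy (h.trans (map_zero _).symm))⟩

theorem br_compat {e' : OpenPartialHomeomorph M (E n)} (he : e ∈ At n M) (he' : e' ∈ At n M)
    {x : M} (hx : x ∈ e.source) (hx' : x ∈ e'.source) (u v : E n) :
    brG e (e x) u v = brG e' (e' x) (tr e e' x u) (tr e e' x v) := by
  have p : (e' ∘ e.symm) (e x) = e' x := congrArg e' (e.left_inv hx)
  have d : DifferentiableAt ℝ (e' ∘ e.symm) (e x) :=
    (((br_md he').mdifferentiableAt ((e.left_inv hx).symm ▸ hx')).comp (e x)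
      ((br_md he).mdifferentiableAt_symm (e.map_source hx))).differentiableAt
  have q : e'.symm ∘ e' ∘ e.symm =ᶠ[𝓝 (e x)] e.symm :=
    ((e.continuousAt_symm (e.map_source hx)).eventually_mem
      (e'.open_source.mem_nhds ((e.left_inv hx).symm ▸ hx'))).mono fun y hy => e'.left_inv hy
  have k : ∀ w, @Eq (E n) (brD e (e x) w) (brD e' (e' x) (tr e e' x w)) := fun w => by
    have := br_chain he' d (p ▸ e'.map_source hx') w
    rw [q.mfderiv_eq, p] at this
    exact this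
  rw [br_ip, br_ip, k, k, e.left_inv hx, e'.left_inv hx']

theorem br_dmap (he : e ∈ At n M) {x : M} (hx : x ∈ e.source) (v : TangentSpace 𝓘(ℝ, E n) x) :
    ‖v‖ ^ 2 = brG e (e x) (dmap n e x v) (dmap n e x v) := by
  have k : @Eq (E n) (brD e (e x) (dmap n e x v)) v :=
    DFunLike.congr_fun ((br_md he).symm_comp_deriv hx) v
  rw [br_ip, k, e.left_inv hx, br_norm]

variable [IsRiemannianManifold 𝓘(ℝ, E n) M]

theorem br_upper (he : e ∈ At n M) {a w : E n} {s t k : ℝ} (hst : s ≤ t) (hk : 0 ≤ k)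
    (h : ∀ σ ∈ Icc s t, a + (σ - s) • w ∈ e.target ∧ brG e (a + (σ - s) • w) w w ≤ k ^ 2) :
    dist (e.symm a) (e.symm (a + (t - s) • w)) ≤ k * (t - s) := by
  have d : ∀ σ, HasDerivAt (fun σ : ℝ => a + (σ - s) • w) w σ := fun σ => by
    simpa using (((hasDerivAt_id σ).sub_const s).smul_const w).const_add a
  have c : ContDiff ℝ 1 fun σ : ℝ => a + (σ - s) • w := by fun_prop
  have hγ : ContMDiffOn 𝓘(ℝ, ℝ) 𝓘(ℝ, E n) 1 (e.symm ∘ fun σ : ℝ => a + (σ - s) • w) (Icc s t) :=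
    fun σ hσ => (((contMDiffAt_symm_of_mem_maximalAtlas he (h σ hσ).1).of_le (by simp)).comp σ
      c.contMDiff.contMDiffAt).contMDiffWithinAt
  have k1 := Manifold.riemannianEDist_le_pathELength hγ rfl rfl hst
  rw [← IsRiemannianManifold.out (I := 𝓘(ℝ, E n)),
    Manifold.pathELength_eq_lintegral_mfderiv_Icc] at k1
  have k3 := k1.trans (MeasureTheory.setLIntegral_mono' (g := fun _ => ENNReal.ofReal k)
    measurableSet_Icc fun σ hσ => by
      rw [← ofReal_norm]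
      refine ENNReal.ofReal_le_ofReal (abs_le_of_sq_le_sq' ?_ hk).2
      rw [br_speed he (d σ).differentiableAt (h σ hσ).1, (d σ).deriv]
      exact (h σ hσ).2)
  rw [MeasureTheory.setLIntegral_const, Real.volume_Icc, ← ENNReal.ofReal_mul hk, edist_dist,
    ENNReal.ofReal_le_ofReal_iff (mul_nonneg hk (sub_nonneg.2 hst))] at k3
  simpa using k3

variable [IsManifold 𝓘(ℝ, E n) ∞ M]
  [IsContMDiffRiemannianBundle 𝓘(ℝ, E n) ∞ (E n) fun x : M => TangentSpace 𝓘(ℝ, E n) x]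

theorem br_local (he : e ∈ At n M) {γ : ℝ → M} {r c : ℝ} (hc : 0 ≤ c) (h0 : ContinuousAt γ r)
    (h1 : γ r ∈ e.source) (h2 : DifferentiableAt ℝ (e ∘ γ) r)
    (h3 : brG e (e (γ r)) (deriv (e ∘ γ) r) (deriv (e ∘ γ) r) < c ^ 2) :
    ∀ᶠ z in 𝓝[>] r, dist (γ r) (γ z) ≤ c * (z - r) := by
  have t0 := e.open_target.mem_nhds (e.map_source h1)
  have c1 : ContinuousAt (fun p : E n × E n => brG e p.1 p.2 p.2) (e (γ r), deriv (e ∘ γ) r) :=
    ((((br_smooth he).continuousOn.continuousAt t0).comp_of_eq continuousAt_fst rfl).clm_apply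
      continuousAt_snd).clm_apply continuousAt_snd
  obtain ⟨δ, δ0, hδ⟩ := Metric.eventually_nhds_iff_ball.1 ((c1.eventually (gt_mem_nhds h3)).and
    (continuousAt_fst.eventually_mem t0))
  filter_upwards [self_mem_nhdsWithin, nhdsWithin_le_nhds (h0.eventually_mem
    (e.open_source.mem_nhds h1)), nhdsWithin_le_nhds (h2.continuousAt.eventually_mem
    (Metric.ball_mem_nhds _ δ0)), h2.hasDerivAt.tendsto_slope.mono_left (nhdsGT_le_nhdsNE r)
    (Metric.ball_mem_nhds _ δ0)] with z z0 z1 z2 z3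
  have z0 : r < z := z0
  have e1 : e (γ r) + (z - r) • slope (e ∘ γ) r z = e (γ z) := by
    rw [sub_smul_slope]
    simp
  have k := br_upper he (a := e (γ r)) (w := slope (e ∘ γ) r z) z0.le hc fun σ hσ => by
    have m : e (γ r) + (σ - r) • slope (e ∘ γ) r z ∈ Metric.ball (e (γ r)) δ := by
      have z4 : e (γ r) + (z - r) • slope (e ∘ γ) r z ∈ Metric.ball (e (γ r)) δ := e1 ▸ z2
      rw [add_mem_ball_iff_norm, norm_smul, Real.norm_of_nonneg (by linarith [hσ.1])] at z4 ⊢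
      exact (mul_le_mul_of_nonneg_right (by linarith [hσ.2]) (norm_nonneg _)).trans_lt z4
    have := hδ (_, slope (e ∘ γ) r z) (by
      rw [← ball_prod_same]
      exact mk_mem_prod m z3)
    exact ⟨this.2, this.1.le⟩
  rwa [e1, e.left_inv h1, e.left_inv z1] at k

theorem br_up (γ : ℝ → M) (s t c : ℝ) (hst : s ≤ t) (hc : 0 ≤ c) (h : ∀ r ∈ Icc s t,
    ContinuousAt γ r ∧ ∃ e ∈ At n M, γ r ∈ e.source ∧ DifferentiableAt ℝ (e ∘ γ) r ∧
      brG e (e (γ r)) (deriv (e ∘ γ) r) (deriv (e ∘ γ) r) ≤ c ^ 2) :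
    dist (γ s) (γ t) ≤ c * (t - s) := by
  refine image_le_of_liminf_slope_right_le_deriv_boundary (f := fun r => dist (γ s) (γ r))
    (B := fun r => c * (r - s)) (B' := fun _ => c)
    (fun r hr => ContinuousAt.continuousWithinAt (continuousAt_const.dist (h r hr).1)) (by simp)
    (by fun_prop) (fun r _ => ?_) (fun r hr c' hc' => ?_) ⟨hst, le_rfl⟩
  · simpa using (((hasDerivAt_id r).sub_const s).const_mul c).hasDerivWithinAt
  · obtain ⟨h0, e, he, h1, h2, h3⟩ := h r (Ico_subset_Icc_self hr)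
    obtain ⟨c'', k1, k2⟩ := exists_between hc'
    refine Eventually.frequently ?_
    filter_upwards [self_mem_nhdsWithin, br_local he (hc.trans k1.le) h0 h1 h2
      (h3.trans_lt (pow_lt_pow_left₀ k1 hc two_ne_zero))] with z z0 z1
    have z0 : 0 < z - r := sub_pos.2 z0
    rw [slope_def_field, div_lt_iff₀ z0]
    linarith [dist_triangle (γ s) (γ r) (γ z), mul_lt_mul_of_pos_right k2 z0]

theorem br_low (f : M → ℝ) (hf : ∀ x, ∃ e ∈ At n M, x ∈ e.source ∧
    DifferentiableAt ℝ (f ∘ e.symm) (e x) ∧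
      ∀ v, fderiv ℝ (f ∘ e.symm) (e x) v ^ 2 ≤ brG e (e x) v v) (p q : M) :
    f q - f p ≤ dist p q := by
  refine le_of_forall_gt_imp_ge_of_dense fun r hr => ?_
  have r0 : 0 < r := dist_nonneg.trans_lt hr
  obtain ⟨γ, rfl, rfl, hγ, hl, -⟩ := Manifold.exists_lt_locally_constant_of_riemannianEDist_lt
    (I := 𝓘(ℝ, E n)) (x := p) (y := q) (r := ENNReal.ofReal r) (by
      rw [← IsRiemannianManifold.out (I := 𝓘(ℝ, E n)), edist_dist]
      exact (ENNReal.ofReal_lt_ofReal_iff r0).2 hr) zero_lt_one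
  have sec : ContMDiff 𝓘(ℝ, ℝ) (𝓘(ℝ, E n).prod 𝓘(ℝ, E n)) 0 fun t : ℝ =>
      (⟨γ t, mfderiv 𝓘(ℝ, ℝ) 𝓘(ℝ, E n) γ t 1⟩ :
        Bundle.TotalSpace (E n) (TangentSpace 𝓘(ℝ, E n) (M := M))) :=
    (hγ.contMDiff_tangentMap (m := 0) le_rfl).comp ((contMDiff_vectorSpace_iff_contDiff (𝕜 := ℝ)
      (n := 0) (V := fun _ : ℝ => (1 : ℝ))).2 contDiff_const)
  have cφ : Continuous fun t => ‖mfderiv 𝓘(ℝ, ℝ) 𝓘(ℝ, E n) γ t 1‖ :=
    (ContMDiff.inner_bundle (F := E n) (IB := 𝓘(ℝ, E n))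
      (E := fun x : M => TangentSpace 𝓘(ℝ, E n) x) sec sec).continuous.sqrt.congr
      fun t => (norm_eq_sqrt_real_inner _).symm
  have key : ∀ t, ∃ d, HasDerivAt (f ∘ γ) d t ∧ d ≤ ‖mfderiv 𝓘(ℝ, ℝ) 𝓘(ℝ, E n) γ t 1‖ := fun t => by
    obtain ⟨e, he, h1, h2, h3⟩ := hf (γ t)
    have d : DifferentiableAt ℝ (e ∘ γ) t := (((br_md he).mdifferentiableAt h1).comp t
      (hγ.mdifferentiableAt one_ne_zero)).differentiableAt
    have q : e.symm ∘ e ∘ γ =ᶠ[𝓝 t] γ :=
      (hγ.continuous.continuousAt.eventually_mem (e.open_source.mem_nhds h1)).mono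
        fun y hy => e.left_inv hy
    refine ⟨_, (h2.hasFDerivAt.comp_hasDerivAt t d.hasDerivAt).congr_of_eventuallyEq
      (q.symm.fun_comp f), (abs_le_of_sq_le_sq' ((h3 _).trans_eq ?_) (norm_nonneg _)).2⟩
    have k := br_speed he d (e.map_source h1)
    rw [br_norm, q.mfderiv_eq, q.eq_of_nhds] at k
    rw [br_norm]
    exact k.symm
  choose d d1 d2 using key
  have k := intervalIntegral.sub_le_integral_of_hasDeriv_right_of_le zero_le_one
    (fun t _ => (d1 t).continuousAt.continuousWithinAt) (fun t _ => (d1 t).hasDerivWithinAt)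
    cφ.integrableOn_Icc fun t _ => d2 t
  refine k.trans ?_
  rw [Manifold.pathELength_eq_lintegral_mfderiv_Icc] at hl
  simp only [← ofReal_norm] at hl
  rw [← MeasureTheory.ofReal_integral_eq_lintegral_ofReal cφ.integrableOn_Icc
    (Eventually.of_forall fun _ => norm_nonneg _), ENNReal.ofReal_lt_ofReal_iff r0] at hl
  rw [intervalIntegral.integral_of_le zero_le_one, ← MeasureTheory.integral_Icc_eq_integral_Ioc]
  exact hl.le

end Aux

variable {M : Type*} [MetricSpace M] [ChartedSpace (E n) M] [IsManifold 𝓘(ℝ, E n) ∞ M]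
  [Bundle.RiemannianBundle fun x : M => TangentSpace 𝓘(ℝ, E n) x]
  [IsContMDiffRiemannianBundle 𝓘(ℝ, E n) ∞ (E n) fun x : M => TangentSpace 𝓘(ℝ, E n) x]
  [IsRiemannianManifold 𝓘(ℝ, E n) M]

variable (n M) in
theorem exists_rmetric : ∃ g : RMetric n M,
    (∀ e y u v, ip (g.g e y) u v = chartMetric n e y u v) ∧ Compat g ∧
    ∀ e ∈ At n M, ∀ x ∈ e.source, ∀ v : TangentSpace 𝓘(ℝ, E n) x,
      ‖v‖ ^ 2 = ip (g.g e (e x)) (dmap n e x v) (dmap n e x v) :=
  ⟨⟨brG, fun _ => br_smooth, fun _ he _ => br_pos he,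
    fun _ he _ he' _ hx hx' => br_compat he he' hx hx'⟩, fun _ _ _ _ => rfl, ⟨br_up, br_low⟩,
    fun _ he _ => br_dmap he⟩


end Vale.Agent.P219.R
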