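import Vale.Agent.P219.GDefs

/-!
Riemannian calculus in one chart.
-/

open scoped ContDiff Topology Manifold
open Set Filter

set_option maxSynthPendingDepth 3

noncomputable section

namespace Vale.Agent.P219.R

variable {n : ℕ}

variable {A : (Bil n)} {G : (E n) → (Bil n)} {U : Set (E n)} {y : (E n)}

theorem ip_add_left (A : (Bil n)) (u u' v : (E n)) : ip A (u + u') v = ip A u v + ip A u' v := by
  simp [ip]

theorem ip_add_right (A : (Bil n)) (u v v' : (E n)) : ip A u (v + v') = ip A u v + ip A u v' := by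
  simp [ip]

theorem ip_smul_left (A : (Bil n)) (c : ℝ) (u v : (E n)) : ip A (c • u) v = c * ip A u v := by
  simp [ip]

theorem ip_smul_right (A : (Bil n)) (c : ℝ) (u v : (E n)) : ip A u (c • v) = c * ip A u v := by
  simp [ip]

theorem ip_neg_left (A : (Bil n)) (u v : (E n)) : ip A (-u) v = - ip A u v := by simp [ip]

theorem ip_neg_right (A : (Bil n)) (u v : (E n)) : ip A u (-v) = - ip A u v := by
  simp [ip]

theorem ip_sub_left (A : (Bil n)) (u u' v : (E n)) : ip A (u - u') v = ip A u v - ip A u' v := by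
  simp [ip]

theorem ip_sub_right (A : (Bil n)) (u v v' : (E n)) : ip A u (v - v') = ip A u v - ip A u v' := by
  simp [ip]

@[simp] theorem ip_zero_left (A : (Bil n)) (v : (E n)) : ip A 0 v = 0 := by simp [ip]

@[simp] theorem ip_zero_right (A : (Bil n)) (u : (E n)) : ip A u 0 = 0 := by simp [ip]

theorem ip_comm (hA : PD A) (u v : E n) : ip A u v = ip A v u := hA.symm u v

theorem ip_pos (hA : PD A) {u : E n} (hu : u ≠ 0) : 0 < ip A u u := hA.pos u hu

theorem ip_nonneg (hA : PD A) (u : (E n)) : 0 ≤ ip A u u := by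
  rcases eq_or_ne u 0 with rfl | hu
  · simp
  · exact (ip_pos hA hu).le

theorem ip_sq_le (hA : PD A) (u v : (E n)) : ip A u v ^ 2 ≤ ip A u u * ip A v v := by
  rcases eq_or_ne v 0 with rfl | hv
  · simp
  have h1 := ip_pos hA hv
  have h2 := ip_nonneg hA (ip A v v • u - ip A u v • v)
  simp only [ip_sub_left, ip_sub_right, ip_smul_left, ip_smul_right, ip_comm hA v u] at h2
  nlinarith

theorem ip_ext (hA : PD A) {u u' : (E n)} (h : ∀ v, ip A u v = ip A u' v) : u = u' := by
  by_contra hne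
  have h1 := ip_pos hA (sub_ne_zero.2 hne)
  rw [ip_sub_left, h, sub_self] at h1
  exact lt_irrefl _ h1

theorem c0_sum (w : E n) : ∑ i, w i • ev i = w := by
  ext j
  simp [ev, Finset.sum_apply, Pi.single_apply]

theorem c0_cont (A : Bil n) : Continuous fun w : E n => ip A w w := by
  unfold ip
  fun_prop

theorem c0_inv (hA : PD A) : A.IsInvertible :=
  ⟨(A.toLinearMap.linearEquivOfInjective
    ((injective_iff_map_eq_zero _).2 fun u (hu : A u = 0) => by_contra fun h =>
      (hA.pos u h).ne' (by rw [hu]; rfl))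
    (by rw [← (LinearMap.toContinuousLinearMap (E := E n) (F' := ℝ) (𝕜 := ℝ)).finrank_eq]
        exact Subspace.dual_finrank_eq.symm)).toContinuousLinearEquiv, rfl⟩

theorem c0_det (hA : PD A) : (Matrix.of fun i j => ip A (ev i) (ev j)).det ≠ 0 := by
  intro h0
  obtain ⟨c, hc, h1⟩ := Matrix.exists_mulVec_eq_zero_iff.2 h0
  have h2 : ∀ i, A (ev i) (WithLp.toLp 2 c) = 0 := fun i => by
    have h3 := congrFun h1 i
    rw [← c0_sum (WithLp.toLp 2 c), map_sum]
    simpa [Matrix.mulVec, dotProduct, ip, mul_comm] using h3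
  have h3 : A (WithLp.toLp 2 c) (WithLp.toLp 2 c) = 0 := by
    have h4 : ∀ u, A u (WithLp.toLp 2 c) = 0 := fun u => by
      rw [← c0_sum u, map_sum, sum_apply]
      exact Finset.sum_eq_zero fun i _ => by rw [map_smul, smul_apply, h2, smul_zero]
    exact h4 _
  exact (hA.pos _ fun h => hc (by simpa using congrArg WithLp.ofLp h)).ne' h3

/-- The directional derivative of the coefficients. -/
def c0D (G : E n → Bil n) (y a : E n) : Bil n := fderiv ℝ G y a

namespace Good

variable (h : Good G U)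
include h

theorem c0_diff (hy : y ∈ U) : DifferentiableAt ℝ G y :=
  (h.smooth.contDiffAt (h.isOpen.mem_nhds hy)).differentiableAt (by simp)

theorem c0_hasDerivAt {x a b : ℝ → E n} {x' a' b' : E n} {t : ℝ} (ht : x t ∈ U)
    (hx : HasDerivAt x x' t) (ha : HasDerivAt a a' t) (hb : HasDerivAt b b' t) :
    HasDerivAt (fun s => ip (G (x s)) (a s) (b s))
      (ip (c0D G (x t) x') (a t) (b t) + ip (G (x t)) a' (b t) + ip (G (x t)) (a t) b') t :=
  (((h.c0_diff ht).hasFDerivAt.comp_hasDerivAt t hx).clm_apply ha).clm_apply hb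

theorem dG_eq (hy : y ∈ U) (a u v : (E n)) : dG G y a u v = ip (c0D G y a) u v := by
  have h1 : HasDerivAt (fun t : ℝ => y + t • a) a 0 := by
    simpa using ((hasDerivAt_id (0 : ℝ)).smul_const a).const_add y
  have h2 := h.c0_hasDerivAt (by simpa using hy) h1 (hasDerivAt_const _ u) (hasDerivAt_const _ v)
  rw [dG, lineDeriv, h2.deriv]
  simp

theorem dG_symm (hy : y ∈ U) (a u v : (E n)) : dG G y a u v = dG G y a v u :=
  Filter.EventuallyEq.lineDeriv_eq (by
    filter_upwards [h.isOpen.mem_nhds hy] with z hz using ip_comm (h.pos z hz) u v)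

theorem dG_add₁ (hy : y ∈ U) (a a' u v : E n) :
    dG G y (a + a') u v = dG G y a u v + dG G y a' u v := by
  simp [h.dG_eq hy, c0D, ip]

theorem dG_smul₁ (hy : y ∈ U) (c : ℝ) (a u v : E n) : dG G y (c • a) u v = c * dG G y a u v := by
  simp [h.dG_eq hy, c0D, ip]

theorem dG_add₂ (hy : y ∈ U) (a u u' v : (E n)) :
    dG G y a (u + u') v = dG G y a u v + dG G y a u' v := by
  simp only [h.dG_eq hy, ip_add_left]

theorem dG_smul₂ (hy : y ∈ U) (c : ℝ) (a u v : (E n)) : dG G y a (c • u) v = c * dG G y a u v := by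
  simp only [h.dG_eq hy, ip_smul_left]

theorem dG_add₃ (hy : y ∈ U) (a u v v' : (E n)) :
    dG G y a u (v + v') = dG G y a u v + dG G y a u v' := by
  simp only [h.dG_eq hy, ip_add_right]

theorem dG_smul₃ (hy : y ∈ U) (c : ℝ) (a u v : (E n)) : dG G y a u (c • v) = c * dG G y a u v := by
  simp only [h.dG_eq hy, ip_smul_right]

theorem c0D_smooth : ContDiffOn ℝ ∞ (fderiv ℝ G) U :=
  h.smooth.fderiv_of_isOpen h.isOpen (by simp)

theorem dG_smooth : ContDiffOn ℝ ∞
    (fun z : E n × E n × E n × E n => dG G z.1 z.2.1 z.2.2.1 z.2.2.2) (U ×ˢ univ) := by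
  refine ContDiffOn.congr (f := fun z => fderiv ℝ G z.1 z.2.1 z.2.2.1 z.2.2.2) ?_
    fun z hz => h.dG_eq hz.1 _ _ _
  exact (((h.c0D_smooth.comp contDiffOn_fst fun _ hz => hz.1).clm_apply (by fun_prop)).clm_apply
    (by fun_prop)).clm_apply (by fun_prop)

theorem ip_smooth (u v : E n) : ContDiffOn ℝ ∞ (fun y => ip (G y) u v) U :=
  (h.smooth.clm_apply contDiffOn_const).clm_apply contDiffOn_const

theorem ip_chr (hy : y ∈ U) (u v w : E n) :
    ip (G y) (chr G y u v) w = (dG G y u v w + dG G y v u w - dG G y w u v) / 2 := by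
  have h1 : ∀ j, ip (G y) (chr G y u v) (ev j) =
      (dG G y u v (ev j) + dG G y v u (ev j) - dG G y (ev j) u v) / 2 := fun j => by
    have h2 := congrFun (Matrix.mulVec_mulVec (fun l => (dG G y u v (ev l) + dG G y v u (ev l) -
      dG G y (ev l) u v) / 2) (Matrix.of fun i j => ip (G y) (ev i) (ev j))
      (Matrix.of fun i j => ip (G y) (ev i) (ev j))⁻¹) j
    rw [Matrix.mul_nonsing_inv _ (c0_det (h.pos y hy)).isUnit, Matrix.one_mulVec] at h2
    rw [← h2, ip_comm (h.pos y hy)]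
    simp only [chr, P219.chr, ip, map_sum, map_smul, smul_eq_mul, Matrix.mulVec, dotProduct,
      Matrix.of_apply]
    exact Finset.sum_congr rfl fun k _ => mul_comm _ _
  conv_lhs => rw [← c0_sum w]
  conv_rhs => rw [← c0_sum w]
  simp only [h.dG_eq hy, c0D] at h1 ⊢
  simp only [ip, map_sum, map_smul, smul_eq_mul, sum_apply,
    smul_apply] at h1 ⊢
  simp only [h1, ← Finset.sum_add_distrib, ← Finset.sum_sub_distrib, Finset.sum_div]
  exact Finset.sum_congr rfl fun k _ => by ring

theorem chr_symm (hy : y ∈ U) (u v : (E n)) : chr G y u v = chr G y v u := by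
  refine ip_ext (h.pos y hy) fun w => ?_
  rw [h.ip_chr hy, h.ip_chr hy, h.dG_symm hy w u v]
  ring

theorem chr_add (hy : y ∈ U) (u v v' : (E n)) : chr G y u (v + v') = chr G y u v + chr G y u v' := by
  refine ip_ext (h.pos y hy) fun w => ?_
  simp only [ip_add_left, h.ip_chr hy, h.dG_add₁ hy, h.dG_add₂ hy, h.dG_add₃ hy]
  ring

theorem chr_smul (hy : y ∈ U) (c : ℝ) (u v : (E n)) : chr G y u (c • v) = c • chr G y u v := by
  refine ip_ext (h.pos y hy) fun w => ?_
  simp only [ip_smul_left, h.ip_chr hy, h.dG_smul₁ hy, h.dG_smul₂ hy, h.dG_smul₃ hy]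
  ring

theorem chr_smooth :
    ContDiffOn ℝ ∞ (fun z : E n × E n × E n => chr G z.1 z.2.1 z.2.2) (U ×ˢ univ) := by
  have h1 : ContDiffOn ℝ ∞ (fun z : E n × E n × E n => fderiv ℝ G z.1) (U ×ˢ univ) :=
    h.c0D_smooth.comp contDiffOn_fst fun _ hz => hz.1
  have h2 : ContDiffOn ℝ ∞ (fun z : E n × E n × E n => (G z.1).inverse) (U ×ˢ univ) :=
    fun z hz => ContDiffAt.comp_contDiffWithinAt (f := fun z : E n × E n × E n => G z.1) z
      (c0_inv (h.pos _ hz.1)).contDiffAt_map_inverse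
      ((h.smooth.comp contDiffOn_fst fun _ hz => hz.1) z hz)
  refine ContDiffOn.congr (f := fun z => (G z.1).inverse ((2 : ℝ)⁻¹ •
    (fderiv ℝ G z.1 z.2.1 z.2.2 + fderiv ℝ G z.1 z.2.2 z.2.1 -
      ((fderiv ℝ G z.1).flip z.2.1).flip z.2.2))) (h2.clm_apply (ContDiffOn.const_smul _
        (ContDiffOn.sub (ContDiffOn.add ?_ ?_) ?_))) fun z hz => ?_
  · exact (h1.clm_apply (by fun_prop)).clm_apply (by fun_prop)
  · exact (h1.clm_apply (by fun_prop)).clm_apply (by fun_prop)
  · refine contDiffOn_clm_apply.2 fun w => ?_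
    exact ((h1.clm_apply contDiffOn_const).clm_apply (by fun_prop)).clm_apply (by fun_prop)
  · refine (((c0_inv (h.pos _ hz.1)).inverse_apply_eq).2 ?_).symm
    ext w
    have h3 := h.ip_chr hz.1 z.2.1 z.2.2 w
    simp only [h.dG_eq hz.1, c0D, ip] at h3
    simp only [h3, smul_apply, sub_apply,
      add_apply, ContinuousLinearMap.flip_apply, smul_eq_mul]
    ring

theorem Wf_smooth : ContDiffOn ℝ ∞ (Wf G) (U ×ˢ univ) := by
  exact contDiffOn_snd.prodMk (h.chr_smooth.comp (f := fun z : (E n) × (E n) => (z.1, z.2, z.2))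
    (by fun_prop) fun z hz => ⟨hz.1, trivial⟩).neg

/-- The connection is metric. -/
theorem hasDerivAt_ip {x a b : ℝ → (E n)} {x' a' b' : (E n)} {t : ℝ} (ht : x t ∈ U)
    (hx : HasDerivAt x x' t) (ha : HasDerivAt a a' t) (hb : HasDerivAt b b' t) :
    HasDerivAt (fun s => ip (G (x s)) (a s) (b s))
      (ip (G (x t)) (a' + chr G (x t) x' (a t)) (b t) +
        ip (G (x t)) (a t) (b' + chr G (x t) x' (b t))) t := by
  refine (h.c0_hasDerivAt ht hx ha hb).congr_deriv ?_
  rw [ip_add_left, ip_add_right, ip_comm (h.pos _ ht) (a t) (chr _ _ _ _), h.ip_chr ht,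
    h.ip_chr ht, ← h.dG_eq ht, h.dG_symm ht x' (b t) (a t)]
  ring

end Good

end Vale.Agent.P219.R
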