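import Vale.Agent.P219.Chart0

/-!
Jacobi fields and changes of coordinates in one chart.
-/

open scoped ContDiff Topology Manifold
open Set Filter

set_option maxSynthPendingDepth 3

noncomputable section

namespace Vale.Agent.P219.R

variable {n : ℕ}

variable {A : (Bil n)} {G : (E n) → (Bil n)} {U : Set (E n)} {y : (E n)}

theorem c1_line (y a : (E n)) : HasDerivAt (fun r : ℝ => y + r • a) a 0 := by
  simpa using ((hasDerivAt_id (0 : ℝ)).smul_const a).const_add y

theorem c1_fst {x v : ℝ → (E n)} {p : (E n) × (E n)} {t : ℝ} (h : HasDerivAt (fun s => (x s, v s)) p t) :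
    HasDerivAt x p.1 t := (ContinuousLinearMap.fst ℝ (E n) (E n)).hasFDerivAt.comp_hasDerivAt t h

theorem c1_snd {x v : ℝ → (E n)} {p : (E n) × (E n)} {t : ℝ} (h : HasDerivAt (fun s => (x s, v s)) p t) :
    HasDerivAt v p.2 t := (ContinuousLinearMap.snd ℝ (E n) (E n)).hasFDerivAt.comp_hasDerivAt t h

theorem c1_two : (2 : WithTop ℕ∞) ≤ ∞ := WithTop.coe_le_coe.mpr le_top

/-- The derivative of a function that is linear in two of its three arguments. -/
theorem c1_tri {V : Type*} [NormedAddCommGroup V] [NormedSpace ℝ V] (F : (E n) → (E n) → (E n) → V)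
    {x a b : ℝ → (E n)} {x' a' b' : (E n)} {t : ℝ}
    (hF : DifferentiableAt ℝ (fun z : (E n) × (E n) × (E n) => F z.1 z.2.1 z.2.2) (x t, a t, b t))
    (h1 : ∀ r : ℝ, F (x t) (a t + r • a') (b t) = F (x t) (a t) (b t) + r • F (x t) a' (b t))
    (h2 : ∀ r : ℝ, F (x t) (a t) (b t + r • b') = F (x t) (a t) (b t) + r • F (x t) (a t) b')
    (hx : HasDerivAt x x' t) (ha : HasDerivAt a a' t) (hb : HasDerivAt b b' t) :
    HasDerivAt (fun s => F (x s) (a s) (b s))
      (lineDeriv ℝ (fun z => F z (a t) (b t)) (x t) x' + F (x t) a' (b t) + F (x t) (a t) b') t := by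
  obtain ⟨L, hL⟩ := hF
  have key : ∀ {c : ℝ → (E n) × (E n) × (E n)} {c' : (E n) × (E n) × (E n)}, c 0 = (x t, a t, b t) → HasDerivAt c c' 0 →
      HasDerivAt (fun r => F (c r).1 (c r).2.1 (c r).2.2) (L c') 0 := fun {c c'} h0 hc =>
    (h0 ▸ hL).comp_hasDerivAt 0 hc
  have hl : ∀ p q : V, HasDerivAt (fun r : ℝ => p + r • q) q 0 := fun p q => by
    simpa using ((hasDerivAt_id (0 : ℝ)).smul_const q).const_add p
  have e0 := (key (by simp) ((c1_line (x t) x').prodMk ((hasDerivAt_const _ (a t)).prodMk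
    (hasDerivAt_const _ (b t))))).deriv
  have e1 := key (by simp) ((hasDerivAt_const _ (x t)).prodMk ((c1_line (a t) a').prodMk
    (hasDerivAt_const _ (b t))))
  have e2 := key (by simp) ((hasDerivAt_const _ (x t)).prodMk ((hasDerivAt_const _ (a t)).prodMk
    (c1_line (b t) b')))
  simp only [h1] at e1
  simp only [h2] at e2
  refine (hL.comp_hasDerivAt t (hx.prodMk (ha.prodMk hb))).congr_deriv ?_
  rw [lineDeriv, e0, ← e1.unique (hl _ _), ← e2.unique (hl _ _), ← map_add, ← map_add]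
  simp

namespace Good

variable (h : Good G U)
include h

theorem c1_add_left (hy : y ∈ U) (u u' v : (E n)) :
    chr G y (u + u') v = chr G y u v + chr G y u' v := by
  rw [h.chr_symm hy, h.chr_add hy, h.chr_symm hy v, h.chr_symm hy v]

theorem c1_smul_left (hy : y ∈ U) (c : ℝ) (u v : (E n)) : chr G y (c • u) v = c • chr G y u v := by
  rw [h.chr_symm hy, h.chr_smul hy, h.chr_symm hy v]

theorem c1_neg_left (hy : y ∈ U) (u v : (E n)) : chr G y (-u) v = -chr G y u v := by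
  rw [← neg_one_smul ℝ u, h.c1_smul_left hy, neg_one_smul]

theorem c1_nhds (hy : y ∈ U) {V : Type*} [TopologicalSpace V] (w : V) :
    U ×ˢ (univ : Set V) ∈ 𝓝 (y, w) :=
  (h.isOpen.prod isOpen_univ).mem_nhds ⟨hy, trivial⟩

theorem c1_hasDerivAt_chr {x a b : ℝ → (E n)} {x' a' b' : (E n)} {t : ℝ} (ht : x t ∈ U)
    (hx : HasDerivAt x x' t) (ha : HasDerivAt a a' t) (hb : HasDerivAt b b' t) :
    HasDerivAt (fun s => chr G (x s) (a s) (b s))
      (lineDeriv ℝ (fun z => chr G z (a t) (b t)) (x t) x' + chr G (x t) a' (b t) +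
        chr G (x t) (a t) b') t :=
  c1_tri (chr G) ((h.chr_smooth.contDiffAt (h.c1_nhds ht _)).differentiableAt (by simp))
    (fun r => by rw [h.c1_add_left ht, h.c1_smul_left ht])
    (fun r => by rw [h.chr_add ht, h.chr_smul ht]) hx ha hb

theorem c1_fderiv_Wf (hy : y ∈ U) (v J K : (E n)) : fderiv ℝ (Wf G) (y, v) (J, K) =
    (K, -(lineDeriv ℝ (fun z => chr G z v v) y J + chr G y K v + chr G y v K)) := by
  have h1 : HasFDerivAt (Wf G) (fderiv ℝ (Wf G) (y, v)) (y + (0 : ℝ) • J, v + (0 : ℝ) • K) := by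
    simpa using ((h.Wf_smooth.contDiffAt (h.c1_nhds hy v)).differentiableAt (by simp)).hasFDerivAt
  have h2 := h1.comp_hasDerivAt (0 : ℝ) ((c1_line y J).prodMk (c1_line v K))
  have h3 := (c1_line v K).prodMk (h.c1_hasDerivAt_chr (by simpa using hy) (c1_line y J)
    (c1_line v K) (c1_line v K)).fun_neg
  simpa using h2.unique h3

theorem c1_line_symm (hy : y ∈ U) (a u v : (E n)) :
    lineDeriv ℝ (fun z => chr G z u v) y a = lineDeriv ℝ (fun z => chr G z v u) y a :=
  Filter.EventuallyEq.lineDeriv_eq (by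
    filter_upwards [h.isOpen.mem_nhds hy] with z hz using h.chr_symm hz u v)

theorem c1_alg (hy : y ∈ U) (v J K P : (E n)) :
    P + (lineDeriv ℝ (fun z => chr G z v J) y v + chr G y (-chr G y v v) J + chr G y v K) +
      chr G y v (K + chr G y v J) + riem G y J v v =
      P + (lineDeriv ℝ (fun z => chr G z v v) y J + chr G y K v + chr G y v K) := by
  rw [riem, h.chr_add hy, h.c1_neg_left hy, h.c1_line_symm hy v J v, h.chr_symm hy J v,
    h.chr_symm hy J, h.chr_symm hy K v]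
  abel

/-- Solutions of the linearized geodesic equation are Jacobi fields. -/
theorem jacobi_of_lin {x v J K : ℝ → (E n)} {t : ℝ} (ht : x t ∈ U)
    (hx : ∀ᶠ s in 𝓝 t, HasDerivAt (fun s => (x s, v s)) (Wf G (x s, v s)) s)
    (hJ : ∀ᶠ s in 𝓝 t, HasDerivAt (fun s => (J s, K s))
      (fderiv ℝ (Wf G) (x s, v s) (J s, K s)) s) :
    HasDerivAt J (K t) t ∧ DifferentiableAt ℝ (cov G x J) t ∧
      cov G x (cov G x J) t + riem G (x t) (J t) (deriv x t) (deriv x t) = 0 := by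
  have hx0 := hx.self_of_nhds
  have hJ0 := hJ.self_of_nhds
  rw [h.c1_fderiv_Wf ht] at hJ0
  have hxt : ∀ᶠ s in 𝓝 t, x s ∈ U := (c1_fst hx0).continuousAt (h.isOpen.mem_nhds ht)
  have h1 : cov G x J =ᶠ[𝓝 t] fun s => K s + chr G (x s) (v s) (J s) := by
    filter_upwards [hx, hJ, hxt] with s a1 a2 a3
    rw [h.c1_fderiv_Wf a3] at a2
    rw [cov, show deriv x s = v s from (c1_fst a1).deriv, show deriv J s = K s from (c1_fst a2).deriv]
  have h2 := ((c1_snd hJ0).fun_add
    (h.c1_hasDerivAt_chr ht (c1_fst hx0) (c1_snd hx0) (c1_fst hJ0))).congr_of_eventuallyEq h1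
  refine ⟨(c1_fst hJ0), h2.differentiableAt, ?_⟩
  rw [cov, h2.deriv, h1.self_of_nhds, show deriv x t = v t from (c1_fst hx0).deriv]
  exact (h.c1_alg ht _ _ _ _).trans (neg_add_cancel _)

/-- Jacobi fields solve the linearized geodesic equation. -/
theorem lin_of_jacobi {x v J : ℝ → (E n)} {t : ℝ} (ht : x t ∈ U)
    (hx : ∀ᶠ s in 𝓝 t, HasDerivAt (fun s => (x s, v s)) (Wf G (x s, v s)) s)
    (hJ : ∀ᶠ s in 𝓝 t, DifferentiableAt ℝ J s ∧ DifferentiableAt ℝ (cov G x J) s ∧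
      cov G x (cov G x J) s + riem G (x s) (J s) (deriv x s) (deriv x s) = 0) :
    ∀ᶠ s in 𝓝 t, HasDerivAt (fun s => (J s, deriv J s))
      (fderiv ℝ (Wf G) (x s, v s) (J s, deriv J s)) s := by
  have hxt : ∀ᶠ s in 𝓝 t, x s ∈ U := (c1_fst hx.self_of_nhds).continuousAt (h.isOpen.mem_nhds ht)
  filter_upwards [hx.eventually_nhds, hJ, hxt] with s a1 a2 a3
  have a0 := a1.self_of_nhds
  have hv : deriv x s = v s := (c1_fst a0).deriv
  have h1 : deriv J =ᶠ[𝓝 s] fun r => cov G x J r - chr G (x r) (v r) (J r) := by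
    filter_upwards [a1] with r b1
    rw [cov, show deriv x r = v r from (c1_fst b1).deriv, add_sub_cancel_right]
  have h2 := (a2.2.1.hasDerivAt.fun_sub
    (h.c1_hasDerivAt_chr a3 (c1_fst a0) (c1_snd a0) a2.1.hasDerivAt)).congr_of_eventuallyEq h1
  rw [h.c1_fderiv_Wf a3]
  refine a2.1.hasDerivAt.prodMk (h2.congr_deriv (eq_neg_of_add_eq_zero_left ?_))
  have h3 := a2.2.2
  rw [cov, cov, hv] at h3
  refine (h.c1_alg a3 _ _ _ _).symm.trans (Eq.trans ?_ h3)
  simp only [Wf, sub_add_cancel]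

/-- Transformation of the Christoffel map under a local isometry. -/
theorem chr_transform {G' : (E n) → (Bil n)} {U' : Set (E n)} (h' : Good G' U') {φ : (E n) → (E n)} (hy : y ∈ U)
    (hy' : φ y ∈ U') (hφ : ContDiffAt ℝ ∞ φ y)
    (hiso : ∀ᶠ z in 𝓝 y, ∀ u v, ip (G z) u v = ip (G' (φ z)) (fderiv ℝ φ z u) (fderiv ℝ φ z v))
    (u v : (E n)) : fderiv ℝ φ y (chr G y u v) =
      chr G' (φ y) (fderiv ℝ φ y u) (fderiv ℝ φ y v) + fderiv ℝ (fun z => fderiv ℝ φ z v) y u := by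
  have hA : HasFDerivAt (fderiv ℝ φ) (fderiv ℝ (fderiv ℝ φ) y) y :=
    ((hφ.fderiv_right (m := 1) c1_two).differentiableAt (by simp)).hasFDerivAt
  have hs : ∀ a b, fderiv ℝ (fderiv ℝ φ) y a b = fderiv ℝ (fderiv ℝ φ) y b a :=
    hφ.isSymmSndFDerivAt (by simp only [minSmoothness_of_isRCLikeNormedField]; exact c1_two)
  obtain ⟨B, hB⟩ : ∃ B, B = fderiv ℝ (fderiv ℝ φ) y := ⟨_, rfl⟩
  rw [← hB] at hA hs
  have hA' : ∀ w, HasFDerivAt (fun z => fderiv ℝ φ z w) (B.flip w) y := fun w => by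
    simpa using hA.clm_apply (hasFDerivAt_const w y)
  have hφ' : HasFDerivAt φ (fderiv ℝ φ y) y := (hφ.differentiableAt (by simp)).hasFDerivAt
  have hd : ∀ a u v, dG G y a u v =
      dG G' (φ y) (fderiv ℝ φ y a) (fderiv ℝ φ y u) (fderiv ℝ φ y v) +
      ip (G' (φ y)) (B a u) (fderiv ℝ φ y v) + ip (G' (φ y)) (fderiv ℝ φ y u) (B a v) := by
    intro a u v
    have l0 : y + (0 : ℝ) • a = y := by simp
    have h1 := h'.c0_hasDerivAt (x := fun r : ℝ => φ (y + r • a)) (by simpa using hy')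
      ((l0 ▸ hφ').comp_hasDerivAt (0 : ℝ) (c1_line y a))
      ((l0 ▸ hA' u).comp_hasDerivAt (0 : ℝ) (c1_line y a))
      ((l0 ▸ hA' v).comp_hasDerivAt (0 : ℝ) (c1_line y a))
    have h2 : (fun z => ip (G z) u v) =ᶠ[𝓝 y]
        fun z => ip (G' (φ z)) (fderiv ℝ φ z u) (fderiv ℝ φ z v) := hiso.mono fun z hz => hz u v
    rw [dG, h2.lineDeriv_eq, lineDeriv, h'.dG_eq hy']
    simpa using h1.deriv
  have hinj : Function.Injective (fderiv ℝ φ y) := by
    rw [injective_iff_map_eq_zero]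
    intro w hw
    by_contra hne
    have h1 := ip_pos (h.pos y hy) hne
    rw [hiso.self_of_nhds, hw, ip_zero_left] at h1
    exact lt_irrefl _ h1
  have hsurj : Function.Surjective (fderiv ℝ φ y) :=
    (LinearMap.injective_iff_surjective (f := (fderiv ℝ φ y).toLinearMap)).mp hinj
  refine ip_ext (h'.pos _ hy') fun w' => ?_
  obtain ⟨w, rfl⟩ := hsurj w'
  rw [← hiso.self_of_nhds, ip_add_left, h.ip_chr hy, h'.ip_chr hy', hd, hd, hd, (hA' v).fderiv,
    ContinuousLinearMap.flip_apply, hs v u, hs w u, hs w v,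
    ip_comm (h'.pos _ hy') (fderiv ℝ φ y v) (B u w)]
  ring

end Good

end Vale.Agent.P219.R
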