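import Vale.Agent.P219.Dens

/-!
The error terms of the transfer lemma for a cutoff of the quotient.
-/

open scoped ContDiff Topology ENNReal
open MeasureTheory Set Filter Metric

noncomputable section

namespace Vale.Agent.P219

variable {n k : ℕ} {b : ℝ}

theorem errs_amgm {m l w ε : ℝ} (hm : 0 ≤ m) (hε : 0 < ε) :
    l * m * w ≤ ε * (l ^ 2 * m) + m * w ^ 2 / ε := by
  have h : 0 ≤ m * ((ε * l - w / 2) ^ 2 + 3 / 4 * w ^ 2) / ε := by positivity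
  have e : m * ((ε * l - w / 2) ^ 2 + 3 / 4 * w ^ 2) / ε =
      ε * (l ^ 2 * m) + m * w ^ 2 / ε - l * m * w := by
    field_simp
    ring
  linarith

theorem errs_be {x : ℝ} (hx : 0 < x) {j : ℕ} : (x ^ be (j + 2)) ^ 2 = x ^ j := by
  rw [← Real.rpow_natCast, ← Real.rpow_mul hx.le, ← Real.rpow_natCast]
  congr 1
  simp only [be]
  push_cast
  ring

theorem errs_aa {τ : ℝ} (h0 : 0 < τ) (h1 : τ ≤ 1) : aa b τ ≤ 1 + b ^ 2 / 4 := by
  have : τ ^ 2 ≤ 1 := pow_le_one₀ h0.le h1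
  have := mul_le_mul_of_nonneg_left this (sq_nonneg b)
  simp only [aa]
  linarith

namespace Geo

variable (Γ : Geo (k + 1) b) {W : Vf (k + 1)} {h : ℝ} {γ : E (k + 1) → ℝ} {K : Set (E (k + 1))}

theorem errs_P (o : E (k + 1)) {τ : ℝ} (hτ : 0 < τ) (z : E (k + 1) × E (k + 1)) :
    Γ.la o τ z.1 ^ 2 * (Γ.pn o z ^ 2 / (τ ^ 2 + 2 * Γ.σ o z.1)) ≤ aa b τ * Γ.P o τ z ^ 2 := by
  have hA := aa_ge b τ
  have hs := Γ.nonneg o z.1
  have hD := Γ.D_pos o hτ z.1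
  have hT : 0 < τ ^ 2 + 2 * Γ.σ o z.1 := by positivity
  have e1 : Γ.la o τ z.1 ^ 2 * (Γ.pn o z ^ 2 / (τ ^ 2 + 2 * Γ.σ o z.1)) =
      (2 * Γ.pn o z / Γ.D o τ z.1) ^ 2 * (τ ^ 2 / (τ ^ 2 + 2 * Γ.σ o z.1)) := by
    simp only [la]
    field_simp
  have e2 : aa b τ * Γ.P o τ z ^ 2 = (2 * Γ.pn o z / Γ.D o τ z.1) ^ 2 * aa b τ ^ 3 := by
    simp only [P]
    field_simp
  rw [e1, e2]
  refine mul_le_mul_of_nonneg_left ?_ (sq_nonneg _)
  have h1 : τ ^ 2 / (τ ^ 2 + 2 * Γ.σ o z.1) ≤ 1 := by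
    rw [div_le_one hT]
    linarith
  exact h1.trans (one_le_pow₀ hA)

theorem errs (hk : 3 ≤ k) (hF : Γ.FV W h γ) (hK : IsCompact K) {χ : ℝ → ℝ} (hχ : ContDiff ℝ 1 χ)
    {L g a₀ N η : ℝ} (hg : 0 < g) (h0 : ∀ t, t ≤ g → χ t = 0) (h1 : ∀ t, 0 ≤ χ t ∧ χ t ≤ 1)
    (hL : ∀ t, |deriv χ t| ≤ L) (ha₀ : 0 < a₀) (hη : 0 < η) :
    ∃ δ > 0, ∀ o ∈ K, ∀ τ : ℝ, 0 < τ → τ ≤ 1 → ∀ u : E (k + 1) → ℝ, ContDiff ℝ 1 u →
      (∀ x, 0 ≤ u x) → ∀ a ≥ a₀, ∫ z, u z.1 ^ 2 * Γ.la o τ z.1 ^ 2 ∂W.V ≤ N →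
      ∫ z, ‖Γ.er o τ u z‖ ^ 2 ∂W.V ≤ δ → ∫ z, u z.1 ^ 2 * (Γ.P o τ z - γ z.1) ^ 2 ∂W.V ≤ δ →
      ∫ z, u z.1 ^ 2 ∂W.V ≤ δ →
      ∫ w, lam (Γ.σ o w.1) τ ^ (k - 1) *
          (‖Γ.gt (fun x => χ (Γ.vv o τ u x / a)) w‖ + χ (Γ.vv o τ u w.1 / a)) ∂W.V ≤ η ∧
        ∫ w, χ (Γ.vv o τ u w.1 / a) * lam (Γ.σ o w.1) τ ^ k *
          (Γ.pn o w ^ 2 / (τ ^ 2 + 2 * Γ.σ o w.1)) ∂W.V ≤ η := by
  obtain ⟨C, hC, hCl⟩ := Γ.dens_lam hk hF hK
  obtain ⟨j, rfl⟩ : ∃ j, k = j + 2 := ⟨k - 2, by omega⟩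
  have hL0 : 0 ≤ L := (abs_nonneg _).trans (hL 0)
  obtain ⟨A, hA⟩ : ∃ A : ℝ, A = 1 + b ^ 2 / 4 := ⟨_, rfl⟩
  have hA1 : 1 ≤ A := by rw [hA]; nlinarith [sq_nonneg b]
  obtain ⟨M, hM⟩ : ∃ M : ℝ, M = A ^ (j + 3) * (L / a₀ + 1 / (g * a₀) ^ 2) := ⟨_, rfl⟩
  have hM0 : 0 < M := by rw [hM]; positivity
  have hM1 : A ^ (j + 1) * (L / a₀) ≤ M := by
    rw [hM]
    exact mul_le_mul (pow_le_pow_right₀ hA1 (by omega)) (le_add_of_nonneg_right (by positivity))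
      (by positivity) (by positivity)
  have hM2 : A ^ (j + 1) * (1 / (g * a₀) ^ 2) ≤ M := by
    rw [hM]
    exact mul_le_mul (pow_le_pow_right₀ hA1 (by omega)) (le_add_of_nonneg_left (by positivity))
      (by positivity) (by positivity)
  have hM3 : A ^ (j + 3) * (1 / (g * a₀) ^ 2) ≤ M := by
    rw [hM]
    exact mul_le_mul_of_nonneg_left (le_add_of_nonneg_left (by positivity)) (by positivity)
  obtain ⟨ε, hε⟩ : ∃ ε : ℝ, ε = η / (2 * M * (C + |N|)) := ⟨_, rfl⟩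
  have hε0 : 0 < ε := by rw [hε]; positivity
  refine ⟨min (η * ε / (4 * M)) (η / (M * (2 + 2 * h ^ 2))), by positivity, ?_⟩
  intro o ho τ hτ hτ1 u hu hu0 a ha hN he hP hu2
  have hδ1 := min_le_left (η * ε / (4 * M)) (η / (M * (2 + 2 * h ^ 2)))
  have hδ2 := min_le_right (η * ε / (4 * M)) (η / (M * (2 + 2 * h ^ 2)))
  generalize min (η * ε / (4 * M)) (η / (M * (2 + 2 * h ^ 2))) = δ at *
  have ha' : 0 < a := lt_of_lt_of_le ha₀ ha
  have hv := Γ.vv_sm o hτ hu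
  have hθ : ContDiff ℝ 1 fun x => χ (Γ.vv o τ u x / a) := hχ.comp (hv.div_const a)
  have hla := Γ.la_pos o hτ
  have hlam : ∀ x, lam (Γ.σ o x) τ ≤ A * Γ.la o τ x := fun x =>
    (Γ.lam_le_la o hτ x).trans
      (mul_le_mul_of_nonneg_right (hA ▸ errs_aa hτ hτ1) (hla x).le)
  have hlam0 : ∀ x, 0 < lam (Γ.σ o x) τ := fun x => lam_pos (Γ.nonneg o x) hτ
  have huv : ∀ x, u x ^ 2 = Γ.la o τ x ^ j * Γ.vv o τ u x ^ 2 := by
    intro x
    have hp : 0 < Γ.la o τ x ^ be (j + 2) := Real.rpow_pos_of_pos (hla x) _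
    rw [← errs_be (hla x), vv]
    field_simp
  have hth : ∀ x, χ (Γ.vv o τ u x / a) ≤ Γ.vv o τ u x ^ 2 * (1 / (g * a₀) ^ 2) := by
    intro x
    rcases le_or_gt (Γ.vv o τ u x / a) g with hx | hx
    · rw [h0 _ hx]
      positivity
    · rw [lt_div_iff₀ ha'] at hx
      have h2 : g * a₀ ≤ Γ.vv o τ u x := (mul_le_mul_of_nonneg_left ha hg.le).trans hx.le
      refine (h1 _).2.trans ?_
      rw [mul_one_div, le_div_iff₀ (by positivity), one_mul]
      exact pow_le_pow_left₀ (by positivity) h2 2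
  have hgt : ∀ w, ‖Γ.gt (fun x => χ (Γ.vv o τ u x / a)) w‖ ≤ L / a₀ * ‖Γ.gt (Γ.vv o τ u) w‖ := by
    intro w
    have hd : HasDerivAt (fun t => χ (t / a)) (deriv χ (Γ.vv o τ u w.1 / a) * (1 / a))
        (Γ.vv o τ u w.1) :=
      ((hχ.differentiable one_ne_zero _).hasDerivAt).comp _ ((hasDerivAt_id _).div_const a)
    rw [Γ.gt_comp (f := Γ.vv o τ u) hd (hv.differentiable one_ne_zero _), norm_smul,
      Real.norm_eq_abs, abs_mul, abs_of_pos (show 0 < 1 / a by positivity), mul_one_div]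
    refine mul_le_mul_of_nonneg_right ?_ (norm_nonneg _)
    exact div_le_div₀ hL0 (hL _) ha₀ ha
  have her : ∀ w, ‖Γ.er o τ u w‖ ^ 2 = Γ.la o τ w.1 ^ j * ‖Γ.gt (Γ.vv o τ u) w‖ ^ 2 := by
    intro w
    rw [Γ.er_eq o hτ hu, norm_smul, mul_pow, Real.norm_eq_abs, sq_abs, errs_be (hla _)]
  have cl : Continuous fun w : E (j + 2 + 1) × E (j + 2 + 1) => lam (Γ.σ o w.1) τ :=
    (Γ.cont_lam o hτ).continuous.comp continuous_fst
  have cla : Continuous fun w : E (j + 2 + 1) × E (j + 2 + 1) => Γ.la o τ w.1 :=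
    (Γ.la_sm o hτ).continuous.comp continuous_fst
  have cu : Continuous fun w : E (j + 2 + 1) × E (j + 2 + 1) => u w.1 :=
    hu.continuous.comp continuous_fst
  have cθ : Continuous fun w : E (j + 2 + 1) × E (j + 2 + 1) => χ (Γ.vv o τ u w.1 / a) :=
    hθ.continuous.comp continuous_fst
  have ce := (Γ.cont_er o hτ hu).norm.pow 2
  have cP : Continuous fun w : E (j + 2 + 1) × E (j + 2 + 1) =>
      u w.1 ^ 2 * (Γ.P o τ w - γ w.1) ^ 2 :=
    (cu.pow 2).mul (((Γ.cont_P o hτ).sub (hF.cont.comp continuous_fst)).pow 2)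
  have i1 : Integrable (fun w : E (j + 2 + 1) × E (j + 2 + 1) =>
      lam (Γ.σ o w.1) τ ^ (j + 2)) W.V := W.integrable (cl.pow (j + 2))
  have i2 : Integrable (fun w => ‖Γ.er o τ u w‖ ^ 2) W.V := W.integrable ce
  have i3 : Integrable (fun w : E (j + 2 + 1) × E (j + 2 + 1) =>
      u w.1 ^ 2 * Γ.la o τ w.1 ^ 2) W.V := W.integrable ((cu.pow 2).mul (cla.pow 2))
  have i4 : Integrable (fun w : E (j + 2 + 1) × E (j + 2 + 1) => u w.1 ^ 2) W.V :=
    W.integrable (cu.pow 2)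
  have i5 := W.integrable cP
  constructor
  · have hle : ∫ w, lam (Γ.σ o w.1) τ ^ (j + 2 - 1) *
          (‖Γ.gt (fun x => χ (Γ.vv o τ u x / a)) w‖ + χ (Γ.vv o τ u w.1 / a)) ∂W.V ≤
        ∫ w, M * ((ε * lam (Γ.σ o w.1) τ ^ (j + 2) + ‖Γ.er o τ u w‖ ^ 2 / ε) +
          (ε * (u w.1 ^ 2 * Γ.la o τ w.1 ^ 2) + u w.1 ^ 2 / ε)) ∂W.V := by
      refine W.integral_mono ((cl.pow _).mul ((Γ.cont_gt hθ).norm.add cθ)) ?_ fun w _ _ => ?_
      · exact continuous_const.mul (((continuous_const.mul (cl.pow _)).add (ce.div_const _)).add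
          ((continuous_const.mul ((cu.pow 2).mul (cla.pow 2))).add ((cu.pow 2).div_const _)))
      · have hl := hla w.1
        have e1 : lam (Γ.σ o w.1) τ ^ (j + 2 - 1) ≤ A ^ (j + 1) * Γ.la o τ w.1 ^ (j + 1) := by
          rw [← mul_pow]
          exact pow_le_pow_left₀ (hlam0 _).le (hlam _) _
        have e2 := errs_amgm (l := Γ.la o τ w.1) (w := ‖Γ.gt (Γ.vv o τ u) w‖)
          (show 0 ≤ Γ.la o τ w.1 ^ j by positivity) hε0
        have e3 := errs_amgm (l := Γ.la o τ w.1) (w := 1) (sq_nonneg (u w.1)) hε0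
        have e4 : Γ.la o τ w.1 ^ 2 * Γ.la o τ w.1 ^ j ≤ lam (Γ.σ o w.1) τ ^ (j + 2) := by
          rw [← pow_add, add_comm 2 j]
          exact pow_le_pow_left₀ hl.le (Γ.la_le_lam o hτ _) _
        have e5 := mul_le_mul_of_nonneg_left e4 hε0.le
        rw [← her] at e2
        calc lam (Γ.σ o w.1) τ ^ (j + 2 - 1) *
              (‖Γ.gt (fun x => χ (Γ.vv o τ u x / a)) w‖ + χ (Γ.vv o τ u w.1 / a))
            ≤ A ^ (j + 1) * Γ.la o τ w.1 ^ (j + 1) * (L / a₀ * ‖Γ.gt (Γ.vv o τ u) w‖ +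
              Γ.vv o τ u w.1 ^ 2 * (1 / (g * a₀) ^ 2)) :=
              mul_le_mul e1 (add_le_add (hgt w) (hth _))
                (add_nonneg (norm_nonneg _) (h1 _).1) (by positivity)
          _ = A ^ (j + 1) * (L / a₀) * (Γ.la o τ w.1 * Γ.la o τ w.1 ^ j *
                ‖Γ.gt (Γ.vv o τ u) w‖) +
              A ^ (j + 1) * (1 / (g * a₀) ^ 2) * (Γ.la o τ w.1 * u w.1 ^ 2 * 1) := by
              rw [huv]; ring
          _ ≤ M * (Γ.la o τ w.1 * Γ.la o τ w.1 ^ j * ‖Γ.gt (Γ.vv o τ u) w‖) +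
              M * (Γ.la o τ w.1 * u w.1 ^ 2 * 1) :=
              add_le_add (mul_le_mul_of_nonneg_right hM1 (by positivity))
                (mul_le_mul_of_nonneg_right hM2 (by positivity))
          _ ≤ _ := by
              rw [← mul_add]
              refine mul_le_mul_of_nonneg_left (add_le_add (by linarith) ?_) hM0.le
              refine e3.trans (le_of_eq ?_)
              ring
    refine hle.trans ?_
    have j1 : Integrable (fun w : E (j + 2 + 1) × E (j + 2 + 1) =>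
        ε * lam (Γ.σ o w.1) τ ^ (j + 2) + ‖Γ.er o τ u w‖ ^ 2 / ε) W.V :=
      (i1.const_mul ε).add (i2.div_const ε)
    have j2 : Integrable (fun w : E (j + 2 + 1) × E (j + 2 + 1) =>
        ε * (u w.1 ^ 2 * Γ.la o τ w.1 ^ 2) + u w.1 ^ 2 / ε) W.V :=
      (i3.const_mul ε).add (i4.div_const ε)
    rw [integral_const_mul, integral_add j1 j2, integral_add (i1.const_mul ε) (i2.div_const ε),
      integral_add (i3.const_mul ε) (i4.div_const ε), integral_const_mul, integral_const_mul,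
      integral_div, integral_div]
    have b1 := mul_le_mul_of_nonneg_left (hCl o ho τ hτ) hε0.le
    have b2 := mul_le_mul_of_nonneg_left (hN.trans (le_abs_self N)) hε0.le
    have b3 := div_le_div_of_nonneg_right (he.trans hδ1) hε0.le
    have b4 := div_le_div_of_nonneg_right (hu2.trans hδ1) hε0.le
    have b5 : M * (ε * C + η * ε / (4 * M) / ε + (ε * |N| + η * ε / (4 * M) / ε)) = η := by
      have : M * (ε * (C + |N|)) = η / 2 := by
        rw [hε]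
        field_simp
      have e : M * (η * ε / (4 * M) / ε) = η / 4 := by field_simp
      linarith [mul_add M (ε * C) (ε * |N|), mul_add ε C |N|]
    refine le_trans (mul_le_mul_of_nonneg_left ?_ hM0.le) b5.le
    exact add_le_add (add_le_add b1 b3) (add_le_add b2 b4)
  · have hle : ∫ w, χ (Γ.vv o τ u w.1 / a) * lam (Γ.σ o w.1) τ ^ (j + 2) *
          (Γ.pn o w ^ 2 / (τ ^ 2 + 2 * Γ.σ o w.1)) ∂W.V ≤
        ∫ w, M * (2 * (u w.1 ^ 2 * (Γ.P o τ w - γ w.1) ^ 2) + 2 * h ^ 2 * u w.1 ^ 2) ∂W.V := by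
      have hT : ∀ x, 0 < τ ^ 2 + 2 * Γ.σ o x := fun x => by
        have := Γ.nonneg o x
        positivity
      refine W.integral_mono ((cθ.mul (cl.pow _)).mul (((Γ.cont_pn o).pow 2).div ?_ ?_)) ?_
        fun w _ _ => ?_
      · exact continuous_const.add
          (continuous_const.mul ((Γ.sm o).continuous.comp continuous_fst))
      · exact fun w => (hT _).ne'
      · exact continuous_const.mul ((continuous_const.mul cP).add
          (continuous_const.mul (cu.pow 2)))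
      · have hl := hla w.1
        have hT' := hT w.1
        have e1 : lam (Γ.σ o w.1) τ ^ (j + 2) ≤ A ^ (j + 2) * Γ.la o τ w.1 ^ (j + 2) := by
          rw [← mul_pow]
          exact pow_le_pow_left₀ (hlam0 _).le (hlam _) _
        have e2 := (Γ.errs_P o hτ w).trans
          (mul_le_mul_of_nonneg_right (hA ▸ errs_aa hτ hτ1 : aa b τ ≤ A) (sq_nonneg _))
        have e3 : Γ.P o τ w ^ 2 ≤ 2 * (Γ.P o τ w - γ w.1) ^ 2 + 2 * h ^ 2 := by
          have := sq_le_sq' (abs_le.1 (hF.bound w.1)).1 (abs_le.1 (hF.bound w.1)).2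
          nlinarith [sq_nonneg (Γ.P o τ w - 2 * γ w.1)]
        calc χ (Γ.vv o τ u w.1 / a) * lam (Γ.σ o w.1) τ ^ (j + 2) *
              (Γ.pn o w ^ 2 / (τ ^ 2 + 2 * Γ.σ o w.1))
            ≤ Γ.vv o τ u w.1 ^ 2 * (1 / (g * a₀) ^ 2) * (A ^ (j + 2) * Γ.la o τ w.1 ^ (j + 2)) *
              (Γ.pn o w ^ 2 / (τ ^ 2 + 2 * Γ.σ o w.1)) :=
              mul_le_mul_of_nonneg_right (mul_le_mul (hth _) e1 (pow_nonneg (hlam0 _).le _)
                (by positivity)) (by positivity)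
          _ = A ^ (j + 2) * (1 / (g * a₀) ^ 2) * u w.1 ^ 2 *
              (Γ.la o τ w.1 ^ 2 * (Γ.pn o w ^ 2 / (τ ^ 2 + 2 * Γ.σ o w.1))) := by
              rw [huv]; ring
          _ ≤ A ^ (j + 2) * (1 / (g * a₀) ^ 2) * u w.1 ^ 2 * (A * Γ.P o τ w ^ 2) :=
              mul_le_mul_of_nonneg_left e2 (by positivity)
          _ = A ^ (j + 3) * (1 / (g * a₀) ^ 2) * (u w.1 ^ 2 * Γ.P o τ w ^ 2) := by ring
          _ ≤ M * (u w.1 ^ 2 * (2 * (Γ.P o τ w - γ w.1) ^ 2 + 2 * h ^ 2)) :=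
              mul_le_mul hM3 (mul_le_mul_of_nonneg_left e3 (sq_nonneg _)) (by positivity) hM0.le
          _ = _ := by ring
    refine hle.trans ?_
    rw [integral_const_mul, integral_add (i5.const_mul 2) (i4.const_mul _), integral_const_mul,
      integral_const_mul]
    have b1 := hP.trans hδ2
    have b2 := mul_le_mul_of_nonneg_left (hu2.trans hδ2) (show 0 ≤ 2 * h ^ 2 by positivity)
    have b5 : M * (2 * (η / (M * (2 + 2 * h ^ 2))) + 2 * h ^ 2 * (η / (M * (2 + 2 * h ^ 2)))) =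
        η := by field_simp
    refine le_trans (mul_le_mul_of_nonneg_left ?_ hM0.le) b5.le
    linarith

end Geo

end Vale.Agent.P219
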