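import Vale.Agent.P219.Fr1

/-!
Level sets.
-/

open scoped ContDiff Topology ENNReal
open MeasureTheory Set Filter Metric

noncomputable section

namespace Vale.Agent.P219

variable {n k : ℕ} {b : ℝ}

variable (W : Vf n) {l v : E n → ℝ}

theorem level_norm (hl : Continuous l) (hl0 : ∀ x, 0 ≤ l x) {f : E n → ℝ} (hf : Continuous f)
    (hf0 : ∀ x, 0 ≤ f x) {q : ℝ} (hq : 0 < q) :
    MemLp (fun z : E n × E n => l z.1 ^ q⁻¹ * f z.1) (ENNReal.ofReal q) W.V ∧
    lpNorm (fun z : E n × E n => l z.1 ^ q⁻¹ * f z.1) (ENNReal.ofReal q) W.V =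
      (∫ z, l z.1 * f z.1 ^ q ∂W.V) ^ q⁻¹ := by
  have hc : Continuous fun z : E n × E n => l z.1 ^ q⁻¹ * f z.1 :=
    ((hl.comp continuous_fst).rpow_const fun _ => Or.inr (by positivity)).mul
      (hf.comp continuous_fst)
  have h0 : ENNReal.ofReal q ≠ 0 := by simpa using hq
  have he : ∀ z : E n × E n, ‖l z.1 ^ q⁻¹ * f z.1‖ ^ q = l z.1 * f z.1 ^ q := by
    intro z
    have h1 := hl0 z.1
    have h2 := hf0 z.1
    rw [Real.norm_of_nonneg (by positivity), Real.mul_rpow (by positivity) h2,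
      Real.rpow_inv_rpow h1 hq.ne']
  refine ⟨?_, ?_⟩
  · rw [← integrable_norm_rpow_iff hc.aestronglyMeasurable h0 ENNReal.ofReal_ne_top]
    exact W.integrable (hc.norm.rpow_const fun _ => Or.inr ENNReal.toReal_nonneg)
  · rw [lpNorm_eq_integral_norm_rpow_toReal h0 ENNReal.ofReal_ne_top hc.aestronglyMeasurable,
      ENNReal.toReal_ofReal hq.le]
    simp only [he]

theorem level_mink (hl : Continuous l) (hl0 : ∀ x, 0 ≤ l x) {f g : E n → ℝ} (hf : Continuous f)
    (hg : Continuous g) (hf0 : ∀ x, 0 ≤ f x) (hg0 : ∀ x, 0 ≤ g x) {q : ℝ} (hq : 1 ≤ q) :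
    (∫ z, l z.1 * (f z.1 + g z.1) ^ q ∂W.V) ^ q⁻¹ ≤
      (∫ z, l z.1 * f z.1 ^ q ∂W.V) ^ q⁻¹ + (∫ z, l z.1 * g z.1 ^ q ∂W.V) ^ q⁻¹ := by
  have hq0 : 0 < q := by linarith
  obtain ⟨m1, e1⟩ := level_norm W hl hl0 hf hf0 hq0
  obtain ⟨-, e2⟩ := level_norm W hl hl0 hg hg0 hq0
  obtain ⟨-, e3⟩ := level_norm W hl hl0 (f := fun x => f x + g x) (hf.add hg)
    (fun x => add_nonneg (hf0 x) (hg0 x)) hq0
  rw [← e1, ← e2, ← e3]
  have h := lpNorm_add_le (g := fun z : E n × E n => l z.1 ^ q⁻¹ * g z.1) m1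
    (by simpa using hq)
  refine le_trans (le_of_eq ?_) h
  congr 1
  funext z
  simp only [Pi.add_apply]
  ring

theorem level_exists (hl : Continuous l) (hv : Continuous v) (hl0 : ∀ x, 0 ≤ l x) {c : ℝ}
    (hc : 0 < c) : ∃ a ≥ 0, ∫ z in {z | a < v z.1}, l z.1 ∂W.V ≤ c ∧
      ∀ a', 0 ≤ a' → a' < a → c ≤ ∫ z in {z | a' < v z.1}, l z.1 ∂W.V := by
  set G : ℝ → ℝ := fun a => ∫ z in {z | a < v z.1}, l z.1 ∂W.V with hG
  have hint : Integrable (fun z : E n × E n => l z.1) W.V := W.integrable (hl.comp continuous_fst)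
  have hm : ∀ a : ℝ, MeasurableSet {z : E n × E n | a < v z.1} := fun a =>
    (isOpen_lt continuous_const (hv.comp continuous_fst)).measurableSet
  have hanti : ∀ a a' : ℝ, a ≤ a' → G a' ≤ G a := by
    intro a a' h
    refine setIntegral_mono_set hint.integrableOn (Eventually.of_forall fun z => hl0 _) ?_
    exact (show {z : E n × E n | a' < v z.1} ⊆ {z | a < v z.1} from
      fun z hz => lt_of_le_of_lt h hz).eventuallyLE
  set S : Set ℝ := {a | 0 ≤ a ∧ G a ≤ c} with hS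
  have hbdd : BddBelow S := ⟨0, fun a ha => ha.1⟩
  have hne : S.Nonempty := by
    obtain ⟨M, hM⟩ := (W.cpt.image hv).isBounded.bddAbove
    refine ⟨max M 0, le_max_right _ _, ?_⟩
    have h0 : W.V {z : E n × E n | max M 0 < v z.1} = 0 := by
      rw [measure_eq_zero_iff_ae_notMem]
      filter_upwards [W.supp] with z hz
      have := hM (mem_image_of_mem v hz.1)
      simp only [mem_ofPred_eq, not_lt]
      exact this.trans (le_max_left _ _)
    simp only [hG]
    rw [setIntegral_measure_zero _ h0]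
    exact hc.le
  have ha0 : 0 ≤ sInf S := le_csInf hne fun a ha => ha.1
  refine ⟨sInf S, ha0, ?_, ?_⟩
  · have hle : ∀ j : ℕ, G (sInf S + 1 / ((j : ℝ) + 1)) ≤ c := by
      intro j
      obtain ⟨a, ha, hlt⟩ := exists_lt_of_csInf_lt hne
        (show sInf S < sInf S + 1 / ((j : ℝ) + 1) from lt_add_of_pos_right _ (by positivity))
      exact (hanti _ _ hlt.le).trans ha.2
    have hmono : Monotone fun j : ℕ => {z : E n × E n | sInf S + 1 / ((j : ℝ) + 1) < v z.1} := by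
      intro i j hij z hz
      have h1 : (1 : ℝ) / ((j : ℝ) + 1) ≤ 1 / ((i : ℝ) + 1) := Nat.one_div_le_one_div hij
      simp only [mem_ofPred_eq] at hz ⊢
      linarith
    have hU : (⋃ j : ℕ, {z : E n × E n | sInf S + 1 / ((j : ℝ) + 1) < v z.1}) =
        {z | sInf S < v z.1} := by
      ext z
      simp only [mem_iUnion, mem_ofPred_eq]
      constructor
      · rintro ⟨j, hj⟩
        have : (0 : ℝ) < 1 / ((j : ℝ) + 1) := by positivity
        linarith
      · intro hz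
        obtain ⟨j, hj⟩ := exists_nat_one_div_lt (sub_pos.2 hz)
        exact ⟨j, by linarith⟩
    have ht := tendsto_setIntegral_of_monotone (μ := W.V) (f := fun z : E n × E n => l z.1)
      (fun j : ℕ => hm (sInf S + 1 / ((j : ℝ) + 1))) hmono hint.integrableOn
    rw [hU] at ht
    exact le_of_tendsto' ht hle
  · intro a' h0 hlt
    by_contra hcon
    exact absurd (csInf_le hbdd (show a' ∈ S from ⟨h0, (not_le.1 hcon).le⟩)) (not_le.2 hlt)

theorem level_root {X q ζ : ℝ} (hX : 0 ≤ X) (hζ : 0 ≤ ζ) (h : X ^ (2 / q) ≤ ζ ^ 2) :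
    X ^ q⁻¹ ≤ ζ := by
  have e : X ^ (2 / q) = (X ^ q⁻¹) ^ 2 := by
    rw [← Real.rpow_natCast, ← Real.rpow_mul hX]
    congr 1
    push_cast
    ring
  rw [e] at h
  exact (pow_le_pow_iff_left₀ (by positivity) hζ two_ne_zero).1 h

theorem level_lower (hl : Continuous l) (hv : Continuous v) (hl0 : ∀ x, 0 ≤ l x)
    (hv0 : ∀ x, 0 ≤ v x) {q a ζ C : ℝ} (hq : 2 < q) (ha : 0 ≤ a) (hζ : 0 ≤ ζ)
    (h1 : ∫ z, l z.1 * v z.1 ^ q ∂W.V = 1) (hC : ∫ z, l z.1 ∂W.V ≤ C)
    (h2 : (∫ z, l z.1 * max (v z.1 - a) 0 ^ q ∂W.V) ^ (2 / q) ≤ ζ ^ 2) :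
    1 - ζ ≤ a * C ^ (1 / q) := by
  have hq0 : 0 < q := by linarith
  have hf : Continuous fun x => max (v x - a) 0 := (hv.sub continuous_const).max continuous_const
  have hm := level_mink W hl hl0 (f := fun x => max (v x - a) 0) (g := fun _ => a) hf
    continuous_const (fun x => le_max_right _ _) (fun _ => ha) (q := q) (by linarith)
  have hX : 0 ≤ ∫ z, l z.1 * max (v z.1 - a) 0 ^ q ∂W.V :=
    integral_nonneg fun z => mul_nonneg (hl0 _) (Real.rpow_nonneg (le_max_right _ _) _)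
  have h3 := level_root hX hζ h2
  have h4 : (1 : ℝ) ≤ ∫ z, l z.1 * (max (v z.1 - a) 0 + a) ^ q ∂W.V := by
    rw [← h1]
    refine W.integral_mono ?_ ?_ fun z _ _ => ?_
    · exact (hl.comp continuous_fst).mul
        ((hv.comp continuous_fst).rpow_const fun _ => Or.inr hq0.le)
    · exact (hl.comp continuous_fst).mul
        (((hf.comp continuous_fst).add continuous_const).rpow_const fun _ => Or.inr hq0.le)
    · refine mul_le_mul_of_nonneg_left (Real.rpow_le_rpow (hv0 _) ?_ hq0.le) (hl0 _)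
      linarith [le_max_left (v z.1 - a) 0]
  have h5 : (1 : ℝ) ≤ (∫ z, l z.1 * (max (v z.1 - a) 0 + a) ^ q ∂W.V) ^ q⁻¹ :=
    Real.one_le_rpow h4 (by positivity)
  have hI : 0 ≤ ∫ z, l z.1 ∂W.V := integral_nonneg fun z => hl0 _
  have h6 : (∫ z, l z.1 * a ^ q ∂W.V) ^ q⁻¹ ≤ a * C ^ (1 / q) := by
    rw [integral_mul_const, Real.mul_rpow hI (by positivity), Real.rpow_rpow_inv ha hq0.ne',
      mul_comm, one_div]
    exact mul_le_mul_of_nonneg_left (Real.rpow_le_rpow hI hC (by positivity)) ha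
  linarith

theorem level_sq (hl : Continuous l) (hv : Continuous v) (hl0 : ∀ x, 0 ≤ l x)
    (hv0 : ∀ x, 0 ≤ v x) {q a ζ g S : ℝ} (hq : 2 < q) (ha : 0 < a) (hζ : 0 ≤ ζ) (hζ1 : ζ ≤ 1)
    (hg : 0 < g) (hS : 0 ≤ S) (h1 : ∫ z, l z.1 * v z.1 ^ q ∂W.V = 1)
    (h2 : (∫ z, l z.1 * max (v z.1 - a) 0 ^ q ∂W.V) ^ (2 / q) ≤ ζ ^ 2)
    (h3 : S ≤ ∫ z in {z | g * a ≤ v z.1}, l z.1 ∂W.V) :
    (1 - ζ) ^ 2 * (g ^ 2 * S) ^ (1 - 2 / q) ≤ ∫ z, l z.1 * v z.1 ^ 2 ∂W.V := by
  have hq0 : 0 < q := by linarith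
  have hf : Continuous fun x => max (v x - a) 0 := (hv.sub continuous_const).max continuous_const
  have hmn : Continuous fun x => min (v x) a := hv.min continuous_const
  have hmn0 : ∀ x, 0 ≤ min (v x) a := fun x => le_min (hv0 x) ha.le
  have hm := level_mink W hl hl0 (f := fun x => max (v x - a) 0) (g := fun x => min (v x) a) hf
    hmn (fun x => le_max_right _ _) hmn0 (q := q) (by linarith)
  have he : ∀ x, max (v x - a) 0 + min (v x) a = v x := by
    intro x
    rcases le_total (v x) a with h | h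
    · rw [max_eq_right (by linarith), min_eq_left h, zero_add]
    · rw [max_eq_left (by linarith), min_eq_right h]; ring
  simp only [he, h1, Real.one_rpow] at hm
  have hX : 0 ≤ ∫ z, l z.1 * max (v z.1 - a) 0 ^ q ∂W.V :=
    integral_nonneg fun z => mul_nonneg (hl0 _) (Real.rpow_nonneg (le_max_right _ _) _)
  have h4 := level_root hX hζ h2
  set I := ∫ z, l z.1 * v z.1 ^ 2 ∂W.V with hI
  have hc2 : Continuous fun z : E n × E n => l z.1 * v z.1 ^ 2 :=
    (hl.comp continuous_fst).mul ((hv.comp continuous_fst).pow 2)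
  have hI0 : 0 ≤ I := integral_nonneg fun z => mul_nonneg (hl0 _) (sq_nonneg _)
  set Y := ∫ z, l z.1 * min (v z.1) a ^ q ∂W.V with hY
  have hY0 : 0 ≤ Y := integral_nonneg fun z => mul_nonneg (hl0 _) (Real.rpow_nonneg (hmn0 _) _)
  have h5 : Y ≤ a ^ (q - 2) * I := by
    rw [hI, ← integral_const_mul]
    refine W.integral_mono ?_ (continuous_const.mul hc2) fun z _ _ => ?_
    · exact (hl.comp continuous_fst).mul
        ((hmn.comp continuous_fst).rpow_const fun _ => Or.inr hq0.le)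
    · have e : min (v z.1) a ^ q = min (v z.1) a ^ (q - 2) * min (v z.1) a ^ 2 := by
        rw [← Real.rpow_natCast, ← Real.rpow_add' (hmn0 _) (by push_cast; linarith)]
        congr 1
        push_cast
        ring
      have e1 : min (v z.1) a ^ (q - 2) ≤ a ^ (q - 2) :=
        Real.rpow_le_rpow (hmn0 _) (min_le_right _ _) (by linarith)
      have e2 : min (v z.1) a ^ 2 ≤ v z.1 ^ 2 := pow_le_pow_left₀ (hmn0 _) (min_le_left _ _) 2
      rw [e]
      calc l z.1 * (min (v z.1) a ^ (q - 2) * min (v z.1) a ^ 2)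
          ≤ l z.1 * (a ^ (q - 2) * v z.1 ^ 2) :=
            mul_le_mul_of_nonneg_left (mul_le_mul e1 e2 (sq_nonneg _) (by positivity)) (hl0 _)
        _ = a ^ (q - 2) * (l z.1 * v z.1 ^ 2) := by ring
  have h6 : a ^ 2 * (g ^ 2 * S) ≤ I := by
    have hms : MeasurableSet {z : E n × E n | g * a ≤ v z.1} :=
      (isClosed_le continuous_const (hv.comp continuous_fst)).measurableSet
    calc a ^ 2 * (g ^ 2 * S) = (g * a) ^ 2 * S := by ring
      _ ≤ (g * a) ^ 2 * ∫ z in {z | g * a ≤ v z.1}, l z.1 ∂W.V :=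
          mul_le_mul_of_nonneg_left h3 (sq_nonneg _)
      _ = ∫ z in {z | g * a ≤ v z.1}, (g * a) ^ 2 * l z.1 ∂W.V := (integral_const_mul _ _).symm
      _ ≤ ∫ z in {z | g * a ≤ v z.1}, l z.1 * v z.1 ^ 2 ∂W.V := by
          refine setIntegral_mono_on ?_ (W.integrable hc2).integrableOn hms fun z hz => ?_
          · exact (W.integrable (continuous_const.mul (hl.comp continuous_fst))).integrableOn
          · rw [mul_comm]
            exact mul_le_mul_of_nonneg_left (pow_le_pow_left₀ (by positivity) hz 2) (hl0 _)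
      _ ≤ I := setIntegral_le_integral (W.integrable hc2)
          (Eventually.of_forall fun z => mul_nonneg (hl0 _) (sq_nonneg _))
  have hr : 0 < 1 - 2 / q := by
    rw [sub_pos, div_lt_one hq0]
    exact hq
  have h7 : (1 - ζ) ^ 2 ≤ (a ^ 2) ^ (1 - 2 / q) * I ^ (2 / q) := by
    have e1 : 1 - ζ ≤ (a ^ (q - 2) * I) ^ q⁻¹ :=
      le_trans (by linarith) (Real.rpow_le_rpow hY0 h5 (by positivity))
    have e2 : ((a ^ (q - 2) * I) ^ q⁻¹) ^ 2 = (a ^ 2) ^ (1 - 2 / q) * I ^ (2 / q) := by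
      rw [Real.mul_rpow (by positivity) hI0, mul_pow, ← Real.rpow_natCast, ← Real.rpow_natCast,
        ← Real.rpow_natCast, ← Real.rpow_mul ha.le, ← Real.rpow_mul ha.le, ← Real.rpow_mul ha.le,
        ← Real.rpow_mul hI0]
      congr 2
      · push_cast
        field_simp
      · push_cast
        ring
    rw [← e2]
    exact pow_le_pow_left₀ (by linarith) e1 2
  have h8 : (a ^ 2) ^ (1 - 2 / q) * (g ^ 2 * S) ^ (1 - 2 / q) ≤ I ^ (1 - 2 / q) := by
    rw [← Real.mul_rpow (by positivity) (by positivity)]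
    exact Real.rpow_le_rpow (by positivity) h6 hr.le
  calc (1 - ζ) ^ 2 * (g ^ 2 * S) ^ (1 - 2 / q)
      ≤ (a ^ 2) ^ (1 - 2 / q) * I ^ (2 / q) * (g ^ 2 * S) ^ (1 - 2 / q) :=
        mul_le_mul_of_nonneg_right h7 (by positivity)
    _ = I ^ (2 / q) * ((a ^ 2) ^ (1 - 2 / q) * (g ^ 2 * S) ^ (1 - 2 / q)) := by ring
    _ ≤ I ^ (2 / q) * I ^ (1 - 2 / q) := mul_le_mul_of_nonneg_left h8 (by positivity)
    _ = I := by
        rw [← Real.rpow_add' hI0 (by norm_num)]
        simp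

end Vale.Agent.P219
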