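import Vale.Agent.P219.Defs

/-!
The model profile.
-/

open scoped ContDiff Topology ENNReal
open MeasureTheory Set Filter Metric

noncomputable section

namespace Vale.Agent.P219

variable {n k : ℕ} {b : ℝ}

theorem sph_pos (k : ℕ) : 0 < sph k := by
  have h1 : 0 < omega (k + 1) :=
    ENNReal.toReal_pos (measure_ball_pos _ _ one_pos).ne' measure_ball_lt_top.ne
  unfold sph
  positivity

/-- The integrand. -/
def scalF (k : ℕ) (b u : ℝ) : ℝ := u ^ k / Real.sqrt (1 + b ^ 2 * u ^ 2)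

/-- The primitive of the integrand. -/
def scalI (k : ℕ) (b x : ℝ) : ℝ := ∫ u in (0 : ℝ)..x, scalF k b u

theorem scal_sqrt_pos (b u : ℝ) : 0 < Real.sqrt (1 + b ^ 2 * u ^ 2) :=
  Real.sqrt_pos.2 (by positivity)

theorem scalF_cont (k : ℕ) (b : ℝ) : Continuous (scalF k b) :=
  Continuous.div (by fun_prop) (by fun_prop) fun u => (scal_sqrt_pos b u).ne'

theorem scalI_deriv (k : ℕ) (b x : ℝ) : HasDerivAt (scalI k b) (scalF k b x) x :=
  ((scalF_cont k b).integral_hasStrictDerivAt 0 x).hasDerivAt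

theorem scalI_cont (k : ℕ) (b : ℝ) : Continuous (scalI k b) :=
  continuous_iff_continuousAt.2 fun x => (scalI_deriv k b x).continuousAt

theorem scalI_zero (k : ℕ) (b : ℝ) : scalI k b 0 = 0 := by simp [scalI]

theorem scalI_strict (k : ℕ) (b : ℝ) : StrictMonoOn (scalI k b) (Ici 0) := by
  refine strictMonoOn_of_deriv_pos (convex_Ici 0) (scalI_cont k b).continuousOn fun x hx => ?_
  rw [interior_Ici] at hx
  rw [(scalI_deriv k b x).deriv]
  have hx' : 0 < x := hx
  exact div_pos (pow_pos hx' k) (scal_sqrt_pos b x)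

theorem scalI_top (hk : 1 ≤ k) (b : ℝ) : Tendsto (scalI k b) atTop atTop := by
  have hc := scal_sqrt_pos b 1
  set c := (Real.sqrt (1 + b ^ 2 * 1 ^ 2))⁻¹ with hcd
  have hc0 : 0 < c := inv_pos.2 hc
  have key : ∀ x, 1 ≤ x → c * (x - 1) ≤ scalI k b x - scalI k b 1 := by
    intro x hx
    refine (convex_Ici (1 : ℝ)).mul_sub_le_image_sub_of_le_deriv (scalI_cont k b).continuousOn
      (fun y _ => (scalI_deriv k b y).differentiableAt.differentiableWithinAt) ?_ 1 self_mem_Ici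
      x hx hx
    intro y hy
    rw [interior_Ici] at hy
    have hy' : 1 < y := hy
    rw [(scalI_deriv k b y).deriv, scalF, le_div_iff₀ (scal_sqrt_pos b y), hcd,
      inv_mul_le_iff₀ hc]
    have h1 : y ≤ y ^ k := le_self_pow₀ hy'.le (by omega)
    have h2 : Real.sqrt (1 + b ^ 2 * y ^ 2) ≤ Real.sqrt (1 + b ^ 2 * 1 ^ 2) * y := by
      rw [← Real.sqrt_sq (by linarith : 0 ≤ y), ← Real.sqrt_mul (by positivity),
        Real.sqrt_sq (by linarith : 0 ≤ y)]
      apply Real.sqrt_le_sqrt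
      nlinarith
    exact h2.trans (mul_le_mul_of_nonneg_left h1 hc.le)
  have h1 : Tendsto (fun x => c * (x - 1) + scalI k b 1) atTop atTop :=
    tendsto_atTop_add_const_right _ _
      ((tendsto_atTop_add_const_right _ (-1) tendsto_id).const_mul_atTop hc0)
  refine tendsto_atTop_mono' _ ?_ h1
  filter_upwards [eventually_ge_atTop 1] with x hx
  linarith [key x hx]

theorem scal_Wm_eq (k : ℕ) (b P : ℝ) : Wm k b P = sph k * scalI k b ((P / sph k) ^ (1 / k : ℝ)) := rfl

theorem scal_exp_pos (hk : 1 ≤ k) : (0 : ℝ) < 1 / k := by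
  have : (0 : ℝ) < k := by exact_mod_cast hk
  positivity

theorem Wm_zero (hk : 1 ≤ k) (b : ℝ) : Wm k b 0 = 0 := by
  rw [scal_Wm_eq, zero_div, Real.zero_rpow (scal_exp_pos hk).ne', scalI_zero, mul_zero]

theorem scal_Wm_strict (hk : 1 ≤ k) (b : ℝ) : StrictMonoOn (Wm k b) (Ici 0) := by
  intro x hx y hy hxy
  have hS := sph_pos k
  have hx' : 0 ≤ x / sph k := div_nonneg hx hS.le
  have hy' : 0 ≤ y / sph k := div_nonneg hy hS.le
  rw [scal_Wm_eq, scal_Wm_eq]
  refine mul_lt_mul_of_pos_left (scalI_strict k b (Real.rpow_nonneg hx' _)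
    (Real.rpow_nonneg hy' _) ?_) hS
  exact Real.rpow_lt_rpow hx' (div_lt_div_of_pos_right hxy hS) (scal_exp_pos hk)

theorem Wm_mono (hk : 1 ≤ k) (b : ℝ) : MonotoneOn (Wm k b) (Ici 0) :=
  (scal_Wm_strict hk b).monotoneOn

theorem Wm_cont (hk : 1 ≤ k) (b : ℝ) : Continuous (Wm k b) :=
  continuous_const.mul ((scalI_cont k b).comp
    ((Real.continuous_rpow_const (scal_exp_pos hk).le).comp (continuous_id.div_const _)))

theorem Wm_top (hk : 1 ≤ k) (b : ℝ) : Tendsto (Wm k b) atTop atTop :=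
  ((scalI_top hk b).comp ((tendsto_rpow_atTop (scal_exp_pos hk)).comp
    (tendsto_id.atTop_div_const (sph_pos k)))).const_mul_atTop (sph_pos k)

theorem Wm_deriv (hk : 1 ≤ k) (b : ℝ) {P : ℝ} (hP : 0 < P) : ∃ h > 0,
    HasDerivAt (Wm k b) (1 / (k * h)) P ∧
      (h ^ 2 - b ^ 2) * P ^ (2 / k : ℝ) = sph k ^ (2 / k : ℝ) := by
  have hS := sph_pos k
  have hk0 : (0 : ℝ) < k := by exact_mod_cast hk
  have hq : 0 < P / sph k := div_pos hP hS
  set x := (P / sph k) ^ (1 / k : ℝ) with hx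
  have hx0 : 0 < x := Real.rpow_pos_of_pos hq _
  have hxk : x ^ k = P / sph k := by
    rw [hx, one_div, Real.rpow_inv_natCast_pow hq.le (by omega)]
  have hs := scal_sqrt_pos b x
  refine ⟨Real.sqrt (1 + b ^ 2 * x ^ 2) / x, div_pos hs hx0, ?_, ?_⟩
  · have h1 : HasDerivAt (fun p : ℝ => (p / sph k) ^ (1 / k : ℝ))
        (1 / sph k * (1 / k) * (P / sph k) ^ (1 / k - 1 : ℝ)) P :=
      ((hasDerivAt_id P).div_const (sph k)).rpow_const (Or.inl hq.ne')
    have h2 := ((scalI_deriv k b x).comp P h1).const_mul (sph k)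
    refine h2.congr_deriv ?_
    rw [Real.rpow_sub_one hq.ne', ← hx, scalF, hxk]
    field_simp
  · have h1 : x ^ 2 = P ^ (2 / k : ℝ) / sph k ^ (2 / k : ℝ) := by
      rw [← Real.div_rpow hP.le hS.le, hx, ← Real.rpow_natCast, ← Real.rpow_mul hq.le]
      congr 1
      push_cast
      ring
    have h2 : 0 < sph k ^ (2 / k : ℝ) := Real.rpow_pos_of_pos hS _
    have h3 : P ^ (2 / k : ℝ) = x ^ 2 * sph k ^ (2 / k : ℝ) := by
      rw [h1]
      field_simp
    rw [h3, div_pow, Real.sq_sqrt (by positivity)]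
    field_simp
    ring

theorem scal_sn_zero (b : ℝ) : sn b 0 = 0 := by simp [sn]

theorem scal_sn_deriv (b r : ℝ) : HasDerivAt (sn b) (Real.sqrt (1 + b ^ 2 * sn b r ^ 2)) r := by
  by_cases hb : b = 0
  · have e : sn b = id := by
      funext t
      simp [sn, hb]
    rw [e, hb]
    simpa using hasDerivAt_id r
  · have e : sn b = fun t => Real.sinh (b * t) / b := by
      funext t
      simp [sn, hb]
    rw [e]
    have h1 := (((hasDerivAt_id r).const_mul b).sinh).div_const b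
    refine h1.congr_deriv ?_
    have h2 : 1 + b ^ 2 * (Real.sinh (b * r) / b) ^ 2 = Real.cosh (b * r) ^ 2 := by
      rw [Real.cosh_sq']
      field_simp
    simp only [id]
    rw [h2, Real.sqrt_sq (Real.cosh_pos _).le]
    field_simp

theorem scal_sn_cont (b : ℝ) : Continuous (sn b) :=
  continuous_iff_continuousAt.2 fun x => (scal_sn_deriv b x).continuousAt

theorem scal_le_sn (b : ℝ) {r : ℝ} (hr : 0 ≤ r) : r ≤ sn b r := by
  have := mul_sub_le_image_sub_of_le_deriv (f := sn b) (C := 1)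
    (fun x => (scal_sn_deriv b x).differentiableAt) (fun x => by
      rw [(scal_sn_deriv b x).deriv]
      exact Real.one_le_sqrt.2 (le_add_of_nonneg_right (by positivity))) hr
  rw [scal_sn_zero] at this
  linarith

theorem scalI_sn (k : ℕ) (b r : ℝ) : scalI k b (sn b r) = ∫ t in (0 : ℝ)..r, sn b t ^ k := by
  have h := intervalIntegral.integral_eq_sub_of_hasDerivAt (f := fun t => scalI k b (sn b t))
    (f' := fun t => sn b t ^ k) (a := 0) (b := r) (fun t _ => by
      refine ((scalI_deriv k b (sn b t)).comp t (scal_sn_deriv b t)).congr_deriv ?_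
      rw [scalF, div_mul_cancel₀ _ (scal_sqrt_pos b _).ne'])
    (((scal_sn_cont b).pow k).intervalIntegrable _ _)
  rw [h, scal_sn_zero, scalI_zero, sub_zero]

theorem scal_modelArea_eq (k : ℕ) (κ r : ℝ) : modelArea (k + 1) κ r = sph k * sn (√(-κ)) r ^ k := by
  simp [modelArea, sph]

theorem scal_modelVol_eq (k : ℕ) (κ r : ℝ) :
    modelVol (k + 1) κ r = sph k * scalI k (√(-κ)) (sn (√(-κ)) r) := by
  rw [scalI_sn]
  simp [modelVol, sph]

theorem scal_Wm_profile (hk : 1 ≤ k) (κ : ℝ) {V : ℝ} (hV : 0 ≤ V) :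
    0 ≤ profile (k + 1) κ V ∧ Wm k (√(-κ)) (profile (k + 1) κ V) = V := by
  have hS := sph_pos k
  have hc : Continuous (modelVol (k + 1) κ) := by
    rw [funext (scal_modelVol_eq k κ)]
    exact continuous_const.mul ((scalI_cont _ _).comp (scal_sn_cont _))
  have ht : Tendsto (modelVol (k + 1) κ) atTop atTop := by
    rw [funext (scal_modelVol_eq k κ)]
    refine ((scalI_top hk _).comp (tendsto_atTop_mono' _ ?_ tendsto_id)).const_mul_atTop hS
    filter_upwards [eventually_ge_atTop 0] with r hr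
    exact scal_le_sn _ hr
  have h0 : modelVol (k + 1) κ 0 = 0 := by simp [modelVol]
  have hex : ∃ r ∈ Ici (0 : ℝ), modelVol (k + 1) κ r = V := by
    obtain ⟨R, hR⟩ := ((ht.eventually_ge_atTop V).and (eventually_ge_atTop 0)).exists
    obtain ⟨r, hr, e⟩ := intermediate_value_Icc hR.2 hc.continuousOn ⟨h0.trans_le hV, hR.1⟩
    exact ⟨r, hr.1, e⟩
  obtain ⟨h1, h2⟩ := Function.invFunOn_pos hex
  set r := Function.invFunOn (modelVol (k + 1) κ) (Ici 0) V with hr
  have hs : 0 ≤ sn (√(-κ)) r := le_trans h1 (scal_le_sn _ h1)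
  have e : profile (k + 1) κ V = sph k * sn (√(-κ)) r ^ k := scal_modelArea_eq k κ r
  rw [e]
  refine ⟨by positivity, ?_⟩
  rw [scal_Wm_eq, mul_div_cancel_left₀ _ hS.ne', one_div, Real.pow_rpow_inv_natCast hs (by omega),
    ← scal_modelVol_eq, h2]

theorem profile_le (hk : 1 ≤ k) {κ V P : ℝ} (hκ : κ ≤ 0) (hV : 0 ≤ V) (hP : 0 ≤ P)
    (h : V ≤ Wm k (√(-κ)) P) : profile (k + 1) κ V ≤ P := by
  have _ := hκ
  obtain ⟨h1, h2⟩ := scal_Wm_profile hk κ hV
  rw [← (scal_Wm_strict hk (√(-κ))).le_iff_le h1 hP, h2]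
  exact h

theorem le_profile (hk : 1 ≤ k) {κ V P : ℝ} (hκ : κ ≤ 0) (hV : 0 ≤ V) (hP : 0 ≤ P)
    (h : P ≤ profile (k + 1) κ V) : Wm k (√(-κ)) P ≤ V := by
  have _ := hκ
  obtain ⟨h1, h2⟩ := scal_Wm_profile hk κ hV
  exact (Wm_mono hk _ hP h1 h).trans_eq h2

end Vale.Agent.P219
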