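import Vale.Agent.P219.Ge2

/-!
The monotonicity formula from large to small scales.
-/

open scoped ContDiff Topology ENNReal
open MeasureTheory Set Filter Metric

noncomputable section

namespace Vale.Agent.P219

variable {n k : ℕ} {b : ℝ}

theorem monoD_dt (hk : k ≠ 0) {s t : ℝ} (hs : 0 ≤ s) (ht : 0 < t) :
    HasDerivAt (fun t => lam s t ^ k)
      (k * lam s t ^ k * (2 * s - t ^ 2) / (t * (t ^ 2 + 2 * s))) t := by
  have hD : 0 < t ^ 2 + 2 * s := by positivity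
  have h1 : HasDerivAt (fun t : ℝ => 2 * t) 2 t := by
    simpa using (hasDerivAt_id t).const_mul 2
  have h2 : HasDerivAt (fun t : ℝ => t ^ 2 + 2 * s) (2 * t) t := by
    simpa using (hasDerivAt_pow 2 t).add_const (2 * s)
  have h3 := (h1.fun_div h2 hD.ne').fun_pow k
  refine h3.congr_deriv ?_
  obtain ⟨m, rfl⟩ := Nat.exists_eq_succ_of_ne_zero hk
  unfold lam
  simp only [Nat.succ_eq_add_one, Nat.add_sub_cancel, pow_succ _ m]
  generalize (2 * t / (t ^ 2 + 2 * s)) ^ m = X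
  field_simp
  ring

theorem monoD_ds (hk : k ≠ 0) {s t : ℝ} (hs : 0 ≤ s) (ht : 0 < t) :
    HasDerivAt (fun s => lam s t ^ k) (-(2 * k * lam s t ^ k / (t ^ 2 + 2 * s))) s := by
  have hD : 0 < t ^ 2 + 2 * s := by positivity
  have h1 : HasDerivAt (fun _ : ℝ => 2 * t) 0 s := hasDerivAt_const s _
  have h2 : HasDerivAt (fun s : ℝ => t ^ 2 + 2 * s) 2 s := by
    simpa using ((hasDerivAt_id s).const_mul 2).const_add (t ^ 2)
  have h3 := (h1.fun_div h2 hD.ne').fun_pow k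
  refine h3.congr_deriv ?_
  obtain ⟨m, rfl⟩ := Nat.exists_eq_succ_of_ne_zero hk
  unfold lam
  simp only [Nat.succ_eq_add_one, Nat.add_sub_cancel, pow_succ _ m]
  generalize (2 * t / (t ^ 2 + 2 * s)) ^ m = X
  field_simp
  ring

theorem monoD_bound {s t t₀ : ℝ} (hs : 0 ≤ s) (h0 : 0 < t₀) (ht : t₀ / 2 < t) :
    |k * lam s t ^ k * (2 * s - t ^ 2) / (t * (t ^ 2 + 2 * s))| ≤
      k * (4 / t₀) ^ k * (2 / t₀) := by
  have ht0 : 0 < t := by linarith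
  have hD : 0 < t ^ 2 + 2 * s := by positivity
  have hl := lam_pos hs ht0
  have h1 : lam s t ≤ 4 / t₀ := by
    refine (lam_le hs ht0).trans ?_
    rw [div_le_div_iff₀ ht0 h0]
    linarith
  have h2 : |(2 * s - t ^ 2) / (t * (t ^ 2 + 2 * s))| ≤ 2 / t₀ := by
    rw [abs_div, abs_of_pos (mul_pos ht0 hD), div_le_div_iff₀ (mul_pos ht0 hD) h0]
    have h3 : |2 * s - t ^ 2| ≤ t ^ 2 + 2 * s := by
      rw [abs_le]
      constructor
      · linarith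
      · linarith [sq_nonneg t]
    have h4 := mul_le_mul h3 (show t₀ ≤ 2 * t by linarith) h0.le hD.le
    linarith
  rw [mul_div_assoc, abs_mul, abs_of_nonneg (show 0 ≤ k * lam s t ^ k by positivity)]
  gcongr

theorem monoD_pt (hk : k ≠ 0) {θ g s τ t R H C1 C2 r ip p γ h : ℝ} (hθ : 0 ≤ θ) (hg : 0 ≤ g)
    (hs : 0 ≤ s) (hτ : 0 < τ) (hτ1 : τ ≤ 1) (ht : τ ≤ t) (htR : t ≤ R * τ) (hR : 1 ≤ R)
    (hC1 : 0 < C1) (hC2 : 0 < C2) (hH : H ≤ k * (1 + b ^ 2 * s) + C1 * s) (hr : r ≤ C2 * √s)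
    (hip : ip ≤ g * r) (hp : |p| ≤ r) (hγ : |γ| ≤ h) :
    t * (θ * (k * lam s t ^ k * (2 * s - t ^ 2) / (t * (t ^ 2 + 2 * s)))) +
      (θ * lam s t ^ k * H + (θ * (-(2 * k * lam s t ^ k / (t ^ 2 + 2 * s))) *
        (2 * s + b ^ 2 * s ^ 2 - p ^ 2) + lam s t ^ k * ip)) -
      k * (γ * (θ * lam s t ^ k * p)) ≤
      (k * b ^ 2 + C1 + C2 + C2 * (k * h) + 2 * k) * R ^ k *
        (lam s τ ^ (k - 1) * (g + θ) + θ * lam s τ ^ k * (p ^ 2 / (τ ^ 2 + 2 * s))) := by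
  have ht0 : 0 < t := by linarith
  have hD : 0 < t ^ 2 + 2 * s := by positivity
  have hD' : 0 < τ ^ 2 + 2 * s := by positivity
  have hDD : τ ^ 2 + 2 * s ≤ t ^ 2 + 2 * s := by
    have := pow_le_pow_left₀ hτ.le ht 2
    linarith
  have hh : 0 ≤ h := (abs_nonneg γ).trans hγ
  have hr0 : 0 ≤ r := (abs_nonneg p).trans hp
  have hk0 : (0 : ℝ) ≤ k := Nat.cast_nonneg k
  have ha := lam_pos hs hτ
  have hl := lam_pos hs ht0
  have a1 : lam s t ≤ R * lam s τ := by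
    unfold lam
    rw [← mul_div_assoc]
    exact div_le_div₀ (by positivity) (by linarith) hD' hDD
  have a2 : lam s t ^ k ≤ R ^ k * lam s τ ^ k := by
    rw [← mul_pow]
    exact pow_le_pow_left₀ hl.le a1 k
  have a3 : lam s τ ^ k = lam s τ ^ (k - 1) * lam s τ := (pow_sub_one_mul hk _).symm
  have a4 : lam s τ * s ≤ 1 := by
    unfold lam
    rw [div_mul_eq_mul_div, div_le_one hD']
    have := mul_le_mul_of_nonneg_right hτ1 hs
    linarith [sq_nonneg τ]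
  have a5 : lam s τ * √s ≤ 1 := by
    unfold lam
    rw [div_mul_eq_mul_div, div_le_one hD']
    have := Real.sq_sqrt hs
    nlinarith [sq_nonneg (τ - √s)]
  have hX : 0 ≤ R ^ k * lam s τ ^ (k - 1) := by positivity
  have b1 : lam s t ^ k * s ≤ R ^ k * lam s τ ^ (k - 1) := by
    have c1 := mul_le_mul_of_nonneg_right a2 hs
    have c2 := mul_le_mul_of_nonneg_left a4 hX
    rw [a3] at c1
    linarith
  have b2 : lam s t ^ k * r ≤ C2 * (R ^ k * lam s τ ^ (k - 1)) := by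
    have c1 := mul_le_mul a2 hr hr0 (by positivity)
    have c2 := mul_le_mul_of_nonneg_left a5 (mul_nonneg hC2.le hX)
    rw [a3] at c1
    linarith
  have b3 : lam s t ^ k / (t ^ 2 + 2 * s) ≤ R ^ k * lam s τ ^ k / (τ ^ 2 + 2 * s) :=
    div_le_div₀ (by positivity) a2 hD' hDD
  have hY : 0 ≤ R ^ k * lam s τ ^ k / (τ ^ 2 + 2 * s) := by positivity
  have hL : 0 < lam s t ^ k := by positivity
  have e1 : (k * b ^ 2 + C1 + C2 + C2 * (k * h) + 2 * k) * R ^ k *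
        (lam s τ ^ (k - 1) * (g + θ) + θ * lam s τ ^ k * (p ^ 2 / (τ ^ 2 + 2 * s))) =
      (k * b ^ 2 + C1 + C2 + C2 * (k * h) + 2 * k) *
        (R ^ k * lam s τ ^ (k - 1) * g + R ^ k * lam s τ ^ (k - 1) * θ +
          θ * p ^ 2 * (R ^ k * lam s τ ^ k / (τ ^ 2 + 2 * s))) := by ring
  have e2 : t * (θ * (k * lam s t ^ k * (2 * s - t ^ 2) / (t * (t ^ 2 + 2 * s)))) +
      θ * (-(2 * k * lam s t ^ k / (t ^ 2 + 2 * s))) * (2 * s + b ^ 2 * s ^ 2 - p ^ 2) =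
      -(θ * lam s t ^ k * k) + 2 * k * (θ * p ^ 2 * (lam s t ^ k / (t ^ 2 + 2 * s))) -
        2 * k * θ * (lam s t ^ k / (t ^ 2 + 2 * s)) * (b ^ 2 * s ^ 2) := by
    field_simp
    ring
  have e3 : 0 ≤ 2 * k * θ * (lam s t ^ k / (t ^ 2 + 2 * s)) * (b ^ 2 * s ^ 2) := by positivity
  rw [e1]
  generalize R ^ k * lam s τ ^ k / (τ ^ 2 + 2 * s) = Y at *
  generalize R ^ k * lam s τ ^ (k - 1) = X at *
  have d1 := mul_le_mul_of_nonneg_left hH (mul_nonneg hθ hL.le)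
  have d2 := mul_le_mul_of_nonneg_left b1 (show 0 ≤ θ * (k * b ^ 2 + C1) by positivity)
  have d3 := mul_le_mul_of_nonneg_left b3 (show 0 ≤ 2 * k * (θ * p ^ 2) by positivity)
  have d4 := mul_le_mul_of_nonneg_left hip hL.le
  have d5 := mul_le_mul_of_nonneg_left b2 hg
  have d6 : -(γ * p) ≤ h * r := by
    have c1 : |γ * p| ≤ h * r := by
      rw [abs_mul]
      exact mul_le_mul hγ hp (abs_nonneg _) hh
    linarith [neg_abs_le (γ * p)]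
  have d7 := mul_le_mul_of_nonneg_left d6 (show 0 ≤ k * θ * lam s t ^ k by positivity)
  have d8 := mul_le_mul_of_nonneg_left b2 (show 0 ≤ k * θ * h by positivity)
  have f1 : 0 ≤ (k * b ^ 2 + C1 + C2 * (k * h) + 2 * k) * (X * g) := by positivity
  have f2 : 0 ≤ (C2 + 2 * k) * (X * θ) := by positivity
  have f3 : 0 ≤ (k * b ^ 2 + C1 + C2 + C2 * (k * h)) * (θ * p ^ 2 * Y) := by positivity
  generalize lam s t ^ k / (t ^ 2 + 2 * s) = Z at *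
  generalize t * (θ * (k * lam s t ^ k * (2 * s - t ^ 2) / (t * (t ^ 2 + 2 * s)))) = U at *
  generalize θ * (-(2 * k * lam s t ^ k / (t ^ 2 + 2 * s))) *
    (2 * s + b ^ 2 * s ^ 2 - p ^ 2) = V at *
  generalize lam s t ^ k = l at *
  linarith

namespace Geo

variable (Γ : Geo (k + 1) b) {W : Vf (k + 1)} {h : ℝ} {γ : E (k + 1) → ℝ} {K : Set (E (k + 1))}

theorem monoD_cont_σ (o : E (k + 1)) :
    Continuous fun w : E (k + 1) × E (k + 1) => Γ.σ o w.1 :=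
  (Γ.sm o).continuous.comp continuous_fst

theorem monoD_cont_lam (o : E (k + 1)) {t : ℝ} (ht : 0 < t) :
    Continuous fun w : E (k + 1) × E (k + 1) => lam (Γ.σ o w.1) t :=
  (Γ.cont_lam o ht).continuous.comp continuous_fst

theorem monoD_cont_dl (o : E (k + 1)) {t : ℝ} (ht : 0 < t) :
    Continuous fun w : E (k + 1) × E (k + 1) => k * lam (Γ.σ o w.1) t ^ k *
      (2 * Γ.σ o w.1 - t ^ 2) / (t * (t ^ 2 + 2 * Γ.σ o w.1)) := by
  have h1 := Γ.monoD_cont_σ o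
  have h2 := Γ.monoD_cont_lam o ht
  refine Continuous.div (by fun_prop) (by fun_prop) fun w => ?_
  have := Γ.nonneg o w.1
  positivity

theorem monoD_deriv (hk : k ≠ 0) (W : Vf (k + 1)) (o : E (k + 1)) {θ : E (k + 1) → ℝ}
    (hθ : Continuous θ) {t : ℝ} (ht : 0 < t) :
    HasDerivAt (fun t => ∫ w, θ w.1 * lam (Γ.σ o w.1) t ^ k ∂W.V)
      (∫ w, θ w.1 * (k * lam (Γ.σ o w.1) t ^ k * (2 * Γ.σ o w.1 - t ^ 2) /
        (t * (t ^ 2 + 2 * Γ.σ o w.1))) ∂W.V) t := by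
  have hc : Continuous fun w : E (k + 1) × E (k + 1) => θ w.1 := hθ.comp continuous_fst
  have hF : ∀ t : ℝ, 0 < t →
      Continuous fun w : E (k + 1) × E (k + 1) => θ w.1 * lam (Γ.σ o w.1) t ^ k :=
    fun t ht => hc.mul ((Γ.monoD_cont_lam o ht).pow k)
  refine (hasDerivAt_integral_of_dominated_loc_of_deriv_le (μ := W.V) (s := Ioi (t / 2))
    (F := fun t w => θ w.1 * lam (Γ.σ o w.1) t ^ k)
    (F' := fun t w => θ w.1 * (k * lam (Γ.σ o w.1) t ^ k * (2 * Γ.σ o w.1 - t ^ 2) /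
        (t * (t ^ 2 + 2 * Γ.σ o w.1))))
    (bound := fun w => |θ w.1| * (k * (4 / t) ^ k * (2 / t)))
    (Ioi_mem_nhds (by linarith)) ?_ (W.integrable (hF t ht))
    (hc.mul (Γ.monoD_cont_dl o ht)).aestronglyMeasurable ?_
    (W.integrable (hc.abs.mul continuous_const)) ?_).2
  · filter_upwards [Ioi_mem_nhds ht] with u hu using (hF u hu).aestronglyMeasurable
  · refine Eventually.of_forall fun w u hu => ?_
    rw [Real.norm_eq_abs, abs_mul]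
    exact mul_le_mul_of_nonneg_left (monoD_bound (Γ.nonneg o w.1) ht hu) (abs_nonneg _)
  · refine Eventually.of_forall fun w u hu => ?_
    have hu' : t / 2 < u := hu
    exact (monoD_dt hk (Γ.nonneg o w.1) (by linarith)).const_mul _

theorem monoD_step (hk : k ≠ 0) (hF : Γ.FV W h γ) (hK : IsCompact K) :
    ∃ C > 0, ∀ o ∈ K, ∀ θ : E (k + 1) → ℝ, ContDiff ℝ 1 θ → (∀ y, 0 ≤ θ y) →
      ∀ τ R t : ℝ, 0 < τ → τ ≤ 1 → 1 ≤ R → τ ≤ t → t ≤ R * τ →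
      t * ∫ w, θ w.1 * (k * lam (Γ.σ o w.1) t ^ k * (2 * Γ.σ o w.1 - t ^ 2) /
        (t * (t ^ 2 + 2 * Γ.σ o w.1))) ∂W.V ≤
        C * R ^ k * (∫ w, lam (Γ.σ o w.1) τ ^ (k - 1) * (‖Γ.gt θ w‖ + θ w.1) ∂W.V +
          ∫ w, θ w.1 * lam (Γ.σ o w.1) τ ^ k *
            (Γ.pn o w ^ 2 / (τ ^ 2 + 2 * Γ.σ o w.1)) ∂W.V) := by
  obtain ⟨C1, hC1, h1⟩ := Γ.Hs_upper (hK.union W.cpt)
  obtain ⟨C2, hC2, h2⟩ := Γ.grad_le (hK.union W.cpt)
  have hh : 0 ≤ h := (abs_nonneg _).trans (hF.bound 0)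
  refine ⟨k * b ^ 2 + C1 + C2 + C2 * (k * h) + 2 * k, by positivity,
    fun o ho θ hθ hθ0 τ R t hτ hτ1 hR ht htR => ?_⟩
  have ht0 : 0 < t := by linarith
  have hl : ContDiff ℝ 1 fun y => lam (Γ.σ o y) t ^ k :=
    ((Γ.cont_lam o ht0).of_le (by simp)).pow k
  have hφ : ContDiff ℝ 1 fun y => θ y * lam (Γ.σ o y) t ^ k := hθ.mul hl
  have hfv := Γ.fv_σ hF o hφ
  have hσ1 : ContDiff ℝ 1 (Γ.σ o) := (Γ.sm o).of_le (by simp)
  have cθ : Continuous fun w : E (k + 1) × E (k + 1) => θ w.1 :=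
    hθ.continuous.comp continuous_fst
  have cγ : Continuous fun w : E (k + 1) × E (k + 1) => γ w.1 := hF.cont.comp continuous_fst
  have cσ := Γ.monoD_cont_σ o
  have clt := Γ.monoD_cont_lam o ht0
  have clτ := Γ.monoD_cont_lam o hτ
  have cp := Γ.cont_pn o
  have cH := Γ.cont_Hs o
  have cg := Γ.cont_gt hθ
  have c1 : Continuous fun w : E (k + 1) × E (k + 1) =>
      t * (θ w.1 * (k * lam (Γ.σ o w.1) t ^ k * (2 * Γ.σ o w.1 - t ^ 2) /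
        (t * (t ^ 2 + 2 * Γ.σ o w.1)))) :=
    continuous_const.mul (cθ.mul (Γ.monoD_cont_dl o ht0))
  have c2 : Continuous fun w : E (k + 1) × E (k + 1) =>
      θ w.1 * lam (Γ.σ o w.1) t ^ k * Γ.Hs o w +
        inner ℝ (Γ.gt (fun y => θ y * lam (Γ.σ o y) t ^ k) w) (Γ.gt (Γ.σ o) w) :=
    ((cθ.mul (clt.pow k)).mul cH).add ((Γ.cont_gt hφ).inner (Γ.cont_gt hσ1))
  have c3 : Continuous fun w : E (k + 1) × E (k + 1) =>
      k * (γ w.1 * (θ w.1 * lam (Γ.σ o w.1) t ^ k * Γ.pn o w)) :=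
    continuous_const.mul (cγ.mul ((cθ.mul (clt.pow k)).mul cp))
  have c4 : Continuous fun w : E (k + 1) × E (k + 1) =>
      lam (Γ.σ o w.1) τ ^ (k - 1) * (‖Γ.gt θ w‖ + θ w.1) :=
    (clτ.pow _).mul (cg.norm.add cθ)
  have c5 : Continuous fun w : E (k + 1) × E (k + 1) =>
      θ w.1 * lam (Γ.σ o w.1) τ ^ k * (Γ.pn o w ^ 2 / (τ ^ 2 + 2 * Γ.σ o w.1)) := by
    refine (cθ.mul (clτ.pow k)).mul ((cp.pow 2).div (by fun_prop) fun w => ?_)
    have := Γ.nonneg o w.1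
    positivity
  have c12 : Continuous fun w : E (k + 1) × E (k + 1) =>
      t * (θ w.1 * (k * lam (Γ.σ o w.1) t ^ k * (2 * Γ.σ o w.1 - t ^ 2) /
        (t * (t ^ 2 + 2 * Γ.σ o w.1)))) + (θ w.1 * lam (Γ.σ o w.1) t ^ k * Γ.Hs o w +
        inner ℝ (Γ.gt (fun y => θ y * lam (Γ.σ o y) t ^ k) w) (Γ.gt (Γ.σ o) w)) := c1.add c2
  have key := W.integral_mono
    (f := fun w => t * (θ w.1 * (k * lam (Γ.σ o w.1) t ^ k * (2 * Γ.σ o w.1 - t ^ 2) /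
        (t * (t ^ 2 + 2 * Γ.σ o w.1)))) + (θ w.1 * lam (Γ.σ o w.1) t ^ k * Γ.Hs o w +
        inner ℝ (Γ.gt (fun y => θ y * lam (Γ.σ o y) t ^ k) w) (Γ.gt (Γ.σ o) w)) -
        k * (γ w.1 * (θ w.1 * lam (Γ.σ o w.1) t ^ k * Γ.pn o w)))
    (g := fun w => (k * b ^ 2 + C1 + C2 + C2 * (k * h) + 2 * k) * R ^ k *
      (lam (Γ.σ o w.1) τ ^ (k - 1) * (‖Γ.gt θ w‖ + θ w.1) +
        θ w.1 * lam (Γ.σ o w.1) τ ^ k * (Γ.pn o w ^ 2 / (τ ^ 2 + 2 * Γ.σ o w.1))))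
    (c12.sub c3) (continuous_const.mul (c4.add c5)) ?_
  · rw [integral_sub (W.integrable c12) (W.integrable c3),
      integral_add (W.integrable c1) (W.integrable c2), integral_const_mul, integral_const_mul,
      integral_const_mul, integral_add (W.integrable c4) (W.integrable c5), hfv] at key
    linarith
  · intro z hz hn
    have hs := Γ.nonneg o z.1
    have e1 : Γ.gt (fun y => θ y * lam (Γ.σ o y) t ^ k) z =
        θ z.1 • Γ.gt (fun y => lam (Γ.σ o y) t ^ k) z + lam (Γ.σ o z.1) t ^ k • Γ.gt θ z :=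
      Γ.gt_mul (hθ.differentiable (by simp) _) (hl.differentiable (by simp) _)
    have e2 : Γ.gt (fun y => lam (Γ.σ o y) t ^ k) z =
        (-(2 * k * lam (Γ.σ o z.1) t ^ k / (t ^ 2 + 2 * Γ.σ o z.1))) • Γ.gt (Γ.σ o) z :=
      Γ.gt_comp (φ := fun s => lam s t ^ k) (monoD_ds hk hs ht0) (Γ.diff o z.1)
    have e3 : inner ℝ (Γ.gt θ z) (Γ.gt (Γ.σ o) z) ≤ ‖Γ.gt θ z‖ * ‖Γ.gr (Γ.σ o) z.1‖ :=
      (real_inner_le_norm _ _).trans
        (mul_le_mul_of_nonneg_left (Γ.norm_gt_le _ hn) (norm_nonneg _))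
    have e4 := monoD_pt (b := b) hk (hθ0 z.1) (norm_nonneg (Γ.gt θ z)) hs hτ hτ1 ht htR hR hC1 hC2
      (h1 o (Or.inl ho) z (Or.inr hz) hn) (h2 o (Or.inl ho) z.1 (Or.inr hz)) e3
      (Γ.abs_pn_le o hn) (hF.bound z.1)
    rw [e1, e2, inner_add_left, smul_smul, real_inner_smul_left, real_inner_smul_left,
      real_inner_self_eq_norm_sq, Γ.norm_gt_σ o hn]
    exact e4

theorem mono_down (hk : 3 ≤ k) (hF : Γ.FV W h γ) (hK : IsCompact K) :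
    ∃ C > 0, ∀ o ∈ K, ∀ θ : E (k + 1) → ℝ, ContDiff ℝ 1 θ → (∀ y, 0 ≤ θ y) →
      ∀ τ R : ℝ, 0 < τ → τ ≤ 1 → 1 ≤ R →
      ∫ w, θ w.1 * lam (Γ.σ o w.1) (R * τ) ^ k ∂W.V ≤ ∫ w, θ w.1 * lam (Γ.σ o w.1) τ ^ k ∂W.V +
        C * R ^ (k + 1) * (∫ w, lam (Γ.σ o w.1) τ ^ (k - 1) * (‖Γ.gt θ w‖ + θ w.1) ∂W.V +
          ∫ w, θ w.1 * lam (Γ.σ o w.1) τ ^ k *
            (Γ.pn o w ^ 2 / (τ ^ 2 + 2 * Γ.σ o w.1)) ∂W.V) := by
  have hk0 : k ≠ 0 := by omega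
  obtain ⟨C, hC, h1⟩ := Γ.monoD_step hk0 hF hK
  refine ⟨C, hC, fun o ho θ hθ hθ0 τ R hτ hτ1 hR => ?_⟩
  have h2 := fun t => h1 o ho θ hθ hθ0 τ R t hτ hτ1 hR
  have hI1 : 0 ≤ ∫ w, lam (Γ.σ o w.1) τ ^ (k - 1) * (‖Γ.gt θ w‖ + θ w.1) ∂W.V := by
    refine integral_nonneg fun w => ?_
    have := lam_pos (Γ.nonneg o w.1) hτ
    have := hθ0 w.1
    positivity
  have hI2 : 0 ≤ ∫ w, θ w.1 * lam (Γ.σ o w.1) τ ^ k *
      (Γ.pn o w ^ 2 / (τ ^ 2 + 2 * Γ.σ o w.1)) ∂W.V := by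
    refine integral_nonneg fun w => ?_
    have := lam_pos (Γ.nonneg o w.1) hτ
    have := hθ0 w.1
    have := Γ.nonneg o w.1
    positivity
  generalize ∫ w, lam (Γ.σ o w.1) τ ^ (k - 1) * (‖Γ.gt θ w‖ + θ w.1) ∂W.V = I1 at *
  generalize ∫ w, θ w.1 * lam (Γ.σ o w.1) τ ^ k *
      (Γ.pn o w ^ 2 / (τ ^ 2 + 2 * Γ.σ o w.1)) ∂W.V = I2 at *
  have hB : 0 ≤ C * R ^ k * (I1 + I2) := by positivity
  have hτR : τ ≤ R * τ := le_mul_of_one_le_left hτ.le hR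
  have hd : ∀ t ∈ Icc τ (R * τ), HasDerivAt (fun t => ∫ w, θ w.1 * lam (Γ.σ o w.1) t ^ k ∂W.V)
      (∫ w, θ w.1 * (k * lam (Γ.σ o w.1) t ^ k * (2 * Γ.σ o w.1 - t ^ 2) /
        (t * (t ^ 2 + 2 * Γ.σ o w.1))) ∂W.V) t := fun t ht =>
    Γ.monoD_deriv hk0 W o hθ.continuous (hτ.trans_le ht.1)
  have h3 := (convex_Icc τ (R * τ)).image_sub_le_mul_sub_of_deriv_le
    (f := fun t => ∫ w, θ w.1 * lam (Γ.σ o w.1) t ^ k ∂W.V)
    (fun t ht => (hd t ht).continuousAt.continuousWithinAt)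
    (fun t ht => (hd t (interior_subset ht)).differentiableAt.differentiableWithinAt)
    (C := C * R ^ k * (I1 + I2) / τ) ?_ τ (left_mem_Icc.mpr hτR) (R * τ) (right_mem_Icc.mpr hτR)
    hτR
  · have e1 : C * R ^ k * (I1 + I2) / τ * (R * τ - τ) =
        C * R ^ (k + 1) * (I1 + I2) - C * R ^ k * (I1 + I2) := by
      field_simp
      ring
    rw [e1] at h3
    linarith
  · intro t ht
    have ht' := interior_subset ht
    rw [(hd t ht').deriv]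
    have h4 := h2 t ht'.1 ht'.2
    have ht0 : 0 < t := hτ.trans_le ht'.1
    rw [← le_div_iff₀' ht0] at h4
    exact h4.trans (div_le_div_of_nonneg_left hB hτ ht'.1)

theorem lam_shift (hK : IsCompact K) {η : ℝ} (hη : 0 < η) : ∃ δ > 0, ∀ o ∈ K, ∀ x ∈ K, ∀ y ∈ K,
    ∀ ρ > 0, Γ.σ o x ≤ (δ * ρ) ^ 2 → lam (Γ.σ x y) ρ ≤ (1 + η) * lam (Γ.σ o y) ρ := by
  obtain ⟨C, hC, h1⟩ := Γ.sqrt_lip hK
  refine ⟨η / (2 * C * (1 + η)), by positivity, fun o ho x hx y hy ρ hρ h2 => ?_⟩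
  have h3 := h1 o ho x hx y hy
  have h4 : √(Γ.σ o x) ≤ η / (2 * C * (1 + η)) * ρ :=
    Real.sqrt_le_iff.mpr ⟨by positivity, h2⟩
  have h5 : C * √(Γ.σ o x) ≤ η / (2 * (1 + η)) * ρ := by
    have := mul_le_mul_of_nonneg_left h4 hC.le
    have e : C * (η / (2 * C * (1 + η)) * ρ) = η / (2 * (1 + η)) * ρ := by field_simp
    linarith
  have s1 := Γ.nonneg o y
  have s2 := Γ.nonneg x y
  have h6 : Γ.σ o y ≤ (√(Γ.σ x y) + η / (2 * (1 + η)) * ρ) ^ 2 := by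
    have := pow_le_pow_left₀ (Real.sqrt_nonneg _) (h3.trans (add_le_add le_rfl h5)) 2
    rwa [Real.sq_sqrt s1] at this
  have h7 := Real.sq_sqrt s2
  obtain ⟨u, hu⟩ : ∃ u : ℝ, u = ρ / (2 * (1 + η)) := ⟨_, rfl⟩
  have hu0 : 0 < u := by
    rw [hu]
    positivity
  have e1 : η / (2 * (1 + η)) * ρ = η * u := by
    rw [hu]
    ring
  have e2 : ρ = 2 * (1 + η) * u := by
    rw [hu]
    field_simp
  rw [e1] at h6
  have h8 : ρ ^ 2 + 2 * Γ.σ o y ≤ (1 + η) * (ρ ^ 2 + 2 * Γ.σ x y) := by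
    generalize √(Γ.σ x y) = A at *
    have a1 := mul_nonneg hη.le (sq_nonneg (A - u))
    have a2 : 2 * (η * (1 + η) * u ^ 2) ≤ η * ρ ^ 2 := by
      rw [e2]
      have : 0 ≤ η * (1 + η) * u ^ 2 * (2 + 4 * η) := by positivity
      linarith
    rw [← h7]
    linarith
  unfold lam
  rw [← mul_div_assoc, div_le_div_iff₀ (by positivity) (by positivity)]
  have := mul_le_mul_of_nonneg_left h8 (show 0 ≤ 2 * ρ by positivity)
  linarith

end Geo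


end Vale.Agent.P219
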