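import Vale.Agent.P219.MonoU
import Vale.Agent.P219.MonoD
import Vale.Agent.P219.Avg

/-!
Transfer of the density to the scale of concentration.
-/

open scoped ContDiff Topology ENNReal
open MeasureTheory Set Filter Metric

noncomputable section

namespace Vale.Agent.P219

variable {n k : ℕ} {b : ℝ}

namespace Geo

variable (Γ : Geo (k + 1) b) {W : Vf (k + 1)} {h : ℝ} {γ : E (k + 1) → ℝ} {K : Set (E (k + 1))}

theorem transfer (hk : 3 ≤ k) (hF : Γ.FV W h γ) (hD : Γ.Den W) (hK : IsCompact K) {η c : ℝ}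
    (hη : 0 < η) (hc : 0 < c) : ∃ δ > 0, ∀ o ∈ K, ∀ τ : ℝ, 0 < τ → τ ≤ δ →
      ∀ θ : E (k + 1) → ℝ, ContDiff ℝ 1 θ → (∀ y, 0 ≤ θ y ∧ θ y ≤ 1) →
      c ≤ ∫ w in {w | θ w.1 = 1}, lam (Γ.σ o w.1) τ ^ k ∂W.V →
      ∫ w, lam (Γ.σ o w.1) τ ^ (k - 1) * (‖Γ.gt θ w‖ + θ w.1) ∂W.V ≤ δ →
      ∫ w, θ w.1 * lam (Γ.σ o w.1) τ ^ k * (Γ.pn o w ^ 2 / (τ ^ 2 + 2 * Γ.σ o w.1)) ∂W.V ≤ δ →
      sph k - η ≤ ∫ w, θ w.1 * lam (Γ.σ o w.1) τ ^ k ∂W.V := by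
  obtain ⟨C0, hC0, hlam⟩ := Γ.dens_lam hk hF hK
  obtain ⟨e, he0, he⟩ : ∃ e : ℝ, 0 < e ∧ ((1 + e) ^ k - 1) * C0 < η / 3 := by
    have hc : Continuous fun e : ℝ => ((1 + e) ^ k - 1) * C0 := by fun_prop
    have h1 : ∀ᶠ e in 𝓝 (0 : ℝ), ((1 + e) ^ k - 1) * C0 < η / 3 :=
      hc.continuousAt.eventually_lt continuousAt_const (by simpa using hη)
    obtain ⟨e, h2, h3⟩ := ((h1.filter_mono nhdsWithin_le_nhds).and
      (self_mem_nhdsWithin : Ioi (0 : ℝ) ∈ 𝓝[>] (0 : ℝ))).exists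
    exact ⟨e, h3, h2⟩
  obtain ⟨δ₁, hδ₁, hshift⟩ := Γ.lam_shift (hK.union W.cpt) he0
  obtain ⟨Ct, hCt, htail⟩ := Γ.dens_tail hk hF hK
  obtain ⟨R, hR1, hR2, hR3⟩ : ∃ R : ℝ, 1 ≤ R ∧ 1 / δ₁ ≤ R ∧ 2 * Ct / c ≤ R :=
    ⟨max 1 (max (1 / δ₁) (2 * Ct / c)), le_max_left _ _,
      (le_max_left _ _).trans (le_max_right _ _), (le_max_right _ _).trans (le_max_right _ _)⟩
  have hR0 : 0 < R := by linarith
  have hRc : Ct / R ^ k ≤ c / 2 := by
    have h1 : R ≤ R ^ k := le_self_pow₀ hR1 (by omega)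
    rw [div_le_iff₀ hc] at hR3
    rw [div_le_iff₀ (by positivity)]
    nlinarith [mul_le_mul_of_nonneg_right h1 hc.le]
  obtain ⟨Cg, hCg, hgood⟩ := Γ.good_point hk hF hK hR1 (show 0 < c / 2 / 2 ^ k by positivity)
  obtain ⟨Cp, hCp, hpt⟩ := Γ.point_ineq hk hF hD
  obtain ⟨Cd, hCd, hdown⟩ := Γ.mono_down hk hF hK
  obtain ⟨M, hM⟩ : ∃ M : ℝ, M = Cp * Cg + 2 * (Cd * (R ^ 2) ^ (k + 1)) := ⟨_, rfl⟩
  have hM0 : 0 < M := by rw [hM]; positivity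
  refine ⟨min 1 (η / (2 * M)), by positivity, ?_⟩
  intro o ho τ hτ hτδ θ hθ hθ1 h1 h2 h3
  have hδ0 : 0 < min 1 (η / (2 * M)) := by positivity
  have hτ1 : τ ≤ 1 := hτδ.trans (min_le_left _ _)
  have hδ : M * min 1 (η / (2 * M)) ≤ η / 2 := by
    refine (mul_le_mul_of_nonneg_left (min_le_right _ _) hM0.le).trans (le_of_eq ?_)
    field_simp
  generalize min 1 (η / (2 * M)) = δ at *
  have cθ : Continuous fun w : E (k + 1) × E (k + 1) => θ w.1 := hθ.continuous.comp continuous_fst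
  have cσ : Continuous fun w : E (k + 1) × E (k + 1) => Γ.σ o w.1 :=
    (Γ.sm o).continuous.comp continuous_fst
  have cl : ∀ (x : E (k + 1)) (t : ℝ), 0 < t →
      Continuous fun w : E (k + 1) × E (k + 1) => lam (Γ.σ x w.1) t ^ k :=
    fun x t ht => ((Γ.cont_lam x ht).continuous.comp continuous_fst).pow k
  have l0 : ∀ (x y : E (k + 1)) (t : ℝ), 0 < t → 0 < lam (Γ.σ x y) t :=
    fun x y t ht => lam_pos (Γ.nonneg x y) ht
  set A : Set (E (k + 1) × E (k + 1)) := {w | θ w.1 = 1} ∩ {w | Γ.σ o w.1 ≤ (R * τ) ^ 2} with hA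
  set B : Set (E (k + 1) × E (k + 1)) := {w | (R * τ) ^ 2 < Γ.σ o w.1} with hB
  have mA : MeasurableSet A := (isClosed_eq cθ continuous_const).measurableSet.inter
    (isClosed_le cσ continuous_const).measurableSet
  have mB : MeasurableSet B := (isOpen_lt continuous_const cσ).measurableSet
  have il := W.integrable (cl o τ hτ)
  have hAB : c ≤ ∫ w in A, lam (Γ.σ o w.1) τ ^ k ∂W.V + ∫ w in B, lam (Γ.σ o w.1) τ ^ k ∂W.V := by
    have hd : Disjoint A B := disjoint_left.2 fun w hw hw' =>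
      absurd (show Γ.σ o w.1 ≤ (R * τ) ^ 2 from hw.2) (not_le.2 hw')
    rw [← setIntegral_union hd mB il.integrableOn il.integrableOn]
    refine h1.trans (setIntegral_mono_set il.integrableOn
      (Eventually.of_forall fun w => (pow_pos (l0 _ _ _ hτ) k).le) ?_)
    refine (show {w : E (k + 1) × E (k + 1) | θ w.1 = 1} ⊆ A ∪ B from fun w hw => ?_).eventuallyLE
    rcases le_or_gt (Γ.σ o w.1) ((R * τ) ^ 2) with h | h
    · exact Or.inl ⟨hw, h⟩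
    · exact Or.inr h
  have hAle : ∫ w in A, lam (Γ.σ o w.1) τ ^ k ∂W.V ≤ W.V.real A * (2 / τ) ^ k := by
    rw [← smul_eq_mul, ← setIntegral_const]
    exact setIntegral_mono_on il.integrableOn (integrable_const _).integrableOn mA fun w _ =>
      pow_le_pow_left₀ (l0 _ _ _ hτ).le (lam_le (Γ.nonneg _ _) hτ) k
  have hVA : c / 2 / 2 ^ k * τ ^ k ≤ W.V.real A := by
    have h4 : c / 2 ≤ W.V.real A * (2 / τ) ^ k := by
      linarith [htail o ho τ hτ R hR1]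
    rw [div_pow, ← mul_div_assoc, le_div_iff₀ (by positivity)] at h4
    rw [div_mul_eq_mul_div, div_le_iff₀ (by positivity)]
    exact h4
  obtain ⟨x, hxA, ⟨hx1, hx2⟩, hx⟩ := hgood o ho τ hτ A mA (fun x hx => hx.2) hVA
    (fun w => ‖Γ.gt θ w‖ + θ w.1) ((Γ.cont_gt hθ).norm.add cθ)
    (fun w => add_nonneg (norm_nonneg _) (hθ1 _).1) _ (hpt.and W.supp)
  have hρ : 0 < R ^ 2 * τ := by positivity
  have h5 := hx1 θ hθ (fun y => (hθ1 y).1) (le_of_eq hxA.1.symm) _ hρ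
  have h6 : sph k - ∫ w, θ w.1 * lam (Γ.σ x.1 w.1) (R ^ 2 * τ) ^ k ∂W.V ≤ Cp * Cg * δ := by
    rw [← ENNReal.ofReal_le_ofReal_iff (by positivity)]
    refine h5.trans ?_
    simp only [mul_assoc Cp, ENNReal.ofReal_mul hCp.le]
    rw [lintegral_const_mul' _ _ ENNReal.ofReal_ne_top]
    refine mul_le_mul_right (hx.trans (ENNReal.ofReal_le_ofReal ?_)) _
    exact mul_le_mul_of_nonneg_left h2 hCg.le
  have h7 : ∫ w, θ w.1 * lam (Γ.σ x.1 w.1) (R ^ 2 * τ) ^ k ∂W.V ≤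
      ∫ w, (θ w.1 * lam (Γ.σ o w.1) (R ^ 2 * τ) ^ k +
        ((1 + e) ^ k - 1) * lam (Γ.σ o w.1) (R ^ 2 * τ) ^ k) ∂W.V := by
    refine W.integral_mono (cθ.mul (cl _ _ hρ))
      ((cθ.mul (cl _ _ hρ)).add (continuous_const.mul (cl _ _ hρ))) fun w hw _ => ?_
    have hs : Γ.σ o x.1 ≤ (δ₁ * (R ^ 2 * τ)) ^ 2 := by
      refine le_trans hxA.2 (pow_le_pow_left₀ (by positivity) ?_ 2)
      rw [div_le_iff₀ hδ₁] at hR2
      nlinarith [mul_le_mul_of_nonneg_right hR2 (show 0 ≤ R * τ by positivity)]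
    have h8 := pow_le_pow_left₀ (l0 _ _ _ hρ).le
      (hshift o (Or.inl ho) x.1 (Or.inr hx2.1) w.1 (Or.inr hw) _ hρ hs) k
    rw [mul_pow] at h8
    have h9 : 0 ≤ ((1 + e) ^ k - 1) * lam (Γ.σ o w.1) (R ^ 2 * τ) ^ k :=
      mul_nonneg (sub_nonneg.2 (one_le_pow₀ (by linarith))) (pow_pos (l0 _ _ _ hρ) k).le
    have h10 := mul_le_mul_of_nonneg_left h8 (hθ1 w.1).1
    have h11 := mul_le_mul_of_nonneg_right (hθ1 w.1).2 h9
    nlinarith
  have i1 : Integrable (fun w : E (k + 1) × E (k + 1) =>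
      θ w.1 * lam (Γ.σ o w.1) (R ^ 2 * τ) ^ k) W.V := W.integrable (cθ.mul (cl _ _ hρ))
  rw [integral_add i1 ((W.integrable (cl o _ hρ)).const_mul _), integral_const_mul] at h7
  have h12 := mul_le_mul_of_nonneg_left (hlam o ho _ hρ)
    (sub_nonneg.2 (one_le_pow₀ (show 1 ≤ 1 + e by linarith) (n := k)))
  have h13 := hdown o ho θ hθ (fun y => (hθ1 y).1) τ (R ^ 2) hτ hτ1 (one_le_pow₀ hR1)
  have h14 := mul_le_mul_of_nonneg_left (add_le_add h2 h3)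
    (show 0 ≤ Cd * (R ^ 2) ^ (k + 1) by positivity)
  rw [hM] at hδ
  linarith

end Geo


end Vale.Agent.P219
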