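import Vale.Agent.P219.Absorb
import Vale.Agent.P219.Level
import Vale.Agent.P219.Transfer
import Vale.Agent.P219.Errs
import Vale.Agent.P219.Scal

/-!
Small deficits force a full bubble.
-/

open scoped ContDiff Topology ENNReal
open MeasureTheory Set Filter Metric

noncomputable section

namespace Vale.Agent.P219

variable {n k : ℕ} {b : ℝ}

theorem conc_choose {S η : ℝ} (k : ℕ) (hS : 0 < S) (hη : 0 < η) : ∃ t : ℝ, 0 < t ∧ t < 1 ∧ t < S ∧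
    S ^ (2 / k : ℝ) - η ≤
      (1 - t) ^ 2 * ((((1 - t) ^ 2) ^ 2) * ((S - t) / (1 + t) ^ k)) ^ (2 / k : ℝ) := by
  have hc : ContinuousAt (fun t : ℝ =>
      (1 - t) ^ 2 * ((((1 - t) ^ 2) ^ 2) * ((S - t) / (1 + t) ^ k)) ^ (2 / k : ℝ)) 0 := by
    refine ContinuousAt.mul (by fun_prop) (ContinuousAt.rpow_const ?_ (Or.inr (by positivity)))
    refine ContinuousAt.mul (by fun_prop) (ContinuousAt.div (by fun_prop) (by fun_prop) (by simp))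
  have h0 : S ^ (2 / k : ℝ) - η < (fun t : ℝ =>
      (1 - t) ^ 2 * ((((1 - t) ^ 2) ^ 2) * ((S - t) / (1 + t) ^ k)) ^ (2 / k : ℝ)) 0 := by
    simp only [sub_zero, add_zero, one_pow, one_mul, div_one]
    linarith
  have h1 := hc.eventually (lt_mem_nhds h0)
  have h2 : ∀ᶠ t in 𝓝 (0 : ℝ), t < 1 := gt_mem_nhds one_pos
  have h3 : ∀ᶠ t in 𝓝 (0 : ℝ), t < S := gt_mem_nhds hS
  have h4 : ∀ᶠ t in 𝓝[>] (0 : ℝ), 0 < t := self_mem_nhdsWithin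
  obtain ⟨t, ht0, ht1, ht2, ht3⟩ :=
    (h4.and ((h2.and (h3.and h1)).filter_mono nhdsWithin_le_nhds)).exists
  exact ⟨t, ht0, ht1, ht2, ht3.le⟩

theorem conc_k2 (hk : 3 ≤ k) : (0 : ℝ) < (k : ℝ) - 2 := by
  have : (3 : ℝ) ≤ k := by exact_mod_cast hk
  linarith

theorem conc_qq (hk : 3 ≤ k) : 2 < qq k := by
  have h := conc_k2 hk
  rw [qq, lt_div_iff₀ h]
  linarith

theorem conc_exp (hk : 3 ≤ k) : 1 - 2 / qq k = 2 / k := by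
  have h := conc_k2 hk
  have h' : (0 : ℝ) < k := by linarith
  rw [qq]
  field_simp
  ring

theorem conc_ck (hk : 3 ≤ k) : 0 < ck k := by
  have h := conc_k2 hk
  have h' : (0 : ℝ) < k := by linarith
  rw [ck]
  positivity

theorem conc_pow_q (hk : 3 ≤ k) {l u : ℝ} (hl : 0 < l) (hu : 0 ≤ u) :
    l ^ k * (u / l ^ be k) ^ qq k = u ^ qq k := by
  have h := conc_k2 hk
  have h1 : be k * qq k = k := by
    rw [be, qq]
    field_simp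
  rw [Real.div_rpow hu (Real.rpow_nonneg hl.le _), ← Real.rpow_mul hl.le, h1, Real.rpow_natCast]
  field_simp

theorem conc_pow_two (k : ℕ) {l : ℝ} (hl : 0 < l) (u : ℝ) :
    l ^ k * (u / l ^ be k) ^ 2 = u ^ 2 * l ^ 2 := by
  have h1 : (l ^ be k) ^ 2 * l ^ 2 = l ^ k := by
    rw [← Real.rpow_natCast (l ^ be k) 2, ← Real.rpow_mul hl.le, ← Real.rpow_natCast l 2,
      ← Real.rpow_add hl, ← Real.rpow_natCast l k, be]
    congr 1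
    push_cast
    ring
  have h2 : 0 < l ^ be k := Real.rpow_pos_of_pos hl _
  rw [← h1]
  field_simp

theorem conc_c (hk : 3 ≤ k) {Y : ℝ} (hY : 0 < Y) :
    ∃ c : ℝ, 0 < c ∧ ck k * c ^ (2 / k : ℝ) ≤ Y / 2 := by
  have hck := conc_ck hk
  have hk0 : (0 : ℝ) < k := by linarith [conc_k2 hk]
  refine ⟨(Y / 2 / ck k) ^ (k / 2 : ℝ), by positivity, le_of_eq ?_⟩
  rw [← Real.rpow_mul (by positivity), show (k / 2 : ℝ) * (2 / k) = 1 by field_simp,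
    Real.rpow_one]
  field_simp

theorem conc_delta (b : ℝ) {η t δ₁ δ₂ Y M : ℝ} (hη : 0 < η) (ht : 0 < t) (h₁ : 0 < δ₁)
    (h₂ : 0 < δ₂) (hY : 0 < Y) (hM : 0 < M) : ∃ δ : ℝ, 0 < δ ∧ δ < η ∧ δ ≤ δ₂ ∧
      δ * M ≤ Y / 2 * t ^ 2 ∧ ∀ τ : ℝ, 0 < τ → η * τ ^ 2 ≤ 4 * δ →
        τ ≤ 1 ∧ τ ≤ δ₁ ∧ aa b τ ≤ 1 + t := by
  obtain ⟨m, hm0, hm1, hm2, hm3⟩ : ∃ m : ℝ, 0 < m ∧ m ≤ 1 ∧ m ≤ δ₁ ∧ m ≤ t / (b ^ 2 + 1) :=
    ⟨min 1 (min δ₁ (t / (b ^ 2 + 1))), by positivity, min_le_left _ _,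
      (min_le_right _ _).trans (min_le_left _ _), (min_le_right _ _).trans (min_le_right _ _)⟩
  obtain ⟨δ, hδ0, hδ1, hδ2, hδ3⟩ : ∃ δ : ℝ, 0 < δ ∧ δ ≤ η * m ^ 2 / 4 ∧ δ ≤ δ₂ ∧
      δ ≤ Y / 2 * t ^ 2 / M :=
    ⟨min (η * m ^ 2 / 4) (min δ₂ (Y / 2 * t ^ 2 / M)), by positivity,
      min_le_left _ _, (min_le_right _ _).trans (min_le_left _ _),
      (min_le_right _ _).trans (min_le_right _ _)⟩
  refine ⟨δ, hδ0, ?_, hδ2, (le_div_iff₀ hM).1 hδ3, fun τ hτ h7 => ?_⟩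
  · have : η * m ^ 2 ≤ η := mul_le_of_le_one_right hη.le (pow_le_one₀ hm0.le hm1)
    linarith
  have hτm : τ ≤ m := by
    have h8 : η * τ ^ 2 ≤ η * m ^ 2 := by linarith
    exact le_of_sq_le_sq (le_of_mul_le_mul_left h8 hη) hm0.le
  have hτ1 : τ ≤ 1 := hτm.trans hm1
  refine ⟨hτ1, hτm.trans hm2, ?_⟩
  have h7 : τ * (b ^ 2 + 1) ≤ t := (le_div_iff₀ (by positivity)).1 (hτm.trans hm3)
  have h8 : b ^ 2 * τ ^ 2 ≤ b ^ 2 * τ := by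
    refine mul_le_mul_of_nonneg_left ?_ (sq_nonneg b)
    nlinarith
  rw [aa]
  nlinarith

theorem conc_abs {X Y t δ c C' e₁ e₂ e₃ : ℝ} (hY : 0 < Y) (hc : 0 < c) (hC : 0 < C')
    (h : Y / 2 * X ≤ e₁ + c * e₂ + C' * e₃) (h₁ : e₁ ≤ δ) (h₂ : e₂ ≤ δ) (h₃ : e₃ ≤ δ)
    (hδ : δ * (1 + c + C') ≤ Y / 2 * t ^ 2) : X ≤ t ^ 2 := by
  have h9 := mul_le_mul_of_nonneg_left h₂ hc.le
  have h10 := mul_le_mul_of_nonneg_left h₃ hC.le
  refine le_of_mul_le_mul_left ?_ (half_pos hY)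
  linarith

theorem conc_abs_le {x L : ℝ} (h : 0 ≤ x ∧ x ≤ L) : |x| ≤ L := by
  rw [abs_of_nonneg h.1]
  exact h.2

namespace Geo

variable (Γ : Geo (k + 1) b) {W : Vf (k + 1)} {h : ℝ} {γ : E (k + 1) → ℝ} {K : Set (E (k + 1))}

theorem conc_tau {o : E (k + 1)} {τ η δ : ℝ} (hτ : 0 < τ) {u : E (k + 1) → ℝ}
    (hu : ContDiff ℝ 1 u) (h1 : η ≤ ∫ z, u z.1 ^ 2 * Γ.la o τ z.1 ^ 2 ∂W.V)
    (h2 : ∫ z, u z.1 ^ 2 ∂W.V ≤ δ) : η * τ ^ 2 ≤ 4 * δ := by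
  have hc : Continuous fun z : E (k + 1) × E (k + 1) => u z.1 := hu.continuous.comp continuous_fst
  have hl : Continuous fun z : E (k + 1) × E (k + 1) => Γ.la o τ z.1 :=
    (Γ.la_sm o hτ).continuous.comp continuous_fst
  have h3 : ∫ z, u z.1 ^ 2 * Γ.la o τ z.1 ^ 2 ∂W.V ≤ ∫ z, (2 / τ) ^ 2 * u z.1 ^ 2 ∂W.V := by
    refine W.integral_mono ((hc.pow 2).mul (hl.pow 2)) (continuous_const.mul (hc.pow 2))
      fun z _ _ => ?_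
    have h4 : Γ.la o τ z.1 ≤ 2 / τ :=
      (Γ.la_le_lam o hτ _).trans (lam_le (Γ.nonneg _ _) hτ)
    rw [mul_comm]
    exact mul_le_mul_of_nonneg_right (pow_le_pow_left₀ (Γ.la_pos o hτ _).le h4 2) (sq_nonneg _)
  rw [integral_const_mul] at h3
  have h5 : η ≤ (2 / τ) ^ 2 * δ :=
    h1.trans (h3.trans (mul_le_mul_of_nonneg_left h2 (sq_nonneg _)))
  have h6 : (2 / τ) ^ 2 * δ * τ ^ 2 = 4 * δ := by
    field_simp
    ring
  rw [← h6]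
  exact mul_le_mul_of_nonneg_right h5 (sq_nonneg _)

theorem conc_mem {o : E (k + 1)} {τ η δ : ℝ} (hτ : 0 < τ) (hτ1 : τ ≤ 1) {u : E (k + 1) → ℝ}
    (hu : ContDiff ℝ 1 u) (h1 : η ≤ ∫ z, u z.1 ^ 2 * Γ.la o τ z.1 ^ 2 ∂W.V)
    (h2 : ∫ z, u z.1 ^ 2 ∂W.V ≤ δ) (hδ : δ < η) : ∃ x ∈ W.K, Γ.σ o x ≤ 1 := by
  by_contra hn
  push Not at hn
  have hc : Continuous fun z : E (k + 1) × E (k + 1) => u z.1 := hu.continuous.comp continuous_fst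
  have hl : Continuous fun z : E (k + 1) × E (k + 1) => Γ.la o τ z.1 :=
    (Γ.la_sm o hτ).continuous.comp continuous_fst
  have h3 : ∫ z, u z.1 ^ 2 * Γ.la o τ z.1 ^ 2 ∂W.V ≤ ∫ z, u z.1 ^ 2 ∂W.V := by
    refine W.integral_mono ((hc.pow 2).mul (hl.pow 2)) (hc.pow 2) fun z hz _ => ?_
    have h4 : Γ.la o τ z.1 ≤ 1 := by
      have h5 := hn z.1 hz
      have h6 := aa_ge b τ
      rw [la, div_le_one (Γ.D_pos o hτ _), D]
      nlinarith [sq_nonneg τ, mul_nonneg (sub_nonneg.2 h6) (sub_nonneg.2 h5.le)]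
    exact mul_le_of_le_one_right (sq_nonneg _) (pow_le_one₀ (Γ.la_pos o hτ _).le h4)
  linarith

theorem conc_low {o : E (k + 1)} {τ a' : ℝ} (hτ : 0 < τ) {v θ : E (k + 1) → ℝ}
    (hθ : ∀ x, a' < v x → θ x = 1) :
    ∫ z in {z | a' < v z.1}, Γ.la o τ z.1 ^ k ∂W.V ≤
      ∫ w in {w | θ w.1 = 1}, lam (Γ.σ o w.1) τ ^ k ∂W.V := by
  have hl : Continuous fun z : E (k + 1) × E (k + 1) => Γ.la o τ z.1 ^ k :=
    ((Γ.la_sm o hτ).continuous.comp continuous_fst).pow k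
  have hm : Continuous fun z : E (k + 1) × E (k + 1) => lam (Γ.σ o z.1) τ ^ k :=
    ((Γ.cont_lam o hτ).continuous.comp continuous_fst).pow k
  refine (setIntegral_mono (W.integrable hl).integrableOn (W.integrable hm).integrableOn
    fun z => pow_le_pow_left₀ (Γ.la_pos o hτ _).le (Γ.la_le_lam o hτ _) k).trans ?_
  exact setIntegral_mono_set (W.integrable hm).integrableOn
    (Eventually.of_forall fun z => pow_nonneg (lam_pos (Γ.nonneg _ _) hτ).le k)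
    (LE.le.eventuallyLE fun z hz => hθ z.1 hz)

theorem conc_up {o : E (k + 1)} {τ a' A : ℝ} (hτ : 0 < τ) (hA : aa b τ ≤ A)
    {v θ : E (k + 1) → ℝ} (hv : Continuous v) (hθ : Continuous θ)
    (h1 : ∀ x, θ x ≤ 1) (h0 : ∀ x, v x < a' → θ x = 0) :
    ∫ w, θ w.1 * lam (Γ.σ o w.1) τ ^ k ∂W.V ≤
      A ^ k * ∫ z in {z | a' ≤ v z.1}, Γ.la o τ z.1 ^ k ∂W.V := by
  have hl : Continuous fun z : E (k + 1) × E (k + 1) => Γ.la o τ z.1 ^ k :=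
    ((Γ.la_sm o hτ).continuous.comp continuous_fst).pow k
  have hm : Continuous fun z : E (k + 1) × E (k + 1) => lam (Γ.σ o z.1) τ ^ k :=
    ((Γ.cont_lam o hτ).continuous.comp continuous_fst).pow k
  have hs : MeasurableSet {z : E (k + 1) × E (k + 1) | a' ≤ v z.1} :=
    (isClosed_le continuous_const (hv.comp continuous_fst)).measurableSet
  rw [← integral_indicator hs, ← integral_const_mul]
  refine integral_mono (W.integrable ((hθ.comp continuous_fst).mul hm))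
    (((W.integrable hl).indicator hs).const_mul _) fun z => ?_
  by_cases hz : a' ≤ v z.1
  · have hz' : z ∈ {z : E (k + 1) × E (k + 1) | a' ≤ v z.1} := hz
    simp only [indicator_of_mem hz']
    have h2 : lam (Γ.σ o z.1) τ ≤ A * Γ.la o τ z.1 :=
      (Γ.lam_le_la o hτ _).trans (mul_le_mul_of_nonneg_right hA (Γ.la_pos o hτ _).le)
    have h3 := pow_le_pow_left₀ (lam_pos (Γ.nonneg o z.1) hτ).le h2 k
    rw [← mul_pow]
    exact (mul_le_of_le_one_left (pow_nonneg (lam_pos (Γ.nonneg _ _) hτ).le k) (h1 _)).trans h3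
  · have hz' : z ∉ {z : E (k + 1) × E (k + 1) | a' ≤ v z.1} := hz
    simp only [indicator_of_notMem hz', h0 z.1 (not_le.1 hz), zero_mul, mul_zero, le_refl]

theorem conc (hk : 3 ≤ k) (hF : Γ.FV W h γ) (hD : Γ.Den W) {C Y N η : ℝ} (hY : 0 < Y)
    (hS : Γ.Sob W C Y) (hη : 0 < η) : ∃ δ > 0, ∀ o τ, 0 < τ → ∀ u : E (k + 1) → ℝ,
      ContDiff ℝ 1 u → (∀ x, 0 ≤ u x) → ∫ z, u z.1 ^ qq k ∂W.V = 1 →
      η ≤ ∫ z, u z.1 ^ 2 * Γ.la o τ z.1 ^ 2 ∂W.V →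
      ∫ z, u z.1 ^ 2 * Γ.la o τ z.1 ^ 2 ∂W.V ≤ N →
      ∫ z, ‖Γ.er o τ u z‖ ^ 2 ∂W.V ≤ δ → ∫ z, u z.1 ^ 2 * (Γ.P o τ z - γ z.1) ^ 2 ∂W.V ≤ δ →
      ∫ z, u z.1 ^ 2 ∂W.V ≤ δ →
      sph k ^ (2 / k : ℝ) - η ≤ ∫ z, u z.1 ^ 2 * Γ.la o τ z.1 ^ 2 ∂W.V := by
  have hK : IsCompact {o | ∃ x ∈ W.K, Γ.σ o x ≤ 1} := Γ.isCompact_near W.cpt 1
  obtain ⟨C', hC', hab⟩ := Γ.absorb hk hF hK hY hS
  obtain ⟨Cd, hCd, hden⟩ := Γ.dens_lam hk hF hK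
  obtain ⟨t, ht0, ht1, htS, hfin⟩ := conc_choose k (sph_pos k) hη
  have hck := conc_ck hk
  have hq := conc_qq hk
  obtain ⟨c, hc0, hc⟩ := conc_c hk hY
  have hg0 : 0 < 1 - t := sub_pos.2 ht1
  have hg1 : 1 - t < 1 := sub_lt_self _ ht0
  have hg2 : (1 - t) ^ 2 < 1 - t := by
    rw [sq]
    exact mul_lt_of_lt_one_left hg0 hg1
  obtain ⟨χ, L, hχ, -, hχ0, hχ1, hχ2, hχ3, -⟩ := exists_cut hg2
  have hχ' : ContDiff ℝ 1 χ := hχ.of_le (by simp)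
  obtain ⟨δ₁, hδ₁, htr⟩ := Γ.transfer hk hF hD hK ht0 hc0
  have hCq : 0 < Cd ^ (1 / qq k) := Real.rpow_pos_of_pos hCd _
  obtain ⟨δ₂, hδ₂, her⟩ := Γ.errs hk hF hK hχ' (N := N) (pow_pos hg0 2) hχ0 hχ2
    (fun s => conc_abs_le (hχ3 s)) (div_pos hg0 hCq) hδ₁
  obtain ⟨δ, hδ0, hδη, hδ2, hδ3, hδ4⟩ := conc_delta b hη ht0 hδ₁ hδ₂ hY
    (add_pos (add_pos one_pos hck) hC')
  refine ⟨δ, hδ0, fun o τ hτ u hu hu0 h1 h2 h3 h4 h5 h6 => ?_⟩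
  obtain ⟨hτ1, hτ2, haa⟩ := hδ4 τ hτ (Γ.conc_tau hτ hu h2 h6)
  have ho : o ∈ {o | ∃ x ∈ W.K, Γ.σ o x ≤ 1} := Γ.conc_mem hτ hτ1 hu h2 h6 hδη
  have hl : Continuous fun x => Γ.la o τ x ^ k := (Γ.la_sm o hτ).continuous.pow k
  have hl0 : ∀ x, 0 ≤ Γ.la o τ x ^ k := fun x => pow_nonneg (Γ.la_pos o hτ x).le k
  have hv := Γ.vv_sm o hτ hu
  have hv0 : ∀ x, 0 ≤ Γ.vv o τ u x := fun x =>
    div_nonneg (hu0 x) (Real.rpow_nonneg (Γ.la_pos o hτ x).le _)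
  obtain ⟨a, ha0, ha1, ha2⟩ := level_exists W hl hv.continuous hl0 hc0
  have hz : (∫ z, Γ.la o τ z.1 ^ k * max (Γ.vv o τ u z.1 - a) 0 ^ qq k ∂W.V) ^ (2 / qq k) ≤
      t ^ 2 :=
    conc_abs hY hck hC' (hab o ho τ hτ u hu hu0 a c ha0 hc0.le hc ha1) h4 h5 h6 hδ3
  have hone : ∫ z, Γ.la o τ z.1 ^ k * Γ.vv o τ u z.1 ^ qq k ∂W.V = 1 := by
    rw [← h1]
    exact integral_congr_ae (Eventually.of_forall fun z =>
      conc_pow_q hk (Γ.la_pos o hτ _) (hu0 _))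
  have htwo : ∫ z, Γ.la o τ z.1 ^ k * Γ.vv o τ u z.1 ^ 2 ∂W.V =
      ∫ z, u z.1 ^ 2 * Γ.la o τ z.1 ^ 2 ∂W.V :=
    integral_congr_ae (Eventually.of_forall fun z => conc_pow_two k (Γ.la_pos o hτ _) _)
  have hbd : ∫ z, Γ.la o τ z.1 ^ k ∂W.V ≤ Cd := by
    refine le_trans ?_ (hden o ho τ hτ)
    exact W.integral_mono (hl.comp continuous_fst)
      (((Γ.cont_lam o hτ).continuous.comp continuous_fst).pow k)
      fun z _ _ => pow_le_pow_left₀ (Γ.la_pos o hτ _).le (Γ.la_le_lam o hτ _) k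
  have hlow := level_lower W hl hv.continuous hl0 hv0 hq ha0 ht0.le hone hbd hz
  have haa₀ : (1 - t) / Cd ^ (1 / qq k) ≤ a := (div_le_iff₀ hCq).2 hlow
  have ha : 0 < a := (div_pos hg0 hCq).trans_le haa₀
  have hθ : ContDiff ℝ 1 fun x => χ (Γ.vv o τ u x / a) := hχ'.comp (hv.div_const a)
  obtain ⟨e1, e2⟩ := her o ho τ hτ hτ1 u hu hu0 a haa₀ h3 (h4.trans hδ2) (h5.trans hδ2)
    (h6.trans hδ2)
  have hcθ : c ≤ ∫ w in {w | χ (Γ.vv o τ u w.1 / a) = 1}, lam (Γ.σ o w.1) τ ^ k ∂W.V :=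
    (ha2 ((1 - t) * a) (mul_pos hg0 ha).le (mul_lt_of_lt_one_left ha hg1)).trans
      (Γ.conc_low (θ := fun x => χ (Γ.vv o τ u x / a)) hτ fun x hx =>
        hχ1 _ ((le_div_iff₀ ha).2 hx.le))
  have hT := htr o ho τ hτ hτ2 _ hθ (fun y => hχ2 _) hcθ e1 e2
  have hU := Γ.conc_up (W := W) (o := o) (a' := (1 - t) ^ 2 * a) hτ haa hv.continuous hθ.continuous
    (fun x => (hχ2 _).2) fun x hx => hχ0 _ ((div_le_iff₀ ha).2 hx.le)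
  have hp : 0 < (1 + t) ^ k := pow_pos (add_pos one_pos ht0) k
  have hS' : (sph k - t) / (1 + t) ^ k ≤
      ∫ z in {z | (1 - t) ^ 2 * a ≤ Γ.vv o τ u z.1}, Γ.la o τ z.1 ^ k ∂W.V := by
    rw [div_le_iff₀ hp, mul_comm]
    exact hT.trans hU
  have hsq := level_sq W hl hv.continuous hl0 hv0 hq ha ht0.le ht1.le (pow_pos hg0 2)
    (div_nonneg (sub_pos.2 htS).le hp.le) hone hz hS'
  rw [conc_exp hk, htwo] at hsq
  exact hfin.trans hsq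

end Geo


end Vale.Agent.P219
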