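import Vale.Agent.P219.Defs

/-!
Compactness of families of sets with a uniform translation modulus.
-/

open scoped ContDiff Topology ENNReal
open MeasureTheory Set Filter Metric

noncomputable section

namespace Vale.Agent.P219

variable {n k : ℕ} {b : ℝ}

/-- The measure of the part of `A` in the ball of radius `δ` about `x`. -/
def cptAv (A : Set (E n)) (δ : ℝ) (x : E n) : ℝ :=
  ∫ z in ball (0 : E n) δ, A.indicator (1 : E n → ℝ) (x + z)

theorem cpt_int {A : Set (E n)} {R : ℝ} (hm : MeasurableSet A) (hR : A ⊆ ball 0 R) :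
    Integrable (A.indicator (1 : E n → ℝ)) := by
  rw [integrable_indicator_iff hm]
  exact integrableOn_const ((measure_mono hR).trans_lt measure_ball_lt_top).ne

theorem cpt_ind_abs (A : Set (E n)) (x : E n) : |A.indicator (1 : E n → ℝ) x| ≤ 1 := by
  by_cases hx : x ∈ A <;> simp [hx]

theorem cpt_ind_sub (A : Set (E n)) (x y : E n) :
    |A.indicator (1 : E n → ℝ) x - A.indicator 1 y| ≤ 1 := by
  by_cases hx : x ∈ A <;> by_cases hy : y ∈ A <;> simp [hx, hy]

theorem cpt_av_abs (A : Set (E n)) (δ : ℝ) (x : E n) :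
    |cptAv A δ x| ≤ volume.real (ball (0 : E n) δ) := by
  have h := norm_setIntegral_le_of_norm_le_const (μ := volume) (s := ball (0 : E n) δ)
    (f := fun z => A.indicator (1 : E n → ℝ) (x + z)) (C := 1) measure_ball_lt_top
    (fun z _ => cpt_ind_abs A _)
  rw [one_mul] at h
  exact h

theorem cpt_lip {A : Set (E n)} {R C : ℝ} (hm : MeasurableSet A) (hR : A ⊆ ball 0 R)
    (h : ∀ z, ∫ x, |A.indicator (1 : E n → ℝ) (x + z) - A.indicator 1 x| ≤ C * ‖z‖)
    (δ : ℝ) (x y : E n) : |cptAv A δ x - cptAv A δ y| ≤ C * ‖x - y‖ := by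
  have i1 := (cpt_int hm hR).comp_add_left x
  have i2 := (cpt_int hm hR).comp_add_left y
  unfold cptAv
  rw [← integral_sub i1.integrableOn i2.integrableOn]
  have e := integral_add_left_eq_self (μ := (volume : Measure (E n)))
    (fun w => |A.indicator (1 : E n → ℝ) (w + (x - y)) - A.indicator 1 w|) y
  calc |∫ z in ball (0 : E n) δ, (A.indicator (1 : E n → ℝ) (x + z) - A.indicator 1 (y + z))|
      ≤ ∫ z in ball (0 : E n) δ, |A.indicator (1 : E n → ℝ) (x + z) - A.indicator 1 (y + z)| :=
        abs_integral_le_integral_abs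
    _ ≤ ∫ z, |A.indicator (1 : E n → ℝ) (x + z) - A.indicator 1 (y + z)| :=
        setIntegral_le_integral (i1.sub i2).abs (Eventually.of_forall fun _ => abs_nonneg _)
    _ = ∫ w, |A.indicator (1 : E n → ℝ) (w + (x - y)) - A.indicator 1 w| := by
        rw [← e]
        refine integral_congr_ae (Eventually.of_forall fun z => ?_)
        have : y + z + (x - y) = x + z := by abel
        simp only [this]
    _ ≤ C * ‖x - y‖ := h _

theorem cpt_prod_int {A : Set (E n)} (hm : MeasurableSet A) (R δ : ℝ) :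
    Integrable (Function.uncurry fun x z : E n =>
      |A.indicator (1 : E n → ℝ) (x + z) - A.indicator 1 x|)
      ((volume.restrict (ball (0 : E n) R)).prod (volume.restrict (ball (0 : E n) δ))) := by
  have h1 : Measurable (A.indicator (1 : E n → ℝ)) := measurable_const.indicator hm
  have h2 : Measurable (Function.uncurry fun x z : E n =>
      |A.indicator (1 : E n → ℝ) (x + z) - A.indicator 1 x|) :=
    continuous_abs.measurable.comp
      ((h1.comp (measurable_fst.add measurable_snd)).sub (h1.comp measurable_fst))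
  have f1 : IsFiniteMeasure (volume.restrict (ball (0 : E n) R)) :=
    isFiniteMeasure_restrict.mpr measure_ball_lt_top.ne
  have f2 : IsFiniteMeasure (volume.restrict (ball (0 : E n) δ)) :=
    isFiniteMeasure_restrict.mpr measure_ball_lt_top.ne
  refine Integrable.of_bound h2.aestronglyMeasurable 1 (Eventually.of_forall fun p => ?_)
  rw [Real.norm_eq_abs]
  show |(|A.indicator (1 : E n → ℝ) (p.1 + p.2) - A.indicator 1 p.1|)| ≤ 1
  rw [abs_abs]
  exact cpt_ind_sub A _ _

theorem cpt_near {A : Set (E n)} {R C : ℝ} (hm : MeasurableSet A) (hR : A ⊆ ball 0 R)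
    (h : ∀ z, ∫ x, |A.indicator (1 : E n → ℝ) (x + z) - A.indicator 1 x| ≤ C * ‖z‖) (δ : ℝ) :
    ∫ x in ball (0 : E n) R, ∫ z in ball (0 : E n) δ,
      |A.indicator (1 : E n → ℝ) (x + z) - A.indicator 1 x| ≤
        |C| * δ * volume.real (ball (0 : E n) δ) := by
  rw [integral_integral_swap (cpt_prod_int hm R δ)]
  refine (le_abs_self _).trans ?_
  rw [← Real.norm_eq_abs]
  refine norm_setIntegral_le_of_norm_le_const measure_ball_lt_top fun z hz => ?_
  rw [mem_ball_zero_iff] at hz
  have i1 := (cpt_int hm hR).comp_add_right z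
  rw [Real.norm_eq_abs, abs_of_nonneg (integral_nonneg fun _ => abs_nonneg _)]
  calc ∫ x in ball (0 : E n) R, |A.indicator (1 : E n → ℝ) (x + z) - A.indicator 1 x|
      ≤ ∫ x, |A.indicator (1 : E n → ℝ) (x + z) - A.indicator 1 x| :=
        setIntegral_le_integral (i1.sub (cpt_int hm hR)).abs
          (Eventually.of_forall fun _ => abs_nonneg _)
    _ ≤ C * ‖z‖ := h z
    _ ≤ |C| * δ := mul_le_mul (le_abs_self C) hz.le (norm_nonneg _) (abs_nonneg _)

theorem cpt_pt {A : Set (E n)} {R : ℝ} (hm : MeasurableSet A) (hR : A ⊆ ball 0 R) (δ : ℝ)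
    (x : E n) : |cptAv A δ x - A.indicator (1 : E n → ℝ) x * volume.real (ball (0 : E n) δ)| ≤
      ∫ z in ball (0 : E n) δ, |A.indicator (1 : E n → ℝ) (x + z) - A.indicator 1 x| := by
  have i1 := (cpt_int hm hR).comp_add_left x
  have i2 : IntegrableOn (fun _ : E n => A.indicator (1 : E n → ℝ) x) (ball (0 : E n) δ) :=
    integrableOn_const measure_ball_lt_top.ne
  have e : A.indicator (1 : E n → ℝ) x * volume.real (ball (0 : E n) δ) =
      ∫ _ in ball (0 : E n) δ, A.indicator (1 : E n → ℝ) x := by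
    rw [setIntegral_const, smul_eq_mul, mul_comm]
  unfold cptAv
  rw [e, ← integral_sub i1.integrableOn i2]
  exact abs_integral_le_integral_abs

/-- Two sets whose local averages are uniformly close are close. -/
theorem cpt_close {A B : Set (E n)} {R C δ η : ℝ} (hA : MeasurableSet A) (hB : MeasurableSet B)
    (hAR : A ⊆ ball 0 R) (hBR : B ⊆ ball 0 R)
    (h1 : ∀ z, ∫ x, |A.indicator (1 : E n → ℝ) (x + z) - A.indicator 1 x| ≤ C * ‖z‖)
    (h2 : ∀ z, ∫ x, |B.indicator (1 : E n → ℝ) (x + z) - B.indicator 1 x| ≤ C * ‖z‖)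
    (h3 : ∀ x ∈ ball (0 : E n) R, |cptAv A δ x - cptAv B δ x| ≤ η) :
    (∫ x, |A.indicator (1 : E n → ℝ) x - B.indicator 1 x|) * volume.real (ball (0 : E n) δ) ≤
      2 * (|C| * δ * volume.real (ball (0 : E n) δ)) + η * volume.real (ball (0 : E n) R) := by
  have e1 : ∫ x, |A.indicator (1 : E n → ℝ) x - B.indicator 1 x| =
      ∫ x in ball (0 : E n) R, |A.indicator (1 : E n → ℝ) x - B.indicator 1 x| := by
    refine (setIntegral_eq_integral_of_forall_compl_eq_zero fun x hx => ?_).symm
    have a1 : x ∉ A := fun h => hx (hAR h)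
    have a2 : x ∉ B := fun h => hx (hBR h)
    simp [a1, a2]
  have iA := (cpt_prod_int hA R δ).integral_prod_left
  have iB := (cpt_prod_int hB R δ).integral_prod_left
  simp only [Function.uncurry] at iA iB
  have i0 : IntegrableOn (fun _ : E n => η) (ball (0 : E n) R) :=
    integrableOn_const measure_ball_lt_top.ne
  have i1 : IntegrableOn (fun x => |A.indicator (1 : E n → ℝ) x - B.indicator 1 x| *
      volume.real (ball (0 : E n) δ)) (ball (0 : E n) R) :=
    (((cpt_int hA hAR).sub (cpt_int hB hBR)).abs.mul_const _).integrableOn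
  have hv : 0 ≤ volume.real (ball (0 : E n) δ) := measureReal_nonneg
  rw [e1, ← integral_mul_const]
  refine (setIntegral_mono_on i1 ((iA.add iB).add i0) measurableSet_ball fun x hx => ?_).trans ?_
  · have a1 := abs_le.mp (cpt_pt hA hAR δ x)
    have a2 := abs_le.mp (cpt_pt hB hBR δ x)
    have a3 := abs_le.mp (h3 x hx)
    rw [← abs_of_nonneg hv, ← abs_mul, abs_le]
    simp only [Pi.add_apply]
    constructor <;> linarith [a1.1, a1.2, a2.1, a2.2, a3.1, a3.2]
  · rw [integral_add' (iA.add iB) i0, integral_add' iA iB, setIntegral_const, smul_eq_mul]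
    have a1 := cpt_near hA hAR h1 δ
    have a2 := cpt_near hB hBR h2 δ
    linarith

/-- Along an ultrafilter, equi-Lipschitz bounded functions are uniformly Cauchy on balls. -/
theorem cpt_unif (U : Ultrafilter ℕ) {a : ℕ → E n → ℝ} {M C : ℝ} (hM : ∀ j x, |a j x| ≤ M)
    (hL : ∀ j x y, |a j x - a j y| ≤ C * ‖x - y‖) (R : ℝ) {η : ℝ} (hη : 0 < η) :
    ∃ S ∈ U, ∀ i ∈ S, ∀ j ∈ S, ∀ x ∈ ball (0 : E n) R, |a i x - a j x| ≤ η := by
  have hr : 0 < η / (4 * (|C| + 1)) := by positivity
  obtain ⟨N, -, hN, hcov⟩ := (isCompact_closedBall (0 : E n) R).finite_cover_balls hr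
  have hlim : ∀ p : E n, ∃ l : ℝ, ∀ᶠ j in (U : Filter ℕ), dist (a j p) l < η / 4 := by
    intro p
    obtain ⟨l, -, hl⟩ := (isCompact_Icc (a := -M) (b := M)).ultrafilter_le_nhds
      (U.map fun j => a j p) (by
        rw [Ultrafilter.coe_map, le_principal_iff, mem_map]
        exact univ_mem' fun j => abs_le.mp (hM j p))
    exact ⟨l, Metric.tendsto_nhds.mp hl _ (by positivity)⟩
  choose l hl using hlim
  have hall : ∀ᶠ j in (U : Filter ℕ), ∀ p ∈ N, dist (a j p) (l p) < η / 4 :=
    (eventually_all_finite hN).mpr fun p _ => hl p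
  refine ⟨_, hall, fun i hi j hj x hx => ?_⟩
  obtain ⟨p, hp, hxp⟩ := mem_iUnion₂.mp (hcov (ball_subset_closedBall hx))
  rw [mem_ball, dist_eq_norm] at hxp
  have b1 : C * ‖x - p‖ ≤ η / 4 := by
    calc C * ‖x - p‖ ≤ (|C| + 1) * (η / (4 * (|C| + 1))) :=
          mul_le_mul (by linarith [le_abs_self C]) hxp.le (norm_nonneg _) (by positivity)
      _ = η / 4 := by field_simp
  have a1 := abs_le.mp ((hL i x p).trans b1)
  have a2 := abs_le.mp ((hL j x p).trans b1)
  have a3 := abs_lt.mp (show |a i p - l p| < η / 4 from hi p hp)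
  have a4 := abs_lt.mp (show |a j p - l p| < η / 4 from hj p hp)
  rw [abs_le]
  constructor <;> linarith [a1.1, a1.2, a2.1, a2.2, a3.1, a3.2, a4.1, a4.2]

theorem exists_limit_set {A : ℕ → Set (E n)} {R C : ℝ} (hm : ∀ j, MeasurableSet (A j))
    (hR : ∀ j, A j ⊆ ball 0 R)
    (h : ∀ j z, ∫ x, |(A j).indicator (1 : E n → ℝ) (x + z) - (A j).indicator 1 x| ≤ C * ‖z‖) :
    ∃ A' : Set (E n), MeasurableSet A' ∧ A' ⊆ ball 0 R ∧
      ∀ ε > 0, ∃ᶠ j in atTop, volume.real (symmDiff (A j) A') ≤ ε := by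
  let U : Ultrafilter ℕ := Ultrafilter.of atTop
  let F : ℕ → Lp ℝ 1 (volume : Measure (E n)) := fun j => (cpt_int (hm j) (hR j)).toL1 _
  have hF : ∀ j, (F j : E n → ℝ) =ᵐ[volume] (A j).indicator 1 := fun j =>
    Integrable.coeFn_toL1 _
  have hc : Cauchy (map F (U : Filter ℕ)) := by
    refine Metric.cauchy_iff.mpr ⟨inferInstance, fun ε hε => ?_⟩
    obtain ⟨δ, hδ, hδ'⟩ : ∃ δ : ℝ, 0 < δ ∧ |C| * δ ≤ ε / 4 := by
      refine ⟨ε / (4 * (|C| + 1)), by positivity, ?_⟩
      calc |C| * (ε / (4 * (|C| + 1))) ≤ (|C| + 1) * (ε / (4 * (|C| + 1))) :=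
            mul_le_mul_of_nonneg_right (by linarith) (by positivity)
        _ = ε / 4 := by field_simp
    have hv : 0 < volume.real (ball (0 : E n) δ) :=
      ENNReal.toReal_pos (measure_ball_pos _ _ hδ).ne' measure_ball_lt_top.ne
    have hw : 0 ≤ volume.real (ball (0 : E n) R) := measureReal_nonneg
    obtain ⟨S, hS, hS'⟩ := cpt_unif U (a := fun j => cptAv (A j) δ)
      (fun j x => cpt_av_abs (A j) δ x) (fun j x y => cpt_lip (hm j) (hR j) (h j) δ x y) R
      (η := ε / 4 * volume.real (ball (0 : E n) δ) / (volume.real (ball (0 : E n) R) + 1))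
      (by positivity)
    refine ⟨F '' S, image_mem_map hS, ?_⟩
    rintro _ ⟨i, hi, rfl⟩ _ ⟨j, hj, rfl⟩
    have h1 := cpt_close (hm i) (hm j) (hR i) (hR j) (h i) (h j) (hS' i hi j hj)
    have h2 : dist (F i) (F j) = ∫ x, |(A i).indicator (1 : E n → ℝ) x - (A j).indicator 1 x| := by
      rw [L1.dist_eq_integral_dist]
      refine integral_congr_ae ?_
      filter_upwards [hF i, hF j] with x h1 h2
      rw [h1, h2, Real.dist_eq]
    have h3 : ε / 4 * volume.real (ball (0 : E n) δ) / (volume.real (ball (0 : E n) R) + 1) *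
        volume.real (ball (0 : E n) R) ≤ ε / 4 * volume.real (ball (0 : E n) δ) := by
      rw [div_mul_eq_mul_div, div_le_iff₀ (by positivity)]
      exact mul_le_mul_of_nonneg_left (by linarith) (by positivity)
    have h4 := mul_le_mul_of_nonneg_right hδ' hv.le
    rw [h2]
    refine lt_of_mul_lt_mul_right ?_ hv.le
    have h5 : 0 < ε * volume.real (ball (0 : E n) δ) := mul_pos hε hv
    linarith
  obtain ⟨f, hf⟩ := CompleteSpace.complete hc
  have hfm : Measurable (f : E n → ℝ) := (Lp.stronglyMeasurable f).measurable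
  have hA' : MeasurableSet (ball (0 : E n) R ∩ {x | 1 / 2 < f x}) :=
    measurableSet_ball.inter (measurableSet_lt measurable_const hfm)
  refine ⟨_, hA', inter_subset_left, fun ε hε => ?_⟩
  have h1 : ∀ᶠ j in (U : Filter ℕ), dist (F j) f < ε / 2 :=
    Metric.tendsto_nhds.mp hf _ (by positivity)
  refine (h1.frequently.filter_mono (Ultrafilter.of_le _)).mono fun j hj => ?_
  have h2 : dist (F j) f = ∫ x, |(A j).indicator (1 : E n → ℝ) x - f x| := by
    rw [L1.dist_eq_integral_dist]
    refine integral_congr_ae ?_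
    filter_upwards [hF j] with x h1
    rw [h1, Real.dist_eq]
  have hsm := (hm j).symmDiff hA'
  have hsub : symmDiff (A j) (ball (0 : E n) R ∩ {x | 1 / 2 < f x}) ⊆ ball 0 R := by
    intro x hx
    rcases mem_symmDiff.mp hx with hx | hx
    · exact hR j hx.1
    · exact hx.1.1
  have i1 : Integrable fun x => |(A j).indicator (1 : E n → ℝ) x - f x| :=
    ((cpt_int (hm j) (hR j)).sub (L1.integrable_coeFn f)).abs
  rw [← integral_indicator_one hsm]
  refine (integral_mono (cpt_int hsm hsub) (i1.const_mul 2) fun x => ?_).trans ?_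
  · by_cases hx : x ∈ symmDiff (A j) (ball (0 : E n) R ∩ {x | 1 / 2 < f x})
    · rw [indicator_of_mem hx, Pi.one_apply]
      rcases mem_symmDiff.mp hx with hx | hx
      · have a1 : ¬ (1 / 2 < f x) := fun hlt => hx.2 ⟨hR j hx.1, hlt⟩
        have a2 := le_abs_self (1 - f x)
        simp only [indicator_of_mem hx.1, Pi.one_apply]
        linarith [not_lt.mp a1]
      · have a1 : 1 / 2 < f x := hx.1.2
        have a2 := neg_abs_le (0 - f x)
        simp only [indicator_of_notMem hx.2]
        linarith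
    · rw [indicator_of_notMem hx]
      positivity
  · rw [integral_const_mul, ← h2]
    linarith


end Vale.Agent.P219
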