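import Vale.Agent.P219.Fr1

/-!
Differentiation of measures.
-/

open scoped ContDiff Topology ENNReal
open MeasureTheory Set Filter Metric

noncomputable section

namespace Vale.Agent.P219

variable {n k : ℕ} {b : ℝ}

/-- The pairs whose point lies in a closed ball. -/
def denaS (x : E n) (r : ℝ) : Set (E n × E n) := {w | w.1 ∈ closedBall x r}

theorem dena_meas (x : E n) (r : ℝ) : MeasurableSet (denaS x r) :=
  measurableSet_closedBall.preimage measurable_fst

/-- The average of the distance to `e` is at most `η` at small scales. -/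
def denaG (W : Vf n) (x e : E n) (η : ℝ) : Prop :=
  ∀ᶠ r in 𝓝[>] (0 : ℝ), ∫ w in denaS x r, ‖w.2 - e‖ ∂W.V ≤ η * W.V.real (denaS x r)

theorem dena_int (W : Vf n) (e : E n) (S : Set (E n × E n)) :
    IntegrableOn (fun w : E n × E n => ‖w.2 - e‖) S W.V :=
  (W.integrable (continuous_snd.sub continuous_const).norm).integrableOn

theorem dena_shift {W : Vf n} {x e : E n} {η : ℝ} (h : denaG W x e η) (e' : E n) :
    denaG W x e' (η + ‖e - e'‖) := by
  filter_upwards [h] with r hr
  have h1 : ∫ w in denaS x r, ‖w.2 - e'‖ ∂W.V ≤ ∫ w in denaS x r, (‖w.2 - e‖ + ‖e - e'‖) ∂W.V :=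
    integral_mono (dena_int W e' _) ((dena_int W e _).add (integrable_const _))
      fun w => norm_sub_le_norm_sub_add_norm_sub _ _ _
  rw [integral_add (dena_int W e _) (integrable_const _), setIntegral_const, smul_eq_mul] at h1
  linarith

theorem dena_mono {W : Vf n} {x e : E n} {η η' : ℝ} (h : denaG W x e η) (hη : η ≤ η') :
    denaG W x e η' := by
  filter_upwards [h] with r hr
  exact hr.trans (mul_le_mul_of_nonneg_right hη measureReal_nonneg)

theorem dena_close {W : Vf n} {x e e' : E n} {η η' : ℝ}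
    (hp : ∀ᶠ r in 𝓝[>] (0 : ℝ), 0 < W.V.real (denaS x r)) (h : denaG W x e η)
    (h' : denaG W x e' η') : ‖e - e'‖ ≤ η + η' := by
  obtain ⟨r, hr0, hr, hr'⟩ := (hp.and (h.and h')).exists
  have h1 : ∫ _ in denaS x r, ‖e - e'‖ ∂W.V ≤ ∫ w in denaS x r, (‖w.2 - e‖ + ‖w.2 - e'‖) ∂W.V :=
    integral_mono (integrable_const _) ((dena_int W e _).add (dena_int W e' _)) fun w => by
      have h2 := norm_sub_le_norm_sub_add_norm_sub e w.2 e'
      rw [norm_sub_rev e w.2] at h2
      exact h2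
  rw [integral_add (dena_int W e _) (dena_int W e' _), setIntegral_const, smul_eq_mul] at h1
  refine le_of_mul_le_mul_left ?_ hr0
  linarith

theorem dena_norm {W : Vf n} {x e : E n} {η : ℝ}
    (hp : ∀ᶠ r in 𝓝[>] (0 : ℝ), 0 < W.V.real (denaS x r)) (h : denaG W x e η) :
    |‖e‖ - 1| ≤ η := by
  obtain ⟨r, hr0, hr⟩ := (hp.and h).exists
  have h1 : ∫ _ in denaS x r, |‖e‖ - 1| ∂W.V ≤ ∫ w in denaS x r, ‖w.2 - e‖ ∂W.V := by
    refine integral_mono_ae (integrable_const _) (dena_int W e _) ?_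
    filter_upwards [ae_restrict_of_ae W.supp] with w hw
    rw [← hw.2, norm_sub_rev]
    exact abs_norm_sub_norm_le _ _
  rw [setIntegral_const, smul_eq_mul] at h1
  refine le_of_mul_le_mul_left ?_ hr0
  linarith

theorem dena_limit {W : Vf n} {x : E n} {e : ℕ → E n}
    (hp : ∀ᶠ r in 𝓝[>] (0 : ℝ), 0 < W.V.real (denaS x r))
    (h : ∀ η > 0, ∀ᶠ j in atTop, denaG W x (e j) η) :
    ∃ e₀ : E n, ‖e₀‖ = 1 ∧ ∀ η > 0, denaG W x e₀ η := by
  have hc : CauchySeq e := by
    rw [Metric.cauchySeq_iff]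
    intro ε hε
    obtain ⟨N, hN⟩ := eventually_atTop.1 (h (ε / 3) (by positivity))
    refine ⟨N, fun i hi j hj => ?_⟩
    have := dena_close hp (hN i hi) (hN j hj)
    rw [dist_eq_norm]
    linarith
  obtain ⟨e₀, he₀⟩ := cauchySeq_tendsto_of_complete hc
  have hG : ∀ η > 0, denaG W x e₀ η := by
    intro η hη
    have h1 : ∀ᶠ j in atTop, dist (e j) e₀ < η / 2 :=
      Metric.tendsto_nhds.1 he₀ _ (by positivity)
    obtain ⟨j, hj, hj'⟩ := ((h (η / 2) (by positivity)).and h1).exists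
    rw [dist_eq_norm] at hj'
    exact dena_mono (dena_shift hj e₀) (by linarith)
  refine ⟨e₀, ?_, hG⟩
  have h2 : |‖e₀‖ - 1| ≤ 0 := le_of_forall_pos_le_add fun η hη => by
    rw [zero_add]; exact dena_norm hp (hG η hη)
  have h3 := abs_nonpos_iff.1 h2
  linarith

/-- The measure with density the distance of the normal to `y`. -/
def denaR (W : Vf n) (y : E n → E n) : Measure (E n) :=
  (W.V.withDensity fun w => ‖w.2 - y w.1‖ₑ).map Prod.fst

theorem dena_R_apply (W : Vf n) {y : E n → E n} (hy : Continuous y) {U : Set (E n)}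
    (hU : MeasurableSet U) :
    denaR W y U = ENNReal.ofReal (∫ w in {w : E n × E n | w.1 ∈ U}, ‖w.2 - y w.1‖ ∂W.V) := by
  have hS : MeasurableSet {w : E n × E n | w.1 ∈ U} := hU.preimage measurable_fst
  have hi : Integrable (fun w : E n × E n => w.2 - y w.1)
      (W.V.restrict {w : E n × E n | w.1 ∈ U}) :=
    (W.integrable (continuous_snd.sub (hy.comp continuous_fst))).integrableOn
  rw [denaR, Measure.map_apply measurable_fst hU, ofReal_integral_norm_eq_lintegral_enorm hi]
  exact withDensity_apply _ hS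

theorem dena_R_univ (W : Vf n) {y : E n → E n} (hy : Continuous y) :
    denaR W y univ = ENNReal.ofReal (∫ w, ‖w.2 - y w.1‖ ∂W.V) := by
  rw [dena_R_apply W hy MeasurableSet.univ]
  simp only [mem_univ, ofPred_true, Measure.restrict_univ]

theorem dena_good {W : Vf n} {y : E n → E n} (hy : Continuous y) {x : E n} {d : ℝ≥0∞}
    (ht : Tendsto (fun r => denaR W y (closedBall x r) / W.V.map Prod.fst (closedBall x r))
      (𝓝[>] 0) (𝓝 d)) {η : ℝ} (hη : 0 < η) (hd : d < ENNReal.ofReal (η / 2)) :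
    denaG W x (y x) η := by
  obtain ⟨δ, hδ, hyδ⟩ := Metric.continuousAt_iff.1 (hy.continuousAt (x := x)) (η / 2)
    (by positivity)
  have h1 : ∀ᶠ r in 𝓝[>] (0 : ℝ), r < δ := nhdsWithin_le_nhds (Iio_mem_nhds hδ)
  filter_upwards [h1, ht.eventually (gt_mem_nhds hd)] with r hr hq
  rw [Measure.map_apply measurable_fst measurableSet_closedBall,
    dena_R_apply W hy measurableSet_closedBall] at hq
  have h2 : ENNReal.ofReal (∫ w in denaS x r, ‖w.2 - y w.1‖ ∂W.V) ≤
      ENNReal.ofReal (η / 2) * W.V (denaS x r) :=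
    (ENNReal.div_le_iff_le_mul (Or.inr ENNReal.ofReal_ne_top)
      (Or.inl (measure_ne_top _ _))).1 hq.le
  have h3 : ∫ w in denaS x r, ‖w.2 - y w.1‖ ∂W.V ≤ η / 2 * W.V.real (denaS x r) := by
    rw [← ofReal_measureReal (measure_ne_top _ _), ← ENNReal.ofReal_mul (by positivity)] at h2
    exact (ENNReal.ofReal_le_ofReal_iff (mul_nonneg (by positivity) measureReal_nonneg)).1 h2
  have hi : IntegrableOn (fun w : E n × E n => ‖w.2 - y w.1‖) (denaS x r) W.V :=
    (W.integrable (continuous_snd.sub (hy.comp continuous_fst)).norm).integrableOn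
  have h4 : ∫ w in denaS x r, ‖w.2 - y x‖ ∂W.V ≤
      ∫ w in denaS x r, (‖w.2 - y w.1‖ + η / 2) ∂W.V := by
    refine setIntegral_mono_on (dena_int W _ _) (hi.add (integrable_const _)) (dena_meas x r)
      fun w hw => ?_
    have h5 := hyδ (lt_of_le_of_lt (mem_closedBall.1 hw) hr)
    rw [dist_eq_norm] at h5
    have h6 := norm_sub_le_norm_sub_add_norm_sub w.2 (y w.1) (y x)
    linarith
  rw [integral_add hi (integrable_const _), setIntegral_const, smul_eq_mul] at h4
  linarith

theorem dena_lower {W : Vf n} {x : E n} {d : ℝ≥0∞} (hd : d < ⊤)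
    (ht : Tendsto (fun r => volume (closedBall x r) / W.V.map Prod.fst (closedBall x r))
      (𝓝[>] 0) (𝓝 d)) :
    ∃ c > 0, ∀ᶠ r in 𝓝[>] (0 : ℝ), c * r ^ n ≤ W.V.real (denaS x r) := by
  have hω : 0 < volume.real (ball (0 : E n) 1) :=
    ENNReal.toReal_pos (measure_ball_pos _ _ one_pos).ne' measure_ball_lt_top.ne
  have hD : 0 < d.toReal + 1 := by positivity
  have hlt : d < ENNReal.ofReal (d.toReal + 1) := by
    rw [ENNReal.lt_ofReal_iff_toReal_lt hd.ne]
    linarith
  refine ⟨volume.real (ball (0 : E n) 1) / (d.toReal + 1), by positivity, ?_⟩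
  filter_upwards [self_mem_nhdsWithin, ht.eventually (gt_mem_nhds hlt)] with r hr hq
  have hr0 : 0 < r := hr
  rw [Measure.map_apply measurable_fst measurableSet_closedBall] at hq
  have h2 : volume (closedBall x r) ≤ ENNReal.ofReal (d.toReal + 1) * W.V (denaS x r) :=
    (ENNReal.div_le_iff_le_mul (Or.inr ENNReal.ofReal_ne_top)
      (Or.inl (measure_ne_top _ _))).1 hq.le
  rw [Measure.addHaar_closedBall volume x hr0.le, finrank_euclideanSpace_fin,
    ← ofReal_measureReal (measure_ne_top W.V _), ← ENNReal.ofReal_mul hD.le,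
    ← ofReal_measureReal (measure_ball_lt_top (x := (0 : E n)) (r := 1)).ne,
    ← ENNReal.ofReal_mul (by positivity)] at h2
  have h3 := (ENNReal.ofReal_le_ofReal_iff (mul_nonneg hD.le measureReal_nonneg)).1 h2
  rw [div_mul_eq_mul_div, div_le_iff₀ hD]
  linarith

theorem Vf.Sharp.ae_pt {W : Vf n} (h : W.Sharp) : ∀ᵐ z ∂W.V, ∃ e, W.Pt z.1 e := by
  choose y hyc hy using fun j : ℕ => h ((1 / 2) ^ j) (by positivity)
  set μ : Measure (E n) := W.V.map Prod.fst with hμ
  have hfin : ∀ j, IsFiniteMeasure (denaR W (y j)) := fun j => ⟨by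
    rw [dena_R_univ W (hyc j)]
    exact ENNReal.ofReal_lt_top⟩
  have h1 : ∀ᵐ x ∂μ, ∀ j, Tendsto (fun r => denaR W (y j) (closedBall x r) / μ (closedBall x r))
      (𝓝[>] 0) (𝓝 ((denaR W (y j)).rnDeriv μ x)) :=
    ae_all_iff.2 fun j => by
      have := hfin j
      exact Besicovitch.ae_tendsto_rnDeriv _ μ
  have h2 := Besicovitch.ae_tendsto_rnDeriv (volume : Measure (E n)) μ
  have h3 := Measure.rnDeriv_lt_top (volume : Measure (E n)) μ
  have h4 : ∀ᵐ x ∂μ, ∑' j, (denaR W (y j)).rnDeriv μ x < ⊤ := by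
    refine ae_lt_top (Measurable.ennreal_tsum fun j => Measure.measurable_rnDeriv _ _) ?_
    rw [lintegral_tsum fun j => (Measure.measurable_rnDeriv _ _).aemeasurable]
    have h5 : ∑' j, ∫⁻ x, (denaR W (y j)).rnDeriv μ x ∂μ ≤
        ∑' j : ℕ, ENNReal.ofReal ((1 / 2) ^ j) := by
      refine ENNReal.tsum_le_tsum fun j => Measure.lintegral_rnDeriv_le.trans ?_
      rw [dena_R_univ W (hyc j)]
      exact ENNReal.ofReal_le_ofReal (hy j)
    refine ne_top_of_le_ne_top ?_ h5
    rw [← ENNReal.ofReal_tsum_of_nonneg (fun j => by positivity) summable_geometric_two]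
    exact ENNReal.ofReal_ne_top
  have h6 : ∀ᵐ x ∂μ, ∃ e, W.Pt x e := by
    filter_upwards [h1, h2, h3, h4] with x a1 a2 a3 a4
    obtain ⟨c, hc, hlow⟩ := dena_lower a3 a2
    have hp : ∀ᶠ r in 𝓝[>] (0 : ℝ), 0 < W.V.real (denaS x r) := by
      filter_upwards [self_mem_nhdsWithin, hlow] with r hr hl
      have hr0 : 0 < r := hr
      exact lt_of_lt_of_le (by positivity) hl
    have hz := ENNReal.tendsto_atTop_zero_of_tsum_ne_top a4.ne
    obtain ⟨e, he, hG⟩ := dena_limit (e := fun j => y j x) hp fun η hη => by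
      have h7 : (0 : ℝ≥0∞) < ENNReal.ofReal (η / 2) := ENNReal.ofReal_pos.2 (by positivity)
      filter_upwards [hz.eventually (gt_mem_nhds h7)] with j hj
      exact dena_good (hyc j) (a1 j) hη hj
    exact ⟨e, he, hG, c, hc, hlow⟩
  exact ae_of_ae_map measurable_fst.aemeasurable h6


end Vale.Agent.P219
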