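import Vale.Agent.P219.DenG

/-!
Nondegeneracy of blow-ups.
-/

open scoped ContDiff Topology ENNReal
open MeasureTheory Set Filter Metric

noncomputable section

namespace Vale.Agent.P219

variable {n k : ℕ} {b : ℝ}

theorem denb_ind {w : ℝ → ℝ} {r₀ B D : ℝ} (hr₀ : 0 < r₀) (hB : ∀ r, w r ≤ B)
    (hrec : ∀ r, 0 < r → r ≤ r₀ → w (r / 2) ≤ D * r ^ k + (1 / 2) ^ (k + 1) * w r) :
    ∃ C > 0, ∀ r, 0 < r → r ≤ r₀ → w r ≤ C * r ^ k := by
  obtain ⟨C, hC⟩ : ∃ C : ℝ, C = |B| / (r₀ / 2) ^ k + 2 ^ (k + 1) * |D| + 1 := ⟨_, rfl⟩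
  have h1 : 0 ≤ |B| / (r₀ / 2) ^ k := by positivity
  have h2 : 0 ≤ 2 ^ (k + 1) * |D| := by positivity
  have hC0 : 0 < C := by linarith
  have base : ∀ r, r₀ / 2 < r → w r ≤ C * r ^ k := by
    intro r hr
    have h3 : (r₀ / 2) ^ k ≤ r ^ k := pow_le_pow_left₀ (by positivity) hr.le k
    have h4 : |B| / (r₀ / 2) ^ k * (r₀ / 2) ^ k = |B| := div_mul_cancel₀ _ (by positivity)
    have h5 : |B| / (r₀ / 2) ^ k * (r₀ / 2) ^ k ≤ C * r ^ k :=
      mul_le_mul (by linarith) h3 (by positivity) hC0.le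
    linarith [hB r, le_abs_self B]
  have key : ∀ j : ℕ, ∀ r, r₀ * (1 / 2) ^ (j + 1) < r → r ≤ r₀ → w r ≤ C * r ^ k := by
    intro j
    induction j with
    | zero => intro r hr _; exact base r (by linarith)
    | succ j ih =>
      intro r hr hr'
      by_cases h : r₀ / 2 < r
      · exact base r h
      · have hr0 : 0 < r := lt_of_le_of_lt (by positivity) hr
        have h3 := ih (2 * r) (by rw [pow_succ] at hr; linarith) (by linarith)
        have h4 := hrec (2 * r) (by linarith) (by linarith)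
        rw [show 2 * r / 2 = r by ring] at h4
        have h5 : (1 / 2 : ℝ) ^ (k + 1) * (C * (2 * r) ^ k) = C / 2 * r ^ k := by
          rw [mul_pow, pow_succ, one_div, inv_pow]; field_simp
        have h6 : (1 / 2 : ℝ) ^ (k + 1) * w (2 * r) ≤ (1 / 2 : ℝ) ^ (k + 1) * (C * (2 * r) ^ k) :=
          mul_le_mul_of_nonneg_left h3 (by positivity)
        have h7 : D * (2 * r) ^ k ≤ C / 2 * r ^ k := by
          rw [mul_pow, ← mul_assoc]
          refine mul_le_mul_of_nonneg_right ?_ (by positivity)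
          have h8 : D * 2 ^ k ≤ |D| * 2 ^ k :=
            mul_le_mul_of_nonneg_right (le_abs_self D) (by positivity)
          rw [pow_succ] at h2 hC
          linarith
        linarith
  refine ⟨C, hC0, fun r hr hr' => ?_⟩
  obtain ⟨j, hj⟩ := exists_pow_lt_of_lt_one (div_pos hr hr₀) (show (1 / 2 : ℝ) < 1 by norm_num)
  refine key j r ?_ hr'
  rw [lt_div_iff₀ hr₀] at hj
  have : (0 : ℝ) < (1 / 2) ^ j * r₀ := by positivity
  rw [pow_succ]
  linarith

theorem denb_geo {z : ℕ → ℝ} {q : ℝ} (hq : 0 ≤ q) {J : ℕ} (h : ∀ j ≥ J, z (j + 1) ≤ q * z j)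
    (i : ℕ) : z (J + i) ≤ q ^ i * z J := by
  induction i with
  | zero => simp
  | succ i ih =>
    have h1 := h (J + i) (Nat.le_add_right _ _)
    have h2 := mul_le_mul_of_nonneg_left ih hq
    rw [← add_assoc, pow_succ]
    linarith

theorem denb_seq (hk : 1 ≤ k) {C₁ C₂ c : ℝ} (hC₁ : 0 < C₁) (hC₂ : 0 < C₂) (hc : 0 < c)
    {d α : ℕ → ℝ} (hd : ∀ j, 0 ≤ d j) (hα : ∀ j, 0 ≤ α j)
    (h1 : ∀ᶠ j in atTop, d (j + 1) ≤ C₁ * α j + 1 / 8 * d j)
    (h2 : ∀ j, α (j + 1) ^ k ≤ (C₂ * (d j + α j)) ^ (k + 1))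
    (h3 : ∀ᶠ j in atTop, c * (1 / 2) ^ j ≤ d j) : ∃ a > 0, ∃ᶠ j in atTop, a < α j := by
  obtain ⟨M, hM⟩ : ∃ M : ℝ, M = 4 * C₁ + 1 := ⟨_, rfl⟩
  have hM0 : 0 < M := by linarith
  obtain ⟨η, hη⟩ : ∃ η : ℝ, η = 1 / (8 * M * C₂) := ⟨_, rfl⟩
  have hη0 : 0 < η := by rw [hη]; positivity
  obtain ⟨a, ha⟩ : ∃ a : ℝ, a = η ^ k / (C₂ * (3 * C₁ + 1)) := ⟨_, rfl⟩
  have ha0 : 0 < a := by rw [ha]; positivity
  refine ⟨a, ha0, ?_⟩
  by_contra hno
  rw [not_frequently] at hno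
  have h4 : ∀ᶠ j in atTop, d j ≤ 3 * C₁ * a := by
    obtain ⟨J, hJ⟩ := eventually_atTop.1 (h1.and hno)
    have h5 := denb_geo (z := fun j => d j - 2 * C₁ * a) (q := 1 / 8) (by norm_num) (J := J)
      fun j hj => by
        have h6 := (hJ j hj).1
        have h7 : C₁ * α j ≤ C₁ * a := mul_le_mul_of_nonneg_left (not_lt.1 (hJ j hj).2) hC₁.le
        have h8 : 0 < C₁ * a := by positivity
        linarith
    have h6 : Tendsto (fun i : ℕ => (1 / 8 : ℝ) ^ i * (d J - 2 * C₁ * a)) atTop (𝓝 0) := by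
      simpa using (tendsto_pow_atTop_nhds_zero_of_lt_one (r := (1 / 8 : ℝ)) (by norm_num)
        (by norm_num)).mul_const (d J - 2 * C₁ * a)
    obtain ⟨I, hI⟩ := eventually_atTop.1
      (h6.eventually (gt_mem_nhds (show (0 : ℝ) < C₁ * a by positivity)))
    refine eventually_atTop.2 ⟨J + I, fun j hj => ?_⟩
    obtain ⟨i, rfl⟩ : ∃ i, j = J + i := ⟨j - J, by omega⟩
    have h7 := h5 i
    have h8 := hI i (by omega)
    linarith
  obtain ⟨J, hJ⟩ := eventually_atTop.1 (((h1.and hno).and h4).and h3)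
  have h5 := denb_geo (z := fun j => d j + M * α j) (q := 1 / 4) (by norm_num) (J := J)
    fun j hj => by
      obtain ⟨⟨⟨e1, e2⟩, e3⟩, -⟩ := hJ j hj
      have e4 : α j ≤ a := not_lt.1 e2
      have hX : 0 ≤ C₂ * (d j + α j) := mul_nonneg hC₂.le (add_nonneg (hd j) (hα j))
      have e5 : C₂ * (d j + α j) ≤ η ^ k := by
        have e6 : η ^ k = C₂ * ((3 * C₁ + 1) * a) := by rw [ha]; field_simp
        rw [e6]
        exact mul_le_mul_of_nonneg_left (by linarith) hC₂.le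
      have e6 : α (j + 1) ≤ η * (C₂ * (d j + α j)) := by
        refine le_of_pow_le_pow_left₀ (n := k) (by omega) (by positivity) ((h2 j).trans ?_)
        rw [pow_succ, mul_pow η, mul_comm]
        exact mul_le_mul_of_nonneg_right e5 (by positivity)
      have e7 : M * (η * (C₂ * (d j + α j))) = 1 / 8 * (d j + α j) := by
        rw [hη]; field_simp
      have e8 := mul_le_mul_of_nonneg_left e6 hM0.le
      have e9 : M * α j = 4 * (C₁ * α j) + α j := by rw [hM]; ring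
      have := hα j
      show d (j + 1) + M * α (j + 1) ≤ 1 / 4 * (d j + M * α j)
      linarith
  have h6 : Tendsto (fun i : ℕ => (1 / 2 : ℝ) ^ i * (d J + M * α J)) atTop (𝓝 0) := by
    simpa using (tendsto_pow_atTop_nhds_zero_of_lt_one (r := (1 / 2 : ℝ)) (by norm_num)
      (by norm_num)).mul_const (d J + M * α J)
  obtain ⟨i, hi⟩ := (h6.eventually
    (gt_mem_nhds (show (0 : ℝ) < c * (1 / 2) ^ J by positivity))).exists
  have h7 := h5 i
  have h8 := (hJ (J + i) (Nat.le_add_right _ _)).2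
  have h9 : 0 ≤ M * α (J + i) := mul_nonneg hM0.le (hα _)
  have h10 : (1 / 4 : ℝ) ^ i = (1 / 2) ^ i * (1 / 2) ^ i := by rw [← mul_pow]; norm_num
  have h11 := mul_lt_mul_of_pos_left hi (show (0 : ℝ) < (1 / 2) ^ i by positivity)
  rw [pow_add] at h8
  rw [h10] at h7
  nlinarith

theorem denb_switch {P : ℕ → Prop} (h1 : ∃ᶠ j in atTop, P j) (h2 : ∃ᶠ j in atTop, ¬P j) :
    ∃ᶠ j in atTop, ¬P j ∧ P (j + 1) := by
  by_contra hno
  rw [not_frequently] at hno
  obtain ⟨J, hJ⟩ := eventually_atTop.1 hno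
  obtain ⟨j₀, hj₀, hP⟩ := frequently_atTop.1 h2 J
  have h3 : ∀ i, ¬P (j₀ + i) := by
    intro i
    induction i with
    | zero => exact hP
    | succ i ih => exact fun h => hJ (j₀ + i) (by omega) ⟨ih, h⟩
  obtain ⟨j, hj, hPj⟩ := frequently_atTop.1 h1 j₀
  obtain ⟨i, rfl⟩ : ∃ i, j = j₀ + i := ⟨j - j₀, by omega⟩
  exact h3 i hPj

theorem denb_both {α β : ℕ → ℝ} {om Q a₁ a₂ : ℝ} (hw : 0 < om) (hQ : 0 ≤ Q) (ha₁ : 0 < a₁)
    (ha₂ : 0 < a₂) (hs : ∀ j, α j + β j = om) (hq : ∀ j, α (j + 1) ≤ Q * α j)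
    (h1 : ∃ᶠ j in atTop, a₁ < α j) (h2 : ∃ᶠ j in atTop, a₂ < β j) :
    ∃ a > 0, ∃ᶠ j in atTop, a ≤ α j ∧ a ≤ β j := by
  obtain ⟨a, ha⟩ : ∃ a : ℝ, a = min (min a₁ a₂) (om / (Q + 1)) := ⟨_, rfl⟩
  have e1 : a ≤ a₁ := ha ▸ (min_le_left _ _).trans (min_le_left _ _)
  have e2 : a ≤ a₂ := ha ▸ (min_le_left _ _).trans (min_le_right _ _)
  have e3 : a * (Q + 1) ≤ om := (le_div_iff₀ (by linarith)).1 (ha ▸ min_le_right _ _)
  refine ⟨a, by rw [ha]; positivity, ?_⟩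
  by_cases h : ∀ᶠ j in atTop, a ≤ α j
  · exact (h2.and_eventually h).mono fun j hj => ⟨hj.2, e2.trans hj.1.le⟩
  · rw [not_eventually] at h
    have h3 := denb_switch (P := fun j => a ≤ α j) (h1.mono fun j hj => e1.trans hj.le) h
    refine (tendsto_add_atTop_nat 1).frequently (h3.mono fun j hj => ⟨hj.2, ?_⟩)
    have h4 := mul_le_mul_of_nonneg_left (not_le.1 hj.1).le hQ
    linarith [hs (j + 1), hq j]

theorem denb_ball (x : E n) {r : ℝ} (hr : 0 < r) : volume.real (ball x r) = r ^ n * omega n := by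
  rw [Measure.real, Measure.addHaar_ball_of_pos _ _ hr, ENNReal.toReal_mul,
    ENNReal.toReal_ofReal (by positivity), finrank_euclideanSpace_fin, omega]

theorem denb_omega_pos : 0 < omega n :=
  ENNReal.toReal_pos (measure_ball_pos _ _ one_pos).ne' measure_ball_lt_top.ne

theorem denb_dyadic : Tendsto (fun j : ℕ => (1 / 2 : ℝ) ^ j) atTop (𝓝[>] 0) :=
  tendsto_nhdsWithin_iff.2 ⟨tendsto_pow_atTop_nhds_zero_of_lt_one (by norm_num) (by norm_num),
    Eventually.of_forall fun j => by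
      show (0 : ℝ) < (1 / 2) ^ j
      positivity⟩

namespace Frame

variable (Φ : Frame (k + 1)) {A : Set (E (k + 1))} {W : Vf (k + 1)}

theorem denb_rec (hA : MeasurableSet A) {a : ℝ} (ha : |a| = 1) (hG : Φ.GGc A W a)
    {x e : E (k + 1)} (hx : W.Pt x e) : ∃ C > 0, ∀ ε > 0, ∀ᶠ r in 𝓝[>] (0 : ℝ),
      W.wt (closedBall x (r / 2)) ≤
        C * (volume.real (A ∩ ball x r) / r) + ε * W.wt (closedBall x r) := by
  obtain ⟨C, hC, h⟩ := Φ.loc_mass hA ha hG x hx.1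
  refine ⟨C, hC, fun ε hε => ?_⟩
  filter_upwards [hx.2.1 ε hε, Ioc_mem_nhdsGT (show (0 : ℝ) < 1 from one_pos)] with r h1 h2
  linarith [h r h2.1 h2.2]

theorem wt_le (hA : MeasurableSet A) {a : ℝ} (ha : |a| = 1) (hG : Φ.GGc A W a)
    {x e : E (k + 1)} (hx : W.Pt x e) :
    ∃ C > 0, ∀ᶠ r in 𝓝[>] (0 : ℝ), W.wt (closedBall x r) ≤ C * r ^ k := by
  obtain ⟨C, hC, h⟩ := Φ.denb_rec hA ha hG hx
  obtain ⟨r₀, hr₀, h1⟩ := (nhdsGT_basis (0 : ℝ)).eventually_iff.1
    (h ((1 / 2) ^ (k + 1)) (by positivity))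
  obtain ⟨C', hC', h2⟩ := denb_ind (k := k) (w := fun r => W.wt (closedBall x r)) (r₀ := r₀ / 2)
    (B := W.mass) (D := C * omega (k + 1)) (by linarith)
    (fun r => measureReal_mono (subset_univ _)) fun r hr hr' => by
      have h3 := h1 (show r ∈ Ioo 0 r₀ from ⟨hr, by linarith⟩)
      have h4 : volume.real (A ∩ ball x r) ≤ r ^ (k + 1) * omega (k + 1) := by
        rw [← denb_ball x hr]
        exact measureReal_mono inter_subset_right measure_ball_lt_top.ne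
      have h5 : volume.real (A ∩ ball x r) / r ≤ omega (k + 1) * r ^ k := by
        rw [div_le_iff₀ hr]
        rw [pow_succ] at h4
        linarith
      have h6 := mul_le_mul_of_nonneg_left h5 hC.le
      show W.wt (closedBall x (r / 2)) ≤ _ + _ * W.wt (closedBall x r)
      linarith
  refine ⟨C', hC', ?_⟩
  filter_upwards [Ioc_mem_nhdsGT (show (0 : ℝ) < r₀ / 2 by linarith)] with r hr
  exact h2 r hr.1 hr.2

theorem denb_key (hk : 1 ≤ k) (hA : MeasurableSet A) {a : ℝ} (ha : |a| = 1) (hG : Φ.GGc A W a)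
    {x e : E (k + 1)} (hx : W.Pt x e) : ∃ a > 0, ∃ᶠ j : ℕ in atTop,
      a < volume.real (A ∩ ball x ((1 / 2) ^ j)) / ((1 / 2) ^ j) ^ (k + 1) := by
  obtain ⟨C, hC, h⟩ := Φ.denb_rec hA ha hG hx
  obtain ⟨C₂, hC₂, h'⟩ := Φ.loc_gns hk hA ha hG x
  obtain ⟨c, hc, h''⟩ := hx.2.2
  have hhalf : ∀ j : ℕ, (1 / 2 : ℝ) ^ (j + 1) = (1 / 2) ^ j / 2 := fun j => by
    rw [pow_succ]; ring
  refine denb_seq hk (C₁ := 2 ^ k * C) (C₂ := 2 ^ k * C₂) (c := c)
    (d := fun j => W.wt (closedBall x ((1 / 2) ^ j)) / ((1 / 2) ^ j) ^ k)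
    (α := fun j => volume.real (A ∩ ball x ((1 / 2) ^ j)) / ((1 / 2) ^ j) ^ (k + 1))
    (by positivity) (by positivity) hc
    (fun j => div_nonneg measureReal_nonneg (by positivity))
    (fun j => div_nonneg measureReal_nonneg (by positivity)) ?_ ?_ ?_
  · filter_upwards [denb_dyadic.eventually (h (1 / 8 / 2 ^ k) (by positivity))] with j hj
    rw [hhalf]
    obtain ⟨r, hr⟩ : ∃ r : ℝ, r = (1 / 2) ^ j := ⟨_, rfl⟩
    have hr0 : 0 < r := by rw [hr]; positivity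
    rw [← hr] at hj ⊢
    rw [div_le_iff₀ (by positivity)]
    refine hj.trans (le_of_eq ?_)
    rw [div_pow, pow_succ]
    field_simp
  · intro j
    have hj := h' ((1 / 2) ^ j) (by positivity) (pow_le_one₀ (by norm_num) (by norm_num))
    simp only [hhalf]
    obtain ⟨r, hr⟩ : ∃ r : ℝ, r = (1 / 2) ^ j := ⟨_, rfl⟩
    have hr0 : 0 < r := by rw [hr]; positivity
    rw [← hr] at hj ⊢
    have h1 := pow_le_pow_left₀ (Real.rpow_nonneg measureReal_nonneg _) hj (k + 1)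
    rw [← Real.rpow_natCast, ← Real.rpow_mul measureReal_nonneg,
      show (k : ℝ) / (k + 1) * ((k + 1 : ℕ) : ℝ) = k by push_cast; field_simp,
      Real.rpow_natCast] at h1
    rw [div_pow, div_le_iff₀ (by positivity)]
    refine h1.trans (le_of_eq ?_)
    rw [← pow_mul (r / 2), mul_comm (k + 1) k, pow_mul, ← mul_pow]
    congr 1
    rw [div_pow, pow_succ]
    field_simp
  · filter_upwards [denb_dyadic.eventually h''] with j hj
    rw [le_div_iff₀ (by positivity)]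
    rw [pow_succ] at hj
    linarith

theorem nondeg (hk : 1 ≤ k) (hA : MeasurableSet A) (hG : Φ.GG A W) {x e : E (k + 1)}
    (hx : W.Pt x e) : ∃ α > 0, ∃ᶠ r in 𝓝[>] (0 : ℝ),
      α * r ^ (k + 1) ≤ volume.real (A ∩ ball x r) ∧
        α * r ^ (k + 1) ≤ volume.real (Aᶜ ∩ ball x r) := by
  obtain ⟨a₁, ha₁, h1⟩ := Φ.denb_key hk hA (by norm_num) hG.ggc hx
  obtain ⟨a₂, ha₂, h2⟩ := Φ.denb_key hk hA.compl (by norm_num) (hG.ggc_compl hA) hx
  have hs : ∀ j : ℕ, volume.real (A ∩ ball x ((1 / 2) ^ j)) / ((1 / 2) ^ j) ^ (k + 1) +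
      volume.real (Aᶜ ∩ ball x ((1 / 2) ^ j)) / ((1 / 2) ^ j) ^ (k + 1) = omega (k + 1) := by
    intro j
    rw [← add_div, div_eq_iff (by positivity), mul_comm, ← denb_ball x (by positivity),
      inter_comm A, inter_comm Aᶜ, ← diff_eq]
    exact measureReal_inter_add_diff hA measure_ball_lt_top.ne
  have hq : ∀ j : ℕ,
      volume.real (A ∩ ball x ((1 / 2) ^ (j + 1))) / ((1 / 2) ^ (j + 1)) ^ (k + 1) ≤
      2 ^ (k + 1) * (volume.real (A ∩ ball x ((1 / 2) ^ j)) / ((1 / 2) ^ j) ^ (k + 1)) := by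
    intro j
    have h3 : volume.real (A ∩ ball x ((1 / 2) ^ (j + 1))) ≤
        volume.real (A ∩ ball x ((1 / 2) ^ j)) :=
      measureReal_mono (inter_subset_inter_right _ (ball_subset_ball
        (pow_le_pow_of_le_one (by norm_num) (by norm_num) (Nat.le_succ j))))
        (measure_ne_top_of_subset inter_subset_right measure_ball_lt_top.ne)
    rw [div_le_iff₀ (by positivity)]
    refine h3.trans (le_of_eq ?_)
    rw [pow_succ (1 / 2 : ℝ) j, mul_pow, one_div, inv_pow (2 : ℝ) (k + 1)]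
    field_simp
  obtain ⟨a, ha, h⟩ := denb_both denb_omega_pos (by positivity) ha₁ ha₂ hs hq h1 h2
  refine ⟨a, ha, denb_dyadic.frequently (h.mono fun j hj => ?_)⟩
  rwa [le_div_iff₀ (by positivity), le_div_iff₀ (by positivity)] at hj

end Frame


end Vale.Agent.P219
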