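import Vale.Agent.P219.Fr2

/-!
The Gauss-Green formula for blow-ups.
-/

open scoped ContDiff Topology ENNReal
open MeasureTheory Set Filter Metric

noncomputable section

namespace Vale.Agent.P219

variable {n k : ℕ} {b : ℝ}

namespace Frame

variable (Φ : Frame (k + 1)) {A : Set (E (k + 1))} {W : Vf (k + 1)}

theorem dns_left (x : E (k + 1)) {r : ℝ} (hr : 0 < r) (w : E (k + 1)) :
    r⁻¹ • Φ.Fi x (x + r • Φ.F x w - x) = w := by
  rw [add_sub_cancel_left, map_smul, Φ.left, smul_smul, inv_mul_cancel₀ hr.ne', one_smul]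

theorem dns_right (x : E (k + 1)) {r : ℝ} (hr : 0 < r) (p : E (k + 1)) :
    x + r • Φ.F x (r⁻¹ • Φ.Fi x (p - x)) = p := by
  rw [map_smul, Φ.right, smul_smul, mul_inv_cancel₀ hr.ne', one_smul, add_sub_cancel]

theorem dns_cov (x : E (k + 1)) {r : ℝ} (hr : 0 < r) {S : Set (E (k + 1))} (hS : MeasurableSet S)
    (g : E (k + 1) → ℝ) :
    Φ.m x * ∫ p in (fun w => x + r • Φ.F x w) '' S, g p =
      r ^ (k + 1) * ∫ w in S, g (x + r • Φ.F x w) := by
  have h1 : ∀ w ∈ S, HasFDerivWithinAt (fun w => x + r • Φ.F x w) (r • Φ.F x) S w :=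
    fun w _ => (((r • Φ.F x).hasFDerivAt (x := w)).const_add x).hasFDerivWithinAt
  have h2 : InjOn (fun w => x + r • Φ.F x w) S := fun w _ w' _ h => by
    rw [← Φ.dns_left x hr w, ← Φ.dns_left x hr w']
    exact congrArg (fun p => r⁻¹ • Φ.Fi x (p - x)) h
  rw [integral_image_eq_integral_abs_det_fderiv_smul volume hS h1 h2]
  have h3 : (r • Φ.F x).det = r ^ (k + 1) * (Φ.F x).det := by
    have := LinearMap.det_smul r (Φ.F x : E (k + 1) →ₗ[ℝ] E (k + 1))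
    rw [finrank_euclideanSpace_fin] at this
    exact this
  simp only [h3, smul_eq_mul]
  rw [integral_const_mul, abs_mul, abs_of_pos (pow_pos hr _), ← mul_assoc, ← mul_assoc,
    mul_right_comm (Φ.m x), Φ.m_det, one_mul]

theorem dns_meas (hA : MeasurableSet A) (x : E (k + 1)) (r : ℝ) : MeasurableSet (Φ.blow A x r) :=
  (continuous_const.add ((Φ.F x).continuous.const_smul r)).measurable hA

theorem dns_image (A : Set (E (k + 1))) (x : E (k + 1)) {r : ℝ} (hr : 0 < r) :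
    (fun w => x + r • Φ.F x w) '' Φ.blow A x r = A := by
  ext p
  constructor
  · rintro ⟨w, hw, rfl⟩
    exact hw
  · intro hp
    refine ⟨r⁻¹ • Φ.Fi x (p - x), ?_, Φ.dns_right x hr p⟩
    show x + r • Φ.F x (r⁻¹ • Φ.Fi x (p - x)) ∈ A
    rwa [Φ.dns_right x hr p]

theorem dns_supp (x : E (k + 1)) {r L : ℝ} (hr : 0 < r) {φ : E (k + 1) → ℝ} (hφ : Test L φ)
    {p : E (k + 1)} (hp : p ∉ closedBall x ((‖Φ.F x‖ * |L| + 1) * r)) :
    φ (r⁻¹ • Φ.Fi x (p - x)) = 0 := by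
  by_contra h
  apply hp
  have h1 := hφ.supp (subset_tsupport _ h)
  rw [mem_ball_zero_iff] at h1
  rw [mem_closedBall, dist_eq_norm]
  have h2 : p - x = r • Φ.F x (r⁻¹ • Φ.Fi x (p - x)) :=
    sub_eq_iff_eq_add'.2 (Φ.dns_right x hr p).symm
  rw [h2, norm_smul, Real.norm_eq_abs, abs_of_pos hr, mul_comm]
  refine mul_le_mul_of_nonneg_right (((Φ.F x).le_opNorm _).trans ?_) hr.le
  have h3 := mul_le_mul_of_nonneg_left (h1.le.trans (le_abs_self L)) (norm_nonneg (Φ.F x))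
  linarith

theorem dns_scale {c : ℝ} (hc : 0 < c) : Tendsto (fun r : ℝ => c * r) (𝓝[>] 0) (𝓝[>] 0) := by
  refine tendsto_nhdsWithin_iff.2 ⟨?_, ?_⟩
  · have : Tendsto (fun r : ℝ => c * r) (𝓝 0) (𝓝 (c * 0)) := tendsto_id.const_mul c
    rw [mul_zero] at this
    exact this.mono_left nhdsWithin_le_nhds
  · filter_upwards [self_mem_nhdsWithin] with r hr using mul_pos hc hr

theorem dns_measSet (x : E (k + 1)) (r : ℝ) :
    MeasurableSet {w : E (k + 1) × E (k + 1) | w.1 ∈ closedBall x r} :=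
  measurable_fst measurableSet_closedBall

theorem dns_cont (x : E (k + 1)) (r : ℝ) {L : ℝ} {φ : E (k + 1) → ℝ} (hφ : Test L φ) :
    ContDiff ℝ 1 fun p => φ (r⁻¹ • Φ.Fi x (p - x)) :=
  hφ.smooth.comp (((Φ.Fi x).contDiff.comp (contDiff_id.sub contDiff_const)).const_smul r⁻¹)

/-- Gauss-Green for the blow-up, exact form. -/
theorem dns_gg (hA : BM A) (hG : Φ.GG A W) (x : E (k + 1)) {r L : ℝ} (hr : 0 < r)
    {φ : E (k + 1) → ℝ} (hφ : Test L φ) (z : E (k + 1)) :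
    ∫ w in Φ.blow A x r, fderiv ℝ φ w z = (r ^ k)⁻¹ * ∫ w, φ (r⁻¹ • Φ.Fi x (w.1 - x)) *
      inner ℝ (((Φ.m x * (Φ.m w.1)⁻¹) • (Φ.Fi w.1).comp (Φ.F x)) z) w.2 ∂W.V := by
  have hc := Φ.dns_cont x r hφ
  have hZ : ContDiff ℝ 1 fun p => φ (r⁻¹ • Φ.Fi x (p - x)) • Φ.F x z := hc.smul contDiff_const
  have h1 := hG _ (Φ.contDiff_coord hZ)
  have h2 : ∀ p, dive (fun p => φ (r⁻¹ • Φ.Fi x (p - x)) • Φ.F x z) p =
      r⁻¹ * fderiv ℝ φ (r⁻¹ • Φ.Fi x (p - x)) z := by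
    intro p
    rw [dive_smul_const (hc.differentiable one_ne_zero p)]
    have h3 : HasFDerivAt (fun p => r⁻¹ • Φ.Fi x (p - x)) (r⁻¹ • Φ.Fi x) p := by
      have h4 := ((Φ.Fi x).hasFDerivAt.comp p ((hasFDerivAt_id p).sub_const x)).const_smul r⁻¹
      rw [ContinuousLinearMap.comp_id] at h4
      exact h4
    have h4 : HasFDerivAt (fun p => φ (r⁻¹ • Φ.Fi x (p - x))) _ p :=
      (hφ.smooth.differentiable one_ne_zero _).hasFDerivAt.comp p h3
    rw [h4.fderiv, ContinuousLinearMap.comp_apply, smul_apply, Φ.left,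
      map_smul, smul_eq_mul]
  simp only [Φ.dv_coord, h2] at h1
  have h3 := Φ.dns_cov x hr (Φ.dns_meas hA.meas x r)
    fun p => r⁻¹ * fderiv ℝ φ (r⁻¹ • Φ.Fi x (p - x)) z
  simp only [Φ.dns_left x hr] at h3
  rw [Φ.dns_image A x hr, h1, integral_const_mul, ← integral_const_mul] at h3
  have h4 : ∀ w : E (k + 1) × E (k + 1), φ (r⁻¹ • Φ.Fi x (w.1 - x)) *
      inner ℝ (((Φ.m x * (Φ.m w.1)⁻¹) • (Φ.Fi w.1).comp (Φ.F x)) z) w.2 =
      Φ.m x * inner ℝ ((Φ.m w.1)⁻¹ • Φ.Fi w.1 (φ (r⁻¹ • Φ.Fi x (w.1 - x)) • Φ.F x z)) w.2 := by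
    intro w
    simp only [smul_apply, ContinuousLinearMap.comp_apply, map_smul,
      inner_smul_left, RCLike.conj_to_real]
    ring
  simp only [h4]
  rw [h3, pow_succ]
  field_simp

theorem blow_bound {x : E (k + 1)} {C : ℝ}
    (hC : ∀ᶠ r in 𝓝[>] (0 : ℝ), W.wt (closedBall x r) ≤ C * r ^ k) (L : ℝ) :
    ∃ C' > 0, ∀ᶠ r in 𝓝[>] (0 : ℝ), ∀ φ : E (k + 1) → ℝ, Test L φ →
      |(r ^ k)⁻¹ * ∫ w, φ (r⁻¹ • Φ.Fi x (w.1 - x)) ∂W.V| ≤ C' := by
  have hc : 0 < ‖Φ.F x‖ * |L| + 1 := by positivity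
  refine ⟨|C| * (‖Φ.F x‖ * |L| + 1) ^ k + 1, by positivity, ?_⟩
  filter_upwards [(dns_scale hc).eventually hC, self_mem_nhdsWithin] with r h1 hr φ hφ
  have hr : 0 < r := hr
  have h2 : ‖∫ w, φ (r⁻¹ • Φ.Fi x (w.1 - x)) ∂W.V‖ ≤
      ∫ w, indicator {w : E (k + 1) × E (k + 1) | w.1 ∈ closedBall x ((‖Φ.F x‖ * |L| + 1) * r)}
        (1 : E (k + 1) × E (k + 1) → ℝ) w ∂W.V := by
    refine norm_integral_le_of_norm_le ((integrable_const 1).indicator (dns_measSet x _))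
      (Eventually.of_forall fun w => ?_)
    by_cases hw : w.1 ∈ closedBall x ((‖Φ.F x‖ * |L| + 1) * r)
    · rw [indicator_of_mem (by exact hw)]
      exact hφ.bound _
    · rw [indicator_of_notMem (by exact hw), Φ.dns_supp x hr hφ hw, norm_zero]
  rw [integral_indicator_one (dns_measSet x _), Real.norm_eq_abs] at h2
  have h3 : |∫ w, φ (r⁻¹ • Φ.Fi x (w.1 - x)) ∂W.V| ≤ |C| * (‖Φ.F x‖ * |L| + 1) ^ k * r ^ k := by
    refine (h2.trans h1).trans ?_
    rw [mul_pow, ← mul_assoc]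
    gcongr
    exact le_abs_self C
  rw [abs_mul, abs_of_pos (by positivity : 0 < (r ^ k)⁻¹), inv_mul_le_iff₀ (by positivity)]
  have : 0 < r ^ k := by positivity
  nlinarith

theorem blow_gg (hA : BM A) (hG : Φ.GG A W) {x e : E (k + 1)} (hx : W.Pt x e) {C : ℝ}
    (hC : ∀ᶠ r in 𝓝[>] (0 : ℝ), W.wt (closedBall x r) ≤ C * r ^ k) (L : ℝ) {δ : ℝ} (hδ : 0 < δ) :
    ∀ᶠ r in 𝓝[>] (0 : ℝ), ∀ φ : E (k + 1) → ℝ, Test L φ → ∀ z : E (k + 1), ‖z‖ ≤ 1 →
      |(∫ w in Φ.blow A x r, fderiv ℝ φ w z) -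
        inner ℝ z e * ((r ^ k)⁻¹ * ∫ w, φ (r⁻¹ • Φ.Fi x (w.1 - x)) ∂W.V)| ≤ δ := by
  obtain ⟨c, hcdef⟩ : ∃ c : ℝ, c = ‖Φ.F x‖ * |L| + 1 := ⟨_, rfl⟩
  have hc : 0 < c := by rw [hcdef]; positivity
  obtain ⟨ε, hεdef⟩ : ∃ ε : ℝ, ε = δ / (2 * (|C| * c ^ k + 1)) := ⟨_, rfl⟩
  have hε : 0 < ε := by rw [hεdef]; positivity
  have hQ : Continuous fun p => (Φ.m x * (Φ.m p)⁻¹) • (Φ.Fi p).comp (Φ.F x) :=
    (continuous_const.mul (Φ.m_smooth.continuous.inv₀ fun p => (Φ.m_pos p).ne')).smul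
      (Φ.sFi.continuous.clm_comp continuous_const)
  have hQx : (Φ.m x * (Φ.m x)⁻¹) • (Φ.Fi x).comp (Φ.F x) = ContinuousLinearMap.id ℝ _ := by
    ext1 v
    rw [mul_inv_cancel₀ (Φ.m_pos x).ne', one_smul, ContinuousLinearMap.comp_apply, Φ.left,
      ContinuousLinearMap.id_apply]
  obtain ⟨ρ, hρ, hnear⟩ := Metric.continuousAt_iff.1 (hQ.continuousAt (x := x)) ε hε
  filter_upwards [(dns_scale hc).eventually hC, (dns_scale hc).eventually (hx.2.1 ε hε),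
    (dns_scale hc).eventually (Ioo_mem_nhdsGT hρ), self_mem_nhdsWithin]
    with r h1 h2 h3 hr φ hφ z hz
  have hr : 0 < r := hr
  have hφc : Continuous fun w : E (k + 1) × E (k + 1) => φ (r⁻¹ • Φ.Fi x (w.1 - x)) :=
    (Φ.dns_cont x r hφ).continuous.comp continuous_fst
  have i1 : Integrable (fun w : E (k + 1) × E (k + 1) => φ (r⁻¹ • Φ.Fi x (w.1 - x)) *
      inner ℝ (((Φ.m x * (Φ.m w.1)⁻¹) • (Φ.Fi w.1).comp (Φ.F x)) z) w.2) W.V :=
    W.integrable (hφc.mul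
      (((hQ.comp continuous_fst).clm_apply continuous_const).inner continuous_snd))
  have i2 : Integrable (fun w : E (k + 1) × E (k + 1) =>
      inner ℝ z e * φ (r⁻¹ • Φ.Fi x (w.1 - x))) W.V := W.integrable (continuous_const.mul hφc)
  have i3 : Integrable (fun w : E (k + 1) × E (k + 1) => ‖w.2 - e‖) W.V :=
    W.integrable (continuous_snd.sub continuous_const).norm
  rw [Φ.dns_gg hA hG x hr hφ z, mul_left_comm, ← mul_sub, ← integral_const_mul,
    ← integral_sub i1 i2]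
  have h4 : ‖∫ w, (φ (r⁻¹ • Φ.Fi x (w.1 - x)) *
      inner ℝ (((Φ.m x * (Φ.m w.1)⁻¹) • (Φ.Fi w.1).comp (Φ.F x)) z) w.2 -
      inner ℝ z e * φ (r⁻¹ • Φ.Fi x (w.1 - x))) ∂W.V‖ ≤
      ∫ w, indicator {w : E (k + 1) × E (k + 1) | w.1 ∈ closedBall x (c * r)}
        (fun w => ε + ‖w.2 - e‖) w ∂W.V := by
    refine norm_integral_le_of_norm_le
      (((integrable_const ε).add i3).indicator (dns_measSet x _)) ?_
    filter_upwards [W.supp] with w hw1
    by_cases hw : w.1 ∈ closedBall x (c * r)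
    · rw [indicator_of_mem (by exact hw), mul_comm (inner ℝ z e), ← mul_sub, norm_mul]
      have h5 := hnear (lt_of_le_of_lt (mem_closedBall.1 hw) h3.2)
      rw [hQx, dist_eq_norm] at h5
      obtain ⟨Q, hQd⟩ : ∃ Q : Op (k + 1),
        Q = (Φ.m x * (Φ.m w.1)⁻¹) • (Φ.Fi w.1).comp (Φ.F x) := ⟨_, rfl⟩
      rw [← hQd] at h5 ⊢
      have h6 : inner ℝ (Q z) w.2 - inner ℝ z e =
          inner ℝ ((Q - ContinuousLinearMap.id ℝ (E (k + 1))) z) w.2 + inner ℝ z (w.2 - e) := by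
        rw [sub_apply, ContinuousLinearMap.id_apply, inner_sub_left,
          inner_sub_right]
        ring
      have h7 : ‖inner ℝ ((Q - ContinuousLinearMap.id ℝ (E (k + 1))) z) w.2‖ ≤ ε := by
        refine (norm_inner_le_norm _ _).trans ?_
        rw [hw1.2, mul_one]
        refine (ContinuousLinearMap.le_opNorm _ _).trans ?_
        nlinarith [norm_nonneg z, norm_nonneg (Q - ContinuousLinearMap.id ℝ (E (k + 1)))]
      have h8 : ‖inner ℝ z (w.2 - e)‖ ≤ ‖w.2 - e‖ :=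
        (norm_inner_le_norm _ _).trans (mul_le_of_le_one_left (norm_nonneg _) hz)
      have h9 : ‖inner ℝ (Q z) w.2 - inner ℝ z e‖ ≤ ε + ‖w.2 - e‖ := by
        rw [h6]
        exact (norm_add_le _ _).trans (add_le_add h7 h8)
      exact (mul_le_of_le_one_left (norm_nonneg _) (hφ.bound _)).trans h9
    · rw [indicator_of_notMem (by exact hw), Φ.dns_supp x hr hφ (hcdef ▸ hw)]
      simp
  rw [integral_indicator (dns_measSet x _), integral_add (integrable_const ε) i3.integrableOn,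
    setIntegral_const, smul_eq_mul, Real.norm_eq_abs] at h4
  have h5 : W.wt (closedBall x (c * r)) ≤ |C| * c ^ k * r ^ k := by
    refine h1.trans ?_
    rw [mul_pow, ← mul_assoc]
    gcongr
    exact le_abs_self C
  have h6 : W.V.real {w : E (k + 1) × E (k + 1) | w.1 ∈ closedBall x (c * r)} =
      W.wt (closedBall x (c * r)) := rfl
  rw [h6] at h4
  rw [abs_mul, abs_of_pos (by positivity : 0 < (r ^ k)⁻¹), inv_mul_le_iff₀ (by positivity)]
  have h7 : ε * (2 * (|C| * c ^ k + 1)) = δ := by rw [hεdef]; field_simp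
  have h8 : 0 < r ^ k := by positivity
  have h9 := mul_le_mul_of_nonneg_left h5 hε.le
  have h10 : 0 < ε * r ^ k := by positivity
  rw [← h7]
  nlinarith

theorem blow_vol (x : E (k + 1)) : ∃ M > 0, ∀ A : Set (E (k + 1)), MeasurableSet A → ∀ r > 0,
    MeasurableSet (Φ.blow A x r) ∧ Φ.m x * volume.real (A ∩ ball x r) ≤
      r ^ (k + 1) * volume.real (Φ.blow A x r ∩ ball 0 M) := by
  refine ⟨‖Φ.Fi x‖ + 1, by positivity, fun A hA r hr => ⟨Φ.dns_meas hA x r, ?_⟩⟩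
  have h1 := Φ.dns_cov x hr ((Φ.dns_meas hA x r).inter (measurableSet_ball (x := 0)
    (ε := ‖Φ.Fi x‖ + 1))) fun _ => 1
  simp only [setIntegral_const, smul_eq_mul, mul_one] at h1
  rw [← h1]
  refine mul_le_mul_of_nonneg_left (measureReal_mono ?_ ?_) (Φ.m_pos x).le
  · rintro p ⟨hp, hpr⟩
    refine ⟨r⁻¹ • Φ.Fi x (p - x), ⟨?_, ?_⟩, Φ.dns_right x hr p⟩
    · show x + r • Φ.F x (r⁻¹ • Φ.Fi x (p - x)) ∈ A
      rwa [Φ.dns_right x hr p]
    · rw [mem_ball_zero_iff, norm_smul, Real.norm_eq_abs, abs_of_pos (inv_pos.2 hr),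
        inv_mul_lt_iff₀ hr]
      rw [mem_ball, dist_eq_norm] at hpr
      have h2 := (Φ.Fi x).le_opNorm (p - x)
      nlinarith [norm_nonneg (Φ.Fi x)]
  · have h2 : IsCompact ((fun w => x + r • Φ.F x w) '' closedBall 0 (‖Φ.Fi x‖ + 1)) :=
      (isCompact_closedBall _ _).image (continuous_const.add ((Φ.F x).continuous.const_smul r))
    exact measure_ne_top_of_subset
      (image_mono (inter_subset_right.trans ball_subset_closedBall)) h2.measure_lt_top.ne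

end Frame


end Vale.Agent.P219
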