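import Vale.Agent.P219.Trans

/-!
Sets that are almost invariant and almost monotone are almost half-spaces.
-/

open scoped ContDiff Topology ENNReal Convolution
open MeasureTheory Set Filter Metric

noncomputable section

namespace Vale.Agent.P219

variable {n k : ℕ} {b : ℝ}

/-- A mollifier. -/
structure HSk (ρ M : ℝ) (η : E n → ℝ) : Prop where
  smooth : ContDiff ℝ 1 η
  supp : tsupport η ⊆ closedBall 0 ρ
  nonneg : ∀ x, 0 ≤ η x
  bound : ∀ x, η x ≤ M
  int : ∫ x, η x = 1

lemma hs_exists {ρ : ℝ} (hρ : 0 < ρ) : ∃ M > 0, ∃ η : E n → ℝ, HSk ρ M η := by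
  let φ : ContDiffBump (0 : E n) := ⟨ρ / 2, ρ, by positivity, by linarith⟩
  obtain ⟨M, hM⟩ := (φ.continuous_normed (μ := volume)).bounded_above_of_compact_support
    φ.hasCompactSupport_normed
  refine ⟨|M| + 1, by positivity, φ.normed volume, φ.contDiff_normed (n := 1), ?_,
    φ.nonneg_normed, fun x => ?_, φ.integral_normed⟩
  · rw [φ.tsupport_normed_eq]
  · have h1 := hM x
    have h2 := le_abs_self M
    rw [Real.norm_eq_abs] at h1
    have h3 := le_abs_self (φ.normed volume x)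
    linarith

lemma HSk.cpt {ρ M : ℝ} {η : E n → ℝ} (h : HSk ρ M η) : HasCompactSupport η :=
  (isCompact_closedBall (0 : E n) ρ).of_isClosed_subset (isClosed_tsupport η) h.supp

lemma HSk.zero {ρ M : ℝ} {η : E n → ℝ} (h : HSk ρ M η) {w : E n} (hw : ρ < ‖w‖) : η w = 0 := by
  by_contra h0
  have := h.supp (subset_tsupport η h0)
  rw [mem_closedBall_zero_iff] at this
  linarith

/-- The mollified indicator function. -/
def hsA (η : E n → ℝ) (A : Set (E n)) : E n → ℝ :=
  A.indicator (1 : E n → ℝ) ⋆[ContinuousLinearMap.lsmul ℝ ℝ, volume] η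

lemma hs_loc {A : Set (E n)} (hA : MeasurableSet A) :
    LocallyIntegrable (A.indicator (1 : E n → ℝ)) volume :=
  (locallyIntegrable_const (1 : ℝ)).indicator hA

lemma hs_diff {ρ M : ℝ} {η : E n → ℝ} (h : HSk ρ M η) {A : Set (E n)} (hA : MeasurableSet A) :
    Differentiable ℝ (hsA η A) := fun x =>
  (h.cpt.hasFDerivAt_convolution_right _ (hs_loc hA) h.smooth x).differentiableAt

lemma hs_fderiv {ρ M : ℝ} {η : E n → ℝ} (h : HSk ρ M η) (hM : 0 < M) {A : Set (E n)}
    (hA : MeasurableSet A) (x z : E n) :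
    fderiv ℝ (hsA η A) x z = -M * ∫ t in A, fderiv ℝ (fun t => η (x - t) / M) t z := by
  unfold hsA
  rw [(h.cpt.hasFDerivAt_convolution_right _ (hs_loc hA) h.smooth x).fderiv,
    convolution_precompR_apply _ (hs_loc hA) (h.cpt.fderiv ℝ) (h.smooth.continuous_fderiv one_ne_zero),
    convolution_def, ← integral_const_mul, ← integral_indicator hA]
  refine integral_congr_ae (Eventually.of_forall fun t => ?_)
  have h1 : HasFDerivAt (fun t => η (x - t) / M)
      (M⁻¹ • ((fderiv ℝ η (x - t)).comp (-ContinuousLinearMap.id ℝ (E n)))) t := by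
    have h2 : HasFDerivAt (fun t : E n => x - t) (-ContinuousLinearMap.id ℝ (E n)) t :=
      (hasFDerivAt_id t).const_sub x
    have h3 := ((h.smooth.differentiable one_ne_zero (x - t)).hasFDerivAt.comp t h2).const_smul M⁻¹
    refine h3.congr_of_eventuallyEq (Eventually.of_forall fun s => ?_)
    simp [div_eq_inv_mul]
  by_cases ht : t ∈ A
  · simp only [indicator_of_mem ht, h1.fderiv]
    simp [hM.ne']
  · simp [indicator_of_notMem ht]

lemma hs_test {ρ M L : ℝ} {η : E n → ℝ} (h : HSk ρ M η) (hM : 0 < M) (hρ : ρ ≤ L) (hL : 0 < L)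
    {x : E n} (hx : ‖x‖ ≤ L) : Test (4 * L) fun t => η (x - t) / M := by
  refine ⟨(h.smooth.comp (contDiff_const.sub contDiff_id)).div_const M, ?_, fun t => ?_⟩
  · refine (closure_minimal (t := closedBall 0 (2 * L)) (fun t ht => ?_) isClosed_closedBall).trans
      (closedBall_subset_ball (by linarith))
    rw [mem_closedBall_zero_iff]
    by_contra h0
    apply ht
    have h1 : ‖t‖ - ‖x‖ ≤ ‖x - t‖ := by
      rw [norm_sub_rev]
      exact norm_sub_norm_le t x
    simp only
    rw [h.zero (by linarith [not_le.1 h0]), zero_div]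
  · rw [abs_of_nonneg (div_nonneg (h.nonneg _) hM.le), div_le_one hM]
    exact h.bound _

lemma hs_mvt {a : E n → ℝ} (ha : Differentiable ℝ a) (u v : E n) {K : ℝ}
    (h : ∀ s ∈ Icc (0 : ℝ) 1, fderiv ℝ a (u + s • v) v ≤ K) : a (u + v) - a u ≤ K := by
  have hd : ∀ s : ℝ, HasDerivAt (fun s : ℝ => a (u + s • v)) (fderiv ℝ a (u + s • v) v) s := by
    intro s
    have h1 : HasDerivAt (fun s : ℝ => u + s • v) v s := by
      simpa using ((hasDerivAt_id s).smul_const v).const_add u
    exact (ha _).hasFDerivAt.comp_hasDerivAt s h1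
  obtain ⟨s, hs, hs'⟩ := exists_hasDerivAt_eq_slope (fun s : ℝ => a (u + s • v))
    (fun s => fderiv ℝ a (u + s • v) v) zero_lt_one
    (fun s _ => (hd s).continuousAt.continuousWithinAt) (fun s _ => hd s)
  have := h s (Ioo_subset_Icc_self hs)
  rw [hs'] at this
  simpa using this

lemma hs_shape {a : E n → ℝ} (ha : Differentiable ℝ a) {e : E n} (he : ‖e‖ = 1) {L d : ℝ}
    (hL : 0 < L) (hd : 0 ≤ d)
    (h1 : ∀ x, ‖x‖ ≤ L → ∀ z, ‖z‖ ≤ 1 → inner ℝ z e = 0 → |fderiv ℝ a x z| ≤ d)
    (h2 : ∀ x, ‖x‖ ≤ L → fderiv ℝ a x e ≤ d) :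
    ∃ c : ℝ, ∀ x, ‖x‖ < L → (inner ℝ x e < c → 1 / 2 - 2 * L * d ≤ a x) ∧
      (c ≤ inner ℝ x e → a x ≤ 1 / 2 + 4 * L * d) := by
  have hn : ∀ t : ℝ, ‖t • e‖ = |t| := fun t => by rw [norm_smul, he, mul_one, Real.norm_eq_abs]
  have hA : ∀ x, ‖x‖ < L → |inner ℝ x e| < L ∧ |a x - a (inner ℝ x e • e)| ≤ 2 * L * d := by
    intro x hx
    have hi : |inner ℝ x e| < L := by
      have := abs_real_inner_le_norm x e
      rw [he, mul_one] at this
      linarith
    refine ⟨hi, ?_⟩
    set p : E n := inner ℝ x e • e with hp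
    have hpn : ‖p‖ ≤ L := by rw [hp, hn]; exact hi.le
    have hseg : ∀ s ∈ Icc (0 : ℝ) 1, ∀ u v : E n, ‖u‖ ≤ L → ‖v‖ ≤ L → ‖u + s • (v - u)‖ ≤ L := by
      intro s hs u v hu hv
      have := (convex_closedBall (0 : E n) L).add_smul_sub_mem (mem_closedBall_zero_iff.2 hu)
        (mem_closedBall_zero_iff.2 hv) hs
      exact mem_closedBall_zero_iff.1 this
    have hz : ∀ y, ‖y‖ ≤ L → |fderiv ℝ a y (x - p)| ≤ 2 * L * d := by
      intro y hy
      have h3 : x - p = (2 * L) • ((2 * L)⁻¹ • (x - p)) := by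
        rw [smul_smul, mul_inv_cancel₀ (by positivity), one_smul]
      have h4 := h1 y hy ((2 * L)⁻¹ • (x - p)) (by
        rw [norm_smul, Real.norm_eq_abs, abs_of_pos (by positivity), inv_mul_le_iff₀ (by positivity)]
        linarith [norm_sub_le x p]) (by
        rw [real_inner_smul_left, inner_sub_left, hp, real_inner_smul_left,
          real_inner_self_eq_norm_sq, he]
        simp)
      rw [h3, map_smul, smul_eq_mul, abs_mul, abs_of_pos (by positivity : 0 < 2 * L)]
      exact mul_le_mul_of_nonneg_left h4 (by positivity)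
    have h5 := hs_mvt ha p (x - p) (K := 2 * L * d) fun s hs =>
      (le_abs_self _).trans (hz _ (hseg s hs p x hpn hx.le))
    have h6 := hs_mvt ha x (p - x) (K := 2 * L * d) fun s hs => by
      rw [← neg_sub x p, map_neg]
      refine (neg_le_abs _).trans (hz _ ?_)
      rw [neg_sub]
      exact hseg s hs x p hx.le hpn
    rw [add_sub_cancel] at h5 h6
    rw [abs_le]
    constructor <;> linarith
  have hB : ∀ s t : ℝ, -L ≤ s → s ≤ t → t ≤ L → a (t • e) - a (s • e) ≤ 2 * L * d := by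
    intro s t hs hst ht
    have h5 := hs_mvt ha (s • e) ((t - s) • e) (K := 2 * L * d) fun r hr => by
      rw [map_smul, smul_eq_mul, smul_smul, ← add_smul]
      have h6 : r * (t - s) ≤ t - s := mul_le_of_le_one_left (by linarith) hr.2
      have h7 : 0 ≤ r * (t - s) := mul_nonneg hr.1 (by linarith)
      have h8 := h2 ((s + r * (t - s)) • e) (by
        rw [hn, abs_le]
        constructor <;> linarith)
      calc (t - s) * fderiv ℝ a ((s + r * (t - s)) • e) e ≤ (t - s) * d :=
            mul_le_mul_of_nonneg_left h8 (by linarith)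
        _ ≤ 2 * L * d := mul_le_mul_of_nonneg_right (by linarith) hd
    rwa [← add_smul, add_sub_cancel] at h5
  set T : Set ℝ := (Icc (-L) L ∩ {t | a (t • e) ≤ 1 / 2}) ∪ {L} with hT
  have hTc : IsCompact T := by
    refine IsCompact.union (isCompact_Icc.inter_right ?_) isCompact_singleton
    exact isClosed_le (ha.continuous.comp (continuous_id.smul continuous_const)) continuous_const
  have hTm : sInf T ∈ T := hTc.sInf_mem ⟨L, Or.inr rfl⟩
  refine ⟨sInf T, fun x hx => ?_⟩
  obtain ⟨hi, hx'⟩ := hA x hx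
  rw [abs_lt] at hi
  rw [abs_le] at hx'
  constructor
  · intro hc
    have h3 : ¬ a (inner ℝ x e • e) ≤ 1 / 2 := fun h4 =>
      not_le.2 hc (csInf_le hTc.bddBelow (Or.inl ⟨⟨hi.1.le, hi.2.le⟩, h4⟩))
    linarith [not_le.1 h3, hx'.1]
  · intro hc
    rcases hTm with h3 | h3
    · have h4 := hB _ _ h3.1.1 hc hi.2.le
      have h5 : a (sInf T • e) ≤ 1 / 2 := h3.2
      linarith [hx'.2]
    · have h4 : sInf T = L := h3
      linarith [hi.2]

lemma hs_trans {L C : ℝ} (hL : 0 < L) : ∃ C1 > 0, ∀ A : Set (E n), MeasurableSet A →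
    (∀ φ, Test (4 * L) φ → ∀ z : E n, ‖z‖ ≤ 1 → |∫ x in A, fderiv ℝ φ x z| ≤ C) →
    ∃ f : E n → ℝ, Measurable f ∧ Integrable f ∧
      (∀ x, ‖x‖ ≤ 2 * L → f x = A.indicator 1 x) ∧
      ∀ ρ > 0, ∀ w : E n, ‖w‖ ≤ ρ → ∫ x, |f (x + w) - f x| ≤ C1 * ρ := by
  let ζ : ContDiffBump (0 : E n) := ⟨2 * L, 3 * L, by positivity, by linarith⟩
  have hζ : ContDiff ℝ 1 ζ := ζ.contDiff (n := 1)
  have hζc : Continuous (fderiv ℝ ζ) := hζ.continuous_fderiv one_ne_zero
  have hζi : Integrable fun x => ‖fderiv ℝ ζ x‖ :=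
    (hζc.integrable_of_hasCompactSupport (ζ.hasCompactSupport.fderiv ℝ)).norm
  set K := ∫ x, ‖fderiv ℝ ζ x‖ with hK
  have hK0 : 0 ≤ K := integral_nonneg fun x => norm_nonneg _
  refine ⟨|C| + K + 1, by positivity, fun A hA hC => ⟨A.indicator ζ,
    ζ.continuous.measurable.indicator hA, ζ.integrable.indicator hA, fun x hx => ?_,
    fun ρ hρ w hw => ?_⟩⟩
  · by_cases hxA : x ∈ A
    · rw [indicator_of_mem hxA, indicator_of_mem hxA]
      exact ζ.one_of_mem_closedBall (mem_closedBall_zero_iff.2 hx)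
    · rw [indicator_of_notMem hxA, indicator_of_notMem hxA]
  refine trans_fun (ζ.integrable.indicator hA) fun φ hφ hφc hφ1 => ?_
  have hT : Test (4 * L) fun x => ζ x * φ x := by
    refine ⟨hζ.mul hφ, (tsupport_mul_subset_left.trans ?_), fun x => ?_⟩
    · rw [ζ.tsupport_eq]
      exact closedBall_subset_ball (by show 3 * L < 4 * L; linarith)
    · rw [abs_mul, abs_of_nonneg ζ.nonneg]
      exact mul_le_one₀ ζ.le_one (abs_nonneg _) (hφ1 x)
  have hφd : Continuous (fderiv ℝ φ) := hφ.continuous_fderiv one_ne_zero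
  have h1 : ∀ x, ζ x * fderiv ℝ φ x w =
      fderiv ℝ (fun x => ζ x * φ x) x w - φ x * fderiv ℝ ζ x w := by
    intro x
    rw [fderiv_fun_mul (hζ.differentiable one_ne_zero x) (hφ.differentiable one_ne_zero x)]
    simp
  have h2 : ∫ x, A.indicator ζ x * fderiv ℝ φ x w = ∫ x in A, ζ x * fderiv ℝ φ x w := by
    rw [← integral_indicator hA]
    refine integral_congr_ae (Eventually.of_forall fun x => ?_)
    by_cases hx : x ∈ A <;> simp [hx]
  have i1 : Integrable fun x => fderiv ℝ (fun x => ζ x * φ x) x w :=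
    ((hT.smooth.continuous_fderiv one_ne_zero).clm_apply
      continuous_const).integrable_of_hasCompactSupport
      ((ζ.hasCompactSupport.mul_right (f' := φ)).fderiv_apply ℝ w)
  have i2 : Integrable fun x => φ x * fderiv ℝ ζ x w :=
    (hφ.continuous.mul (hζc.clm_apply continuous_const)).integrable_of_hasCompactSupport
      hφc.mul_right
  have h3 : |∫ x in A, fderiv ℝ (fun x => ζ x * φ x) x w| ≤ |C| * ρ := by
    have h4 : w = ρ • (ρ⁻¹ • w) := by rw [smul_smul, mul_inv_cancel₀ hρ.ne', one_smul]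
    have h5 := hC _ hT (ρ⁻¹ • w) (by
      rw [norm_smul, Real.norm_eq_abs, abs_of_pos (by positivity), inv_mul_le_iff₀ hρ]
      linarith)
    have h6 : ∫ x in A, fderiv ℝ (fun x => ζ x * φ x) x w =
        ρ * ∫ x in A, fderiv ℝ (fun x => ζ x * φ x) x (ρ⁻¹ • w) := by
      rw [← integral_const_mul]
      refine integral_congr_ae (Eventually.of_forall fun x => ?_)
      simp [hρ.ne']
    rw [h6, abs_mul, abs_of_pos hρ, mul_comm]
    exact mul_le_mul_of_nonneg_right (h5.trans (le_abs_self C)) hρ.le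
  have h4 : |∫ x in A, φ x * fderiv ℝ ζ x w| ≤ K * ρ := by
    rw [hK, ← integral_mul_const]
    refine abs_integral_le_integral_abs.trans ((setIntegral_le_integral i2.abs
      (Eventually.of_forall fun x => abs_nonneg _)).trans
      (integral_mono i2.abs (hζi.mul_const ρ) fun x => ?_))
    simp only
    rw [abs_mul]
    have h5 : |fderiv ℝ ζ x w| ≤ ‖fderiv ℝ ζ x‖ * ρ :=
      ((fderiv ℝ ζ x).le_opNorm w).trans (mul_le_mul_of_nonneg_left hw (norm_nonneg _))
    exact (mul_le_of_le_one_left (abs_nonneg _) (hφ1 x)).trans h5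
  rw [h2]
  simp_rw [h1]
  rw [integral_sub i1.integrableOn i2.integrableOn]
  have h5 := le_abs_self (∫ x in A, fderiv ℝ (fun x => ζ x * φ x) x w)
  have h6 := neg_le_abs (∫ x in A, φ x * fderiv ℝ ζ x w)
  nlinarith

lemma hs_near {ρ M L B : ℝ} {η : E n → ℝ} (h : HSk ρ M η) (hρ : ρ ≤ L) (hB : 0 ≤ B)
    {A : Set (E n)} {f : E n → ℝ} (hf : Measurable f) (hfi : Integrable f)
    (hfA : ∀ x, ‖x‖ ≤ 2 * L → f x = A.indicator 1 x)
    (hw : ∀ w : E n, ‖w‖ ≤ ρ → ∫ x, |f (x + w) - f x| ≤ B) :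
    ∃ G : E n → ℝ≥0∞, Measurable G ∧ ∫⁻ x, G x ≤ ENNReal.ofReal B ∧
      ∀ x, ‖x‖ < L → ENNReal.ofReal |hsA η A x - A.indicator 1 x| ≤ G x := by
  have hη : Continuous η := h.smooth.continuous
  have hηi : Integrable η := hη.integrable_of_hasCompactSupport h.cpt
  have hm : Measurable fun p : E n × E n =>
      ENNReal.ofReal (η p.2 * |f (p.1 - p.2) - f p.1|) :=
    ((hη.measurable.comp measurable_snd).mul
      (((hf.comp (measurable_fst.sub measurable_snd)).sub
        (hf.comp measurable_fst)).abs)).ennreal_ofReal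
  refine ⟨fun x => ∫⁻ w, ENNReal.ofReal (η w * |f (x - w) - f x|), hm.lintegral_prod_right',
    ?_, fun x hx => ?_⟩
  · rw [lintegral_lintegral_swap hm.aemeasurable]
    calc ∫⁻ w, ∫⁻ x, ENNReal.ofReal (η w * |f (x - w) - f x|)
        ≤ ∫⁻ w, ENNReal.ofReal (η w * B) := by
          refine lintegral_mono fun w => ?_
          by_cases hw' : ρ < ‖w‖
          · simp [h.zero hw']
          have i1 : Integrable fun x => |f (x - w) - f x| := ((hfi.comp_sub_right w).sub hfi).abs
          simp only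
          rw [← ofReal_integral_eq_lintegral_ofReal (i1.const_mul _)
            (Eventually.of_forall fun x => mul_nonneg (h.nonneg w) (abs_nonneg _)),
            integral_const_mul]
          refine ENNReal.ofReal_le_ofReal (mul_le_mul_of_nonneg_left ?_ (h.nonneg w))
          have := hw (-w) (by rw [norm_neg]; exact not_lt.1 hw')
          simpa only [sub_eq_add_neg] using this
      _ = ENNReal.ofReal B := by
          rw [← ofReal_integral_eq_lintegral_ofReal (hηi.mul_const _)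
            (Eventually.of_forall fun w => mul_nonneg (h.nonneg w) hB), integral_mul_const, h.int,
            one_mul]
  · have h1 : hsA η A x = ∫ w, η w * f (x - w) := by
      unfold hsA
      rw [convolution_eq_swap]
      refine integral_congr_ae (Eventually.of_forall fun w => ?_)
      by_cases hw' : ρ < ‖w‖
      · simp [h.zero hw']
      have h2 := hfA (x - w) (by linarith [norm_sub_le x w, not_lt.1 hw'])
      simp only [ContinuousLinearMap.lsmul_apply, smul_eq_mul]
      rw [h2, mul_comm]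
    have i1 : Integrable fun w => η w * f (x - w) :=
      (hfi.comp_sub_left x).bdd_mul (c := M) hη.aestronglyMeasurable
        (Eventually.of_forall fun w => by
          rw [Real.norm_eq_abs, abs_of_nonneg (h.nonneg w)]; exact h.bound w)
    have h2 : hsA η A x - A.indicator 1 x = ∫ w, η w * (f (x - w) - f x) := by
      simp_rw [mul_sub]
      rw [integral_sub i1 (hηi.mul_const _), integral_mul_const, h.int, one_mul, h1,
        hfA x (by linarith [norm_nonneg x])]
    rw [h2, ← Real.norm_eq_abs, ofReal_norm]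
    refine (enorm_integral_le_lintegral_enorm _).trans (le_of_eq (lintegral_congr fun w => ?_))
    rw [← ofReal_norm, Real.norm_eq_abs, abs_mul, abs_of_nonneg (h.nonneg w)]

theorem half_space {L C ε : ℝ} (hL : 0 < L) (hε : 0 < ε) : ∃ δ > 0, ∀ (A : Set (E n)) (e : E n),
    MeasurableSet A → ‖e‖ = 1 →
    (∀ φ, Test (4 * L) φ → ∀ z : E n, ‖z‖ ≤ 1 → |∫ x in A, fderiv ℝ φ x z| ≤ C) →
    (∀ φ, Test (4 * L) φ → ∀ z : E n, ‖z‖ ≤ 1 → inner ℝ z e = 0 →
      |∫ x in A, fderiv ℝ φ x z| ≤ δ) →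
    (∀ φ, Test (4 * L) φ → (∀ x, 0 ≤ φ x) → -δ ≤ ∫ x in A, fderiv ℝ φ x e) →
    ∃ c : ℝ, volume.real (symmDiff A {x | inner ℝ x e < c} ∩ ball 0 L) ≤ ε := by
  obtain ⟨C1, hC1, htr⟩ := hs_trans (n := n) (C := C) hL
  set ρ := min L (ε / (4 * C1)) with hρ
  have hρ0 : 0 < ρ := lt_min hL (by positivity)
  have hρL : ρ ≤ L := min_le_left _ _
  have hρε : C1 * ρ ≤ ε / 4 := by
    have h1 : ρ ≤ ε / (4 * C1) := min_le_right _ _
    rw [le_div_iff₀ (by positivity)] at h1
    linarith
  obtain ⟨M, hM, η, hη⟩ := hs_exists (n := n) hρ0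
  refine ⟨1 / (16 * L * M), by positivity, fun A e hA he h1 h2 h3 => ?_⟩
  obtain ⟨f, hf, hfi, hfA, hw⟩ := htr A hA h1
  obtain ⟨G, hG, hGi, hGx⟩ := hs_near hη hρL (by positivity : 0 ≤ ε / 4) hf hfi hfA
    fun w hw' => (hw ρ hρ0 w hw').trans hρε
  have hd : M * (1 / (16 * L * M)) = 1 / (16 * L) := by field_simp
  obtain ⟨c, hc⟩ := hs_shape (hs_diff hη hA) he hL (by positivity : 0 ≤ 1 / (16 * L))
    (fun x hx z hz hze => by
      rw [hs_fderiv hη hM hA, abs_mul, abs_neg, abs_of_pos hM, ← hd]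
      exact mul_le_mul_of_nonneg_left (h2 _ (hs_test hη hM hρL hL hx) z hz hze) hM.le)
    (fun x hx => by
      rw [hs_fderiv hη hM hA, ← hd]
      have h4 := mul_le_mul_of_nonneg_left (h3 _ (hs_test hη hM hρL hL hx)
        fun t => div_nonneg (hη.nonneg _) hM.le) hM.le
      linarith)
  refine ⟨c, ?_⟩
  have e1 : 2 * L * (1 / (16 * L)) = 1 / 8 := by field_simp; norm_num
  have e2 : 4 * L * (1 / (16 * L)) = 1 / 4 := by field_simp; norm_num
  rw [e1, e2] at hc
  have hsub : symmDiff A {x | inner ℝ x e < c} ∩ ball 0 L ⊆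
      {x | ENNReal.ofReal (1 / 4) ≤ G x} := by
    rintro x ⟨hx, hxL⟩
    rw [mem_ball_zero_iff] at hxL
    refine (ENNReal.ofReal_le_ofReal ?_).trans (hGx x hxL)
    rcases hx with ⟨h4, h5⟩ | ⟨h4, h5⟩
    · have h6 := (hc x hxL).2 (not_lt.1 h5)
      rw [indicator_of_mem h4, Pi.one_apply, le_abs]
      right
      linarith
    · have h6 := (hc x hxL).1 h4
      rw [indicator_of_notMem h5, le_abs]
      left
      linarith
  have h4 := (mul_meas_ge_le_lintegral₀ (μ := volume) hG.aemeasurable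
    (ENNReal.ofReal (1 / 4))).trans hGi
  have h5 : volume {x | ENNReal.ofReal (1 / 4) ≤ G x} ≤ ENNReal.ofReal ε := by
    have h6 : ENNReal.ofReal (ε / 4) = ENNReal.ofReal (1 / 4) * ENNReal.ofReal ε := by
      rw [← ENNReal.ofReal_mul (by norm_num)]
      congr 1
      ring
    rw [h6] at h4
    exact (ENNReal.mul_le_mul_iff_right (by simp) ENNReal.ofReal_ne_top).1 h4
  exact ENNReal.toReal_le_of_le_ofReal hε.le ((measure_mono hsub).trans h5)

end Vale.Agent.P219
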