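import Vale.Agent.P219.Sph

/-!
The test function for the density.
-/

open scoped ContDiff Topology ENNReal
open MeasureTheory Set Filter Metric

noncomputable section

namespace Vale.Agent.P219

variable {n k : ℕ} {b : ℝ}

/-- The point with first coordinate `p.1` and remaining coordinates `p.2`. -/
def slabCons (p : ℝ × E k) : E (k + 1) := WithLp.toLp 2 (Fin.cons p.1 p.2.ofLp)

/-- The splitting of Euclidean space as a measurable equivalence. -/
def slabEquiv (k : ℕ) : ℝ × E k ≃ᵐ E (k + 1) :=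
  ((MeasurableEquiv.refl ℝ).prodCongr (MeasurableEquiv.toLp 2 (Fin k → ℝ)).symm).trans
    ((MeasurableEquiv.piFinSuccAbove (fun _ : Fin (k + 1) => ℝ) 0).symm.trans
      (MeasurableEquiv.toLp 2 (Fin (k + 1) → ℝ)))

theorem slabEquiv_apply (p : ℝ × E k) : slabEquiv k p = slabCons p := by
  ext i
  simp [slabEquiv, slabCons, MeasurableEquiv.prodCongr, MeasurableEquiv.piFinSuccAbove,
    Fin.insertNthEquiv]

theorem slab_mp : MeasurePreserving (slabEquiv k) := by
  have h1 : MeasurePreserving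
      ((MeasurableEquiv.refl ℝ).prodCongr (MeasurableEquiv.toLp 2 (Fin k → ℝ)).symm) :=
    (MeasurePreserving.id (volume : Measure ℝ)).prod (PiLp.volume_preserving_ofLp (Fin k))
  exact h1.trans ((volume_preserving_piFinSuccAbove (fun _ : Fin (k + 1) => ℝ) 0).symm.trans
    (PiLp.volume_preserving_toLp (Fin (k + 1))))

theorem slab_norm (a : ℝ) (z : E k) : ‖slabCons (a, z)‖ ^ 2 = a ^ 2 + ‖z‖ ^ 2 := by
  simp [slabCons, EuclideanSpace.norm_sq_eq, Fin.sum_univ_succ]

theorem slab_line (a : ℝ) (z : E k) : slabCons (a, z) = slabCons (0, z) + a • ev 0 := by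
  ext i
  refine Fin.cases ?_ (fun j => ?_) i <;> simp [slabCons, ev]

theorem slab_inner (p : ℝ × E k) : inner ℝ (slabCons p) (ev 0) = p.1 := by
  simp [slabCons, ev, EuclideanSpace.inner_single_right]

/-- Slicing of a coordinate half-space. -/
theorem slab_slice0 {ψ : E (k + 1) → ℝ} {L : ℝ} (hψ : ContDiff ℝ 1 ψ)
    (hs : tsupport ψ ⊆ ball 0 L) (c : ℝ) :
    ∫ w in {w | inner ℝ w (ev 0) < c}, fderiv ℝ ψ w (ev 0) = ∫ z : E k, ψ (slabCons (c, z)) := by
  have hc : HasCompactSupport ψ :=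
    (isCompact_closedBall 0 L).of_isClosed_subset (isClosed_tsupport ψ)
      (hs.trans ball_subset_closedBall)
  have hi : Integrable fun w => fderiv ℝ ψ w (ev 0) :=
    ((hψ.continuous_fderiv one_ne_zero).clm_apply continuous_const).integrable_of_hasCompactSupport
      (hc.fderiv_apply ℝ (ev 0))
  have h1 := slab_mp.setIntegral_preimage_emb (slabEquiv k).measurableEmbedding
    (fun w => fderiv ℝ ψ w (ev 0)) {w | inner ℝ w (ev 0) < c}
  have h2 : slabEquiv k ⁻¹' {w | inner ℝ w (ev 0) < c} = Iio c ×ˢ univ := by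
    ext p
    simp [slabEquiv_apply, slab_inner]
  have h3 : Integrable (fun p : ℝ × E k => fderiv ℝ ψ (slabEquiv k p) (ev 0))
      (((volume : Measure ℝ).restrict (Iio c)).prod volume) := by
    have := (slab_mp.integrable_comp_emb (slabEquiv k).measurableEmbedding).2 hi
    rw [Measure.restrict_prod_eq_prod_univ]
    exact this.restrict
  rw [← h1, h2, Measure.volume_eq_prod, ← Measure.restrict_prod_eq_prod_univ,
    integral_prod_symm _ h3]
  refine integral_congr_ae (Eventually.of_forall fun z => ?_)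
  have h4 : ContDiff ℝ 1 fun a : ℝ => slabCons (0, z) + a • ev 0 := by fun_prop
  have h5 : HasCompactSupport fun a : ℝ => ψ (slabCons (0, z) + a • ev 0) := by
    refine HasCompactSupport.intro (isCompact_closedBall (0 : ℝ) L) fun a ha => ?_
    refine image_eq_zero_of_notMem_tsupport fun h => ha ?_
    have h6 := mem_ball_zero_iff.1 (hs h)
    rw [← slab_line] at h6
    have h7 := slab_norm a z
    rw [mem_closedBall_zero_iff, Real.norm_eq_abs]
    refine le_trans (abs_le.2 (abs_le_of_sq_le_sq' ?_ (norm_nonneg (slabCons (a, z))))) h6.le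
    nlinarith [sq_nonneg ‖z‖]
  have h6 := h5.integral_Iic_deriv_eq (hψ.comp h4) c
  dsimp only
  rw [slab_line c z, ← integral_Iic_eq_integral_Iio]
  refine Eq.trans ?_ h6
  refine integral_congr_ae (Eventually.of_forall fun a => ?_)
  have h7 : HasDerivAt (fun a : ℝ => slabCons (0, z) + a • ev 0) (ev 0) a := by
    simpa using ((hasDerivAt_id a).smul_const (ev (0 : Fin (k + 1)))).const_add (slabCons (0, z))
  have h8 := ((hψ.differentiable one_ne_zero _).hasFDerivAt.comp_hasDerivAt a h7).deriv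
  dsimp only
  rw [slabEquiv_apply, slab_line a z]
  exact h8.symm

/-- Slicing of a half-space. -/
theorem slab_slice {φ : E (k + 1) → ℝ} {L : ℝ} (hφ : ContDiff ℝ 1 φ)
    (hs : tsupport φ ⊆ ball 0 L) {e : E (k + 1)} (he : ‖e‖ = 1) (c : ℝ) :
    ∃ R : E (k + 1) ≃ₗᵢ[ℝ] E (k + 1),
      ∫ w in {w | inner ℝ w e < c}, fderiv ℝ φ w e = ∫ z : E k, φ (R (slabCons (c, z))) := by
  have h0 : ‖ev (0 : Fin (k + 1))‖ = ‖e‖ := by simp [ev, he]
  obtain ⟨R, hR⟩ : ∃ R : E (k + 1) ≃ₗᵢ[ℝ] E (k + 1), R (ev 0) = e :=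
    ⟨_, Submodule.reflection_sub h0⟩
  refine ⟨R, ?_⟩
  have h1 : tsupport (φ ∘ R) ⊆ ball 0 L := by
    intro w hw
    have h2 : R w ∈ tsupport φ :=
      tsupport_comp_subset_preimage φ R.continuous hw
    simpa using hs h2
  have h2 := slab_slice0 (hφ.comp R.contDiff) h1 c
  have h3 := R.measurePreserving.setIntegral_preimage_emb R.toHomeomorph.measurableEmbedding
    (fun w => fderiv ℝ φ w e) {w | inner ℝ w e < c}
  have h4 : R ⁻¹' {w | inner ℝ w e < c} = {w | inner ℝ w (ev 0) < c} := by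
    ext w
    simp [← hR]
  rw [← h3, h4]
  refine Eq.trans (integral_congr_ae (Eventually.of_forall fun w => ?_)) h2
  have h5 := ((hφ.differentiable one_ne_zero (R w)).hasFDerivAt.comp w
    R.toContinuousLinearEquiv.hasFDerivAt).fderiv
  dsimp only
  rw [← hR]
  exact (congrArg (fun T : E (k + 1) →L[ℝ] ℝ => T (ev 0)) h5).symm

theorem slab_scale (hk : 1 ≤ k) {A t : ℝ} (ht : 0 < t) :
    (Integrable fun z : E k => ((A * t)⁻¹ * (2 / (1 + ‖t⁻¹ • z‖ ^ 2))) ^ k) ∧
      ∫ z : E k, ((A * t)⁻¹ * (2 / (1 + ‖t⁻¹ • z‖ ^ 2))) ^ k = A⁻¹ ^ k * sph k := by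
  simp_rw [mul_pow]
  refine ⟨((integrable_sph hk).comp_smul (inv_ne_zero ht.ne')).const_mul _, ?_⟩
  have h := Measure.integral_comp_inv_smul_of_nonneg (volume : Measure (E k))
    (fun z : E k => (2 / (1 + ‖z‖ ^ 2)) ^ k) ht.le
  rw [integral_const_mul, h, integral_sph hk, finrank_euclideanSpace_fin, smul_eq_mul,
    ← mul_assoc, ← mul_pow]
  congr 2
  rw [mul_inv, mul_assoc, inv_mul_cancel₀ ht.ne', mul_one]

theorem exists_slab (hk : 1 ≤ k) {η M : ℝ} (hη : 0 < η) : ∃ (L t ε : ℝ) (φ : E (k + 1) → ℝ),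
    0 < L ∧ 0 < t ∧ 0 < ε ∧ ContDiff ℝ 1 φ ∧ tsupport φ ⊆ ball 0 L ∧
    (∀ w, 0 ≤ φ w ∧ φ w ≤ (2 * t / (t ^ 2 + (1 + ε) * ‖w‖ ^ 2)) ^ k) ∧
    ∀ e : E (k + 1), ‖e‖ = 1 → ∀ c : ℝ, |c| ≤ M →
      sph k - η ≤ ∫ w in {w | inner ℝ w e < c}, fderiv ℝ φ w e := by
  obtain ⟨ε, hε, h1⟩ : ∃ ε : ℝ, 0 < ε ∧ sph k - η < (1 + ε)⁻¹ ^ k * sph k := by
    have h2 : ContinuousAt (fun ε : ℝ => (1 + ε)⁻¹ ^ k * sph k) 0 :=
      (((continuousAt_const.add continuousAt_id).inv₀ (by simp)).pow k).mul continuousAt_const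
    have h3 : ∀ᶠ ε : ℝ in 𝓝 0, sph k - η < (1 + ε)⁻¹ ^ k * sph k :=
      h2.eventually (lt_mem_nhds (by simpa using hη))
    obtain ⟨ε, h4, h5⟩ :=
      ((h3.filter_mono nhdsWithin_le_nhds).and (self_mem_nhdsWithin (s := Ioi 0))).exists
    exact ⟨ε, h5, h4⟩
  obtain ⟨t, ht, h2⟩ : ∃ t : ℝ, 0 < t ∧ (1 + ε) * M ^ 2 ≤ ε * t ^ 2 := by
    refine ⟨(1 + ε) * M ^ 2 / ε + 1, by positivity, ?_⟩
    have h3 : 0 ≤ (1 + ε) * M ^ 2 / ε := by positivity
    have h4 : ε * ((1 + ε) * M ^ 2 / ε) = (1 + ε) * M ^ 2 := mul_div_cancel₀ _ hε.ne'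
    nlinarith [sq_nonneg ((1 + ε) * M ^ 2 / ε)]
  obtain ⟨hi, hv⟩ := slab_scale hk (A := 1 + ε) ht
  obtain ⟨ρ, h3⟩ : ∃ ρ : ℕ, sph k - η < ∫ z in closedBall (0 : E k) ρ,
      (((1 + ε) * t)⁻¹ * (2 / (1 + ‖t⁻¹ • z‖ ^ 2))) ^ k := by
    have h4 := tendsto_setIntegral_of_monotone (μ := (volume : Measure (E k)))
      (s := fun m : ℕ => closedBall (0 : E k) m) (fun _ => measurableSet_closedBall)
      (fun a b h => closedBall_subset_closedBall (by exact_mod_cast h)) hi.integrableOn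
    rw [iUnion_closedBall_nat, Measure.restrict_univ, hv] at h4
    exact (h4.eventually (lt_mem_nhds h1)).exists
  have hρ : (0 : ℝ) ≤ ρ := Nat.cast_nonneg ρ
  let χ : ContDiffBump (0 : E (k + 1)) :=
    ⟨ρ + |M| + 1, ρ + |M| + 2, by positivity, by linarith⟩
  have hd : ∀ w : E (k + 1), 0 < t ^ 2 + (1 + ε) * ‖w‖ ^ 2 := fun w => by positivity
  have hg : ∀ w : E (k + 1), 0 ≤ (2 * t / (t ^ 2 + (1 + ε) * ‖w‖ ^ 2)) ^ k := fun w => by
    positivity
  have hφ : ContDiff ℝ 1 fun w : E (k + 1) => χ w * (2 * t / (t ^ 2 + (1 + ε) * ‖w‖ ^ 2)) ^ k :=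
    χ.contDiff.mul ((contDiff_const.div
      (contDiff_const.add (contDiff_const.mul (contDiff_norm_sq ℝ))) fun w => (hd w).ne').pow k)
  have hs : tsupport (fun w : E (k + 1) => χ w * (2 * t / (t ^ 2 + (1 + ε) * ‖w‖ ^ 2)) ^ k) ⊆
      ball 0 (ρ + |M| + 3) := by
    refine tsupport_mul_subset_left.trans ?_
    rw [χ.tsupport_eq]
    exact closedBall_subset_ball (show (ρ : ℝ) + |M| + 2 < _ by linarith)
  refine ⟨ρ + |M| + 3, t, ε, _, by positivity, ht, hε, hφ, hs, fun w =>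
    ⟨mul_nonneg χ.nonneg (hg w), mul_le_of_le_one_left (hg w) χ.le_one⟩, fun e he c hc => ?_⟩
  obtain ⟨R, hR⟩ := slab_slice hφ hs he c
  have hcont : Continuous fun z : E k => slabCons (c, z) := by
    unfold slabCons
    refine (PiLp.continuous_toLp 2 _).comp (continuous_pi fun i => ?_)
    refine Fin.cases ?_ (fun j => ?_) i
    · simpa using continuous_const
    · simpa using PiLp.continuous_apply 2 _ j
  have hint : Integrable fun z : E k => χ (R (slabCons (c, z))) *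
      (2 * t / (t ^ 2 + (1 + ε) * ‖R (slabCons (c, z))‖ ^ 2)) ^ k := by
    refine (hφ.continuous.comp (R.continuous.comp hcont)).integrable_of_hasCompactSupport
      (HasCompactSupport.intro (isCompact_closedBall (0 : E k) (ρ + |M| + 3)) fun z hz => ?_)
    refine image_eq_zero_of_notMem_tsupport
      (f := fun w : E (k + 1) => χ w * (2 * t / (t ^ 2 + (1 + ε) * ‖w‖ ^ 2)) ^ k) fun h => hz ?_
    have h6 : ‖R (slabCons (c, z))‖ < _ := mem_ball_zero_iff.1 (hs h)
    rw [R.norm_map] at h6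
    have h7 := slab_norm c z
    rw [mem_closedBall_zero_iff]
    refine le_trans (abs_le_of_sq_le_sq' ?_ (norm_nonneg _)).2 h6.le
    nlinarith [sq_nonneg c]
  rw [hR]
  refine h3.le.trans (le_trans ?_ (setIntegral_le_integral (s := closedBall (0 : E k) ρ) hint
    (Eventually.of_forall fun z => mul_nonneg χ.nonneg (hg _))))
  refine setIntegral_mono_on hi.integrableOn hint.integrableOn measurableSet_closedBall
    fun z hz => ?_
  have h4 := mem_closedBall_zero_iff.1 hz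
  have h5 : c ^ 2 ≤ M ^ 2 := by
    rw [← sq_abs c]
    exact pow_le_pow_left₀ (abs_nonneg c) hc 2
  have h6 := slab_norm c z
  have h7 : χ (R (slabCons (c, z))) = 1 := by
    refine χ.one_of_mem_closedBall (mem_closedBall_zero_iff.2 ?_)
    rw [R.norm_map]
    refine (abs_le_of_sq_le_sq' ?_ (show (0 : ℝ) ≤ ρ + |M| + 1 by positivity)).2
    nlinarith [sq_abs M, abs_nonneg M, norm_nonneg z]
  rw [h7, one_mul, R.norm_map, h6]
  refine pow_le_pow_left₀ (by positivity) ?_ k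
  have h8 : ((1 + ε) * t)⁻¹ * (2 / (1 + ‖t⁻¹ • z‖ ^ 2)) =
      2 * t / ((1 + ε) * (t ^ 2 + ‖z‖ ^ 2)) := by
    rw [norm_smul, norm_inv, Real.norm_eq_abs, abs_of_pos ht]
    field_simp
  rw [h8]
  refine div_le_div_of_nonneg_left (by positivity) (by positivity) ?_
  nlinarith

end Vale.Agent.P219
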