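import Vale.Agent.P219.DenA
import Vale.Agent.P219.DenB
import Vale.Agent.P219.DenS
import Vale.Agent.P219.HS
import Vale.Agent.P219.Slab
import Vale.Agent.P219.Ge2

/-!
The density is at least one.
-/

open scoped ContDiff Topology ENNReal
open MeasureTheory Set Filter Metric

noncomputable section

namespace Vale.Agent.P219

variable {n k : ℕ} {b : ℝ}

theorem denc_fin (T : Set (E n)) (L : ℝ) : volume (T ∩ ball 0 L) ≠ ⊤ :=
  ((measure_mono inter_subset_right).trans_lt measure_ball_lt_top).ne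

theorem denc_diff {A H : Set (E n)} (hA : MeasurableSet A) (hH : MeasurableSet H) {g : E n → ℝ}
    (hg : Integrable g) {D L : ℝ} (hD : ∀ x, |g x| ≤ D) (h0 : ∀ x ∉ ball (0 : E n) L, g x = 0) :
    |(∫ x in A, g x) - ∫ x in H, g x| ≤ D * volume.real (symmDiff A H ∩ ball 0 L) := by
  have hS : MeasurableSet (symmDiff A H ∩ ball (0 : E n) L) :=
    (hA.symmDiff hH).inter measurableSet_ball
  have hD0 : 0 ≤ D := (abs_nonneg _).trans (hD 0)
  rw [← integral_indicator hA, ← integral_indicator hH,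
    ← integral_sub (hg.indicator hA) (hg.indicator hH), mul_comm, ← smul_eq_mul,
    ← integral_indicator_const D hS, ← Real.norm_eq_abs]
  refine norm_integral_le_of_norm_le
    ((integrableOn_const (denc_fin _ _)).integrable_indicator hS) (Eventually.of_forall fun x => ?_)
  by_cases hx : x ∈ ball (0 : E n) L
  · by_cases h1 : x ∈ A <;> by_cases h2 : x ∈ H
    · rw [indicator_of_mem h1, indicator_of_mem h2, sub_self, norm_zero]
      exact indicator_nonneg (fun _ _ => hD0) _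
    · rw [indicator_of_mem h1, indicator_of_notMem h2, sub_zero,
        indicator_of_mem (mem_inter (mem_symmDiff.2 (Or.inl ⟨h1, h2⟩)) hx)]
      exact hD x
    · rw [indicator_of_notMem h1, indicator_of_mem h2, zero_sub, norm_neg,
        indicator_of_mem (mem_inter (mem_symmDiff.2 (Or.inr ⟨h2, h1⟩)) hx)]
      exact hD x
    · rw [indicator_of_notMem h1, indicator_of_notMem h2, sub_self, norm_zero]
      exact indicator_nonneg (fun _ _ => hD0) _
  · rw [indicator_apply_eq_zero.2 fun _ => h0 x hx, indicator_apply_eq_zero.2 fun _ => h0 x hx,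
      sub_self, norm_zero]
    exact indicator_nonneg (fun _ _ => hD0) _

theorem denc_abs_le {A : Set (E n)} {e : E n} (he : ‖e‖ = 1) {c M L ε : ℝ} (hML : M ≤ L)
    (h : volume.real (symmDiff A {x | inner ℝ x e < c} ∩ ball 0 L) ≤ ε)
    (h1 : ε < volume.real (A ∩ ball 0 M)) (h2 : ε < volume.real (Aᶜ ∩ ball 0 M)) : |c| ≤ M := by
  have hin : ∀ w ∈ ball (0 : E n) M, |inner ℝ w e| < M := fun w hw => by
    refine (abs_real_inner_le_norm w e).trans_lt ?_
    rw [he, mul_one]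
    exact mem_ball_zero_iff.1 hw
  rw [abs_le]
  constructor
  · by_contra hc
    refine absurd (h1.trans_le ((measureReal_mono (fun w hw => ?_) (denc_fin _ _)).trans h))
      (lt_irrefl _)
    refine ⟨mem_symmDiff.2 (Or.inl ⟨hw.1, fun h3 => ?_⟩), ball_subset_ball hML hw.2⟩
    have h4 : inner ℝ w e < c := h3
    linarith [(abs_lt.1 (hin w hw.2)).1, not_le.1 hc]
  · by_contra hc
    refine absurd (h2.trans_le ((measureReal_mono (fun w hw => ?_) (denc_fin _ _)).trans h))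
      (lt_irrefl _)
    refine ⟨mem_symmDiff.2 (Or.inr ⟨?_, hw.1⟩), ball_subset_ball hML hw.2⟩
    exact ((abs_lt.1 (hin w hw.2)).2).trans (not_le.1 hc)

theorem denc_lam (Γ : Geo n b) (x : E n) {L t ε : ℝ} (ht : 0 < t) (hε : 0 < ε) {φ : E n → ℝ}
    (hs : tsupport φ ⊆ ball 0 L)
    (hφ : ∀ w, φ w ≤ (2 * t / (t ^ 2 + (1 + ε) * ‖w‖ ^ 2)) ^ k) :
    ∀ᶠ r in 𝓝[>] (0 : ℝ), ∀ p,
      (r ^ k)⁻¹ * φ (r⁻¹ • Γ.Fi x (p - x)) ≤ lam (Γ.σ x p) (t * r) ^ k := by
  obtain ⟨U, hU, hT⟩ := Γ.taylor x hε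
  obtain ⟨ρ, hρ, hρU⟩ := Metric.mem_nhds_iff.1 hU
  have h1 : Tendsto (fun r : ℝ => r * (‖Γ.F x‖ * L)) (𝓝[>] 0) (𝓝 0) := by
    have h : Tendsto (fun r : ℝ => r * (‖Γ.F x‖ * L)) (𝓝 0) (𝓝 (0 * (‖Γ.F x‖ * L))) :=
      tendsto_id.mul_const _
    rw [zero_mul] at h
    exact h.mono_left nhdsWithin_le_nhds
  filter_upwards [h1.eventually (gt_mem_nhds hρ), self_mem_nhdsWithin] with r hr hr0 p
  have hr0' : 0 < r := hr0
  have hl := lam_pos (Γ.nonneg x p) (mul_pos ht hr0')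
  obtain ⟨w, hw⟩ : ∃ w, w = r⁻¹ • Γ.Fi x (p - x) := ⟨_, rfl⟩
  rw [← hw]
  by_cases h0 : φ w = 0
  · rw [h0, mul_zero]
    positivity
  have hwL : ‖w‖ < L := mem_ball_zero_iff.1 (hs (subset_tsupport φ h0))
  have h2 : Γ.Fi x (p - x) = r • w := by rw [hw, smul_inv_smul₀ hr0'.ne']
  have h3 : p ∈ U := by
    refine hρU (mem_ball_iff_norm.2 (lt_of_le_of_lt ?_ hr))
    rw [← Γ.right x (p - x), h2, map_smul, norm_smul, Real.norm_eq_abs, abs_of_pos hr0']
    exact mul_le_mul_of_nonneg_left (((Γ.F x).le_opNorm w).trans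
      (mul_le_mul_of_nonneg_left hwL.le (norm_nonneg _))) hr0'.le
  have h4 := (abs_le.1 (hT x (mem_of_mem_nhds hU) p h3)).2
  rw [← neg_sub p x, map_neg, norm_neg, h2, norm_smul, Real.norm_eq_abs, abs_of_pos hr0'] at h4
  refine (mul_le_mul_of_nonneg_left (hφ w) (by positivity)).trans ?_
  rw [← inv_pow, ← mul_pow]
  refine pow_le_pow_left₀ (by positivity) ?_ k
  have h5 : r⁻¹ * (2 * t / (t ^ 2 + (1 + ε) * ‖w‖ ^ 2)) =
      2 * (t * r) / ((t * r) ^ 2 + (1 + ε) * (r * ‖w‖) ^ 2) := by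
    field_simp
  rw [h5, lam]
  have h6 := Γ.nonneg x p
  exact div_le_div_of_nonneg_left (by positivity) (by positivity) (by linarith)

theorem denc_test {L L' : ℝ} {φ : E n → ℝ} (h : Test L φ) (hL : L ≤ L') : Test L' φ :=
  ⟨h.smooth, h.supp.trans (ball_subset_ball hL), h.bound⟩

theorem denc_half (Φ : Frame (k + 1)) {A : Set (E (k + 1))} {W : Vf (k + 1)} (hA : BM A)
    (hG : Φ.GG A W) {x e : E (k + 1)} (hx : W.Pt x e) {C : ℝ}
    (hC : ∀ᶠ r in 𝓝[>] (0 : ℝ), W.wt (closedBall x r) ≤ C * r ^ k) {L ε : ℝ} (hL : 0 < L)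
    (hε : 0 < ε) : ∀ᶠ r in 𝓝[>] (0 : ℝ), ∃ c : ℝ,
      volume.real (symmDiff (Φ.blow A x r) {w | inner ℝ w e < c} ∩ ball 0 L) ≤ ε := by
  obtain ⟨C', hC'0, hC'⟩ := Φ.blow_bound hC (4 * L)
  obtain ⟨δ, hδ, hH⟩ := half_space (n := k + 1) (C := C' + 1) hL hε
  obtain ⟨M, -, hM⟩ := Φ.blow_vol x
  have he := hx.1
  filter_upwards [hC', Φ.blow_gg hA hG hx hC (4 * L) (lt_min hδ one_pos), self_mem_nhdsWithin]
    with r h1 h2 hr
  refine hH _ e (hM A hA.meas r hr).1 he (fun φ hφ z hz => ?_) (fun φ hφ z hz h0 => ?_)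
    fun φ hφ h0 => ?_
  · have h3 := (h2 φ hφ z hz).trans (min_le_right _ _)
    have h4 : |inner ℝ z e| ≤ 1 := by
      refine (abs_real_inner_le_norm z e).trans ?_
      rwa [he, mul_one]
    have h5 := mul_le_mul h4 (h1 φ hφ) (abs_nonneg _) zero_le_one
    rw [← abs_mul] at h5
    have h6 := abs_sub_abs_le_abs_sub (∫ w in Φ.blow A x r, fderiv ℝ φ w z)
      (inner ℝ z e * ((r ^ k)⁻¹ * ∫ w, φ (r⁻¹ • Φ.Fi x (w.1 - x)) ∂W.V))
    linarith
  · have h3 := (h2 φ hφ z hz).trans (min_le_left _ _)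
    rwa [h0, zero_mul, sub_zero] at h3
  · have h3 := (abs_le.1 ((h2 φ hφ e he.le).trans (min_le_left _ _))).1
    have hr0 : (0 : ℝ) < r := hr
    have h4 : 0 ≤ (r ^ k)⁻¹ * ∫ w, φ (r⁻¹ • Φ.Fi x (w.1 - x)) ∂W.V :=
      mul_nonneg (by positivity) (integral_nonneg fun w => h0 _)
    rw [real_inner_self_eq_norm_sq, he] at h3
    linarith

theorem denc_gg (Φ : Frame (k + 1)) {A : Set (E (k + 1))} {W : Vf (k + 1)} (hA : BM A)
    (hG : Φ.GG A W) {x e : E (k + 1)} (hx : W.Pt x e) {C : ℝ}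
    (hC : ∀ᶠ r in 𝓝[>] (0 : ℝ), W.wt (closedBall x r) ≤ C * r ^ k) {L B η : ℝ} (hB : 0 < B)
    (hη : 0 < η) {φ : E (k + 1) → ℝ} (hφ : ContDiff ℝ 1 φ) (hs : tsupport φ ⊆ ball 0 L)
    (hb : ∀ w, |φ w| ≤ B) : ∀ᶠ r in 𝓝[>] (0 : ℝ), (∫ w in Φ.blow A x r, fderiv ℝ φ w e) - η ≤
      (r ^ k)⁻¹ * ∫ w, φ (r⁻¹ • Φ.Fi x (w.1 - x)) ∂W.V := by
  have hT : Test L fun w => B⁻¹ * φ w := by
    refine ⟨contDiff_const.mul hφ, (tsupport_mul_subset_right (f := fun _ => B⁻¹)).trans hs,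
      fun w => ?_⟩
    rw [abs_mul, abs_of_pos (inv_pos.2 hB), inv_mul_le_iff₀ hB, mul_one]
    exact hb w
  filter_upwards [Φ.blow_gg hA hG hx hC L (div_pos hη hB)] with r h
  have h1 := (abs_le.1 (h _ hT e hx.1.le)).2
  have h2 : ∀ w, fderiv ℝ (fun w => B⁻¹ * φ w) w e = B⁻¹ * fderiv ℝ φ w e := fun w => by
    rw [fderiv_const_mul (hφ.differentiable one_ne_zero w)]
    rfl
  simp only [h2, integral_const_mul] at h1
  rw [real_inner_self_eq_norm_sq, hx.1, one_pow, one_mul, mul_left_comm, ← mul_sub,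
    inv_mul_le_iff₀ hB, mul_div_cancel₀ _ hB.ne'] at h1
  linarith

theorem Geo.den (Γ : Geo (k + 1) b) (hk : 1 ≤ k) {A : Set (E (k + 1))} {W : Vf (k + 1)}
    (hA : BM A) (hG : Γ.GG A W) (hS : W.Sharp) : Γ.Den W := by
  filter_upwards [hS.ae_pt] with z ⟨e, hx⟩ η hη
  obtain ⟨x, hxz⟩ : ∃ x, x = z.1 := ⟨_, rfl⟩
  rw [← hxz] at hx ⊢
  obtain ⟨C, -, hC⟩ := Γ.wt_le hA.meas abs_one hG.ggc hx
  obtain ⟨α, hα0, hα⟩ := Γ.nondeg hk hA.meas hG hx
  obtain ⟨M, hM0, hM⟩ := Γ.blow_vol x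
  obtain ⟨L, t, ε, φ, hL, ht, hε, hφ, hs, hb, hsl⟩ :=
    exists_slab hk (M := M) (show 0 < η / 3 by positivity)
  have hc : HasCompactSupport φ :=
    (isCompact_closedBall 0 L).of_isClosed_subset (isClosed_tsupport φ)
      (hs.trans ball_subset_closedBall)
  have hcd : Continuous (fderiv ℝ φ) := hφ.continuous_fderiv one_ne_zero
  obtain ⟨D₀, hD₀⟩ := hcd.bounded_above_of_compact_support (hc.fderiv ℝ)
  have hD : ∀ w, |fderiv ℝ φ w e| ≤ max D₀ 1 := fun w => by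
    refine ((fderiv ℝ φ w).le_opNorm e).trans ?_
    rw [hx.1, mul_one]
    exact (hD₀ w).trans (le_max_left _ _)
  have hD0 : 0 < max D₀ 1 := lt_max_of_lt_right one_pos
  have hi : Integrable fun w => fderiv ℝ φ w e :=
    (hcd.clm_apply continuous_const).integrable_of_hasCompactSupport (hc.fderiv_apply ℝ e)
  have h0 : ∀ w ∉ ball (0 : E (k + 1)) (max L M), fderiv ℝ φ w e = 0 := fun w hw => by
    rw [fderiv_of_notMem_tsupport ℝ fun h => hw (ball_subset_ball (le_max_left _ _) (hs h))]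
    rfl
  have hB : ∀ w, |φ w| ≤ (2 / t) ^ k := fun w => by
    rw [abs_of_nonneg (hb w).1]
    refine (hb w).2.trans (pow_le_pow_left₀ (by positivity) ?_ k)
    rw [div_le_div_iff₀ (by positivity) ht]
    nlinarith [mul_nonneg (add_pos one_pos hε).le (sq_nonneg ‖w‖)]
  have hm := Γ.m_pos x
  have h1 := denc_half Γ.toFrame hA hG hx hC (L := max L M)
    (ε := min (η / 3 / max D₀ 1) (Γ.m x * α / 2)) (lt_max_of_lt_left hL) (by positivity)
  have h2 := denc_gg Γ.toFrame hA hG hx hC (show 0 < (2 / t) ^ k by positivity)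
    (show 0 < η / 3 by positivity) hφ hs hB
  have h3 := denc_lam Γ x ht hε hs fun w => (hb w).2
  have h4 : Tendsto (fun r : ℝ => t * r) (𝓝[>] 0) (𝓝[>] 0) := by
    refine tendsto_nhdsWithin_iff.2 ⟨?_, ?_⟩
    · have h : Tendsto (fun r : ℝ => t * r) (𝓝 0) (𝓝 (t * 0)) := tendsto_id.const_mul _
      rw [mul_zero] at h
      exact h.mono_left nhdsWithin_le_nhds
    · filter_upwards [self_mem_nhdsWithin] with r hr
      exact mul_pos ht hr
  refine h4.frequently ((hα.and_eventually (h1.and (h2.and (h3.and self_mem_nhdsWithin)))).mono ?_)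
  rintro r ⟨⟨ha1, ha2⟩, ⟨c, hc1⟩, h5, h6, hr⟩
  have hr0 : (0 : ℝ) < r := hr
  have key : ∀ S : Set (E (k + 1)), MeasurableSet S → α * r ^ (k + 1) ≤ volume.real (S ∩ ball x r) →
      min (η / 3 / max D₀ 1) (Γ.m x * α / 2) < volume.real (Γ.blow S x r ∩ ball 0 M) := by
    intro S hS h
    have h7 := (mul_le_mul_of_nonneg_left h hm.le).trans (hM S hS r hr0).2
    rw [← mul_assoc, mul_comm] at h7
    have h8 := le_of_mul_le_mul_left h7 (by positivity)
    exact (min_le_right _ _).trans_lt ((half_lt_self (by positivity)).trans_le h8)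
  have hcM : |c| ≤ M := denc_abs_le hx.1 (le_max_right L M) hc1 (key A hA.meas ha1)
    (key Aᶜ hA.meas.compl ha2)
  have h7 := hsl e hx.1 c hcM
  have h8 := denc_diff (hM A hA.meas r hr0).1
    (measurableSet_lt (continuous_id.inner (𝕜 := ℝ) continuous_const).measurable measurable_const)
    (H := {w | inner ℝ w e < c}) hi hD h0
  have h9 := (mul_le_mul_of_nonneg_left (hc1.trans (min_le_left _ _)) hD0.le)
  rw [mul_div_cancel₀ _ hD0.ne'] at h9
  have h10 : (r ^ k)⁻¹ * ∫ w, φ (r⁻¹ • Γ.Fi x (w.1 - x)) ∂W.V ≤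
      ∫ w, lam (Γ.σ x w.1) (t * r) ^ k ∂W.V := by
    rw [← integral_const_mul]
    refine W.integral_mono ?_ ?_ fun w _ _ => h6 w.1
    · exact continuous_const.mul (hφ.continuous.comp (by fun_prop))
    · exact ((Γ.cont_lam x (mul_pos ht hr0)).continuous.comp continuous_fst).pow k
  linarith [(abs_le.1 (h8.trans h9)).1]


end Vale.Agent.P219
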