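import Vale.Agent.P219.Fr2

/-!
Mollification of bounded functions, and total variation by duality.
-/

open scoped ContDiff Topology ENNReal Convolution
open MeasureTheory Set Filter Metric

noncomputable section

namespace Vale.Agent.P219

variable {n : ℕ}

/-- The bump function at the scale `1 / (j + 1)`. -/
def mollB (n j : ℕ) : ContDiffBump (0 : E n) :=
  ⟨1 / ((j : ℝ) + 1) / 2, 1 / ((j : ℝ) + 1), by positivity,
    half_lt_self (by positivity)⟩

/-- The mollification at the scale `1 / (j + 1)`. -/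
def moll (j : ℕ) (u : E n → ℝ) : E n → ℝ :=
  (mollB n j).normed volume ⋆[ContinuousLinearMap.lsmul ℝ ℝ, volume] u

theorem moll_apply (j : ℕ) (u : E n → ℝ) (x : E n) :
    moll j u x = ∫ t, (mollB n j).normed volume t * u (x - t) := rfl

theorem moll_rho_zero {j : ℕ} {t : E n} (ht : 1 / ((j : ℝ) + 1) ≤ ‖t‖) :
    (mollB n j).normed volume t = 0 := by
  by_contra h
  have h1 : t ∈ Function.support ((mollB n j).normed volume) := h
  rw [ContDiffBump.support_normed_eq, mem_ball_zero_iff] at h1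
  exact absurd h1 (not_lt.mpr ht)

theorem moll_scale_le (j : ℕ) : 1 / ((j : ℝ) + 1) ≤ 1 := by
  rw [div_le_one (by positivity)]
  have : (0 : ℝ) ≤ j := Nat.cast_nonneg j
  linarith

variable {u : E n → ℝ}

theorem moll_locInt (hu : Measurable u) (hb : ∀ x, |u x| ≤ 1) : LocallyIntegrable u volume :=
  (locallyIntegrable_const (1 : ℝ)).mono hu.aestronglyMeasurable
    (Eventually.of_forall fun x => by simpa using hb x)

theorem moll_smooth (hu : Measurable u) (hb : ∀ x, |u x| ≤ 1) (j : ℕ) :
    ContDiff ℝ ∞ (moll j u) :=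
  (mollB n j).hasCompactSupport_normed.contDiff_convolution_left _ (mollB n j).contDiff_normed
    (moll_locInt hu hb)

theorem moll_zero {c : E n} {R : ℝ} (h0 : ∀ p, R ≤ dist p c → u p = 0) (j : ℕ) {x : E n}
    (hx : R + 1 ≤ dist x c) : moll j u x = 0 := by
  rw [moll_apply]
  have : ∀ t, (mollB n j).normed volume t * u (x - t) = 0 := fun t => by
    by_cases ht : 1 / ((j : ℝ) + 1) ≤ ‖t‖
    · rw [moll_rho_zero ht, zero_mul]
    · have h1 := moll_scale_le j
      have h2 := dist_triangle x (x - t) c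
      have h3 : dist x (x - t) = ‖t‖ := by simp [dist_eq_norm]
      rw [h0 _ (by linarith [not_le.mp ht]), mul_zero]
  simp [this]

theorem moll_abs_le (hb : ∀ x, |u x| ≤ 1) (j : ℕ) (x : E n) : |moll j u x| ≤ 1 := by
  rw [moll_apply, ← Real.norm_eq_abs, ← (mollB n j).integral_normed (μ := volume)]
  refine norm_integral_le_of_norm_le (mollB n j).integrable_normed
    (Eventually.of_forall fun t => ?_)
  rw [norm_mul, Real.norm_eq_abs, Real.norm_eq_abs, abs_of_nonneg ((mollB n j).nonneg_normed t)]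
  exact mul_le_of_le_one_right ((mollB n j).nonneg_normed t) (hb _)

theorem moll_tendsto (hu : Measurable u) (hb : ∀ x, |u x| ≤ 1) :
    ∀ᵐ x, Tendsto (fun j => moll j u x) atTop (𝓝 (u x)) :=
  ContDiffBump.ae_convolution_tendsto_right_of_locallyIntegrable (φ := mollB n) (K := 2)
    tendsto_one_div_add_atTop_nhds_zero_nat
    (Eventually.of_forall fun j => by
      change 1 / ((j : ℝ) + 1) ≤ 2 * (1 / ((j : ℝ) + 1) / 2)
      linarith) (moll_locInt hu hb)

theorem moll_dual (hu : Measurable u) (hb : ∀ x, |u x| ≤ 1) (j : ℕ) {h : E n → ℝ}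
    (hh : Continuous h) (hc : HasCompactSupport h) {c : ℝ}
    (hle : ∀ t : E n, ‖t‖ < 1 / ((j : ℝ) + 1) → ∫ p, u p * h (p + t) ≤ c) :
    ∫ x, moll j u x * h x ≤ c := by
  set ρ := (mollB n j).normed (volume : Measure (E n)) with hρ
  have hρi : Integrable ρ := (mollB n j).integrable_normed
  have hρ0 : ∀ t, 0 ≤ ρ t := (mollB n j).nonneg_normed
  have hρc : Continuous ρ := (mollB n j).continuous_normed
  have hi : Integrable h := hh.integrable_of_hasCompactSupport hc
  have hF : Integrable (Function.uncurry fun x t : E n => ρ t * (u (x - t) * h x))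
      (volume.prod volume) := by
    refine (hi.mul_prod hρi).mono ?_ (Eventually.of_forall fun z => ?_)
    · exact ((hρc.measurable.comp measurable_snd).mul
        ((hu.comp (measurable_fst.sub measurable_snd)).mul
          (hh.measurable.comp measurable_fst))).aestronglyMeasurable
    · change ‖ρ z.2 * (u (z.1 - z.2) * h z.1)‖ ≤ ‖h z.1 * ρ z.2‖
      simp only [norm_mul, Real.norm_eq_abs]
      have h1 := hb (z.1 - z.2)
      have h2 : |u (z.1 - z.2)| * |h z.1| ≤ |h z.1| := mul_le_of_le_one_left (abs_nonneg _) h1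
      calc |ρ z.2| * (|u (z.1 - z.2)| * |h z.1|) ≤ |ρ z.2| * |h z.1| := by gcongr
        _ = _ := mul_comm _ _
  have e1 : ∀ x, moll j u x * h x = ∫ t, ρ t * (u (x - t) * h x) := fun x => by
    rw [moll_apply, ← integral_mul_const]
    simp only [mul_assoc, hρ]
  have e2 : ∀ t, ∫ x, ρ t * (u (x - t) * h x) = ρ t * ∫ p, u p * h (p + t) := fun t => by
    rw [integral_const_mul, ← integral_add_right_eq_self (fun x => u (x - t) * h x) t]
    simp only [add_sub_cancel_right]
  simp_rw [e1]
  rw [integral_integral_swap hF]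
  calc ∫ t, ∫ x, ρ t * (u (x - t) * h x) ≤ ∫ t, ρ t * c := by
        refine integral_mono hF.integral_prod_right (hρi.mul_const c) fun t => ?_
        change ∫ x, ρ t * (u (x - t) * h x) ≤ ρ t * c
        rw [e2]
        by_cases ht : 1 / ((j : ℝ) + 1) ≤ ‖t‖
        · have : ρ t = 0 := moll_rho_zero ht
          rw [this, zero_mul, zero_mul]
        · exact mul_le_mul_of_nonneg_left (hle t (not_le.mp ht)) (hρ0 t)
    _ = c := by rw [integral_mul_const, (mollB n j).integral_normed, one_mul]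

theorem moll_far {c p : E n} {R : ℝ} (hp : R < dist p c) : ∀ᶠ q in 𝓝 p, R < dist q c :=
  (isOpen_lt continuous_const (continuous_id.dist continuous_const)).mem_nhds hp

theorem moll_cpt {V : Type*} [Zero V] {y : E n → V} {c : E n} {R : ℝ}
    (h : ∀ p, R < dist p c → y p = 0) : HasCompactSupport y :=
  HasCompactSupport.intro (isCompact_closedBall c R) fun p hp => h p (by simpa using hp)

theorem moll_dv_zero (Φ : Frame n) {y : E n → E n} {c : E n} {R : ℝ}
    (h : ∀ p, R < dist p c → y p = 0) (p : E n) (hp : R < dist p c) : Φ.dv y p = 0 := by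
  have e : y =ᶠ[𝓝 p] fun _ => 0 := (moll_far hp).mono fun q hq => h q hq
  rw [Φ.dv_congr e]
  unfold Frame.dv dive
  simp [tr]

theorem moll_sq {g s : ℝ} (hg : 0 ≤ g) (hs : 0 < s) :
    g ≤ (√(g ^ 2 + s ^ 2))⁻¹ * g ^ 2 + s ∧ (√(g ^ 2 + s ^ 2))⁻¹ * g ≤ 1 := by
  set q := √(g ^ 2 + s ^ 2) with hq
  have h1 : q ^ 2 = g ^ 2 + s ^ 2 := Real.sq_sqrt (by positivity)
  have h2 : g ≤ q := Real.le_sqrt_of_sq_le (by nlinarith)
  have h3 : s ≤ q := Real.le_sqrt_of_sq_le (by nlinarith)
  have h4 : 0 < q := by linarith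
  constructor
  · have : q⁻¹ * g ^ 2 + s = (g ^ 2 + s * q) / q := by field_simp
    rw [this, le_div_iff₀ h4]
    nlinarith
  · rw [inv_mul_le_iff₀ h4, mul_one]
    exact h2

theorem moll_tv_le (Φ : Frame n) {f : E n → ℝ} (hf : ContDiff ℝ ∞ f) {c₀ : E n} {R : ℝ}
    (h0 : ∀ p, R < dist p c₀ → f p = 0) {c : ℝ}
    (h : ∀ y : E n → E n, ContDiff ℝ 1 y → (∀ p, ‖y p‖ ≤ 1) → (∀ p, R < dist p c₀ → y p = 0) →
      ∫ x, f x * Φ.dv y x ≤ c) : Φ.tv f ≤ c := by
  have hf1 : ContDiff ℝ 1 f := hf.of_le (by exact_mod_cast le_top)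
  have hg : ContDiff ℝ 1 (Φ.gr f) := (Φ.contDiff_gr hf).of_le (by exact_mod_cast le_top)
  have hg0 : ∀ p, R < dist p c₀ → Φ.gr f p = 0 := fun p hp => by
    have e : f =ᶠ[𝓝 p] fun _ => 0 := (moll_far hp).mono fun q hq => h0 q hq
    rw [Φ.gr_congr e, Φ.gr_const]
  have hm : Continuous Φ.m := Φ.m_smooth.continuous
  have hmi : Integrable ((closedBall c₀ R).indicator Φ.m) :=
    (integrable_indicator_iff measurableSet_closedBall).2
      (hm.continuousOn.integrableOn_compact (isCompact_closedBall c₀ R))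
  set M := ∫ x, (closedBall c₀ R).indicator Φ.m x with hM
  have hM0 : 0 ≤ M := integral_nonneg fun x => indicator_nonneg (fun p _ => (Φ.m_pos p).le) x
  have key : ∀ s > 0, Φ.tv f ≤ c + s * M := fun s hs => by
    set y : E n → E n := fun p => -((√(‖Φ.gr f p‖ ^ 2 + s ^ 2))⁻¹ • Φ.gr f p) with hy
    have hpos : ∀ p, 0 < ‖Φ.gr f p‖ ^ 2 + s ^ 2 := fun p => by positivity
    have hyc : ContDiff ℝ 1 y :=
      (((((hg.norm_sq ℝ).add contDiff_const).sqrt fun p => (hpos p).ne').inv fun p =>
        (Real.sqrt_pos.2 (hpos p)).ne').smul hg).neg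
    have hy1 : ∀ p, ‖y p‖ ≤ 1 := fun p => by
      simp only [hy, norm_neg, norm_smul, norm_inv, Real.norm_eq_abs,
        abs_of_nonneg (Real.sqrt_nonneg _)]
      exact (moll_sq (norm_nonneg _) hs).2
    have hy0 : ∀ p, R < dist p c₀ → y p = 0 := fun p hp => by
      simp only [hy, hg0 p hp, smul_zero, neg_zero]
    have h1 := h y hyc hy1 hy0
    rw [Φ.ibp hf1 (moll_cpt h0) hyc, ← integral_neg] at h1
    have i1 : Integrable fun x => ‖Φ.gr f x‖ * Φ.m x :=
      (hg.continuous.norm.mul hm).integrable_of_hasCompactSupport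
        (moll_cpt (c := c₀) (R := R) fun p hp => by simp [hg0 p hp])
    have i2 : Integrable fun x => -(inner ℝ (Φ.gr f x) (y x) * Φ.m x) :=
      ((hg.continuous.inner hyc.continuous).mul hm).neg.integrable_of_hasCompactSupport
        (moll_cpt (c := c₀) (R := R) fun p hp => by simp [hg0 p hp])
    have h2 : Φ.tv f ≤ ∫ x, (-(inner ℝ (Φ.gr f x) (y x) * Φ.m x) +
        s * (closedBall c₀ R).indicator Φ.m x) := by
      refine integral_mono i1 (i2.add (hmi.const_mul s)) fun x => ?_
      change ‖Φ.gr f x‖ * Φ.m x ≤ -(inner ℝ (Φ.gr f x) (y x) * Φ.m x) +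
        s * (closedBall c₀ R).indicator Φ.m x
      by_cases hx : x ∈ closedBall c₀ R
      · rw [indicator_of_mem hx]
        simp only [hy, inner_neg_right, inner_smul_right, real_inner_self_eq_norm_sq]
        have h3 := (moll_sq (norm_nonneg (Φ.gr f x)) hs).1
        have h4 := mul_le_mul_of_nonneg_right h3 (Φ.m_pos x).le
        linarith
      · rw [indicator_of_notMem hx, hg0 x (by simpa using hx)]
        simp
    rw [integral_add i2 (hmi.const_mul s), integral_const_mul] at h2
    linarith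
  refine le_of_forall_pos_le_add fun ε hε => ?_
  have h1 := key (ε / (M + 1)) (by positivity)
  have h2 : ε / (M + 1) * M ≤ ε := by
    rw [div_mul_eq_mul_div, div_le_iff₀ (by positivity)]
    nlinarith
  linarith

theorem moll_dive_shift (Z : E n → E n) (t x : E n) :
    dive (fun p => Z (p + t)) x = dive Z (x + t) := by
  unfold dive
  rw [fderiv_comp_add_right]

end Vale.Agent.P219
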