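import Vale.Agent.P219.Fr2
import Vale.Agent.P219.MollA

/-!
Two local inequalities.
-/

open scoped ContDiff Topology ENNReal NNReal
open MeasureTheory Set Filter Metric

noncomputable section

namespace Vale.Agent.P219

variable {n k : ℕ} {b : ℝ}

theorem deng_A {A : Set (E n)} (hA : MeasurableSet A) {h : E n → ℝ} {x : E n} {r c : ℝ}
    (hb : ∀ p ∈ ball x r, |h p| ≤ c) (h0 : ∀ p, p ∉ ball x r → h p = 0) :
    |∫ p in A, h p| ≤ c * volume.real (A ∩ ball x r) := by
  rw [setIntegral_eq_of_subset_of_forall_sdiff_eq_zero hA (inter_subset_left (t := ball x r))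
    fun p hp => h0 p fun hh => hp.2 ⟨hp.1, hh⟩]
  rw [← Real.norm_eq_abs]
  exact norm_setIntegral_le_of_norm_le_const
    ((measure_mono inter_subset_right).trans_lt measure_ball_lt_top) fun p hp => hb p hp.2

theorem deng_V (W : Vf n) {h : E n × E n → ℝ} {x : E n} {r c : ℝ}
    (hb : ∀ z : E n × E n, z.1 ∈ closedBall x r → ‖z.2‖ = 1 → |h z| ≤ c)
    (h0 : ∀ z : E n × E n, z.1 ∉ closedBall x r → h z = 0) :
    |∫ z, h z ∂W.V| ≤ c * W.wt (closedBall x r) := by
  rw [← setIntegral_eq_integral_of_forall_compl_eq_zero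
    (s := {z : E n × E n | z.1 ∈ closedBall x r}) h0]
  rw [← Real.norm_eq_abs]
  refine norm_setIntegral_le_of_norm_le_const_ae' (measure_lt_top W.V _) ?_
  filter_upwards [W.supp] with z hz hz'
  exact hb z hz' hz.2

/-- The Euclidean frame. -/
def dengI (n : ℕ) : Frame n where
  F := fun _ => ContinuousLinearMap.id ℝ (E n)
  Fi := fun _ => ContinuousLinearMap.id ℝ (E n)
  sF := contDiff_const
  sFi := contDiff_const
  left := fun _ _ => rfl
  right := fun _ _ => rfl

theorem dengI_m (x : E n) : (dengI n).m x = 1 := by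
  have : (ContinuousLinearMap.id ℝ (E n)).det = 1 := LinearMap.det_id
  simp [Frame.m, dengI, this]

theorem dengI_dv (y : E n → E n) (x : E n) : (dengI n).dv y x = dive y x := by
  unfold Frame.dv
  simp only [dengI_m, one_smul]
  rfl

theorem dengI_tv (f : E n → ℝ) : (dengI n).tv f = ∫ x, ‖fderiv ℝ f x‖ := by
  unfold Frame.tv
  simp only [dengI_m, mul_one]
  refine integral_congr_ae (Eventually.of_forall fun x => ?_)
  simp only [Frame.gr, dengI, gradient, ContinuousLinearMap.adjoint_id]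
  simp

theorem deng_bdd {f : E n → ℝ} (hf : Continuous f) (x : E n) :
    ∃ C > 0, ∀ p ∈ closedBall x 1, |f p| ≤ C := by
  obtain ⟨C, hC⟩ := (isCompact_closedBall x 1).exists_bound_of_continuousOn hf.continuousOn
  exact ⟨max C 1, by positivity, fun p hp => (hC p hp).trans (le_max_left _ _)⟩

theorem deng_gns (hk : 1 ≤ k) : ∃ C > 0, ∀ (u : E (k + 1) → ℝ) (S : Set (E (k + 1))) (x : E (k + 1))
    (c : ℝ), Measurable u → (∀ p, |u p| ≤ 1) → (∀ p, 1 ≤ dist p x → u p = 0) → MeasurableSet S →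
    (∀ p ∈ S, u p = 1) → 0 ≤ c → (∀ j, ∫ q, ‖fderiv ℝ (moll j u) q‖ ≤ c) →
    volume.real S ^ ((k : ℝ) / (k + 1)) ≤ C * c := by
  have hk0 : (0 : ℝ) < k := by exact_mod_cast hk
  set p : ℝ≥0 := ⟨((k : ℝ) + 1) / k, by positivity⟩ with hp
  have hpc : (p : ℝ) = ((k : ℝ) + 1) / k := rfl
  have hconj : NNReal.HolderConjugate (Module.finrank ℝ (E (k + 1))) p := by
    rw [← NNReal.holderConjugate_coe_iff, Real.holderConjugate_iff, finrank_euclideanSpace_fin, hpc]
    push_cast
    refine ⟨by linarith, ?_⟩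
    field_simp
    ring
  set C := eLpNormLESNormFDerivOneConst (volume : Measure (E (k + 1))) p with hC
  refine ⟨C + 1, by positivity, fun u S x c hu hb h0 hS h1 hc hj => ?_⟩
  have hp0 : (p : ℝ≥0∞) ≠ 0 := by
    have : p ≠ 0 := fun h => by
      have h2 : (p : ℝ) = 0 := by rw [h]; rfl
      rw [hpc] at h2
      have : 0 < ((k : ℝ) + 1) / k := by positivity
      linarith
    exact_mod_cast this
  have b1 : ∀ j, eLpNorm (moll j u) p volume ≤ C * ENNReal.ofReal c := fun j => by
    have hs : ContDiff ℝ 1 (moll j u) := (moll_smooth hu hb j).of_le (by exact_mod_cast le_top)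
    have hcs : HasCompactSupport (moll j u) :=
      moll_cpt (c := x) (R := 1 + 1) fun q hq => moll_zero h0 j hq.le
    refine (eLpNorm_le_eLpNorm_fderiv_one volume hs hcs hconj).trans ?_
    gcongr
    rw [eLpNorm_one_eq_lintegral_enorm, ← ofReal_integral_norm_eq_lintegral_enorm
      ((hs.continuous_fderiv (by simp)).integrable_of_hasCompactSupport (hcs.fderiv ℝ))]
    exact ENNReal.ofReal_le_ofReal (hj j)
  have b2 : eLpNorm u p volume ≤ C * ENNReal.ofReal c :=
    Lp.eLpNorm_le_of_ae_tendsto (Eventually.of_forall b1)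
      (fun j => (moll_smooth hu hb j).continuous.aestronglyMeasurable) (moll_tendsto hu hb)
  have b3 : eLpNorm (S.indicator fun _ => (1 : ℝ)) p volume ≤ eLpNorm u p volume := by
    refine eLpNorm_mono fun q => ?_
    by_cases hq : q ∈ S
    · rw [indicator_of_mem hq, h1 q hq]
    · rw [indicator_of_notMem hq, norm_zero]
      exact norm_nonneg _
  rw [eLpNorm_indicator_const hS hp0 ENNReal.coe_ne_top] at b3
  have b4 := ENNReal.toReal_mono (ENNReal.mul_ne_top ENNReal.coe_ne_top ENNReal.ofReal_ne_top)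
    (b3.trans b2)
  have e1 : 1 / (p : ℝ≥0∞).toReal = (k : ℝ) / (k + 1) := by
    rw [ENNReal.coe_toReal, hpc]
    field_simp
  rw [e1, enorm_one, one_mul, ← ENNReal.toReal_rpow, ENNReal.toReal_mul, ENNReal.coe_toReal,
    ENNReal.toReal_ofReal hc] at b4
  change volume.real S ^ _ ≤ _ at b4
  linarith

namespace Frame

variable (Φ : Frame (k + 1)) {A : Set (E (k + 1))} {W : Vf (k + 1)}

theorem loc_gns (hk : 1 ≤ k) (hA : MeasurableSet A) {a : ℝ} (ha : |a| = 1) (hG : Φ.GGc A W a)
    (x : E (k + 1)) : ∃ C > 0, ∀ r : ℝ, 0 < r → r ≤ 1 →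
      volume.real (A ∩ ball x (r / 2)) ^ ((k : ℝ) / (k + 1)) ≤
        C * (W.wt (closedBall x r) + volume.real (A ∩ ball x r) / r) := by
  obtain ⟨C, hC, hgns⟩ := deng_gns hk
  obtain ⟨L, hL, hbump⟩ := exists_bump (n := k + 1)
  have hm : Continuous Φ.m := Φ.m_smooth.continuous
  have c1 : Continuous fun p => (Φ.m p)⁻¹ := hm.inv₀ fun p => (Φ.m_pos p).ne'
  have c2 : Continuous fun p => (Φ.m p)⁻¹ * ‖Φ.Fi p‖ := c1.mul Φ.sFi.continuous.norm
  obtain ⟨C₁, hC₁, hb₁⟩ := deng_bdd c2 x
  refine ⟨C * (C₁ + L), by positivity, fun r hr hr1 => ?_⟩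
  obtain ⟨ζ, hζ, hζc, hζs, hζ01, hζ1, hζd⟩ := hbump x r hr
  have hζ' : ContDiff ℝ 1 ζ := hζ.of_le (by exact_mod_cast le_top)
  have hζ0 : ∀ p, p ∉ ball x r → ζ p = 0 := fun p hp =>
    image_eq_zero_of_notMem_tsupport fun hh => hp (hζs hh)
  have hζa : ∀ p, |ζ p| ≤ 1 := fun p => by
    rw [abs_of_nonneg (hζ01 p).1]
    exact (hζ01 p).2
  set u : E (k + 1) → ℝ := A.indicator ζ with hu
  have hum : Measurable u := hζ.continuous.measurable.indicator hA
  have hub : ∀ p, |u p| ≤ 1 := fun p => by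
    by_cases hp : p ∈ A
    · rw [hu, indicator_of_mem hp]
      exact hζa p
    · rw [hu, indicator_of_notMem hp]
      simp
  have hu0 : ∀ p, 1 ≤ dist p x → u p = 0 := fun p hp => by
    have : ζ p = 0 := hζ0 p fun hh => by have := mem_ball.1 hh; linarith
    simp only [hu, indicator, this, ite_self]
  have hw0 : 0 ≤ W.wt (closedBall x r) := measureReal_nonneg
  have hv0 : 0 ≤ volume.real (A ∩ ball x r) := measureReal_nonneg
  have key := hgns u (A ∩ ball x (r / 2)) x
    (C₁ * W.wt (closedBall x r) + L / r * volume.real (A ∩ ball x r)) hum hub hu0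
    (hA.inter measurableSet_ball)
    (fun p hp => by rw [hu, indicator_of_mem hp.1]; exact hζ1 p (ball_subset_closedBall hp.2))
    (by positivity) fun j => by
      rw [← dengI_tv]
      refine moll_tv_le _ (moll_smooth hum hub j) (c₀ := x) (R := 1 + 1)
        (fun p hp => moll_zero hu0 j hp.le) fun y hy hy1 hy0 => ?_
      refine moll_dual hum hub j ((dengI _).cont_dv hy) (moll_cpt (moll_dv_zero _ hy0))
        fun t _ => ?_
      set Y : E (k + 1) → E (k + 1) := fun p => y (p + t) with hY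
      have hYc : ContDiff ℝ 1 Y := hy.comp (contDiff_id.add contDiff_const)
      have hZc : ContDiff ℝ 1 fun p => ζ p • Y p := hζ'.smul hYc
      have hZs : HasCompactSupport fun p => ζ p • Y p := hζc.smul_right
      have hWs : HasCompactSupport fun p => (Φ.m p)⁻¹ • Φ.Fi p (ζ p • Y p) :=
        HasCompactSupport.intro hζc fun p hp => by
          rw [image_eq_zero_of_notMem_tsupport hp]
          simp
      have g1 := hG _ (Φ.contDiff_coord hZc) hWs
      simp only [Φ.dv_coord (fun p => ζ p • Y p)] at g1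
      have g2 : |∫ z, inner ℝ ((Φ.m z.1)⁻¹ • Φ.Fi z.1 (ζ z.1 • Y z.1)) z.2 ∂W.V| ≤
          C₁ * W.wt (closedBall x r) := by
        refine deng_V W (fun z hz hz2 => ?_) fun z hz => ?_
        · refine (abs_real_inner_le_norm _ _).trans ?_
          have h1 := hb₁ z.1 (closedBall_subset_closedBall hr1 hz)
          have h2 : ‖ζ z.1 • Y z.1‖ ≤ 1 := by
            rw [norm_smul]
            exact mul_le_one₀ (hζa _) (norm_nonneg _) (hy1 _)
          have h3 : ‖Φ.Fi z.1 (ζ z.1 • Y z.1)‖ ≤ ‖Φ.Fi z.1‖ :=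
            ((Φ.Fi z.1).le_opNorm _).trans (mul_le_of_le_one_right (norm_nonneg _) h2)
          have h4 : 0 < (Φ.m z.1)⁻¹ := inv_pos.2 (Φ.m_pos _)
          rw [hz2, mul_one, norm_smul, Real.norm_eq_abs, abs_of_pos h4]
          exact (mul_le_mul_of_nonneg_left h3 h4.le).trans ((le_abs_self _).trans h1)
        · rw [hζ0 z.1 fun hh => hz (ball_subset_closedBall hh)]
          simp
      have g3 : |∫ p in A, fderiv ℝ ζ p (Y p)| ≤ L / r * volume.real (A ∩ ball x r) := by
        refine deng_A hA (fun p _ => ?_) fun p hp => ?_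
        · exact ((fderiv ℝ ζ p).le_opNorm _).trans
            ((mul_le_of_le_one_right (norm_nonneg _) (hy1 _)).trans (hζd p))
        · rw [fderiv_of_notMem_tsupport ℝ fun hh => hp (hζs hh)]
          rfl
      have i1 : Integrable (dive fun p => ζ p • Y p) :=
        (cont_dive hZc).integrable_of_hasCompactSupport
          (HasCompactSupport.intro hZs fun p hp => by
            unfold dive
            rw [fderiv_of_notMem_tsupport ℝ hp]
            simp [tr])
      have i2 : Integrable fun p => fderiv ℝ ζ p (Y p) :=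
        ((hζ'.continuous_fderiv (by simp)).clm_apply hYc.continuous).integrable_of_hasCompactSupport
          (HasCompactSupport.intro hζc fun p hp => by
            rw [fderiv_of_notMem_tsupport ℝ hp]
            rfl)
      have e1 : ∀ p, u p * (dengI (k + 1)).dv y (p + t) =
          A.indicator (fun p => dive (fun p => ζ p • Y p) p - fderiv ℝ ζ p (Y p)) p := fun p => by
        by_cases hp : p ∈ A
        · rw [hu, indicator_of_mem hp, indicator_of_mem hp, dengI_dv,
            dive_smul (hζ'.differentiable (by simp) p) (hYc.differentiable (by simp) p), hY,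
            moll_dive_shift]
          ring
        · rw [hu, indicator_of_notMem hp, indicator_of_notMem hp, zero_mul]
      simp_rw [e1]
      rw [integral_indicator hA, integral_sub i1.integrableOn i2.integrableOn, g1]
      have g4 := le_abs_self
        (a * ∫ z, inner ℝ ((Φ.m z.1)⁻¹ • Φ.Fi z.1 (ζ z.1 • Y z.1)) z.2 ∂W.V)
      rw [abs_mul, ha, one_mul] at g4
      have g5 := neg_abs_le (∫ p in A, fderiv ℝ ζ p (Y p))
      linarith
  refine key.trans ?_
  rw [mul_assoc]
  refine mul_le_mul_of_nonneg_left ?_ hC.le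
  have h1 : 0 ≤ volume.real (A ∩ ball x r) / r := by positivity
  have h2 : L / r * volume.real (A ∩ ball x r) = L * (volume.real (A ∩ ball x r) / r) := by ring
  rw [h2]
  nlinarith [mul_nonneg hL.le hw0, mul_nonneg hC₁.le h1]

theorem loc_mass (hA : MeasurableSet A) {a : ℝ} (ha : |a| = 1) (hG : Φ.GGc A W a)
    (x : E (k + 1)) {e : E (k + 1)} (he : ‖e‖ = 1) : ∃ C > 0, ∀ r : ℝ, 0 < r → r ≤ 1 →
      W.wt (closedBall x (r / 2)) ≤ C * (volume.real (A ∩ ball x r) / r) +
        ∫ w in {w : E (k + 1) × E (k + 1) | w.1 ∈ closedBall x r}, ‖w.2 - e‖ ∂W.V := by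
  obtain ⟨L, hL, hbump⟩ := exists_bump (n := k + 1)
  have hm : Continuous Φ.m := Φ.m_smooth.continuous
  obtain ⟨C₁, hC₁, hb₁⟩ := deng_bdd (Φ.cont_dv (y := fun _ => e) contDiff_const) x
  have c2 : Continuous fun p => Φ.m p * ‖Φ.F p e‖ :=
    hm.mul (Φ.sF.continuous.clm_apply continuous_const).norm
  obtain ⟨C₂, hC₂, hb₂⟩ := deng_bdd c2 x
  refine ⟨C₁ + C₂ * L, by positivity, fun r hr hr1 => ?_⟩
  obtain ⟨ζ, hζ, hζc, hζs, hζ01, hζ1, hζd⟩ := hbump x r hr
  have hζ' : ContDiff ℝ 1 ζ := hζ.of_le (by exact_mod_cast le_top)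
  have hζ0 : ∀ p, p ∉ ball x r → ζ p = 0 := fun p hp =>
    image_eq_zero_of_notMem_tsupport fun hh => hp (hζs hh)
  have g1 := hG (fun p => ζ p • e) (hζ'.smul contDiff_const) hζc.smul_right
  have e1 : ∀ p, Φ.dv (fun p => ζ p • e) p =
      ζ p * Φ.dv (fun _ => e) p + Φ.m p * fderiv ℝ ζ p (Φ.F p e) := fun p => by
    rw [Φ.dv_smul (hζ'.differentiable (by simp) p) (differentiableAt_const e), Φ.inner_gr]
  have g2 : |∫ p in A, Φ.dv (fun p => ζ p • e) p| ≤
      (C₁ + C₂ * L) / r * volume.real (A ∩ ball x r) := by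
    refine deng_A hA (fun p hp => ?_) fun p hp => ?_
    · have hp1 : p ∈ closedBall x 1 := ball_subset_closedBall (ball_subset_ball hr1 hp)
      have h1 : |ζ p * Φ.dv (fun _ => e) p| ≤ C₁ / r := by
        rw [abs_mul, abs_of_nonneg (hζ01 p).1]
        have h2 := mul_le_of_le_one_left (abs_nonneg (Φ.dv (fun _ => e) p)) (hζ01 p).2
        have h3 : C₁ ≤ C₁ / r := by
          rw [le_div_iff₀ hr]
          nlinarith
        linarith [hb₁ p hp1]
      have h2 : |Φ.m p * fderiv ℝ ζ p (Φ.F p e)| ≤ C₂ * L / r := by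
        rw [abs_mul, abs_of_pos (Φ.m_pos p)]
        have h3 : |fderiv ℝ ζ p (Φ.F p e)| ≤ L / r * ‖Φ.F p e‖ :=
          ((fderiv ℝ ζ p).le_opNorm _).trans (mul_le_mul_of_nonneg_right (hζd p) (norm_nonneg _))
        have h4 := (le_abs_self _).trans (hb₂ p hp1)
        calc Φ.m p * |fderiv ℝ ζ p (Φ.F p e)| ≤ Φ.m p * (L / r * ‖Φ.F p e‖) :=
              mul_le_mul_of_nonneg_left h3 (Φ.m_pos p).le
          _ = (Φ.m p * ‖Φ.F p e‖) * (L / r) := by ring
          _ ≤ C₂ * (L / r) := by gcongr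
          _ = C₂ * L / r := by ring
      rw [e1, add_div]
      exact (abs_add_le _ _).trans (add_le_add h1 h2)
    · rw [e1, hζ0 p hp, fderiv_of_notMem_tsupport ℝ fun hh => hp (hζs hh)]
      simp
  rw [g1, abs_mul, ha, one_mul] at g2
  have hS : ∀ s, MeasurableSet {w : E (k + 1) × E (k + 1) | w.1 ∈ closedBall x s} := fun s =>
    measurableSet_closedBall.preimage measurable_fst
  have i1 : Integrable (fun z : E (k + 1) × E (k + 1) => inner ℝ (ζ z.1 • e) z.2) W.V :=
    W.integrable (((hζ.continuous.comp continuous_fst).smul continuous_const).inner continuous_snd)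
  have i2 : Integrable (fun z : E (k + 1) × E (k + 1) => ‖z.2 - e‖) W.V :=
    W.integrable (continuous_snd.sub continuous_const).norm
  have g3 : W.wt (closedBall x (r / 2)) ≤ ∫ z, (inner ℝ (ζ z.1 • e) z.2 +
      {w : E (k + 1) × E (k + 1) | w.1 ∈ closedBall x r}.indicator (fun w => ‖w.2 - e‖) z) ∂W.V := by
    unfold Vf.wt
    rw [← integral_indicator_one (hS _)]
    refine integral_mono ((integrable_const (1 : ℝ)).indicator (hS _)) (i1.add (i2.indicator (hS _)))
      fun z => ?_
    have h1 : inner ℝ e (e - z.2) ≤ ‖z.2 - e‖ := by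
      refine (real_inner_le_norm _ _).trans ?_
      rw [he, one_mul, norm_sub_rev]
    rw [inner_sub_right, real_inner_self_eq_norm_sq, he] at h1
    have h2 : {w : E (k + 1) × E (k + 1) | w.1 ∈ closedBall x (r / 2)}.indicator 1 z ≤ ζ z.1 := by
      by_cases hz : z ∈ {w : E (k + 1) × E (k + 1) | w.1 ∈ closedBall x (r / 2)}
      · rw [indicator_of_mem hz, hζ1 _ hz]
        rfl
      · rw [indicator_of_notMem hz]
        exact (hζ01 _).1
    refine h2.trans ?_
    change ζ z.1 ≤ inner ℝ (ζ z.1 • e) z.2 +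
      {w : E (k + 1) × E (k + 1) | w.1 ∈ closedBall x r}.indicator (fun w => ‖w.2 - e‖) z
    rw [real_inner_smul_left]
    by_cases hz : z ∈ {w : E (k + 1) × E (k + 1) | w.1 ∈ closedBall x r}
    · rw [indicator_of_mem hz]
      have h3 := hζ01 z.1
      have h4 := norm_nonneg (z.2 - e)
      nlinarith [mul_le_mul_of_nonneg_left h1 h3.1, mul_le_of_le_one_left h4 h3.2]
    · rw [indicator_of_notMem hz, hζ0 z.1 fun hh => hz (ball_subset_closedBall hh)]
      simp
  rw [integral_add i1 (i2.indicator (hS _)), integral_indicator (hS _)] at g3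
  have g4 := le_abs_self (∫ z : E (k + 1) × E (k + 1), inner ℝ (ζ z.1 • e) z.2 ∂W.V)
  have e2 : (C₁ + C₂ * L) / r * volume.real (A ∩ ball x r) =
      (C₁ + C₂ * L) * (volume.real (A ∩ ball x r) / r) := by ring
  linarith

end Frame


end Vale.Agent.P219
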