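import Vale.Agent.P219.Ge2

/-!
Upper density bounds.
-/

open scoped ContDiff Topology ENNReal
open MeasureTheory Set Filter Metric

noncomputable section

namespace Vale.Agent.P219

variable {n k : ℕ} {b : ℝ}

theorem dens_alg {k m t s a G H u : ℝ} (hm : 0 ≤ m) (hmk : 2 * m ≤ k) (ht : 0 < t) (hs : 0 ≤ s)
    (ha : 0 ≤ a) (hu : 0 ≤ u) (hG : G ≤ 2 * s + a * s ^ 2) (hH : k * (1 + a * s) ≤ H) :
    (k - 2 * m) * (u * (t ^ 2 + 2 * s)) + 2 * m * (t ^ 2 * u) ≤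
      u * (t ^ 2 + 2 * s) * H + 2 * -m * u * G := by
  have h1 : u * (t ^ 2 + 2 * s) * (k * (1 + a * s)) ≤ u * (t ^ 2 + 2 * s) * H :=
    mul_le_mul_of_nonneg_left hH (by positivity)
  have h2 : 2 * m * u * G ≤ 2 * m * u * (2 * s + a * s ^ 2) :=
    mul_le_mul_of_nonneg_left hG (by positivity)
  have h3 : 0 ≤ u * a * s * (k * t ^ 2) := by
    have : 0 ≤ k := by linarith
    positivity
  have h4 : 0 ≤ u * a * s ^ 2 * (k - m) := by
    have : 0 ≤ k - m := by linarith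
    positivity
  nlinarith

theorem dens_rp {D : ℝ} (hD : 0 < D) (j : ℕ) : D ^ (-((j : ℝ) / 2)) = 1 / √D ^ j := by
  rw [Real.rpow_neg hD.le, one_div, Real.sqrt_eq_rpow, ← Real.rpow_natCast, ← Real.rpow_mul hD.le]
  congr 2
  ring

theorem dens_rp2 {D : ℝ} (hD : 0 < D) : D ^ (-((k + 2 : ℝ) / 2)) = 1 / √D ^ (k + 2) := by
  rw [← dens_rp hD]
  push_cast
  rfl

theorem dens_shell {α : Type*} {j : ℕ} (hj : j ≠ 0) {s r : ℝ} (hs : 0 ≤ s) (hr : 0 < r)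
    (S : ℕ → Set α) (w : α) (hw : ∀ i, s ≤ (r / 2 ^ i) ^ 2 → w ∈ S i) :
    ENNReal.ofReal (s ^ (-((((j + 1 : ℕ) : ℝ) - 1) / 2))) ≤ ENNReal.ofReal (1 / r ^ j) +
      ∑' i : ℕ, (S i).indicator (fun _ => ENNReal.ofReal ((2 ^ (i + 1) / r) ^ j)) w := by
  rw [Nat.cast_succ, add_sub_cancel_right]
  rcases hs.eq_or_lt with rfl | hs0
  · rw [Real.zero_rpow (neg_ne_zero.2 (by positivity)), ENNReal.ofReal_zero]
    exact zero_le
  have hu := Real.sqrt_pos.2 hs0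
  rw [dens_rp hs0]
  rcases le_total r (√s) with h1 | h1
  · exact le_add_right (ENNReal.ofReal_le_ofReal
      (one_div_le_one_div_of_le (by positivity) (pow_le_pow_left₀ hr.le h1 j)))
  · obtain ⟨i, h2, h3⟩ := exists_nat_pow_near ((one_le_div hu).2 h1) one_lt_two
    refine le_add_left (le_trans ?_ (ENNReal.le_tsum i))
    rw [indicator_of_mem (hw i ?_), ← one_div_pow]
    · refine ENNReal.ofReal_le_ofReal (pow_le_pow_left₀ (by positivity) ?_ j)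
      rw [div_lt_iff₀ hu] at h3
      rw [div_le_div_iff₀ hu hr]
      linarith
    · rw [← Real.sq_sqrt hs]
      refine pow_le_pow_left₀ hu.le ?_ 2
      rw [le_div_iff₀ hu] at h2
      rw [le_div_iff₀ (by positivity)]
      linarith

namespace Geo

variable (Γ : Geo (k + 1) b) {W : Vf (k + 1)} {h : ℝ} {γ : E (k + 1) → ℝ} {K : Set (E (k + 1))}

theorem dens_pos (x y : E (k + 1)) {t : ℝ} (ht : 0 < t) : 0 < t ^ 2 + 2 * Γ.σ x y := by
  have := Γ.nonneg x y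
  positivity

theorem dens_sm (x : E (k + 1)) {t : ℝ} (ht : 0 < t) (p : ℝ) :
    ContDiff ℝ 1 fun y => (t ^ 2 + 2 * Γ.σ x y) ^ p :=
  ContDiff.rpow_const_of_ne
    (contDiff_const.add (contDiff_const.mul ((Γ.sm x).of_le (by exact_mod_cast le_top))))
    fun y => (Γ.dens_pos x y ht).ne'

theorem dens_cont (x : E (k + 1)) {t : ℝ} (ht : 0 < t) (p : ℝ) :
    Continuous fun w : E (k + 1) × E (k + 1) => (t ^ 2 + 2 * Γ.σ x w.1) ^ p :=
  (Γ.dens_sm x ht p).continuous.comp continuous_fst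

theorem dens_h (hF : Γ.FV W h γ) : 0 ≤ h := (abs_nonneg _).trans (hF.bound 0)

theorem dens_key (hF : Γ.FV W h γ) {x : E (k + 1)} {C m t : ℝ} (hC0 : 0 ≤ C)
    (hC : ∀ y ∈ W.K, ‖Γ.gr (Γ.σ x) y‖ ≤ C * √(Γ.σ x y)) (hm : 0 ≤ m) (hmk : 2 * m ≤ k)
    (ht : 0 < t) :
    (k - 2 * m) * ∫ w, (t ^ 2 + 2 * Γ.σ x w.1) ^ (-m) ∂W.V +
      2 * m * ∫ w, t ^ 2 * (t ^ 2 + 2 * Γ.σ x w.1) ^ (-m - 1) ∂W.V ≤
      k * (h * C * ∫ w, (t ^ 2 + 2 * Γ.σ x w.1) ^ (-m + 1 / 2) ∂W.V) := by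
  have h1 := Γ.fv_σ hF x (Γ.dens_sm x ht (-m))
  have c1 := Γ.dens_cont x ht (-m)
  have c2 := Γ.dens_cont x ht (-m - 1)
  have c3 := Γ.dens_cont x ht (-m + 1 / 2)
  have hσ : ContDiff ℝ 1 (Γ.σ x) := (Γ.sm x).of_le (by exact_mod_cast le_top)
  rw [← integral_const_mul, ← integral_const_mul, ← integral_add
    ((W.integrable c1).const_mul _) (((W.integrable c2).const_mul _).const_mul _),
    ← integral_const_mul]
  refine le_trans (W.integral_mono ((continuous_const.mul c1).add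
    (continuous_const.mul (continuous_const.mul c2))) ((c1.fun_mul (Γ.cont_Hs x)).fun_add
    ((Γ.cont_gt (Γ.dens_sm x ht (-m))).inner (Γ.cont_gt hσ))) fun z _ hz => ?_)
    (h1.le.trans (mul_le_mul_of_nonneg_left (W.integral_mono
      ((hF.cont.comp' continuous_fst).fun_mul (c1.fun_mul (Γ.cont_pn x))) (c3.const_mul _)
      fun z hz1 hz => ?_) (Nat.cast_nonneg k)))
  · have hD := Γ.dens_pos x z.1 ht
    have hd : HasDerivAt (fun s : ℝ => (t ^ 2 + 2 * s) ^ (-m))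
        (2 * -m * (t ^ 2 + 2 * Γ.σ x z.1) ^ (-m - 1)) (Γ.σ x z.1) :=
      (((hasDerivAt_const_mul (2 : ℝ)).const_add (t ^ 2)).rpow_const (Or.inl hD.ne'))
    have he : (t ^ 2 + 2 * Γ.σ x z.1) ^ (-m) =
        (t ^ 2 + 2 * Γ.σ x z.1) ^ (-m - 1) * (t ^ 2 + 2 * Γ.σ x z.1) := by
      rw [Real.rpow_sub_one hD.ne', div_mul_cancel₀ _ hD.ne']
    rw [Γ.gt_comp hd (Γ.diff x z.1), real_inner_smul_left, real_inner_self_eq_norm_sq, he]
    refine dens_alg hm hmk ht (Γ.nonneg x z.1) (sq_nonneg b) (Real.rpow_nonneg hD.le _) ?_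
      (Γ.Hs_lower x hz)
    rw [Γ.norm_gt_σ x hz]
    exact sub_le_self _ (sq_nonneg _)
  · have hD := Γ.dens_pos x z.1 ht
    have h2 : √(Γ.σ x z.1) ≤ (t ^ 2 + 2 * Γ.σ x z.1) ^ (1 / 2 : ℝ) := by
      rw [← Real.sqrt_eq_rpow]
      exact Real.sqrt_le_sqrt (by nlinarith [Γ.nonneg x z.1])
    have h3 := ((Γ.abs_pn_le x hz).trans (hC _ hz1)).trans (mul_le_mul_of_nonneg_left h2 hC0)
    have h4 := Real.rpow_nonneg hD.le (-m)
    refine (le_abs_self _).trans ?_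
    rw [abs_mul, abs_mul, abs_of_nonneg h4, Real.rpow_add hD]
    refine (mul_le_mul (hF.bound _) (mul_le_mul_of_nonneg_left h3 h4) (by positivity)
      (Γ.dens_h hF)).trans (le_of_eq (by ring))

theorem dens_ind (hF : Γ.FV W h γ) (hK : IsCompact K) (j : ℕ) (hj : j < k) :
    ∃ C > 0, ∀ x ∈ K, ∀ t > 0, ∫ w, (t ^ 2 + 2 * Γ.σ x w.1) ^ (-((j : ℝ) / 2)) ∂W.V ≤ C := by
  induction j with
  | zero =>
    refine ⟨W.V.real univ + 1, by positivity, fun x _ t _ => ?_⟩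
    simp
  | succ j ih =>
    obtain ⟨C, hC, ih⟩ := ih (by omega)
    obtain ⟨C0, hC0, h0⟩ := Γ.grad_le (hK.union W.cpt)
    have hh := Γ.dens_h hF
    refine ⟨k * (h * C0 * C) + 1, by positivity, fun x hx t ht => ?_⟩
    have hjk : ((j + 1 : ℕ) : ℝ) + 1 ≤ k := by exact_mod_cast hj
    have h1 := Γ.dens_key hF (m := ((j + 1 : ℕ) : ℝ) / 2) hC0.le
      (fun y hy => h0 x (Or.inl hx) y (Or.inr hy)) (by positivity) (by linarith) ht
    have h2 : -(((j + 1 : ℕ) : ℝ) / 2) + 1 / 2 = -((j : ℝ) / 2) := by push_cast; ring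
    rw [h2] at h1
    have h3 : 0 ≤ ∫ w, (t ^ 2 + 2 * Γ.σ x w.1) ^ (-(((j + 1 : ℕ) : ℝ) / 2)) ∂W.V :=
      integral_nonneg fun w => Real.rpow_nonneg (Γ.dens_pos x w.1 ht).le _
    have h4 : 0 ≤ ∫ w, t ^ 2 * (t ^ 2 + 2 * Γ.σ x w.1) ^ (-(((j + 1 : ℕ) : ℝ) / 2) - 1) ∂W.V :=
      integral_nonneg fun w =>
        mul_nonneg (sq_nonneg t) (Real.rpow_nonneg (Γ.dens_pos x w.1 ht).le _)
    have h5 := mul_le_mul_of_nonneg_left (mul_le_mul_of_nonneg_left (ih x hx t ht)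
      (mul_nonneg hh hC0.le)) (Nat.cast_nonneg (α := ℝ) k)
    have h6 := mul_nonneg (by positivity : 0 ≤ 2 * (((j + 1 : ℕ) : ℝ) / 2)) h4
    have h7 := le_mul_of_one_le_left h3
      (by linarith : (1 : ℝ) ≤ k - 2 * (((j + 1 : ℕ) : ℝ) / 2))
    linarith

theorem dens (hk : 3 ≤ k) (hF : Γ.FV W h γ) (hK : IsCompact K) : ∃ C > 0, ∀ x ∈ K, ∀ t > 0,
    ∫ w, t ^ 2 * (t ^ 2 + 2 * Γ.σ x w.1) ^ (-((k + 2 : ℝ) / 2)) ∂W.V ≤ C := by
  obtain ⟨C, hC, ih⟩ := Γ.dens_ind hF hK (k - 1) (by omega)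
  obtain ⟨C0, hC0, h0⟩ := Γ.grad_le (hK.union W.cpt)
  have hh := Γ.dens_h hF
  refine ⟨h * C0 * C + 1, by positivity, fun x hx t ht => ?_⟩
  have h1 := Γ.dens_key hF (m := (k : ℝ) / 2) hC0.le
    (fun y hy => h0 x (Or.inl hx) y (Or.inr hy)) (by positivity) (by linarith) ht
  have h2 : -((k : ℝ) / 2) + 1 / 2 = -(((k - 1 : ℕ) : ℝ) / 2) := by
    rw [Nat.cast_sub (by omega)]
    push_cast
    ring
  have h3 : -((k : ℝ) / 2) - 1 = -((k + 2 : ℝ) / 2) := by ring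
  have h4 : 2 * ((k : ℝ) / 2) = k := by ring
  rw [h2, h3, h4, sub_self, zero_mul, zero_add] at h1
  have h5 := le_of_mul_le_mul_left h1 (Nat.cast_pos.2 (by omega))
  have h6 := mul_le_mul_of_nonneg_left (ih x hx t ht) (mul_nonneg hh hC0.le)
  linarith

theorem dens_ball (hk : 3 ≤ k) (hF : Γ.FV W h γ) (hK : IsCompact K) :
    ∃ C > 0, ∀ x ∈ K, ∀ t > 0, W.V.real {w | Γ.σ x w.1 ≤ t ^ 2} ≤ C * t ^ k := by
  obtain ⟨C, hC, h0⟩ := Γ.dens hk hF hK
  refine ⟨C * 2 ^ (k + 2), by positivity, fun x hx t ht => ?_⟩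
  have h1 := mul_meas_ge_le_integral_of_nonneg (μ := W.V)
    (f := fun w => t ^ 2 * (t ^ 2 + 2 * Γ.σ x w.1) ^ (-((k + 2 : ℝ) / 2)))
    (Eventually.of_forall fun w =>
      mul_nonneg (sq_nonneg t) (Real.rpow_nonneg (Γ.dens_pos x w.1 ht).le _))
    ((W.integrable (Γ.dens_cont x ht _)).const_mul _) (t ^ 2 * (1 / (2 * t) ^ (k + 2)))
  have h2 : W.V.real {w | Γ.σ x w.1 ≤ t ^ 2} ≤ W.V.real {w | t ^ 2 * (1 / (2 * t) ^ (k + 2)) ≤
      t ^ 2 * (t ^ 2 + 2 * Γ.σ x w.1) ^ (-((k + 2 : ℝ) / 2))} := by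
    refine measureReal_mono fun w hw => mul_le_mul_of_nonneg_left ?_ (sq_nonneg t)
    have hD := Γ.dens_pos x w.1 ht
    have hw' : Γ.σ x w.1 ≤ t ^ 2 := hw
    rw [dens_rp2 hD]
    refine one_div_le_one_div_of_le (pow_pos (Real.sqrt_pos.2 hD) _)
      (pow_le_pow_left₀ (Real.sqrt_nonneg _) (Real.sqrt_le_iff.2 ⟨by positivity, ?_⟩) _)
    nlinarith
  have h3 := (mul_le_mul_of_nonneg_left h2 (by positivity)).trans (h1.trans (h0 x hx t ht))
  rw [mul_one_div, div_mul_eq_mul_div, div_le_iff₀ (by positivity)] at h3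
  refine le_of_mul_le_mul_left (h3.trans (le_of_eq (by ring))) (pow_pos ht 2)

theorem dens_lam (hk : 3 ≤ k) (hF : Γ.FV W h γ) (hK : IsCompact K) :
    ∃ C > 0, ∀ x ∈ K, ∀ t > 0, ∫ w, lam (Γ.σ x w.1) t ^ k ∂W.V ≤ C := by
  obtain ⟨C, hC, h0⟩ := Γ.dens hk hF hK
  refine ⟨2 ^ k * C, by positivity, fun x hx t ht => ?_⟩
  refine le_trans ?_ (mul_le_mul_of_nonneg_left (h0 x hx t ht) (by positivity))
  rw [← integral_const_mul]
  refine W.integral_mono (((Γ.cont_lam x ht).continuous.comp continuous_fst).pow k)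
    (continuous_const.mul (continuous_const.mul (Γ.dens_cont x ht _))) fun z _ _ => ?_
  have hD := Γ.dens_pos x z.1 ht
  have hs := Γ.nonneg x z.1
  rw [dens_rp2 hD, lam]
  have h1 : t ≤ √(t ^ 2 + 2 * Γ.σ x z.1) := Real.le_sqrt_of_sq_le (by linarith)
  have h2 := Real.sq_sqrt hD.le
  generalize √(t ^ 2 + 2 * Γ.σ x z.1) = u at h1 h2
  obtain ⟨j, rfl⟩ : ∃ j, k = j + 2 := ⟨k - 2, by omega⟩
  have hu : 0 < u := ht.trans_le h1
  have h3 : t ^ j ≤ u ^ j := pow_le_pow_left₀ ht.le h1 j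
  rw [← h2, div_pow, mul_one_div, ← mul_div_assoc, div_le_div_iff₀ (by positivity) (by positivity)]
  refine le_trans (le_of_eq (by ring)) ((mul_le_mul_of_nonneg_left h3
    (by positivity : 0 ≤ 2 ^ (j + 2) * t ^ 2 * u ^ (j + 4))).trans (le_of_eq (by ring)))

theorem dens_tail (hk : 3 ≤ k) (hF : Γ.FV W h γ) (hK : IsCompact K) :
    ∃ C > 0, ∀ x ∈ K, ∀ t > 0, ∀ R ≥ 1,
      ∫ w in {w | (R * t) ^ 2 < Γ.σ x w.1}, lam (Γ.σ x w.1) t ^ k ∂W.V ≤ C / R ^ k := by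
  obtain ⟨C, hC, h0⟩ := Γ.dens_lam hk hF hK
  refine ⟨2 ^ k * C, by positivity, fun x hx t ht R hR => ?_⟩
  have hR0 : 0 < R := one_pos.trans_le hR
  have hT : 0 < R * t := mul_pos hR0 ht
  have c0 : Continuous fun w : E (k + 1) × E (k + 1) => Γ.σ x w.1 :=
    (Γ.sm x).continuous.comp continuous_fst
  have i1 := W.integrable (((Γ.cont_lam x ht).continuous.comp continuous_fst).pow k)
  have i2 := (W.integrable (((Γ.cont_lam x hT).continuous.comp continuous_fst).pow k)).const_mul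
    ((2 / R) ^ k)
  refine (setIntegral_mono_on i1.integrableOn i2.integrableOn
    (isOpen_lt continuous_const c0).measurableSet fun w hw => ?_).trans
    ((setIntegral_le_integral i2 (Eventually.of_forall fun w => mul_nonneg (by positivity)
      (pow_nonneg (lam_pos (Γ.nonneg x w.1) hT).le k))).trans ?_)
  · have hw' : (R * t) ^ 2 < Γ.σ x w.1 := hw
    have hs := Γ.nonneg x w.1
    show lam (Γ.σ x w.1) t ^ k ≤ (2 / R) ^ k * lam (Γ.σ x w.1) (R * t) ^ k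
    rw [← mul_pow]
    refine pow_le_pow_left₀ (lam_pos hs ht).le ?_ k
    rw [lam, lam, div_mul_div_comm, div_le_div_iff₀ (by positivity) (by positivity)]
    have := mul_le_mul_of_nonneg_left (by nlinarith : (R * t) ^ 2 + 2 * Γ.σ x w.1 ≤
      2 * (t ^ 2 + 2 * Γ.σ x w.1)) (by positivity : 0 ≤ 2 * (R * t))
    nlinarith
  · rw [integral_const_mul, div_pow, mul_div_right_comm]
    exact mul_le_mul_of_nonneg_left (h0 x hx _ hT) (by positivity)

theorem dens_ker (hk : 3 ≤ k) (hF : Γ.FV W h γ) (hK : IsCompact K) :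
    ∃ C > 0, ∀ x ∈ K, ∀ A : Set (E (k + 1) × E (k + 1)), MeasurableSet A →
      ∫⁻ w in A, ENNReal.ofReal (Γ.σ x w.1 ^ (-((k - 1 : ℝ) / 2))) ∂W.V ≤
        ENNReal.ofReal (C * W.V.real A ^ (1 / k : ℝ)) := by
  obtain ⟨C, hC, h0⟩ := Γ.dens_ball hk hF hK
  refine ⟨1 + C * 2 ^ k, by positivity, fun x hx A hA => ?_⟩
  by_cases hA0 : W.V A = 0
  · rw [setLIntegral_measure_zero _ _ hA0]
    exact zero_le
  have h1 : 0 < W.V.real A := ENNReal.toReal_pos hA0 (measure_ne_top _ _)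
  obtain ⟨r, hr⟩ : ∃ r, r = W.V.real A ^ (1 / k : ℝ) := ⟨_, rfl⟩
  have hr0 : 0 < r := hr ▸ Real.rpow_pos_of_pos h1 _
  have h2 : W.V A = ENNReal.ofReal (r ^ k) := by
    rw [hr, one_div, Real.rpow_inv_natCast_pow h1.le (by omega), ofReal_measureReal]
  have c0 : Continuous fun w : E (k + 1) × E (k + 1) => Γ.σ x w.1 :=
    (Γ.sm x).continuous.comp continuous_fst
  have hm : ∀ i : ℕ, MeasurableSet {w : E (k + 1) × E (k + 1) | Γ.σ x w.1 ≤ (r / 2 ^ i) ^ 2} :=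
    fun i => (isClosed_le c0 continuous_const).measurableSet
  obtain ⟨j, rfl⟩ : ∃ j, k = j + 1 := ⟨k - 1, by omega⟩
  rw [← hr]
  refine (lintegral_mono fun w : E (j + 1 + 1) × E (j + 1 + 1) =>
    dens_shell (j := j) (by omega) (Γ.nonneg x w.1) hr0
    (fun i => {v : E (j + 1 + 1) × E (j + 1 + 1) | Γ.σ x v.1 ≤ (r / 2 ^ i) ^ 2}) w
    fun i hi => hi).trans ?_
  rw [lintegral_add_left measurable_const, lintegral_const, Measure.restrict_apply_univ, h2,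
    lintegral_tsum fun i => (measurable_const.indicator (hm i)).aemeasurable, add_mul,
    ENNReal.ofReal_add (by positivity) (by positivity), ← ENNReal.ofReal_mul (by positivity)]
  refine add_le_add (le_of_eq (congrArg _ (by field_simp; ring))) ?_
  have h3 : HasSum (fun i : ℕ => C * 2 ^ j * r * (1 / 2) ^ i) (C * 2 ^ j * r * 2) :=
    hasSum_geometric_two.mul_left _
  have h4 : C * 2 ^ (j + 1) * r = ∑' i : ℕ, C * 2 ^ j * r * (1 / 2) ^ i := by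
    rw [h3.tsum_eq]
    ring
  rw [h4, ENNReal.ofReal_tsum_of_nonneg (fun i => by positivity) h3.summable]
  refine ENNReal.tsum_le_tsum fun i => ?_
  rw [lintegral_indicator_const (hm i)]
  refine (mul_le_mul_right (Measure.restrict_apply_le _ _) _).trans ?_
  rw [← ofReal_measureReal, ← ENNReal.ofReal_mul (by positivity)]
  refine ENNReal.ofReal_le_ofReal ((mul_le_mul_of_nonneg_left (h0 x hx _ (by positivity))
    (by positivity)).trans (le_of_eq ?_))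
  simp only [div_pow, ← pow_mul]
  field_simp
  ring

end Geo


end Vale.Agent.P219
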