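import Vale.Agent.P219.Fr2

/-!
Perturbations of the identity and the derivative of the volume.
-/

open scoped ContDiff Topology ENNReal
open MeasureTheory Set Filter Metric

noncomputable section

namespace Vale.Agent.P219

variable {n k : ℕ} {b : ℝ}

/-- Differentiation under the integral sign for a measure carried by a compact set. -/
theorem fva_diff {X P : Type*} [MetricSpace X] [MeasurableSpace X] [BorelSpace X]
    [NormedAddCommGroup P] [NormedSpace ℝ P] {μ : Measure X} [IsFiniteMeasure μ] {K : Set X}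
    (hK : IsCompact K) (hμ : ∀ᵐ z ∂μ, z ∈ K) {φ : X → P} (hφ : Continuous φ) {H : ℝ × P → ℝ}
    (hH : ∀ z ∈ K, ContDiffAt ℝ 1 H (0, φ z)) {F' : X → ℝ}
    (hF' : ∀ z ∈ K, HasDerivAt (fun t : ℝ => H (t, φ z)) (F' z) 0) :
    HasDerivAt (fun t : ℝ => ∫ z, H (t, φ z) ∂μ) (∫ z, F' z ∂μ) 0 := by
  set U : Set (ℝ × P) := {p | ContDiffAt ℝ 1 H p} with hU
  have hUo : IsOpen U := isOpen_iff_mem_nhds.2 fun p hp => ContDiffAt.eventually hp (by simp)
  have hHU : ContDiffOn ℝ 1 H U := fun p hp => ContDiffAt.contDiffWithinAt hp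
  have hDU : ContinuousOn (fderiv ℝ H) U := hHU.continuousOn_fderiv_of_isOpen hUo le_rfl
  have hsub : ({0} : Set ℝ) ×ˢ (φ '' K) ⊆ U := by
    rintro ⟨t, p⟩ ⟨ht, z, hz, hp⟩
    have ht' : t = 0 := ht
    have hp' : φ z = p := hp
    rw [ht', ← hp']
    exact hH z hz
  obtain ⟨u, v, huo, -, hu0, hv, huv⟩ :=
    generalized_tube_lemma isCompact_singleton (hK.image hφ) hUo hsub
  obtain ⟨ε, hε, hball⟩ := Metric.nhds_basis_closedBall.mem_iff.1 (huo.mem_nhds (hu0 rfl))
  have hin : ∀ t ∈ closedBall (0 : ℝ) ε, ∀ z ∈ K, (t, φ z) ∈ U := fun t ht z hz =>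
    huv ⟨hball ht, hv ⟨z, hz, rfl⟩⟩
  have hC : IsCompact (closedBall (0 : ℝ) ε ×ˢ (φ '' K)) :=
    (isCompact_closedBall _ _).prod (hK.image hφ)
  obtain ⟨C, hCb⟩ := hC.exists_bound_of_continuousOn
    (hDU.mono fun p hp => huv ⟨hball hp.1, hv hp.2⟩)
  have hder : ∀ t ∈ closedBall (0 : ℝ) ε, ∀ z ∈ K,
      HasDerivAt (fun s : ℝ => H (s, φ z)) (fderiv ℝ H (t, φ z) (1, 0)) t := by
    intro t ht z hz
    have h0 : ContDiffAt ℝ 1 H (t, φ z) := hin t ht z hz
    have h1 : HasFDerivAt H (fderiv ℝ H (t, φ z)) (t, φ z) :=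
      (h0.differentiableAt one_ne_zero).hasFDerivAt
    have h2 : HasDerivAt (fun s : ℝ => (s, φ z)) ((1 : ℝ), (0 : P)) t :=
      (hasDerivAt_id t).prodMk (hasDerivAt_const t (φ z))
    exact h1.comp_hasDerivAt t h2
  have hres : μ.restrict K = μ := Measure.restrict_eq_self_of_ae_mem hμ
  have hmeas : ∀ f : X → ℝ, ContinuousOn f K → AEStronglyMeasurable f μ := by
    intro f hf
    rw [← hres]
    exact hf.aestronglyMeasurable hK.measurableSet
  have hpt : ∀ t : ℝ, Continuous fun z => (t, φ z) := fun t => continuous_const.prodMk hφ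
  have hcont : ∀ t ∈ closedBall (0 : ℝ) ε, ContinuousOn (fun z => H (t, φ z)) K := fun t ht =>
    hHU.continuousOn.comp (hpt t).continuousOn fun z hz => hin t ht z hz
  have h0 : (0 : ℝ) ∈ closedBall (0 : ℝ) ε := mem_closedBall_self hε.le
  have hint : Integrable (fun z => H (0, φ z)) μ := by
    rw [← hres]
    exact (hcont 0 h0).integrableOn_compact hK
  have hD0 : ContinuousOn (fun z => fderiv ℝ H (0, φ z) (1, 0)) K :=
    (hDU.comp (hpt 0).continuousOn fun z hz => hin 0 h0 z hz).clm_apply continuousOn_const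
  have key := hasDerivAt_integral_of_dominated_loc_of_deriv_le (μ := μ)
    (F := fun t z => H (t, φ z)) (F' := fun t z => fderiv ℝ H (t, φ z) (1, 0))
    (bound := fun _ => C) (closedBall_mem_nhds (0 : ℝ) hε)
    (by filter_upwards [closedBall_mem_nhds (0 : ℝ) hε] with t ht using hmeas _ (hcont t ht))
    hint (hmeas _ hD0) ?_ (integrable_const C) ?_
  · have h1 : ∫ z, fderiv ℝ H (0, φ z) (1, 0) ∂μ = ∫ z, F' z ∂μ := by
      refine integral_congr_ae ?_
      filter_upwards [hμ] with z hz using (hder 0 h0 z hz).unique (hF' z hz)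
    rw [← h1]
    exact key.2
  · filter_upwards [hμ] with z hz t ht
    refine (ContinuousLinearMap.le_opNorm _ _).trans ?_
    have h1 : ‖((1 : ℝ), (0 : P))‖ = 1 := by simp [Prod.norm_def]
    rw [h1, mul_one]
    exact hCb _ ⟨ht, z, hz, rfl⟩
  · filter_upwards [hμ] with z hz t ht using hder t ht z hz

theorem fva_hasFDerivAt {Y : E n → E n} (hY : ContDiff ℝ 1 Y) (t : ℝ) (x : E n) :
    HasFDerivAt (fun x => x + t • Y x)
      (ContinuousLinearMap.id ℝ (E n) + t • fderiv ℝ Y x) x :=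
  (hasFDerivAt_id x).add ((hY.differentiable one_ne_zero x).hasFDerivAt.const_smul t)

theorem exists_inverse {Y : E n → E n} (hY : ContDiff ℝ 1 Y) (hc : HasCompactSupport Y) :
    ∀ᶠ t in 𝓝 (0 : ℝ), ∃ Ti : E n → E n, ContDiff ℝ 1 Ti ∧ (∀ x, Ti (x + t • Y x) = x) ∧
      ∀ x, Ti x + t • Y (Ti x) = x := by
  obtain ⟨C, hC⟩ := (hY.continuous_fderiv one_ne_zero).bounded_above_of_compact_support
    (hc.fderiv ℝ)
  have hC0 : 0 ≤ C := (norm_nonneg _).trans (hC 0)
  have hlip : ∀ x y : E n, ‖Y x - Y y‖ ≤ C * ‖x - y‖ := fun x y =>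
    convex_univ.norm_image_sub_le_of_norm_fderiv_le
      (fun z _ => hY.differentiable one_ne_zero z) (fun z _ => hC z) (mem_univ y) (mem_univ x)
  have hδ : (0 : ℝ) < (2 * (C + 1))⁻¹ := by positivity
  filter_upwards [ball_mem_nhds (0 : ℝ) hδ] with t ht
  rw [mem_ball_zero_iff] at ht
  have htC : ‖t‖ * C ≤ 1 / 2 := by
    have h1 : ‖t‖ * (2 * (C + 1)) ≤ 1 := by
      have := mul_le_mul_of_nonneg_right ht.le (show 0 ≤ 2 * (C + 1) by positivity)
      rwa [inv_mul_cancel₀ (by positivity)] at this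
    nlinarith [norm_nonneg t]
  have happ : ApproximatesLinearOn (fun x => x + t • Y x)
      ((ContinuousLinearEquiv.refl ℝ (E n) : E n ≃L[ℝ] E n) : E n →L[ℝ] E n) univ (1 / 2) := by
    intro x _ y _
    have h1 : x + t • Y x - (y + t • Y y) -
        ((ContinuousLinearEquiv.refl ℝ (E n) : E n ≃L[ℝ] E n) : E n →L[ℝ] E n) (x - y) =
        t • (Y x - Y y) := by
      simp only [ContinuousLinearEquiv.coe_refl, ContinuousLinearMap.coe_id', id_eq, smul_sub]
      abel
    rw [h1, norm_smul]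
    have h2 := mul_le_mul_of_nonneg_left (hlip x y) (norm_nonneg t)
    have h3 := mul_le_mul_of_nonneg_right htC (norm_nonneg (x - y))
    push_cast
    linarith
  have hcc : Subsingleton (E n) ∨ (1 / 2 : NNReal) <
      ‖(((ContinuousLinearEquiv.refl ℝ (E n)).symm : E n ≃L[ℝ] E n) : E n →L[ℝ] E n)‖₊⁻¹ := by
    rcases subsingleton_or_nontrivial (E n) with h | h
    · exact Or.inl h
    · right
      simp only [ContinuousLinearEquiv.refl_symm, ContinuousLinearEquiv.coe_refl,
        ContinuousLinearMap.nnnorm_id, inv_one]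
      norm_num
  let T : E n ≃ₜ E n := happ.toHomeomorph _ hcc
  have hT : ∀ x, T x = x + t • Y x := fun x => rfl
  have hT' : (T : E n → E n) = fun x => x + t • Y x := rfl
  have hlt : ∀ x, ‖-(t • fderiv ℝ Y x)‖ < 1 := by
    intro x
    rw [norm_neg, norm_smul]
    have := mul_le_mul_of_nonneg_left (hC x) (norm_nonneg t)
    linarith
  refine ⟨T.symm, ?_, fun x => ?_, fun x => ?_⟩
  · refine T.contDiff_symm (f₀' := fun x =>
      ContinuousLinearEquiv.ofUnit (Units.oneSub _ (hlt x))) (fun x => ?_) ?_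
    · have h1 : ((ContinuousLinearEquiv.ofUnit (Units.oneSub _ (hlt x)) : E n ≃L[ℝ] E n) :
          E n →L[ℝ] E n) = ContinuousLinearMap.id ℝ (E n) + t • fderiv ℝ Y x := by
        ext1 v
        change (1 - -(t • fderiv ℝ Y x) : E n →L[ℝ] E n) v = _
        rw [sub_neg_eq_add]
        rfl
      rw [h1, hT']
      exact fva_hasFDerivAt hY t x
    · rw [hT']
      exact contDiff_id.add (hY.const_smul t)
  · rw [← hT, Homeomorph.symm_apply_apply]
  · rw [← hT, Homeomorph.apply_symm_apply]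

theorem fva_zero_smul (L : Op n) : (0 : ℝ) • L = 0 := by
  ext1 v
  simp only [ContinuousLinearMap.smul_apply, zero_smul, ContinuousLinearMap.zero_apply]

theorem fva_hasDerivAt_det (L : Op n) :
    HasDerivAt (fun t : ℝ => |(ContinuousLinearMap.id ℝ (E n) + t • L).det|) (tr L) 0 := by
  obtain ⟨D, hD, hdet⟩ := hasFDerivAt_det_id (n := n)
  have h1 : HasDerivAt (fun t : ℝ => ContinuousLinearMap.id ℝ (E n) + t • L) L 0 := by
    simpa using ((hasDerivAt_id (0 : ℝ)).smul_const L).const_add (ContinuousLinearMap.id ℝ (E n))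
  have h2 : HasDerivAt (fun t : ℝ => (ContinuousLinearMap.id ℝ (E n) + t • L).det) (D L) 0 :=
    HasFDerivAt.comp_hasDerivAt_of_eq (0 : ℝ) hdet h1 (by rw [fva_zero_smul, add_zero])
  rw [hD] at h2
  have h3 : ∀ᶠ t in 𝓝 (0 : ℝ), 0 < (ContinuousLinearMap.id ℝ (E n) + t • L).det := by
    refine continuousAt_const.eventually_lt h2.continuousAt ?_
    rw [fva_zero_smul, add_zero]
    simp [ContinuousLinearMap.det]
  refine h2.congr_of_eventuallyEq ?_
  filter_upwards [h3] with t ht using abs_of_pos ht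

theorem fva_det_zero (L : Op n) : (ContinuousLinearMap.id ℝ (E n) + (0 : ℝ) • L).det = 1 := by
  rw [fva_zero_smul, add_zero]
  simp [ContinuousLinearMap.det]

theorem fva_line (x v : E n) : HasDerivAt (fun t : ℝ => x + t • v) v 0 := by
  simpa using ((hasDerivAt_id (0 : ℝ)).smul_const v).const_add x

theorem hasDerivAt_vol {A : Set (E n)} (hA : BM A) {Y : E n → E n} (hY : ContDiff ℝ 1 Y)
    (hc : HasCompactSupport Y) {g : E n → ℝ} (hg : ContDiff ℝ 1 g) :
    HasDerivAt (fun t : ℝ => ∫ x in (fun x => x + t • Y x) '' A, g x)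
      (∫ x in A, dive (fun p => g p • Y p) x) 0 := by
  have : IsFiniteMeasure (volume.restrict A) := ⟨by
    rw [Measure.restrict_apply_univ]
    exact hA.bdd.measure_lt_top⟩
  have hφ : Continuous fun x : E n => (x, Y x, fderiv ℝ Y x) :=
    continuous_id.prodMk (hY.continuous.prodMk (hY.continuous_fderiv one_ne_zero))
  have key := fva_diff (μ := volume.restrict A) hA.bdd.isCompact_closure
    ((ae_restrict_mem hA.meas).mono fun z hz => subset_closure hz) hφ
    (H := fun p : ℝ × E n × E n × Op n =>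
      |(ContinuousLinearMap.id ℝ (E n) + p.1 • p.2.2.2).det| * g (p.2.1 + p.1 • p.2.2.1))
    (F' := dive (fun p => g p • Y p)) ?_ ?_
  · refine key.congr_of_eventuallyEq ?_
    filter_upwards [exists_inverse hY hc] with t ht
    obtain ⟨Ti, -, h1, -⟩ := ht
    have hinj : InjOn (fun x => x + t • Y x) A := fun x _ y _ hxy => by
      have h2 : x + t • Y x = y + t • Y y := hxy
      rw [← h1 x, h2, h1]
    rw [integral_image_eq_integral_abs_det_fderiv_smul volume hA.meas
      (fun x _ => (fva_hasFDerivAt hY t x).hasFDerivWithinAt) hinj g]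
    rfl
  · intro z _
    have h1 : ContDiff ℝ 1 fun p : ℝ × E n × E n × Op n =>
        (ContinuousLinearMap.id ℝ (E n) + p.1 • p.2.2.2).det :=
      (contDiff_det.of_le (by simp)).comp
        (contDiff_const.add (contDiff_fst.smul contDiff_snd.snd.snd))
    have h2 : ContDiff ℝ 1 fun p : ℝ × E n × E n × Op n => g (p.2.1 + p.1 • p.2.2.1) :=
      hg.comp (contDiff_snd.fst.add (contDiff_fst.smul contDiff_snd.snd.fst))
    refine (h1.contDiffAt.abs ?_).mul h2.contDiffAt
    change (ContinuousLinearMap.id ℝ (E n) + (0 : ℝ) • fderiv ℝ Y z).det ≠ 0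
    rw [fva_det_zero]
    exact one_ne_zero
  · intro z _
    have h1 := fva_hasDerivAt_det (fderiv ℝ Y z)
    have h2 : HasDerivAt (fun t : ℝ => g (z + t • Y z)) (fderiv ℝ g z (Y z)) 0 :=
      HasFDerivAt.comp_hasDerivAt_of_eq (0 : ℝ) (hg.differentiable one_ne_zero z).hasFDerivAt
        (fva_line z (Y z)) (by simp)
    have h3 := h1.mul h2
    rw [dive_smul (hg.differentiable one_ne_zero z) (hY.differentiable one_ne_zero z)]
    refine h3.congr_deriv ?_
    rw [fva_det_zero]
    simp only [zero_smul, add_zero, abs_one, one_mul, dive]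
    ring


end Vale.Agent.P219
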