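import Vale.Agent.P219.FVa

/-!
The derivative of the tangential Jacobian.
-/

open scoped ContDiff Topology ENNReal
open MeasureTheory Set Filter Metric

noncomputable section

namespace Vale.Agent.P219

variable {n k : ℕ} {b : ℝ}

/-- The adjoint as a continuous linear map. -/
def fvbAdj (n : ℕ) : Op n →L[ℝ] Op n :=
  LinearMap.toContinuousLinearMap
    { toFun := fun A => ContinuousLinearMap.adjoint A
      map_add' := fun A B => map_add _ A B
      map_smul' := fun c A => by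
        simp only [map_smulₛₗ, RCLike.conj_to_real, RingHom.id_apply] }

theorem fvbAdj_apply (A : Op n) : fvbAdj n A = ContinuousLinearMap.adjoint A := rfl

theorem fvb_hasDerivAt_inv (L : Op n) :
    HasDerivAt (fun t : ℝ => (ContinuousLinearMap.id ℝ (E n) + t • L).inverse) (-L) 0 := by
  have h1 : HasDerivAt (fun t : ℝ => ContinuousLinearMap.id ℝ (E n) + t • L) L 0 := by
    simpa using ((hasDerivAt_id (0 : ℝ)).smul_const L).const_add (ContinuousLinearMap.id ℝ (E n))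
  have h2 := hasFDerivAt_ringInverse (𝕜 := ℝ) (1 : (Op n)ˣ)
  rw [ContinuousLinearMap.ringInverse_eq_inverse] at h2
  have h3 := HasFDerivAt.comp_hasDerivAt_of_eq (0 : ℝ) h2 h1 (by rw [fva_zero_smul, add_zero]; rfl)
  refine HasDerivAt.congr_deriv h3 ?_
  simp only [inv_one, Units.val_one, ContinuousLinearMap.neg_apply,
    ContinuousLinearMap.mulLeftRight_apply, one_mul, mul_one]

theorem fvb_hasDerivAt_norm {N : ℝ → E n} {N' : E n} (hN : HasDerivAt N N' 0) (h1 : ‖N 0‖ = 1) :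
    HasDerivAt (fun t => ‖N t‖) (inner ℝ (N 0) N') 0 := by
  have h2 := hN.norm_sq.sqrt (by simp only [h1]; norm_num)
  simp only [Real.sqrt_sq (norm_nonneg _), h1] at h2
  refine h2.congr_deriv ?_
  ring

namespace Frame

variable (Φ : Frame n) {A : Set (E n)} {W : Vf n}

theorem fvb_comp (x : E n) : (Φ.Fi x).comp (Φ.F x) = ContinuousLinearMap.id ℝ (E n) := by
  ext1 v
  exact Φ.left x v

/-- The tangential Jacobian as a function of the jet. -/
def fvbH (p : ℝ × (E n × E n) × E n × Op n) : ℝ :=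
  ‖fvbAdj n ((Φ.Fi p.2.1.1).comp ((ContinuousLinearMap.id ℝ (E n) + p.1 • p.2.2.2).inverse.comp
      (Φ.F (p.2.1.1 + p.1 • p.2.2.1)))) p.2.1.2‖ *
    (Φ.m (p.2.1.1 + p.1 • p.2.2.1) * |(ContinuousLinearMap.id ℝ (E n) + p.1 • p.2.2.2).det| /
      Φ.m p.2.1.1)

theorem fvb_zero (x ν v : E n) (L : Op n) :
    fvbAdj n ((Φ.Fi x).comp ((ContinuousLinearMap.id ℝ (E n) + (0 : ℝ) • L).inverse.comp
      (Φ.F (x + (0 : ℝ) • v)))) ν = ν := by
  rw [fva_zero_smul, zero_smul, add_zero, add_zero, ContinuousLinearMap.inverse_id,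
    ContinuousLinearMap.id_comp, fvb_comp, fvbAdj_apply, ContinuousLinearMap.adjoint_id]
  rfl

theorem fvb_contDiffAt (z : E n × E n) (hz : ‖z.2‖ = 1) (v : E n) (L : Op n) :
    ContDiffAt ℝ 1 Φ.fvbH (0, z, v, L) := by
  have hx : ContDiff ℝ 1 fun p : ℝ × (E n × E n) × E n × Op n => p.2.1.1 := contDiff_snd.fst.fst
  have hν : ContDiff ℝ 1 fun p : ℝ × (E n × E n) × E n × Op n => p.2.1.2 := contDiff_snd.fst.snd
  have hT : ContDiff ℝ 1 fun p : ℝ × (E n × E n) × E n × Op n => p.2.1.1 + p.1 • p.2.2.1 :=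
    hx.add (contDiff_fst.smul contDiff_snd.snd.fst)
  have hL : ContDiff ℝ 1 fun p : ℝ × (E n × E n) × E n × Op n =>
      ContinuousLinearMap.id ℝ (E n) + p.1 • p.2.2.2 :=
    contDiff_const.add (contDiff_fst.smul contDiff_snd.snd.snd)
  have hinv : ContDiffAt ℝ 1 (fun p : ℝ × (E n × E n) × E n × Op n =>
      (ContinuousLinearMap.id ℝ (E n) + p.1 • p.2.2.2).inverse) (0, z, v, L) := by
    have h1 : ContDiffAt ℝ 1 (ContinuousLinearMap.inverse : Op n → Op n)
        (ContinuousLinearMap.id ℝ (E n) + (0 : ℝ) • L) := by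
      rw [fva_zero_smul, add_zero]
      exact contDiffAt_map_inverse (ContinuousLinearEquiv.refl ℝ (E n))
    exact ContDiffAt.comp (0, z, v, L) (g := (ContinuousLinearMap.inverse : Op n → Op n)) h1
      hL.contDiffAt
  have hF : ContDiff ℝ 1 Φ.F := Φ.sF.of_le (by simp)
  have hFi : ContDiff ℝ 1 Φ.Fi := Φ.sFi.of_le (by simp)
  have hm : ContDiff ℝ 1 Φ.m := Φ.m_smooth.of_le (by simp)
  have hM := (hFi.comp hx).contDiffAt.clm_comp (hinv.clm_comp (hF.comp hT).contDiffAt)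
  have hN := ((fvbAdj n).contDiff.contDiffAt.comp (0, z, v, L) hM).clm_apply hν.contDiffAt
  have hdet : ContDiff ℝ 1 fun p : ℝ × (E n × E n) × E n × Op n =>
      (ContinuousLinearMap.id ℝ (E n) + p.1 • p.2.2.2).det :=
    (contDiff_det.of_le (by simp)).comp hL
  have hne : fvbAdj n ((Φ.Fi z.1).comp
      ((ContinuousLinearMap.id ℝ (E n) + (0 : ℝ) • L).inverse.comp
      (Φ.F (z.1 + (0 : ℝ) • v)))) z.2 ≠ 0 := by
    rw [fvb_zero, ← norm_ne_zero_iff, hz]
    exact one_ne_zero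
  have hdne : (ContinuousLinearMap.id ℝ (E n) + (0 : ℝ) • L).det ≠ 0 := by
    rw [fva_det_zero]
    exact one_ne_zero
  exact (hN.norm ℝ hne).mul (((hm.comp hT).contDiffAt.mul (hdet.contDiffAt.abs hdne)).div
    (hm.comp hx).contDiffAt (Φ.m_pos z.1).ne')

theorem fvb_hasDerivAt {y : E n → E n} (hy : ContDiff ℝ 1 y) (z : E n × E n) (hz : ‖z.2‖ = 1) :
    HasDerivAt (fun t : ℝ => Φ.fvbH
      (t, z, Φ.F z.1 (y z.1), fderiv ℝ (fun p => Φ.F p (y p)) z.1)) (Φ.dT y z) 0 := by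
  obtain ⟨x, ν⟩ := z
  have hF : ContDiff ℝ 1 Φ.F := Φ.sF.of_le (by simp)
  have hm : ContDiff ℝ 1 Φ.m := Φ.m_smooth.of_le (by simp)
  have hY : ContDiff ℝ 1 fun p => Φ.F p (y p) := hF.clm_apply hy
  have hdv : Φ.m x * tr (Φ.B y x) = Φ.m x * tr (fderiv ℝ (fun p => Φ.F p (y p)) x) +
      fderiv ℝ Φ.m x (Φ.F x (y x)) := by
    rw [← Φ.dv_eq (hy.differentiable one_ne_zero x), dv,
      dive_smul (hm.differentiable one_ne_zero x) (hY.differentiable one_ne_zero x)]
    rfl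
  have hB : Φ.B y x = (Φ.Fi x).comp ((fderiv ℝ (fun p => Φ.F p (y p)) x).comp (Φ.F x) -
    fderiv ℝ Φ.F x (Φ.F x (y x))) := rfl
  simp only [dT]
  generalize fderiv ℝ (fun p => Φ.F p (y p)) x = L at hdv hB ⊢
  generalize Φ.F x (y x) = v at hdv hB ⊢
  have h1 : HasDerivAt (fun t : ℝ => Φ.F (x + t • v)) (fderiv ℝ Φ.F x v) 0 :=
    HasFDerivAt.comp_hasDerivAt_of_eq (0 : ℝ) (hF.differentiable one_ne_zero x).hasFDerivAt
      (fva_line x v) (by simp)
  have h2 : HasDerivAt (fun t : ℝ => Φ.m (x + t • v)) (fderiv ℝ Φ.m x v) 0 :=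
    HasFDerivAt.comp_hasDerivAt_of_eq (0 : ℝ) (hm.differentiable one_ne_zero x).hasFDerivAt
      (fva_line x v) (by simp)
  have h3 := (hasDerivAt_const (0 : ℝ) (Φ.Fi x)).clm_comp ((fvb_hasDerivAt_inv L).clm_comp h1)
  have h4 : HasDerivAt (fun t : ℝ => (Φ.Fi x).comp
      ((ContinuousLinearMap.id ℝ (E n) + t • L).inverse.comp (Φ.F (x + t • v)))) (-Φ.B y x) 0 := by
    refine h3.congr_deriv ?_
    rw [hB, fva_zero_smul, zero_smul, add_zero, add_zero, ContinuousLinearMap.inverse_id]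
    ext1 w
    simp only [ContinuousLinearMap.add_apply, ContinuousLinearMap.comp_apply,
      ContinuousLinearMap.zero_apply, ContinuousLinearMap.neg_apply, ContinuousLinearMap.id_apply,
      ContinuousLinearMap.sub_apply, map_add, map_neg, map_sub]
    abel
  have h5 := ((fvbAdj n).hasFDerivAt.comp_hasDerivAt (0 : ℝ) h4).clm_apply
    (hasDerivAt_const (0 : ℝ) ν)
  have h6 := fvb_hasDerivAt_norm h5 (by
    simp only [Function.comp_apply]
    rw [fvb_zero]
    exact hz)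
  have h7 := (h2.mul (fva_hasDerivAt_det L)).div_const (Φ.m x)
  have h8 := h6.mul h7
  refine HasDerivAt.congr_deriv h8 ?_
  have hz' : ‖ν‖ = 1 := hz
  simp only [Function.comp_apply, Pi.mul_apply]
  rw [fvb_zero, fva_det_zero, hz', map_zero, add_zero, fvbAdj_apply,
    ContinuousLinearMap.adjoint_inner_right, zero_smul, add_zero, ContinuousLinearMap.neg_apply,
    inner_neg_left]
  have hmp := (Φ.m_pos x).ne'
  have h9 : tr (Φ.B y x) = (fderiv ℝ Φ.m x v * |(1 : ℝ)| + Φ.m x * tr L) / Φ.m x := by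
    rw [eq_div_iff hmp, abs_one]
    linarith
  rw [← h9, abs_one, mul_one, div_self hmp]
  ring

theorem hasDerivAt_jac (W : Vf n) {y : E n → E n} (hy : ContDiff ℝ 1 y) :
    HasDerivAt (fun t : ℝ => ∫ z, Φ.jacT (fun x => x + t • Φ.F x (y x)) z ∂W.V)
      (∫ z, Φ.dT y z ∂W.V) 0 := by
  have hY : ContDiff ℝ 1 fun p => Φ.F p (y p) := (Φ.sF.of_le (by simp)).clm_apply hy
  have hφ : Continuous fun z : E n × E n =>
      (z, Φ.F z.1 (y z.1), fderiv ℝ (fun p => Φ.F p (y p)) z.1) :=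
    continuous_id.prodMk ((hY.continuous.comp continuous_fst).prodMk
      ((hY.continuous_fderiv one_ne_zero).comp continuous_fst))
  have hμ : ∀ᵐ z ∂W.V, z ∈ W.K ×ˢ sphere (0 : E n) 1 := by
    filter_upwards [W.supp] with z hz
    exact ⟨hz.1, mem_sphere_zero_iff_norm.2 hz.2⟩
  have key := fva_diff (W.cpt.prod (isCompact_sphere (0 : E n) 1)) hμ hφ (H := Φ.fvbH)
    (F' := Φ.dT y) (fun z hz => Φ.fvb_contDiffAt z (mem_sphere_zero_iff_norm.1 hz.2) _ _)
    (fun z hz => Φ.fvb_hasDerivAt hy z (mem_sphere_zero_iff_norm.1 hz.2))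
  have h1 : ∀ (t : ℝ) (z : E n × E n), Φ.jacT (fun x => x + t • Φ.F x (y x)) z =
      Φ.fvbH (t, z, Φ.F z.1 (y z.1), fderiv ℝ (fun p => Φ.F p (y p)) z.1) := by
    intro t z
    rw [jacT, (fva_hasFDerivAt hY t z.1).fderiv]
    rfl
  simp only [h1]
  exact key

theorem integral_jac_id (W : Vf n) : ∫ z, Φ.jacT (fun x => x) z ∂W.V = W.mass := by
  have h1 : ∫ z, Φ.jacT (fun x => x) z ∂W.V = ∫ _, (1 : ℝ) ∂W.V := by
    refine W.integral_congr fun z _ hz => ?_
    have h2 : fderiv ℝ (fun x : E n => x) z.1 = ContinuousLinearMap.id ℝ (E n) := fderiv_id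
    have h3 : (ContinuousLinearMap.id ℝ (E n)).det = 1 := by simp [ContinuousLinearMap.det]
    rw [jacT, h2, ContinuousLinearMap.inverse_id, ContinuousLinearMap.id_comp, fvb_comp,
      ContinuousLinearMap.adjoint_id, h3, ContinuousLinearMap.id_apply, hz, abs_one, mul_one,
      div_self (Φ.m_pos z.1).ne', mul_one]
  rw [h1, integral_const, smul_eq_mul, mul_one, Vf.mass]

end Frame


end Vale.Agent.P219
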