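import Vale.Agent.P219.Push
import Vale.Agent.P219.FVa
import Vale.Agent.P219.FVb

/-!
The first variation of a minimizer.
-/

open scoped ContDiff Topology ENNReal
open MeasureTheory Set Filter Metric

noncomputable section

namespace Vale.Agent.P219

variable {n k : ℕ} {b : ℝ}

namespace Frame

variable (Φ : Frame n) {A : Set (E n)} {W : Vf n}

theorem fv0_jac_nonneg (T : E n → E n) (z : E n × E n) : 0 ≤ Φ.jacT T z :=
  mul_nonneg (norm_nonneg _)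
    (div_nonneg (mul_nonneg (Φ.m_pos _).le (abs_nonneg _)) (Φ.m_pos _).le)

theorem fv0_compact (hA : BM A) (hG : Φ.GG A W) (hL : Φ.Lim A W)
    (hm : W.mass = (Φ.per A).toReal) {g : E n → ℝ} (hg : ContDiff ℝ 1 g) {w : ℝ → ℝ} {Λ : ℝ}
    (hw : MonotoneOn w (Ici 0)) (hΛ : HasDerivAt w Λ (Φ.per A).toReal)
    (hmin : ∀ A', BM A' → Φ.per A' ≠ ⊤ → w (Φ.per A).toReal - ∫ x in A, g x * Φ.m x ≤
      w (Φ.per A').toReal - ∫ x in A', g x * Φ.m x) {y : E n → E n} (hy : ContDiff ℝ 1 y)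
    (hc : HasCompactSupport y) :
    Λ * ∫ z, Φ.dT y z ∂W.V = ∫ z, g z.1 * inner ℝ (y z.1) z.2 ∂W.V := by
  have hY : ContDiff ℝ 1 fun p => Φ.F p (y p) := (Φ.sF.of_le (by simp)).clm_apply hy
  have hYc : HasCompactSupport fun p => Φ.F p (y p) := by
    refine HasCompactSupport.intro hc fun x hx => ?_
    rw [image_eq_zero_of_notMem_tsupport hx, map_zero]
  have hgm : ContDiff ℝ 1 fun x => g x * Φ.m x := hg.mul (Φ.m_smooth.of_le (by simp))
  have dj := Φ.hasDerivAt_jac W hy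
  have dv := hasDerivAt_vol hA hY hYc hgm
  have j0 : ∫ z, Φ.jacT (fun x => x + (0 : ℝ) • Φ.F x (y x)) z ∂W.V = (Φ.per A).toReal := by
    simp only [zero_smul, add_zero]
    rw [Φ.integral_jac_id, hm]
  have hΛ' : HasDerivAt w Λ (∫ z, Φ.jacT (fun x => x + (0 : ℝ) • Φ.F x (y x)) z ∂W.V) := by
    rw [j0]
    exact hΛ
  have dφ := (hΛ'.comp (0 : ℝ) dj).sub dv
  have hloc : IsLocalMin ((w ∘ fun t : ℝ => ∫ z, Φ.jacT (fun x => x + t • Φ.F x (y x)) z ∂W.V) -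
      fun t : ℝ => ∫ x in (fun x => x + t • Φ.F x (y x)) '' A, g x * Φ.m x) 0 := by
    filter_upwards [exists_inverse hY hYc] with t ⟨Ti, hTi, h1, h2⟩
    have hT : ContDiff ℝ 1 fun x => x + t • Φ.F x (y x) := contDiff_id.add (hY.const_smul t)
    obtain ⟨hB, hle⟩ := Φ.per_image_le hA hL hT hTi h1 h2
    have h0 : 0 ≤ ∫ z, Φ.jacT (fun x => x + t • Φ.F x (y x)) z ∂W.V :=
      integral_nonneg fun z => Φ.fv0_jac_nonneg _ z
    have h3 := hmin _ hB (ne_top_of_le_ne_top ENNReal.ofReal_ne_top hle)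
    have h4 := hw ENNReal.toReal_nonneg h0 (ENNReal.toReal_le_of_le_ofReal h0 hle)
    simp only [Pi.sub_apply, Function.comp_apply]
    rw [j0]
    simp only [zero_smul, add_zero, image_id']
    linarith
  have h5 := hloc.hasDerivAt_eq_zero dφ
  have h6 := hG (fun p => g p • y p) (hg.smul hy)
  have h7 : ∀ x, Φ.dv (fun p => g p • y p) x =
      dive (fun p => (g p * Φ.m p) • Φ.F p (y p)) x := by
    intro x
    rw [Frame.dv]
    congr 1
    funext p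
    rw [map_smul, smul_smul, mul_comm]
  simp only [h7, inner_smul_left, RCLike.conj_to_real] at h6
  rw [← h6]
  linarith

theorem first_variation (hA : BM A) (hP : Φ.per A ≠ ⊤) (hG : Φ.GG A W) (hL : Φ.Lim A W)
    (hm : W.mass = (Φ.per A).toReal) {g : E n → ℝ} (hg : ContDiff ℝ 1 g) {w : ℝ → ℝ} {Λ : ℝ}
    (hw : MonotoneOn w (Ici 0)) (hΛ : HasDerivAt w Λ (Φ.per A).toReal)
    (hmin : ∀ A', BM A' → Φ.per A' ≠ ⊤ → w (Φ.per A).toReal - ∫ x in A, g x * Φ.m x ≤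
      w (Φ.per A').toReal - ∫ x in A', g x * Φ.m x) {y : E n → E n} (hy : ContDiff ℝ 1 y) :
    Λ * ∫ z, Φ.dT y z ∂W.V = ∫ z, g z.1 * inner ℝ (y z.1) z.2 ∂W.V := by
  have _ := hP
  obtain ⟨R, hR0, hR⟩ := W.cpt.isBounded.subset_ball_lt 0 (0 : E n)
  obtain ⟨L, -, hζ⟩ := exists_bump (n := n)
  obtain ⟨ζ, hζ1, hζ2, -, -, hζ3, -⟩ := hζ 0 (2 * R) (by positivity)
  have hζ1' : ContDiff ℝ 1 ζ := hζ1.of_le (by simp)
  have h := Φ.fv0_compact hA hG hL hm hg hw hΛ hmin (hζ1'.smul hy) hζ2.smul_right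
  have he : ∀ x ∈ W.K, (fun p => ζ p • y p) =ᶠ[𝓝 x] y := by
    intro x hx
    filter_upwards [isOpen_ball.mem_nhds (hR hx)] with p hp
    rw [hζ3 p (by rw [mul_div_cancel_left₀ _ two_ne_zero]; exact ball_subset_closedBall hp),
      one_smul]
  have e1 : ∫ z, Φ.dT y z ∂W.V = ∫ z, Φ.dT (fun p => ζ p • y p) z ∂W.V :=
    W.integral_congr fun z hz _ => by rw [dT, dT, Φ.B_congr (he _ hz)]
  have e2 : ∫ z, g z.1 * inner ℝ (y z.1) z.2 ∂W.V =
      ∫ z, g z.1 * inner ℝ (ζ z.1 • y z.1) z.2 ∂W.V :=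
    W.integral_congr fun z hz _ => by
      rw [show ζ z.1 • y z.1 = y z.1 from (he _ hz).self_of_nhds]
  rw [e1, e2]
  exact h

end Frame


end Vale.Agent.P219
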