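import Vale.Agent.P219.Defs

/-!
Frames: gradients, traces and projections.
-/

open scoped ContDiff Topology ENNReal
open MeasureTheory Set Filter Metric

noncomputable section

namespace Vale.Agent.P219

variable {n k : ℕ} {b : ℝ}

theorem inner_ev (v : E n) (i : Fin n) : inner ℝ v (ev i) = v i := by
  simp [ev, EuclideanSpace.inner_single_right]

theorem norm_ev (i : Fin n) : ‖(ev i : E n)‖ = 1 := by
  simp [ev]

theorem sum_ev (v : E n) : ∑ i, v i • ev i = v := by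
  ext j
  simp [ev, Pi.single_apply]

theorem sum_inner_ev (u v : E n) : ∑ i, inner ℝ u (ev i) * inner ℝ v (ev i) = inner ℝ u v := by
  simp only [inner_ev]
  rw [PiLp.inner_apply]
  exact Finset.sum_congr rfl fun i _ => by simp [mul_comm]

theorem tr_add (A A' : Op n) : tr (A + A') = tr A + tr A' := by
  simp [tr, inner_add_left, Finset.sum_add_distrib]

theorem tr_sub (A A' : Op n) : tr (A - A') = tr A - tr A' := by
  simp [tr, inner_sub_left, Finset.sum_sub_distrib]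

theorem tr_smul (c : ℝ) (A : Op n) : tr (c • A) = c * tr A := by
  simp [tr, inner_smul_left, Finset.mul_sum]

theorem tr_eq_trace (A : Op n) : tr A = LinearMap.trace ℝ (E n) (A : E n →ₗ[ℝ] E n) := by
  rw [LinearMap.trace_eq_sum_inner _ (EuclideanSpace.basisFun (Fin n) ℝ), tr]
  refine Finset.sum_congr rfl fun i _ => ?_
  rw [real_inner_comm, EuclideanSpace.basisFun_apply]
  rfl

theorem tr_comm (A A' : Op n) : tr (A.comp A') = tr (A'.comp A) := by
  rw [tr_eq_trace, tr_eq_trace]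
  exact LinearMap.trace_comp_comm' _ _

theorem tr_smulRight (l : E n →L[ℝ] ℝ) (v : E n) : tr (l.smulRight v) = l v := by
  conv_rhs => rw [← sum_ev v]
  simp [tr, inner_smul_left, inner_ev, mul_comm]

theorem contDiff_tr : ContDiff ℝ ∞ (tr : Op n → ℝ) := by
  unfold tr
  exact ContDiff.sum fun i _ => (contDiff_id.clm_apply contDiff_const).inner ℝ contDiff_const

theorem inner_prj {ν : E n} (hν : ‖ν‖ = 1) (ξ : E n) : inner ℝ (prj ν ξ) ν = 0 := by
  simp [prj, inner_sub_left, inner_smul_left, hν]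

theorem inner_prj_comm (ν ξ η : E n) : inner ℝ (prj ν ξ) η = inner ℝ ξ (prj ν η) := by
  simp only [prj, inner_sub_left, inner_sub_right, inner_smul_left, inner_smul_right,
    RCLike.conj_to_real, real_inner_comm η ν]
  ring

theorem prj_of_inner {ν ξ : E n} (h : inner ℝ ξ ν = 0) : prj ν ξ = ξ := by
  simp [prj, h]

theorem fr1_norm_prj {ν : E n} (hν : ‖ν‖ = 1) (ξ : E n) :
    ‖prj ν ξ‖ ^ 2 = ‖ξ‖ ^ 2 - inner ℝ ξ ν ^ 2 := by
  rw [prj, norm_sub_sq_real, inner_smul_right, norm_smul, hν, Real.norm_eq_abs, mul_one, sq_abs]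
  ring

theorem sum_prj_sq {ν : E n} (hν : ‖ν‖ = 1) : ∑ j, ‖prj ν (ev j)‖ ^ 2 = (n : ℝ) - 1 := by
  simp only [fr1_norm_prj hν, Finset.sum_sub_distrib, norm_ev]
  have : ∑ j, inner ℝ (ev j) ν ^ 2 = 1 := by
    have h := sum_inner_ev ν ν
    rw [real_inner_self_eq_norm_sq, hν, one_pow] at h
    rw [← h]
    exact Finset.sum_congr rfl fun j _ => by rw [real_inner_comm, sq]
  rw [this]
  simp

theorem tr_sub_inner {ν : E n} (hν : ‖ν‖ = 1) (A : Op n) :
    tr A - inner ℝ (A ν) ν = ∑ j, inner ℝ (A (prj ν (ev j))) (prj ν (ev j)) := by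
  have h1 : ∑ j, inner ℝ ν (ev j) * inner ℝ (A ν) (ev j) = inner ℝ (A ν) ν := by
    rw [sum_inner_ev, real_inner_comm]
  have h2 : ∑ j, inner ℝ ν (ev j) * inner ℝ (A (ev j)) ν = inner ℝ (A ν) ν := by
    have : A ν = ∑ j, ν j • A (ev j) := by
      conv_lhs => rw [← sum_ev ν]
      simp only [map_sum, map_smul]
    simp only [this, sum_inner, inner_smul_left, RCLike.conj_to_real, inner_ev]
  have h3 : ∑ j, inner ℝ ν (ev j) * inner ℝ ν (ev j) = 1 := by
    rw [sum_inner_ev, real_inner_self_eq_norm_sq, hν, one_pow]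
  have h4 : ∀ j, inner ℝ (A (prj ν (ev j))) (prj ν (ev j)) = inner ℝ (A (ev j)) (ev j) -
      inner ℝ ν (ev j) * inner ℝ (A (ev j)) ν - inner ℝ ν (ev j) * inner ℝ (A ν) (ev j) +
      inner ℝ ν (ev j) * inner ℝ ν (ev j) * inner ℝ (A ν) ν := by
    intro j
    simp only [prj, map_sub, map_smul, inner_sub_left, inner_sub_right, inner_smul_left,
      inner_smul_right, RCLike.conj_to_real, real_inner_comm ν (ev j)]
    ring
  simp only [h4, Finset.sum_add_distrib, Finset.sum_sub_distrib, ← Finset.sum_mul, h1, h2, h3, tr]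
  ring

theorem norm_prj_sq (ν v : E n) : ‖prj ν v‖ ^ 2 = ∑ j, inner ℝ v (prj ν (ev j)) ^ 2 := by
  rw [← real_inner_self_eq_norm_sq, ← sum_inner_ev]
  exact Finset.sum_congr rfl fun j _ => by rw [inner_prj_comm, sq]

theorem fr1_prj_smul (ν : E n) (c : ℝ) (ξ : E n) : prj ν (c • ξ) = c • prj ν ξ := by
  simp [prj, inner_smul_left, smul_sub, smul_smul]

theorem fr1_prj_add (ν ξ η : E n) : prj ν (ξ + η) = prj ν ξ + prj ν η := by
  simp only [prj, inner_add_left, add_smul]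
  abel

theorem fr1_prj_sub (ν ξ η : E n) : prj ν (ξ - η) = prj ν ξ - prj ν η := by
  simp only [prj, inner_sub_left, sub_smul]
  abel

namespace Frame

variable (Φ : Frame n) {f g : E n → ℝ} {x : E n} {z : E n × E n}

theorem inner_gr (f : E n → ℝ) (x ξ : E n) :
    inner ℝ (Φ.gr f x) ξ = fderiv ℝ f x (Φ.F x ξ) := by
  rw [gr, ContinuousLinearMap.adjoint_inner_left, gradient, InnerProductSpace.toDual_symm_apply]

theorem gr_ext {v : E n} (h : ∀ ξ, fderiv ℝ f x (Φ.F x ξ) = inner ℝ v ξ) : Φ.gr f x = v := by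
  exact ext_inner_right ℝ fun ξ => by rw [inner_gr, h]

theorem gr_congr (h : f =ᶠ[𝓝 x] g) : Φ.gr f x = Φ.gr g x := by
  exact Φ.gr_ext fun ξ => by rw [inner_gr, h.fderiv_eq]

theorem gr_const (c : ℝ) (x : E n) : Φ.gr (fun _ => c) x = 0 := by
  exact Φ.gr_ext fun ξ => by simp

theorem gr_comp {φ : ℝ → ℝ} {φ' : ℝ} (hφ : HasDerivAt φ φ' (f x)) (hf : DifferentiableAt ℝ f x) :
    Φ.gr (fun y => φ (f y)) x = φ' • Φ.gr f x := by
  refine Φ.gr_ext fun ξ => ?_
  have h : HasFDerivAt (fun y => φ (f y)) _ x := hφ.comp_hasFDerivAt x hf.hasFDerivAt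
  rw [h.fderiv, inner_smul_left, inner_gr]
  simp

theorem gr_add (hf : DifferentiableAt ℝ f x) (hg : DifferentiableAt ℝ g x) :
    Φ.gr (fun y => f y + g y) x = Φ.gr f x + Φ.gr g x := by
  refine Φ.gr_ext fun ξ => ?_
  rw [fderiv_fun_add hf hg, inner_add_left, inner_gr, inner_gr]
  simp

theorem gr_sub (hf : DifferentiableAt ℝ f x) (hg : DifferentiableAt ℝ g x) :
    Φ.gr (fun y => f y - g y) x = Φ.gr f x - Φ.gr g x := by
  refine Φ.gr_ext fun ξ => ?_
  rw [fderiv_fun_sub hf hg, inner_sub_left, inner_gr, inner_gr]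
  simp

theorem gr_mul (hf : DifferentiableAt ℝ f x) (hg : DifferentiableAt ℝ g x) :
    Φ.gr (fun y => f y * g y) x = f x • Φ.gr g x + g x • Φ.gr f x := by
  refine Φ.gr_ext fun ξ => ?_
  rw [fderiv_fun_mul hf hg, inner_add_left, inner_smul_left, inner_smul_left, inner_gr, inner_gr]
  simp

theorem gr_const_mul (c : ℝ) (hf : DifferentiableAt ℝ f x) :
    Φ.gr (fun y => c * f y) x = c • Φ.gr f x := by
  refine Φ.gr_ext fun ξ => ?_
  rw [fderiv_const_mul hf, inner_smul_left, inner_gr]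
  simp

theorem gt_eq_prj (f : E n → ℝ) (z : E n × E n) : Φ.gt f z = prj z.2 (Φ.gr f z.1) := rfl

theorem gt_const (c : ℝ) (z : E n × E n) : Φ.gt (fun _ => c) z = 0 := by
  simp [gt, gr_const]

theorem gt_comp {φ : ℝ → ℝ} {φ' : ℝ} (hφ : HasDerivAt φ φ' (f z.1))
    (hf : DifferentiableAt ℝ f z.1) : Φ.gt (fun y => φ (f y)) z = φ' • Φ.gt f z := by
  rw [gt_eq_prj, gt_eq_prj, Φ.gr_comp hφ hf, fr1_prj_smul]

theorem gt_add (hf : DifferentiableAt ℝ f z.1) (hg : DifferentiableAt ℝ g z.1) :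
    Φ.gt (fun y => f y + g y) z = Φ.gt f z + Φ.gt g z := by
  rw [gt_eq_prj, gt_eq_prj, gt_eq_prj, Φ.gr_add hf hg, fr1_prj_add]

theorem gt_sub (hf : DifferentiableAt ℝ f z.1) (hg : DifferentiableAt ℝ g z.1) :
    Φ.gt (fun y => f y - g y) z = Φ.gt f z - Φ.gt g z := by
  rw [gt_eq_prj, gt_eq_prj, gt_eq_prj, Φ.gr_sub hf hg, fr1_prj_sub]

theorem gt_mul (hf : DifferentiableAt ℝ f z.1) (hg : DifferentiableAt ℝ g z.1) :
    Φ.gt (fun y => f y * g y) z = f z.1 • Φ.gt g z + g z.1 • Φ.gt f z := by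
  rw [gt_eq_prj, gt_eq_prj, gt_eq_prj, Φ.gr_mul hf hg, fr1_prj_add, fr1_prj_smul, fr1_prj_smul]

theorem gt_const_mul (c : ℝ) (hf : DifferentiableAt ℝ f z.1) :
    Φ.gt (fun y => c * f y) z = c • Φ.gt f z := by
  rw [gt_eq_prj, gt_eq_prj, Φ.gr_const_mul c hf, fr1_prj_smul]

theorem norm_gt_sq (f : E n → ℝ) (hz : ‖z.2‖ = 1) :
    ‖Φ.gt f z‖ ^ 2 = ‖Φ.gr f z.1‖ ^ 2 - inner ℝ (Φ.gr f z.1) z.2 ^ 2 := by
  rw [gt_eq_prj, fr1_norm_prj hz]

theorem norm_gt_le (f : E n → ℝ) (hz : ‖z.2‖ = 1) : ‖Φ.gt f z‖ ≤ ‖Φ.gr f z.1‖ := by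
  apply le_of_sq_le_sq _ (norm_nonneg _)
  rw [Φ.norm_gt_sq f hz]
  nlinarith [sq_nonneg (inner ℝ (Φ.gr f z.1) z.2)]

theorem inner_gt_gr (f g : E n → ℝ) (hz : ‖z.2‖ = 1) :
    inner ℝ (Φ.gt f z) (Φ.gr g z.1) = inner ℝ (Φ.gt f z) (Φ.gt g z) := by
  have h : inner ℝ (Φ.gt f z) z.2 = 0 := inner_prj hz _
  conv_rhs => rw [gt_eq_prj Φ g, ← inner_prj_comm, prj_of_inner h]

theorem fr1_gr_eq (f : E n → ℝ) (x : E n) :
    Φ.gr f x = ∑ i, fderiv ℝ f x (Φ.F x (ev i)) • ev i := by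
  conv_lhs => rw [← sum_ev (Φ.gr f x)]
  simp only [← inner_gr, inner_ev]

theorem cont_gr (hf : ContDiff ℝ 1 f) : Continuous (Φ.gr f) := by
  have h1 : Continuous (fderiv ℝ f) := hf.continuous_fderiv one_ne_zero
  have h2 : Continuous Φ.F := Φ.sF.continuous
  rw [funext (Φ.fr1_gr_eq f)]
  exact continuous_finsetSum _ fun i _ =>
    (h1.clm_apply (h2.clm_apply continuous_const)).smul continuous_const

theorem cont_gt (hf : ContDiff ℝ 1 f) : Continuous (Φ.gt f) := by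
  have h1 : Continuous fun z : E n × E n => Φ.gr f z.1 := (Φ.cont_gr hf).comp continuous_fst
  exact h1.sub ((h1.inner (𝕜 := ℝ) continuous_snd).smul continuous_snd)

theorem contDiff_gr (hf : ContDiff ℝ ∞ f) : ContDiff ℝ ∞ (Φ.gr f) := by
  have h1 : ContDiff ℝ ∞ (fderiv ℝ f) := hf.fderiv_right (by simp)
  rw [funext (Φ.fr1_gr_eq f)]
  exact ContDiff.sum fun i _ =>
    (h1.clm_apply (Φ.sF.clm_apply contDiff_const)).smul contDiff_const

theorem contDiff_gr₂ {f : E n → E n → ℝ} (hf : ContDiff ℝ ∞ fun p : E n × E n => f p.1 p.2) :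
    ContDiff ℝ ∞ fun p : E n × E n => Φ.gr (f p.1) p.2 := by
  have h0 : ContDiff ℝ ∞ (Function.uncurry fun (p : E n × E n) (y : E n) => f p.1 y) :=
    hf.comp (contDiff_fst.fst.prodMk contDiff_snd)
  have h1 : ContDiff ℝ ∞ fun p : E n × E n => fderiv ℝ (f p.1) p.2 :=
    ContDiff.fderiv h0 contDiff_snd (by simp)
  simp only [Φ.fr1_gr_eq]
  exact ContDiff.sum fun i _ =>
    (h1.clm_apply ((Φ.sF.comp contDiff_snd).clm_apply contDiff_const)).smul contDiff_const

theorem measurable_nrm (hf : ContDiff ℝ 1 f) : Measurable (Φ.nrm f) := by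
  have h := (Φ.cont_gr hf).measurable
  exact (h.norm.inv.smul h).neg

end Frame

namespace Vf

variable (W : Vf n)

theorem fr1_integrable {V : Type*} [NormedAddCommGroup V] {f : E n × E n → V}
    (hm : AEStronglyMeasurable f W.V) (hf : ContinuousOn f (W.K ×ˢ sphere 0 1)) :
    Integrable f W.V := by
  obtain ⟨C, hC⟩ := (W.cpt.prod (isCompact_sphere (0 : E n) 1)).exists_bound_of_continuousOn hf
  refine Integrable.of_bound hm C ?_
  filter_upwards [W.supp] with z hz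
  exact hC z ⟨hz.1, by simpa using hz.2⟩

theorem integrable {V : Type*} [NormedAddCommGroup V] {f : E n × E n → V} (hf : Continuous f) :
    Integrable f W.V := by
  exact W.fr1_integrable hf.aestronglyMeasurable hf.continuousOn

theorem integrable_of_on {V : Type*} [NormedAddCommGroup V] {f : E n × E n → V}
    (hm : AEStronglyMeasurable f W.V) (hf : ContinuousOn f (W.K ×ˢ sphere 0 1)) :
    Integrable f W.V := by
  exact W.fr1_integrable hm hf

theorem integral_mono {f g : E n × E n → ℝ} (hf : Continuous f) (hg : Continuous g)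
    (h : ∀ z : E n × E n, z.1 ∈ W.K → ‖z.2‖ = 1 → f z ≤ g z) :
    ∫ z, f z ∂W.V ≤ ∫ z, g z ∂W.V := by
  refine integral_mono_ae (W.integrable hf) (W.integrable hg) ?_
  filter_upwards [W.supp] with z hz using h z hz.1 hz.2

theorem integral_congr {V : Type*} [NormedAddCommGroup V] [NormedSpace ℝ V]
    {f g : E n × E n → V} (h : ∀ z : E n × E n, z.1 ∈ W.K → ‖z.2‖ = 1 → f z = g z) :
    ∫ z, f z ∂W.V = ∫ z, g z ∂W.V := by
  refine integral_congr_ae ?_
  filter_upwards [W.supp] with z hz using h z hz.1 hz.2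

/-- Cauchy-Schwarz -/
theorem integral_mul_le {f g : E n × E n → ℝ} (hf : Continuous f) (hg : Continuous g) :
    ∫ z, f z * g z ∂W.V ≤ √(∫ z, f z ^ 2 ∂W.V) * √(∫ z, g z ^ 2 ∂W.V) := by
  have i1 : Integrable (fun z => f z ^ 2) W.V := W.integrable (hf.pow 2)
  have i2 : Integrable (fun z => g z ^ 2) W.V := W.integrable (hg.pow 2)
  have i3 : Integrable (fun z => f z * g z) W.V := W.integrable (hf.mul hg)
  have hq : ∀ t : ℝ, 0 ≤ (∫ z, f z ^ 2 ∂W.V) * (t * t) + (2 * ∫ z, f z * g z ∂W.V) * t +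
      ∫ z, g z ^ 2 ∂W.V := by
    intro t
    have h0 : 0 ≤ ∫ z, (t * f z + g z) ^ 2 ∂W.V := integral_nonneg fun z => sq_nonneg _
    have h1 : ∫ z, (t * f z + g z) ^ 2 ∂W.V =
        ∫ z, ((t * t) * f z ^ 2 + (2 * t) * (f z * g z) + g z ^ 2) ∂W.V :=
      integral_congr_ae (Eventually.of_forall fun z => by ring)
    have i4 : Integrable (fun z => (t * t) * f z ^ 2 + (2 * t) * (f z * g z)) W.V :=
      (i1.const_mul _).add (i3.const_mul _)
    rw [h1, integral_add i4 i2,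
      integral_add (i1.const_mul _) (i3.const_mul _), integral_const_mul, integral_const_mul] at h0
    linarith
  have hd := discrim_le_zero hq
  rw [discrim] at hd
  rw [← Real.sqrt_mul (integral_nonneg fun z => sq_nonneg _)]
  apply Real.le_sqrt_of_sq_le
  nlinarith

end Vf

/-- a smooth monotone cutoff -/
theorem exists_cut {a c : ℝ} (h : a < c) : ∃ (χ : ℝ → ℝ) (L : ℝ), ContDiff ℝ ∞ χ ∧ 0 < L ∧
    (∀ t, t ≤ a → χ t = 0) ∧ (∀ t, c ≤ t → χ t = 1) ∧ (∀ t, 0 ≤ χ t ∧ χ t ≤ 1) ∧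
    (∀ t, 0 ≤ deriv χ t ∧ deriv χ t ≤ L) ∧ (∀ t, t ≤ a ∨ c ≤ t → deriv χ t = 0) := by
  have hca : 0 < c - a := sub_pos.2 h
  obtain ⟨χ, hχ⟩ : ∃ χ : ℝ → ℝ, χ = fun t => Real.smoothTransition ((t - a) / (c - a)) := ⟨_, rfl⟩
  have h1 : ContDiff ℝ ∞ χ := by
    rw [hχ]
    exact Real.smoothTransition.contDiff.comp (by fun_prop)
  have h2 : ∀ t, t ≤ a → χ t = 0 := fun t ht => by
    rw [hχ]
    exact Real.smoothTransition.zero_of_nonpos (div_nonpos_of_nonpos_of_nonneg (by linarith) hca.le)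
  have h3 : ∀ t, c ≤ t → χ t = 1 := fun t ht => by
    rw [hχ]
    exact Real.smoothTransition.one_of_one_le ((one_le_div hca).2 (by linarith))
  have h4 : ∀ t, 0 ≤ χ t ∧ χ t ≤ 1 := fun t => by
    rw [hχ]
    exact ⟨Real.smoothTransition.nonneg _, Real.smoothTransition.le_one _⟩
  have h5 : Monotone χ := by
    rw [hχ]
    exact fun s t hst => Real.smoothTransition.monotone (by gcongr)
  have h6 : ∀ t, t ≤ a ∨ c ≤ t → deriv χ t = 0 := by
    rintro t (ht | ht)
    · refine IsLocalMin.deriv_eq_zero (Eventually.of_forall fun s => ?_)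
      rw [h2 t ht]
      exact (h4 s).1
    · refine IsLocalMax.deriv_eq_zero (Eventually.of_forall fun s => ?_)
      rw [h3 t ht]
      exact (h4 s).2
  obtain ⟨C, hC⟩ := (isCompact_Icc (a := a) (b := c)).exists_bound_of_continuousOn
    (h1.continuous_deriv (by simp)).continuousOn
  refine ⟨χ, max C 1, h1, lt_max_of_lt_right one_pos, h2, h3, h4,
    fun t => ⟨h5.deriv_nonneg, ?_⟩, h6⟩
  by_cases ht : t ≤ a ∨ c ≤ t
  · rw [h6 t ht]
    exact le_max_of_le_right zero_le_one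
  · push Not at ht
    exact le_max_of_le_left ((le_abs_self _).trans (hC t ⟨ht.1.le, ht.2.le⟩))

/-- cutoff functions at all scales -/
theorem exists_bump : ∃ L > 0, ∀ (x : E n) (r : ℝ), 0 < r → ∃ ζ : E n → ℝ, ContDiff ℝ ∞ ζ ∧
    HasCompactSupport ζ ∧ tsupport ζ ⊆ ball x r ∧ (∀ p, 0 ≤ ζ p ∧ ζ p ≤ 1) ∧
    (∀ p ∈ closedBall x (r / 2), ζ p = 1) ∧ ∀ p, ‖fderiv ℝ ζ p‖ ≤ L / r := by
  let β : ContDiffBump (0 : E n) := ⟨1 / 2, 3 / 4, by norm_num, by norm_num⟩
  have hβ : ContDiff ℝ ∞ β := β.contDiff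
  obtain ⟨C, hC⟩ := (hβ.continuous_fderiv (by simp)).bounded_above_of_compact_support
    (β.hasCompactSupport.fderiv ℝ)
  refine ⟨max C 1, lt_max_of_lt_right one_pos, fun x r hr => ?_⟩
  have hn : ∀ p : E n, dist (r⁻¹ • (p - x)) 0 = dist p x / r := by
    intro p
    rw [dist_zero_right, norm_smul, dist_eq_norm, Real.norm_eq_abs, abs_of_pos (inv_pos.2 hr),
      inv_mul_eq_div]
  have hz : ∀ p ∉ closedBall x (3 / 4 * r), β (r⁻¹ • (p - x)) = 0 := by
    intro p hp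
    apply β.zero_of_le_dist
    rw [hn, le_div_iff₀ hr]
    exact (not_le.1 hp).le
  refine ⟨fun p => β (r⁻¹ • (p - x)), hβ.comp (by fun_prop),
    HasCompactSupport.intro (isCompact_closedBall x _) hz, ?_, fun p => ⟨β.nonneg, β.le_one⟩,
    fun p hp => ?_, fun p => ?_⟩
  · refine (closure_minimal (fun p hp => ?_) isClosed_closedBall).trans
      (closedBall_subset_ball (show 3 / 4 * r < r by linarith))
    by_contra h
    exact hp (hz p h)
  · apply β.one_of_mem_closedBall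
    rw [mem_closedBall, hn, div_le_iff₀ hr]
    have := mem_closedBall.1 hp
    change _ ≤ 1 / 2 * r
    linarith
  · have h1 : HasFDerivAt (fun p : E n => r⁻¹ • (p - x)) (r⁻¹ • ContinuousLinearMap.id ℝ (E n)) p :=
      ((hasFDerivAt_id p).sub_const x).const_smul r⁻¹
    have h2 : HasFDerivAt (fun p : E n => β (r⁻¹ • (p - x))) _ p :=
      (hβ.differentiable (by simp) _).hasFDerivAt.comp p h1
    rw [h2.fderiv]
    refine (ContinuousLinearMap.opNorm_comp_le _ _).trans ?_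
    rw [norm_smul, Real.norm_eq_abs, abs_of_pos (inv_pos.2 hr), div_eq_mul_inv]
    refine mul_le_mul ((hC _).trans (le_max_left _ _)) ?_ (by positivity) (by positivity)
    exact mul_le_of_le_one_right (by positivity) ContinuousLinearMap.norm_id_le


end Vale.Agent.P219
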