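import Vale.Agent.P219.Fr1

/-!
Frames: the density, divergences and integration by parts.
-/

open scoped ContDiff Topology ENNReal
open MeasureTheory Set Filter Metric

noncomputable section

namespace Vale.Agent.P219

variable {n k : ℕ} {b : ℝ}

theorem fr2_toMatrix (A : Op n) :
    LinearMap.toMatrix (EuclideanSpace.basisFun (Fin n) ℝ).toBasis
      (EuclideanSpace.basisFun (Fin n) ℝ).toBasis (A : E n →ₗ[ℝ] E n) =
      Matrix.of fun i j => A (ev j) i := by
  ext i j
  simp [LinearMap.toMatrix_apply, ev]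

theorem fr2_det_eq (A : Op n) : A.det = (Matrix.of fun i j => A (ev j) i).det := by
  rw [← fr2_toMatrix, LinearMap.det_toMatrix]

theorem fr2_tr_eq (A : Op n) : tr A = (Matrix.of fun i j => A (ev j) i).trace := by
  simp [tr, Matrix.trace, inner_ev]

theorem contDiff_det : ContDiff ℝ ∞ fun A : Op n => A.det := by
  simp only [fr2_det_eq, Matrix.det_apply', Matrix.of_apply]
  refine ContDiff.sum fun σ _ => contDiff_const.mul (contDiff_prod fun i _ => ?_)
  simp only [← inner_ev]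
  exact (contDiff_id.clm_apply contDiff_const).inner ℝ contDiff_const

theorem hasFDerivAt_det_id : ∃ D : Op n →L[ℝ] ℝ, (∀ A, D A = tr A) ∧
    HasFDerivAt (fun A : Op n => A.det) D (ContinuousLinearMap.id ℝ (E n)) := by
  have hd : HasFDerivAt (fun A : Op n => A.det) _ (ContinuousLinearMap.id ℝ (E n)) :=
    (contDiff_det.differentiable (by simp) _).hasFDerivAt
  refine ⟨_, fun A => ?_, hd⟩
  have h1 : HasDerivAt (fun r : ℝ => ContinuousLinearMap.id ℝ (E n) + r • A) A 0 := by
    simpa using ((hasDerivAt_id (0 : ℝ)).smul_const A).const_add (ContinuousLinearMap.id ℝ (E n))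
  have h2 : HasDerivAt (fun r : ℝ => (ContinuousLinearMap.id ℝ (E n) + r • A).det) _ 0 :=
    HasFDerivAt.comp_hasDerivAt_of_eq (l := fun A : Op n => A.det) (0 : ℝ) hd h1 (by ext; simp)
  obtain ⟨M, hM⟩ : ∃ M : Matrix (Fin n) (Fin n) ℝ, M = Matrix.of fun i j => A (ev j) i := ⟨_, rfl⟩
  obtain ⟨q, hq⟩ : ∃ q : Polynomial ℝ, ∀ r : ℝ, (ContinuousLinearMap.id ℝ (E n) + r • A).det =
      1 + M.trace * r + q.eval r * r ^ 2 := by
    refine ⟨_, fun r => Eq.trans ?_ (Matrix.det_one_add_smul r M)⟩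
    rw [fr2_det_eq]
    congr 1
    ext i j
    simp [hM, ev, Matrix.one_apply]
  have h3 : HasDerivAt (fun r : ℝ => 1 + M.trace * r + q.eval r * r ^ 2) M.trace 0 := by
    refine ((((hasDerivAt_id (0 : ℝ)).const_mul M.trace).const_add 1).add
      ((q.hasDerivAt 0).mul (hasDerivAt_pow 2 (0 : ℝ)))).congr_deriv ?_
    simp
  simp only [hq] at h2
  rw [h2.unique h3, fr2_tr_eq, hM]

theorem cont_dive {Z : E n → E n} (hZ : ContDiff ℝ 1 Z) : Continuous (dive Z) := by
  exact contDiff_tr.continuous.comp (hZ.continuous_fderiv one_ne_zero)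

theorem dive_add {Z Z' : E n → E n} {x : E n} (hZ : DifferentiableAt ℝ Z x)
    (hZ' : DifferentiableAt ℝ Z' x) : dive (fun p => Z p + Z' p) x = dive Z x + dive Z' x := by
  rw [dive, fderiv_fun_add hZ hZ', tr_add, dive, dive]

theorem dive_smul {φ : E n → ℝ} {Z : E n → E n} {x : E n} (hφ : DifferentiableAt ℝ φ x)
    (hZ : DifferentiableAt ℝ Z x) :
    dive (fun p => φ p • Z p) x = φ x * dive Z x + fderiv ℝ φ x (Z x) := by
  rw [dive, fderiv_fun_smul hφ hZ, tr_add, tr_smul, tr_smulRight, dive]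

theorem dive_smul_const {φ : E n → ℝ} {x : E n} (hφ : DifferentiableAt ℝ φ x) (v : E n) :
    dive (fun p => φ p • v) x = fderiv ℝ φ x v := by
  rw [dive_smul hφ (differentiableAt_const v)]
  simp [dive, tr]

theorem integral_dive {Z : E n → E n} (hZ : ContDiff ℝ 1 Z) (hc : HasCompactSupport Z) :
    ∫ x, dive Z x = 0 := by
  have key : ∀ i, Integrable (fun x => inner ℝ (fderiv ℝ Z x (ev i)) (ev i)) ∧
      ∫ x, inner ℝ (fderiv ℝ Z x (ev i)) (ev i) = 0 := by
    intro i
    have g1 : ContDiff ℝ 1 fun x => inner ℝ (Z x) (ev i) := hZ.inner ℝ contDiff_const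
    have g2 : HasCompactSupport fun x => inner ℝ (Z x) (ev i) :=
      hc.comp_left (g := fun v => inner ℝ v (ev i)) (by simp)
    have g3 : ∀ x, fderiv ℝ (fun x => inner ℝ (Z x) (ev i)) x (ev i) =
        inner ℝ (fderiv ℝ Z x (ev i)) (ev i) := by
      intro x
      rw [fderiv_inner_apply ℝ (hZ.differentiable one_ne_zero x) (differentiableAt_const _)]
      simp
    have g4 : Integrable fun x => fderiv ℝ (fun x => inner ℝ (Z x) (ev i)) x (ev i) :=
      ((g1.continuous_fderiv one_ne_zero).clm_apply continuous_const).integrable_of_hasCompactSupport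
        (g2.fderiv_apply ℝ (ev i))
    have g5 := integral_mul_fderiv_eq_neg_fderiv_mul_of_integrable (μ := volume)
      (f := fun _ : E n => (1 : ℝ)) (g := fun x => inner ℝ (Z x) (ev i)) (v := ev i)
      (by simp) (by simpa using g4)
      (by simpa using g1.continuous.integrable_of_hasCompactSupport g2)
      (fun _ _ => differentiableAt_const _) (fun x _ => g1.differentiable one_ne_zero x)
    simp only [g3] at g4 g5
    exact ⟨g4, by simpa using g5⟩
  simp only [dive, tr]
  rw [integral_finsetSum _ fun i _ => (key i).1]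
  exact Finset.sum_eq_zero fun i _ => (key i).2

namespace Frame

variable (Φ : Frame n) {f φ : E n → ℝ} {y y' : E n → E n} {x : E n}

theorem fr2_left (x : E n) : (Φ.Fi x).comp (Φ.F x) = ContinuousLinearMap.id ℝ (E n) :=
  ContinuousLinearMap.ext (Φ.left x)

theorem fr2_right (x : E n) : (Φ.F x).comp (Φ.Fi x) = ContinuousLinearMap.id ℝ (E n) :=
  ContinuousLinearMap.ext (Φ.right x)

theorem fr2_det_comp (A A' : Op n) : (A.comp A').det = A.det * A'.det :=
  LinearMap.det_comp (A : E n →ₗ[ℝ] E n) (A' : E n →ₗ[ℝ] E n)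

theorem fr2_det_id : (ContinuousLinearMap.id ℝ (E n)).det = 1 := LinearMap.det_id

theorem fr2_det (x : E n) : (Φ.Fi x).det * (Φ.F x).det = 1 := by
  rw [← fr2_det_comp, fr2_left, fr2_det_id]

theorem m_pos (x : E n) : 0 < Φ.m x := by
  exact abs_pos.2 (left_ne_zero_of_mul_eq_one (Φ.fr2_det x))

theorem m_det (x : E n) : Φ.m x * |(Φ.F x).det| = 1 := by
  rw [m, ← abs_mul, fr2_det, abs_one]

theorem m_smooth : ContDiff ℝ ∞ Φ.m := by
  exact contDiff_iff_contDiffAt.2 fun x => (contDiff_det.comp Φ.sFi).contDiffAt.abs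
    (left_ne_zero_of_mul_eq_one (Φ.fr2_det x))

/-- Jacobi formula -/
theorem fderiv_m (x v : E n) :
    fderiv ℝ Φ.m x v = -(Φ.m x * tr ((Φ.Fi x).comp (fderiv ℝ Φ.F x v))) := by
  obtain ⟨D, hD, hd⟩ := hasFDerivAt_det_id (n := n)
  have dF := (Φ.sF.differentiable (by simp) x).hasFDerivAt
  have dFi := (Φ.sFi.differentiable (by simp) x).hasFDerivAt
  have h1 := dFi.clm_comp (hasFDerivAt_const (Φ.F x) x)
  have h2 : HasFDerivAt (fun p => ((Φ.Fi p).comp (Φ.F x)).det) _ x :=
    HasFDerivAt.comp x (g := fun A : Op n => A.det) (by rw [fr2_left]; exact hd) h1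
  have h3 : ∀ᶠ p in 𝓝 x, 0 < ((Φ.Fi p).comp (Φ.F x)).det := by
    apply h2.continuousAt.eventually (lt_mem_nhds _)
    simp only [fr2_left, fr2_det_id]
    exact one_pos
  have h4 : Φ.m =ᶠ[𝓝 x] fun p => ((Φ.Fi p).comp (Φ.F x)).det * Φ.m x := by
    filter_upwards [h3] with p hp
    rw [← abs_of_pos hp, fr2_det_comp, abs_mul, mul_assoc, mul_comm _ (Φ.m x), m_det, mul_one, m]
  have h5 := (dFi.clm_comp dF).fderiv
  simp only [fr2_left, fderiv_fun_const, Pi.zero_apply] at h5
  have h6 : tr ((fderiv ℝ Φ.Fi x v).comp (Φ.F x)) = -tr ((Φ.Fi x).comp (fderiv ℝ Φ.F x v)) := by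
    have := congrArg tr (DFunLike.congr_fun h5 v)
    simp only [zero_apply, add_apply, ContinuousLinearMap.comp_apply,
      ContinuousLinearMap.compL_apply, ContinuousLinearMap.flip_apply, tr_add] at this
    have h0 : tr (0 : Op n) = 0 := by simp [tr]
    linarith
  rw [h4.fderiv_eq, (h2.mul_const (Φ.m x)).fderiv]
  simp [hD, h6]

theorem dv_eq (hy : DifferentiableAt ℝ y x) : Φ.dv y x = Φ.m x * tr (Φ.B y x) := by
  have hY : DifferentiableAt ℝ (fun p => Φ.F p (y p)) x :=
    (Φ.sF.differentiable (by simp) x).clm_apply hy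
  rw [dv, dive_smul (Φ.m_smooth.differentiable (by simp) x) hY, fderiv_m, B,
    ContinuousLinearMap.comp_sub, tr_sub, tr_comm (Φ.Fi x) (_ ∘L _), ContinuousLinearMap.comp_assoc,
    fr2_right, ContinuousLinearMap.comp_id, dive]
  ring

theorem dv_coord (Z : E n → E n) (x : E n) :
    Φ.dv (fun p => (Φ.m p)⁻¹ • Φ.Fi p (Z p)) x = dive Z x := by
  rw [dv]
  congr 1
  funext p
  rw [map_smul, Φ.right, smul_smul, mul_inv_cancel₀ (Φ.m_pos p).ne', one_smul]

theorem contDiff_coord {Z : E n → E n} (hZ : ContDiff ℝ 1 Z) :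
    ContDiff ℝ 1 fun p => (Φ.m p)⁻¹ • Φ.Fi p (Z p) := by
  exact ((Φ.m_smooth.of_le (by simp)).inv fun p => (Φ.m_pos p).ne').smul
    ((Φ.sFi.of_le (by simp)).clm_apply hZ)

theorem B_congr (h : y =ᶠ[𝓝 x] y') : Φ.B y x = Φ.B y' x := by
  have : (fun p => Φ.F p (y p)) =ᶠ[𝓝 x] fun p => Φ.F p (y' p) := by
    filter_upwards [h] with p hp
    rw [hp]
  rw [B, B, this.fderiv_eq, h.eq_of_nhds]

theorem dv_congr (h : y =ᶠ[𝓝 x] y') : Φ.dv y x = Φ.dv y' x := by
  have : (fun p => Φ.m p • Φ.F p (y p)) =ᶠ[𝓝 x] fun p => Φ.m p • Φ.F p (y' p) := by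
    filter_upwards [h] with p hp
    rw [hp]
  rw [dv, dv, dive, dive, this.fderiv_eq]

theorem B_smul (hφ : DifferentiableAt ℝ φ x) (hy : DifferentiableAt ℝ y x) (ξ : E n) :
    Φ.B (fun p => φ p • y p) x ξ = φ x • Φ.B y x ξ + inner ℝ (Φ.gr φ x) ξ • y x := by
  have hY : DifferentiableAt ℝ (fun p => Φ.F p (y p)) x :=
    (Φ.sF.differentiable (by simp) x).clm_apply hy
  simp only [B, map_smul]
  rw [fderiv_fun_smul hφ hY, inner_gr]
  simp only [ContinuousLinearMap.comp_apply, sub_apply, add_apply, smul_apply,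
    ContinuousLinearMap.smulRight_apply, map_sub, map_add, map_smul, Φ.left, smul_sub]
  abel

theorem dT_smul {z : E n × E n} (hφ : DifferentiableAt ℝ φ z.1) (hy : DifferentiableAt ℝ y z.1) :
    Φ.dT (fun p => φ p • y p) z = φ z.1 * Φ.dT y z + inner ℝ (Φ.gt φ z) (y z.1) := by
  simp only [dT, tr, Φ.B_smul hφ hy, inner_add_left, inner_smul_left, RCLike.conj_to_real,
    Finset.sum_add_distrib, ← Finset.mul_sum, sum_inner_ev, gt, inner_sub_left,
    real_inner_comm (y z.1) z.2]
  ring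

theorem dv_smul (hφ : DifferentiableAt ℝ φ x) (hy : DifferentiableAt ℝ y x) :
    Φ.dv (fun p => φ p • y p) x = φ x * Φ.dv y x + Φ.m x * inner ℝ (Φ.gr φ x) (y x) := by
  have hY : DifferentiableAt ℝ (fun p => Φ.m p • Φ.F p (y p)) x :=
    (Φ.m_smooth.differentiable (by simp) x).smul ((Φ.sF.differentiable (by simp) x).clm_apply hy)
  have : (fun p => Φ.m p • Φ.F p (φ p • y p)) = fun p => φ p • Φ.m p • Φ.F p (y p) := by
    funext p
    rw [map_smul, smul_comm]
  rw [dv, this, dive_smul hφ hY, inner_gr, map_smul, dv, smul_eq_mul]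

theorem dv_add (hy : DifferentiableAt ℝ y x) (hy' : DifferentiableAt ℝ y' x) :
    Φ.dv (fun p => y p + y' p) x = Φ.dv y x + Φ.dv y' x := by
  have hY : ∀ {y : E n → E n}, DifferentiableAt ℝ y x →
      DifferentiableAt ℝ (fun p => Φ.m p • Φ.F p (y p)) x := fun hy =>
    (Φ.m_smooth.differentiable (by simp) x).smul ((Φ.sF.differentiable (by simp) x).clm_apply hy)
  simp only [dv, map_add, smul_add]
  exact dive_add (hY hy) (hY hy')

theorem cont_B (hy : ContDiff ℝ 1 y) : Continuous (Φ.B y) := by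
  have h1 : Continuous (fderiv ℝ fun p => Φ.F p (y p)) :=
    ((Φ.sF.of_le (by simp)).clm_apply hy).continuous_fderiv one_ne_zero
  have h2 : Continuous (fderiv ℝ Φ.F) := Φ.sF.continuous_fderiv (by simp)
  exact Φ.sFi.continuous.clm_comp ((h1.clm_comp Φ.sF.continuous).sub
    (h2.clm_apply (Φ.sF.continuous.clm_apply hy.continuous)))

theorem cont_dv (hy : ContDiff ℝ 1 y) : Continuous (Φ.dv y) := by
  exact cont_dive ((Φ.m_smooth.of_le (by simp)).smul ((Φ.sF.of_le (by simp)).clm_apply hy))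

theorem cont_dT (hy : ContDiff ℝ 1 y) : Continuous (Φ.dT y) := by
  have h : Continuous fun z : E n × E n => Φ.B y z.1 := (Φ.cont_B hy).comp continuous_fst
  exact (contDiff_tr.continuous.comp h).sub
    ((h.clm_apply continuous_snd).inner (𝕜 := ℝ) continuous_snd)

theorem contDiff_B₂ {y : E n → E n → E n} (hy : ContDiff ℝ ∞ fun p : E n × E n => y p.1 p.2) :
    ContDiff ℝ ∞ fun p : E n × E n => Φ.B (y p.1) p.2 := by
  have h0 : ContDiff ℝ ∞ (Function.uncurry fun (p : E n × E n) (q : E n) => Φ.F q (y p.1 q)) :=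
    (Φ.sF.comp contDiff_snd).clm_apply (hy.comp (contDiff_fst.fst.prodMk contDiff_snd))
  have h1 : ContDiff ℝ ∞ fun p : E n × E n => fderiv ℝ (fun q => Φ.F q (y p.1 q)) p.2 :=
    ContDiff.fderiv h0 contDiff_snd (by simp)
  have h2 : ContDiff ℝ ∞ (fderiv ℝ Φ.F) := Φ.sF.fderiv_right (by simp)
  exact (Φ.sFi.comp contDiff_snd).clm_comp ((h1.clm_comp (Φ.sF.comp contDiff_snd)).sub
    ((h2.comp contDiff_snd).clm_apply ((Φ.sF.comp contDiff_snd).clm_apply hy)))

theorem integral_dv (hy : ContDiff ℝ 1 y) (hc : HasCompactSupport y) : ∫ x, Φ.dv y x = 0 := by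
  refine integral_dive
    ((Φ.m_smooth.of_le (by simp)).smul ((Φ.sF.of_le (by simp)).clm_apply hy)) ?_
  refine HasCompactSupport.intro hc fun x hx => ?_
  simp [image_eq_zero_of_notMem_tsupport hx]

theorem ibp (hf : ContDiff ℝ 1 f) (hc : HasCompactSupport f) (hy : ContDiff ℝ 1 y) :
    ∫ x, f x * Φ.dv y x = -∫ x, inner ℝ (Φ.gr f x) (y x) * Φ.m x := by
  have h0 := Φ.integral_dv (hf.smul hy) hc.smul_right
  have h1 : ∀ x, Φ.dv (fun p => f p • y p) x =
      f x * Φ.dv y x + inner ℝ (Φ.gr f x) (y x) * Φ.m x := fun x => by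
    rw [Φ.dv_smul (hf.differentiable one_ne_zero x) (hy.differentiable one_ne_zero x),
      mul_comm (Φ.m x)]
  have i1 : Integrable fun x => f x * Φ.dv y x :=
    (hf.continuous.mul (Φ.cont_dv hy)).integrable_of_hasCompactSupport hc.mul_right
  have i2 : Integrable fun x => inner ℝ (Φ.gr f x) (y x) * Φ.m x := by
    refine (((Φ.cont_gr hf).inner (𝕜 := ℝ) hy.continuous).mul
      Φ.m_smooth.continuous).integrable_of_hasCompactSupport ?_
    refine HasCompactSupport.intro hc fun x hx => ?_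
    have : Φ.gr f x = 0 :=
      (Φ.gr_congr (notMem_tsupport_iff_eventuallyEq.1 hx)).trans (Φ.gr_const 0 x)
    simp [this]
  change ∫ x, Φ.dv (fun p => f p • y p) x = 0 at h0
  simp only [h1] at h0
  rw [integral_add i1 i2] at h0
  linarith

theorem GG.ggc {Φ : Frame n} {A : Set (E n)} {W : Vf n} (h : Φ.GG A W) : Φ.GGc A W 1 := by
  intro y hy _
  rw [one_mul, h y hy]

theorem GG.ggc_compl {Φ : Frame n} {A : Set (E n)} {W : Vf n} (h : Φ.GG A W)
    (hA : MeasurableSet A) : Φ.GGc Aᶜ W (-1) := by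
  intro y hy hc
  have i1 : Integrable (Φ.dv y) := by
    refine (Φ.cont_dv hy).integrable_of_hasCompactSupport ?_
    refine HasCompactSupport.intro hc fun x hx => ?_
    rw [Φ.dv_congr (notMem_tsupport_iff_eventuallyEq.1 hx)]
    simp [dv, dive, tr]
  have := integral_add_compl hA i1
  rw [Φ.integral_dv hy hc, h y hy] at this
  linarith

end Frame

theorem BM.integrableOn {A : Set (E n)} (hA : BM A) {f : E n → ℝ} (hf : Continuous f) :
    IntegrableOn f A := by
  exact (hf.continuousOn.integrableOn_compact hA.bdd.isCompact_closure).mono_set subset_closure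

theorem Close.compact {A : Set (E n)} {R ε : ℝ} {f : E n → ℝ} (h : Close A R ε f) :
    HasCompactSupport f := by
  refine HasCompactSupport.intro (isCompact_closedBall (0 : E n) R) fun x hx => h.supp x ?_
  rw [mem_closedBall_zero_iff] at hx
  exact (not_le.1 hx).le


end Vale.Agent.P219
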