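import Vale.Agent.P219.XDefs
import Vale.Agent.P219.Chart0

/-!
Smooth orthonormal frames.
-/

open scoped ContDiff Topology Manifold Bundle
open Set Filter

set_option maxSynthPendingDepth 3

noncomputable section

namespace Vale.Agent.P219.R

variable {n : ℕ} {b : ℝ}

theorem frm_gs {G : E n → Bil n} (sG : ContDiff ℝ ∞ G) (pd : ∀ x, PD (G x)) (j : ℕ)
    (hj : j ≤ n) : ∃ f : ℕ → E n → E n, (∀ i, ContDiff ℝ ∞ (f i)) ∧
      (∀ x, ∀ i < j, ∀ k < j, G x (f i x) (f k x) = if i = k then 1 else 0) ∧
      ∀ x, ∀ i < j, ∀ m : Fin n, i < m → f i x m = 0 := by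
  induction j with
  | zero =>
    exact ⟨fun _ _ => 0, fun _ => contDiff_const, fun x i hi => absurd hi (Nat.not_lt_zero i),
      fun x i hi => absurd hi (Nat.not_lt_zero i)⟩
  | succ j ih =>
    obtain ⟨f, sf, on, tri⟩ := ih (Nat.le_of_succ_le hj)
    set e : E n := ev (⟨j, hj⟩ : Fin n) with he
    set u : E n → E n := fun x => e - ∑ i ∈ Finset.range j, G x e (f i x) • f i x with hu
    have su : ContDiff ℝ ∞ u := by
      refine contDiff_const.sub (ContDiff.sum fun i _ => ?_)
      exact ((sG.clm_apply contDiff_const).clm_apply (sf i)).smul (sf i)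
    have ucoord : ∀ x, ∀ m : Fin n, j ≤ m → u x m = e m := by
      intro x m hm
      have : (∑ i ∈ Finset.range j, G x e (f i x) • f i x) m = 0 := by
        rw [WithLp.ofLp_sum, Finset.sum_apply]
        refine Finset.sum_eq_zero fun i hi => ?_
        have := tri x i (Finset.mem_range.mp hi) m (lt_of_lt_of_le (Finset.mem_range.mp hi) hm)
        simp [this]
      simp only [hu, PiLp.sub_apply, this, sub_zero]
    have une : ∀ x, u x ≠ 0 := by
      intro x h0
      have := ucoord x ⟨j, hj⟩ le_rfl
      rw [h0] at this
      simp [he, ev] at this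
    have upos : ∀ x, 0 < G x (u x) (u x) := fun x => (pd x).pos _ (une x)
    have uorth : ∀ x, ∀ k < j, G x (u x) (f k x) = 0 := by
      intro x k hk
      simp only [hu, map_sub, map_sum, map_smul, sub_apply,
        sum_apply, smul_apply, smul_eq_mul]
      rw [Finset.sum_eq_single k]
      · rw [on x k hk k hk]
        simp
      · intro i hi hik
        rw [on x i (Finset.mem_range.mp hi) k hk, if_neg hik, mul_zero]
      · intro h
        exact absurd (Finset.mem_range.mpr hk) h
    set g : E n → E n := fun x => (√(G x (u x) (u x)))⁻¹ • u x with hg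
    have sg : ContDiff ℝ ∞ g := by
      refine ContDiff.smul (ContDiff.inv (ContDiff.sqrt ((sG.clm_apply su).clm_apply su)
        fun x => (upos x).ne') fun x => (Real.sqrt_pos.mpr (upos x)).ne') su
    have gorth : ∀ x, ∀ k < j, G x (g x) (f k x) = 0 := by
      intro x k hk
      simp only [hg, map_smul, smul_apply, uorth x k hk, smul_zero]
    have gone : ∀ x, G x (g x) (g x) = 1 := by
      intro x
      have h1 := Real.sqrt_pos.mpr (upos x)
      have h2 := Real.mul_self_sqrt (upos x).le
      simp only [hg, map_smul, smul_apply, smul_eq_mul]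
      field_simp
      rw [sq, h2]
    refine ⟨fun i => if i = j then g else f i, fun i => ?_, fun x i hi k hk => ?_,
      fun x i hi m hm => ?_⟩
    · by_cases h : i = j
      · simp only [h, if_true]
        exact sg
      · simp only [h, if_false]
        exact sf i
    · by_cases h1 : i = j <;> by_cases h2 : k = j
      · simp only [h1, h2, if_true]
        exact gone x
      · have hk' : k < j := by omega
        simp only [h1, h2, if_true, if_false]
        rw [gorth x k hk', if_neg (Ne.symm h2)]
      · have hi' : i < j := by omega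
        simp only [h1, h2, if_true, if_false]
        rw [(pd x).symm, gorth x i hi']
      · simp only [h1, h2, if_false]
        exact on x i (by omega) k (by omega)
    · by_cases h : i = j
      · subst h
        have hne : m ≠ ⟨i, hj⟩ := fun h' => by
          rw [h'] at hm
          exact lt_irrefl _ hm
        simp only [if_true, hg, PiLp.smul_apply, ucoord x m hm.le, he, ev,
          EuclideanSpace.single_apply, if_neg hne, smul_zero]
      · simp only [h, if_false]
        exact tri x i (by omega) m hm

theorem Xd.exists_frame (X : Xd n b) : ∃ Φ : Frame n, X.ON Φ := by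
  obtain ⟨f, sf, on, -⟩ := frm_gs X.sG X.pd n le_rfl
  have on' : ∀ x (i k : Fin n), X.G x (f i x) (f k x) = if i = k then 1 else 0 := by
    intro x i k
    rw [on x i i.2 k k.2]
    simp only [Fin.ext_iff]
  set F : E n → Op n := fun x =>
    ∑ i : Fin n, (EuclideanSpace.proj i : E n →L[ℝ] ℝ).smulRight (f i x) with hF
  set Fi : E n → Op n := fun x => ∑ i : Fin n, (X.G x (f i x)).smulRight (ev i) with hFi
  have Fa : ∀ x v, F x v = ∑ i : Fin n, v i • f i x := by
    intro x v
    simp [hF]
  have Fia : ∀ x v, Fi x v = ∑ i : Fin n, X.G x (f i x) v • ev i := by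
    intro x v
    simp [hFi]
  have GF : ∀ x (i : Fin n) v, X.G x (f i x) (F x v) = v i := by
    intro x i v
    rw [Fa, map_sum]
    simp [on']
  have left : ∀ x v, Fi x (F x v) = v := by
    intro x v
    rw [Fia]
    simp only [GF]
    exact c0_sum v
  have right : ∀ x v, F x (Fi x v) = v := by
    intro x v
    have hinj : Function.Injective (F x).toLinearMap := fun a a' h => by
      have := congrArg (Fi x) h
      simpa only [ContinuousLinearMap.coe_coe, left] using this
    obtain ⟨w, rfl⟩ := LinearMap.injective_iff_surjective.mp hinj v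
    simp only [ContinuousLinearMap.coe_coe, left]
  have sF : ContDiff ℝ ∞ F :=
    ContDiff.sum fun i _ => contDiff_const.smulRight (sf i)
  have sFi : ContDiff ℝ ∞ Fi :=
    ContDiff.sum fun i _ => (X.sG.clm_apply (sf i)).smulRight contDiff_const
  refine ⟨⟨F, Fi, sF, sFi, left, right⟩, fun x u v => ?_⟩
  change X.G x (F x u) (F x v) = inner ℝ u v
  rw [Fa x u, map_sum, sum_apply, PiLp.inner_apply]
  refine Finset.sum_congr rfl fun i _ => ?_
  rw [map_smul, smul_apply, GF]
  simp [mul_comm]


end Vale.Agent.P219.R
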