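import Vale.Agent.P219.Stmt

/-!
Riemannian metrics in charts: geodesics, the exponential map and Jacobi fields.
-/

open scoped ContDiff Topology Manifold
open Set Filter

set_option maxSynthPendingDepth 3

noncomputable section

namespace Vale.Agent.P219.R

variable {n : ℕ}

/-- Bilinear forms. -/
abbrev Bil (n : ℕ) : Type := E n →L[ℝ] E n →L[ℝ] ℝ

/-- The value of a bilinear form. -/
def ip (A : Bil n) (u v : E n) : ℝ := A u v

/-- Symmetric positive definite forms. -/
structure PD (A : Bil n) : Prop where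
  symm : ∀ u v, A u v = A v u
  pos : ∀ u, u ≠ 0 → 0 < A u u

/-- The derivative of a metric coefficient. -/
def dG (G : E n → Bil n) (y a u v : E n) : ℝ := lineDeriv ℝ (fun z => ip (G z) u v) y a

/-- The Christoffel map. -/
def chr (G : E n → Bil n) (y u v : E n) : E n := P219.chr (fun y u v => ip (G y) u v) y u v

/-- The curvature tensor. -/
def riem (G : E n → Bil n) (y u v w : E n) : E n :=
  lineDeriv ℝ (fun z => chr G z v w) y u - lineDeriv ℝ (fun z => chr G z u w) y v +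
    chr G y u (chr G y v w) - chr G y v (chr G y u w)

theorem riem_eq (G : E n → Bil n) : riem G = P219.riem fun y u v => ip (G y) u v := rfl

/-- The covariant derivative of a vector field `J` along the coordinate curve `x`. -/
def cov (G : E n → Bil n) (x J : ℝ → E n) (s : ℝ) : E n :=
  deriv J s + chr G (x s) (deriv x s) (J s)

/-- A smooth field of positive definite forms on an open set. -/
structure Good (G : E n → Bil n) (U : Set (E n)) : Prop where
  isOpen : IsOpen U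
  smooth : ContDiffOn ℝ ∞ G U
  pos : ∀ y ∈ U, PD (G y)

/-- The geodesic vector field in a chart. -/
def Wf (G : E n → Bil n) (z : E n × E n) : E n × E n := (z.2, - chr G z.1 z.2 z.2)

section Mfd

variable {M : Type*} [TopologicalSpace M] [ChartedSpace (E n) M]

variable (n M) in
/-- The maximal atlas. -/
def At : Set (OpenPartialHomeomorph M (E n)) := IsManifold.maximalAtlas 𝓘(ℝ, E n) ∞ M

variable (n) in
theorem chart_mem [IsManifold 𝓘(ℝ, E n) ∞ M] (x : M) : chartAt (E n) x ∈ At n M :=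
  IsManifold.chart_mem_maximalAtlas x

/-- The differential at `x` of the change of coordinates from the chart `e` to the chart `e'`. -/
def tr (e e' : OpenPartialHomeomorph M (E n)) (x : M) (u : E n) : E n :=
  fderiv ℝ (e' ∘ e.symm) (e x) u

variable (n M) in
/-- A smooth Riemannian metric given in all charts of the maximal atlas. -/
structure RMetric where
  g : OpenPartialHomeomorph M (E n) → E n → Bil n
  smooth : ∀ e ∈ At n M, ContDiffOn ℝ ∞ (g e) e.target
  pos : ∀ e ∈ At n M, ∀ y ∈ e.target, PD (g e y)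
  compat : ∀ e ∈ At n M, ∀ e' ∈ At n M, ∀ x ∈ e.source, x ∈ e'.source → ∀ u v,
    ip (g e (e x)) u v = ip (g e' (e' x)) (tr e e' x u) (tr e e' x v)

theorem RMetric.good (g : RMetric n M) {e : OpenPartialHomeomorph M (E n)} (he : e ∈ At n M) :
    Good (g.g e) e.target := ⟨e.open_target, g.smooth e he, g.pos e he⟩

/-- The curvature bound, in the preferred charts. -/
def Sec (g : RMetric n M) (b : ℝ) : Prop :=
  ∀ (x : M) (u v : E n), ip (g.g (chartAt (E n) x) (chartAt (E n) x x))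
      (riem (g.g (chartAt (E n) x)) (chartAt (E n) x x) u v v) u ≤
    -b ^ 2 * (ip (g.g (chartAt (E n) x) (chartAt (E n) x x)) u u *
      ip (g.g (chartAt (E n) x) (chartAt (E n) x x)) v v -
      ip (g.g (chartAt (E n) x) (chartAt (E n) x x)) u v ^ 2)

/-- `γ` is a geodesic: in every chart it solves `x'' + Γ(x', x') = 0`. -/
def IsGeodesic (g : RMetric n M) (γ : ℝ → M) : Prop :=
  Continuous γ ∧ ∀ e ∈ At n M, ∀ t, γ t ∈ e.source → DifferentiableAt ℝ (e ∘ γ) t ∧
    HasDerivAt (deriv (e ∘ γ))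
      (- chr (g.g e) (e (γ t)) (deriv (e ∘ γ) t) (deriv (e ∘ γ) t)) t

/-- `J` is a Jacobi field along `γ`. -/
def IsJacobi (g : RMetric n M) (γ : ℝ → M) (J : OpenPartialHomeomorph M (E n) → ℝ → E n) : Prop :=
  (∀ e ∈ At n M, ∀ e' ∈ At n M, ∀ t, γ t ∈ e.source → γ t ∈ e'.source →
    J e' t = tr e e' (γ t) (J e t)) ∧
  ∀ e ∈ At n M, ∀ t, γ t ∈ e.source → DifferentiableAt ℝ (J e) t ∧
    DifferentiableAt ℝ (cov (g.g e) (e ∘ γ) (J e)) t ∧
    cov (g.g e) (e ∘ γ) (cov (g.g e) (e ∘ γ) (J e)) t +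
      riem (g.g e) (e (γ t)) (J e t) (deriv (e ∘ γ) t) (deriv (e ∘ γ) t) = 0

/-- The vector field `J` along `γ` vanishes at time `t`. -/
def VanishesAt (γ : ℝ → M) (J : OpenPartialHomeomorph M (E n) → ℝ → E n) (t : ℝ) : Prop :=
  ∀ e ∈ At n M, γ t ∈ e.source → J e t = 0

/-- Position and velocity of a curve in a chart. -/
def st (e : OpenPartialHomeomorph M (E n)) (γ : ℝ → M) (t : ℝ) : E n × E n :=
  (e (γ t), deriv (e ∘ γ) t)

/-- The geodesic equation at one time. -/
def GeodAt (g : RMetric n M) (γ : ℝ → M) (t : ℝ) : Prop :=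
  ContinuousAt γ t ∧ ∀ e ∈ At n M, γ t ∈ e.source → DifferentiableAt ℝ (e ∘ γ) t ∧
    HasDerivAt (deriv (e ∘ γ))
      (- chr (g.g e) (e (γ t)) (deriv (e ∘ γ) t) (deriv (e ∘ γ) t)) t

theorem isGeodesic_iff {g : RMetric n M} {γ : ℝ → M} : IsGeodesic g γ ↔ ∀ t, GeodAt g γ t :=
  ⟨fun h t => ⟨h.1.continuousAt, fun e he ht => h.2 e he t ht⟩, fun h =>
    ⟨continuous_iff_continuousAt.2 fun t => (h t).1, fun e he t ht => (h t).2 e he ht⟩⟩

/-- Geodesic completeness. -/
class GC (g : RMetric n M) : Prop where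
  ex : ∀ e ∈ At n M, ∀ x ∈ e.source, ∀ v, ∃ γ, IsGeodesic g γ ∧ γ 0 = x ∧ deriv (e ∘ γ) 0 = v

open Classical in
/-- The geodesic with initial point `x` and initial velocity `v` in the chart `e`. -/
def geo (g : RMetric n M) (e : OpenPartialHomeomorph M (E n)) (x : M) (v : E n) : ℝ → M :=
  if h : ∃ γ, IsGeodesic g γ ∧ γ 0 = x ∧ deriv (e ∘ γ) 0 = v then h.choose else fun _ => x

/-- The exponential map. -/
def expm (g : RMetric n M) (e : OpenPartialHomeomorph M (E n)) (x : M) (v : E n) : M :=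
  geo g e x v 1

/-- The variation field of the geodesics from `x`. -/
def jac (g : RMetric n M) (e : OpenPartialHomeomorph M (E n)) (x : M) (v w : E n)
    (e' : OpenPartialHomeomorph M (E n)) (s : ℝ) : E n :=
  fderiv ℝ (fun v => e' (geo g e x v s)) v w

/-- The differential of the exponential map at `x` is injective everywhere. -/
def ExpInj (g : RMetric n M) (e : OpenPartialHomeomorph M (E n)) (x : M) : Prop :=
  ∀ v w, ∀ e' ∈ At n M, expm g e x v ∈ e'.source → jac g e x v w e' 1 = 0 → w = 0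

end Mfd

/-- The distance of `M` is the Riemannian distance of `g`. -/
structure Compat {M : Type*} [MetricSpace M] [ChartedSpace (E n) M] (g : RMetric n M) : Prop where
  up : ∀ (γ : ℝ → M) (s t c : ℝ), s ≤ t → 0 ≤ c → (∀ r ∈ Icc s t, ContinuousAt γ r ∧
    ∃ e ∈ At n M, γ r ∈ e.source ∧ DifferentiableAt ℝ (e ∘ γ) r ∧
      ip (g.g e (e (γ r))) (deriv (e ∘ γ) r) (deriv (e ∘ γ) r) ≤ c ^ 2) →
    dist (γ s) (γ t) ≤ c * (t - s)
  low : ∀ f : M → ℝ, (∀ x, ∃ e ∈ At n M, x ∈ e.source ∧ DifferentiableAt ℝ (f ∘ e.symm) (e x) ∧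
      ∀ v, fderiv ℝ (f ∘ e.symm) (e x) v ^ 2 ≤ ip (g.g e (e x)) v v) →
    ∀ p q, f q - f p ≤ dist p q

/-- The squared norm of the variation field of the rays from `o`. -/
def jsq (G : E n → Bil n) (ex : E n → E n → E n) (o v w : E n) (t : ℝ) : ℝ :=
  G (ex o (t • v)) (fderiv ℝ (ex o) (t • v) (t • w)) (fderiv ℝ (ex o) (t • v) (t • w))

variable (n) in
/-- The exponential maps of a Cartan-Hadamard manifold in a global chart. -/
structure Xd (b : ℝ) where
  G : E n → Bil n
  ex : E n → E n → E n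
  d : E n → E n → ℝ
  b0 : 0 ≤ b
  sG : ContDiff ℝ ∞ G
  pd : ∀ x, PD (G x)
  sex : ContDiff ℝ ∞ fun p : E n × E n => ex p.1 p.2
  zero : ∀ o, ex o 0 = o
  dzero : ∀ o w, fderiv ℝ (ex o) 0 w = w
  bij : ∀ o, Function.Bijective (ex o)
  flow : ∀ (o v : E n) (s t : ℝ), ex (ex o (s • v)) (t • fderiv ℝ (ex o) (s • v) v) =
    ex o ((s + t) • v)
  gauss : ∀ o v w, G (ex o v) (fderiv ℝ (ex o) v w) (fderiv ℝ (ex o) v v) = G o w v
  jac : ∀ o v w, G o w v = 0 → ∃ F1 F2 : ℝ → ℝ, (∀ t, HasDerivAt (jsq G ex o v w) (F1 t) t) ∧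
    (∀ t, HasDerivAt F1 (F2 t) t) ∧ F2 0 = 2 * G o w w ∧
    ∀ t, F1 t ^ 2 + 4 * (b ^ 2 * G o v v) * jsq G ex o v w t ^ 2 ≤ 2 * jsq G ex o v w t * F2 t
  dist : ∀ o v, d o (ex o v) = √(G o v v)
  symm : ∀ x y, d x y = d y x
  tri : ∀ x y z, d x z ≤ d x y + d y z

/-- The modified distance function. -/
def md (b r : ℝ) : ℝ := if b = 0 then r ^ 2 / 2 else (Real.cosh (b * r) - 1) / b ^ 2

end Vale.Agent.P219.R
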