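import Vale.Agent.P219.Fr2

/-!
The modified distance: pointwise identities.
-/

open scoped ContDiff Topology ENNReal
open MeasureTheory Set Filter Metric

noncomputable section

namespace Vale.Agent.P219

variable {n k : ℕ} {b : ℝ}

theorem aa_ge (b τ : ℝ) : 1 ≤ aa b τ := by
  exact le_add_of_nonneg_right (by positivity)

theorem lam_pos {s t : ℝ} (hs : 0 ≤ s) (ht : 0 < t) : 0 < lam s t := by
  unfold lam
  positivity

theorem lam_le {s t : ℝ} (hs : 0 ≤ s) (ht : 0 < t) : lam s t ≤ 2 / t := by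
  rw [lam, div_le_div_iff₀ (by positivity) ht]
  nlinarith

namespace Geo

section general

variable (Γ : Geo n b) {o x : E n} {τ : ℝ} {z : E n × E n}

theorem nonneg (o x : E n) : 0 ≤ Γ.σ o x := by
  rcases eq_or_ne o x with rfl | h
  · exact (Γ.self o).ge
  · exact (Γ.pos o x h).le

theorem cont : Continuous fun p : E n × E n => Γ.σ p.1 p.2 := by
  exact Γ.smooth.continuous

theorem sm (o : E n) : ContDiff ℝ ∞ (Γ.σ o) := by
  exact Γ.smooth.comp (contDiff_const.prodMk contDiff_id)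

theorem diff (o x : E n) : DifferentiableAt ℝ (Γ.σ o) x := by
  exact (Γ.sm o).differentiable (by simp) x

theorem gr_sm₂ : ContDiff ℝ ∞ fun p : E n × E n => Γ.gr (Γ.σ p.1) p.2 := by
  exact Γ.contDiff_gr₂ Γ.smooth

theorem gr_sm (o : E n) : ContDiff ℝ ∞ (Γ.gr (Γ.σ o)) := by
  exact Γ.contDiff_gr (Γ.sm o)

theorem Xi_sm₂ : ContDiff ℝ ∞ fun p : E n × E n => Γ.Xi p.1 p.2 := by
  have h := Γ.gr_sm₂.comp (contDiff_snd.prodMk contDiff_fst :
    ContDiff ℝ ∞ fun p : E n × E n => (p.2, p.1))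
  simpa only [Function.comp_def, Xi] using h

theorem Xi_sm (o : E n) : ContDiff ℝ ∞ (Γ.Xi o) := by
  have h := Γ.Xi_sm₂.comp (contDiff_const.prodMk contDiff_id : ContDiff ℝ ∞ fun p : E n => (o, p))
  simpa only [Function.comp_def] using h

theorem norm_Xi (o x : E n) : ‖Γ.Xi o x‖ ^ 2 = 2 * Γ.σ o x + b ^ 2 * Γ.σ o x ^ 2 := by
  rw [Xi, Γ.grad, Γ.symm]

theorem inner_Xi (o x v : E n) : inner ℝ (Γ.Xi o x) (fderiv ℝ (Γ.Xi o) x v) =
    (1 + b ^ 2 * Γ.σ o x) * fderiv ℝ (Γ.σ o) x v := by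
  have h1 := ((Γ.Xi_sm o).differentiable (by simp) x).hasFDerivAt.norm_sq
  have h2 := (Γ.diff o x).hasFDerivAt
  have h3 : HasFDerivAt (fun y => 2 * Γ.σ o y + b ^ 2 * Γ.σ o y ^ 2) _ x :=
    (h2.const_mul 2).add ((h2.pow 2).const_mul (b ^ 2))
  simp only [norm_Xi] at h1
  have h4 := DFunLike.congr_fun (h1.unique h3) v
  simp at h4
  linarith

theorem lap_lower (o x : E n) : n * (1 + b ^ 2 * Γ.σ o x) ≤ tr (Γ.B (Γ.gr (Γ.σ o)) x) := by
  calc (n : ℝ) * (1 + b ^ 2 * Γ.σ o x) = ∑ i : Fin n, (1 + b ^ 2 * Γ.σ o x) * ‖(ev i : E n)‖ ^ 2 := by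
        simp [norm_ev, mul_add]
    _ ≤ _ := Finset.sum_le_sum fun i _ => Γ.hess o x (ev i)

theorem norm_gt_σ (o : E n) (hz : ‖z.2‖ = 1) : ‖Γ.gt (Γ.σ o) z‖ ^ 2 =
    2 * Γ.σ o z.1 + b ^ 2 * Γ.σ o z.1 ^ 2 - Γ.pn o z ^ 2 := by
  rw [Γ.norm_gt_sq _ hz, Γ.grad, pn]

theorem abs_pn_le (o : E n) (hz : ‖z.2‖ = 1) : |Γ.pn o z| ≤ ‖Γ.gr (Γ.σ o) z.1‖ := by
  simpa [hz, pn] using abs_real_inner_le_norm (Γ.gr (Γ.σ o) z.1) z.2

theorem cont_Hs (o : E n) : Continuous (Γ.Hs o) := by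
  exact Γ.cont_dT ((Γ.gr_sm o).of_le (by simp))

theorem cont_pn (o : E n) : Continuous (Γ.pn o) := by
  exact ((Γ.gr_sm o).continuous.comp continuous_fst).inner (𝕜 := ℝ) continuous_snd

theorem cont_Wd (o : E n) : Continuous (Γ.Wd o) := by
  have h1 : Continuous fun z : E n × E n => fderiv ℝ (Γ.Xi o) z.1 :=
    ((Γ.Xi_sm o).continuous_fderiv (by simp)).comp continuous_fst
  have h2 : Continuous fun z : E n × E n => Γ.F z.1 := Γ.sF.continuous.comp continuous_fst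
  have h3 : Continuous fun z : E n × E n => Γ.gr (Γ.σ o) z.1 :=
    (Γ.gr_sm o).continuous.comp continuous_fst
  have h4 : ∀ j, Continuous fun z : E n × E n => prj z.2 (ev j) := fun j =>
    continuous_const.sub ((continuous_const.inner (𝕜 := ℝ) continuous_snd).smul continuous_snd)
  exact continuous_finsetSum _ fun j _ => ((h1.clm_apply (h2.clm_apply (h4 j))).norm.pow 2).sub
    (continuous_const.mul ((h3.inner (𝕜 := ℝ) (h4 j)).pow 2))

theorem D_pos (o : E n) (hτ : 0 < τ) (x : E n) : 0 < Γ.D o τ x := by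
  have h1 := aa_ge b τ
  have h2 := Γ.nonneg o x
  unfold D
  positivity

theorem D_sm (o : E n) (τ : ℝ) : ContDiff ℝ ∞ (Γ.D o τ) := by
  exact contDiff_const.add (contDiff_const.mul (Γ.sm o))

theorem la_pos (o : E n) (hτ : 0 < τ) (x : E n) : 0 < Γ.la o τ x := by
  exact div_pos (by positivity) (Γ.D_pos o hτ x)

theorem la_sm (o : E n) (hτ : 0 < τ) : ContDiff ℝ ∞ (Γ.la o τ) := by
  exact contDiff_const.div (Γ.D_sm o τ) fun x => (Γ.D_pos o hτ x).ne'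

theorem ps_sm (o : E n) (hτ : 0 < τ) : ContDiff ℝ ∞ (Γ.ps o τ) := by
  exact (contDiff_const.sub (contDiff_const.mul (Γ.sm o))).div (Γ.D_sm o τ)
    fun x => (Γ.D_pos o hτ x).ne'

theorem cont_P (o : E n) (hτ : 0 < τ) : Continuous (Γ.P o τ) := by
  exact (continuous_const.mul (Γ.cont_pn o)).div ((Γ.D_sm o τ).continuous.comp continuous_fst)
    fun z => (Γ.D_pos o hτ z.1).ne'

theorem cont_lam (o : E n) (hτ : 0 < τ) : ContDiff ℝ ∞ fun x => lam (Γ.σ o x) τ := by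
  refine contDiff_const.div (contDiff_const.add (contDiff_const.mul (Γ.sm o))) fun x => ?_
  have h2 := Γ.nonneg o x
  positivity

theorem la_le_lam (o : E n) (hτ : 0 < τ) (x : E n) : Γ.la o τ x ≤ lam (Γ.σ o x) τ := by
  have h1 := aa_ge b τ
  have h2 := Γ.nonneg o x
  rw [la, lam, D]
  refine div_le_div_of_nonneg_left (by positivity) (by positivity) ?_
  nlinarith

theorem lam_le_la (o : E n) (hτ : 0 < τ) (x : E n) :
    lam (Γ.σ o x) τ ≤ aa b τ * Γ.la o τ x := by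
  have h1 := aa_ge b τ
  have h2 := Γ.nonneg o x
  rw [la, lam, D, ← mul_div_assoc, div_le_div_iff₀ (by positivity) (by positivity)]
  nlinarith [mul_nonneg (sub_nonneg.2 h1) (pow_pos hτ 3).le]

theorem gt_D (o : E n) (τ : ℝ) (z : E n × E n) :
    Γ.gt (Γ.D o τ) z = (2 * aa b τ) • Γ.gt (Γ.σ o) z := by
  have := Γ.gt_add (z := z) (differentiableAt_const (τ ^ 2))
    ((Γ.diff o z.1).const_mul (2 * aa b τ))
  rw [Γ.gt_const, zero_add, Γ.gt_const_mul _ (Γ.diff o z.1)] at this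
  exact this

theorem isCompact_near {K : Set (E n)} (hK : IsCompact K) (s : ℝ) :
    IsCompact {o | ∃ x ∈ K, Γ.σ o x ≤ s} := by
  have h1 := ((Γ.bdd K hK s).isCompact_closure.prod hK).inter_right
    (isClosed_le Γ.cont (continuous_const (y := s)))
  refine (congrArg IsCompact (Set.ext fun o => ?_)).mpr (h1.image continuous_fst)
  constructor
  · rintro ⟨x, hx, h⟩
    exact ⟨(o, x), ⟨⟨subset_closure ⟨x, hx, h⟩, hx⟩, h⟩, rfl⟩
  · rintro ⟨p, ⟨hp, h⟩, rfl⟩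
    exact ⟨p.2, hp.2, h⟩

theorem isCompact_le (o : E n) (s : ℝ) : IsCompact {x | Γ.σ o x ≤ s} := by
  convert Γ.isCompact_near (isCompact_singleton (x := o)) s using 2 with x
  simp [Γ.symm o]

theorem grad_le {K : Set (E n)} (hK : IsCompact K) :
    ∃ C > 0, ∀ x ∈ K, ∀ y ∈ K, ‖Γ.gr (Γ.σ x) y‖ ≤ C * √(Γ.σ x y) := by
  obtain ⟨M, hM⟩ := (hK.prod hK).exists_bound_of_continuousOn Γ.cont.continuousOn
  refine ⟨√(2 + b ^ 2 * |M|), Real.sqrt_pos.2 (by positivity), fun x hx y hy => ?_⟩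
  rw [← Real.sqrt_mul (by positivity)]
  apply Real.le_sqrt_of_sq_le
  have h1 : Γ.σ x y ≤ |M| := (le_abs_self _).trans ((hM (x, y) ⟨hx, hy⟩).trans (le_abs_self _))
  have h2 := Γ.nonneg x y
  rw [Γ.grad]
  nlinarith [mul_nonneg (mul_nonneg (sq_nonneg b) h2) (sub_nonneg.2 h1)]

end general

variable (Γ : Geo (k + 1) b) {o : E (k + 1)} {τ : ℝ} {z : E (k + 1) × E (k + 1)}

theorem Hs_lower (o : E (k + 1)) (hz : ‖z.2‖ = 1) :
    k * (1 + b ^ 2 * Γ.σ o z.1) ≤ Γ.Hs o z := by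
  have h1 := sum_prj_sq hz
  rw [Nat.cast_add, Nat.cast_one, add_sub_cancel_right] at h1
  rw [Hs, Frame.dT, tr_sub_inner hz, ← h1, Finset.sum_mul]
  exact Finset.sum_le_sum fun j _ => by rw [mul_comm]; exact Γ.hess o z.1 _

theorem Wd_le (o : E (k + 1)) (hz : ‖z.2‖ = 1) : Γ.Wd o z ≤ k := by
  have h1 := sum_prj_sq hz
  rw [Nat.cast_add, Nat.cast_one, add_sub_cancel_right] at h1
  rw [Wd, ← h1]
  exact Finset.sum_le_sum fun j _ => sub_le_iff_le_add.2 (Γ.rauch o z.1 _)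

theorem Wd_eq (hz : ‖z.2‖ = 1) (h : Γ.Wd o z = k) {ξ : E (k + 1)} (hξ : inner ℝ ξ z.2 = 0) :
    ‖fderiv ℝ (Γ.Xi o) z.1 (Γ.F z.1 ξ)‖ ^ 2 =
      ‖ξ‖ ^ 2 + b ^ 2 * inner ℝ (Γ.gr (Γ.σ o) z.1) ξ ^ 2 := by
  obtain ⟨L, hL⟩ : ∃ L : Op (k + 1), L = (fderiv ℝ (Γ.Xi o) z.1).comp (Γ.F z.1) := ⟨_, rfl⟩
  have hL' : ∀ v, fderiv ℝ (Γ.Xi o) z.1 (Γ.F z.1 v) = L v := fun v => by rw [hL]; rfl
  have hr : ∀ v, ‖L v‖ ^ 2 ≤ ‖v‖ ^ 2 + b ^ 2 * inner ℝ (Γ.gr (Γ.σ o) z.1) v ^ 2 := fun v => by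
    rw [← hL']
    exact Γ.rauch o z.1 v
  have h1 := sum_prj_sq hz
  rw [Nat.cast_add, Nat.cast_one, add_sub_cancel_right] at h1
  rw [Wd, ← h1] at h
  simp only [hL'] at h ⊢
  generalize Γ.gr (Γ.σ o) z.1 = g at h hr ⊢
  have h2 := (Finset.sum_eq_sum_iff_of_le fun j _ => sub_le_iff_le_add.2 (hr _)).1 h
  have h3 : ∀ v, ‖L v‖ ^ 2 - b ^ 2 * inner ℝ g v ^ 2 = ‖v‖ ^ 2 → ∀ η,
      inner ℝ (L v) (L η) = inner ℝ v η + b ^ 2 * (inner ℝ g v * inner ℝ g η) := by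
    intro v hv η
    have hq : ∀ t : ℝ, 0 ≤ (‖η‖ ^ 2 + b ^ 2 * inner ℝ g η ^ 2 - ‖L η‖ ^ 2) * (t * t) +
        (2 * (inner ℝ v η + b ^ 2 * (inner ℝ g v * inner ℝ g η) - inner ℝ (L v) (L η))) * t +
        0 := by
      intro t
      have := hr (v + t • η)
      rw [map_add, map_smul, norm_add_sq_real, norm_add_sq_real, inner_add_right, inner_smul_right,
        inner_smul_right, inner_smul_right, norm_smul, norm_smul, mul_pow, mul_pow,
        Real.norm_eq_abs, sq_abs] at this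
      nlinarith
    have hd := discrim_le_zero hq
    rw [discrim] at hd
    have : inner ℝ v η + b ^ 2 * (inner ℝ g v * inner ℝ g η) - inner ℝ (L v) (L η) = 0 :=
      pow_eq_zero_iff two_ne_zero |>.1 (le_antisymm (by nlinarith) (sq_nonneg _))
    linarith
  have h4 : ξ = ∑ j, ξ j • prj z.2 (ev j) := by
    simp only [prj, smul_sub, Finset.sum_sub_distrib, smul_smul, ← Finset.sum_smul,
      real_inner_comm z.2, ← inner_ev, sum_inner_ev]
    simp only [inner_ev, sum_ev]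
    rw [real_inner_comm, hξ, zero_smul, sub_zero]
  have h5 : inner ℝ (L ξ) (L ξ) = inner ℝ ξ ξ + b ^ 2 * (inner ℝ g ξ * inner ℝ g ξ) := by
    have e1 : inner ℝ (L ξ) (L ξ) = ∑ j, ξ j * inner ℝ (L (prj z.2 (ev j))) (L ξ) := by
      conv_lhs => enter [2]; rw [h4]
      simp only [map_sum, map_smul, sum_inner, inner_smul_left, RCLike.conj_to_real]
    have e2 : inner ℝ ξ ξ = ∑ j, ξ j * inner ℝ (prj z.2 (ev j)) ξ := by
      conv_lhs => enter [2]; rw [h4]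
      simp only [sum_inner, inner_smul_left, RCLike.conj_to_real]
    have e3 : inner ℝ g ξ = ∑ j, ξ j * inner ℝ g (prj z.2 (ev j)) := by
      conv_lhs => rw [h4]
      simp only [inner_sum, inner_smul_right]
    rw [e1, e2]
    conv_rhs => enter [2, 2, 1]; rw [e3]
    rw [Finset.sum_mul, Finset.mul_sum, ← Finset.sum_add_distrib]
    refine Finset.sum_congr rfl fun j _ => ?_
    rw [h3 _ (h2 j (Finset.mem_univ j))]
    ring
  rw [real_inner_self_eq_norm_sq, real_inner_self_eq_norm_sq] at h5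
  rw [h5, sq (inner ℝ g ξ)]

theorem cont_er (o : E (k + 1)) (hτ : 0 < τ) {u : E (k + 1) → ℝ} (hu : ContDiff ℝ 1 u) :
    Continuous (Γ.er o τ u) := by
  exact (Γ.cont_gt hu).add (((hu.continuous.comp continuous_fst).mul (continuous_const.div
    ((Γ.D_sm o τ).continuous.comp continuous_fst) fun z => (Γ.D_pos o hτ z.1).ne')).smul
    (Γ.cont_gt ((Γ.sm o).of_le (by simp))))

theorem vv_sm (o : E (k + 1)) (hτ : 0 < τ) {u : E (k + 1) → ℝ} (hu : ContDiff ℝ 1 u) :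
    ContDiff ℝ 1 (Γ.vv o τ u) := by
  exact hu.div (((Γ.la_sm o hτ).of_le (by simp)).rpow_const_of_ne fun x => (Γ.la_pos o hτ x).ne')
    fun x => (Real.rpow_pos_of_pos (Γ.la_pos o hτ x) _).ne'

theorem er_eq (o : E (k + 1)) (hτ : 0 < τ) {u : E (k + 1) → ℝ} (hu : ContDiff ℝ 1 u)
    (z : E (k + 1) × E (k + 1)) :
    Γ.er o τ u z = Γ.la o τ z.1 ^ be k • Γ.gt (Γ.vv o τ u) z := by
  have hD := Γ.D_pos o hτ z.1
  have hl : 0 < 2 * τ / Γ.D o τ z.1 := Γ.la_pos o hτ z.1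
  have hL := Real.rpow_pos_of_pos hl (be k)
  have dD : DifferentiableAt ℝ (Γ.D o τ) z.1 := (Γ.D_sm o τ).differentiable (by simp) _
  have h1 : HasDerivAt (fun t : ℝ => ((2 * τ / t) ^ be k)⁻¹)
      (be k / (Γ.D o τ z.1 * (2 * τ / Γ.D o τ z.1) ^ be k)) (Γ.D o τ z.1) := by
    generalize Γ.D o τ z.1 = d at hD hl hL
    refine ((((hasDerivAt_const d (2 * τ)).div (hasDerivAt_id d) hD.ne').rpow_const (p := be k)
      (Or.inl hl.ne')).inv hL.ne').congr_deriv ?_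
    simp only [Pi.div_apply, id]
    rw [Real.rpow_sub_one hl.ne']
    field_simp
    ring
  have h2 := Γ.gt_comp h1 dD
  have h3 := Γ.gt_mul (z := z) (g := fun y => ((2 * τ / Γ.D o τ y) ^ be k)⁻¹)
    (hu.differentiable one_ne_zero _) (h1.differentiableAt.comp z.1 dD)
  have h4 : Γ.vv o τ u = fun y => u y * ((2 * τ / Γ.D o τ y) ^ be k)⁻¹ := by
    funext y
    rw [vv, la, div_eq_mul_inv]
  rw [h4, h3, h2, gt_D, er, la, smul_add, smul_smul, smul_smul, smul_smul, smul_smul,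
    mul_inv_cancel₀ hL.ne', one_smul, add_comm (Γ.gt u z)]
  congr 2
  field_simp

theorem fv_σ {W : Vf (k + 1)} {h : ℝ} {γ : E (k + 1) → ℝ} (hF : Γ.FV W h γ) (o : E (k + 1))
    {φ : E (k + 1) → ℝ} (hφ : ContDiff ℝ 1 φ) :
    ∫ z, (φ z.1 * Γ.Hs o z + inner ℝ (Γ.gt φ z) (Γ.gt (Γ.σ o) z)) ∂W.V =
      k * ∫ z, γ z.1 * (φ z.1 * Γ.pn o z) ∂W.V := by
  have h1 := hF.fv (fun p => φ p • Γ.gr (Γ.σ o) p) (hφ.smul ((Γ.gr_sm o).of_le (by simp)))
  simp only [inner_smul_left, RCLike.conj_to_real] at h1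
  refine Eq.trans (W.integral_congr fun z _ hz => ?_) h1
  rw [Γ.dT_smul (hφ.differentiable one_ne_zero _) ((Γ.gr_sm o).differentiable (by simp) _),
    Γ.inner_gt_gr _ _ hz, Hs]

end Geo


end Vale.Agent.P219
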