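import Vale.Agent.P219.Ge1

/-!
The Hardy identity.
-/

open scoped ContDiff Topology ENNReal
open MeasureTheory Set Filter Metric

noncomputable section

namespace Vale.Agent.P219

variable {n k : ℕ} {b : ℝ}

namespace Geo

variable (Γ : Geo (k + 1) b) {W : Vf (k + 1)} {h : ℝ} {γ : E (k + 1) → ℝ} {K : Set (E (k + 1))}

theorem hardy_phi_sm (o : E (k + 1)) {τ : ℝ} (hτ : 0 < τ) {u : E (k + 1) → ℝ}
    (hu : ContDiff ℝ 1 u) :
    ContDiff ℝ 1 fun x => 2 * be k * aa b τ * u x ^ 2 / Γ.D o τ x :=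
  (contDiff_const.mul (hu.pow 2)).div ((Γ.D_sm o τ).of_le (by exact_mod_cast le_top))
    fun x => (Γ.D_pos o hτ x).ne'

theorem hardy_gt_phi (o : E (k + 1)) {τ : ℝ} (hτ : 0 < τ) {u : E (k + 1) → ℝ}
    (hu : ContDiff ℝ 1 u) (z : E (k + 1) × E (k + 1)) :
    Γ.gt (fun x => 2 * be k * aa b τ * u x ^ 2 / Γ.D o τ x) z =
      (4 * be k * aa b τ * u z.1 / Γ.D o τ z.1) • Γ.gt u z -
        (4 * be k * aa b τ ^ 2 * u z.1 ^ 2 / Γ.D o τ z.1 ^ 2) • Γ.gt (Γ.σ o) z := by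
  have hD := (Γ.D_pos o hτ z.1).ne'
  have hud : DifferentiableAt ℝ u z.1 := hu.differentiable (by simp) z.1
  have hDd : DifferentiableAt ℝ (Γ.D o τ) z.1 := (Γ.D_sm o τ).differentiable (by simp) z.1
  have e : (fun x => 2 * be k * aa b τ * u x ^ 2 / Γ.D o τ x) =
      fun x => 2 * be k * aa b τ * ((u x * u x) * (Γ.D o τ x)⁻¹) := by
    funext x
    ring
  have h1 : Γ.gt (fun x => (Γ.D o τ x)⁻¹) z = (-(Γ.D o τ z.1 ^ 2)⁻¹) • Γ.gt (Γ.D o τ) z :=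
    Γ.gt_comp (φ := fun t : ℝ => t⁻¹) (hasDerivAt_inv hD) hDd
  rw [e, Γ.gt_const_mul (f := fun x => u x * u x * (Γ.D o τ x)⁻¹) _
      ((hud.mul hud).mul (hDd.inv hD)),
    Γ.gt_mul (f := fun x => u x * u x) (g := fun x => (Γ.D o τ x)⁻¹) (hud.mul hud) (hDd.inv hD),
    h1, Γ.gt_mul hud hud, Γ.gt_D]
  match_scalars <;> field_simp <;> ring

theorem hardy_pt {U G S X H p g s D a c β κ τ : ℝ} (hD0 : D ≠ 0) (hD : D = τ ^ 2 + 2 * a * s)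
    (ha : a = 1 + b ^ 2 * τ ^ 2 / 4) (hc : c = κ * (κ - 2) / 4) (hβ : β = (κ - 2) / 2)
    (hS : S = 2 * s + b ^ 2 * s ^ 2 - p ^ 2) :
    G + c * (U ^ 2 * (g ^ 2 - b ^ 2)) + (2 * β * a * U ^ 2 / D * H +
      (4 * β * a * U / D * X - 4 * β * a ^ 2 * U ^ 2 / D ^ 2 * S)) =
    G + 2 * (U * (2 * β * a / D) * X) + (U * (2 * β * a / D)) ^ 2 * S +
      c * (U ^ 2 * (2 * τ / D) ^ 2) + c * (U ^ 2 * (2 * a * p / D - g) ^ 2) +
      2 * β * a * U ^ 2 / D * (H - κ * (1 + b ^ 2 * s)) +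
      κ * (g * (2 * β * a * U ^ 2 / D * p)) := by
  have key : 4 * a ^ 2 * (2 * s + b ^ 2 * s ^ 2) + 4 * τ ^ 2 + b ^ 2 * D ^ 2 -
      4 * a * D * (1 + b ^ 2 * s) = 0 := by
    rw [hD, ha]
    ring
  obtain ⟨I, hI⟩ : ∃ I, I = D⁻¹ := ⟨_, rfl⟩
  have hI1 : D * I = 1 := by rw [hI]; exact mul_inv_cancel₀ hD0
  simp only [div_eq_mul_inv _ D, div_eq_mul_inv _ (D ^ 2), ← inv_pow, ← hI]
  rw [hS, hc, hβ]
  linear_combination (-(κ * (κ - 2) / 4) * U ^ 2 * I ^ 2) * key +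
    (κ * (κ - 2) / 4) * U ^ 2 * (b ^ 2 * (D * I + 1) - 4 * a * I * (1 + b ^ 2 * s)) * hI1

theorem hardy (hF : Γ.FV W h γ) (o : E (k + 1)) {τ : ℝ} (hτ : 0 < τ) {u : E (k + 1) → ℝ}
    (hu : ContDiff ℝ 1 u) :
    ∫ z, ‖Γ.gt u z‖ ^ 2 ∂W.V + ck k * ∫ z, u z.1 ^ 2 * (γ z.1 ^ 2 - b ^ 2) ∂W.V =
      ∫ z, ‖Γ.er o τ u z‖ ^ 2 ∂W.V + ck k * ∫ z, u z.1 ^ 2 * Γ.la o τ z.1 ^ 2 ∂W.V +
        ck k * ∫ z, u z.1 ^ 2 * (Γ.P o τ z - γ z.1) ^ 2 ∂W.V +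
        ∫ z, 2 * be k * aa b τ * u z.1 ^ 2 / Γ.D o τ z.1 *
          (Γ.Hs o z - k * (1 + b ^ 2 * Γ.σ o z.1)) ∂W.V := by
  have hφ := Γ.hardy_phi_sm o hτ hu
  have hfv := Γ.fv_σ hF o hφ
  have cu : Continuous fun z : E (k + 1) × E (k + 1) => u z.1 := hu.continuous.comp continuous_fst
  have cγ : Continuous fun z : E (k + 1) × E (k + 1) => γ z.1 := hF.cont.comp continuous_fst
  have cφ : Continuous fun z : E (k + 1) × E (k + 1) =>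
      2 * be k * aa b τ * u z.1 ^ 2 / Γ.D o τ z.1 := hφ.continuous.comp continuous_fst
  have cσ : Continuous fun z : E (k + 1) × E (k + 1) => Γ.σ o z.1 :=
    (Γ.sm o).continuous.comp continuous_fst
  have cl : Continuous fun z : E (k + 1) × E (k + 1) => Γ.la o τ z.1 :=
    (Γ.la_sm o hτ).continuous.comp continuous_fst
  have i1 := W.integrable ((Γ.cont_gt hu).norm.pow 2)
  have i2 := W.integrable ((cu.pow 2).mul ((cγ.pow 2).sub (continuous_const (y := b ^ 2))))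
  have i3 := W.integrable ((cφ.mul (Γ.cont_Hs o)).add ((Γ.cont_gt hφ).inner (𝕜 := ℝ)
    (Γ.cont_gt ((Γ.sm o).of_le (by exact_mod_cast le_top)))))
  have j1 := W.integrable ((Γ.cont_er o hτ hu).norm.pow 2)
  have j2 := W.integrable ((cu.pow 2).mul (cl.pow 2))
  have j3 := W.integrable ((cu.pow 2).mul (((Γ.cont_P o hτ).sub cγ).pow 2))
  have j4 := W.integrable (cφ.mul ((Γ.cont_Hs o).sub ((continuous_const (y := (k : ℝ))).mul
    ((continuous_const (y := (1 : ℝ))).add ((continuous_const (y := b ^ 2)).mul cσ)))))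
  have j5 := W.integrable (cγ.mul (cφ.mul (Γ.cont_pn o)))
  have key : ∫ z, (‖Γ.gt u z‖ ^ 2 + ck k * (u z.1 ^ 2 * (γ z.1 ^ 2 - b ^ 2)) +
      (2 * be k * aa b τ * u z.1 ^ 2 / Γ.D o τ z.1 * Γ.Hs o z +
        inner ℝ (Γ.gt (fun x => 2 * be k * aa b τ * u x ^ 2 / Γ.D o τ x) z)
          (Γ.gt (Γ.σ o) z))) ∂W.V =
      ∫ z, (‖Γ.er o τ u z‖ ^ 2 + ck k * (u z.1 ^ 2 * Γ.la o τ z.1 ^ 2) +
        ck k * (u z.1 ^ 2 * (Γ.P o τ z - γ z.1) ^ 2) +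
        2 * be k * aa b τ * u z.1 ^ 2 / Γ.D o τ z.1 *
          (Γ.Hs o z - k * (1 + b ^ 2 * Γ.σ o z.1)) +
        k * (γ z.1 * (2 * be k * aa b τ * u z.1 ^ 2 / Γ.D o τ z.1 * Γ.pn o z))) ∂W.V := by
    refine W.integral_congr fun z _ hz => ?_
    rw [Γ.hardy_gt_phi o hτ hu, Geo.er, norm_add_sq_real, inner_sub_left, real_inner_smul_left,
      real_inner_smul_left, real_inner_smul_right, real_inner_self_eq_norm_sq, norm_smul, mul_pow,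
      Real.norm_eq_abs, sq_abs]
    exact hardy_pt (Γ.D_pos o hτ z.1).ne' rfl rfl rfl rfl (Γ.norm_gt_σ o hz)
  have a1 := integral_add (i1.add (i2.const_mul (ck k))) i3
  have a2 := integral_add i1 (i2.const_mul (ck k))
  have b1 := integral_add (((j1.add (j2.const_mul (ck k))).add (j3.const_mul (ck k))).add j4)
    (j5.const_mul (k : ℝ))
  have b2 := integral_add ((j1.add (j2.const_mul (ck k))).add (j3.const_mul (ck k))) j4
  have b3 := integral_add (j1.add (j2.const_mul (ck k))) (j3.const_mul (ck k))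
  have b4 := integral_add j1 (j2.const_mul (ck k))
  simp only [Pi.add_apply, Pi.mul_apply, Pi.sub_apply, Pi.pow_apply, integral_const_mul]
    at a1 a2 b1 b2 b3 b4
  linarith

theorem hardy_le (hk : 3 ≤ k) (hF : Γ.FV W h γ) (o : E (k + 1)) {τ : ℝ} (hτ : 0 < τ)
    {u : E (k + 1) → ℝ} (hu : ContDiff ℝ 1 u) (ε : ℝ) :
    ∫ z, ‖Γ.er o τ u z‖ ^ 2 ∂W.V + ck k * ∫ z, u z.1 ^ 2 * Γ.la o τ z.1 ^ 2 ∂W.V +
        ck k * ∫ z, u z.1 ^ 2 * (Γ.P o τ z - γ z.1) ^ 2 ∂W.V +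
        ∫ z, 2 * be k * aa b τ * u z.1 ^ 2 / Γ.D o τ z.1 *
          (Γ.Hs o z - k * (1 + b ^ 2 * Γ.σ o z.1)) ∂W.V + ε * ∫ z, u z.1 ^ 2 ∂W.V ≤
      Γ.En W (ck k * (h ^ 2 - b ^ 2) + ε) u := by
  rw [← Γ.hardy hF o hτ hu, Frame.En]
  have hk' : (3 : ℝ) ≤ k := by exact_mod_cast hk
  have hc : 0 ≤ ck k := by
    rw [ck]
    have : (0 : ℝ) ≤ k - 2 := by linarith
    positivity
  have cu : Continuous fun z : E (k + 1) × E (k + 1) => u z.1 := hu.continuous.comp continuous_fst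
  have cγ : Continuous fun z : E (k + 1) × E (k + 1) => γ z.1 := hF.cont.comp continuous_fst
  have h1 : ∫ z, u z.1 ^ 2 * (γ z.1 ^ 2 - b ^ 2) ∂W.V ≤
      ∫ z, (h ^ 2 - b ^ 2) * u z.1 ^ 2 ∂W.V := by
    refine W.integral_mono ((cu.pow 2).mul ((cγ.pow 2).sub continuous_const))
      (continuous_const.mul (cu.pow 2)) fun z _ _ => ?_
    have h2 : γ z.1 ^ 2 ≤ h ^ 2 := by
      rw [← sq_abs]
      exact pow_le_pow_left₀ (abs_nonneg _) (hF.bound z.1) 2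
    nlinarith [mul_le_mul_of_nonneg_left h2 (sq_nonneg (u z.1))]
  rw [integral_const_mul] at h1
  nlinarith [mul_le_mul_of_nonneg_left h1 hc]

end Geo


end Vale.Agent.P219
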