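import Vale.Agent.P219.LDefs
import Vale.Agent.P219.Fr2

/-!
Frame calculus for functions of two points.
-/

open scoped ContDiff Topology ENNReal
open MeasureTheory Set Filter Metric

noncomputable section

namespace Vale.Agent.P219

variable {n k : ℕ} {b : ℝ}

theorem Sm.sm (u : Sm n) : ContDiff ℝ ∞ u.1 := u.2

theorem Sm.smX (u : Sm n) (y : E n) : ContDiff ℝ ∞ fun x => u.1 (x, y) :=
  (Sm.sm u).comp (contDiff_id.prodMk contDiff_const)

theorem Sm.smY (u : Sm n) (x : E n) : ContDiff ℝ ∞ fun y => u.1 (x, y) :=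
  (Sm.sm u).comp (contDiff_const.prodMk contDiff_id)

theorem hela_der (v : E n × E n → E n × E n) (hv : ContDiff ℝ ∞ v) (u : Sm n) (p : E n × E n) :
    (der v hv u).1 p = fderiv ℝ u.1 p (v p) := rfl

theorem hela_der2 {v w : E n × E n → E n × E n} (hv : ContDiff ℝ ∞ v) (hw : ContDiff ℝ ∞ w)
    (u : Sm n) (p : E n × E n) : (der v hv (der w hw u)).1 p =
      fderiv ℝ (fderiv ℝ u.1) p (v p) (w p) + fderiv ℝ u.1 p (fderiv ℝ w p (v p)) := by
  have h1 := (((Sm.sm u).fderiv_right (m := ∞) (by simp)).differentiable (by simp) p).hasFDerivAt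
  have h2 := (h1.clm_apply (hw.differentiable (by simp) p).hasFDerivAt).fderiv
  rw [hela_der]
  change fderiv ℝ (fun p => fderiv ℝ u.1 p (w p)) p (v p) = _
  rw [h2]
  simp [add_comm]

theorem hela_swap (W : Vf n) {A : Set (E n)} (hA : BM A) {f : E n × E n → E n → ℝ}
    (hf : Continuous (Function.uncurry f)) :
    ∫ z, (∫ y in A, f z y) ∂W.V = ∫ y in A, ∫ z, f z y ∂W.V := by
  have : IsFiniteMeasure (volume.restrict A) := ⟨by simpa using hA.bdd.measure_lt_top⟩
  obtain ⟨C, hC⟩ := (((W.cpt.prod (isCompact_sphere (0 : E n) 1)).prod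
    hA.bdd.isCompact_closure)).exists_bound_of_continuousOn hf.continuousOn
  refine integral_integral_swap (Integrable.mono' (integrable_const C) hf.aestronglyMeasurable ?_)
  have h1 : ∀ᵐ p ∂W.V.prod (volume.restrict A), p.1.1 ∈ W.K ∧ ‖p.1.2‖ = 1 :=
    (Measure.quasiMeasurePreserving_fst).ae W.supp
  have h2 : ∀ᵐ p ∂W.V.prod (volume.restrict A), p.2 ∈ A :=
    (Measure.quasiMeasurePreserving_snd).ae (ae_restrict_mem hA.meas)
  filter_upwards [h1, h2] with p h1 h2
  exact hC p ⟨⟨h1.1, by simpa using h1.2⟩, subset_closure h2⟩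

namespace Frame

variable (Φ : Frame n)

theorem hela_e (i : Fin n) : ContDiff ℝ ∞ fun x => tr (Φ.B (fun _ => ev i) x) :=
  contDiff_tr.comp ((Φ.contDiff_B₂ (y := fun _ _ => ev i) contDiff_const).comp
    (contDiff_id.prodMk contDiff_id))

/-- The divergence of a frame vector at the first point. -/
def eX (i : Fin n) : Sm n :=
  ⟨fun p => tr (Φ.B (fun _ => ev i) p.1), (Φ.hela_e i).comp contDiff_fst⟩

/-- The divergence of a frame vector at the second point. -/
def eY (j : Fin n) : Sm n :=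
  ⟨fun p => tr (Φ.B (fun _ => ev j) p.2), (Φ.hela_e j).comp contDiff_snd⟩

/-- The double divergence. -/
def DD (K : Fin n → Fin n → Sm n) : Sm n :=
  ∑ i, (Φ.dX i (∑ j, (Φ.dY j (K i j) + Φ.eY j * K i j)) +
    Φ.eX i * ∑ j, (Φ.dY j (K i j) + Φ.eY j * K i j))

theorem dX_apply (i : Fin n) (u : Sm n) (x y : E n) :
    (Φ.dX i u).1 (x, y) = Φ.gr (fun x => u.1 (x, y)) x i := by
  have h := (HasFDerivAt.comp (f := fun x => (x, y)) x
    ((Sm.sm u).differentiable (by simp) (x, y)).hasFDerivAt (hasFDerivAt_prodMk_left x y)).fderiv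
  rw [← inner_ev, Φ.inner_gr]
  exact (DFunLike.congr_fun h _).symm

theorem dY_apply (j : Fin n) (u : Sm n) (x y : E n) :
    (Φ.dY j u).1 (x, y) = Φ.gr (fun y => u.1 (x, y)) y j := by
  have h := (((Sm.sm u).differentiable (by simp) (x, y)).hasFDerivAt.comp y
    (hasFDerivAt_prodMk_right x y)).fderiv
  rw [← inner_ev, Φ.inner_gr]
  exact (DFunLike.congr_fun h _).symm

theorem dX_dY (i j : Fin n) (u : Sm n) : Φ.dX i (Φ.dY j u) = Φ.dY j (Φ.dX i u) := by
  refine Subtype.ext (funext fun p => ?_)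
  have d : ∀ l (x : E n), DifferentiableAt ℝ (fun x => Φ.F x (ev l)) x := fun l x =>
    (Φ.sF.clm_apply contDiff_const).differentiable (by simp) x
  have h1 := ((hasFDerivAt_const (0 : E n) p).prodMk
    ((d j p.2).hasFDerivAt.comp p hasFDerivAt_snd)).fderiv
  have h2 := (((d i p.1).hasFDerivAt.comp p hasFDerivAt_fst).prodMk
    (hasFDerivAt_const (0 : E n) p)).fderiv
  rw [dX, dY, hela_der2, hela_der2, ((Sm.sm u).contDiffAt.isSymmSndFDerivAt (by
    simp only [minSmoothness_of_isRCLikeNormedField]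
    exact WithTop.coe_le_coe.2 le_top)).eq]
  simp only [Function.comp_def] at h1 h2
  rw [h1, h2]
  simp [Prod.mk_zero_zero]

theorem dX_eY (i j : Fin n) : Φ.dX i (Φ.eY j) = 0 := by
  refine Subtype.ext (funext fun p => ?_)
  rw [Φ.dX_apply i _ p.1 p.2]
  simp [eY, Φ.gr_const]

theorem dY_eX (i j : Fin n) : Φ.dY j (Φ.eX i) = 0 := by
  refine Subtype.ext (funext fun p => ?_)
  rw [Φ.dY_apply j _ p.1 p.2]
  simp [eX, Φ.gr_const]

theorem hela_dv {f : Fin n → E n → ℝ} (hf : ∀ j, ContDiff ℝ ∞ (f j)) (x : E n)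
    (s : Finset (Fin n)) : Φ.dv (fun p => ∑ j ∈ s, f j p • ev j) x =
      Φ.m x * ∑ j ∈ s, (Φ.gr (f j) x j + tr (Φ.B (fun _ => ev j) x) * f j x) := by
  induction s using Finset.induction_on with
  | empty => simp [dv, dive, tr]
  | insert j s hj ih =>
    have d : ∀ j, DifferentiableAt ℝ (f j) x := fun j => (hf j).differentiable (by simp) x
    simp only [Finset.sum_insert hj]
    rw [Φ.dv_add ((d j).smul_const _) (DifferentiableAt.fun_sum fun j _ => (d j).smul_const _), ih,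
      Φ.dv_smul (d j) (differentiableAt_const _), Φ.dv_eq (differentiableAt_const _), inner_ev]
    ring

theorem hela_tr {f : Fin n → E n → ℝ} (hf : ∀ j, ContDiff ℝ ∞ (f j)) (x : E n) :
    tr (Φ.B (fun p => ∑ j, f j p • ev j) x) =
      ∑ j, (Φ.gr (f j) x j + tr (Φ.B (fun _ => ev j) x) * f j x) := by
  refine mul_left_cancel₀ (Φ.m_pos x).ne' ?_
  rw [← Φ.hela_dv hf, Φ.dv_eq]
  exact DifferentiableAt.fun_sum fun j _ => ((hf j).differentiable (by simp) x).smul_const _

theorem tr_X (f : Fin n → Sm n) (x y : E n) :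
    tr (Φ.B (fun x => ∑ i, (f i).1 (x, y) • ev i) x) =
      (∑ i, (Φ.dX i (f i) + Φ.eX i * f i)).1 (x, y) := by
  rw [Φ.hela_tr fun i => Sm.smX (f i) y]
  simp only [AddSubmonoidClass.coe_finsetSum, Finset.sum_apply, ← Φ.dX_apply]
  rfl

theorem tr_Y (f : Fin n → Sm n) (x y : E n) :
    tr (Φ.B (fun y => ∑ j, (f j).1 (x, y) • ev j) y) =
      (∑ j, (Φ.dY j (f j) + Φ.eY j * f j)).1 (x, y) := by
  rw [Φ.hela_tr fun i => Sm.smY (f i) x]
  simp only [AddSubmonoidClass.coe_finsetSum, Finset.sum_apply, ← Φ.dY_apply]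
  rfl

theorem hela_gg {Φ : Frame n} {A : Set (E n)} {W : Vf n} (hG : Φ.GG A W) {f : Fin n → E n → ℝ}
    (hf : ∀ j, ContDiff ℝ ∞ (f j)) : ∫ w, ∑ j, f j w.1 * w.2 j ∂W.V =
      ∫ y in A, Φ.m y * tr (Φ.B (fun p => ∑ j, f j p • ev j) y) := by
  have h1 : ContDiff ℝ 1 fun p => ∑ j, f j p • (ev j : E n) :=
    ContDiff.sum fun j _ => ((hf j).of_le (by simp)).smul contDiff_const
  have h2 := hG _ h1
  simp only [Φ.dv_eq (h1.differentiable one_ne_zero _), sum_inner, real_inner_smul_left,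
    real_inner_comm _ (ev _), inner_ev] at h2
  exact h2.symm

theorem GG.double {Φ : Frame n} {A : Set (E n)} {W : Vf n} (hG : Φ.GG A W) (hA : BM A)
    (K : Fin n → Fin n → Sm n) :
    ∫ z, ∫ w, ∑ i, ∑ j, (K i j).1 (z.1, w.1) * z.2 i * w.2 j ∂W.V ∂W.V =
      ∫ y in A, Φ.m y * ∫ x in A, Φ.m x * (Φ.DD K).1 (x, y) := by
  obtain ⟨Z, hZ⟩ : ∃ Z : Fin n → Sm n, Z = fun i => ∑ j, (Φ.dY j (K i j) + Φ.eY j * K i j) :=
    ⟨_, rfl⟩
  have h1 : ∀ z : E n × E n, ∫ w, ∑ i, ∑ j, (K i j).1 (z.1, w.1) * z.2 i * w.2 j ∂W.V =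
      ∫ y in A, Φ.m y * ∑ i, (Z i).1 (z.1, y) * z.2 i := fun z => by
    have h2 := hela_gg hG fun j => Sm.smY (∑ i, z.2 i • K i j) z.1
    simp only [Φ.tr_Y fun j => ∑ i, z.2 i • K i j] at h2
    have h3 : ∑ j, (Φ.dY j (∑ i, z.2 i • K i j) + Φ.eY j * ∑ i, z.2 i • K i j) =
        ∑ i, z.2 i • Z i := by
      simp only [hZ, map_sum, Derivation.map_smul, Finset.mul_sum, Finset.smul_sum, smul_add,
        mul_smul_comm, ← Finset.sum_add_distrib]
      exact Finset.sum_comm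
    rw [h3] at h2
    simp only [AddSubmonoidClass.coe_finsetSum, Finset.sum_apply, SetLike.val_smul, Pi.smul_apply,
      smul_eq_mul, Finset.sum_mul] at h2
    simp only [mul_comm _ (z.2 _)]
    rw [← h2]
    exact integral_congr_ae (Eventually.of_forall fun w => Finset.sum_comm)
  simp only [h1]
  rw [hela_swap W hA]
  · refine integral_congr_ae (Eventually.of_forall fun y => ?_)
    simp only
    rw [integral_const_mul, hela_gg hG fun i => Sm.smX (Z i) y]
    simp only [Φ.tr_X Z]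
    rw [hZ]
    rfl
  · refine (Φ.m_smooth.continuous.comp continuous_snd).mul (continuous_finsetSum _ fun i _ => ?_)
    exact ((Sm.sm (Z i)).continuous.comp (by fun_prop)).mul (by fun_prop)

end Frame

end Vale.Agent.P219
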