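import Vale.Agent.P219.HelP

/-!
The double divergence of the calibration kernel.
-/

open scoped ContDiff Topology ENNReal
open MeasureTheory Set Filter Metric

noncomputable section

namespace Vale.Agent.P219

variable {n k : ℕ} {b : ℝ}

theorem helb_alg {A : Type*} [CommRing A] [Algebra ℝ A] (X Y : Fin 2 → Derivation ℝ A A)
    (δ ε : Fin 2 → A) (s φ β t : A) (comm : ∀ i j u, Y j (X i u) = X i (Y j u))
    (hε : ∀ i j, X i (ε j) = 0) (hβ : ∀ i, X i β = 0) (hβ' : ∀ i, Y i β = 0)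
    (ht : ∀ i, X i t = 0) (ht' : ∀ i, Y i t = 0)
    (cX : ∀ u, X 1 (X 0 u) + δ 1 * X 0 u = X 0 (X 1 u) + δ 0 * X 1 u)
    (cY : ∀ u, Y 1 (Y 0 u) + ε 1 * Y 0 u = Y 0 (Y 1 u) + ε 0 * Y 1 u)
    (eX : X 0 s * X 0 s + X 1 s * X 1 s = s + s + β * (s * s))
    (eY : Y 0 s * Y 0 s + Y 1 s * Y 1 s = s + s + β * (s * s))
    (hφ : φ * (s + s + β * (s * s) + t) = 1) (K : Fin 2 → Fin 2 → A)
    (h00 : K 0 0 = φ * (X 0 s * Y 0 s - X 1 s * Y 1 s))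
    (h01 : K 0 1 = φ * (X 0 s * Y 1 s + X 1 s * Y 0 s))
    (h10 : K 1 0 = φ * (X 0 s * Y 1 s + X 1 s * Y 0 s))
    (h11 : K 1 1 = φ * (X 1 s * Y 1 s - X 0 s * Y 0 s)) {C ρ φ' L L' : A} (hC : C = 1 + β * s)
    (hρ : ρ = s + s + β * (s * s)) (hφ' : φ' = -(2 * C * φ ^ 2))
    (hL : L = ∑ j, (Y j (Y j s) + ε j * Y j s)) (hL' : L' = ∑ i, (X i (X i s) + δ i * X i s)) :
    ∑ i, (X i (∑ j, (Y j (K i j) + ε j * K i j)) + δ i * ∑ j, (Y j (K i j) + ε j * K i j)) =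
      ((8 * C ^ 2 * φ ^ 3 - 2 * β * φ ^ 2) * ρ + 3 * C * φ' + φ * β) * ρ + φ' * ρ * L +
        φ * (C * L + β * ρ - (X 0 (Y 0 s) ^ 2 + X 1 (Y 0 s) ^ 2 + X 0 (Y 1 s) ^ 2 +
          X 1 (Y 1 s) ^ 2)) + (φ' * ρ + φ * C + φ * L) * L' -
        φ' * (X 0 s * (Y 1 s * X 1 (Y 0 s) - Y 0 s * X 1 (Y 1 s)) +
          X 1 s * (Y 0 s * X 0 (Y 1 s) - Y 1 s * X 0 (Y 0 s))) +
        2 * φ * (X 0 (Y 0 s) * X 1 (Y 1 s) - X 0 (Y 1 s) * X 1 (Y 0 s)) := by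
  have h2 : ∀ u v : A, u + u = v + v → u = v := fun u v h => by
    have h1 := congrArg ((2⁻¹ : ℝ) • ·) h
    simpa only [← two_smul ℝ, smul_smul, inv_mul_cancel₀ (two_ne_zero' ℝ), one_smul] using h1
  have dφ : ∀ D : Derivation ℝ A A, D β = 0 → D t = 0 → D φ = φ' * D s := fun D h1 h2 => by
    have h3 := congrArg D hφ
    simp only [Derivation.leibniz, map_add, h1, h2, smul_eq_mul, Derivation.map_one_eq_zero] at h3
    rw [hφ', hC]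
    linear_combination φ * h3 - D φ * hφ
  have pX : ∀ i, X i φ = φ' * X i s := fun i => dφ _ (hβ i) (ht i)
  have pY : ∀ i, Y i φ = φ' * Y i s := fun i => dφ _ (hβ' i) (ht' i)
  have f1 : ∀ i, Y 0 s * X i (Y 0 s) + Y 1 s * X i (Y 1 s) = C * X i s := fun i => h2 _ _ (by
    have h3 := congrArg (X i) eY
    simp only [Derivation.leibniz, map_add, hβ, smul_eq_mul] at h3
    rw [hC]
    linear_combination h3)
  have e1 : ∀ j, X 0 s * X 0 (Y j s) + X 1 s * X 1 (Y j s) = (1 + β * s) * Y j s :=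
    fun j => h2 _ _ (by
      have h3 := congrArg (Y j) eX
      simp only [Derivation.leibniz, map_add, hβ', smul_eq_mul, comm] at h3
      linear_combination h3)
  have e2 : ∀ j, X 0 (Y j s) ^ 2 + X 1 (Y j s) ^ 2 + X 0 s * X 0 (Y j (Y j s)) +
      X 1 s * X 1 (Y j (Y j s)) = β * Y j s ^ 2 + (1 + β * s) * Y j (Y j s) := fun j => by
    have h3 := congrArg (Y j) (e1 j)
    simp only [Derivation.leibniz, map_add, hβ', smul_eq_mul, comm,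
      Derivation.map_one_eq_zero] at h3
    linear_combination h3
  have dL : X 0 s * X 0 L + X 1 s * X 1 L = C * L + β * ρ - (X 0 (Y 0 s) ^ 2 + X 1 (Y 0 s) ^ 2 +
      X 0 (Y 1 s) ^ 2 + X 1 (Y 1 s) ^ 2) := by
    rw [hL, hC, hρ]
    simp only [Fin.sum_univ_two, Derivation.leibniz, map_add, hε, smul_eq_mul]
    linear_combination e2 0 + e2 1 + ε 0 * e1 0 + ε 1 * e1 1 + β * eY
  have z0 : ∑ j, (Y j (K 0 j) + ε j * K 0 j) = (φ' * ρ + φ * (C + L)) * X 0 s -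
      φ * (Y 1 s * X 1 (Y 0 s) - Y 0 s * X 1 (Y 1 s)) := by
    rw [hL, hρ]
    simp only [Fin.sum_univ_two, h00, h01, Derivation.leibniz, map_add, map_sub, smul_eq_mul, comm,
      pY]
    linear_combination φ' * X 0 s * eY + φ * f1 0 + φ * X 1 s * cY s
  have z1 : ∑ j, (Y j (K 1 j) + ε j * K 1 j) = (φ' * ρ + φ * (C + L)) * X 1 s -
      φ * (Y 0 s * X 0 (Y 1 s) - Y 1 s * X 0 (Y 0 s)) := by
    rw [hL, hρ]
    simp only [Fin.sum_univ_two, h10, h11, Derivation.leibniz, map_add, map_sub, smul_eq_mul, comm,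
      pY]
    linear_combination φ' * X 1 s * eY + φ * f1 1 - φ * X 0 s * cY s
  have dC : ∀ i, X i C = β * X i s := fun i => by
    simp [hC, hβ]
  have dρ : ∀ i, X i ρ = 2 * C * X i s := fun i => by
    simp only [hρ, hC, Derivation.leibniz, map_add, hβ, smul_eq_mul]
    ring
  have dφ' : ∀ i, X i φ' = (8 * C ^ 2 * φ ^ 3 - 2 * β * φ ^ 2) * X i s := fun i => by
    have h3 : φ' = -((C + C) * (φ * φ)) := by rw [hφ']; ring
    rw [h3]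
    simp only [Derivation.leibniz, map_add, map_neg, smul_eq_mul, dC, pX, hφ']
    ring
  rw [← hρ] at eX
  rw [Fin.sum_univ_two, z0, z1, hL']
  simp only [Fin.sum_univ_two, Derivation.leibniz, map_add, map_sub, smul_eq_mul, dC, dρ, dφ', pX]
  linear_combination ((8 * C ^ 2 * φ ^ 3 - 2 * β * φ ^ 2) * ρ + 3 * C * φ' + φ * β + φ' * L) * eX +
    φ * dL + φ * Y 1 s * cX (Y 0 s) - φ * Y 0 s * cX (Y 1 s)

theorem helb_real {s τ D C ρ L L' μ R : ℝ} (hs : 0 ≤ s) (hτ : 0 < τ) (hC : C = 1 + b ^ 2 * s)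
    (hρ : ρ = 2 * s + b ^ 2 * s ^ 2) (hD : D = ρ + τ ^ 2) (hL : 2 * C ≤ L) (hL' : 2 * C ≤ L')
    (hR : R = (L - C) * (L' - C) - μ ^ 2 - b ^ 2 * ρ) :
    8 * τ ^ 4 / D ^ 3 + b ^ 2 * ρ / D + R / D - 2 * τ ^ 2 * (C ^ 2 - C * μ) / D ^ 2 ≤
      ((8 * C ^ 2 * D⁻¹ ^ 3 - 2 * b ^ 2 * D⁻¹ ^ 2) * ρ + 3 * C * -(2 * C * D⁻¹ ^ 2) +
        D⁻¹ * b ^ 2) * ρ + -(2 * C * D⁻¹ ^ 2) * ρ * L +
        D⁻¹ * (C * L + b ^ 2 * ρ - (C ^ 2 + μ ^ 2)) +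
        (-(2 * C * D⁻¹ ^ 2) * ρ + D⁻¹ * C + D⁻¹ * L) * L' -
        -(2 * C * D⁻¹ ^ 2) * -(μ * ρ) + 2 * D⁻¹ * (C * μ) := by
  have h1 : 0 ≤ ρ := by rw [hρ]; positivity
  have h2 : 0 < D := by rw [hD]; positivity
  have h3 : 1 ≤ C := by rw [hC]; exact le_add_of_nonneg_right (by positivity)
  have h4 : 0 ≤ 2 * b ^ 2 * τ ^ 2 * ρ / D ^ 2 + 8 * (C ^ 2 - 1) * τ ^ 4 / D ^ 3 +
      2 * C * τ ^ 2 * (L - 2 * C + (L' - 2 * C)) / D ^ 2 := by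
    have : 0 ≤ C ^ 2 - 1 := by nlinarith
    have : 0 ≤ L - 2 * C + (L' - 2 * C) := by linarith
    positivity
  refine (le_add_of_nonneg_right h4).trans_eq ?_
  obtain rfl : ρ = D - τ ^ 2 := by linarith
  rw [hR]
  field_simp
  ring

/-- Evaluation at a pair of points. -/
def evp (p : E n × E n) : Sm n →ₐ[ℝ] ℝ := (Pi.evalAlgHom ℝ (fun _ => ℝ) p).comp (Sm n).val

theorem evp_apply (p : E n × E n) (u : Sm n) : evp p u = u.1 p := rfl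

theorem Geo.hel_dd (Γ : Geo 2 b) {τ : ℝ} (hτ : 0 < τ) : ∃ K : Fin 2 → Fin 2 → Sm 2,
    (∀ z w : E 2 × E 2, ∑ i, ∑ j, (K i j).1 (z.1, w.1) * z.2 i * w.2 j = Γ.kk τ z w) ∧
    ∀ x y, x ≠ y → 8 * τ ^ 4 / (Γ.rr x y + τ ^ 2) ^ 3 + b ^ 2 * Γ.rr x y / (Γ.rr x y + τ ^ 2) +
      Γ.Rm x y / (Γ.rr x y + τ ^ 2) -
      2 * τ ^ 2 * ((1 + b ^ 2 * Γ.σ x y) ^ 2 - Γ.dM x y) / (Γ.rr x y + τ ^ 2) ^ 2 ≤
      (Γ.DD K).1 (x, y) := by
  have hD : ∀ x y, 0 < Γ.rr x y + τ ^ 2 := fun x y => by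
    have := Γ.nonneg x y
    rw [Geo.rr]
    positivity
  obtain ⟨s, hs⟩ : ∃ s : Sm 2, ∀ x y, s.1 (x, y) = Γ.σ x y := ⟨⟨_, Γ.smooth⟩, fun _ _ => rfl⟩
  obtain ⟨φ, hφ⟩ : ∃ φ : Sm 2, ∀ x y, φ.1 (x, y) = (Γ.rr x y + τ ^ 2)⁻¹ :=
    ⟨⟨fun p => (Γ.rr p.1 p.2 + τ ^ 2)⁻¹, ContDiff.inv (((contDiff_const.mul Γ.smooth).add
      (contDiff_const.mul (Γ.smooth.pow 2))).add contDiff_const) fun p => (hD p.1 p.2).ne'⟩,
      fun _ _ => rfl⟩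
  have ha : ∀ i x y, (Γ.dX i s).1 (x, y) = Γ.Xi x y i := fun i x y => by
    simp only [Γ.dX_apply, hs, Γ.symm _ y, Geo.Xi]
  have hc : ∀ j x y, (Γ.dY j s).1 (x, y) = Γ.Xi y x j := fun j x y => by
    simp only [Γ.dY_apply, hs, Geo.Xi]
  have hM : ∀ i j x y, (Γ.dX i (Γ.dY j s)).1 (x, y) =
      fderiv ℝ (Γ.Xi x) y (Γ.F y (ev j)) i := fun i j x y => by
    have h1 := (EuclideanSpace.proj i : E 2 →L[ℝ] ℝ).hasFDerivAt.comp y
      ((Γ.Xi_sm x).differentiable (by simp) y).hasFDerivAt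
    rw [Γ.dX_dY, Γ.dY_apply, ← inner_ev, Γ.inner_gr]
    simp only [ha]
    exact DFunLike.congr_fun h1.fderiv _
  have ext : ∀ u v : Sm 2, (∀ x y, evp (x, y) u = evp (x, y) v) → u = v := fun u v h =>
    Subtype.ext (funext fun p => h p.1 p.2)
  obtain ⟨K, k0, k1, k2, k3⟩ : ∃ K : Fin 2 → Fin 2 → Sm 2,
      K 0 0 = φ * (Γ.dX 0 s * Γ.dY 0 s - Γ.dX 1 s * Γ.dY 1 s) ∧
      K 0 1 = φ * (Γ.dX 0 s * Γ.dY 1 s + Γ.dX 1 s * Γ.dY 0 s) ∧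
      K 1 0 = φ * (Γ.dX 0 s * Γ.dY 1 s + Γ.dX 1 s * Γ.dY 0 s) ∧
      K 1 1 = φ * (Γ.dX 1 s * Γ.dY 1 s - Γ.dX 0 s * Γ.dY 0 s) :=
    ⟨![![_, _], ![_, _]], rfl, rfl, rfl, rfl⟩
  refine ⟨K, fun z w => ?_, fun x y hxy => ?_⟩
  · simp only [Fin.sum_univ_two, k0, k1, k2, k3, ← evp_apply, map_mul, map_add, map_sub]
    simp only [evp_apply, hφ, ha, hc, Geo.kk, kn, inner_two, rot_zero, rot_one]
    ring
  have h1 := congrArg (evp (x, y)) (helb_alg Γ.dX Γ.dY Γ.eX Γ.eY s φ (algebraMap ℝ _ (b ^ 2))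
    (algebraMap ℝ _ (τ ^ 2)) (fun i j u => (Γ.dX_dY i j u).symm) Γ.dX_eY
    (fun _ => Derivation.map_algebraMap _ _) (fun _ => Derivation.map_algebraMap _ _)
    (fun _ => Derivation.map_algebraMap _ _) (fun _ => Derivation.map_algebraMap _ _)
    Γ.curl_X Γ.curl_Y (ext _ _ fun x y => ?_) (ext _ _ fun x y => ?_) (ext _ _ fun x y => ?_)
    K k0 k1 k2 k3 rfl rfl rfl rfl rfl)
  rotate_left
  · simp only [map_mul, map_add, AlgHom.commutes]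
    simp only [evp_apply, ha, hs]
    have := Γ.norm_Xi x y
    rw [norm_sq_two] at this
    simp only [Algebra.algebraMap_self, RingHom.id_apply]
    linear_combination this
  · simp only [map_mul, map_add, AlgHom.commutes]
    simp only [evp_apply, hc, hs]
    have := Γ.norm_Xi y x
    rw [norm_sq_two, Γ.symm y x] at this
    simp only [Algebra.algebraMap_self, RingHom.id_apply]
    linear_combination this
  · simp only [map_mul, map_add, AlgHom.commutes, map_one]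
    simp only [evp_apply, hφ, hs, Algebra.algebraMap_self, RingHom.id_apply]
    rw [inv_mul_eq_one₀ (hD x y).ne', Geo.rr]
    ring
  have hL : evp (x, y) (∑ j, (Γ.dY j (Γ.dY j s) + Γ.eY j * Γ.dY j s)) = Γ.lap x y := by
    rw [evp_apply, ← Γ.tr_Y]
    simp only [hc, sum_ev]
    rfl
  have hL' : evp (x, y) (∑ j, (Γ.dX j (Γ.dX j s) + Γ.eX j * Γ.dX j s)) = Γ.lap y x := by
    rw [evp_apply, ← Γ.tr_X]
    simp only [ha, sum_ev]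
    rfl
  refine le_of_le_of_eq ?_ h1.symm
  simp only [map_mul, map_add, map_sub, map_pow, map_neg, map_one, map_ofNat, AlgHom.commutes,
    hL, hL']
  simp only [evp_apply, hφ, hs, ha, hc, hM, Algebra.algebraMap_self, RingHom.id_apply]
  have hC : 0 < 1 + b ^ 2 * Γ.σ x y := by
    have := Γ.nonneg x y
    positivity
  obtain ⟨μ, hμ⟩ : ∃ μ, Γ.dM x y / (1 + b ^ 2 * Γ.σ x y) = μ := ⟨_, rfl⟩
  have h2 : Γ.dM x y = (1 + b ^ 2 * Γ.σ x y) * μ := by rw [← hμ, mul_div_cancel₀ _ hC.ne']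
  have h3 := Γ.Xi_gr x y
  have h4 := Γ.Xi_rot hxy
  have h5 := det_two ((fderiv ℝ (Γ.Xi x) y).comp (Γ.F y))
  have h6 := Γ.norm_Xi x y
  have h7 := Γ.norm_Xi y x
  have h8 : 0 < Γ.rr x y := by
    have := Γ.pos x y hxy
    rw [Geo.rr]
    positivity
  have h9 : ∀ v : E 2, fderiv ℝ (Γ.Xi x) y (Γ.F y v) = v 0 • fderiv ℝ (Γ.Xi x) y (Γ.F y (ev 0)) +
      v 1 • fderiv ℝ (Γ.Xi x) y (Γ.F y (ev 1)) := fun v => by
    conv_lhs => rw [← sum_ev v]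
    simp
  rw [h9] at h3 h4
  rw [hμ] at h4
  rw [norm_sq_two] at h6 h7
  rw [Γ.symm y x] at h7
  have a0 := congrArg (· 0) h3
  have a1 := congrArg (· 1) h3
  have a2 := congrArg (· 0) h4
  have a3 := congrArg (· 1) h4
  simp only [PiLp.add_apply, PiLp.smul_apply, smul_eq_mul, rot_zero, rot_one] at a0 a1 a2 a3
  change Γ.dM x y = _ at h5
  simp only [ContinuousLinearMap.comp_apply] at h5
  have l1 := Γ.lap_lower x y
  have l2 := Γ.lap_lower y x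
  rw [Γ.symm y x] at l2
  refine (le_of_eq ?_).trans ((helb_real (μ := μ) (Γ.nonneg x y) hτ rfl (ρ := Γ.rr x y) rfl rfl
    (L := Γ.lap x y) (L' := Γ.lap y x) (by exact_mod_cast l1) (by exact_mod_cast l2)
    (R := Γ.Rm x y) (by rw [Geo.Rm, hμ])).trans_eq ?_)
  · rw [h2]
  generalize fderiv ℝ (Γ.Xi x) y (Γ.F y (ev 0)) = u at *
  generalize fderiv ℝ (Γ.Xi x) y (Γ.F y (ev 1)) = v at *
  generalize Γ.Xi x y = a at *
  generalize Γ.Xi y x = c at *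
  have b1 : u 0 ^ 2 + u 1 ^ 2 + v 0 ^ 2 + v 1 ^ 2 = (1 + b ^ 2 * Γ.σ x y) ^ 2 + μ ^ 2 := by
    refine mul_left_cancel₀ h8.ne' ?_
    rw [Geo.rr]
    linear_combination (c 0 * u 0 + c 1 * v 0 + (1 + b ^ 2 * Γ.σ x y) * a 0) * a0 +
      (c 0 * u 1 + c 1 * v 1 + (1 + b ^ 2 * Γ.σ x y) * a 1) * a1 +
      (-c 1 * u 0 + c 0 * v 0 - μ * a 1) * a2 + (-c 1 * u 1 + c 0 * v 1 + μ * a 0) * a3 +
      ((1 + b ^ 2 * Γ.σ x y) ^ 2 + μ ^ 2) * h6 - (u 0 ^ 2 + u 1 ^ 2 + v 0 ^ 2 + v 1 ^ 2) * h7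
  have b2 : a 0 * (c 1 * u 1 - c 0 * v 1) + a 1 * (c 0 * v 0 - c 1 * u 0) = -(μ * Γ.rr x y) := by
    rw [Geo.rr]
    linear_combination a 1 * a2 - a 0 * a3 - μ * h6
  have b3 : Γ.σ x y + Γ.σ x y + b ^ 2 * (Γ.σ x y * Γ.σ x y) = Γ.rr x y := by
    rw [Geo.rr]
    ring
  rw [b1, b2, b3, ← h5, h2]

end Vale.Agent.P219
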