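import Vale.Agent.P219.HelA

/-!
The rotated gradient is free of divergence.
-/

open scoped ContDiff Topology ENNReal
open MeasureTheory Set Filter Metric

noncomputable section

namespace Vale.Agent.P219

variable {n k : ℕ} {b : ℝ}

theorem rot_zero (v : E 2) : rot v 0 = -v 1 := by
  simp [rot, ev]

theorem rot_one (v : E 2) : rot v 1 = v 0 := by
  simp [rot, ev]

theorem inner_two (u v : E 2) : inner ℝ u v = u 0 * v 0 + u 1 * v 1 := by
  rw [← sum_inner_ev, Fin.sum_univ_two, inner_ev, inner_ev, inner_ev, inner_ev]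

theorem norm_sq_two (u : E 2) : ‖u‖ ^ 2 = u 0 ^ 2 + u 1 ^ 2 := by
  rw [← real_inner_self_eq_norm_sq, inner_two, sq, sq]

theorem det_two (A : Op 2) : A.det = A (ev 0) 0 * A (ev 1) 1 - A (ev 1) 0 * A (ev 0) 1 := by
  rw [fr2_det_eq, Matrix.det_fin_two]
  rfl

theorem contDiff_rot : ContDiff ℝ ∞ rot := by
  unfold rot
  fun_prop

theorem helc_ext {u v : E 2} (h0 : u 0 = v 0) (h1 : u 1 = v 1) : u = v := by
  ext i
  fin_cases i
  exacts [h0, h1]

theorem helc_dec (v : E 2) : v 0 • ev 0 + v 1 • ev 1 = v := by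
  rw [← Fin.sum_univ_two (fun i => v i • (ev i : E 2)), sum_ev]

theorem helc_tr (A : Op 2) : tr A = A (ev 0) 0 + A (ev 1) 1 := by
  rw [tr, Fin.sum_univ_two, inner_ev, inner_ev]

theorem helc_e00 : (ev 0 : E 2) 0 = 1 := by simp [ev]

theorem helc_e01 : (ev 0 : E 2) 1 = 0 := by simp [ev]

theorem helc_e10 : (ev 1 : E 2) 0 = 0 := by simp [ev]

theorem helc_e11 : (ev 1 : E 2) 1 = 1 := by simp [ev]

theorem helc_lin {V : Type*} [NormedAddCommGroup V] [NormedSpace ℝ V] (L : E 2 →L[ℝ] V) (v : E 2) :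
    L v = v 0 • L (ev 0) + v 1 • L (ev 1) := by
  rw [← map_smul, ← map_smul, ← map_add, helc_dec]

theorem helc_alt (L : E 2 →L[ℝ] Op 2) (ξ η : E 2) :
    L ξ η - L η ξ = (ξ 0 * η 1 - ξ 1 * η 0) • (L (ev 0) (ev 1) - L (ev 1) (ev 0)) := by
  rw [helc_lin L ξ, helc_lin L η, add_apply, add_apply, smul_apply, smul_apply, smul_apply,
    smul_apply, helc_lin _ η, helc_lin (L (ev 1)) η, helc_lin _ ξ, helc_lin (L (ev 1)) ξ]
  module

/-- The rotation as a linear map. -/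
def helcR : E 2 →L[ℝ] E 2 :=
  (EuclideanSpace.proj (0 : Fin 2)).smulRight (ev 1) - (EuclideanSpace.proj (1 : Fin 2)).smulRight (ev 0)

theorem helc_R (v : E 2) : helcR v = rot v := rfl

theorem helc_curl {f : E 2 → ℝ} (hf : ContDiff ℝ ∞ f) (x : E 2) :
    dive (fun p => fderiv ℝ f p (ev 0) • ev 1 + (-fderiv ℝ f p (ev 1)) • ev 0) x = 0 := by
  have h1 : HasFDerivAt (fderiv ℝ f) (fderiv ℝ (fderiv ℝ f) x) x :=
    ((hf.fderiv_right (m := ∞) (by simp)).differentiable (by simp) x).hasFDerivAt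
  have h2 := fun v : E 2 => h1.clm_apply (hasFDerivAt_const v x)
  have h3 := (h2 (ev 1)).fun_neg
  rw [dive_add ((h2 _).differentiableAt.smul_const _) (h3.differentiableAt.smul_const _),
    dive_smul_const (h2 _).differentiableAt, dive_smul_const h3.differentiableAt, (h2 _).fderiv,
    h3.fderiv]
  have h4 := (hf.contDiffAt (x := x)).isSymmSndFDerivAt
    (by rw [minSmoothness_of_isRCLikeNormedField]; exact WithTop.coe_le_coe.2 le_top) (ev 0) (ev 1)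
  simp [h4]

namespace Frame

variable (Φ : Frame 2)

theorem helc_F (f : E 2 → ℝ) (p : E 2) : Φ.F p (rot (Φ.gr f p)) =
    (Φ.F p).det • (fderiv ℝ f p (ev 0) • ev 1 + (-fderiv ℝ f p (ev 1)) • ev 0) := by
  rw [helc_lin (Φ.F p), rot_zero, rot_one, ← inner_ev (Φ.gr f p), ← inner_ev (Φ.gr f p), inner_gr,
    inner_gr, helc_lin (fderiv ℝ f p) (Φ.F p (ev 0)), helc_lin (fderiv ℝ f p) (Φ.F p (ev 1)),
    det_two]
  refine helc_ext ?_ ?_ <;>
    simp only [PiLp.add_apply, PiLp.smul_apply, smul_eq_mul, helc_e00, helc_e01, helc_e10,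
      helc_e11] <;> ring

theorem helc_sm {f : E 2 → ℝ} (hf : ContDiff ℝ ∞ f) : ContDiff ℝ ∞ fun p => rot (Φ.gr f p) :=
  contDiff_rot.comp (Φ.contDiff_gr hf)

theorem helc_dv {f : E 2 → ℝ} (hf : ContDiff ℝ ∞ f) (x : E 2) :
    Φ.dv (fun p => rot (Φ.gr f p)) x = 0 := by
  have hs : DifferentiableAt ℝ (fun p => Φ.m p * (Φ.F p).det) x :=
    (Φ.m_smooth.mul (contDiff_det.comp Φ.sF)).differentiable (by simp) x
  have h1 : ∀ p, (Φ.m p * (Φ.F p).det) ^ 2 = 1 := fun p => by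
    rw [← sq_abs, abs_mul, abs_of_pos (Φ.m_pos p), Φ.m_det, one_pow]
  have h2 : fderiv ℝ (fun p => Φ.m p * (Φ.F p).det) x = 0 := by
    have h3 := hs.hasFDerivAt.pow 2
    simp only [h1] at h3
    have h4 := h3.unique (hasFDerivAt_const 1 x)
    have h5 : Φ.m x * (Φ.F x).det ≠ 0 := fun h => by simpa [h] using h1 x
    exact (smul_eq_zero.1 h4).resolve_left (by simpa using h5)
  have h3 : ContDiff ℝ ∞ (fderiv ℝ f) := hf.fderiv_right (m := ∞) (by simp)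
  have h4 : DifferentiableAt ℝ
      (fun p => fderiv ℝ f p (ev 0) • (ev 1 : E 2) + (-fderiv ℝ f p (ev 1)) • (ev 0 : E 2)) x :=
    (((h3.clm_apply contDiff_const).smul contDiff_const).add
      ((h3.clm_apply contDiff_const).neg.smul contDiff_const)).differentiable (by simp) x
  simp only [dv, helc_F, smul_smul (Φ.m _)]
  rw [dive_smul hs h4, helc_curl hf, h2, mul_zero, zero_add, zero_apply]

theorem tr_rot {f : E 2 → ℝ} (hf : ContDiff ℝ ∞ f) (x : E 2) :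
    tr (Φ.B (fun p => rot (Φ.gr f p)) x) = 0 := by
  have h := Φ.helc_dv hf x
  rw [Φ.dv_eq ((Φ.helc_sm hf).differentiable (by simp) x)] at h
  exact (mul_eq_zero.1 h).resolve_left (Φ.m_pos x).ne'

theorem curl_X (u : Sm 2) : Φ.dX 1 (Φ.dX 0 u) + Φ.eX 1 * Φ.dX 0 u =
    Φ.dX 0 (Φ.dX 1 u) + Φ.eX 0 * Φ.dX 1 u := by
  have h : ∑ i, (Φ.dX i (![-Φ.dX 1 u, Φ.dX 0 u] i) + Φ.eX i * ![-Φ.dX 1 u, Φ.dX 0 u] i) = 0 := by
    refine Subtype.ext (funext fun ⟨x, y⟩ => ?_)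
    have e : (fun x => ∑ i, (![-Φ.dX 1 u, Φ.dX 0 u] i).1 (x, y) • (ev i : E 2)) =
        fun p => rot (Φ.gr (fun x => u.1 (x, y)) p) := by
      funext p
      rw [Fin.sum_univ_two, rot, ← Φ.dX_apply, ← Φ.dX_apply, sub_eq_neg_add, ← neg_smul]
      rfl
    rw [← Φ.tr_X, e]
    exact Φ.tr_rot ((show ContDiff ℝ ∞ u.1 from u.2).comp (contDiff_id.prodMk contDiff_const)) x
  simp only [Fin.sum_univ_two, Matrix.cons_val_zero, Matrix.cons_val_one, map_neg] at h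
  linear_combination h

theorem curl_Y (u : Sm 2) : Φ.dY 1 (Φ.dY 0 u) + Φ.eY 1 * Φ.dY 0 u =
    Φ.dY 0 (Φ.dY 1 u) + Φ.eY 0 * Φ.dY 1 u := by
  have h : ∑ i, (Φ.dY i (![-Φ.dY 1 u, Φ.dY 0 u] i) + Φ.eY i * ![-Φ.dY 1 u, Φ.dY 0 u] i) = 0 := by
    refine Subtype.ext (funext fun ⟨x, y⟩ => ?_)
    have e : (fun y => ∑ i, (![-Φ.dY 1 u, Φ.dY 0 u] i).1 (x, y) • (ev i : E 2)) =
        fun p => rot (Φ.gr (fun y => u.1 (x, y)) p) := by
      funext p
      rw [Fin.sum_univ_two, rot, ← Φ.dY_apply, ← Φ.dY_apply, sub_eq_neg_add, ← neg_smul]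
      rfl
    rw [← Φ.tr_Y, e]
    exact Φ.tr_rot ((show ContDiff ℝ ∞ u.1 from u.2).comp (contDiff_const.prodMk contDiff_id)) y
  simp only [Fin.sum_univ_two, Matrix.cons_val_zero, Matrix.cons_val_one, map_neg] at h
  linear_combination h

/-- The boundary is a cycle. -/
theorem GG.cycle {Φ : Frame 2} {A : Set (E 2)} {W : Vf 2} (hG : Φ.GG A W) {f : E 2 → ℝ}
    (hf : ContDiff ℝ ∞ f) : ∫ z, inner ℝ (Φ.gr f z.1) (rot z.2) ∂W.V = 0 := by
  have h := hG _ ((Φ.helc_sm hf).of_le (by simp))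
  simp only [Φ.helc_dv hf, integral_zero] at h
  rw [← neg_eq_zero, ← integral_neg, h]
  refine integral_congr_ae (Eventually.of_forall fun z => ?_)
  simp only [inner_two, rot_zero, rot_one]
  ring

theorem helc_B {y : E 2 → E 2} {x : E 2} (hy : DifferentiableAt ℝ y x) (ξ : E 2) :
    Φ.B y x ξ = ξ 0 • fderiv ℝ y x (Φ.F x (ev 0)) + ξ 1 • fderiv ℝ y x (Φ.F x (ev 1)) +
      (ξ 0 * y x 1 - ξ 1 * y x 0) • Φ.Fi x (fderiv ℝ Φ.F x (Φ.F x (ev 0)) (ev 1) -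
        fderiv ℝ Φ.F x (Φ.F x (ev 1)) (ev 0)) := by
  have h1 := helc_alt ((fderiv ℝ Φ.F x).comp (Φ.F x)) ξ (y x)
  have h2 := helc_lin ((fderiv ℝ y x).comp (Φ.F x)) ξ
  simp only [ContinuousLinearMap.comp_apply] at h1 h2
  rw [← h2, ← map_smul, ← h1, B, fderiv_clm_apply (Φ.sF.differentiable (by simp) x) hy]
  simp only [ContinuousLinearMap.comp_apply, sub_apply, add_apply, ContinuousLinearMap.flip_apply,
    map_sub, map_add, Φ.left]
  abel

/-- The rotation of a conformal gradient field is a Killing field. -/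
theorem B_rot {f : E 2 → ℝ} (hf : ContDiff ℝ ∞ f) {x : E 2} {c : ℝ}
    (h : ∀ ξ, inner ℝ (Φ.B (Φ.gr f) x ξ) ξ = c * ‖ξ‖ ^ 2) (ξ : E 2) :
    inner ℝ (Φ.B (fun p => rot (Φ.gr f p)) x ξ) ξ = 0 := by
  have hy := (Φ.contDiff_gr hf).differentiable (by simp) x
  have hr := (Φ.helc_sm hf).differentiable (by simp) x
  have hd : ∀ v, fderiv ℝ (fun p => rot (Φ.gr f p)) x v = rot (fderiv ℝ (Φ.gr f) x v) := fun v =>
    DFunLike.congr_fun (helcR.hasFDerivAt.comp x hy.hasFDerivAt).fderiv v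
  have h0 := h (ev 0)
  have h1 := h (ev 1)
  have h2 := h (ev 0 + ev 1)
  have h3 := Φ.tr_rot hf x
  rw [helc_tr] at h3
  simp only [Φ.helc_B hy, Φ.helc_B hr, hd, inner_two, norm_sq_two, PiLp.add_apply, PiLp.smul_apply,
    smul_eq_mul, helc_e00, helc_e01, helc_e10, helc_e11, rot_zero, rot_one] at h0 h1 h2 h3 ⊢
  linear_combination (ξ 0 ^ 2 + ξ 1 ^ 2) / 2 * h3 + (ξ 1 ^ 2 - ξ 0 ^ 2) / 2 * (h2 - h0 - h1) +
    ξ 0 * ξ 1 * (h0 - h1)

end Frame


end Vale.Agent.P219
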