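import Vale.Agent.P219.Defs

/-!
The area of the sphere by stereographic projection.
-/

open scoped ContDiff Topology ENNReal
open MeasureTheory Set Filter Metric

noncomputable section

namespace Vale.Agent.P219

variable {n k : ℕ} {b : ℝ}

theorem sph_omega (m : ℕ) :
    omega (m + 1) = √Real.pi ^ (m + 1) / Real.Gamma (((m + 1 : ℕ) : ℝ) / 2 + 1) := by
  have h := EuclideanSpace.volume_ball (Fin (m + 1)) (0 : E (m + 1)) 1
  rw [Fintype.card_fin, ENNReal.ofReal_one, one_pow, one_mul] at h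
  have hG : 0 < Real.Gamma (((m + 1 : ℕ) : ℝ) / 2 + 1) := Real.Gamma_pos_of_pos (by positivity)
  unfold omega
  rw [h, ENNReal.toReal_ofReal (by positivity)]

theorem sph_omega_one : omega 1 = 2 := by
  have h := sph_omega 0
  have h1 : Real.Gamma (((0 + 1 : ℕ) : ℝ) / 2 + 1) = √Real.pi / 2 := by
    have h2 : ((0 + 1 : ℕ) : ℝ) / 2 = 1 / 2 := by norm_num
    rw [h2, Real.Gamma_add_one (by norm_num), Real.Gamma_one_half_eq]
    ring
  have hp : 0 < √Real.pi := Real.sqrt_pos.2 Real.pi_pos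
  rw [h1] at h
  rw [h]
  field_simp
  ring

theorem sph_omega_two : omega 2 = Real.pi := by
  have h := sph_omega 1
  have h1 : Real.Gamma (((1 + 1 : ℕ) : ℝ) / 2 + 1) = 1 := by
    have h2 : ((1 + 1 : ℕ) : ℝ) / 2 + 1 = 2 := by norm_num
    rw [h2, Real.Gamma_two]
  rw [h1, div_one] at h
  rw [h, Real.sq_sqrt Real.pi_pos.le]

theorem sph_omega_rec (m : ℕ) : ((m : ℝ) + 3) * omega (m + 3) = 2 * Real.pi * omega (m + 1) := by
  have h1 := sph_omega m
  have h3 := sph_omega (m + 2)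
  have hG : 0 < Real.Gamma (((m + 1 : ℕ) : ℝ) / 2 + 1) := Real.Gamma_pos_of_pos (by positivity)
  have e : ((m + 2 + 1 : ℕ) : ℝ) / 2 + 1 = (((m + 1 : ℕ) : ℝ) / 2 + 1) + 1 := by
    push_cast
    ring
  have hne : ((m + 1 : ℕ) : ℝ) / 2 + 1 ≠ 0 := by positivity
  rw [e, Real.Gamma_add_one hne] at h3
  have e2 : √Real.pi ^ (m + 2 + 1) = Real.pi * √Real.pi ^ (m + 1) := by
    rw [show m + 2 + 1 = 2 + (m + 1) by ring, pow_add, Real.sq_sqrt Real.pi_pos.le]
  rw [e2] at h3
  rw [show m + 3 = m + 2 + 1 by ring, h3, h1]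
  have e3 : ((m + 1 : ℕ) : ℝ) / 2 + 1 = ((m : ℝ) + 3) / 2 := by
    push_cast
    ring
  generalize Real.Gamma (((m + 1 : ℕ) : ℝ) / 2 + 1) = G at hG ⊢
  rw [e3]
  have : (m : ℝ) + 3 ≠ 0 := by positivity
  field_simp

theorem sph_sin_rec (m : ℕ) : ((m : ℝ) + 2) * ∫ x in (0 : ℝ)..Real.pi, Real.sin x ^ (m + 2) =
    ((m : ℝ) + 1) * ∫ x in (0 : ℝ)..Real.pi, Real.sin x ^ m := by
  rw [integral_sin_pow]
  have : (m : ℝ) + 2 ≠ 0 := by positivity
  simp only [Real.sin_zero, Real.sin_pi, zero_pow (Nat.succ_ne_zero m), zero_mul, sub_zero,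
    zero_div, zero_add]
  field_simp

theorem sph_step (m : ℕ) : ((m : ℝ) + 1) * omega (m + 1) *
    ∫ x in (0 : ℝ)..Real.pi, Real.sin x ^ m = ((m : ℝ) + 2) * omega (m + 2) := by
  induction m using Nat.twoStepInduction with
  | zero =>
    rw [sph_omega_one, sph_omega_two]
    simp
  | one =>
    have h := sph_omega_rec 0
    rw [sph_omega_one] at h
    rw [sph_omega_two]
    simp only [pow_one, integral_sin, Real.cos_zero, Real.cos_pi]
    push_cast at h ⊢
    linarith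
  | more m ih _ =>
    have h1 := sph_omega_rec m
    have h2 := sph_omega_rec (m + 1)
    have h3 := sph_sin_rec m
    have hm : (m : ℝ) + 2 ≠ 0 := by positivity
    push_cast at h2 ⊢
    apply mul_left_cancel₀ hm
    rw [show m + 2 + 1 = m + 3 by ring, show m + 2 + 2 = m + 1 + 3 by ring]
    rw [show m + 1 + 1 = m + 2 by ring] at h2
    generalize (∫ x in (0 : ℝ)..Real.pi, Real.sin x ^ (m + 2)) = J2 at h3 ⊢
    generalize (∫ x in (0 : ℝ)..Real.pi, Real.sin x ^ m) = J0 at h3 ih ⊢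
    linear_combination ((m : ℝ) + 2) * J2 * h1 + 2 * Real.pi * omega (m + 1) * h3 +
      2 * Real.pi * ih - ((m : ℝ) + 2) * h2

theorem sph_image : (fun r : ℝ => 2 * Real.arctan r) '' Ioi 0 = Ioo 0 Real.pi := by
  ext t
  constructor
  · rintro ⟨r, hr, rfl⟩
    have h1 : 0 < Real.arctan r := Real.arctan_pos.2 hr
    have h2 := Real.arctan_lt_pi_div_two r
    constructor <;> simp only <;> linarith
  · rintro ⟨h1, h2⟩
    refine ⟨Real.tan (t / 2), Real.tan_pos_of_pos_of_lt_pi_div_two (by linarith) (by linarith), ?_⟩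
    have := Real.pi_pos
    simp only
    rw [Real.arctan_tan (by linarith) (by linarith)]
    ring

theorem sph_sin_two_arctan (r : ℝ) : Real.sin (2 * Real.arctan r) = 2 * r / (1 + r ^ 2) := by
  have h : 0 < 1 + r ^ 2 := by positivity
  have hs : 0 < √(1 + r ^ 2) := Real.sqrt_pos.2 h
  have h2 : √(1 + r ^ 2) * √(1 + r ^ 2) = 1 + r ^ 2 := Real.mul_self_sqrt h.le
  rw [Real.sin_two_mul, Real.sin_arctan, Real.cos_arctan]
  generalize √(1 + r ^ 2) = s at hs h2
  rw [← h2]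
  field_simp

theorem sph_radial (m : ℕ) : ∫ y in Ioi (0 : ℝ), y ^ m • (2 / (1 + y ^ 2)) ^ (m + 1) =
    ∫ x in (0 : ℝ)..Real.pi, Real.sin x ^ m := by
  have hd : ∀ x ∈ Ioi (0 : ℝ), HasDerivWithinAt (fun r : ℝ => 2 * Real.arctan r)
      (2 * (1 / (1 + x ^ 2))) (Ioi 0) x := fun x _ =>
    ((Real.hasDerivAt_arctan x).const_mul 2).hasDerivWithinAt
  have hi : InjOn (fun r : ℝ => 2 * Real.arctan r) (Ioi 0) := fun x _ y _ h =>
    Real.arctan_injective (mul_left_cancel₀ two_ne_zero h)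
  have h := integral_image_eq_integral_abs_deriv_smul measurableSet_Ioi hd hi
    fun x => Real.sin x ^ m
  rw [sph_image] at h
  rw [intervalIntegral.integral_of_le Real.pi_pos.le, integral_Ioc_eq_integral_Ioo, h]
  refine setIntegral_congr_fun measurableSet_Ioi fun y _ => ?_
  have hy : 0 < 1 + y ^ 2 := by positivity
  simp only [smul_eq_mul]
  rw [sph_sin_two_arctan, abs_of_pos (by positivity), pow_succ, ← mul_assoc, ← mul_pow]
  have e : y * (2 / (1 + y ^ 2)) = 2 * y / (1 + y ^ 2) := by ring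
  rw [e]
  ring

theorem integrable_sph (hk : 1 ≤ k) : Integrable fun z : E k => (2 / (1 + ‖z‖ ^ 2)) ^ k := by
  have hk' : (1 : ℝ) ≤ k := by exact_mod_cast hk
  have h := (integrable_rpow_neg_one_add_norm_sq (E := E k) (μ := volume) (r := 2 * k)
    (by rw [finrank_euclideanSpace_fin]; linarith)).const_mul (2 ^ k)
  refine h.congr (Eventually.of_forall fun z => ?_)
  have hz : 0 < 1 + ‖z‖ ^ 2 := by positivity
  have e : -(2 * (k : ℝ)) / 2 = -(k : ℝ) := by ring
  simp only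
  rw [e, Real.rpow_neg hz.le, Real.rpow_natCast, div_pow, div_eq_mul_inv]

theorem integral_sph (hk : 1 ≤ k) : ∫ z : E k, (2 / (1 + ‖z‖ ^ 2)) ^ k = sph k := by
  obtain ⟨m, rfl⟩ : ∃ m, k = m + 1 := ⟨k - 1, by omega⟩
  have h := integral_fun_norm_addHaar (volume : Measure (E (m + 1)))
    fun y : ℝ => (2 / (1 + y ^ 2)) ^ (m + 1)
  rw [finrank_euclideanSpace_fin, Nat.add_sub_cancel, sph_radial] at h
  rw [h]
  have h2 := sph_step m
  unfold sph
  rw [nsmul_eq_mul, smul_eq_mul]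
  push_cast
  have e : (volume : Measure (E (m + 1))).real (ball 0 1) = omega (m + 1) := rfl
  rw [e, show m + 1 + 1 = m + 2 by ring]
  linear_combination h2

end Vale.Agent.P219
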