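import Vale.Agent.P219.LDefs
import Vale.Agent.P219.DenS
import Vale.Agent.P219.Ge2
import Vale.Agent.P219.Sph

/-!
The singular part of the calibration.
-/

open scoped ContDiff Topology ENNReal
open MeasureTheory Set Filter Metric

noncomputable section

namespace Vale.Agent.P219

variable {n k : ℕ} {b : ℝ}

theorem hels_radial : ∫ y in Ioi (0 : ℝ), y ^ 1 • (8 / (y ^ 2 + 1) ^ 3) = 2 := by
  have hd : ∀ y ∈ Ici (0 : ℝ), HasDerivAt (fun y : ℝ => -2 * ((y ^ 2 + 1) ^ 2)⁻¹)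
      (y ^ 1 • (8 / (y ^ 2 + 1) ^ 3)) y := by
    intro y _
    have h0 : (y ^ 2 + 1) ≠ 0 := by positivity
    have h1 : HasDerivAt (fun y : ℝ => y ^ 2 + 1) (2 * y) y := by
      simpa using (hasDerivAt_pow 2 y).add_const 1
    have h2 := ((h1.fun_pow 2).fun_inv (pow_ne_zero 2 h0)).const_mul (-2)
    refine h2.congr_deriv ?_
    rw [smul_eq_mul]
    field_simp
    norm_num
    ring
  have ht : Tendsto (fun y : ℝ => -2 * ((y ^ 2 + 1) ^ 2)⁻¹) atTop (𝓝 (-2 * 0)) := by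
    refine Tendsto.const_mul _ (Tendsto.inv_tendsto_atTop ?_)
    exact (tendsto_pow_atTop two_ne_zero).comp
      (tendsto_atTop_add_const_right _ 1 (tendsto_pow_atTop two_ne_zero))
  have h := integral_Ioi_of_hasDerivAt_of_nonneg' hd
    (fun y hy => by
      have : 0 < y := hy
      simp only [smul_eq_mul]
      positivity) ht
  rw [h]
  norm_num

theorem hels_integrable : Integrable fun z : E 2 => 8 / (‖z‖ ^ 2 + 1) ^ 3 := by
  have h := (integrable_sph (k := 2) (by norm_num)).const_mul 2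
  have hc : Continuous fun z : E 2 => 8 / (‖z‖ ^ 2 + 1) ^ 3 :=
    continuous_const.div (by fun_prop) fun z => by positivity
  refine h.mono' hc.aestronglyMeasurable (Eventually.of_forall fun z => ?_)
  have h0 : 0 < ‖z‖ ^ 2 + 1 := by positivity
  rw [Real.norm_eq_abs, abs_of_pos (by positivity), add_comm (1 : ℝ), div_pow, ← mul_div_assoc,
    div_le_div_iff₀ (by positivity) (by positivity)]
  have h1 : (‖z‖ ^ 2 + 1) ^ 2 ≤ (‖z‖ ^ 2 + 1) ^ 3 :=
    pow_le_pow_right₀ (by nlinarith [sq_nonneg ‖z‖]) (by norm_num)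
  nlinarith

theorem hels_integral : ∫ z : E 2, 8 / (‖z‖ ^ 2 + 1) ^ 3 = 4 * Real.pi := by
  have h := integral_fun_norm_addHaar (volume : Measure (E 2))
    fun y : ℝ => 8 / (y ^ 2 + 1) ^ 3
  rw [finrank_euclideanSpace_fin, show 2 - 1 = 1 from rfl, hels_radial] at h
  rw [h]
  have e : (volume : Measure (E 2)).real (ball 0 1) = omega 2 := rfl
  rw [e, sph_omega_two, nsmul_eq_mul, smul_eq_mul]
  push_cast
  ring

theorem hels_point (Φ : Frame n) (y w : E n) :
    Tendsto (fun τ : ℝ => y + τ • Φ.F y w) (𝓝[>] 0) (𝓝 y) := by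
  have h : Continuous fun τ : ℝ => y + τ • Φ.F y w := by fun_prop
  have h2 := h.tendsto 0
  simp only [zero_smul, add_zero] at h2
  exact h2.mono_left nhdsWithin_le_nhds

theorem Geo.hels_sig (Γ : Geo n b) (y w : E n) :
    Tendsto (fun τ : ℝ => 2 * Γ.σ (y + τ • Γ.F y w) y / τ ^ 2) (𝓝[>] 0) (𝓝 (‖w‖ ^ 2)) := by
  rw [Metric.tendsto_nhds]
  intro ε hε
  have hp : 0 < ‖w‖ ^ 2 + 1 := by positivity
  obtain ⟨U, hU, h⟩ := Γ.taylor y (div_pos hε hp)
  filter_upwards [hels_point Γ.toFrame y w hU, self_mem_nhdsWithin] with τ h1 hτ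
  have hτ : 0 < τ := hτ
  have h2 := h _ h1 y (mem_of_mem_nhds hU)
  rw [add_sub_cancel_left, map_smul, Γ.left, norm_smul, Real.norm_eq_abs, abs_of_pos hτ] at h2
  have ht : 0 < τ ^ 2 := by positivity
  have e : 2 * Γ.σ (y + τ • Γ.F y w) y / τ ^ 2 - ‖w‖ ^ 2 =
      (2 * Γ.σ (y + τ • Γ.F y w) y - (τ * ‖w‖) ^ 2) / τ ^ 2 := by
    field_simp
  rw [Real.dist_eq, e, abs_div, abs_of_pos ht, div_lt_iff₀ ht]
  refine h2.trans_lt ?_
  rw [div_mul_eq_mul_div, div_lt_iff₀ hp]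
  have := mul_pos hε ht
  nlinarith

theorem Geo.hels_rr (Γ : Geo n b) (y w : E n) :
    Tendsto (fun τ : ℝ => Γ.rr (y + τ • Γ.F y w) y / τ ^ 2) (𝓝[>] 0) (𝓝 (‖w‖ ^ 2)) := by
  have h1 := Γ.hels_sig y w
  have h2 : Tendsto (fun τ : ℝ => Γ.σ (y + τ • Γ.F y w) y) (𝓝[>] 0) (𝓝 0) := by
    have h3 : Continuous fun x => Γ.σ x y := Γ.cont.comp (continuous_id.prodMk continuous_const)
    have h4 := (h3.tendsto y).comp (hels_point Γ.toFrame y w)
    rwa [Γ.self] at h4
  have h3 := h1.add ((h1.mul h2).const_mul (b ^ 2 / 2))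
  rw [mul_zero, mul_zero, add_zero] at h3
  refine h3.congr fun τ => ?_
  unfold Geo.rr
  ring

theorem Geo.hels_rr_nonneg (Γ : Geo n b) (x y : E n) : 0 ≤ Γ.rr x y := by
  have := Γ.nonneg x y
  unfold Geo.rr
  positivity

theorem Geo.hels_rr_cont (Γ : Geo n b) : Continuous fun p : E n × E n => Γ.rr p.1 p.2 := by
  unfold Geo.rr
  exact (continuous_const.mul Γ.cont).add (continuous_const.mul (Γ.cont.pow 2))

/-- The rescaled kernel. -/
def Geo.helsK (Γ : Geo n b) (y : E n) (τ : ℝ) (w : E n) : ℝ :=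
  Γ.m (y + τ • Γ.F y w) * (8 / (Γ.rr (y + τ • Γ.F y w) y / τ ^ 2 + 1) ^ 3)

theorem Geo.helsK_den (Γ : Geo n b) (x y : E n) (τ : ℝ) : 1 ≤ Γ.rr x y / τ ^ 2 + 1 := by
  have := Γ.hels_rr_nonneg x y
  have : 0 ≤ Γ.rr x y / τ ^ 2 := by positivity
  linarith

theorem Geo.helsK_cont (Γ : Geo n b) (y : E n) (τ : ℝ) : Continuous (Γ.helsK y τ) := by
  have h1 : Continuous fun w => y + τ • Γ.F y w := by fun_prop
  have h2 : Continuous fun w => Γ.rr (y + τ • Γ.F y w) y :=
    Γ.hels_rr_cont.comp (h1.prodMk continuous_const)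
  refine (Γ.m_smooth.continuous.comp h1).mul (continuous_const.div
    (((h2.div_const _).add continuous_const).pow 3) fun w => ?_)
  have := Γ.helsK_den (y + τ • Γ.F y w) y τ
  positivity

theorem Geo.helsK_bound (Γ : Geo n b) (y : E n) (R : ℝ) : ∃ M > 0, ∀ τ ∈ Ioo (0 : ℝ) 1,
    ∀ w ∈ closedBall (0 : E n) R, ‖Γ.helsK y τ w‖ ≤ M := by
  obtain ⟨C, hC⟩ := (isCompact_closedBall y (‖Γ.F y‖ * |R|)).exists_bound_of_continuousOn
    Γ.m_smooth.continuous.continuousOn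
  refine ⟨(|C| + 1) * 8, by positivity, fun τ hτ w hw => ?_⟩
  have h1 : y + τ • Γ.F y w ∈ closedBall y (‖Γ.F y‖ * |R|) := by
    rw [mem_closedBall, dist_eq_norm, add_sub_cancel_left, norm_smul, Real.norm_eq_abs,
      abs_of_pos hτ.1]
    rw [mem_closedBall_zero_iff] at hw
    refine (mul_le_of_le_one_left (norm_nonneg _) hτ.2.le).trans (((Γ.F y).le_opNorm w).trans ?_)
    exact mul_le_mul_of_nonneg_left (hw.trans (le_abs_self R)) (norm_nonneg _)
  have h2 := hC _ h1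
  have h3 := Γ.helsK_den (y + τ • Γ.F y w) y τ
  unfold Geo.helsK
  rw [norm_mul]
  refine mul_le_mul (by linarith [le_abs_self C]) ?_ (norm_nonneg _) (by positivity)
  rw [Real.norm_eq_abs, abs_of_pos (by positivity)]
  exact div_le_self (by norm_num) (one_le_pow₀ h3)

theorem Geo.helsK_lim (Γ : Geo n b) (y : E n) (R : ℝ) :
    Tendsto (fun τ => ∫ w in closedBall (0 : E n) R, Γ.helsK y τ w) (𝓝[>] 0)
      (𝓝 (∫ w in closedBall (0 : E n) R, Γ.m y * (8 / (‖w‖ ^ 2 + 1) ^ 3))) := by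
  obtain ⟨M, -, hM⟩ := Γ.helsK_bound y R
  refine tendsto_integral_filter_of_dominated_convergence (fun _ => M)
    (Eventually.of_forall fun τ => (Γ.helsK_cont y τ).aestronglyMeasurable) ?_
    (integrableOn_const measure_closedBall_lt_top.ne) (Eventually.of_forall fun w => ?_)
  · filter_upwards [Ioo_mem_nhdsGT (zero_lt_one' ℝ)] with τ hτ
    filter_upwards [ae_restrict_mem measurableSet_closedBall] with w hw using hM τ hτ w hw
  · refine ((Γ.m_smooth.continuous.tendsto y).comp (hels_point Γ.toFrame y w)).mul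
      (tendsto_const_nhds.div (((Γ.hels_rr y w).add_const 1).pow 3) ?_)
    positivity

theorem hels_dens {A : Set (E 2)} {y : E 2}
    (h : Tendsto (fun r => volume (Aᶜ ∩ closedBall y r) / volume (closedBall y r)) (𝓝[>] 0)
      (𝓝 0)) {δ : ℝ} (hδ : 0 < δ) :
    ∀ᶠ r in 𝓝[>] (0 : ℝ), volume.real (Aᶜ ∩ closedBall y r) ≤ δ * r ^ 2 := by
  have hp := Real.pi_pos
  have h1 := h.eventually (Iio_mem_nhds (ENNReal.ofReal_pos.2 (div_pos hδ hp)))
  filter_upwards [h1, self_mem_nhdsWithin] with r h2 hr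
  have hr : 0 < r := hr
  have h3 : volume (Aᶜ ∩ closedBall y r) ≤
      ENNReal.ofReal (δ / Real.pi) * volume (closedBall y r) :=
    (ENNReal.div_le_iff_le_mul (Or.inl (measure_closedBall_pos volume y hr).ne')
      (Or.inl measure_closedBall_lt_top.ne)).1 h2.le
  have h4 := ENNReal.toReal_mono
    (ENNReal.mul_ne_top ENNReal.ofReal_ne_top measure_closedBall_lt_top.ne) h3
  rw [ENNReal.toReal_mul, ENNReal.toReal_ofReal (div_pos hδ hp).le] at h4
  have h5 := Measure.addHaar_real_closedBall (volume : Measure (E 2)) y hr.le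
  have e : (volume : Measure (E 2)).real (ball 0 1) = omega 2 := rfl
  rw [finrank_euclideanSpace_fin, e, sph_omega_two] at h5
  have h6 : (volume (closedBall y r)).toReal = r ^ 2 * Real.pi := h5
  rw [h6] at h4
  refine h4.trans_eq ?_
  field_simp

theorem Frame.hels_miss (Φ : Frame 2) {A : Set (E 2)} (hA : MeasurableSet A) {y : E 2}
    (h : Tendsto (fun r => volume (Aᶜ ∩ closedBall y r) / volume (closedBall y r)) (𝓝[>] 0)
      (𝓝 0)) (R : ℝ) {δ : ℝ} (hδ : 0 < δ) :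
    ∀ᶠ τ in 𝓝[>] (0 : ℝ), volume.real (closedBall (0 : E 2) R \ Φ.blow A y τ) ≤ δ := by
  obtain ⟨c, hc⟩ : ∃ c : ℝ, c = ‖Φ.F y‖ * |R| + 1 := ⟨_, rfl⟩
  have hc0 : 0 < c := by rw [hc]; positivity
  have hm := Φ.m_pos y
  filter_upwards [(Frame.dns_scale hc0).eventually
    (hels_dens h (δ := δ / (Φ.m y * c ^ 2)) (by positivity)), self_mem_nhdsWithin] with τ h1 hτ
  have hτ : 0 < τ := hτ
  have h2 := Φ.dns_cov (k := 1) y hτ ((measurableSet_closedBall (x := 0) (ε := R)).diff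
    (Φ.dns_meas (k := 1) hA y τ)) fun _ => 1
  simp only [setIntegral_const, smul_eq_mul, mul_one] at h2
  have h3 : volume.real ((fun w => y + τ • Φ.F y w) '' (closedBall 0 R \ Φ.blow A y τ)) ≤
      volume.real (Aᶜ ∩ closedBall y (c * τ)) := by
    refine measureReal_mono ?_
      (measure_ne_top_of_subset inter_subset_right measure_closedBall_lt_top.ne)
    rintro p ⟨w, hw, rfl⟩
    refine ⟨hw.2, ?_⟩
    have h4 := hw.1
    rw [mem_closedBall_zero_iff] at h4
    rw [mem_closedBall, dist_eq_norm, add_sub_cancel_left, norm_smul, Real.norm_eq_abs,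
      abs_of_pos hτ, mul_comm]
    refine mul_le_mul_of_nonneg_right (((Φ.F y).le_opNorm w).trans ?_) hτ.le
    have h5 := mul_le_mul_of_nonneg_left (h4.trans (le_abs_self R)) (norm_nonneg (Φ.F y))
    linarith
  have h4 := mul_le_mul_of_nonneg_left (h3.trans h1) hm.le
  rw [h2] at h4
  have e : Φ.m y * (δ / (Φ.m y * c ^ 2) * (c * τ) ^ 2) = τ ^ (1 + 1) * δ := by
    field_simp
  rw [e] at h4
  exact le_of_mul_le_mul_left h4 (by positivity)

theorem Geo.hels_ker_cont (Γ : Geo n b) {τ : ℝ} (hτ : 0 < τ) : Continuous fun p : E n × E n =>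
    Γ.m p.2 * (8 * τ ^ 4 / (Γ.rr p.2 p.1 + τ ^ 2) ^ 3) := by
  have h1 : Continuous fun p : E n × E n => Γ.rr p.2 p.1 :=
    Γ.hels_rr_cont.comp continuous_swap
  refine (Γ.m_smooth.continuous.comp continuous_snd).mul
    (continuous_const.div ((h1.add continuous_const).pow 3) fun p => ?_)
  have := Γ.hels_rr_nonneg p.2 p.1
  positivity

theorem Geo.hels_ker_nonneg (Γ : Geo n b) (τ : ℝ) (x y : E n) :
    0 ≤ Γ.m x * (8 * τ ^ 4 / (Γ.rr x y + τ ^ 2) ^ 3) := by
  have := Γ.hels_rr_nonneg x y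
  have := Γ.m_pos x
  positivity

theorem Geo.hels_lower (Γ : Geo 2 b) {A : Set (E 2)} (hA : BM A) (y : E 2) (R : ℝ) {τ : ℝ}
    (hτ : 0 < τ) : ∫ w in closedBall (0 : E 2) R ∩ Γ.blow A y τ, Γ.helsK y τ w ≤
      Γ.m y * ∫ x in A, Γ.m x * (8 * τ ^ 4 / (Γ.rr x y + τ ^ 2) ^ 3) := by
  have h2 := Γ.dns_cov (k := 1) y hτ ((measurableSet_closedBall (x := 0) (ε := R)).inter
    (Γ.dns_meas (k := 1) hA.meas y τ))
    fun x => Γ.m x * (8 * τ ^ 4 / (Γ.rr x y + τ ^ 2) ^ 3)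
  rw [← integral_const_mul (τ ^ (1 + 1))] at h2
  have h3 : ∀ w, τ ^ (1 + 1) * (Γ.m (y + τ • Γ.F y w) *
      (8 * τ ^ 4 / (Γ.rr (y + τ • Γ.F y w) y + τ ^ 2) ^ 3)) = Γ.helsK y τ w := by
    intro w
    have := Γ.hels_rr_nonneg (y + τ • Γ.F y w) y
    unfold Geo.helsK
    field_simp
    ring
  simp only [h3] at h2
  rw [← h2]
  refine mul_le_mul_of_nonneg_left (setIntegral_mono_set ?_ ?_ ?_) (Γ.m_pos y).le
  · exact hA.integrableOn
      ((Γ.hels_ker_cont hτ).comp (continuous_const.prodMk continuous_id))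
  · exact Eventually.of_forall fun x => Γ.hels_ker_nonneg τ x y
  · refine LE.le.eventuallyLE ?_
    rintro p ⟨w, hw, rfl⟩
    exact hw.2

theorem Geo.hels_pt (Γ : Geo 2 b) {A : Set (E 2)} (hA : BM A) {y : E 2}
    (h : Tendsto (fun r => volume (Aᶜ ∩ closedBall y r) / volume (closedBall y r)) (𝓝[>] 0)
      (𝓝 0)) {ε : ℝ} (hε : 0 < ε) : ∀ᶠ τ in 𝓝[>] (0 : ℝ), 4 * Real.pi * Γ.m y - ε <
      Γ.m y * ∫ x in A, Γ.m x * (8 * τ ^ 4 / (Γ.rr x y + τ ^ 2) ^ 3) := by
  have h1 := (aecover_closedBall (μ := volume) (x := (0 : E 2)) (l := atTop)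
    tendsto_id).integral_tendsto_of_countably_generated (hels_integrable.const_mul (Γ.m y))
  rw [integral_const_mul, hels_integral] at h1
  obtain ⟨R, hR⟩ := (h1.eventually (Ioi_mem_nhds
    (show 4 * Real.pi * Γ.m y - ε / 2 < Γ.m y * (4 * Real.pi) by linarith))).exists
  obtain ⟨M, hM0, hM⟩ := Γ.helsK_bound y R
  filter_upwards [(Γ.helsK_lim y R).eventually (Ioi_mem_nhds hR),
    Γ.hels_miss hA.meas h R (δ := ε / 2 / M) (by positivity), Ioo_mem_nhdsGT (zero_lt_one' ℝ)]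
    with τ h2 h3 hτ
  refine lt_of_lt_of_le ?_ (Γ.hels_lower hA y R hτ.1)
  have h4 := integral_inter_add_sdiff (μ := volume) (s := closedBall (0 : E 2) R)
    (Γ.dns_meas (k := 1) hA.meas y τ)
    ((Γ.helsK_cont y τ).continuousOn.integrableOn_compact (isCompact_closedBall _ _))
  have h5 := norm_setIntegral_le_of_norm_le_const (μ := volume)
    (s := closedBall (0 : E 2) R \ Γ.blow A y τ) (f := Γ.helsK y τ) (C := M)
    ((measure_mono sdiff_subset).trans_lt measure_closedBall_lt_top)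
    fun w hw => hM τ hτ w hw.1
  have h6 := mul_le_mul_of_nonneg_left h3 hM0.le
  have e : M * (ε / 2 / M) = ε / 2 := by field_simp
  have h7 := le_abs_self (∫ w in closedBall (0 : E 2) R \ Γ.blow A y τ, Γ.helsK y τ w)
  rw [Real.norm_eq_abs] at h5
  have h8 : 4 * Real.pi * Γ.m y - ε / 2 < ∫ w in closedBall (0 : E 2) R, Γ.helsK y τ w := h2
  linarith

theorem Geo.hels_int (Γ : Geo n b) {A : Set (E n)} (hA : BM A) {τ : ℝ} (hτ : 0 < τ) :
    IntegrableOn (fun y => Γ.m y * ∫ x in A, Γ.m x * (8 * τ ^ 4 / (Γ.rr x y + τ ^ 2) ^ 3)) A := by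
  have hK := hA.bdd.isCompact_closure
  have h1 : Continuous fun p : E n × E n =>
      Γ.m p.1 * (Γ.m p.2 * (8 * τ ^ 4 / (Γ.rr p.2 p.1 + τ ^ 2) ^ 3)) :=
    (Γ.m_smooth.continuous.comp continuous_fst).mul (Γ.hels_ker_cont hτ)
  have h2 := (h1.continuousOn.integrableOn_compact (μ := volume.prod volume)
    (hK.prod hK)).mono_set (prod_mono subset_closure subset_closure)
  rw [IntegrableOn, ← Measure.prod_restrict] at h2
  have h3 := h2.integral_prod_left
  simp only [integral_const_mul] at h3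
  exact h3

theorem Geo.hel_sing (Γ : Geo 2 b) {A : Set (E 2)} (hA : BM A) {ε : ℝ} (hε : 0 < ε) :
    ∀ᶠ τ in 𝓝[>] (0 : ℝ), 4 * Real.pi * (∫ y in A, Γ.m y) - ε ≤
      ∫ y in A, Γ.m y * ∫ x in A, Γ.m x * (8 * τ ^ 4 / (Γ.rr x y + τ ^ 2) ^ 3) := by
  have hp := Real.pi_pos
  have hG : IntegrableOn (fun y => 4 * Real.pi * Γ.m y) A :=
    hA.integrableOn (continuous_const.mul Γ.m_smooth.continuous)
  have h0 : ∀ τ y, 0 ≤ Γ.m y * ∫ x in A, Γ.m x * (8 * τ ^ 4 / (Γ.rr x y + τ ^ 2) ^ 3) :=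
    fun τ y => mul_nonneg (Γ.m_pos y).le (integral_nonneg fun x => Γ.hels_ker_nonneg τ x y)
  have h1 : Tendsto (fun τ : ℝ => ∫ y in A, min (4 * Real.pi * Γ.m y)
      (Γ.m y * ∫ x in A, Γ.m x * (8 * τ ^ 4 / (Γ.rr x y + τ ^ 2) ^ 3))) (𝓝[>] 0)
      (𝓝 (∫ y in A, 4 * Real.pi * Γ.m y)) := by
    refine tendsto_integral_filter_of_dominated_convergence (fun y => 4 * Real.pi * Γ.m y)
      ?_ ?_ hG ?_
    · filter_upwards [self_mem_nhdsWithin] with τ hτ
      exact (hG.inf (Γ.hels_int hA hτ)).aestronglyMeasurable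
    · refine Eventually.of_forall fun τ => Eventually.of_forall fun y => ?_
      have := Γ.m_pos y
      rw [Real.norm_eq_abs, abs_of_nonneg (le_min (by positivity) (h0 τ y))]
      exact min_le_left _ _
    · filter_upwards [ae_restrict_mem hA.meas, ae_restrict_of_ae
        (Besicovitch.ae_tendsto_measure_inter_div_of_measurableSet volume hA.meas.compl)]
        with y hy h2
      rw [indicator_of_notMem (not_notMem.2 hy)] at h2
      refine tendsto_order.2 ⟨fun a ha => ?_, fun a ha => Eventually.of_forall fun τ =>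
        (min_le_left _ _).trans_lt ha⟩
      filter_upwards [Γ.hels_pt hA h2 (sub_pos.2 ha)] with τ h3
      exact lt_min ha (by linarith)
  rw [integral_const_mul] at h1
  filter_upwards [h1.eventually (Ioi_mem_nhds (sub_lt_self _ hε)), self_mem_nhdsWithin]
    with τ h2 hτ
  refine le_trans (le_of_lt h2) (integral_mono (hG.inf (Γ.hels_int hA hτ)) (Γ.hels_int hA hτ)
    fun y => min_le_right _ _)


end Vale.Agent.P219
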