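import Vale.Agent.P219.Yam

/-!
The equality case of the mean curvature inequality.
-/

open scoped ContDiff Topology ENNReal
open MeasureTheory Set Filter Metric

noncomputable section

namespace Vale.Agent.P219

variable {n k : ℕ} {b : ℝ}

theorem rigC_ae (W : Vf n) {f : E n × E n → ℝ} (hf : Continuous f)
    (h0 : ∀ z : E n × E n, ‖z.2‖ = 1 → 0 ≤ f z) (h : ∫ z, f z ∂W.V ≤ 0) : ∀ᵐ z ∂W.V, f z = 0 := by
  have h1 : 0 ≤ᵐ[W.V] f := by
    filter_upwards [W.supp] with z hz using h0 z hz.2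
  exact (integral_eq_zero_iff_of_nonneg_ae h1 (W.integrable hf)).1
    (le_antisymm h (integral_nonneg_of_ae h1))

theorem rigC_nonneg (W : Vf n) {f : E n × E n → ℝ}
    (h0 : ∀ z : E n × E n, ‖z.2‖ = 1 → 0 ≤ f z) : 0 ≤ ∫ z, f z ∂W.V := by
  refine integral_nonneg_of_ae ?_
  filter_upwards [W.supp] with z hz using h0 z hz.2

namespace Geo

variable (Γ : Geo (k + 1) b) {W : Vf (k + 1)} {h : ℝ} {γ : E (k + 1) → ℝ} {K : Set (E (k + 1))}

/-- All deficits vanish. -/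
theorem rigC_deficits (hk : 3 ≤ k) (hF : Γ.FV W h fun _ => h) (hD : Γ.Den W) (hm : 0 < W.mass)
    (he : (h ^ 2 - b ^ 2) * W.mass ^ (2 / k : ℝ) ≤ sph k ^ (2 / k : ℝ)) :
    ∃ o τ, 0 < τ ∧ ∀ᵐ z ∂W.V, Γ.gt (Γ.σ o) z = 0 ∧ Γ.P o τ z = h ∧
      Γ.Hs o z = k * (1 + b ^ 2 * Γ.σ o z.1) ∧ Γ.Wd o z = k := by
  have hk3 : (3 : ℝ) ≤ k := by exact_mod_cast hk
  have hk2 : (0 : ℝ) < k - 2 := by linarith
  have hk0 : (0 : ℝ) < k := by linarith
  have hck : 0 < ck k := by unfold ck; positivity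
  have hbe : 0 < be k := by unfold be; positivity
  have hq0 : 0 < qq k := by unfold qq; positivity
  have hckq : ck k * (qq k - 2) = k := by unfold ck qq; field_simp; ring
  obtain ⟨c, hc⟩ : ∃ c : ℝ, c = W.mass ^ (-(1 / qq k)) := ⟨_, rfl⟩
  have hc0 : 0 < c := hc ▸ Real.rpow_pos_of_pos hm _
  have hcq : ∫ _z, c ^ qq k ∂W.V = 1 := by
    rw [integral_const, smul_eq_mul, hc, ← Real.rpow_mul hm.le]
    have : -(1 / qq k) * qq k = -1 := by field_simp
    rw [this, Real.rpow_neg_one]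
    exact mul_inv_cancel₀ hm.ne'
  have hc2 : ∫ _z, c ^ 2 ∂W.V = W.mass ^ (2 / k : ℝ) := by
    rw [integral_const, smul_eq_mul, hc, ← Real.rpow_natCast, ← Real.rpow_mul hm.le]
    have e : (2 / k : ℝ) = 1 + -(1 / qq k) * ((2 : ℕ) : ℝ) := by
      unfold qq; push_cast; field_simp; ring
    rw [e, Real.rpow_add hm, Real.rpow_one]
    rfl
  set Y := ck k * sph k ^ (2 / k : ℝ) with hY
  have hY0 : 0 ≤ Y := mul_nonneg hck.le (Real.rpow_nonneg (sph_pos k).le _)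
  have hEn : Γ.En W (ck k * (h ^ 2 - b ^ 2)) (fun _ => c) ≤ Y := by
    unfold Frame.En
    simp only [Frame.gt_const, norm_zero, ne_eq, OfNat.ofNat_ne_zero, not_false_eq_true, zero_pow,
      integral_zero, zero_add]
    rw [hc2, mul_assoc]
    exact mul_le_mul_of_nonneg_left he hck.le
  obtain ⟨o, τ, hτ, hB⟩ := Γ.balance hk hF (ρ := fun _ => c ^ qq k) continuous_const
    (fun _ => Real.rpow_nonneg hc0.le _) hcq
  have hst : (qq k - 2) * Y ≤ ∫ z, c ^ 2 * (Γ.la o τ z.1 ^ 2 * Γ.Wd o z) ∂W.V := by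
    refine le_of_forall_pos_le_add fun η hη => ?_
    obtain ⟨δ, hδ, h1⟩ := Γ.stab hk hY0 (Γ.yamabe hk hF hD) hη
    have := h1 (fun _ => c) contDiff_const (fun _ => hc0.le) hcq (by linarith) o τ hτ hB
    linarith
  have hH := Γ.hardy_le hk hF o hτ (u := fun _ => c) contDiff_const 0
  rw [add_zero, zero_mul, add_zero] at hH
  have cla : Continuous fun z : E (k + 1) × E (k + 1) => Γ.la o τ z.1 :=
    (Γ.la_sm o hτ).continuous.comp continuous_fst
  have cD : Continuous fun z : E (k + 1) × E (k + 1) => Γ.D o τ z.1 :=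
    (Γ.D_sm o τ).continuous.comp continuous_fst
  have cσ : Continuous fun z : E (k + 1) × E (k + 1) => Γ.σ o z.1 :=
    (Γ.sm o).continuous.comp continuous_fst
  have ha := aa_ge b τ
  have c5 : Continuous fun z : E (k + 1) × E (k + 1) =>
      c ^ 2 * (Γ.la o τ z.1 ^ 2 * Γ.Wd o z) :=
    continuous_const.mul ((cla.pow 2).mul (Γ.cont_Wd o))
  have c2 : Continuous fun z : E (k + 1) × E (k + 1) => c ^ 2 * Γ.la o τ z.1 ^ 2 :=
    continuous_const.mul (cla.pow 2)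
  have e5 : ∫ z, c ^ 2 * Γ.la o τ z.1 ^ 2 * (k - Γ.Wd o z) ∂W.V =
      k * ∫ z, c ^ 2 * Γ.la o τ z.1 ^ 2 ∂W.V - ∫ z, c ^ 2 * (Γ.la o τ z.1 ^ 2 * Γ.Wd o z) ∂W.V := by
    rw [← integral_const_mul, ← integral_sub ((W.integrable c2).const_mul _) (W.integrable c5)]
    exact integral_congr_ae (Eventually.of_forall fun z => by ring)
  have p1 : ∀ z : E (k + 1) × E (k + 1), ‖z.2‖ = 1 → 0 ≤ ‖Γ.er o τ (fun _ => c) z‖ ^ 2 :=
    fun z _ => sq_nonneg _
  have p3 : ∀ z : E (k + 1) × E (k + 1), ‖z.2‖ = 1 → 0 ≤ c ^ 2 * (Γ.P o τ z - h) ^ 2 :=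
    fun z _ => by positivity
  have p4 : ∀ z : E (k + 1) × E (k + 1), ‖z.2‖ = 1 → 0 ≤ 2 * be k * aa b τ * c ^ 2 / Γ.D o τ z.1 *
      (Γ.Hs o z - k * (1 + b ^ 2 * Γ.σ o z.1)) := fun z hz => by
    have := Γ.D_pos o hτ z.1
    exact mul_nonneg (by positivity) (sub_nonneg.2 (Γ.Hs_lower o hz))
  have p5 : ∀ z : E (k + 1) × E (k + 1), ‖z.2‖ = 1 →
      0 ≤ c ^ 2 * Γ.la o τ z.1 ^ 2 * (k - Γ.Wd o z) := fun z hz =>
    mul_nonneg (by positivity) (sub_nonneg.2 (Γ.Wd_le o hz))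
  have n1 := rigC_nonneg W p1
  have n3 := rigC_nonneg W p3
  have n4 := rigC_nonneg W p4
  have n5 := rigC_nonneg W p5
  have a1 := rigC_ae W ((Γ.cont_er o hτ (u := fun _ => c) contDiff_const).norm.pow 2) p1
  have a3 := rigC_ae W (continuous_const.mul (((Γ.cont_P o hτ).sub continuous_const).pow 2)) p3
  have a4 := rigC_ae W ((continuous_const.div cD fun z => (Γ.D_pos o hτ z.1).ne').mul
    ((Γ.cont_Hs o).sub (continuous_const.mul
      (continuous_const.add (continuous_const.mul cσ))))) p4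
  have a5 := rigC_ae W (c2.mul (continuous_const.sub (Γ.cont_Wd o))) p5
  simp only [Pi.pow_apply, Pi.mul_apply, Pi.sub_apply, Pi.add_apply, Pi.div_apply] at a1 a3 a4 a5
  rw [e5] at n5 a5
  generalize ∫ z, ‖Γ.er o τ (fun _ => c) z‖ ^ 2 ∂W.V = I1 at *
  generalize ∫ z, c ^ 2 * (Γ.P o τ z - h) ^ 2 ∂W.V = I3 at *
  generalize ∫ z, 2 * be k * aa b τ * c ^ 2 / Γ.D o τ z.1 *
    (Γ.Hs o z - k * (1 + b ^ 2 * Γ.σ o z.1)) ∂W.V = I4 at *
  generalize ∫ z, c ^ 2 * Γ.la o τ z.1 ^ 2 ∂W.V = IL at *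
  generalize ∫ z, c ^ 2 * (Γ.la o τ z.1 ^ 2 * Γ.Wd o z) ∂W.V = IW at *
  have s1 : k * Y ≤ ck k * IW := by
    have := mul_le_mul_of_nonneg_left hst hck.le
    rwa [← mul_assoc, hckq] at this
  have s2 : Y ≤ ck k * IL := by
    have h1 : ck k * IW ≤ ck k * (k * IL) := mul_le_mul_of_nonneg_left (by linarith) hck.le
    exact le_of_mul_le_mul_left (by linarith) hk0
  have s3 : 0 ≤ ck k * I3 := mul_nonneg hck.le n3
  have s4 : I3 ≤ 0 := le_of_mul_le_mul_left (by linarith) hck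
  have s5 : k * IL - IW ≤ 0 := by
    have h1 : k * (ck k * IL) ≤ k * Y := mul_le_mul_of_nonneg_left (by linarith) hk0.le
    exact le_of_mul_le_mul_left (by linarith) hck
  refine ⟨o, τ, hτ, ?_⟩
  filter_upwards [a1 (by linarith), a3 s4, a4 (by linarith), a5 s5] with z z1 z3 z4 z5
  have hDz := Γ.D_pos o hτ z.1
  have hlz := Γ.la_pos o hτ z.1
  refine ⟨?_, ?_, ?_, ?_⟩
  · rw [pow_eq_zero_iff two_ne_zero, norm_eq_zero, Geo.er, Frame.gt_const, zero_add,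
      smul_eq_zero] at z1
    exact z1.resolve_left (by positivity)
  · rw [mul_eq_zero, pow_eq_zero_iff two_ne_zero, pow_eq_zero_iff two_ne_zero, sub_eq_zero] at z3
    exact z3.resolve_left hc0.ne'
  · rw [mul_eq_zero, sub_eq_zero] at z4
    exact z4.resolve_left (by positivity)
  · rw [mul_eq_zero, sub_eq_zero] at z5
    exact (z5.resolve_left (by positivity)).symm

theorem round (hk : 3 ≤ k) (hF : Γ.FV W h fun _ => h) (hD : Γ.Den W) (hm : 0 < W.mass)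
    (he : (h ^ 2 - b ^ 2) * W.mass ^ (2 / k : ℝ) ≤ sph k ^ (2 / k : ℝ)) :
    ∃ o s, 0 < s ∧ Γ.Round W o s := by
  have hk0 : (0 : ℝ) < k := by
    have : (3 : ℝ) ≤ k := by exact_mod_cast hk
    linarith
  obtain ⟨o, τ, hτ, hae⟩ := Γ.rigC_deficits hk hF hD hm he
  have hhb : 0 < h ^ 2 - b ^ 2 := by
    have h1 := (Real.rpow_pos_of_pos (sph_pos k) (2 / k : ℝ)).trans_le (Γ.amc hk hF hD hm)
    exact (mul_pos_iff_of_pos_right (Real.rpow_pos_of_pos hm _)).1 h1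
  have hh : 0 < h := by
    have h1 := Γ.dens_h hF
    rcases h1.eq_or_lt with h2 | h2
    · rw [← h2] at hhb
      nlinarith [sq_nonneg b]
    · exact h2
  have ha : 0 < aa b τ := zero_lt_one.trans_le (aa_ge b τ)
  have hp : ∀ z, Γ.P o τ z = h → Γ.pn o z = h * Γ.D o τ z.1 / (2 * aa b τ) := fun z hz => by
    have := Γ.D_pos o hτ z.1
    rw [← hz, Geo.P]
    field_simp
  obtain ⟨φ, hφ⟩ : ∃ φ : E (k + 1) → ℝ, φ = fun x =>
      1 + b ^ 2 * Γ.σ o x - h ^ 2 * Γ.D o τ x / (2 * aa b τ) := ⟨_, rfl⟩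
  have hφ1 : ContDiff ℝ 1 φ := by
    rw [hφ]
    exact (contDiff_const.add (contDiff_const.mul ((Γ.sm o).of_le (by exact_mod_cast le_top)))).sub
      ((contDiff_const.mul ((Γ.D_sm o τ).of_le (by exact_mod_cast le_top))).div_const _)
  have cφ : Continuous fun z : E (k + 1) × E (k + 1) => φ z.1 :=
    hφ1.continuous.comp continuous_fst
  have hfv := Γ.fv_σ hF o hφ1
  have c1 : Continuous fun z : E (k + 1) × E (k + 1) =>
      φ z.1 * Γ.Hs o z + inner ℝ (Γ.gt φ z) (Γ.gt (Γ.σ o) z) :=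
    (cφ.mul (Γ.cont_Hs o)).add ((Γ.cont_gt hφ1).inner
      (Γ.cont_gt ((Γ.sm o).of_le (by exact_mod_cast le_top))))
  have c2 : Continuous fun z : E (k + 1) × E (k + 1) => h * (φ z.1 * Γ.pn o z) :=
    continuous_const.mul (cφ.mul (Γ.cont_pn o))
  have hint : ∫ z, k * φ z.1 ^ 2 ∂W.V = 0 := by
    rw [← sub_eq_zero, ← integral_const_mul,
      ← integral_sub (W.integrable c1) ((W.integrable c2).const_mul _)] at hfv
    rw [← hfv]
    refine integral_congr_ae ?_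
    filter_upwards [hae] with z ⟨z1, z2, z3, _⟩
    rw [z1, z3, hp z z2, inner_zero_right, hφ]
    ring
  have hz := rigC_ae W (f := fun z => (k : ℝ) * φ z.1 ^ 2) (continuous_const.mul (cφ.pow 2))
    (fun z _ => mul_nonneg hk0.le (sq_nonneg _)) hint.le
  have hs : ∀ᵐ z ∂W.V, Γ.σ o z.1 = (1 - h ^ 2 * τ ^ 2 / (2 * aa b τ)) / (h ^ 2 - b ^ 2) := by
    filter_upwards [hz] with z hz
    have h1 : φ z.1 = 0 := by
      simp only [mul_eq_zero, pow_eq_zero_iff two_ne_zero] at hz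
      exact hz.resolve_left hk0.ne'
    rw [hφ] at h1
    simp only [Geo.D] at h1
    have h2 : h ^ 2 * (τ ^ 2 + 2 * aa b τ * Γ.σ o z.1) / (2 * aa b τ) =
        h ^ 2 * τ ^ 2 / (2 * aa b τ) + h ^ 2 * Γ.σ o z.1 := by field_simp
    rw [eq_div_iff hhb.ne']
    linarith
  generalize (1 - h ^ 2 * τ ^ 2 / (2 * aa b τ)) / (h ^ 2 - b ^ 2) = s at hs
  have hpp : ∀ z, Γ.P o τ z = h → 0 < Γ.pn o z := fun z hz => by
    have := Γ.D_pos o hτ z.1
    rw [hp z hz]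
    positivity
  refine ⟨o, s, ?_, ?_⟩
  · have hV : W.V ≠ 0 := fun h0 => by simp [Vf.mass, h0] at hm
    have : (ae W.V).NeBot := ae_neBot.2 hV
    obtain ⟨z, ⟨⟨z1, z2, -⟩, z3⟩, z4⟩ := ((hae.and hs).and W.supp).exists
    have h1 := Γ.norm_gt_σ o z4.2
    have h2 := hpp z z2
    have h3 := Γ.nonneg o z.1
    rw [z1, z3] at h1
    rw [z3] at h3
    rcases h3.eq_or_lt with h4 | h4
    · rw [← h4] at h1
      simp at h1
      exact absurd h1 h2.ne'
    · exact h4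
  · filter_upwards [hae, hs, W.supp] with z ⟨z1, z2, _, z4⟩ z5 z6
    refine ⟨z5, hpp z z2, fun ξ hξ => ?_⟩
    have h1 : Γ.gr (Γ.σ o) z.1 = Γ.pn o z • z.2 := sub_eq_zero.1 z1
    have h2 : inner ℝ ξ z.2 = 0 := by
      rw [h1, real_inner_smul_left, mul_eq_zero] at hξ
      rw [real_inner_comm]
      exact hξ.resolve_left (hpp z z2).ne'
    have h3 := Γ.Wd_eq z6.2 z4 h2
    rw [hξ, zero_pow two_ne_zero, mul_zero, add_zero] at h3
    exact (pow_left_inj₀ (norm_nonneg _) (norm_nonneg _) two_ne_zero).1 h3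

end Geo


end Vale.Agent.P219
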