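import Vale.Agent.P219.HelB
import Vale.Agent.P219.HelS
import Vale.Agent.P219.RigC

/-!
The calibration inequality in dimension two.
-/

open scoped ContDiff Topology ENNReal
open MeasureTheory Set Filter Metric

noncomputable section

namespace Vale.Agent.P219

variable {n k : ℕ} {b : ℝ}

namespace Geo

variable (Γ : Geo 2 b) {A : Set (E 2)} {W : Vf 2}

theorem hell_rr : Continuous fun p : E 2 × E 2 => Γ.rr p.1 p.2 :=
  (continuous_const.mul Γ.cont).add (continuous_const.mul (Γ.cont.pow 2))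

theorem hell_rr0 (x y : E 2) : 0 ≤ Γ.rr x y := by
  have h := Γ.nonneg x y
  unfold rr
  positivity

theorem hell_m : Continuous fun p : E 2 × E 2 => Γ.m p.2 * Γ.m p.1 :=
  (Γ.m_smooth.continuous.comp continuous_snd).mul (Γ.m_smooth.continuous.comp continuous_fst)

theorem hell_m0 (p : E 2 × E 2) : 0 < Γ.m p.2 * Γ.m p.1 := mul_pos (Γ.m_pos _) (Γ.m_pos _)

theorem hell_int (hA : BM A) {f : E 2 × E 2 → ℝ} (hf : Continuous f) :
    Integrable f ((volume.restrict A).prod (volume.restrict A)) := by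
  rw [Measure.prod_restrict]
  exact (hf.continuousOn.integrableOn_compact
    (hA.bdd.isCompact_closure.prod hA.bdd.isCompact_closure)).mono_set
    (prod_mono subset_closure subset_closure)

theorem hell_im (hA : BM A) {f : E 2 × E 2 → ℝ} (hf : Continuous f) :
    Integrable (fun p => Γ.m p.2 * Γ.m p.1 * f p) ((volume.restrict A).prod (volume.restrict A)) :=
  hell_int hA (Γ.hell_m.mul hf)

theorem hell_J (hA : BM A) {f : E 2 × E 2 → ℝ} (hf : Continuous f) :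
    ∫ y in A, Γ.m y * ∫ x in A, Γ.m x * f (x, y) =
      ∫ p, Γ.m p.2 * Γ.m p.1 * f p ∂(volume.restrict A).prod (volume.restrict A) := by
  rw [integral_prod_symm _ (Γ.hell_im hA hf)]
  simp only [mul_assoc, integral_const_mul]

theorem hell_one : ∫ p, Γ.m p.2 * Γ.m p.1 ∂(volume.restrict A).prod (volume.restrict A) =
    (∫ y in A, Γ.m y) ^ 2 := by
  simp only [mul_comm (Γ.m (Prod.snd _))]
  rw [integral_prod_mul, sq]

theorem hell_ae (hA : BM A) : ∀ᵐ p ∂(volume.restrict A).prod (volume.restrict A),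
    p.1 ≠ p.2 ∧ p.1 ∈ A ∧ p.2 ∈ A := by
  refine Eventually.and ?_ ?_
  · refine (Measure.ae_prod_iff_ae_ae (isOpen_ne_fun continuous_fst continuous_snd).measurableSet).2
      (ae_of_all _ fun x => ?_)
    filter_upwards [(countable_singleton x).ae_notMem (volume.restrict A)] with y hy h
    exact hy h.symm
  · rw [Measure.prod_restrict]
    exact ae_restrict_mem (hA.meas.prod hA.meas)

theorem hell_q (hA : BM A) : Tendsto (fun τ : ℝ => ∫ p, Γ.m p.2 * Γ.m p.1 *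
      (Γ.rr p.1 p.2 / (Γ.rr p.1 p.2 + τ ^ 2)) ∂(volume.restrict A).prod (volume.restrict A))
    (𝓝[>] 0) (𝓝 ((∫ y in A, Γ.m y) ^ 2)) := by
  rw [← Γ.hell_one]
  refine tendsto_integral_filter_of_dominated_convergence (fun p => Γ.m p.2 * Γ.m p.1)
    (Eventually.of_forall fun τ => (Γ.hell_m.measurable.mul (Γ.hell_rr.measurable.div
      (Γ.hell_rr.measurable.add_const _))).aestronglyMeasurable)
    (Eventually.of_forall fun τ => ae_of_all _ fun p => ?_) (hell_int hA Γ.hell_m) ?_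
  · have h1 := Γ.hell_rr0 p.1 p.2
    have h2 := Γ.hell_m0 p
    rw [Real.norm_of_nonneg (by positivity)]
    exact mul_le_of_le_one_right h2.le (div_le_one_of_le₀ (by nlinarith) (by positivity))
  · filter_upwards [hell_ae hA] with p hp
    have h1 : 0 < Γ.rr p.1 p.2 := by
      have h := Γ.pos _ _ hp.1
      unfold rr
      positivity
    have h2 : ContinuousAt (fun τ : ℝ => Γ.m p.2 * Γ.m p.1 *
        (Γ.rr p.1 p.2 / (Γ.rr p.1 p.2 + τ ^ 2))) 0 :=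
      continuousAt_const.mul (continuousAt_const.div (by fun_prop) (by simpa using h1.ne'))
    have h3 := h2.tendsto.mono_left (nhdsWithin_le_nhds (s := Ioi 0))
    simpa [h1.ne'] using h3

theorem hell_meas (τ : ℝ) : Measurable fun p : (E 2 × E 2) × E 2 × E 2 => Γ.kk τ p.1 p.2 := by
  have h1 : Continuous fun p : (E 2 × E 2) × E 2 × E 2 => Γ.Xi p.1.1 p.2.1 := by
    have h := Γ.Xi_sm₂.continuous.comp (continuous_fst.fst.prodMk continuous_snd.fst :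
      Continuous fun p : (E 2 × E 2) × E 2 × E 2 => (p.1.1, p.2.1))
    simpa only [Function.comp_def] using h
  have h2 : Continuous fun p : (E 2 × E 2) × E 2 × E 2 => Γ.Xi p.2.1 p.1.1 := by
    have h := Γ.Xi_sm₂.continuous.comp (continuous_snd.fst.prodMk continuous_fst.fst :
      Continuous fun p : (E 2 × E 2) × E 2 × E 2 => (p.2.1, p.1.1))
    simpa only [Function.comp_def] using h
  have h3 : Continuous fun p : (E 2 × E 2) × E 2 × E 2 => Γ.rr p.1.1 p.2.1 := by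
    have h := Γ.hell_rr.comp (continuous_fst.fst.prodMk continuous_snd.fst :
      Continuous fun p : (E 2 × E 2) × E 2 × E 2 => (p.1.1, p.2.1))
    simpa only [Function.comp_def] using h
  have h4 := contDiff_rot.continuous
  exact (((h1.inner continuous_fst.snd).mul (h2.inner continuous_snd.snd)).sub
    (((h4.comp h1).inner continuous_fst.snd).mul
      ((h4.comp h2).inner continuous_snd.snd))).measurable.div (h3.measurable.add_const _)

theorem hell_abs (τ : ℝ) : ∀ᵐ p ∂W.V.prod W.V, |Γ.kk τ p.1 p.2| ≤ 1 := by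
  filter_upwards [Measure.quasiMeasurePreserving_fst.ae W.supp,
    Measure.quasiMeasurePreserving_snd.ae W.supp] with p h1 h2
  exact Γ.abs_kk h1.2 h2.2

theorem hell_kint (τ : ℝ) : Integrable (fun p => Γ.kk τ p.1 p.2) (W.V.prod W.V) :=
  Integrable.of_bound (Γ.hell_meas τ).aestronglyMeasurable 1 (Γ.hell_abs τ)

theorem hell_k : Tendsto (fun τ : ℝ => ∫ p, Γ.kk τ p.1 p.2 ∂W.V.prod W.V) (𝓝[>] 0)
    (𝓝 (∫ p, Γ.kk 0 p.1 p.2 ∂W.V.prod W.V)) := by
  refine tendsto_integral_filter_of_dominated_convergence (fun _ => 1)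
    (Eventually.of_forall fun τ => (Γ.hell_meas τ).aestronglyMeasurable)
    (Eventually.of_forall fun τ => Γ.hell_abs τ) (integrable_const _) (ae_of_all _ fun p => ?_)
  by_cases h : Γ.rr p.1.1 p.2.1 = 0
  · have h1 : Γ.Xi p.1.1 p.2.1 = 0 := by
      rw [← norm_eq_zero, ← pow_eq_zero_iff two_ne_zero, Γ.norm_Xi]
      exact h
    simp [Geo.kk, kn, h1, rot]
  · refine ContinuousAt.tendsto (f := fun τ => Γ.kk τ p.1 p.2) ?_ |>.mono_left nhdsWithin_le_nhds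
    exact continuousAt_const.div (by fun_prop) (by simpa using h)

theorem hell_tau (hA : BM A) (hG : Γ.GG A W) {C τ : ℝ} (hC : 0 < C)
    (hd : ∀ x ∈ A, ∀ y ∈ A, |(1 + b ^ 2 * Γ.σ x y) ^ 2 - Γ.dM x y| ≤ C * Γ.σ x y)
    (h0 : 0 < τ) (h1 : τ ≤ 1) :
    (∫ y in A, Γ.m y * ∫ x in A, Γ.m x * (8 * τ ^ 4 / (Γ.rr x y + τ ^ 2) ^ 3)) +
      (b ^ 2 + C) * (∫ p, Γ.m p.2 * Γ.m p.1 * (Γ.rr p.1 p.2 / (Γ.rr p.1 p.2 + τ ^ 2))
        ∂(volume.restrict A).prod (volume.restrict A)) +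
      (∫ y in A, Γ.m y * ∫ x in A, Γ.m x * (Γ.Rm x y / (Γ.rr x y + 1))) -
      C * (∫ y in A, Γ.m y) ^ 2 ≤ ∫ p, Γ.kk τ p.1 p.2 ∂W.V.prod W.V := by
  obtain ⟨K, hK1, hK2⟩ := Γ.hel_dd h0
  have hp : ∀ p : E 2 × E 2, 0 < Γ.rr p.1 p.2 + τ ^ 2 := fun p =>
    add_pos_of_nonneg_of_pos (Γ.hell_rr0 _ _) (by positivity)
  have c1 : Continuous fun p : E 2 × E 2 => 8 * τ ^ 4 / (Γ.rr p.1 p.2 + τ ^ 2) ^ 3 :=
    continuous_const.div ((Γ.hell_rr.add continuous_const).pow 3) fun p => (pow_pos (hp p) 3).ne'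
  have c2 : Continuous fun p : E 2 × E 2 => Γ.rr p.1 p.2 / (Γ.rr p.1 p.2 + τ ^ 2) :=
    Γ.hell_rr.div (Γ.hell_rr.add continuous_const) fun p => (hp p).ne'
  have c3 : Continuous fun p : E 2 × E 2 => Γ.Rm p.1 p.2 / (Γ.rr p.1 p.2 + 1) :=
    Γ.cont_Rm.div (Γ.hell_rr.add continuous_const) fun p =>
      (add_pos_of_nonneg_of_pos (Γ.hell_rr0 _ _) one_pos).ne'
  have c4 : Continuous (Γ.DD K).1 := (show ContDiff ℝ ∞ (Γ.DD K).1 from (Γ.DD K).2).continuous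
  have i1 := Γ.hell_im hA c1
  have i2 := (Γ.hell_im hA c2).const_mul (b ^ 2 + C)
  have i3 := Γ.hell_im hA c3
  have i5 := (hell_int hA Γ.hell_m).const_mul C
  have e := hG.double hA K
  simp only [hK1] at e
  rw [integral_prod _ (Γ.hell_kint τ), e, Γ.hell_J hA c4, Γ.hell_J hA c1, Γ.hell_J hA c3,
    ← Γ.hell_one, ← integral_const_mul, ← integral_const_mul, ← integral_add i1 i2,
    ← integral_add (by exact i1.add i2) i3, ← integral_sub (by exact (i1.add i2).add i3) i5]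
  refine integral_mono_ae (((i1.add i2).add i3).sub i5) (Γ.hell_im hA c4) ?_
  filter_upwards [hell_ae hA] with p hq
  have h2 := hK2 p.1 p.2 hq.1
  have h3 := (abs_le.1 (hd _ hq.2.1 _ hq.2.2)).2
  have h4 := hp p
  have h5 := Γ.hell_rr0 p.1 p.2
  have h6 : 2 * Γ.σ p.1 p.2 ≤ Γ.rr p.1 p.2 + τ ^ 2 := by
    unfold rr
    nlinarith [sq_nonneg τ, sq_nonneg (b * Γ.σ p.1 p.2)]
  have h7 : Γ.Rm p.1 p.2 / (Γ.rr p.1 p.2 + 1) ≤ Γ.Rm p.1 p.2 / (Γ.rr p.1 p.2 + τ ^ 2) :=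
    div_le_div_of_nonneg_left (Γ.Rm_nonneg _ _) h4 (by nlinarith)
  have h8 : 2 * τ ^ 2 * ((1 + b ^ 2 * Γ.σ p.1 p.2) ^ 2 - Γ.dM p.1 p.2) /
      (Γ.rr p.1 p.2 + τ ^ 2) ^ 2 ≤ C - C * (Γ.rr p.1 p.2 / (Γ.rr p.1 p.2 + τ ^ 2)) := by
    have e1 : C - C * (Γ.rr p.1 p.2 / (Γ.rr p.1 p.2 + τ ^ 2)) =
        τ ^ 2 * (C * (Γ.rr p.1 p.2 + τ ^ 2)) / (Γ.rr p.1 p.2 + τ ^ 2) ^ 2 := by
      field_simp
      ring
    rw [e1, mul_comm 2, mul_assoc]
    refine div_le_div_of_nonneg_right (mul_le_mul_of_nonneg_left ?_ (sq_nonneg τ)) (sq_nonneg _)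
    nlinarith [mul_le_mul_of_nonneg_left h6 hC.le]
  rw [mul_div_assoc (b ^ 2)] at h2
  have h9 : 8 * τ ^ 4 / (Γ.rr p.1 p.2 + τ ^ 2) ^ 3 +
      (b ^ 2 + C) * (Γ.rr p.1 p.2 / (Γ.rr p.1 p.2 + τ ^ 2)) +
      Γ.Rm p.1 p.2 / (Γ.rr p.1 p.2 + 1) - C ≤ (Γ.DD K).1 p := by
    linarith
  have h10 := mul_le_mul_of_nonneg_left h9 (Γ.hell_m0 p).le
  linarith

theorem hel (hA : BM A) (hG : Γ.GG A W) :
    4 * Real.pi * (∫ y in A, Γ.m y) + b ^ 2 * (∫ y in A, Γ.m y) ^ 2 +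
      ∫ y in A, Γ.m y * ∫ x in A, Γ.m x * (Γ.Rm x y / (Γ.rr x y + 1)) ≤
      ∫ z, ∫ w, Γ.kk 0 z w ∂W.V ∂W.V := by
  obtain ⟨C, hC, hd⟩ := Γ.dM_upper hA.bdd.isCompact_closure
  rw [← integral_prod _ (Γ.hell_kint 0)]
  refine le_of_forall_pos_le_add fun ε hε => ?_
  have h1 := (((Γ.hell_q hA).const_mul (b ^ 2 + C)).const_add
    (4 * Real.pi * (∫ y in A, Γ.m y) - ε - C * (∫ y in A, Γ.m y) ^ 2 +
      ∫ y in A, Γ.m y * ∫ x in A, Γ.m x * (Γ.Rm x y / (Γ.rr x y + 1))))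
  have h2 := le_of_tendsto_of_tendsto h1 (Γ.hell_k (W := W)) (by
    filter_upwards [Γ.hel_sing hA hε, Ioc_mem_nhdsGT (zero_lt_one' ℝ)] with τ h3 h4
    have h5 := Γ.hell_tau hA hG hC
      (fun x hx y hy => hd x (subset_closure hx) y (subset_closure hy)) h4.1 h4.2
    linarith)
  linarith

theorem hell_mass : ∫ _p, (1 : ℝ) ∂W.V.prod W.V = W.mass ^ 2 := by
  rw [integral_const, smul_eq_mul, mul_one, ← univ_prod_univ, measureReal_prod_prod, sq]
  rfl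

theorem hell_le : ∫ p, Γ.kk 0 p.1 p.2 ∂W.V.prod W.V ≤ W.mass ^ 2 := by
  rw [← hell_mass]
  refine integral_mono_ae (Γ.hell_kint 0) (integrable_const _) ?_
  filter_upwards [Γ.hell_abs 0] with p hp using (abs_le.1 hp).2

theorem hell_R : 0 ≤ ∫ y in A, Γ.m y * ∫ x in A, Γ.m x * (Γ.Rm x y / (Γ.rr x y + 1)) :=
  integral_nonneg fun y => mul_nonneg (Γ.m_pos y).le (integral_nonneg fun x =>
    mul_nonneg (Γ.m_pos x).le (div_nonneg (Γ.Rm_nonneg x y)
      (add_nonneg (Γ.hell_rr0 x y) zero_le_one)))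

theorem hel_le (hA : BM A) (hG : Γ.GG A W) :
    4 * Real.pi * (∫ y in A, Γ.m y) + b ^ 2 * (∫ y in A, Γ.m y) ^ 2 ≤ W.mass ^ 2 := by
  have h1 := Γ.hel hA hG
  rw [← integral_prod _ (Γ.hell_kint 0)] at h1
  linarith [Γ.hell_le (W := W), Γ.hell_R (A := A)]

theorem hel_eq (hA : BM A) (ho : IsOpen A) (hG : Γ.GG A W)
    (he : W.mass ^ 2 ≤ 4 * Real.pi * (∫ y in A, Γ.m y) + b ^ 2 * (∫ y in A, Γ.m y) ^ 2) :
    (∀ᵐ w ∂W.V, ∀ᵐ z ∂W.V, Γ.kk 0 z w = 1) ∧
      ∀ x ∈ closure A, ∀ y ∈ closure A, Γ.Rm x y = 0 := by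
  have h1 := Γ.hel hA hG
  rw [← integral_prod _ (Γ.hell_kint 0)] at h1
  have h2 := Γ.hell_le (W := W)
  have h3 := Γ.hell_R (A := A)
  constructor
  · have h4 : ∫ p, (1 - Γ.kk 0 p.1 p.2) ∂W.V.prod W.V = 0 := by
      rw [integral_sub (integrable_const _) (Γ.hell_kint 0), hell_mass]
      linarith
    rw [integral_eq_zero_iff_of_nonneg_ae _
      (by exact (integrable_const _).sub (Γ.hell_kint 0))] at h4
    · have h5 := Measure.ae_ae_of_ae_prod
        (Measure.measurePreserving_swap.quasiMeasurePreserving.ae h4)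
      filter_upwards [h5] with w hw
      filter_upwards [hw] with z hz
      exact (sub_eq_zero.1 hz).symm
    · filter_upwards [Γ.hell_abs 0] with p hp using sub_nonneg.2 (abs_le.1 hp).2
  · have hp : ∀ p : E 2 × E 2, 0 < Γ.rr p.1 p.2 + 1 := fun p =>
      add_pos_of_nonneg_of_pos (Γ.hell_rr0 _ _) one_pos
    have c3 : Continuous fun p : E 2 × E 2 => Γ.Rm p.1 p.2 / (Γ.rr p.1 p.2 + 1) :=
      Γ.cont_Rm.div (Γ.hell_rr.add continuous_const) fun p => (hp p).ne'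
    have h4 : ∫ y in A, Γ.m y * ∫ x in A, Γ.m x * (Γ.Rm x y / (Γ.rr x y + 1)) = 0 := by linarith
    rw [Γ.hell_J hA c3, integral_eq_zero_iff_of_nonneg (fun p => mul_nonneg (Γ.hell_m0 p).le
      (div_nonneg (Γ.Rm_nonneg _ _) (hp p).le)) (Γ.hell_im hA c3),
      Measure.prod_restrict] at h4
    have h5 := Measure.eqOn_open_of_ae_eq h4 (ho.prod ho) (Γ.hell_m.mul c3).continuousOn
      continuousOn_const
    have h6 : A ×ˢ A ⊆ {p : E 2 × E 2 | Γ.Rm p.1 p.2 = 0} := fun p hq =>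
      ((div_eq_zero_iff.1 ((mul_eq_zero.1 (h5 hq)).resolve_left (Γ.hell_m0 p).ne')).resolve_right
        (hp p).ne')
    have h7 := closure_minimal h6 (isClosed_eq Γ.cont_Rm continuous_const)
    rw [closure_prod_eq] at h7
    intro x hx y hy
    have h8 := h7 (mk_mem_prod hx hy)
    rwa [mem_ofPred_eq] at h8

end Geo


end Vale.Agent.P219
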