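import Vale.Agent.P219.HelC
import Vale.Agent.P219.Ge2

/-!
Pointwise comparison facts in dimension two.
-/

open scoped ContDiff Topology ENNReal
open MeasureTheory Set Filter Metric

noncomputable section

namespace Vale.Agent.P219

variable {n k : ℕ} {b : ℝ}

theorem help_mixed {g : E n × E n → ℝ} (hg : ContDiff ℝ ∞ g) (x o u v : E n) :
    fderiv ℝ (fun y => fderiv ℝ (fun p => g (y, p)) o v) x u =
      fderiv ℝ (fun p => fderiv ℝ (fun y => g (y, p)) x u) o v := by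
  have hd : Differentiable ℝ g := hg.differentiable (by simp)
  have hd2 : Differentiable ℝ (fderiv ℝ g) :=
    (hg.fderiv_right (m := ∞) (by simp)).differentiable (by simp)
  have e1 : (fun y => fderiv ℝ (fun p => g (y, p)) o v) = fun y => fderiv ℝ g (y, o) (0, v) :=
    funext fun y => DFunLike.congr_fun
      ((hd (y, o)).hasFDerivAt.comp o (hasFDerivAt_prodMk_right y o)).fderiv v
  have e2 : (fun p => fderiv ℝ (fun y => g (y, p)) x u) = fun p => fderiv ℝ g (x, p) (u, 0) :=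
    funext fun p => DFunLike.congr_fun (HasFDerivAt.comp (f := fun y => (y, p)) x
      (hd (x, p)).hasFDerivAt (hasFDerivAt_prodMk_left x p)).fderiv u
  have h1 := (HasFDerivAt.comp (f := fun y => (y, o)) x (hd2 (x, o)).hasFDerivAt
    (hasFDerivAt_prodMk_left x o)).clm_apply (hasFDerivAt_const ((0 : E n), v) x)
  have h2 := ((hd2 (x, o)).hasFDerivAt.comp o
    (hasFDerivAt_prodMk_right x o)).clm_apply (hasFDerivAt_const (u, (0 : E n)) o)
  simp only [Function.comp_def] at h1 h2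
  rw [e1, e2, h1.fderiv, h2.fderiv]
  have h3 := (hg.contDiffAt (x := (x, o))).isSymmSndFDerivAt (by
    simp only [minSmoothness_of_isRCLikeNormedField]
    exact WithTop.coe_le_coe.2 le_top)
  simpa using h3.eq (u, 0) (0, v)

theorem help_alg {m00 m01 m10 m11 a0 a1 c0 c1 C : ℝ} (hC : C ≠ 0)
    (h1 : a0 * m00 + a1 * m01 = C * c0) (h2 : a0 * m10 + a1 * m11 = C * c1)
    (h3 : c0 * (-a1 * m00 + a0 * m01) + c1 * (-a1 * m10 + a0 * m11) = 0)
    (h4 : a0 ^ 2 + a1 ^ 2 = c0 ^ 2 + c1 ^ 2) (h5 : 0 < c0 ^ 2 + c1 ^ 2) :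
    -a1 * m00 + a0 * m01 = (m00 * m11 - m01 * m10) / C * -c1 ∧
      -a1 * m10 + a0 * m11 = (m00 * m11 - m01 * m10) / C * c0 := by
  constructor
  · rw [div_mul_eq_mul_div, eq_div_iff hC]
    refine mul_left_cancel₀ h5.ne' ?_
    linear_combination (c1 * (-a1 * m10 + a0 * m11)) * h1 - (c1 * (-a1 * m00 + a0 * m01)) * h2 +
      C * c0 * h3 - c1 * (m00 * m11 - m01 * m10) * h4
  · rw [div_mul_eq_mul_div, eq_div_iff hC]
    refine mul_left_cancel₀ h5.ne' ?_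
    linear_combination (-c0 * (-a1 * m10 + a0 * m11)) * h1 + (c0 * (-a1 * m00 + a0 * m01)) * h2 +
      C * c1 * h3 + c0 * (m00 * m11 - m01 * m10) * h4

theorem help_apply (A : Op 2) (v : E 2) (i : Fin 2) :
    A v i = v 0 * A (ev 0) i + v 1 * A (ev 1) i := by
  conv_lhs => rw [← sum_ev v]
  simp [Fin.sum_univ_two]

namespace Geo

theorem help_symm (Γ : Geo n b) (o x ξ η : E n) :
    inner ℝ (fderiv ℝ (Γ.Xi o) x (Γ.F x ξ)) η = inner ℝ (fderiv ℝ (Γ.Xi x) o (Γ.F o η)) ξ := by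
  have key : ∀ o x v η : E n, inner ℝ (fderiv ℝ (Γ.Xi o) x v) η =
      fderiv ℝ (fun y => fderiv ℝ (Γ.σ y) o (Γ.F o η)) x v := by
    intro o x v η
    have h1 := (((Γ.Xi_sm o).differentiable (by simp) x).hasFDerivAt.inner ℝ
      (hasFDerivAt_const η x)).fderiv
    simp only [Xi, Γ.inner_gr] at h1
    rw [h1]
    simp
  rw [key, key, help_mixed Γ.smooth x o]
  congr 2
  funext p
  congr 2
  funext y
  exact Γ.symm y p

theorem help_C (Γ : Geo n b) (o x : E n) : 1 ≤ 1 + b ^ 2 * Γ.σ o x :=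
  le_add_of_nonneg_right (mul_nonneg (sq_nonneg b) (Γ.nonneg o x))

end Geo

namespace Geo

theorem Xi_self (Γ : Geo n b) (o ξ : E n) : fderiv ℝ (Γ.Xi o) o (Γ.F o ξ) = -ξ := by
  have hG := (Γ.gr_sm₂.differentiable (by simp) (o, o)).hasFDerivAt
  have h1 := (HasFDerivAt.comp (f := fun y => (y, o)) o hG (hasFDerivAt_prodMk_left o o)).fderiv
  have h2 := hG.comp o (hasFDerivAt_prodMk_right o o)
  have h3 := (HasFDerivAt.comp (f := fun y : E n => (y, y)) o hG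
    ((hasFDerivAt_id o).prodMk (hasFDerivAt_id o))).fderiv
  simp only [Function.comp_def, Γ.ge2_gr_self] at h1 h2 h3
  obtain ⟨D, hD⟩ : ∃ D, D = fderiv ℝ (fun p : E n × E n => Γ.gr (Γ.σ p.1) p.2) (o, o) := ⟨_, rfl⟩
  rw [← hD] at h1 h2 h3
  have h4 : D (Γ.F o ξ, 0) + D (0, Γ.F o ξ) = 0 := by
    have := DFunLike.congr_fun h3 (Γ.F o ξ)
    rw [← map_add]
    simpa using this.symm
  have h5 : fderiv ℝ (Γ.Xi o) o (Γ.F o ξ) = D (Γ.F o ξ, 0) := DFunLike.congr_fun h1 _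
  have h6 : Γ.B (Γ.gr (Γ.σ o)) o ξ = D (0, Γ.F o ξ) := by
    have h7 := (((Γ.sF.differentiable (by simp) o).hasFDerivAt).clm_apply h2).fderiv
    simp only [Frame.B, ContinuousLinearMap.comp_apply, sub_apply]
    rw [h7]
    simp [Γ.ge2_gr_self, Γ.left]
  have h7 := Γ.hess0 o ξ
  have h8 := Γ.rauch o o ξ
  rw [Γ.ge2_gr_self, inner_zero_left] at h8
  change ‖fderiv ℝ (Γ.Xi o) o (Γ.F o ξ)‖ ^ 2 ≤ _ at h8
  rw [h6, eq_neg_of_add_eq_zero_right h4, ← h5, inner_neg_left] at h7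
  have h9 := norm_add_sq_real (fderiv ℝ (Γ.Xi o) o (Γ.F o ξ)) ξ
  have h10 : ‖fderiv ℝ (Γ.Xi o) o (Γ.F o ξ) + ξ‖ ^ 2 = 0 :=
    le_antisymm (by linarith) (sq_nonneg _)
  exact eq_neg_of_add_eq_zero_left (norm_eq_zero.1 (pow_eq_zero_iff two_ne_zero |>.1 h10))

theorem req_self (Γ : Geo n b) (o : E n) : Γ.REq o o := by
  intro ξ
  rw [Γ.Xi_self, Γ.ge2_gr_self, inner_zero_left, norm_neg]
  ring

/-- The mixed second derivative maps the gradient to the gradient. -/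
theorem Xi_gr (Γ : Geo n b) (o x : E n) : fderiv ℝ (Γ.Xi o) x (Γ.F x (Γ.Xi x o)) =
    (1 + b ^ 2 * Γ.σ o x) • Γ.Xi o x := by
  refine ext_inner_right ℝ fun η => ?_
  rw [Γ.help_symm, real_inner_comm, Γ.inner_Xi, real_inner_smul_left, Γ.symm x o, ← Γ.inner_gr]
  rfl

theorem help_dM (Γ : Geo n b) : ContDiff ℝ ∞ fun p : E n × E n => Γ.dM p.1 p.2 :=
  contDiff_det.comp ((ge2_fd Γ.Xi_sm₂).clm_comp (Γ.sF.comp contDiff_snd))

theorem cont_Rm (Γ : Geo n b) : Continuous fun p : E n × E n => Γ.Rm p.1 p.2 := by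
  have h1 : Continuous fun p : E n × E n => Γ.lap p.1 p.2 :=
    (contDiff_tr.comp (Γ.contDiff_B₂ (y := fun o => Γ.gr (Γ.σ o)) Γ.gr_sm₂)).continuous
  have h2 : Continuous fun p : E n × E n => Γ.lap p.2 p.1 := by
    have := h1.comp continuous_swap
    simpa only [Function.comp_def, Prod.fst_swap, Prod.snd_swap] using this
  have h3 : Continuous fun p : E n × E n => 1 + b ^ 2 * Γ.σ p.1 p.2 :=
    continuous_const.add (continuous_const.mul Γ.cont)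
  have h4 : Continuous fun p : E n × E n => Γ.rr p.1 p.2 :=
    (continuous_const.mul Γ.cont).add (continuous_const.mul (Γ.cont.pow 2))
  exact (((h1.sub h3).mul (h2.sub h3)).sub ((Γ.help_dM.continuous.div h3 fun p =>
    (one_pos.trans_le (Γ.help_C p.1 p.2)).ne').pow 2)).sub (continuous_const.mul h4)

variable (Γ : Geo 2 b)

theorem help_a (o x : E 2) : Γ.Xi x o 0 ^ 2 + Γ.Xi x o 1 ^ 2 = Γ.rr o x := by
  rw [← norm_sq_two, Γ.norm_Xi, Γ.symm x o, rr]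

theorem help_c (o x : E 2) : Γ.Xi o x 0 ^ 2 + Γ.Xi o x 1 ^ 2 = Γ.rr o x := by
  rw [← norm_sq_two, Γ.norm_Xi, rr]

theorem help_rr {o x : E 2} (h : o ≠ x) : 0 < Γ.rr o x := by
  have := Γ.pos o x h
  unfold rr
  positivity

theorem help_dM_self (o : E 2) : Γ.dM o o = 1 := by
  rw [dM, det_two]
  simp [Γ.Xi_self, ev]

theorem Xi_rot {o x : E 2} (h : o ≠ x) : fderiv ℝ (Γ.Xi o) x (Γ.F x (rot (Γ.Xi x o))) =
    (Γ.dM o x / (1 + b ^ 2 * Γ.σ o x)) • rot (Γ.Xi o x) := by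
  obtain ⟨M, hM⟩ : ∃ M : Op 2, M = (fderiv ℝ (Γ.Xi o) x).comp (Γ.F x) := ⟨_, rfl⟩
  have hM' : ∀ v, fderiv ℝ (Γ.Xi o) x (Γ.F x v) = M v := fun v => by rw [hM]; rfl
  have h1 := Γ.Xi_gr o x
  have h2 := Γ.inner_Xi o x (Γ.F x (rot (Γ.Xi x o)))
  rw [← Γ.inner_gr] at h2
  change _ = _ * inner ℝ (Γ.Xi x o) _ at h2
  rw [hM'] at h1 h2 ⊢
  have h3 := congrArg (fun v : E 2 => v 0) h1
  have h4 := congrArg (fun v : E 2 => v 1) h1
  simp only [help_apply M (Γ.Xi x o), PiLp.smul_apply, smul_eq_mul] at h3 h4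
  rw [inner_two, inner_two, help_apply M _ 0, help_apply M _ 1, rot_zero, rot_one] at h2
  obtain ⟨h5, h6⟩ := help_alg (one_pos.trans_le (Γ.help_C o x)).ne' h3 h4 (by linarith)
    ((Γ.help_a o x).trans (Γ.help_c o x).symm) ((Γ.help_rr h).trans_eq (Γ.help_c o x).symm)
  rw [dM, ← hM, det_two]
  ext i
  fin_cases i
  · simp only [Fin.zero_eta, PiLp.smul_apply, smul_eq_mul]
    rw [help_apply M, rot_zero, rot_one, rot_zero]
    exact h5
  · simp only [Fin.mk_one, PiLp.smul_apply, smul_eq_mul]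
    rw [help_apply M, rot_zero, rot_one, rot_one]
    exact h6

theorem dM_sq (o x : E 2) : (Γ.dM o x / (1 + b ^ 2 * Γ.σ o x)) ^ 2 ≤ 1 := by
  rcases eq_or_ne o x with rfl | h
  · simp [Γ.help_dM_self, Γ.self]
  have h1 := Γ.rauch o x (rot (Γ.Xi x o))
  change ‖fderiv ℝ (Γ.Xi o) x (Γ.F x _)‖ ^ 2 ≤ _ + b ^ 2 * inner ℝ (Γ.Xi x o) _ ^ 2 at h1
  rw [Γ.Xi_rot h, norm_smul, mul_pow, Real.norm_eq_abs, sq_abs, norm_sq_two, norm_sq_two,
    inner_two, rot_zero, rot_one, rot_zero, rot_one] at h1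
  have h2 := Γ.help_a o x
  have h3 := Γ.help_c o x
  refine le_of_mul_le_mul_right ?_ (Γ.help_rr h)
  calc _ = (Γ.dM o x / (1 + b ^ 2 * Γ.σ o x)) ^ 2 * ((-Γ.Xi o x 1) ^ 2 + Γ.Xi o x 0 ^ 2) := by
        rw [← h3]; ring
    _ ≤ _ := h1
    _ = _ := by rw [← h2]; ring

theorem help_lap (o x : E 2) : 1 + b ^ 2 * Γ.σ o x ≤ Γ.lap o x - (1 + b ^ 2 * Γ.σ o x) ∧
    1 + b ^ 2 * Γ.σ o x ≤ Γ.lap x o - (1 + b ^ 2 * Γ.σ o x) := by
  have h1 := Γ.lap_lower o x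
  have h2 := Γ.lap_lower x o
  rw [Γ.symm x o] at h2
  simp only [Nat.cast_ofNat] at h1 h2
  unfold lap
  constructor <;> linarith

theorem help_sq (o x : E 2) : (1 + b ^ 2 * Γ.σ o x) * (1 + b ^ 2 * Γ.σ o x) =
    1 + b ^ 2 * Γ.rr o x := by
  unfold rr
  ring

theorem Rm_nonneg (o x : E 2) : 0 ≤ Γ.Rm o x := by
  obtain ⟨h1, h2⟩ := Γ.help_lap o x
  have h3 := Γ.help_C o x
  have h4 := mul_le_mul h1 h2 (by linarith) (by linarith)
  have h5 := Γ.dM_sq o x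
  have h6 := Γ.help_sq o x
  unfold Rm
  linarith

theorem of_Rm {o x : E 2} (h : Γ.Rm o x = 0) :
    Γ.REq o x ∧ Γ.HEq o x ∧ (Γ.dM o x / (1 + b ^ 2 * Γ.σ o x)) ^ 2 = 1 := by
  obtain ⟨h1, h2⟩ := Γ.help_lap o x
  have h3 := Γ.help_C o x
  have h4 := mul_le_mul h1 h2 (by linarith) (by linarith)
  have h5 := Γ.dM_sq o x
  have h6 := Γ.help_sq o x
  unfold Rm at h
  have h7 : (Γ.dM o x / (1 + b ^ 2 * Γ.σ o x)) ^ 2 = 1 := by linarith
  have h8 : Γ.lap o x = 2 * (1 + b ^ 2 * Γ.σ o x) := by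
    have h9 := mul_le_mul_of_nonneg_left h2
      (show 0 ≤ Γ.lap o x - (1 + b ^ 2 * Γ.σ o x) by linarith)
    have h10 : Γ.lap o x - (1 + b ^ 2 * Γ.σ o x) ≤ 1 + b ^ 2 * Γ.σ o x :=
      le_of_mul_le_mul_right (by linarith) (one_pos.trans_le h3)
    linarith
  refine ⟨?_, ?_, h7⟩
  · rcases eq_or_ne o x with rfl | hne
    · exact Γ.req_self o
    intro ξ
    have hR := Γ.help_rr hne
    have ha := Γ.help_a o x
    have hc := Γ.help_c o x
    obtain ⟨α, hα⟩ : ∃ α, α = inner ℝ (Γ.Xi x o) ξ / Γ.rr o x := ⟨_, rfl⟩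
    obtain ⟨β, hβ⟩ : ∃ β, β = inner ℝ (rot (Γ.Xi x o)) ξ / Γ.rr o x := ⟨_, rfl⟩
    have hξ : ξ = α • Γ.Xi x o + β • rot (Γ.Xi x o) := by
      rw [inner_two] at hα hβ
      rw [rot_zero, rot_one] at hβ
      ext i
      fin_cases i
      · simp only [Fin.zero_eta, PiLp.add_apply, PiLp.smul_apply, smul_eq_mul, rot_zero]
        rw [hα, hβ]
        field_simp
        rw [← ha]
        ring
      · simp only [Fin.mk_one, PiLp.add_apply, PiLp.smul_apply, smul_eq_mul, rot_one]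
        rw [hα, hβ]
        field_simp
        rw [← ha]
        ring
    change _ = _ + b ^ 2 * inner ℝ (Γ.Xi x o) ξ ^ 2
    clear hα hβ
    subst hξ
    rw [map_add, map_smul, map_smul, map_add, map_smul, map_smul, Γ.Xi_gr, Γ.Xi_rot hne,
      norm_sq_two, norm_sq_two, inner_two]
    simp only [PiLp.add_apply, PiLp.smul_apply, smul_eq_mul, rot_zero, rot_one]
    generalize Γ.dM o x / (1 + b ^ 2 * Γ.σ o x) = μ at *
    generalize 1 + b ^ 2 * Γ.σ o x = C at *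
    linear_combination (α ^ 2 * C ^ 2 + β ^ 2 * μ ^ 2) * hc + β ^ 2 * Γ.rr o x * h7 +
      α ^ 2 * Γ.rr o x * h6 - (α ^ 2 + β ^ 2 +
        b ^ 2 * α ^ 2 * (Γ.Xi x o 0 ^ 2 + Γ.Xi x o 1 ^ 2 + Γ.rr o x)) * ha
  · obtain ⟨B, hB⟩ : ∃ B : Op 2, B = Γ.B (Γ.gr (Γ.σ o)) x := ⟨_, rfl⟩
    have hq := Γ.hess o x
    unfold HEq
    unfold lap at h8
    rw [← hB] at hq h8 ⊢
    simp only [tr, Fin.sum_univ_two, inner_ev] at h8
    have hq' : ∀ s t : ℝ, (1 + b ^ 2 * Γ.σ o x) * (s ^ 2 + t ^ 2) ≤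
        (s * B (ev 0) 0 + t * B (ev 1) 0) * s + (s * B (ev 0) 1 + t * B (ev 1) 1) * t := by
      intro s t
      have := hq (s • ev 0 + t • ev 1)
      rw [norm_sq_two, inner_two, help_apply B _ 0, help_apply B _ 1] at this
      simpa [ev] using this
    have q1 := hq' 1 0
    have q2 := hq' 0 1
    have q3 := hq' 1 1
    have q4 := hq' 1 (-1)
    have e1 : B (ev 0) 0 = 1 + b ^ 2 * Γ.σ o x := by linarith
    have e2 : B (ev 1) 1 = 1 + b ^ 2 * Γ.σ o x := by linarith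
    have e3 : B (ev 1) 0 + B (ev 0) 1 = 0 := by linarith
    intro ξ
    rw [norm_sq_two, inner_two, help_apply B _ 0, help_apply B _ 1, e1, e2]
    linear_combination ξ 0 * ξ 1 * e3

theorem dM_upper {K : Set (E 2)} (hK : IsCompact K) : ∃ C > 0, ∀ x ∈ K, ∀ y ∈ K,
    |(1 + b ^ 2 * Γ.σ x y) ^ 2 - Γ.dM x y| ≤ C * Γ.σ x y := by
  have hG : ContDiff ℝ ∞ fun p : E 2 × E 2 => (1 + b ^ 2 * Γ.σ p.1 p.2) ^ 2 - Γ.dM p.1 p.2 :=
    ((contDiff_const.add (contDiff_const.mul Γ.smooth)).pow 2).sub Γ.help_dM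
  obtain ⟨C, hC, h⟩ := ge2_quad
    (G := fun (a : E 2) x => (1 + b ^ 2 * Γ.σ a x) ^ 2 - Γ.dM a x) hG hK hK
  obtain ⟨c, hc, h'⟩ := Γ.ge2_lower hK
  refine ⟨C / c, by positivity, fun o ho y hy => ?_⟩
  have h0 : (1 + b ^ 2 * Γ.σ o o) ^ 2 - Γ.dM o o = 0 := by
    simp [Γ.self, Γ.help_dM_self]
  have h1 : fderiv ℝ (fun x => (1 + b ^ 2 * Γ.σ o x) ^ 2 - Γ.dM o x) o = 0 := by
    refine IsLocalMin.fderiv_eq_zero (Eventually.of_forall fun y => ?_)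
    have h2 := Γ.help_C o y
    have h3 := (div_le_one (one_pos.trans_le h2)).1
      ((le_abs_self _).trans ((sq_le_one_iff_abs_le_one _).1 (Γ.dM_sq o y)))
    simp only [h0]
    nlinarith
  refine (h o ho o ho y hy h0 h1).trans ?_
  calc C * ‖o - y‖ ^ 2 = C / c * (c * ‖o - y‖ ^ 2) := by field_simp
    _ ≤ _ := mul_le_mul_of_nonneg_left (h' (o, y) ⟨ho, hy⟩) (by positivity)

theorem abs_kk {τ : ℝ} {z w : E 2 × E 2} (hz : ‖z.2‖ = 1) (hw : ‖w.2‖ = 1) :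
    |Γ.kk τ z w| ≤ 1 := by
  have ha := Γ.help_a z.1 w.1
  have hc := Γ.help_c z.1 w.1
  have h1 := norm_sq_two z.2
  have h2 := norm_sq_two w.2
  rw [hz, one_pow] at h1
  rw [hw, one_pow] at h2
  have h3 : 0 ≤ Γ.rr z.1 w.1 := by rw [← ha]; positivity
  have h4 : 0 ≤ Γ.rr z.1 w.1 + τ ^ 2 := by positivity
  rw [kk, abs_div, abs_of_nonneg h4]
  refine div_le_one_of_le₀ (le_trans ?_ (le_add_of_nonneg_right (sq_nonneg τ))) h4
  refine abs_le_of_sq_le_sq' ?_ h3 |> abs_le.2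
  rw [kn, inner_two, inner_two, inner_two, inner_two, rot_zero, rot_one, rot_zero, rot_one]
  generalize Γ.Xi z.1 w.1 0 = c0 at *
  generalize Γ.Xi z.1 w.1 1 = c1 at *
  generalize Γ.Xi w.1 z.1 0 = a0 at *
  generalize Γ.Xi w.1 z.1 1 = a1 at *
  generalize z.2 0 = u0 at *
  generalize z.2 1 = u1 at *
  generalize w.2 0 = v0 at *
  generalize w.2 1 = v1 at *
  have h5 : (c0 * u0 + c1 * u1) ^ 2 + (-c1 * u0 + c0 * u1) ^ 2 = Γ.rr z.1 w.1 := by
    linear_combination hc - (c0 ^ 2 + c1 ^ 2) * h1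
  have h6 : (a0 * v0 + a1 * v1) ^ 2 + (-a1 * v0 + a0 * v1) ^ 2 = Γ.rr z.1 w.1 := by
    linear_combination ha - (a0 ^ 2 + a1 ^ 2) * h2
  generalize c0 * u0 + c1 * u1 = p at *
  generalize -c1 * u0 + c0 * u1 = q at *
  generalize a0 * v0 + a1 * v1 = s at *
  generalize -a1 * v0 + a0 * v1 = t at *
  have h7 : Γ.rr z.1 w.1 ^ 2 = (p * s - q * t) ^ 2 + (p * t + q * s) ^ 2 := by
    linear_combination -(s ^ 2 + t ^ 2) * h5 - Γ.rr z.1 w.1 * h6
  rw [h7]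
  exact le_add_of_nonneg_right (sq_nonneg _)

end Geo


end Vale.Agent.P219
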