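import Vale.Agent.P219.HelP
import Vale.Agent.P219.RigC

/-!
The equality case in dimension two.
-/

open scoped ContDiff Topology ENNReal
open MeasureTheory Set Filter Metric

noncomputable section

namespace Vale.Agent.P219

variable {n k : ℕ} {b : ℝ}

theorem helR_unit {N : E 2} (hN : ‖N‖ = 1) : N 0 ^ 2 + N 1 ^ 2 = 1 := by
  rw [← norm_sq_two, hN, one_pow]

theorem helR_rot (a N : E 2) :
    ‖a‖ ^ 2 • rot N = inner ℝ a N • rot a - inner ℝ (rot a) N • a := by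
  ext i
  fin_cases i
  · simp only [Fin.zero_eta, PiLp.smul_apply, PiLp.sub_apply, smul_eq_mul, rot_zero, rot_one,
      inner_two, norm_sq_two]
    ring
  · simp only [Fin.mk_one, PiLp.smul_apply, PiLp.sub_apply, smul_eq_mul, rot_zero, rot_one,
      inner_two, norm_sq_two]
    ring

theorem helR_gt (Φ : Frame 2) (f : E 2 → ℝ) {z : E 2 × E 2} (hz : ‖z.2‖ = 1) (v : E 2) :
    inner ℝ (Φ.gt f z) v = inner ℝ (Φ.gr f z.1) (rot z.2) * inner ℝ (rot z.2) v := by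
  have h1 := helR_unit hz
  unfold Frame.gt
  rw [inner_sub_left, real_inner_smul_left]
  simp only [inner_two, rot_zero, rot_one]
  linear_combination (-(Φ.gr f z.1 0 * v 0 + Φ.gr f z.1 1 * v 1)) * h1

namespace Geo

variable (Γ : Geo 2 b)

/-- A component of the logarithm map. -/
def helRf (y w x : E 2) : ℝ := inner ℝ (Γ.Xi y x) w

/-- The normalized determinant. -/
def helRm (y x : E 2) : ℝ := Γ.dM y x / (1 + b ^ 2 * Γ.σ y x)

/-- The defect of the two point condition. -/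
def helRG (h : ℝ) (y ν x : E 2) : ℝ :=
  Γ.helRf y ν x * (1 + b ^ 2 * Γ.σ y x + Γ.helRm y x) - h * Γ.rr y x

theorem helR_C (y x : E 2) : 0 < 1 + b ^ 2 * Γ.σ y x := by
  have := Γ.nonneg y x
  positivity

theorem helRf_sm (y w : E 2) : ContDiff ℝ ∞ (Γ.helRf y w) :=
  (Γ.Xi_sm y).inner ℝ contDiff_const

theorem helR_rr_sm (y : E 2) : ContDiff ℝ ∞ (Γ.rr y) :=
  (contDiff_const.mul (Γ.sm y)).add (contDiff_const.mul ((Γ.sm y).pow 2))

theorem helRm_sm (y : E 2) : ContDiff ℝ ∞ (Γ.helRm y) := by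
  have h1 : ContDiff ℝ ∞ fun x => fderiv ℝ (Γ.Xi y) x :=
    (Γ.Xi_sm y).fderiv_right (m := ∞) (by simp)
  have h2 : ContDiff ℝ ∞ fun x => Γ.dM y x := contDiff_det.comp (h1.clm_comp Γ.sF)
  exact h2.div (contDiff_const.add (contDiff_const.mul (Γ.sm y))) fun x => (Γ.helR_C y x).ne'

theorem helRG_sm (h : ℝ) (y ν : E 2) : ContDiff ℝ ∞ (Γ.helRG h y ν) :=
  ((Γ.helRf_sm y ν).mul ((contDiff_const.add (contDiff_const.mul (Γ.sm y))).add
    (Γ.helRm_sm y))).sub (contDiff_const.mul (Γ.helR_rr_sm y))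

theorem helR_gr (y w x ξ : E 2) : inner ℝ (Γ.gr (Γ.helRf y w) x) ξ =
    inner ℝ (fderiv ℝ (Γ.Xi y) x (Γ.F x ξ)) w := by
  have hd : HasFDerivAt (Γ.Xi y) (fderiv ℝ (Γ.Xi y) x) x :=
    ((Γ.Xi_sm y).differentiable (by simp) x).hasFDerivAt
  have h1 : HasFDerivAt (Γ.helRf y w) ((innerSL ℝ w).comp (fderiv ℝ (Γ.Xi y) x)) x := by
    have h2 := (innerSL ℝ w).hasFDerivAt.comp x hd
    refine h2.congr_of_eventuallyEq (Eventually.of_forall fun p => ?_)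
    simp only [helRf, Function.comp, innerSL_apply_apply]
    exact real_inner_comm _ _
  rw [Frame.inner_gr, h1.fderiv, ContinuousLinearMap.comp_apply, innerSL_apply_apply,
    real_inner_comm]

/-- The pointwise facts in the equality case. -/
structure HelRPt (y ν : E 2) (z : E 2 × E 2) : Prop where
  unit : ‖z.2‖ = 1
  pos : 0 < Γ.σ y z.1
  sq : Γ.helRf y ν z.1 ^ 2 + Γ.helRf y (-rot ν) z.1 ^ 2 = Γ.rr y z.1
  nP : inner ℝ (Γ.gr (Γ.σ y) z.1) z.2 = Γ.helRf y ν z.1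
  nQ : inner ℝ (rot (Γ.gr (Γ.σ y) z.1)) z.2 = -Γ.helRf y (-rot ν) z.1
  dP : Γ.rr y z.1 * inner ℝ (Γ.gr (Γ.helRf y ν) z.1) (rot z.2) =
    Γ.helRf y ν z.1 * Γ.helRf y (-rot ν) z.1 * (1 + b ^ 2 * Γ.σ y z.1 + Γ.helRm y z.1)
  dQ : Γ.rr y z.1 * inner ℝ (Γ.gr (Γ.helRf y (-rot ν)) z.1) (rot z.2) =
    (1 + b ^ 2 * Γ.σ y z.1) * Γ.helRf y (-rot ν) z.1 ^ 2 - Γ.helRm y z.1 * Γ.helRf y ν z.1 ^ 2
  heq : Γ.HEq y z.1
  mu : Γ.helRm y z.1 ^ 2 = 1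

theorem helR_pt {y ν : E 2} (hν : ‖ν‖ = 1) {z : E 2 × E 2} (hz : ‖z.2‖ = 1)
    (h1 : Γ.kk 0 z (y, ν) = 1) (h2 : Γ.Rm y z.1 = 0) : Γ.HelRPt y ν z := by
  obtain ⟨x, N⟩ := z
  have hν' := helR_unit hν
  have hN' := helR_unit hz
  have hrr : Γ.rr x y = Γ.rr y x := by simp only [rr, Γ.symm x y]
  have ha : ‖Γ.Xi x y‖ ^ 2 = Γ.rr y x := by rw [Γ.norm_Xi, ← hrr]; rfl
  have hc : ‖Γ.Xi y x‖ ^ 2 = Γ.rr y x := Γ.norm_Xi y x
  simp only [kk, hrr, ne_eq, OfNat.ofNat_ne_zero, not_false_eq_true, zero_pow, add_zero] at h1 hz hN'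
  have hr0 : Γ.rr y x ≠ 0 := fun h => by rw [h, div_zero] at h1; exact zero_ne_one h1
  have hyx : y ≠ x := fun h => hr0 (by rw [h]; simp only [rr, Γ.self]; ring)
  rw [div_eq_one_iff_eq hr0] at h1
  have hQ : Γ.helRf y (-rot ν) x = inner ℝ (rot (Γ.Xi y x)) ν := by
    simp only [helRf, inner_neg_right, inner_two, rot_zero, rot_one]; ring
  have hsq : Γ.helRf y ν x ^ 2 + Γ.helRf y (-rot ν) x ^ 2 = Γ.rr y x := by
    rw [hQ, ← hc]
    simp only [helRf, inner_two, rot_zero, rot_one, norm_sq_two]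
    linear_combination (Γ.Xi y x 0 ^ 2 + Γ.Xi y x 1 ^ 2) * hν'
  have hsa : inner ℝ (Γ.Xi x y) N ^ 2 + inner ℝ (rot (Γ.Xi x y)) N ^ 2 = Γ.rr y x := by
    rw [← ha]
    simp only [inner_two, rot_zero, rot_one, norm_sq_two]
    linear_combination (Γ.Xi x y 0 ^ 2 + Γ.Xi x y 1 ^ 2) * hN'
  have hk : inner ℝ (Γ.Xi x y) N * Γ.helRf y ν x -
      inner ℝ (rot (Γ.Xi x y)) N * Γ.helRf y (-rot ν) x = Γ.rr y x := by
    rw [hQ]; exact h1
  have h0 : (inner ℝ (Γ.Xi x y) N - Γ.helRf y ν x) ^ 2 +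
      (inner ℝ (rot (Γ.Xi x y)) N + Γ.helRf y (-rot ν) x) ^ 2 = 0 := by
    linear_combination hsq + hsa - 2 * hk
  have hP : inner ℝ (Γ.Xi x y) N = Γ.helRf y ν x := by
    have := (add_eq_zero_iff_of_nonneg (sq_nonneg _) (sq_nonneg _)).1 h0
    exact sub_eq_zero.1 (pow_eq_zero_iff two_ne_zero |>.1 this.1)
  have hQ' : inner ℝ (rot (Γ.Xi x y)) N = -Γ.helRf y (-rot ν) x := by
    have := (add_eq_zero_iff_of_nonneg (sq_nonneg _) (sq_nonneg _)).1 h0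
    exact eq_neg_of_add_eq_zero_left (pow_eq_zero_iff two_ne_zero |>.1 this.2)
  have hT : Γ.rr y x • fderiv ℝ (Γ.Xi y) x (Γ.F x (rot N)) =
      (Γ.helRf y ν x * Γ.helRm y x) • rot (Γ.Xi y x) +
        (Γ.helRf y (-rot ν) x * (1 + b ^ 2 * Γ.σ y x)) • Γ.Xi y x := by
    have h3 := helR_rot (Γ.Xi x y) N
    rw [ha, hP, hQ'] at h3
    rw [← map_smul, ← map_smul, h3, map_sub, map_sub, map_smul, map_smul, map_smul, map_smul,
      Γ.Xi_gr, Γ.Xi_rot hyx, smul_smul, smul_smul, neg_mul, neg_smul, sub_neg_eq_add]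
    rfl
  obtain ⟨-, h4, h5⟩ := Γ.of_Rm h2
  refine ⟨hz, Γ.pos y x hyx, hsq, hP, hQ', ?_, ?_, h4, h5⟩
  · show Γ.rr y x * inner ℝ (Γ.gr (Γ.helRf y ν) x) (rot N) = _
    rw [helR_gr, ← real_inner_smul_left, hT, inner_add_left, real_inner_smul_left,
      real_inner_smul_left, ← hQ]
    simp only [helRf]
    ring
  · show Γ.rr y x * inner ℝ (Γ.gr (Γ.helRf y (-rot ν)) x) (rot N) = _
    have h6 : inner ℝ (rot (Γ.Xi y x)) (-rot ν) = -Γ.helRf y ν x := by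
      simp only [helRf, inner_neg_right, inner_two, rot_zero, rot_one]; ring
    rw [helR_gr, ← real_inner_smul_left, hT, inner_add_left, real_inner_smul_left,
      real_inner_smul_left, h6]
    simp only [helRf]
    ring

variable {Γ} {A : Set (E 2)} {W : Vf 2} {h : ℝ} {y ν : E 2}

theorem helR_cont {f : E 2 → ℝ} (hf : ContDiff ℝ ∞ f) :
    Continuous fun z : E 2 × E 2 => inner ℝ (Γ.gr f z.1) (rot z.2) :=
  ((Γ.cont_gr (hf.of_le (by simp))).comp continuous_fst).inner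
    (contDiff_rot.continuous.comp continuous_snd)

theorem helR_cycle (hG : Γ.GG A W) {ψ f : E 2 → ℝ} (hψ : ContDiff ℝ ∞ ψ) (hf : ContDiff ℝ ∞ f) :
    ∫ z, (ψ z.1 * inner ℝ (Γ.gr f z.1) (rot z.2) + f z.1 * inner ℝ (Γ.gr ψ z.1) (rot z.2))
      ∂W.V = 0 := by
  rw [← hG.cycle (hψ.mul hf)]
  refine integral_congr_ae (Eventually.of_forall fun z => ?_)
  show _ = inner ℝ (Γ.gr (fun p => ψ p * f p) z.1) (rot z.2)
  rw [Γ.gr_mul (hψ.differentiable (by simp) _) (hf.differentiable (by simp) _), inner_add_left,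
    real_inner_smul_left, real_inner_smul_left]

theorem helR_one (hG : Γ.GG A W) (hF : Γ.FV W h fun _ => h) (hK : ∀ᵐ z ∂W.V, Γ.HelRPt y ν z)
    {ψ : E 2 → ℝ} (hψ : ContDiff ℝ ∞ ψ) :
    ∫ z, ψ z.1 * (1 + b ^ 2 * Γ.σ y z.1 - inner ℝ (Γ.gr (Γ.helRf y (-rot ν)) z.1) (rot z.2) -
      h * Γ.helRf y ν z.1) ∂W.V = 0 := by
  have hψ1 : ContDiff ℝ 1 ψ := hψ.of_le (by simp)
  have h1 := Γ.fv_σ hF y hψ1
  have h2 := helR_cycle hG hψ (Γ.helRf_sm y (-rot ν))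
  have c1 : Continuous fun z : E 2 × E 2 => ψ z.1 := hψ.continuous.comp continuous_fst
  have i1 : Integrable (fun z : E 2 × E 2 =>
      ψ z.1 * Γ.Hs y z + inner ℝ (Γ.gt ψ z) (Γ.gt (Γ.σ y) z)) W.V :=
    W.integrable ((c1.mul (Γ.cont_Hs y)).add
      ((Γ.cont_gt hψ1).inner (Γ.cont_gt ((Γ.sm y).of_le (by simp)))))
  have i2 : Integrable (fun z : E 2 × E 2 => h * (ψ z.1 * Γ.pn y z)) W.V :=
    W.integrable (continuous_const.mul (c1.mul (Γ.cont_pn y)))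
  have i3 : Integrable (fun z : E 2 × E 2 =>
      ψ z.1 * inner ℝ (Γ.gr (Γ.helRf y (-rot ν)) z.1) (rot z.2) +
        Γ.helRf y (-rot ν) z.1 * inner ℝ (Γ.gr ψ z.1) (rot z.2)) W.V :=
    W.integrable ((c1.mul (helR_cont (Γ.helRf_sm y _))).add
      (((Γ.helRf_sm y _).continuous.comp continuous_fst).mul (helR_cont hψ)))
  rw [Nat.cast_one, one_mul] at h1
  have h3 := integral_sub (i1.sub i2) i3
  have h4 := integral_sub i1 i2
  simp only [Pi.sub_apply] at h3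
  rw [h4, h1, h2, sub_self, sub_self] at h3
  rw [← h3]
  refine integral_congr_ae (hK.mono fun z hz => ?_)
  have e1 : Γ.Hs y z = 1 + b ^ 2 * Γ.σ y z.1 := by
    simp only [Hs, Frame.dT, tr, Fin.sum_univ_two, hz.heq _, norm_ev, hz.unit]
    ring
  have e2 : inner ℝ (Γ.gt ψ z) (Γ.gt (Γ.σ y) z) =
      inner ℝ (Γ.gr ψ z.1) (rot z.2) * Γ.helRf y (-rot ν) z.1 := by
    rw [← Γ.inner_gt_gr ψ (Γ.σ y) hz.unit, helR_gt _ _ hz.unit]
    have e3 := hz.nQ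
    simp only [inner_two, rot_zero, rot_one] at e3 ⊢
    linear_combination (-(Γ.gr ψ z.1 0 * -z.2 1 + Γ.gr ψ z.1 1 * z.2 0)) * e3
  have e4 : Γ.pn y z = Γ.helRf y ν z.1 := hz.nP
  show _ = ψ z.1 * Γ.Hs y z + inner ℝ (Γ.gt ψ z) (Γ.gt (Γ.σ y) z) - h * (ψ z.1 * Γ.pn y z) - _
  rw [e1, e2, e4]
  ring

theorem helR_two (hG : Γ.GG A W) (hF : Γ.FV W h fun _ => h) (hK : ∀ᵐ z ∂W.V, Γ.HelRPt y ν z)
    {ψ : E 2 → ℝ} (hψ : ContDiff ℝ ∞ ψ) :
    ∫ z, ψ z.1 * (inner ℝ (Γ.gr (Γ.helRf y ν) z.1) (rot z.2) -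
      h * Γ.helRf y (-rot ν) z.1) ∂W.V = 0 := by
  have hψ1 : ContDiff ℝ 1 ψ := hψ.of_le (by simp)
  have hr : ContDiff ℝ ∞ fun p => rot (Γ.gr (Γ.σ y) p) := contDiff_rot.comp (Γ.gr_sm y)
  have hv : ContDiff ℝ 1 fun p => ψ p • rot (Γ.gr (Γ.σ y) p) := (hψ.smul hr).of_le (by simp)
  have h1 := hF.fv _ hv
  have h2 := helR_cycle hG hψ (Γ.helRf_sm y ν)
  have c1 : Continuous fun z : E 2 × E 2 => ψ z.1 := hψ.continuous.comp continuous_fst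
  have i1 : Integrable (Γ.dT fun p => ψ p • rot (Γ.gr (Γ.σ y) p)) W.V :=
    W.integrable (Γ.cont_dT hv)
  have i2 : Integrable (fun z : E 2 × E 2 =>
      h * inner ℝ (ψ z.1 • rot (Γ.gr (Γ.σ y) z.1)) z.2) W.V :=
    W.integrable (continuous_const.mul ((hv.continuous.comp continuous_fst).inner continuous_snd))
  have i3 : Integrable (fun z : E 2 × E 2 =>
      ψ z.1 * inner ℝ (Γ.gr (Γ.helRf y ν) z.1) (rot z.2) +
        Γ.helRf y ν z.1 * inner ℝ (Γ.gr ψ z.1) (rot z.2)) W.V :=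
    W.integrable ((c1.mul (helR_cont (Γ.helRf_sm y _))).add
      (((Γ.helRf_sm y _).continuous.comp continuous_fst).mul (helR_cont hψ)))
  rw [Nat.cast_one, one_mul] at h1
  have h3 := integral_sub i3 (i1.sub i2)
  have h4 := integral_sub i1 i2
  simp only [Pi.sub_apply] at h3
  rw [h4, h1, h2, sub_self, sub_self] at h3
  rw [← h3]
  refine integral_congr_ae (hK.mono fun z hz => ?_)
  have e1 : Γ.dT (fun p => rot (Γ.gr (Γ.σ y) p)) z = 0 := by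
    unfold Frame.dT
    rw [Γ.tr_rot (Γ.sm y), Γ.B_rot (Γ.sm y) hz.heq, sub_self]
  have e2 : inner ℝ (Γ.gt ψ z) (rot (Γ.gr (Γ.σ y) z.1)) =
      inner ℝ (Γ.gr ψ z.1) (rot z.2) * Γ.helRf y ν z.1 := by
    rw [helR_gt _ _ hz.unit]
    have e3 := hz.nP
    simp only [inner_two, rot_zero, rot_one] at e3 ⊢
    linear_combination (Γ.gr ψ z.1 0 * -z.2 1 + Γ.gr ψ z.1 1 * z.2 0) * e3
  show _ = _ - (Γ.dT (fun p => ψ p • rot (Γ.gr (Γ.σ y) p)) z -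
    h * inner ℝ (ψ z.1 • rot (Γ.gr (Γ.σ y) z.1)) z.2)
  rw [Γ.dT_smul (hψ.differentiable (by simp) _) (hr.differentiable (by simp) _), e1, e2,
    real_inner_smul_left, hz.nQ]
  ring

theorem helR_zero {u : E 2 → ℝ} (hu : ContDiff ℝ ∞ u) (h0 : ∫ z, u z.1 ^ 2 ∂W.V = 0) :
    ∀ᵐ z ∂W.V, u z.1 = 0 :=
  (rigC_ae W ((hu.continuous.comp continuous_fst).pow 2) (fun _ _ => sq_nonneg _) h0.le).mono
    fun _ hz => (pow_eq_zero_iff two_ne_zero).1 hz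

theorem helR_G (hG : Γ.GG A W) (hF : Γ.FV W h fun _ => h) (hK : ∀ᵐ z ∂W.V, Γ.HelRPt y ν z) :
    ∀ᵐ z ∂W.V, Γ.helRG h y ν z.1 = 0 := by
  have s1 := (Γ.helRf_sm y ν).mul (Γ.helRG_sm h y ν)
  have s2 := (Γ.helRf_sm y (-rot ν)).mul (Γ.helRG_sm h y ν)
  have h1 := helR_one hG hF hK ((Γ.helR_rr_sm y).mul s1)
  have h2 := helR_two hG hF hK ((Γ.helR_rr_sm y).mul s2)
  have z1 : ∀ᵐ z ∂W.V, Γ.helRf y ν z.1 * Γ.helRG h y ν z.1 = 0 := by
    refine helR_zero s1 ?_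
    rw [← h1]
    refine integral_congr_ae (hK.mono fun z hz => ?_)
    have e1 := hz.dQ
    have e2 := hz.sq
    simp only [helRG] at e1 e2 ⊢
    linear_combination (Γ.helRf y ν z.1 * (Γ.helRf y ν z.1 *
      (1 + b ^ 2 * Γ.σ y z.1 + Γ.helRm y z.1) - h * Γ.rr y z.1)) *
        (e1 + (1 + b ^ 2 * Γ.σ y z.1) * e2)
  have z2 : ∀ᵐ z ∂W.V, Γ.helRf y (-rot ν) z.1 * Γ.helRG h y ν z.1 = 0 := by
    refine helR_zero s2 ?_
    rw [← h2]
    refine integral_congr_ae (hK.mono fun z hz => ?_)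
    have e1 := hz.dP
    simp only [helRG] at e1 ⊢
    linear_combination (-(Γ.helRf y (-rot ν) z.1 * (Γ.helRf y ν z.1 *
      (1 + b ^ 2 * Γ.σ y z.1 + Γ.helRm y z.1) - h * Γ.rr y z.1))) * e1
  filter_upwards [hK, z1, z2] with z hz h3 h4
  have hr : Γ.rr y z.1 ≠ 0 := by
    have := hz.pos
    unfold rr
    positivity
  have h5 : Γ.rr y z.1 * Γ.helRG h y ν z.1 = 0 := by
    rw [← hz.sq]
    linear_combination Γ.helRf y ν z.1 * h3 + Γ.helRf y (-rot ν) z.1 * h4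
  exact (mul_eq_zero.1 h5).resolve_left hr

end Geo

theorem Geo.two_one (Γ : Geo 2 b) {A : Set (E 2)} {W : Vf 2} (hG : Γ.GG A W) {h : ℝ}
    (hF : Γ.FV W h fun _ => h) (hh : b < h) {y ν : E 2} (hν : ‖ν‖ = 1)
    (hK : ∀ᵐ z ∂W.V, Γ.kk 0 z (y, ν) = 1 ∧ Γ.Rm y z.1 = 0) : Γ.Two W h y ν := by
  have hK' : ∀ᵐ z ∂W.V, Γ.HelRPt y ν z := by
    filter_upwards [hK, W.supp] with z hz hz'
    exact Γ.helR_pt hν hz'.2 hz.1 hz.2
  refine ⟨hν, ?_⟩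
  filter_upwards [hK', Geo.helR_G hG hF hK'] with z hz h1
  show Γ.helRf y ν z.1 = h * Γ.σ y z.1
  have hs := hz.pos
  have hb := Γ.b0
  have h2 := hz.sq
  simp only [Geo.helRG, Geo.rr] at h1 h2
  have hp : 0 < 2 + b ^ 2 * Γ.σ y z.1 := by positivity
  rcases sq_eq_one_iff.1 hz.mu with h3 | h3
  · rw [h3] at h1
    have h4 : (Γ.helRf y ν z.1 - h * Γ.σ y z.1) * (2 + b ^ 2 * Γ.σ y z.1) = 0 := by
      linear_combination h1
    exact sub_eq_zero.1 ((mul_eq_zero.1 h4).resolve_right hp.ne')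
  · exfalso
    rw [h3] at h1
    have h4 : Γ.σ y z.1 * (Γ.helRf y ν z.1 * b ^ 2 - h * (2 + b ^ 2 * Γ.σ y z.1)) = 0 := by
      linear_combination h1
    have h5 := sub_eq_zero.1 ((mul_eq_zero.1 h4).resolve_left hs.ne')
    have h6 : Γ.helRf y ν z.1 ^ 2 ≤ Γ.σ y z.1 * (2 + b ^ 2 * Γ.σ y z.1) := by
      nlinarith [sq_nonneg (Γ.helRf y (-rot ν) z.1)]
    have h7 : b ^ 2 < h ^ 2 := by nlinarith
    have h8 : (h * (2 + b ^ 2 * Γ.σ y z.1)) ^ 2 ≤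
        (b ^ 2) ^ 2 * (Γ.σ y z.1 * (2 + b ^ 2 * Γ.σ y z.1)) := by
      rw [← h5, mul_pow, mul_comm]
      exact mul_le_mul_of_nonneg_left h6 (by positivity)
    have h9 : h ^ 2 * (2 + b ^ 2 * Γ.σ y z.1) ≤ (b ^ 2) ^ 2 * Γ.σ y z.1 :=
      le_of_mul_le_mul_right (by nlinarith) hp
    nlinarith [mul_lt_mul_of_pos_right h7 hp, sq_nonneg b]

end Vale.Agent.P219
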