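import Vale.Agent.P219.Sig

/-!
The Hessian comparison.
-/

open scoped ContDiff Topology Manifold Bundle
open Set Filter

set_option maxSynthPendingDepth 3

noncomputable section

namespace Vale.Agent.P219.R

variable {n : ℕ} {b : ℝ}

namespace Xd

variable (X : Xd n b) {q : ℝ → ℝ} {Φ : Frame n}

theorem hg_frame (hΦ : X.ON Φ) (x a ξ : E n) :
    X.G x (fderiv ℝ Φ.F x a ξ) (Φ.F x ξ) = -(fderiv ℝ X.G x a (Φ.F x ξ) (Φ.F x ξ) / 2) := by
  have d1 := (X.sG.differentiable (by simp) x).hasFDerivAt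
  have d2 := ((Φ.sF.differentiable (by simp) x).hasFDerivAt).clm_apply (hasFDerivAt_const ξ x)
  have d3 := (d1.clm_apply d2).clm_apply d2
  have e : (fun y => X.G y (Φ.F y ξ) (Φ.F y ξ)) = fun _ => inner ℝ ξ ξ := funext fun y => hΦ y ξ ξ
  rw [e] at d3
  have k := DFunLike.congr_fun (d3.unique (hasFDerivAt_const _ x)) a
  simp only [add_apply, ContinuousLinearMap.comp_apply, ContinuousLinearMap.flip_apply,
    zero_apply, map_zero, zero_add] at k
  linarith [(X.pd x).symm (Φ.F x ξ) (fderiv ℝ Φ.F x a ξ)]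

theorem hg_ex (o : E n) : ContDiff ℝ ∞ (X.ex o) := X.sex.comp (contDiff_const.prodMk contDiff_id)

theorem hg_dex (o : E n) : Differentiable ℝ (fderiv ℝ (X.ex o)) :=
  ((X.hg_ex o).fderiv_right (m := ∞) (by simp)).differentiable (by simp)

theorem hg_jsq (o v u : E n) : HasDerivAt (jsq X.G X.ex o v u)
    (fderiv ℝ X.G (X.ex o v) (fderiv ℝ (X.ex o) v v) (fderiv ℝ (X.ex o) v u)
      (fderiv ℝ (X.ex o) v u) + 2 * X.G (X.ex o v) (fderiv ℝ (fderiv ℝ (X.ex o)) v v u +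
      fderiv ℝ (X.ex o) v u) (fderiv ℝ (X.ex o) v u)) 1 := by
  have l : ∀ w : E n, HasDerivAt (fun t : ℝ => t • w) w 1 := fun w => by
    simpa using (hasDerivAt_id (1 : ℝ)).smul_const w
  have d1 := (X.sG.differentiable (by simp) _).hasFDerivAt.comp_hasDerivAt 1
    (((X.hg_ex o).differentiable (by simp) _).hasFDerivAt.comp_hasDerivAt 1 (l v))
  have d2 := ((X.hg_dex o _).hasFDerivAt.comp_hasDerivAt 1 (l v)).clm_apply (l u)
  refine ((d1.clm_apply d2).clm_apply d2).congr_deriv ?_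
  simp only [Function.comp_apply, one_smul, add_apply]
  rw [(X.pd _).symm (fderiv ℝ (X.ex o) v u)]
  ring

theorem hg_key (hq : MQ b q) (hΦ : X.ON Φ) (o v u : E n) {ξ : E n}
    (hξ : Φ.F (X.ex o v) ξ = fderiv ℝ (X.ex o) v u) :
    inner ℝ (Φ.B (Φ.gr (X.sig q o)) (X.ex o v) ξ) ξ = 4 * deriv (deriv q) (X.G o v v) *
      X.G o u v ^ 2 + deriv q (X.G o v v) * deriv (jsq X.G X.ex o v u) 1 := by
  have sg : ContDiff ℝ ∞ (Φ.gr (X.sig q o)) :=
    Φ.contDiff_gr ((X.sig_smooth hq).comp (contDiff_const.prodMk contDiff_id))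
  have e : ∀ w, Φ.F (X.ex o w) (Φ.gr (X.sig q o) (X.ex o w)) =
      (2 * deriv q (X.G o w w)) • fderiv ℝ (X.ex o) w w := fun w => by
    rw [X.gr_sig hq hΦ, map_smul, Φ.right]
  have d1 := ((Φ.sF.clm_apply sg).differentiable (by simp) _).hasFDerivAt.comp v
    ((X.hg_ex o).differentiable (by simp) v).hasFDerivAt
  have dq : HasDerivAt (deriv q) (deriv (deriv q) (X.G o v v)) (X.G o v v) :=
    (((contDiff_infty_iff_deriv.1 hq.smooth).2.differentiable (by simp)) _).hasDerivAt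
  have d2 := ((dq.comp_hasFDerivAt (f := fun w => X.G o w w) v
    ((X.G o).hasFDerivAt.clm_apply (hasFDerivAt_id v))).const_mul 2).smul
    ((X.hg_dex o v).hasFDerivAt.clm_apply (hasFDerivAt_id v))
  have k := DFunLike.congr_fun ((d1.congr_of_eventuallyEq
    (Eventually.of_forall fun w => (e w).symm)).unique d2) u
  have sy : fderiv ℝ (fderiv ℝ (X.ex o)) v u v = fderiv ℝ (fderiv ℝ (X.ex o)) v v u :=
    ((X.hg_ex o).of_le (m := 2) (by norm_cast)).contDiffAt.isSymmSndFDerivAt (by simp) u v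
  simp only [add_apply, ContinuousLinearMap.comp_apply, ContinuousLinearMap.flip_apply, id,
    smul_apply, ContinuousLinearMap.smulRight_apply, ContinuousLinearMap.id_apply,
    Function.comp_apply, smul_eq_mul, sy] at k
  have g := X.gauss o v u
  have f := X.hg_frame hΦ (X.ex o v) (Φ.F (X.ex o v) (Φ.gr (X.sig q o) (X.ex o v))) ξ
  nth_rewrite 2 [← Φ.left (X.ex o v) ξ]
  rw [(X.hg_jsq o v u).deriv, Frame.B, ContinuousLinearMap.comp_apply, X.norm_Fi hΦ, sub_apply,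
    ContinuousLinearMap.comp_apply, map_sub, sub_apply, f, hξ, k, e]
  simp only [map_add, map_smul, add_apply, smul_apply, smul_eq_mul]
  rw [(X.pd _).symm (fderiv ℝ (X.ex o) v v), g, (X.pd o).symm v u]
  ring

theorem sig_hess (hq : MQ b q) (hΦ : X.ON Φ) (o x ξ : E n) :
    (1 + b ^ 2 * X.sig q o x) * ‖ξ‖ ^ 2 ≤ inner ℝ (Φ.B (Φ.gr (X.sig q o)) x ξ) ξ := by
  obtain ⟨v, rfl⟩ := (X.bij o).2 x
  obtain ⟨u, hu⟩ := (X.dex_bij o v).2 (Φ.F (X.ex o v) ξ)
  obtain ⟨w, α, rfl, h⟩ := X.decomp o v u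
  obtain ⟨c1, c2⟩ := X.cmp2 hq h
  have r0 : 0 ≤ X.G o v v := ip_nonneg (X.pd o) v
  have n1 : ‖ξ‖ ^ 2 = jsq X.G X.ex o v (w + α • v) 1 := by
    rw [jsq, one_smul, one_smul, hu, hΦ, real_inner_self_eq_norm_sq]
  have d : HasDerivAt (jsq X.G X.ex o v (w + α • v))
      (deriv (jsq X.G X.ex o v w) 1 + α ^ 2 * (2 * 1) * X.G o v v) 1 := by
    rw [funext (X.jsq_add h α)]
    exact c1.hasDerivAt.add ((((hasDerivAt_pow 2 1).const_mul _).mul_const _).congr_deriv (by simp))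
  rw [X.hg_key hq hΦ o v _ hu.symm, d.deriv, n1, X.jsq_add h, X.sig_ex, map_add, map_smul,
    add_apply, smul_apply, h, smul_eq_mul]
  have k := congrArg (α ^ 2 * X.G o v v * ·) (hq.d2 _ r0)
  linarith

theorem sig_hess0 (hq : MQ b q) (hΦ : X.ON Φ) (o ξ : E n) :
    inner ℝ (Φ.B (Φ.gr (X.sig q o)) o ξ) ξ = ‖ξ‖ ^ 2 := by
  have k := X.hg_key hq hΦ o 0 (Φ.F o ξ) (ξ := ξ) (by rw [X.zero, X.dzero])
  have e : jsq X.G X.ex o 0 (Φ.F o ξ) = fun t => t ^ 2 * ‖ξ‖ ^ 2 := funext fun t => by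
    rw [jsq, smul_zero, X.zero, X.dzero, ← map_smul, hΦ, real_inner_self_eq_norm_sq, norm_smul,
      mul_pow, Real.norm_eq_abs, sq_abs]
  rw [X.zero, e, ((hasDerivAt_pow 2 (1 : ℝ)).mul_const _).deriv, map_zero, map_zero, hq.d0] at k
  rw [k]
  norm_num
  ring

end Xd


end Vale.Agent.P219.R
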