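import Vale.Agent.P219.Defs

/-!
The fundamental theorem of calculus along translations, tested against an integrable function.
-/

open scoped ContDiff Topology ENNReal
open MeasureTheory Set Filter Metric

noncomputable section

namespace Vale.Agent.P219

variable {n : ℕ}

theorem transA_point {φ : E n → ℝ} (hφ : ContDiff ℝ 1 φ) (y z : E n) :
    φ (y + z) - φ y = ∫ t in (0 : ℝ)..1, fderiv ℝ φ (y + t • z) z := by
  have hd : ∀ t : ℝ, HasDerivAt (fun t : ℝ => φ (y + t • z)) (fderiv ℝ φ (y + t • z) z) t := by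
    intro t
    have h1 : HasDerivAt (fun t : ℝ => y + t • z) z t := by
      simpa using ((hasDerivAt_id t).smul_const z).const_add y
    exact (hφ.differentiable one_ne_zero _).hasFDerivAt.comp_hasDerivAt t h1
  have hc : Continuous fun t : ℝ => fderiv ℝ φ (y + t • z) z :=
    ((hφ.continuous_fderiv one_ne_zero).comp (by fun_prop)).clm_apply continuous_const
  rw [intervalIntegral.integral_eq_sub_of_hasDerivAt (fun t _ => hd t) (hc.intervalIntegrable _ _)]
  simp

theorem transA_shift {φ : E n → ℝ} (hφ : ContDiff ℝ 1 φ) (y w : E n) :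
    fderiv ℝ (fun p => φ (p + w)) y = fderiv ℝ φ (y + w) := by
  have h := (hφ.differentiable one_ne_zero (y + w)).hasFDerivAt.comp y
    ((hasFDerivAt_id y).add_const w)
  have h2 : HasFDerivAt (fun p => φ (p + w)) (fderiv ℝ φ (y + w)) y := by
    simpa using! h
  exact h2.fderiv

theorem transA_int {f φ : E n → ℝ} (hf : Integrable f) (hφ : ContDiff ℝ 1 φ)
    (hc : HasCompactSupport φ) (z : E n) :
    Integrable (Function.uncurry fun (t : ℝ) (y : E n) => f y * fderiv ℝ φ (y + t • z) z)
      ((volume.restrict (uIoc (0 : ℝ) 1)).prod volume) := by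
  obtain ⟨L, hL⟩ := (hφ.continuous_fderiv one_ne_zero).bounded_above_of_compact_support
    (hc.fderiv ℝ)
  have hcont : Continuous fun p : ℝ × E n => fderiv ℝ φ (p.2 + p.1 • z) z :=
    ((hφ.continuous_fderiv one_ne_zero).comp (by fun_prop)).clm_apply continuous_const
  have : IsFiniteMeasure (volume.restrict (uIoc (0 : ℝ) 1)) :=
    ⟨by simp⟩
  have h1 : Integrable (fun p : ℝ × E n => f p.2)
      ((volume.restrict (uIoc (0 : ℝ) 1)).prod volume) := hf.comp_snd _
  refine h1.mul_bdd (c := L * ‖z‖) hcont.aestronglyMeasurable (Eventually.of_forall fun p => ?_)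
  exact ((fderiv ℝ φ _).le_opNorm z).trans (by gcongr; exact hL _)

theorem transA_ftc {f φ : E n → ℝ} (hf : Integrable f) (hφ : ContDiff ℝ 1 φ)
    (hc : HasCompactSupport φ) (z : E n) :
    ∫ y, f y * (φ (y + z) - φ y) =
      ∫ t in (0 : ℝ)..1, ∫ y, f y * fderiv ℝ φ (y + t • z) z := by
  rw [intervalIntegral_integral_swap (transA_int hf hφ hc z)]
  refine integral_congr_ae (Eventually.of_forall fun y => ?_)
  simp only
  rw [transA_point hφ, intervalIntegral.integral_const_mul]

theorem transA_le {f φ : E n → ℝ} (hf : Integrable f) (hφ : ContDiff ℝ 1 φ)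
    (hc : HasCompactSupport φ) (z : E n) {C : ℝ}
    (h : ∀ t ∈ Icc (0 : ℝ) 1, ∫ y, f y * fderiv ℝ φ (y + t • z) z ≤ C) :
    ∫ y, f y * (φ (y + z) - φ y) ≤ C := by
  rw [transA_ftc hf hφ hc]
  have hi : IntervalIntegrable (fun t : ℝ => ∫ y, f y * fderiv ℝ φ (y + t • z) z) volume 0 1 :=
    intervalIntegrable_iff.2 (transA_int hf hφ hc z).integral_prod_left
  have := intervalIntegral.integral_mono_on zero_le_one hi
    (intervalIntegrable_const (c := C)) h
  simpa using this

end Vale.Agent.P219
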