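import Vale.Agent.P219.Per
import Vale.Agent.P219.TransA

/-!
Translation estimates.
-/

open scoped ContDiff Topology ENNReal
open MeasureTheory Set Filter Metric

noncomputable section

namespace Vale.Agent.P219

variable {n k : ℕ} {b : ℝ}

theorem trans_sgn {a s : ℝ} (hs : 0 < s) :
    |a / √(a ^ 2 + s ^ 2)| ≤ 1 ∧ |a| - s ≤ a * (a / √(a ^ 2 + s ^ 2)) := by
  have h0 : 0 < √(a ^ 2 + s ^ 2) := Real.sqrt_pos.2 (by positivity)
  have h1 : |a| ≤ √(a ^ 2 + s ^ 2) := Real.abs_le_sqrt (by nlinarith [sq_nonneg s])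
  have h2 : √(a ^ 2 + s ^ 2) ≤ |a| + s := by
    rw [Real.sqrt_le_left (by positivity)]
    nlinarith [sq_abs a, abs_nonneg a]
  refine ⟨by rw [abs_div, abs_of_pos h0, div_le_one h0]; exact h1, ?_⟩
  rw [← mul_div_assoc, le_div_iff₀ h0]
  rcases le_total (|a| - s) 0 with h | h
  · nlinarith [mul_self_nonneg a]
  · nlinarith [sq_abs a, mul_le_mul_of_nonneg_left h2 h, sq_nonneg s]

theorem trans_dual {g : E n → ℝ} (hg : Integrable g) {C : ℝ}
    (h : ∀ φ : E n → ℝ, ContDiff ℝ 1 φ → HasCompactSupport φ → (∀ x, |φ x| ≤ 1) →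
      ∫ x, g x * φ x ≤ C) : ∫ x, |g x| ≤ C := by
  refine le_of_forall_pos_le_add fun ε hε => ?_
  obtain ⟨g', hc, hs, he⟩ := (memLp_one_iff_integrable.2 hg).exist_eLpNorm_sub_le
    (p := 1) (by simp) le_rfl (ε := ε / 3) (by positivity)
  have hi' : Integrable g' := hs.continuous.integrable_of_hasCompactSupport hc
  have he' : ∫ x, |g x - g' x| ≤ ε / 3 := by
    rw [eLpNorm_one_eq_lintegral_enorm, ← ofReal_integral_norm_eq_lintegral_enorm (hg.sub hi'),
      ENNReal.ofReal_le_ofReal_iff (by positivity)] at he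
    exact he
  obtain ⟨V, hV⟩ : ∃ V, V = volume.real (tsupport g') := ⟨_, rfl⟩
  have hV0 : 0 ≤ V := hV ▸ measureReal_nonneg
  obtain ⟨s, hs0, hsV⟩ : ∃ s > 0, s * V ≤ ε / 3 := by
    refine ⟨ε / 3 / (V + 1), by positivity, ?_⟩
    rw [div_mul_eq_mul_div, div_le_iff₀ (by positivity)]
    nlinarith
  obtain ⟨φ, hφ⟩ : ∃ φ : E n → ℝ, φ = fun x => g' x / √(g' x ^ 2 + s ^ 2) := ⟨_, rfl⟩
  have hs1 : ContDiff ℝ 1 g' := hs.of_le (by simp)
  have hφ1 : ContDiff ℝ 1 φ := by
    rw [hφ]
    exact hs1.div (((hs1.pow 2).add contDiff_const).sqrt fun x => by positivity)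
      fun x => by positivity
  have hφc : HasCompactSupport φ := by
    refine hc.mono fun x hx h0 => hx ?_
    rw [hφ]
    simp [h0]
  have hφb : ∀ x, |φ x| ≤ 1 := fun x => by
    rw [hφ]
    exact (trans_sgn hs0).1
  have h1 := h φ hφ1 hφc hφb
  have hm : MeasurableSet (tsupport g') := (isClosed_tsupport _).measurableSet
  have i1 : Integrable fun x => g x * φ x :=
    hg.mul_bdd hφ1.continuous.aestronglyMeasurable (Eventually.of_forall hφb)
  have i2 : Integrable fun x => |g x - g' x| := (hg.sub hi').abs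
  have i3 : Integrable ((tsupport g').indicator fun _ => s) :=
    (integrable_indicator_iff hm).2 (integrableOn_const hc.isCompact.measure_lt_top.ne)
  have i4 : Integrable fun x => g x * φ x + 2 * |g x - g' x| := i1.add (i2.const_mul 2)
  have h2 : ∫ x, |g x| ≤
      ∫ x, (g x * φ x + 2 * |g x - g' x| + (tsupport g').indicator (fun _ => s) x) := by
    refine integral_mono hg.abs (i4.add i3) fun x => ?_
    have a1 : |g x| ≤ |g' x| + |g x - g' x| := by
      have := abs_add_le (g' x) (g x - g' x)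
      simpa using this
    have a2 : g' x * φ x ≤ g x * φ x + |g x - g' x| := by
      have : -((g x - g' x) * φ x) ≤ |g x - g' x| := by
        refine (neg_le_abs _).trans ?_
        rw [abs_mul]
        exact mul_le_of_le_one_right (abs_nonneg _) (hφb x)
      linarith
    have a3 : |g' x| ≤ g' x * φ x + (tsupport g').indicator (fun _ => s) x := by
      by_cases hx : x ∈ tsupport g'
      · rw [indicator_of_mem hx, hφ]
        have := (trans_sgn (a := g' x) hs0).2
        simp only
        linarith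
      · rw [indicator_of_notMem hx, image_eq_zero_of_notMem_tsupport hx]
        simp
    simp only
    linarith
  rw [integral_add i4 i3, integral_add i1 (i2.const_mul 2),
    integral_const_mul, integral_indicator hm, setIntegral_const, smul_eq_mul, ← hV] at h2
  linarith

theorem trans_fun {f : E n → ℝ} (hf : Integrable f) {z : E n} {C : ℝ}
    (h : ∀ φ : E n → ℝ, ContDiff ℝ 1 φ → HasCompactSupport φ → (∀ x, |φ x| ≤ 1) →
      ∫ x, f x * fderiv ℝ φ x z ≤ C) : ∫ x, |f (x + z) - f x| ≤ C := by
  have hf' : Integrable fun x => f (x + z) := hf.comp_add_right z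
  refine trans_dual (hf'.sub hf) fun φ h1 hc hb => ?_
  have hm : AEStronglyMeasurable φ volume := h1.continuous.aestronglyMeasurable
  have hm' : AEStronglyMeasurable (fun x => φ (x + -z)) volume :=
    (h1.continuous.comp (by fun_prop)).aestronglyMeasurable
  have e1 : ∫ x, f (x + z) * φ x = ∫ x, f x * φ (x + -z) := by
    rw [← integral_add_right_eq_self (fun x => f x * φ (x + -z)) z]
    simp
  have i1 : Integrable fun x => f (x + z) * φ x := hf'.mul_bdd hm (Eventually.of_forall hb)
  have i2 : Integrable fun x => f x * φ x := hf.mul_bdd hm (Eventually.of_forall hb)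
  have i3 : Integrable fun x => f x * φ (x + -z) :=
    hf.mul_bdd hm' (Eventually.of_forall fun x => hb _)
  have e2 : ∫ x, (f (x + z) - f x) * φ x = ∫ x, f x * (φ (x + -z) - φ x) := by
    simp only [sub_mul, mul_sub]
    rw [integral_sub i1 i2, integral_sub i3 i2, e1]
  refine e2.trans_le (transA_le hf h1 hc (-z) fun t _ => ?_)
  have h2 : ContDiff ℝ 1 fun p => φ (p + t • -z) := h1.comp (by fun_prop)
  have h3 := h (fun p => -φ (p + t • -z)) h2.neg
    (hc.comp_homeomorph (Homeomorph.addRight (t • -z))).neg (fun x => by simpa using hb _)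
  refine le_of_eq_of_le (integral_congr_ae (Eventually.of_forall fun y => ?_)) h3
  simp only
  rw [fderiv_fun_neg, transA_shift h1]
  simp

theorem Frame.trans_ind (Φ : Frame n) (R : ℝ) : ∃ C > 0, ∀ A : Set (E n), MeasurableSet A →
    A ⊆ ball 0 R → Φ.per A ≠ ⊤ → ∀ z : E n,
      ∫ x, |A.indicator (1 : E n → ℝ) (x + z) - A.indicator 1 x| ≤
        C * (Φ.per A).toReal * ‖z‖ := by
  obtain ⟨C, hC, h⟩ := Φ.trans_per R
  refine ⟨C, hC, fun A hA hR hP z => ?_⟩
  have hi : Integrable (A.indicator (1 : E n → ℝ)) :=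
    (integrable_indicator_iff hA).2
      (integrableOn_const ((measure_mono hR).trans_lt measure_ball_lt_top).ne)
  refine trans_fun hi fun φ h1 _ hb => ?_
  have e : ∫ x, A.indicator (1 : E n → ℝ) x * fderiv ℝ φ x z = ∫ x in A, fderiv ℝ φ x z := by
    rw [← integral_indicator hA]
    refine integral_congr_ae (Eventually.of_forall fun x => ?_)
    by_cases hx : x ∈ A <;> simp [hx]
  rw [e]
  exact (le_abs_self _).trans (h A hA hR hP z φ h1 hb)

theorem Frame.vol_zero (Φ : Frame (k + 1)) {A : Set (E (k + 1))} (hA : BM A) (hP : Φ.per A = 0) :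
    volume A = 0 := by
  obtain ⟨R, hR0, hR⟩ := hA.bdd.subset_ball_lt 0 (0 : E (k + 1))
  obtain ⟨C, -, h⟩ := Φ.trans_ind R
  have h1 := h A hA.meas hR (by simp [hP]) ((2 * R) • ev 0)
  rw [hP, ENNReal.toReal_zero, mul_zero, zero_mul] at h1
  have hfin : volume A ≠ ⊤ := ((measure_mono hR).trans_lt measure_ball_lt_top).ne
  have hi : Integrable (A.indicator (1 : E (k + 1) → ℝ)) :=
    (integrable_indicator_iff hA.meas).2 (integrableOn_const hfin)
  have h2 : ∫ x, A.indicator (1 : E (k + 1) → ℝ) x ≤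
      ∫ x, |A.indicator (1 : E (k + 1) → ℝ) (x + (2 * R) • ev 0) - A.indicator 1 x| := by
    refine integral_mono hi ((hi.comp_add_right _).sub hi).abs fun x => ?_
    by_cases hx : x ∈ A
    · have hx' : x + (2 * R) • ev 0 ∉ A := by
        intro hx'
        have a1 := mem_ball_zero_iff.1 (hR hx)
        have a2 := mem_ball_zero_iff.1 (hR hx')
        have a3 := norm_sub_le (x + (2 * R) • ev 0) x
        rw [add_sub_cancel_left, norm_smul, norm_ev, Real.norm_eq_abs,
          abs_of_pos (by positivity)] at a3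
        linarith
      simp [hx, hx']
    · simp only [indicator_of_notMem hx]
      exact abs_nonneg _
  rw [integral_indicator_one hA.meas] at h2
  exact (measureReal_eq_zero_iff hfin).1 (le_antisymm (h2.trans h1) measureReal_nonneg)


end Vale.Agent.P219
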