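import Vale.Agent.P219.Trunc
import Vale.Agent.P219.Trans
import Vale.Agent.P219.Cpt

/-!
Existence of minimizers.
-/

open scoped ContDiff Topology ENNReal
open MeasureTheory Set Filter Metric

noncomputable section

namespace Vale.Agent.P219

variable {n k : ℕ} {b : ℝ}

theorem min_diff {f : E n → ℝ} {R C : ℝ} (hf : Continuous f)
    (hC : ∀ x ∈ ball (0 : E n) R, ‖f x‖ ≤ C) {A A' : Set (E n)} (hA : MeasurableSet A)
    (hA' : MeasurableSet A') (h : A ⊆ ball 0 R) (h' : A' ⊆ ball 0 R) :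
    ∫ x in A, f x ≤ (∫ x in A', f x) + 2 * C * volume.real (symmDiff A A') := by
  have i : IntegrableOn f (ball 0 R) := BM.integrableOn ⟨measurableSet_ball, isBounded_ball⟩ hf
  have fin : ∀ {S : Set (E n)}, S ⊆ ball 0 R → volume S < ⊤ := fun k =>
    (measure_mono k).trans_lt measure_ball_lt_top
  have hs : symmDiff A A' ⊆ ball 0 R := symmDiff_subset_union.trans (union_subset h h')
  have key : ∀ S, S ⊆ symmDiff A A' → ‖∫ x in S, f x‖ ≤ C * volume.real (symmDiff A A') :=
    fun S hS => by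
      rcases S.eq_empty_or_nonempty with rfl | ⟨x, hx⟩
      · rcases (symmDiff A A').eq_empty_or_nonempty with e | ⟨x, hx⟩
        · simp [e]
        · simpa using mul_nonneg ((norm_nonneg _).trans (hC x (hs hx))) measureReal_nonneg
      · exact (norm_setIntegral_le_of_norm_le_const (fin (hS.trans hs))
          fun y hy => hC y (hs (hS hy))).trans (mul_le_mul_of_nonneg_left
          (measureReal_mono hS (fin hs).ne) ((norm_nonneg _).trans (hC x (hs (hS hx)))))
  have k1 := abs_le.1 (key (A \ A') subset_union_left)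
  have k2 := abs_le.1 (key (A' \ A) subset_union_right)
  rw [← integral_inter_add_sdiff hA' (i.mono_set h), ← integral_inter_add_sdiff hA (i.mono_set h'),
    inter_comm A' A]
  linarith [k1.2, k2.1]

theorem Geo.exists_min (Γ : Geo (k + 1) b) {w : ℝ → ℝ} (hw : Continuous w)
    (hm : MonotoneOn w (Ici 0)) (ht : Tendsto w atTop atTop) {g : E (k + 1) → ℝ}
    (hg : Continuous g) (o : E (k + 1)) {s : ℝ} (hs : 0 < s) (hg0 : ∀ x, s ≤ Γ.σ o x → g x ≤ 0) :
    ∃ A, BM A ∧ Γ.per A ≠ ⊤ ∧ ∀ A', BM A' → Γ.per A' ≠ ⊤ →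
      w (Γ.per A).toReal - ∫ x in A, g x * Γ.m x ≤
        w (Γ.per A').toReal - ∫ x in A', g x * Γ.m x := by
  obtain ⟨R, hR⟩ := (Γ.isCompact_le o s).isBounded.subset_ball 0
  have cf : Continuous fun x => g x * Γ.m x := hg.mul Γ.m_smooth.continuous
  obtain ⟨C, hC⟩ := (isCompact_closedBall (0 : E (k + 1)) R).exists_bound_of_continuousOn
    cf.continuousOn
  have hC' := fun x (hx : x ∈ ball (0 : E (k + 1)) R) => hC x (ball_subset_closedBall hx)
  have C0 : 0 ≤ C := (norm_nonneg _).trans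
    (hC' o (hR (show Γ.σ o o ≤ s from (Γ.self o).trans_le hs.le)))
  set J : Set (E (k + 1)) → ℝ := fun A => w (Γ.per A).toReal - ∫ x in A, g x * Γ.m x
  set S : Set (Set (E (k + 1))) := {A | MeasurableSet A ∧ A ⊆ ball 0 R ∧ Γ.per A ≠ ⊤}
  set V := 2 * C * volume.real (ball (0 : E (k + 1)) R)
  have up : ∀ A ∈ S, ∫ x in A, g x * Γ.m x ≤ V := fun A hA => by
    have := min_diff cf hC' hA.1 MeasurableSet.empty hA.2.1 (empty_subset _)
    rw [setIntegral_empty, zero_add, ← bot_eq_empty, symmDiff_bot] at this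
    exact this.trans (mul_le_mul_of_nonneg_left
      (measureReal_mono hA.2.1 measure_ball_lt_top.ne) (by positivity))
  have bb : BddBelow (J '' S) := ⟨w 0 - V, by
    rintro _ ⟨A, hA, rfl⟩
    exact sub_le_sub (hm self_mem_Ici ENNReal.toReal_nonneg ENNReal.toReal_nonneg) (up A hA)⟩
  obtain ⟨u, ua, ul, uS⟩ := exists_seq_tendsto_sInf
    (⟨_, ∅, ⟨MeasurableSet.empty, empty_subset _, by simp [Γ.per_empty]⟩, rfl⟩ :
      (J '' S).Nonempty) bb
  choose A hA hu using uS
  obtain ⟨P0, hP0⟩ := eventually_atTop.1 (ht.eventually_gt_atTop (u 0 + V))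
  have pb : ∀ j, (Γ.per (A j)).toReal ∈ Icc 0 P0 := fun j =>
    ⟨ENNReal.toReal_nonneg, not_lt.1 fun h => by
      have h1 := hP0 _ h.le
      have h2 := up _ (hA j)
      have h3 := ua (Nat.zero_le j)
      have h4 := hu j
      simp only [J] at h4
      linarith⟩
  obtain ⟨P, hP, ψ, ψm, ψl⟩ := isCompact_Icc.tendsto_subseq pb
  obtain ⟨C1, C10, hC1⟩ := Γ.trans_ind R
  obtain ⟨A', m', s', h'⟩ := exists_limit_set (A := fun j => A (ψ j)) (C := C1 * P0)
    (fun j => (hA _).1) (fun j => (hA _).2.1) fun j z =>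
      (hC1 _ (hA _).1 (hA _).2.1 (hA _).2.2 z).trans (mul_le_mul_of_nonneg_right
        (mul_le_mul_of_nonneg_left (pb _).2 C10.le) (norm_nonneg _))
  have bm : BM A' := ⟨m', isBounded_ball.subset s'⟩
  have pl : Γ.per A' ≤ ENNReal.ofReal P := Γ.per_lsc bm fun ε ε0 => by
    obtain ⟨j, j1, j2⟩ := ((h' ε ε0).and_eventually
      (ψl.eventually (gt_mem_nhds (lt_add_of_pos_right P ε0)))).exists
    exact ⟨_, (hA _).1, (hA _).2.1, j1, (ENNReal.le_ofReal_iff_toReal_le (hA _).2.2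
      (add_nonneg hP.1 ε0.le)).2 j2.le⟩
  have k1 : w (Γ.per A').toReal ≤ w P :=
    hm ENNReal.toReal_nonneg hP.1 (ENNReal.toReal_le_of_le_ofReal hP.1 pl)
  have k2 : J A' ≤ sInf (J '' S) := le_of_forall_pos_le_add fun ε ε0 => by
    have δ0 : 0 < ε / (2 * C + 2) := by positivity
    obtain ⟨j, j1, j2, j3⟩ := ((h' _ δ0).and_eventually
      ((((hw.tendsto P).comp ψl).eventually (lt_mem_nhds (sub_lt_self _ δ0))).and
      ((ul.comp ψm.tendsto_atTop).eventually (gt_mem_nhds (lt_add_of_pos_right _ δ0))))).exists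
    have h1 := min_diff cf hC' (hA (ψ j)).1 m' (hA _).2.1 s'
    have h2 := mul_le_mul_of_nonneg_left j1 (show 0 ≤ 2 * C by positivity)
    have h3 := mul_div_cancel₀ ε (show 2 * C + 2 ≠ 0 by positivity)
    have h4 := hu (ψ j)
    simp only [J, Function.comp] at h4 j2 j3 ⊢
    linarith
  refine ⟨A', bm, ne_top_of_le_ne_top ENNReal.ofReal_ne_top pl, fun B hB pB => k2.trans ?_⟩
  have mB : MeasurableSet {x | Γ.σ o x < s} :=
    (isOpen_lt (Γ.sm o).continuous continuous_const).measurableSet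
  have p1 := Γ.per_inter_le hB o hs
  refine (csInf_le bb ⟨_, ⟨hB.meas.inter mB, fun x hx => hR (le_of_lt (a := Γ.σ o x) hx.2),
    ne_top_of_le_ne_top pB p1⟩, rfl⟩).trans (sub_le_sub (hm ENNReal.toReal_nonneg
    ENNReal.toReal_nonneg (ENNReal.toReal_mono pB p1)) ?_)
  rw [← integral_inter_add_sdiff mB (hB.integrableOn cf)]
  exact add_le_of_nonpos_right (setIntegral_nonpos (hB.meas.diff mB) fun x hx =>
    mul_nonpos_of_nonpos_of_nonneg (hg0 x (not_lt.1 hx.2)) (Γ.m_pos x).le)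


end Vale.Agent.P219
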