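import Vale.Agent.P219.Moll

/-!
The varifold of a set of finite perimeter.
-/

open scoped ContDiff Topology ENNReal
open MeasureTheory Set Filter Metric

noncomputable section

namespace Vale.Agent.P219

variable {n k : ℕ} {b : ℝ}

/-- A continuous function agrees on a compact set with a bounded continuous function. -/
theorem vari_trunc {X : Type*} [TopologicalSpace X] {K : Set X} (hK : IsCompact K) {J : X → ℝ}
    (hJ : Continuous J) : ∃ g : BoundedContinuousFunction X ℝ, ∀ x ∈ K, g x = J x := by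
  obtain ⟨M, hM⟩ := hK.exists_bound_of_continuousOn hJ.continuousOn
  have hc : Continuous fun x => max (-|M|) (min |M| (J x)) :=
    continuous_const.max (continuous_const.min hJ)
  refine ⟨BoundedContinuousFunction.ofNormedAddCommGroup _ hc |M| ?_, ?_⟩
  · intro x
    rw [Real.norm_eq_abs, abs_le]
    refine ⟨le_max_left _ _, max_le ?_ (min_le_left _ _)⟩
    have := abs_nonneg M
    linarith
  · intro x hx
    have h1 := hM x hx
    rw [Real.norm_eq_abs] at h1
    have h2 := abs_le.mp (h1.trans (le_abs_self M))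
    show max (-|M|) (min |M| (J x)) = J x
    rw [min_eq_right h2.2, max_eq_right h2.1]

/-- Weak compactness of finite measures carried by a compact set. -/
theorem vari_cluster {K : Set (E n × E n)} (hK : IsCompact K) (μ : ℕ → Measure (E n × E n))
    (hfin : ∀ j, IsFiniteMeasure (μ j)) {C : ℝ} (hC : ∀ j, (μ j).real univ ≤ C)
    (h0 : ∀ j, μ j Kᶜ = 0) :
    ∃ V : Measure (E n × E n), IsFiniteMeasure V ∧ V Kᶜ = 0 ∧ ∃ U : Filter ℕ, U.NeBot ∧
      U ≤ atTop ∧ ∀ J : E n × E n → ℝ, Continuous J →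
        Tendsto (fun j => ∫ z, J z ∂μ j) U (𝓝 (∫ z, J z ∂V)) := by
  let ν : ℕ → FiniteMeasure (E n × E n) := fun j => ⟨μ j, hfin j⟩
  have hcpt := isCompact_setOfPred_finiteMeasure_le_of_isCompact C.toNNReal hK
  have hmem : ∀ j, ν j ∈ {m : FiniteMeasure (E n × E n) | m.mass ≤ C.toNNReal ∧ m Kᶜ = 0} := by
    intro j
    refine ⟨?_, ?_⟩
    · have h1 : ((ν j).mass : ℝ) ≤ C := hC j
      exact (Real.le_toNNReal_iff_coe_le ((NNReal.coe_nonneg _).trans h1)).mpr h1
    · rw [FiniteMeasure.null_iff_toMeasure_null]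
      exact h0 j
  let U : Ultrafilter ℕ := Ultrafilter.of atTop
  obtain ⟨V, hV, hle⟩ := hcpt.ultrafilter_le_nhds (U.map ν) (by
    rw [Ultrafilter.coe_map, le_principal_iff, mem_map]
    exact univ_mem' hmem)
  have hV0 : (V : Measure (E n × E n)) Kᶜ = 0 := (FiniteMeasure.null_iff_toMeasure_null _ _).mp hV.2
  refine ⟨V, inferInstance, hV0, U, inferInstance, Ultrafilter.of_le _, ?_⟩
  intro J hJ
  obtain ⟨g, hg⟩ := vari_trunc hK hJ
  have ht : Tendsto ν U (𝓝 V) := hle
  have h1 := FiniteMeasure.tendsto_iff_forall_integral_tendsto.mp ht g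
  have e : ∀ m : Measure (E n × E n), m Kᶜ = 0 → ∫ z, g z ∂m = ∫ z, J z ∂m := by
    intro m hm
    refine integral_congr_ae ?_
    have : ∀ᵐ z ∂m, z ∈ K := hm
    filter_upwards [this] with z hz using hg z hz
  rw [e _ hV0] at h1
  refine h1.congr fun j => e _ (h0 j)

namespace Frame

variable (Φ : Frame n) {A : Set (E n)} {W : Vf n}

/-- The gradient measure of a function. -/
def variM (f : E n → ℝ) : Measure (E n × E n) :=
  Measure.map (fun x => (x, Φ.nrm f x))
    (volume.withDensity fun x => ENNReal.ofReal (‖Φ.gr f x‖ * Φ.m x))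

theorem vari_gr_zero {R ε : ℝ} {f : E n → ℝ} (h : Close A R ε f) {x : E n} (hx : R < ‖x‖) :
    Φ.gr f x = 0 := by
  have h1 : f =ᶠ[𝓝 x] fun _ => (0 : ℝ) := by
    have h2 : ∀ᶠ y in 𝓝 x, R < ‖y‖ := continuous_norm.continuousAt.eventually (lt_mem_nhds hx)
    filter_upwards [h2] with y hy using h.supp y hy.le
  rw [Φ.gr_congr h1, Φ.gr_const]

theorem vari_cont {f : E n → ℝ} (hf : ContDiff ℝ 1 f) :
    Continuous fun x => ‖Φ.gr f x‖ * Φ.m x :=
  (Φ.cont_gr hf).norm.mul Φ.m_smooth.continuous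

theorem vari_nonneg (f : E n → ℝ) (x : E n) : 0 ≤ ‖Φ.gr f x‖ * Φ.m x :=
  mul_nonneg (norm_nonneg _) (Φ.m_pos x).le

theorem vari_integrable {R ε : ℝ} {f : E n → ℝ} (h : Close A R ε f) :
    Integrable fun x => ‖Φ.gr f x‖ * Φ.m x := by
  refine (Φ.vari_cont h.smooth).integrable_of_hasCompactSupport ?_
  refine HasCompactSupport.intro (isCompact_closedBall (0 : E n) R) fun x hx => ?_
  rw [mem_closedBall_zero_iff, not_le] at hx
  rw [Φ.vari_gr_zero h hx, norm_zero, zero_mul]

theorem vari_meas {f : E n → ℝ} (hf : ContDiff ℝ 1 f) :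
    Measurable fun x => (x, Φ.nrm f x) := measurable_id.prodMk (Φ.measurable_nrm hf)

theorem vari_integral {f : E n → ℝ} (hf : ContDiff ℝ 1 f) {J : E n × E n → ℝ}
    (hJ : Continuous J) :
    ∫ z, J z ∂Φ.variM f = ∫ x, J (x, Φ.nrm f x) * (‖Φ.gr f x‖ * Φ.m x) := by
  unfold variM
  rw [integral_map (Φ.vari_meas hf).aemeasurable hJ.aestronglyMeasurable,
    integral_withDensity_eq_integral_toReal_smul (Φ.vari_cont hf).measurable.ennreal_ofReal
      (Eventually.of_forall fun _ => ENNReal.ofReal_lt_top)]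
  refine integral_congr_ae (Eventually.of_forall fun x => ?_)
  simp only [ENNReal.toReal_ofReal (Φ.vari_nonneg f x), smul_eq_mul]
  ring

theorem vari_finite {R ε : ℝ} {f : E n → ℝ} (h : Close A R ε f) : IsFiniteMeasure (Φ.variM f) := by
  unfold variM
  have := isFiniteMeasure_withDensity_ofReal (Φ.vari_integrable h).2
  infer_instance

theorem vari_mass {f : E n → ℝ} (hf : ContDiff ℝ 1 f) : (Φ.variM f).real univ = Φ.tv f := by
  have h1 := Φ.vari_integral hf (J := fun _ => (1 : ℝ)) continuous_const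
  simpa [tv] using h1

theorem vari_null {R ε : ℝ} {f : E n → ℝ} (h : Close A R ε f) :
    Φ.variM f (closedBall (0 : E n) R ×ˢ sphere (0 : E n) 1)ᶜ = 0 := by
  have hK : MeasurableSet (closedBall (0 : E n) R ×ˢ sphere (0 : E n) 1)ᶜ :=
    (isClosed_closedBall.measurableSet.prod isClosed_sphere.measurableSet).compl
  unfold variM
  rw [Measure.map_apply (Φ.vari_meas h.smooth) hK,
    withDensity_apply _ (Φ.vari_meas h.smooth hK)]
  refine setLIntegral_eq_zero (Φ.vari_meas h.smooth hK) fun x hx => ?_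
  have hg : Φ.gr f x = 0 := by
    by_contra hne
    apply hx
    refine ⟨?_, ?_⟩
    · rw [mem_closedBall_zero_iff]
      by_contra hR
      exact hne (Φ.vari_gr_zero h (not_le.mp hR))
    · rw [mem_sphere_zero_iff_norm]
      show ‖Φ.nrm f x‖ = 1
      unfold nrm
      rw [norm_neg, norm_smul, norm_inv, norm_norm, inv_mul_cancel₀ (norm_ne_zero_iff.mpr hne)]
  simp [hg]

theorem vari_inner (f : E n → ℝ) (x v : E n) :
    inner ℝ v (Φ.nrm f x) * (‖Φ.gr f x‖ * Φ.m x) = -(inner ℝ (Φ.gr f x) v * Φ.m x) := by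
  unfold nrm
  by_cases hg : Φ.gr f x = 0
  · simp [hg]
  · have h1 : ‖Φ.gr f x‖ ≠ 0 := norm_ne_zero_iff.mpr hg
    rw [inner_neg_right, inner_smul_right, real_inner_comm]
    field_simp

/-- Pairing of the approximation error with a continuous function. -/
theorem vari_err (hA : BM A) (R : ℝ) {g : E n → ℝ} (hg : Continuous g) : ∃ M : ℝ, 0 ≤ M ∧
    ∀ ε f, Close A R ε f → |(∫ x, f x * g x) - ∫ x in A, g x| ≤ M * ε := by
  obtain ⟨R', hR'⟩ := hA.bdd.subset_closedBall (0 : E n)
  obtain ⟨M, hM⟩ := (isCompact_closedBall (0 : E n) (max R R')).exists_bound_of_continuousOn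
    hg.continuousOn
  refine ⟨|M|, abs_nonneg _, fun ε f h => ?_⟩
  have i1 : Integrable fun x => f x * g x :=
    (h.smooth.continuous.mul hg).integrable_of_hasCompactSupport h.compact.mul_right
  have i2 : Integrable (A.indicator g) := (hA.integrableOn hg).integrable_indicator hA.meas
  have i3 : Integrable f := h.smooth.continuous.integrable_of_hasCompactSupport h.compact
  have i4 : Integrable (A.indicator (1 : E n → ℝ)) :=
    (hA.integrableOn continuous_const).integrable_indicator hA.meas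
  have i5 : Integrable fun x => |f x - A.indicator 1 x| := (i3.sub i4).abs
  rw [← integral_indicator hA.meas, ← integral_sub i1 i2]
  calc |∫ x, (f x * g x - A.indicator g x)| ≤ ∫ x, |M| * |f x - A.indicator 1 x| := by
        rw [← Real.norm_eq_abs]
        refine norm_integral_le_of_norm_le (i5.const_mul _) (Eventually.of_forall fun x => ?_)
        have e : f x * g x - A.indicator g x = g x * (f x - A.indicator 1 x) := by
          by_cases hx : x ∈ A
          · simp [hx]
            ring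
          · simp [hx]
            ring
        rw [e, Real.norm_eq_abs, abs_mul]
        by_cases hx : x ∈ closedBall (0 : E n) (max R R')
        · exact mul_le_mul_of_nonneg_right ((hM x hx).trans (le_abs_self M)) (abs_nonneg _)
        · rw [mem_closedBall_zero_iff, not_le, max_lt_iff] at hx
          have h1 : x ∉ A := fun hxA => by
            have := hR' hxA
            rw [mem_closedBall_zero_iff] at this
            linarith [hx.2]
          simp [h.supp x hx.1.le, h1]
    _ = |M| * ∫ x, |f x - A.indicator 1 x| := integral_const_mul _ _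
    _ ≤ |M| * ε := mul_le_mul_of_nonneg_left h.near (abs_nonneg _)

theorem vari_lim (hA : BM A) (hP : Φ.per A ≠ ⊤) : ∃ (W : Vf n) (R : ℝ),
    ∀ J : E n × E n → ℝ, Continuous J → ∀ ε > 0, ∃ f, Close A R ε f ∧
      Φ.tv f ≤ (Φ.per A).toReal + ε ∧
      |(∫ x, J (x, Φ.nrm f x) * (‖Φ.gr f x‖ * Φ.m x)) - ∫ z, J z ∂W.V| ≤ ε := by
  obtain ⟨R, hR⟩ := Φ.exists_close hA hP
  have hpos : ∀ j : ℕ, (0 : ℝ) < 1 / ((j : ℝ) + 1) := fun j => by positivity
  choose f hf htv using fun j : ℕ => hR _ (hpos j)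
  have hK : IsCompact (closedBall (0 : E n) R ×ˢ sphere (0 : E n) 1) :=
    (isCompact_closedBall _ _).prod (isCompact_sphere _ _)
  obtain ⟨V, hV, hV0, U, hU, hle, ht⟩ := vari_cluster hK (fun j => Φ.variM (f j))
    (fun j => Φ.vari_finite (hf j)) (C := (Φ.per A).toReal + 1) (fun j => by
      rw [Φ.vari_mass (hf j).smooth]
      refine (htv j).trans ?_
      have : 1 / ((j : ℝ) + 1) ≤ 1 := by
        rw [div_le_one (by positivity)]
        have : (0 : ℝ) ≤ j := Nat.cast_nonneg j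
        linarith
      linarith) (fun j => Φ.vari_null (hf j))
  have hs : ∀ᵐ z ∂V, z.1 ∈ closedBall (0 : E n) R ∧ ‖z.2‖ = 1 := by
    have : ∀ᵐ z ∂V, z ∈ closedBall (0 : E n) R ×ˢ sphere (0 : E n) 1 := hV0
    filter_upwards [this] with z hz using ⟨hz.1, mem_sphere_zero_iff_norm.mp hz.2⟩
  refine ⟨⟨V, closedBall 0 R, hV, isCompact_closedBall _ _, hs⟩, R, fun J hJ ε hε => ?_⟩
  have h1 : ∀ᶠ j in U, dist (∫ z, J z ∂Φ.variM (f j)) (∫ z, J z ∂V) < ε :=
    Metric.tendsto_nhds.mp (ht J hJ) ε hε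
  have h2 : ∀ᶠ j : ℕ in U, 1 / ((j : ℝ) + 1) < ε :=
    hle (tendsto_one_div_add_atTop_nhds_zero_nat.eventually (gt_mem_nhds hε))
  obtain ⟨j, hj1, hj2⟩ := (h1.and h2).exists
  refine ⟨f j, ⟨(hf j).smooth, (hf j).supp, (hf j).near.trans hj2.le⟩, by linarith [htv j], ?_⟩
  rw [Φ.vari_integral (hf j).smooth hJ, Real.dist_eq] at hj1
  exact hj1.le

theorem exists_vf (hA : BM A) (hP : Φ.per A ≠ ⊤) : ∃ W : Vf n, Φ.GG A W ∧ Φ.Lim A W ∧
    W.mass = (Φ.per A).toReal ∧ W.Sharp := by
  obtain ⟨W, R, h⟩ := Φ.vari_lim hA hP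
  have hG : Φ.GG A W := by
    intro y hy
    obtain ⟨M, hM, herr⟩ := vari_err hA R (Φ.cont_dv hy)
    have hJ : Continuous fun z : E n × E n => inner ℝ (y z.1) z.2 :=
      (hy.continuous.comp continuous_fst).inner continuous_snd
    have key : ∀ ε > 0,
        |(∫ x in A, Φ.dv y x) - ∫ z, inner ℝ (y z.1) z.2 ∂W.V| ≤ (M + 1) * ε := by
      intro ε hε
      obtain ⟨f, hf, -, h2⟩ := h _ hJ ε hε
      have h3 := herr ε f hf
      simp only [vari_inner] at h2
      rw [integral_neg, ← Φ.ibp hf.smooth hf.compact hy] at h2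
      rw [abs_le] at h2 h3 ⊢
      constructor <;> linarith [h2.1, h2.2, h3.1, h3.2]
    have h0 : |(∫ x in A, Φ.dv y x) - ∫ z, inner ℝ (y z.1) z.2 ∂W.V| ≤ 0 := by
      refine le_of_forall_pos_le_add fun ε hε => ?_
      have h1 := key (ε / (M + 1)) (by positivity)
      rw [mul_div_cancel₀ _ (by positivity)] at h1
      linarith
    exact sub_eq_zero.mp (abs_nonpos_iff.mp h0)
  have h1 : ∀ ε > 0, ∃ f, Close A R ε f ∧ Φ.tv f ≤ (Φ.per A).toReal + ε ∧
      |Φ.tv f - W.mass| ≤ ε := by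
    intro ε hε
    obtain ⟨f, hf, h2, h3⟩ := h (fun _ => (1 : ℝ)) continuous_const ε hε
    refine ⟨f, hf, h2, ?_⟩
    simpa [tv, Vf.mass] using h3
  have hle : W.mass ≤ (Φ.per A).toReal := by
    refine le_of_forall_pos_le_add fun ε hε => ?_
    obtain ⟨f, -, h2, h3⟩ := h1 (ε / 2) (by positivity)
    linarith [(abs_le.mp h3).1]
  have hge : (Φ.per A).toReal ≤ W.mass := by
    have h2 : Φ.per A ≤ ENNReal.ofReal W.mass := by
      refine Φ.per_le_of_close hA (R := R) fun ε hε => ?_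
      obtain ⟨f, hf, -, h3⟩ := h1 ε hε
      exact ⟨f, hf, by linarith [(abs_le.mp h3).2]⟩
    exact ENNReal.toReal_le_of_le_ofReal measureReal_nonneg h2
  refine ⟨W, hG, ⟨R, fun J hJ ε hε => ?_⟩, le_antisymm hle hge, Φ.sharp_of_mass hA hP hG hle⟩
  obtain ⟨f, hf, -, h3⟩ := h J hJ ε hε
  exact ⟨f, hf, h3⟩

end Frame


end Vale.Agent.P219
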