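import Vale.Agent.P219.DenC
import Vale.Agent.P219.FV
import Vale.Agent.P219.Vari
import Vale.Agent.P219.Min
import Vale.Agent.P219.RigC

/-!
The isoperimetric inequality for the perimeter.
-/

open scoped ContDiff Topology ENNReal
open MeasureTheory Set Filter Metric

noncomputable section

namespace Vale.Agent.P219

variable {n k : ℕ} {b : ℝ}

theorem Geo.iso_fv (Γ : Geo (k + 1) b) (hk : 3 ≤ k) {A : Set (E (k + 1))} (hA : BM A)
    (hP : Γ.per A ≠ ⊤) (h0 : Γ.per A ≠ 0) {g : E (k + 1) → ℝ} (hg : ContDiff ℝ 1 g) {c : ℝ}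
    (hc : ∀ x, |g x| ≤ c)
    (hmin : ∀ A', BM A' → Γ.per A' ≠ ⊤ → Wm k b (Γ.per A).toReal - ∫ x in A, g x * Γ.m x ≤
      Wm k b (Γ.per A').toReal - ∫ x in A', g x * Γ.m x) :
    ∃ (W : Vf (k + 1)) (h : ℝ), 0 < h ∧ Γ.GG A W ∧ Γ.Den W ∧ 0 < W.mass ∧
      (h ^ 2 - b ^ 2) * W.mass ^ (2 / k : ℝ) = sph k ^ (2 / k : ℝ) ∧
      Γ.FV W (h * c) fun x => h * g x := by
  have hk1 : 1 ≤ k := by omega
  have hk0 : (0 : ℝ) < k := by exact_mod_cast hk1
  have hpos : 0 < (Γ.per A).toReal := ENNReal.toReal_pos h0 hP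
  obtain ⟨W, hG, hL, hm, hS⟩ := Γ.exists_vf hA hP
  obtain ⟨h, hh, hd, he⟩ := Wm_deriv hk1 b hpos
  refine ⟨W, h, hh, hG, Γ.den hk1 hA hG hS, hm ▸ hpos, hm ▸ he,
    continuous_const.mul hg.continuous, fun x => ?_, fun y hy => ?_⟩
  · rw [abs_mul, abs_of_pos hh]
    exact mul_le_mul_of_nonneg_left (hc x) hh.le
  · have h1 := Γ.first_variation hA hP hG hL hm hg (Wm_mono hk1 b) hd hmin hy
    simp only [mul_assoc]
    rw [integral_const_mul, ← h1]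
    field_simp

theorem Geo.iso (Γ : Geo (k + 1) b) (hk : 3 ≤ k) {A : Set (E (k + 1))} (hA : BM A)
    (hP : Γ.per A ≠ ⊤) : ∫ x in A, Γ.m x ≤ Wm k b (Γ.per A).toReal := by
  have hk1 : 1 ≤ k := by omega
  by_contra hlt
  rw [not_le] at hlt
  have hW0 : 0 ≤ Wm k b (Γ.per A).toReal := by
    rw [← Wm_zero hk1 b]
    exact Wm_mono hk1 b (mem_Ici.2 le_rfl) (mem_Ici.2 ENNReal.toReal_nonneg) ENNReal.toReal_nonneg
  have hV : 0 < ∫ x in A, Γ.m x := hW0.trans_lt hlt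
  obtain ⟨c, hc1, hc2⟩ := exists_between ((div_lt_one hV).2 hlt)
  rw [div_lt_iff₀ hV] at hc1
  have hc0 : 0 < c := by
    by_contra h
    nlinarith
  obtain ⟨s, hs⟩ := hA.bdd.isCompact_closure.bddAbove_image (Γ.sm 0).continuous.continuousOn
  have hs' : ∀ x ∈ A, Γ.σ 0 x ≤ |s| := fun x hx =>
    (hs (mem_image_of_mem _ (subset_closure hx))).trans (le_abs_self s)
  obtain ⟨χ, -, hχ, -, hχ0, hχ1, hχ2, -⟩ := exists_cut (lt_add_one |s|)
  set g : E (k + 1) → ℝ := fun x => c * (1 - χ (Γ.σ 0 x)) with hg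
  have hgd : ContDiff ℝ 1 g :=
    contDiff_const.mul (contDiff_const.sub ((hχ.comp (Γ.sm 0)).of_le (by exact_mod_cast le_top)))
  have hgc : ∀ x, |g x| ≤ c := fun x => by
    have := hχ2 (Γ.σ 0 x)
    rw [hg, abs_of_nonneg (mul_nonneg hc0.le (by linarith [this.2]))]
    nlinarith [this.1]
  obtain ⟨B, hB, hBP, hmin⟩ := Γ.exists_min (Wm_cont hk1 b) (Wm_mono hk1 b) (Wm_top hk1 b)
    hgd.continuous 0 (s := |s| + 1) (by positivity) fun x hx => by simp [hg, hχ1 _ hx]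
  have hB0 : Γ.per B ≠ 0 := by
    intro h0
    have h1 := hmin A hA hP
    have h2 : ∫ x in A, g x * Γ.m x = c * ∫ x in A, Γ.m x := by
      rw [← integral_const_mul]
      exact setIntegral_congr_fun hA.meas fun x hx => by simp [hg, hχ0 _ (hs' x hx)]
    rw [h0, ENNReal.toReal_zero, Wm_zero hk1, setIntegral_measure_zero _ (Γ.vol_zero hB h0),
      h2] at h1
    linarith
  obtain ⟨W, h, hh, -, hD, hm, he, hF⟩ := Γ.iso_fv hk hB hBP hB0 hgd hgc hmin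
  have h1 := Γ.amc hk hF hD hm
  have h2 : 0 < W.mass ^ (2 / k : ℝ) := Real.rpow_pos_of_pos hm _
  rw [← he] at h1
  have h3 := le_of_mul_le_mul_right h1 h2
  have h4 : h * c < h := mul_lt_of_lt_one_right hh hc2
  nlinarith [mul_pos hh hc0]

theorem Geo.iso_eq (Γ : Geo (k + 1) b) (hk : 3 ≤ k) {A : Set (E (k + 1))} (hA : BM A)
    (hP : Γ.per A ≠ ⊤) (h0 : volume A ≠ 0) (he : Wm k b (Γ.per A).toReal ≤ ∫ x in A, Γ.m x) :
    ∃ (W : Vf (k + 1)) (o : E (k + 1)) (s : ℝ), Γ.GG A W ∧ 0 < s ∧ Γ.Round W o s := by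
  obtain ⟨W, h, hh, hG, hD, hm, he, hF⟩ := Γ.iso_fv hk hA hP (fun h => h0 (Γ.vol_zero hA h))
    (g := fun _ => 1) contDiff_const (c := 1) (fun _ => by simp) fun A' hA' hP' => by
      simp only [one_mul]
      linarith [Γ.iso hk hA' hP']
  simp only [mul_one] at hF
  obtain ⟨o, s, hs, hR⟩ := Γ.round hk hF hD hm he.le
  exact ⟨W, o, s, hG, hs, hR⟩

end Vale.Agent.P219
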