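import Vale.Agent.P219.XDefs

/-!
Comparison for the Jacobi differential inequality.
-/

open scoped ContDiff Topology Manifold Bundle
open Set Filter

set_option maxSynthPendingDepth 3

noncomputable section

namespace Vale.Agent.P219.R

variable {n : ℕ} {b : ℝ}

theorem jo_sn_deriv (c t : ℝ) : HasDerivAt (sn c) (Real.cosh (c * t)) t := by
  by_cases hc : c = 0
  · have e : sn c = id := by
      funext t
      simp [sn, hc]
    rw [e, hc, zero_mul, Real.cosh_zero]
    exact hasDerivAt_id t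
  · have e : sn c = fun t => Real.sinh (c * t) / c := by
      funext t
      simp [sn, hc]
    rw [e]
    refine (((hasDerivAt_id t).const_mul c).sinh.div_const c).congr_deriv ?_
    simp only [id, mul_one]
    field_simp

theorem jo_sn_zero (c : ℝ) : sn c 0 = 0 := by simp [sn]

theorem jo_sn_mono (c : ℝ) : StrictMono (sn c) :=
  strictMono_of_hasDerivAt_pos (jo_sn_deriv c) fun _ => Real.cosh_pos _

theorem jo_sn_pos (c : ℝ) {t : ℝ} (ht : 0 < t) : 0 < sn c t := by
  have := jo_sn_mono c ht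
  rwa [jo_sn_zero] at this

theorem jo_sinh (c t : ℝ) : Real.sinh (c * t) = c * sn c t := by
  by_cases hc : c = 0
  · simp [hc]
  · simp only [sn, hc, if_false]
    field_simp

theorem jo_cosh_deriv (c t : ℝ) :
    HasDerivAt (fun t => Real.cosh (c * t)) (c ^ 2 * sn c t) t := by
  refine ((hasDerivAt_id t).const_mul c).cosh.congr_deriv ?_
  simp only [id, mul_one]
  rw [jo_sinh]
  ring

theorem jo_md_deriv (c t : ℝ) : HasDerivAt (md c) (sn c t) t := by
  by_cases hc : c = 0
  · have e : md c = fun t => t ^ 2 / 2 := by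
      funext t
      simp [md, hc]
    rw [e]
    refine ((hasDerivAt_pow 2 t).div_const 2).congr_deriv ?_
    simp [sn, hc]
  · have e : md c = fun t => (Real.cosh (c * t) - 1) / c ^ 2 := by
      funext t
      simp [md, hc]
    rw [e]
    refine (((jo_cosh_deriv c t).sub_const 1).div_const _).congr_deriv ?_
    field_simp

theorem jo_le {f f' : ℝ → ℝ} {L : ℝ} (hf : ∀ t > 0, HasDerivAt f (f' t) t)
    (h0 : ∀ t > 0, 0 ≤ f' t) (hL : Tendsto f (𝓝[>] 0) (𝓝 L)) :
    MonotoneOn f (Ioi 0) ∧ ∀ t > 0, L ≤ f t := by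
  have hm : MonotoneOn f (Ioi 0) := by
    refine monotoneOn_of_hasDerivWithinAt_nonneg (f' := f') (convex_Ioi 0)
      (fun t ht => (hf t ht).continuousAt.continuousWithinAt) (fun t ht => ?_) fun t ht => ?_
    · exact (hf t (interior_subset ht)).hasDerivWithinAt
    · exact h0 t (interior_subset ht)
  refine ⟨hm, fun t ht => le_of_tendsto hL ?_⟩
  filter_upwards [Ioo_mem_nhdsGT ht] with s hs
  exact hm hs.1 ht hs.2.le

theorem jo_slope {f : ℝ → ℝ} {a : ℝ} (hf : HasDerivAt f a 0) (h0 : f 0 = 0) :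
    Tendsto (fun t => f t / t) (𝓝[>] 0) (𝓝 a) := by
  refine hf.tendsto_slope_zero_right.congr fun t => ?_
  rw [h0, zero_add, sub_zero, smul_eq_mul, div_eq_inv_mul]

theorem jo_F2 {F F1 F2 : ℝ → ℝ} {c : ℝ}
    (h1 : ∀ t, HasDerivAt F (F1 t) t) (h2 : ∀ t, HasDerivAt F1 (F2 t) t) (h0 : ∀ t, 0 ≤ F t)
    (hq : ∀ t, F1 t ^ 2 + 4 * c ^ 2 * F t ^ 2 ≤ 2 * F t * F2 t) (t : ℝ) : 0 ≤ F2 t := by
  rcases (h0 t).eq_or_lt with h | h
  · by_contra hlt
    rw [not_le] at hlt
    have e1 : deriv F = F1 := funext fun s => (h1 s).deriv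
    have e2 : ∀ s, F s = 0 → F1 s = 0 := fun s hs => by
      have := hq s
      rw [hs] at this
      nlinarith [sq_nonneg (F1 s)]
    have hmax : IsLocalMax F t := isLocalMax_of_deriv_deriv_neg (by rw [e1, (h2 t).deriv]; exact hlt)
      (by rw [e1]; exact e2 t h.symm) (h1 t).continuousAt
    have e3 : F1 =ᶠ[𝓝 t] fun _ => 0 := by
      filter_upwards [hmax] with s hs
      exact e2 s (le_antisymm (h ▸ hs) (h0 s))
    exact hlt.ne (((h2 t).congr_of_eventuallyEq e3.symm).unique (hasDerivAt_const t 0))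
  · have := hq t
    have h3 : 0 ≤ F t * F2 t := by nlinarith [sq_nonneg (F1 t), sq_nonneg (c * F t)]
    exact nonneg_of_mul_nonneg_right h3 h

theorem jac_cmp {F F1 F2 : ℝ → ℝ} {c W : ℝ} (hc : 0 ≤ c) (hW : 0 < W)
    (h1 : ∀ t, HasDerivAt F (F1 t) t) (h2 : ∀ t, HasDerivAt F1 (F2 t) t) (h0 : ∀ t, 0 ≤ F t)
    (hF : F 0 = 0) (hF2 : F2 0 = 2 * W) (hq : ∀ t, F1 t ^ 2 + 4 * c ^ 2 * F t ^ 2 ≤ 2 * F t * F2 t) :
    W * sn c 1 ^ 2 ≤ F 1 ∧ 2 * Real.cosh c * F 1 ≤ sn c 1 * F1 1 ∧
      (F 1 = W * sn c 1 ^ 2 → ∀ t ∈ Icc (0 : ℝ) 1, F t = W * sn c t ^ 2) := by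
  have _ := hc
  have hF1 : F1 0 = 0 := by
    have := hq 0
    rw [hF] at this
    nlinarith [sq_nonneg (F1 0)]
  have m1 : Monotone F1 := monotone_of_hasDerivAt_nonneg h2 (jo_F2 h1 h2 h0 hq)
  have l1 : Tendsto (fun t => F1 t / t) (𝓝[>] 0) (𝓝 (2 * W)) := hF2 ▸ jo_slope (h2 0) hF1
  have l2 : Tendsto (fun t => F t / t ^ 2) (𝓝[>] 0) (𝓝 W) := by
    refine HasDerivAt.lhopital_zero_nhdsGT (f' := F1) (g' := fun t => 2 * t)
      (Eventually.of_forall h1) (Eventually.of_forall fun t => by simpa using hasDerivAt_pow 2 t)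
      (eventually_of_mem self_mem_nhdsWithin fun t ht => mul_ne_zero two_ne_zero (ne_of_gt ht))
      ?_ ?_ ?_
    · have := (h1 0).continuousAt.tendsto
      rw [hF] at this
      exact this.mono_left nhdsWithin_le_nhds
    · exact ((continuous_pow 2).tendsto' 0 0 (by simp)).mono_left nhdsWithin_le_nhds
    · have := l1.div_const 2
      rw [mul_div_cancel_left₀ _ two_ne_zero] at this
      exact this.congr fun t => by ring
  have p1 : ∀ t > 0, 0 < F1 t := by
    intro t ht
    obtain ⟨s, hs1, hs2⟩ := ((l1.eventually (lt_mem_nhds (show (0 : ℝ) < 2 * W by positivity))).and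
      (Ioo_mem_nhdsGT ht)).exists
    exact ((div_pos_iff_of_pos_right hs2.1).1 hs1).trans_le (m1 hs2.2.le)
  have p2 : ∀ t > 0, 0 < F t := by
    intro t ht
    have := strictMonoOn_of_deriv_pos (convex_Ici 0)
      (fun s _ => (h1 s).continuousAt.continuousWithinAt)
      (fun s hs => by rw [interior_Ici] at hs; rw [(h1 s).deriv]; exact p1 s hs)
      (mem_Ici.2 le_rfl) (mem_Ici.2 ht.le) ht
    rwa [hF] at this
  have d1 : ∀ t > 0, HasDerivAt (fun t => √(F t)) (F1 t / (2 * √(F t))) t := fun t ht =>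
    (h1 t).sqrt (p2 t ht).ne'
  have d2 : ∀ t > 0, HasDerivAt
      (fun t => F1 t / (2 * √(F t)) * sn c t - √(F t) * Real.cosh (c * t))
      ((2 * F t * F2 t - F1 t ^ 2 - 4 * c ^ 2 * F t ^ 2) * sn c t / (4 * F t * √(F t))) t := by
    intro t ht
    have e1 := Real.sqrt_pos.2 (p2 t ht)
    have e2 := Real.mul_self_sqrt (p2 t ht).le
    refine ((((h2 t).div ((d1 t ht).const_mul 2) (by positivity)).mul (jo_sn_deriv c t)).sub
      ((d1 t ht).mul (jo_cosh_deriv c t))).congr_deriv ?_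
    simp only [Pi.div_apply]
    generalize √(F t) = f at e1 e2 ⊢
    rw [← e2]
    field_simp
    ring
  have l3 : Tendsto (fun t => F1 t / (2 * √(F t)) * sn c t - √(F t) * Real.cosh (c * t))
      (𝓝[>] 0) (𝓝 0) := by
    have a1 : Tendsto (fun t => F1 t / t / (2 * √(F t / t ^ 2))) (𝓝[>] 0)
        (𝓝 (2 * W / (2 * √W))) :=
      l1.div (l2.sqrt.const_mul 2) (by have := Real.sqrt_pos.2 hW; positivity)
    have a2 : Tendsto (sn c) (𝓝[>] 0) (𝓝 0) := by
      have := (jo_sn_deriv c 0).continuousAt.tendsto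
      rw [jo_sn_zero] at this
      exact this.mono_left nhdsWithin_le_nhds
    have a3 : Tendsto (fun t => √(F t) * Real.cosh (c * t)) (𝓝[>] 0)
        (𝓝 (√(F 0) * Real.cosh (c * 0))) :=
      ((h1 0).continuousAt.sqrt.mul (jo_cosh_deriv c 0).continuousAt).tendsto.mono_left
        nhdsWithin_le_nhds
    have a4 := (a1.mul a2).sub a3
    rw [hF, Real.sqrt_zero, mul_zero, zero_mul, sub_zero] at a4
    refine a4.congr' ?_
    filter_upwards [self_mem_nhdsWithin] with t ht
    have ht' : (0 : ℝ) < t := ht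
    have e1 := Real.sqrt_pos.2 (p2 t ht)
    rw [Real.sqrt_div (h0 t), Real.sqrt_sq ht'.le]
    field_simp
  have k1 : ∀ t > 0, 2 * Real.cosh (c * t) * F t ≤ sn c t * F1 t := by
    intro t ht
    have a1 := (jo_le d2 (fun s hs => div_nonneg
      (mul_nonneg (by linarith [hq s]) (jo_sn_pos c hs).le)
      (mul_nonneg (mul_nonneg (by norm_num) (h0 s)) (Real.sqrt_nonneg _))) l3).2 t ht
    have e1 := Real.sqrt_pos.2 (p2 t ht)
    have e2 := Real.mul_self_sqrt (p2 t ht).le
    generalize √(F t) = f at e1 e2 a1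
    rw [← e2]
    rw [sub_nonneg, div_mul_eq_mul_div, le_div_iff₀ (by positivity)] at a1
    linarith
  have d3 : ∀ t > 0, HasDerivAt (fun t => F t / sn c t ^ 2)
      ((sn c t * F1 t - 2 * Real.cosh (c * t) * F t) / sn c t ^ 3) t := by
    intro t ht
    have e1 := jo_sn_pos c ht
    refine ((h1 t).div ((jo_sn_deriv c t).pow 2) (pow_pos e1 2).ne').congr_deriv ?_
    simp only [Pi.pow_apply]
    field_simp
    ring
  have l4 : Tendsto (fun t => F t / sn c t ^ 2) (𝓝[>] 0) (𝓝 W) := by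
    have a1 := jo_slope (jo_sn_deriv c 0) (jo_sn_zero c)
    rw [mul_zero, Real.cosh_zero] at a1
    have a2 := l2.div (a1.pow 2) (by norm_num)
    rw [one_pow, div_one] at a2
    refine a2.congr' ?_
    filter_upwards [self_mem_nhdsWithin] with t ht
    have ht' : (0 : ℝ) < t := ht
    have e1 := jo_sn_pos c ht'
    simp only [Pi.div_apply]
    field_simp
  obtain ⟨k2, k3⟩ := jo_le d3 (fun s hs => div_nonneg (sub_nonneg.2 (k1 s hs))
    (pow_pos (jo_sn_pos c hs) 3).le) l4
  have e1 := pow_pos (jo_sn_pos c one_pos) 2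
  refine ⟨(le_div_iff₀ e1).1 (k3 1 one_pos), by simpa using k1 1 one_pos, fun he t ht => ?_⟩
  rcases ht.1.eq_or_lt with rfl | ht0
  · rw [hF, jo_sn_zero]
    ring
  have e2 := pow_pos (jo_sn_pos c ht0) 2
  have a1 : F t / sn c t ^ 2 ≤ F 1 / sn c 1 ^ 2 := k2 ht0 (mem_Ioi.2 one_pos) ht.2
  rw [he, mul_div_cancel_right₀ _ e1.ne'] at a1
  exact (div_eq_iff e2.ne').1 (le_antisymm a1 (k3 t ht0))

theorem jo_series : ∃ C : ℝ → ℝ, ContDiff ℝ ∞ C ∧ C 0 = 1 / 2 ∧ (∀ x, 0 ≤ x → 1 / 2 ≤ C x) ∧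
    ∀ x, Real.cosh x = 1 + x ^ 2 * C (x ^ 2) := by
  set p := FormalMultilinearSeries.ofScalars ℝ fun j : ℕ => (1 : ℝ) / (2 * (j + 1)).factorial
    with hp
  have hr : p.radius = ⊤ := by
    refine p.radius_eq_top_of_summable_norm fun r => ?_
    refine (Real.summable_pow_div_factorial r).of_nonneg_of_le (fun j => by positivity) fun j => ?_
    rw [hp, FormalMultilinearSeries.ofScalars_norm, Real.norm_of_nonneg (by positivity),
      one_div, inv_mul_eq_div]
    refine div_le_div_of_nonneg_left (by positivity) (by positivity) ?_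
    exact_mod_cast Nat.factorial_le (by omega)
  have hb := p.hasFPowerSeriesOnBall (by rw [hr]; exact ENNReal.zero_lt_top)
  rw [hr] at hb
  have hs : ∀ x, HasSum (fun j : ℕ => (1 : ℝ) / (2 * (j + 1)).factorial * x ^ j) (p.sum x) := by
    intro x
    have := hb.hasSum (y := x) (by simp)
    simp only [hp, FormalMultilinearSeries.ofScalars_apply_eq, zero_add, smul_eq_mul] at this
    exact this
  refine ⟨p.sum, AnalyticOnNhd.contDiff (by simpa using hb.analyticOnNhd), ?_, fun x hx => ?_,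
    fun x => ?_⟩
  · refine (hs 0).unique ?_
    have := hasSum_single (f := fun j : ℕ => (1 : ℝ) / (2 * (j + 1)).factorial * 0 ^ j) 0
      fun j hj => by simp [hj]
    simpa [Nat.factorial] using this
  · have := le_hasSum (hs x) 0 fun j _ => by positivity
    simpa [Nat.factorial] using this
  · have a1 := (hasSum_nat_add_iff' 1).2 (Real.hasSum_cosh x)
    have a2 := (hs (x ^ 2)).mul_left (x ^ 2)
    have a3 : (fun j : ℕ => x ^ (2 * (j + 1)) / ((2 * (j + 1)).factorial : ℝ)) =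
        fun j : ℕ => x ^ 2 * ((1 : ℝ) / (2 * (j + 1)).factorial * (x ^ 2) ^ j) := by
      funext j
      ring
    rw [a3] at a1
    have a4 := a1.unique a2
    simp at a4
    linarith

theorem exists_mq (hb : 0 ≤ b) : ∃ q, MQ b q := by
  obtain ⟨C, hC, hC0, hC1, hC2⟩ := jo_series
  obtain ⟨q, hq⟩ : ∃ q : ℝ → ℝ, q = fun s => s * C (b ^ 2 * s) := ⟨_, rfl⟩
  have sm : ContDiff ℝ ∞ q := hq ▸ contDiff_id.mul (hC.comp (contDiff_const.mul contDiff_id))
  have sm1 : ContDiff ℝ ∞ (deriv q) := (contDiff_infty_iff_deriv.1 sm).2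
  have ch : ∀ r, Real.cosh (b * r) = 1 + b ^ 2 * q (r ^ 2) := fun r => by
    rw [hC2, hq, mul_pow]
    ring
  have eq : ∀ r, q (r ^ 2) = md b r := fun r => by
    by_cases h : b = 0
    · simp only [hq, md, h, if_true]
      rw [zero_pow two_ne_zero, zero_mul, hC0]
      ring
    · simp only [md, h, if_false]
      rw [ch]
      field_simp
      ring
  have dp : ∀ r : ℝ, HasDerivAt (fun r : ℝ => r ^ 2) (2 * r) r := fun r => by
    simpa using hasDerivAt_pow 2 r
  have d1 : ∀ r, 2 * r * deriv q (r ^ 2) = sn b r := fun r => by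
    have a1 := (sm.differentiable (by simp) (r ^ 2)).hasDerivAt.comp r (dp r)
    have a2 : q ∘ (fun r : ℝ => r ^ 2) = md b := funext eq
    rw [a2] at a1
    rw [← a1.unique (jo_md_deriv b r), mul_comm]
  have d2 : ∀ r, 2 * deriv q (r ^ 2) + 4 * r ^ 2 * deriv (deriv q) (r ^ 2) = 1 + b ^ 2 * q (r ^ 2) :=
    fun r => by
    have a1 := ((hasDerivAt_id r).const_mul 2).mul
      ((sm1.differentiable (by simp) (r ^ 2)).hasDerivAt.comp r (dp r))
    have a2 : ((fun y : ℝ => 2 * id y) * deriv q ∘ fun r : ℝ => r ^ 2) = sn b := funext d1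
    rw [a2] at a1
    rw [← ch, ← a1.unique (jo_sn_deriv b r)]
    simp only [id, Function.comp_apply]
    ring
  have d0 : deriv q 0 = 1 / 2 := by
    have a1 := d2 0
    have a2 := ch 0
    rw [mul_zero, Real.cosh_zero] at a2
    rw [← a2, zero_pow two_ne_zero] at a1
    linarith
  refine ⟨q, sm, eq, d1, d0, fun s hs => ?_, fun s hs => ?_, fun s hs => ?_, ch, fun s hs => ?_,
    fun y hy => ?_, jo_sn_mono b⟩
  · rcases hs.eq_or_lt with rfl | hs0
    · rw [d0]
      norm_num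
    have a1 := d1 √s
    have a2 := Real.sqrt_pos.2 hs0
    rw [Real.sq_sqrt hs] at a1
    have a3 := jo_sn_pos b a2
    rw [← a1] at a3
    exact (mul_pos_iff_of_pos_left (by positivity)).1 a3
  · have := d2 √s
    rwa [Real.sq_sqrt hs] at this
  · have a1 := d1 √s
    have a2 := ch √s
    have a3 := eq √s
    have a4 := Real.cosh_sq (b * √s)
    have a5 := Real.sq_sqrt hs
    rw [jo_sinh, a2, ← a1] at a4
    by_cases h : b = 0
    · simp only [md, sn, h, if_true] at a1 a3 ⊢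
      rw [a5] at a1 a3
      have a6 : (2 * √s * deriv q s) ^ 2 = s := by rw [a1, a5]
      rw [mul_pow, mul_pow, a5] at a6
      rw [a3]
      linarith
    · rw [mul_pow, mul_pow, mul_pow, a5] at a4
      refine mul_left_cancel₀ (pow_ne_zero 2 h) ?_
      linarith
  · have := mul_le_mul_of_nonneg_left (hC1 (b ^ 2 * s) (by positivity)) hs
    rw [hq]
    linarith
  · by_cases h : b = 0
    · exact ⟨y, hy, by simp [sn, h]⟩
    · refine ⟨Real.arsinh (b * y) / b, div_nonneg (Real.arsinh_nonneg_iff.2 (by positivity)) hb, ?_⟩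
      simp only [sn, h, if_false]
      rw [mul_div_cancel₀ _ h, Real.sinh_arsinh, mul_div_cancel_left₀ _ h]


end Vale.Agent.P219.R
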