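import Vale.Agent.P219.Defs

/-!
Definitions for the dimensions two and three.
-/

open scoped ContDiff Topology ENNReal
open MeasureTheory Set Filter Metric

noncomputable section

namespace Vale.Agent.P219

variable {n k : ℕ} {b : ℝ}

/-- `Ω` is isometric to a ball of the model space. -/
def Frame.Model (Φ : Frame n) (b : ℝ) (Ω : Set (E n)) : Prop :=
  ∃ (ρ : ℝ) (T : E n → E n), 0 < ρ ∧ 0 < 4 - b ^ 2 * ρ ^ 2 ∧ ContDiff ℝ ∞ T ∧
    BijOn T Ω (ball 0 ρ) ∧ ∀ x ∈ Ω, ∀ v,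
      ‖Φ.Fi x v‖ = ‖fderiv ℝ T x v‖ / (1 - b ^ 2 * ‖T x‖ ^ 2 / 4)

/-- The rotation by a right angle. -/
def rot (v : E 2) : E 2 := v 0 • ev 1 - v 1 • ev 0

/-- The calibration form. -/
def kn (a c ν ν' : E 2) : ℝ :=
  inner ℝ a ν * inner ℝ c ν' - inner ℝ (rot a) ν * inner ℝ (rot c) ν'

/-- Smooth functions of two points. -/
def Sm (n : ℕ) : Subalgebra ℝ (E n × E n → ℝ) where
  carrier := {u | ContDiff ℝ ∞ u}
  mul_mem' := fun {u v} (hu : ContDiff ℝ ∞ u) (hv : ContDiff ℝ ∞ v) => ContDiff.mul hu hv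
  add_mem' := fun {u v} (hu : ContDiff ℝ ∞ u) (hv : ContDiff ℝ ∞ v) => ContDiff.add hu hv
  algebraMap_mem' := fun c => (contDiff_const : ContDiff ℝ ∞ fun _ => c)

/-- The derivative along a smooth vector field. -/
def der (v : E n × E n → E n × E n) (hv : ContDiff ℝ ∞ v) : Derivation ℝ (Sm n) (Sm n) where
  toFun u := ⟨fun p => fderiv ℝ u.1 p (v p),
    ((show ContDiff ℝ ∞ u.1 from u.2).fderiv_right (m := ∞) (by simp)).clm_apply hv⟩
  map_add' u u' := Subtype.ext <| funext fun p => by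
    have h1 := (show ContDiff ℝ ∞ u.1 from u.2).differentiable (by simp) p
    have h2 := (show ContDiff ℝ ∞ u'.1 from u'.2).differentiable (by simp) p
    exact DFunLike.congr_fun (fderiv_add h1 h2) (v p)
  map_smul' c u := Subtype.ext <| funext fun p => by
    have h1 := (show ContDiff ℝ ∞ u.1 from u.2).differentiable (by simp) p
    exact DFunLike.congr_fun (fderiv_const_smul h1 c) (v p)
  map_one_eq_zero' := Subtype.ext <| funext fun p =>
    DFunLike.congr_fun (fderiv_const_apply (1 : ℝ) (x := p)) (v p)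
  leibniz' u u' := Subtype.ext <| funext fun p => by
    have h1 := (show ContDiff ℝ ∞ u.1 from u.2).differentiable (by simp) p
    have h2 := (show ContDiff ℝ ∞ u'.1 from u'.2).differentiable (by simp) p
    exact DFunLike.congr_fun (fderiv_mul h1 h2) (v p)

namespace Frame

variable (Φ : Frame n)

/-- The derivative along the frame in the first point. -/
def dX (i : Fin n) : Derivation ℝ (Sm n) (Sm n) :=
  der (fun p => (Φ.F p.1 (ev i), 0))
    (((Φ.sF.comp contDiff_fst).clm_apply contDiff_const).prodMk contDiff_const)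

/-- The derivative along the frame in the second point. -/
def dY (j : Fin n) : Derivation ℝ (Sm n) (Sm n) :=
  der (fun p => (0, Φ.F p.2 (ev j)))
    (contDiff_const.prodMk ((Φ.sF.comp contDiff_snd).clm_apply contDiff_const))

end Frame

namespace Geo

variable (Γ : Geo n b)

/-- Equality in the Rauch comparison. -/
def REq (o x : E n) : Prop := ∀ ξ, ‖fderiv ℝ (Γ.Xi o) x (Γ.F x ξ)‖ ^ 2 =
  ‖ξ‖ ^ 2 + b ^ 2 * inner ℝ (Γ.gr (Γ.σ o) x) ξ ^ 2

/-- Equality in the Hessian comparison. -/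
def HEq (o x : E n) : Prop :=
  ∀ ξ, inner ℝ (Γ.B (Γ.gr (Γ.σ o)) x ξ) ξ = (1 + b ^ 2 * Γ.σ o x) * ‖ξ‖ ^ 2

theorem heq_self (o : E n) : Γ.HEq o o := fun ξ => by
  rw [Γ.hess0, Γ.self, mul_zero, add_zero, one_mul]

/-- Equality in the Hessian comparison forces equality in the Rauch comparison along the
geodesic segment. -/
def Rig : Prop := ∀ o x, Γ.HEq o x → ∀ (x' : E n) (t : ℝ), 0 ≤ t → t ≤ 1 →
  Γ.Xi o x' = t • Γ.Xi o x → Γ.REq o x'

/-- The measure is carried by the model sphere through `y` with normal `ν` and curvature `h`. -/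
def Two (W : Vf n) (h : ℝ) (y ν : E n) : Prop :=
  ‖ν‖ = 1 ∧ ∀ᵐ z ∂W.V, inner ℝ (Γ.Xi y z.1) ν = h * Γ.σ y z.1

/-- The model ball through `y` with normal `ν` and curvature `h`. -/
def offBall (h : ℝ) (y ν : E n) : Set (E n) := {x | h * Γ.σ y x < inner ℝ (Γ.Xi y x) ν}

/-- The squared norm of the gradient. -/
def rr (x y : E n) : ℝ := 2 * Γ.σ x y + b ^ 2 * Γ.σ x y ^ 2

/-- The Laplacian of `σ o`. -/
def lap (o x : E n) : ℝ := tr (Γ.B (Γ.gr (Γ.σ o)) x)

/-- The determinant of the mixed second derivative. -/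
def dM (o x : E n) : ℝ := ((fderiv ℝ (Γ.Xi o) x).comp (Γ.F x)).det

/-- The curvature defect in dimension two. -/
def Rm (o x : E n) : ℝ :=
  (Γ.lap o x - (1 + b ^ 2 * Γ.σ o x)) * (Γ.lap x o - (1 + b ^ 2 * Γ.σ o x)) -
    (Γ.dM o x / (1 + b ^ 2 * Γ.σ o x)) ^ 2 - b ^ 2 * Γ.rr o x

end Geo

/-- The regularized calibration kernel. -/
def Geo.kk (Γ : Geo 2 b) (τ : ℝ) (z w : E 2 × E 2) : ℝ :=
  kn (Γ.Xi z.1 w.1) (Γ.Xi w.1 z.1) z.2 w.2 / (Γ.rr z.1 w.1 + τ ^ 2)


end Vale.Agent.P219
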