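import Vale.Agent.P219.Ge1
import Vale.Agent.P219.TransA

/-!
The equality case: the domain is a geodesic ball.
-/

open scoped ContDiff Topology ENNReal
open MeasureTheory Set Filter Metric

noncomputable section

namespace Vale.Agent.P219

variable {n k : ℕ} {b : ℝ}

/-- Near a boundary point there are interior points of the complement. -/
theorem rigB_out {Ω : Set (E n)} (hΩ : Dom Ω) {x : E n} (hx : x ∈ frontier Ω) {r : ℝ}
    (hr : 0 < r) : ∃ q ∈ ball x r, Ωᶜ ∈ 𝓝 q := by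
  obtain ⟨U, φ, hU, hxU, hφ, hd, hΩU⟩ := hΩ.bdry x hx
  have hxΩ : x ∉ Ω := by
    rw [hΩ.isOpen.frontier_eq] at hx
    exact hx.2
  have h0 : 0 ≤ φ x := by
    by_contra h
    have : x ∈ Ω ∩ U := by
      rw [hΩU]
      exact ⟨hxU, not_le.1 h⟩
    exact hxΩ this.1
  have h1 : ∃ q ∈ ball x r ∩ U, 0 < φ q := by
    by_contra h
    push Not at h
    refine hd (IsLocalMax.fderiv_eq_zero ?_)
    filter_upwards [inter_mem (ball_mem_nhds x hr) (hU.mem_nhds hxU)] with y hy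
    exact (h y hy).trans h0
  obtain ⟨q, ⟨hq, hqU⟩, hq0⟩ := h1
  refine ⟨q, hq, ?_⟩
  have hc : ContinuousAt φ q := hφ.continuousOn.continuousAt (hU.mem_nhds hqU)
  filter_upwards [hc.eventually (lt_mem_nhds hq0), hU.mem_nhds hqU] with y hy hyU hyΩ
  have : y ∈ Ω ∩ U := ⟨hyΩ, hyU⟩
  rw [hΩU] at this
  exact lt_asymm hy this.2

theorem Dom.exists_field {Ω : Set (E n)} (hΩ : Dom Ω) {x : E n} (hx : x ∈ frontier Ω)
    {U : Set (E n)} (hU : U ∈ 𝓝 x) : ∃ Z : E n → E n, ContDiff ℝ 1 Z ∧ tsupport Z ⊆ U ∧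
      ∫ p in Ω, dive Z p ≠ 0 := by
  by_contra hcon
  push Not at hcon
  obtain ⟨r, hr, hrU⟩ := Metric.mem_nhds_iff.1 hU
  obtain ⟨q, hq, hqΩ⟩ := rigB_out hΩ hx (half_pos hr)
  obtain ⟨p, hpΩ, hp⟩ := Metric.mem_closure_iff.1 (frontier_subset_closure hx) _ (half_pos hr)
  obtain ⟨δ1, hδ1, h1⟩ := Metric.mem_nhds_iff.1 hqΩ
  obtain ⟨δ2, hδ2, h2⟩ := Metric.mem_nhds_iff.1 (hΩ.isOpen.mem_nhds hpΩ)
  obtain ⟨δ, hδ, a1, a2, a3⟩ : ∃ δ > 0, δ ≤ δ1 ∧ δ ≤ δ2 ∧ δ ≤ r / 2 :=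
    ⟨min δ1 (min δ2 (r / 2)), by positivity, min_le_left _ _,
      (min_le_right _ _).trans (min_le_left _ _), (min_le_right _ _).trans (min_le_right _ _)⟩
  obtain ⟨L, -, hL⟩ := exists_bump (n := n)
  obtain ⟨ζ, hζ, hc, hs, hb, hone, -⟩ := hL q δ hδ
  have hζ1 : ContDiff ℝ 1 ζ := hζ.of_le (by simp)
  have hm : MeasurableSet Ω := hΩ.isOpen.measurableSet
  have hi : Integrable (Ω.indicator (1 : E n → ℝ)) :=
    (integrable_indicator_iff hm).2 (integrableOn_const hΩ.bdd.measure_lt_top.ne)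
  have key := transA_le hi hζ1 hc (q - p) (C := 0) fun t ht => by
    have h3 : ContDiff ℝ 1 fun y => ζ (y + t • (q - p)) := hζ1.comp (by fun_prop)
    have h4 := hcon (fun y => ζ (y + t • (q - p)) • (q - p)) (h3.smul contDiff_const) (by
      refine (tsupport_smul_subset_left _ _).trans fun y hy => hrU ?_
      have h5 : y + t • (q - p) ∈ tsupport ζ := by
        have h6 : tsupport (fun y => ζ (y + t • (q - p))) ⊆
            (fun y => y + t • (q - p)) ⁻¹' tsupport ζ :=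
          closure_minimal (fun w hw => subset_tsupport ζ hw)
            ((isClosed_tsupport ζ).preimage (by fun_prop))
        exact h6 hy
      have h7 := mem_ball_iff_norm.1 (hs h5)
      have h8 : y - x = (y + t • (q - p) - q) + ((1 - t) • (q - x) + t • (p - x)) := by
        module
      have h9 : ‖(1 - t) • (q - x) + t • (p - x)‖ ≤ r / 2 := by
        refine (norm_add_le _ _).trans ?_
        rw [norm_smul, norm_smul, Real.norm_of_nonneg ht.1, Real.norm_of_nonneg (sub_nonneg.2 ht.2)]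
        have b1 := mem_ball_iff_norm.1 hq
        have b2 : ‖p - x‖ < r / 2 := by rwa [dist_comm, dist_eq_norm] at hp
        nlinarith [ht.1, ht.2, mul_le_mul_of_nonneg_left b1.le (sub_nonneg.2 ht.2),
          mul_le_mul_of_nonneg_left b2.le ht.1]
      rw [mem_ball_iff_norm, h8]
      have := norm_add_le (y + t • (q - p) - q) ((1 - t) • (q - x) + t • (p - x))
      linarith)
    refine le_of_eq (Eq.trans ?_ h4)
    rw [← integral_indicator hm]
    refine integral_congr_ae (Eventually.of_forall fun y => ?_)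
    by_cases hy : y ∈ Ω
    · simp only [indicator_of_mem hy, Pi.one_apply, one_mul]
      rw [dive_smul_const (h3.differentiable one_ne_zero y), transA_shift hζ1]
    · simp [hy]
  have e : ∀ y, Ω.indicator (1 : E n → ℝ) y * (ζ (y + (q - p)) - ζ y) = ζ (y + (q - p)) := by
    intro y
    by_cases hy : y ∈ Ω
    · have : ζ y = 0 := image_eq_zero_of_notMem_tsupport fun h =>
        h1 (ball_subset_ball a1 (hs h)) hy
      simp [hy, this]
    · have : ζ (y + (q - p)) = 0 := image_eq_zero_of_notMem_tsupport fun h => by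
        refine hy (h2 (ball_subset_ball a2 ?_))
        have := mem_ball_iff_norm.1 (hs h)
        rw [mem_ball_iff_norm]
        convert this using 2
        abel
      simp [hy, this]
  simp only [e] at key
  rw [integral_add_right_eq_self ζ] at key
  have hpos := hζ.continuous.integral_pos_of_hasCompactSupport_nonneg_nonzero (μ := volume) hc
    (fun y => (hb y).1) (x := q) (by rw [hone q (mem_closedBall_self (by positivity))]; simp)
  exact absurd key (not_le.2 hpos)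

/-- The boundary lies in every closed set that carries the measure. -/
theorem rigB_front (Φ : Frame n) {Ω : Set (E n)} (hΩ : Dom Ω) {W : Vf n} (hG : Φ.GG Ω W)
    {C : Set (E n)} (hC : IsClosed C) (h : ∀ᵐ z ∂W.V, z.1 ∈ C) : frontier Ω ⊆ C := by
  intro x hx
  by_contra hxC
  obtain ⟨Z, hZ, hs, hne⟩ := hΩ.exists_field hx (hC.isOpen_compl.mem_nhds hxC)
  have h1 := hG _ (Φ.contDiff_coord hZ)
  simp only [Φ.dv_coord] at h1
  refine hne (h1.trans ?_)
  refine (integral_congr_ae ?_).trans (integral_zero _ _)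
  filter_upwards [h] with z hz
  have : Z z.1 = 0 := image_eq_zero_of_notMem_tsupport fun h' => hs h' hz
  simp [this]

theorem rigB_crit (Γ : Geo n b) {o x : E n} (hx : 0 < Γ.σ o x) : fderiv ℝ (Γ.σ o) x ≠ 0 := by
  intro h
  have h1 : Γ.gr (Γ.σ o) x = 0 := Γ.gr_ext fun ξ => by simp [h]
  have h2 := Γ.grad o x
  rw [h1, norm_zero] at h2
  nlinarith [sq_nonneg (b * Γ.σ o x)]

theorem rigB_sub (Γ : Geo (k + 1) b) {Ω : Set (E (k + 1))} (hΩ : Dom Ω)
    {W : Vf (k + 1)} (hG : Γ.GG Ω W) {o : E (k + 1)} {s : ℝ} (hs : 0 < s)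
    (hR : ∀ᵐ z ∂W.V, Γ.σ o z.1 = s) : Ω ⊆ {x | Γ.σ o x < s} := by
  have hle : ∀ p ∈ Ω, Γ.σ o p ≤ s := by
    intro p hp
    by_contra hlt
    obtain ⟨χ, L, hχ, -, h0, h1, hb, hd, -⟩ := exists_cut (not_le.1 hlt)
    have hy : ContDiff ℝ 1 fun x => χ (Γ.σ o x) • Γ.gr (Γ.σ o) x :=
      ((hχ.comp (Γ.sm o)).smul (Γ.gr_sm o)).of_le (by simp)
    have hdv : ∀ x, χ (Γ.σ o x) * Γ.m x ≤ Γ.dv (fun x => χ (Γ.σ o x) • Γ.gr (Γ.σ o) x) x := by
      intro x
      have d1 : DifferentiableAt ℝ (Γ.gr (Γ.σ o)) x := (Γ.gr_sm o).differentiable (by simp) x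
      have d2 : DifferentiableAt ℝ (fun x => χ (Γ.σ o x)) x :=
        (hχ.comp (Γ.sm o)).differentiable (by simp) x
      rw [Γ.dv_smul d2 d1, Γ.dv_eq d1,
        Γ.gr_comp (hχ.differentiable (by simp) _).hasDerivAt (Γ.diff o x), inner_smul_left,
        real_inner_self_eq_norm_sq]
      have l1 := Γ.lap_lower o x
      have l2 : 1 ≤ tr (Γ.B (Γ.gr (Γ.σ o)) x) := by
        refine le_trans ?_ l1
        have := Γ.nonneg o x
        have l3 : (1 : ℝ) ≤ ((k + 1 : ℕ) : ℝ) := by exact_mod_cast Nat.succ_le_succ k.zero_le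
        have l4 : 1 ≤ 1 + b ^ 2 * Γ.σ o x := le_add_of_nonneg_right (by positivity)
        nlinarith
      have m0 := Γ.m_pos x
      have c0 := (hb (Γ.σ o x)).1
      have c1 := (hd (Γ.σ o x)).1
      have l5 : 0 ≤ Γ.m x * (deriv χ (Γ.σ o x) * ‖Γ.gr (Γ.σ o) x‖ ^ 2) := by positivity
      have l6 : χ (Γ.σ o x) * Γ.m x * 1 ≤ χ (Γ.σ o x) * Γ.m x * tr (Γ.B (Γ.gr (Γ.σ o)) x) :=
        mul_le_mul_of_nonneg_left l2 (by positivity)
      simp only [RCLike.conj_to_real]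
      linarith
    have hnn : ∀ x, 0 ≤ Γ.dv (fun x => χ (Γ.σ o x) • Γ.gr (Γ.σ o) x) x := fun x =>
      le_trans (mul_nonneg (hb _).1 (Γ.m_pos x).le) (hdv x)
    have hz : ∫ x in Ω, Γ.dv (fun x => χ (Γ.σ o x) • Γ.gr (Γ.σ o) x) x = 0 := by
      rw [hG _ hy]
      refine (integral_congr_ae ?_).trans (integral_zero _ _)
      filter_upwards [hR] with z hz
      simp [h0 _ hz.le]
    have hc := Γ.cont_dv hy
    rw [integral_eq_zero_iff_of_nonneg hnn
      (BM.integrableOn ⟨hΩ.isOpen.measurableSet, hΩ.bdd⟩ hc)] at hz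
    have h2 := Measure.eqOn_open_of_ae_eq hz hΩ.isOpen hc.continuousOn continuousOn_const hp
    have h3 := hdv p
    rw [h2, h1 _ le_rfl, one_mul] at h3
    exact absurd h3 (not_le.2 (Γ.m_pos p))
  intro p hp
  refine lt_of_le_of_ne (hle p hp) fun he => rigB_crit Γ (o := o) (x := p) (he ▸ hs) ?_
  refine IsLocalMax.fderiv_eq_zero ?_
  filter_upwards [hΩ.isOpen.mem_nhds hp] with y hy
  exact (hle y hy).trans he.ge

theorem Geo.rig_ball (Γ : Geo (k + 1) b) {Ω : Set (E (k + 1))} (hΩ : Dom Ω) (hne : Ω.Nonempty)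
    {W : Vf (k + 1)} (hG : Γ.GG Ω W) {o : E (k + 1)} {s : ℝ} (hs : 0 < s) (hR : Γ.Round W o s) :
    Ω = {x | Γ.σ o x < s} ∧ ∀ x, Γ.σ o x < s → ∀ ξ,
      ‖fderiv ℝ (Γ.Xi o) x (Γ.F x ξ)‖ ^ 2 =
        ‖ξ‖ ^ 2 + b ^ 2 * inner ℝ (Γ.gr (Γ.σ o) x) ξ ^ 2 := by
  have hsub := rigB_sub Γ hΩ hG hs (hR.mono fun z hz => hz.1)
  obtain ⟨η, hη⟩ : ∃ η : E (k + 1) → E (k + 1) → E (k + 1), η = fun ξ x =>
      ‖Γ.gr (Γ.σ o) x‖ ^ 2 • ξ - inner ℝ (Γ.gr (Γ.σ o) x) ξ • Γ.gr (Γ.σ o) x := ⟨_, rfl⟩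
  have hg : Continuous (Γ.gr (Γ.σ o)) := (Γ.gr_sm o).continuous
  have hηc : ∀ ξ, Continuous (η ξ) := fun ξ => by
    rw [hη]
    exact ((hg.norm.pow 2).smul continuous_const).sub
      ((hg.inner (𝕜 := ℝ) continuous_const).smul hg)
  have hC : IsClosed ({x | Γ.σ o x = s} ∩
      ⋂ ξ, {x | ‖fderiv ℝ (Γ.Xi o) x (Γ.F x (η ξ x))‖ = ‖η ξ x‖}) := by
    refine (isClosed_eq (Γ.sm o).continuous continuous_const).inter
      (isClosed_iInter fun ξ => isClosed_eq ?_ (hηc ξ).norm)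
    exact (((Γ.Xi_sm o).continuous_fderiv (by simp)).clm_apply
      (Γ.sF.continuous.clm_apply (hηc ξ))).norm
  have hF := rigB_front Γ.toFrame hΩ hG hC (hR.mono fun z hz => ⟨hz.1, mem_iInter.2 fun ξ =>
    hz.2.2 _ (by
      rw [hη]
      simp only [inner_sub_right, inner_smul_right, real_inner_self_eq_norm_sq]
      ring)⟩)
  have hfr : ∀ x ∈ closure Ω, x ∉ Ω → x ∈ frontier Ω := fun x h1 h2 => by
    rw [hΩ.isOpen.frontier_eq]
    exact ⟨h1, h2⟩
  have heq : Ω = {x | Γ.σ o x < s} := by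
    refine hsub.antisymm ((Γ.conn o s).subset_of_closure_inter_subset hΩ.isOpen ?_ ?_)
    · obtain ⟨p, hp⟩ := hne
      exact ⟨p, hsub hp, hp⟩
    · rintro x ⟨h1, h2⟩
      by_contra h3
      exact absurd (hF (hfr x h1 h3)).1 (ne_of_lt h2)
  refine ⟨heq, Γ.rigid o s hs fun x hx ξ hξ => ?_⟩
  have hx0 : 0 < Γ.σ o x := hx ▸ hs
  have hcl : x ∈ closure Ω := by
    by_contra h
    refine rigB_crit Γ hx0 (IsLocalMin.fderiv_eq_zero ?_)
    filter_upwards [isClosed_closure.isOpen_compl.mem_nhds h] with y hy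
    by_contra h'
    refine hy (subset_closure ?_)
    rw [heq]
    exact (not_le.1 h').trans_eq hx
  have hxΩ : x ∉ Ω := fun h => absurd hx (ne_of_lt (hsub h))
  have h1 := mem_iInter.1 (hF (hfr x hcl hxΩ)).2 ξ
  have hpos : 0 < ‖Γ.gr (Γ.σ o) x‖ ^ 2 := by
    rw [Γ.grad]
    positivity
  rw [hη] at h1
  simp only [mem_ofPred_eq, hξ, zero_smul, sub_zero, map_smul, norm_smul] at h1
  exact mul_left_cancel₀ (norm_ne_zero_iff.2 hpos.ne') h1


end Vale.Agent.P219
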