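import Vale.Agent.P219.LDefs
import Vale.Agent.P219.RigB

/-!
The domain is a model ball through a boundary point.
-/

open scoped ContDiff Topology ENNReal
open MeasureTheory Set Filter Metric

noncomputable section

namespace Vale.Agent.P219

variable {n k : ℕ} {b : ℝ}

/-- The quadratic part of the equation of the ellipsoid. -/
def offbQ (b h : ℝ) (ν ξ : E n) : ℝ := h ^ 2 * ‖ξ‖ ^ 2 - b ^ 2 * inner ℝ ξ ν ^ 2

/-- The equation of the ellipsoid. -/
def offbP (b h : ℝ) (ν ξ : E n) : ℝ := offbQ b h ν ξ - 2 * h * inner ℝ ξ ν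

theorem offb_sq_le {ν : E n} (hν : ‖ν‖ = 1) (ξ : E n) : inner ℝ ξ ν ^ 2 ≤ ‖ξ‖ ^ 2 := by
  have := abs_real_inner_le_norm ξ ν
  rw [hν, mul_one] at this
  exact sq_le_sq.2 (by rwa [abs_norm])

theorem offb_Q_ge {h : ℝ} {ν : E n} (hν : ‖ν‖ = 1) (ξ : E n) :
    (h ^ 2 - b ^ 2) * ‖ξ‖ ^ 2 ≤ offbQ b h ν ξ := by
  have := mul_le_mul_of_nonneg_left (offb_sq_le hν ξ) (sq_nonneg b)
  unfold offbQ
  linarith

theorem offb_smul (b h t : ℝ) (ν ξ : E n) :
    offbP b h ν (t • ξ) = t * (t * offbQ b h ν ξ - 2 * h * inner ℝ ξ ν) := by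
  simp only [offbP, offbQ, norm_smul, real_inner_smul_left, mul_pow, Real.norm_eq_abs, sq_abs]
  ring

theorem offb_convex {h : ℝ} (hb : 0 ≤ b) (hh : b < h) {ν : E n} (hν : ‖ν‖ = 1) :
    Convex ℝ {ξ : E n | offbP b h ν ξ < 0} := by
  intro ξ hξ η hη s t hs ht hst
  have h1 : 0 ≤ offbQ b h ν (ξ - η) :=
    le_trans (mul_nonneg (by nlinarith) (sq_nonneg _)) (offb_Q_ge hν _)
  have h2 : offbP b h ν (s • ξ + t • η) =
      s * offbP b h ν ξ + t * offbP b h ν η - s * t * offbQ b h ν (ξ - η) := by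
    obtain rfl : t = 1 - s := by linarith
    simp only [offbP, offbQ, norm_add_sq_real, norm_sub_sq_real, norm_smul, inner_add_left,
      inner_sub_left, real_inner_smul_left, real_inner_smul_right, mul_pow, Real.norm_eq_abs,
      sq_abs]
    ring
  simp only [mem_ofPred_eq] at hξ hη ⊢
  rw [h2]
  have h3 := mul_nonneg (mul_nonneg hs ht) h1
  rcases hs.eq_or_lt with rfl | hs'
  · rw [zero_add] at hst
    subst hst
    linarith
  · have h4 := mul_neg_of_pos_of_neg hs' hξ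
    have h5 := mul_nonpos_of_nonneg_of_nonpos ht hη.le
    linarith

theorem offb_core {h : ℝ} (hb : 0 ≤ b) (hh : b < h) {ν : E n} (hν : ‖ν‖ = 1) {U : Set (E n)}
    (hU : IsOpen U) (hbd : Bornology.IsBounded U) (hne : U.Nonempty)
    (hF : ∀ ξ ∈ closure U, ξ ∉ U → offbP b h ν ξ = 0) : U = {ξ | offbP b h ν ξ < 0} := by
  have hhb : 0 < h ^ 2 - b ^ 2 := by nlinarith
  have h0 : 0 < h := hb.trans_lt hh
  have hQ : ∀ ξ, 0 ≤ offbQ b h ν ξ := fun ξ =>
    le_trans (mul_nonneg hhb.le (sq_nonneg _)) (offb_Q_ge hν _)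
  have s1 : ∀ ξ ∈ U, offbP b h ν ξ ≤ 0 := by
    intro ξ hξ
    by_contra hpos
    rw [not_le] at hpos
    have hξ0 : 0 < ‖ξ‖ := by
      refine norm_pos_iff.2 fun h1 => ?_
      simp [h1, offbP, offbQ] at hpos
    have hR : IsPreconnected ((fun t : ℝ => t • ξ) '' Ici 1) :=
      isPreconnected_Ici.image _ (continuous_id.smul continuous_const).continuousOn
    have hsub := hR.subset_of_closure_inter_subset hU ⟨ξ, ⟨1, self_mem_Ici, one_smul _ _⟩, hξ⟩ (by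
      rintro _ ⟨h1, t, ht, rfl⟩
      by_contra h2
      have h3 := hF _ h1 h2
      have ht' : (1 : ℝ) ≤ t := ht
      rw [offb_smul] at h3
      have h4 := mul_le_mul_of_nonneg_right ht' (hQ ξ)
      unfold offbP at hpos
      have h5 : 0 < t * (t * offbQ b h ν ξ - 2 * h * inner ℝ ξ ν) :=
        mul_pos (by linarith) (by linarith)
      exact h5.ne' h3)
    obtain ⟨R, hR⟩ := hbd.exists_norm_le
    have h1 : 0 ≤ R := (norm_nonneg _).trans (hR ξ hξ)
    have h2 := hR _ (hsub ⟨R / ‖ξ‖ + 1, by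
      change (1 : ℝ) ≤ _
      have := div_nonneg h1 hξ0.le
      linarith, rfl⟩)
    rw [norm_smul, Real.norm_eq_abs, abs_of_pos (by positivity), add_mul,
      div_mul_cancel₀ _ hξ0.ne'] at h2
    linarith
  have s2 : U ⊆ {ξ | offbP b h ν ξ < 0} := by
    intro ξ hξ
    refine lt_of_le_of_ne (s1 ξ hξ) fun he => ?_
    rcases eq_or_ne ξ 0 with rfl | hξ0
    · have h1 : Tendsto (fun t : ℝ => t • ν) (𝓝[<] 0) (𝓝 ((0 : ℝ) • ν)) :=
        ((continuous_id.smul continuous_const).tendsto 0).mono_left nhdsWithin_le_nhds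
      rw [zero_smul] at h1
      obtain ⟨t, h2, h3⟩ := ((h1.eventually (hU.mem_nhds hξ)).and self_mem_nhdsWithin).exists
      have h4 := s1 _ h2
      have h5 : t < 0 := h3
      rw [offb_smul, real_inner_self_eq_norm_sq, hν] at h4
      have h6 := mul_nonpos_of_nonpos_of_nonneg h5.le (hQ ν)
      exact absurd (mul_pos_of_neg_of_neg h5 (by linarith)) (not_lt.2 h4)
    · have h1 : Tendsto (fun t : ℝ => t • ξ) (𝓝[>] 1) (𝓝 ((1 : ℝ) • ξ)) :=
        ((continuous_id.smul continuous_const).tendsto 1).mono_left nhdsWithin_le_nhds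
      rw [one_smul] at h1
      obtain ⟨t, h2, h3⟩ := ((h1.eventually (hU.mem_nhds hξ)).and self_mem_nhdsWithin).exists
      have h4 := s1 _ h2
      have h5 : 1 < t := h3
      have h6 : 0 < offbQ b h ν ξ :=
        (mul_pos hhb (pow_pos (norm_pos_iff.2 hξ0) 2)).trans_le (offb_Q_ge hν ξ)
      rw [offb_smul] at h4
      unfold offbP at he
      have h7 := mul_lt_mul_of_pos_right h5 h6
      exact absurd (mul_pos (by linarith) (by linarith)) (not_lt.2 h4)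
  refine s2.antisymm ((offb_convex hb hh hν).isPreconnected.subset_of_closure_inter_subset hU ?_ ?_)
  · obtain ⟨p, hp⟩ := hne
    exact ⟨p, s2 hp, hp⟩
  · rintro ξ ⟨h1, h2⟩
    by_contra h3
    exact absurd (hF ξ h1 h3) (ne_of_lt h2)

theorem Geo.offb_homeo (Γ : Geo n b) (y : E n) : ∃ e : E n ≃ₜ E n, ∀ x, e x = Γ.Xi y x := by
  have hc : Continuous (Γ.Xi y) := (Γ.Xi_sm y).continuous
  have hp : IsProperMap (Γ.Xi y) := by
    refine isProperMap_iff_isCompact_preimage.2 ⟨hc, fun K hK => ?_⟩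
    obtain ⟨R, hR⟩ := hK.isBounded.exists_norm_le
    refine (Γ.isCompact_le y (R ^ 2)).of_isClosed_subset (hK.isClosed.preimage hc) fun x hx => ?_
    have h1 := pow_le_pow_left₀ (norm_nonneg _) (hR _ hx) 2
    rw [Γ.norm_Xi] at h1
    have h2 := Γ.nonneg y x
    have h3 : 0 ≤ b ^ 2 * Γ.σ y x ^ 2 := by positivity
    change Γ.σ y x ≤ R ^ 2
    linarith
  exact ⟨(Equiv.ofBijective (Γ.Xi y) (Γ.bij y)).toHomeomorphOfContinuousClosed hc hp.isClosedMap,
    fun x => rfl⟩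

theorem Geo.offb_factor (Γ : Geo n b) {h : ℝ} (hh : b < h) {ν : E n} (hν : ‖ν‖ = 1) (y x : E n) :
    ∃ w > 0, offbP b h ν (Γ.Xi y x) = (h * Γ.σ y x - inner ℝ (Γ.Xi y x) ν) * w := by
  have hb := Γ.b0
  have h0 : 0 < h := hb.trans_lt hh
  have hs := Γ.nonneg y x
  have h1 : offbP b h ν (Γ.Xi y x) = (h * Γ.σ y x - inner ℝ (Γ.Xi y x) ν) *
      (2 * h + b ^ 2 * (h * Γ.σ y x + inner ℝ (Γ.Xi y x) ν)) := by
    rw [offbP, offbQ, Γ.norm_Xi]
    ring
  refine ⟨_, ?_, h1⟩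
  rcases le_or_gt 0 (inner ℝ (Γ.Xi y x) ν) with h2 | h2
  · positivity
  · have h3 : 0 ≤ offbQ b h ν (Γ.Xi y x) :=
      le_trans (mul_nonneg (by nlinarith) (sq_nonneg _)) (offb_Q_ge hν _)
    have h4 : 0 < offbP b h ν (Γ.Xi y x) := by
      have := mul_neg_of_pos_of_neg h0 h2
      unfold offbP
      linarith
    rw [h1] at h4
    have h5 := mul_nonneg h0.le hs
    exact (pos_iff_pos_of_mul_pos h4).1 (by linarith)

theorem Geo.offb_mem (Γ : Geo n b) {Ω : Set (E n)} (hΩ : Dom Ω) (hne : Ω.Nonempty) {W : Vf n}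
    (hG : Γ.GG Ω W) {h : ℝ} (hh : b < h) {y ν : E n} (hT : Γ.Two W h y ν) (x : E n) :
    x ∈ Ω ↔ offbP b h ν (Γ.Xi y x) < 0 := by
  obtain ⟨e, he⟩ := Γ.offb_homeo y
  have hC : IsClosed {x | inner ℝ (Γ.Xi y x) ν = h * Γ.σ y x} :=
    isClosed_eq ((Γ.Xi_sm y).continuous.inner (𝕜 := ℝ) continuous_const)
      (continuous_const.mul (Γ.sm y).continuous)
  have hF := rigB_front Γ.toFrame hΩ hG hC hT.2
  have key := offb_core Γ.b0 hh hT.1 (U := e '' Ω) (e.isOpenMap _ hΩ.isOpen)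
    ((hΩ.bdd.isCompact_closure.image e.continuous).isBounded.subset
      (image_mono subset_closure)) (hne.image _) (by
      intro ξ h1 h2
      rw [← e.image_closure] at h1
      obtain ⟨p, hp, rfl⟩ := h1
      have h3 : p ∈ frontier Ω := by
        rw [hΩ.isOpen.frontier_eq]
        exact ⟨hp, fun h4 => h2 ⟨p, h4, rfl⟩⟩
      obtain ⟨w, -, h4⟩ := Γ.offb_factor hh hT.1 y p
      have h5 : inner ℝ (Γ.Xi y p) ν = h * Γ.σ y p := hF h3
      rw [he, h4, h5, sub_self, zero_mul])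
  rw [← he, ← e.injective.mem_set_image, key]
  rfl

theorem Geo.off_ball (Γ : Geo n b) {Ω : Set (E n)} (hΩ : Dom Ω) (hne : Ω.Nonempty) {W : Vf n}
    (hG : Γ.GG Ω W) {h : ℝ} (hh : b < h) {y ν : E n} (hT : Γ.Two W h y ν) :
    Ω = Γ.offBall h y ν := by
  ext x
  obtain ⟨w, hw, h1⟩ := Γ.offb_factor hh hT.1 y x
  rw [Γ.offb_mem hΩ hne hG hh hT, h1]
  change _ ↔ h * Γ.σ y x < inner ℝ (Γ.Xi y x) ν
  exact ⟨fun h2 => sub_neg.1 (neg_of_mul_neg_left h2 hw.le), fun h2 =>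
    mul_neg_of_neg_of_pos (sub_neg.2 h2) hw⟩

theorem Geo.off_req (Γ : Geo n b) (hR : Γ.Rig) {Ω : Set (E n)} (hΩ : Dom Ω) (hne : Ω.Nonempty)
    {W : Vf n} (hG : Γ.GG Ω W) {h : ℝ} (hh : b < h) {y ν : E n} (hT : Γ.Two W h y ν)
    (hH : ∀ᵐ z ∂W.V, Γ.HEq y z.1) : ∀ x ∈ Ω, Γ.REq y x := by
  intro x hx
  obtain ⟨e, he⟩ := Γ.offb_homeo y
  have hmem := Γ.offb_mem hΩ hne hG hh hT
  have hb := Γ.b0
  have hC : IsClosed {x | Γ.HEq y x} := by
    simp only [HEq, ofPred_forall]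
    refine isClosed_iInter fun ξ => isClosed_eq ?_ ?_
    · exact ((Γ.cont_B ((Γ.gr_sm y).of_le (by simp))).clm_apply continuous_const).inner (𝕜 := ℝ)
        continuous_const
    · exact (continuous_const.add (continuous_const.mul (Γ.sm y).continuous)).mul continuous_const
  have hF := rigB_front Γ.toFrame hΩ hG hC hH
  have h1 := (hmem x).1 hx
  obtain ⟨ξ, hξ⟩ : ∃ ξ, ξ = Γ.Xi y x := ⟨_, rfl⟩
  rw [← hξ] at h1
  have hξ0 : ξ ≠ 0 := fun h2 => by simp [h2, offbP, offbQ] at h1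
  have hQ : 0 < offbQ b h ν ξ :=
    (mul_pos (by nlinarith) (pow_pos (norm_pos_iff.2 hξ0) 2)).trans_le (offb_Q_ge hT.1 ξ)
  obtain ⟨t₀, ht₀⟩ : ∃ t₀, t₀ = 2 * h * inner ℝ ξ ν / offbQ b h ν ξ := ⟨_, rfl⟩
  have h2 : t₀ * offbQ b h ν ξ = 2 * h * inner ℝ ξ ν := by rw [ht₀, div_mul_cancel₀ _ hQ.ne']
  have h3 : 1 < t₀ := by
    rw [ht₀, one_lt_div hQ]
    unfold offbP at h1
    linarith
  have h4 : ∀ t : ℝ, Γ.Xi y (e.symm (t • ξ)) = t • ξ := fun t => by rw [← he, e.apply_symm_apply]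
  have h5 : e.symm (t₀ • ξ) ∈ frontier Ω := by
    rw [hΩ.isOpen.frontier_eq]
    constructor
    · have h6 : Tendsto (fun t : ℝ => e.symm (t • ξ)) (𝓝[<] t₀) (𝓝 (e.symm (t₀ • ξ))) :=
        ((e.symm.continuous.comp (continuous_id.smul continuous_const)).tendsto t₀).mono_left
          nhdsWithin_le_nhds
      refine mem_closure_of_tendsto h6 ?_
      filter_upwards [Ioo_mem_nhdsLT (one_pos.trans h3)] with t ht
      rw [hmem, h4, offb_smul, ← h2]
      exact mul_neg_of_pos_of_neg ht.1 (sub_neg.2 (mul_lt_mul_of_pos_right ht.2 hQ))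
    · rw [hmem, h4, offb_smul, h2, sub_self, mul_zero]
      exact lt_irrefl _
  refine hR y _ (hF h5) x t₀⁻¹ (by positivity) (inv_le_one_of_one_le₀ h3.le) ?_
  rw [h4, smul_smul, inv_mul_cancel₀ (by positivity), one_smul, hξ]


end Vale.Agent.P219
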