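import Vale.Agent.P219.Ge1

/-!
The isometry onto the model ball.
-/

open scoped ContDiff Topology ENNReal
open MeasureTheory Set Filter Metric

noncomputable section

namespace Vale.Agent.P219

variable {n k : ℕ} {b : ℝ}

theorem rigm_pos (b : ℝ) {t : ℝ} (ht : 0 ≤ t) : 0 < 1 + b ^ 2 * t / 2 := by positivity

theorem rigm_lt (b : ℝ) {t u : ℝ} (ht : 0 ≤ t) (hu : 0 ≤ u) :
    2 * t / (1 + b ^ 2 * t / 2) < 2 * u / (1 + b ^ 2 * u / 2) ↔ t < u := by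
  rw [div_lt_div_iff₀ (rigm_pos b ht) (rigm_pos b hu)]
  constructor <;> intro h <;> nlinarith

theorem rigm_eq (b : ℝ) {t u : ℝ} (ht : 0 ≤ t) (hu : 0 ≤ u)
    (h : 2 * t / (1 + b ^ 2 * t / 2) = 2 * u / (1 + b ^ 2 * u / 2)) : t = u := by
  rcases lt_trichotomy t u with h1 | h1 | h1
  · exact absurd h ((rigm_lt b ht hu).2 h1).ne
  · exact h1
  · exact absurd h ((rigm_lt b hu ht).2 h1).ne'

/-- The map onto the model. -/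
def Geo.rigT (Γ : Geo n b) (o x : E n) : E n := (1 + b ^ 2 * Γ.σ o x / 2)⁻¹ • Γ.Xi o x

theorem Geo.rigm_norm (Γ : Geo n b) (o x : E n) :
    ‖Γ.rigT o x‖ ^ 2 = 2 * Γ.σ o x / (1 + b ^ 2 * Γ.σ o x / 2) := by
  have hw := rigm_pos b (Γ.nonneg o x)
  rw [Geo.rigT, norm_smul, mul_pow, Γ.norm_Xi, Real.norm_eq_abs, sq_abs]
  field_simp

theorem Geo.rigm_sm (Γ : Geo n b) (o : E n) : ContDiff ℝ ∞ (Γ.rigT o) := by
  have h1 : ContDiff ℝ ∞ fun x => 1 + b ^ 2 * Γ.σ o x / 2 :=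
    contDiff_const.add ((contDiff_const.mul (Γ.sm o)).div_const 2)
  exact (h1.inv fun x => (rigm_pos b (Γ.nonneg o x)).ne').smul (Γ.Xi_sm o)

theorem Geo.rigm_fderiv (Γ : Geo n b) (o x v : E n) :
    fderiv ℝ (Γ.rigT o) x v = (1 + b ^ 2 * Γ.σ o x / 2)⁻¹ • fderiv ℝ (Γ.Xi o) x v +
      (-(b ^ 2 / 2 * fderiv ℝ (Γ.σ o) x v) / (1 + b ^ 2 * Γ.σ o x / 2) ^ 2) • Γ.Xi o x := by
  have hw := rigm_pos b (Γ.nonneg o x)
  have h0 : HasDerivAt (fun t : ℝ => 1 + b ^ 2 * t / 2) (b ^ 2 * 1 / 2) (Γ.σ o x) :=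
    (((hasDerivAt_id' (Γ.σ o x)).const_mul (b ^ 2)).div_const 2).const_add 1
  have h1 := (h0.fun_inv hw.ne').comp_hasFDerivAt x (Γ.diff o x).hasFDerivAt
  have h2 : HasFDerivAt (Γ.Xi o) (fderiv ℝ (Γ.Xi o) x) x :=
    (((Γ.Xi_sm o).differentiable (by simp)) x).hasFDerivAt
  have h3 := (h1.smul h2).fderiv
  have h4 : Γ.rigT o = ((fun t : ℝ => (1 + b ^ 2 * t / 2)⁻¹) ∘ Γ.σ o) • Γ.Xi o := rfl
  rw [h4, h3]
  simp only [add_apply, smul_apply,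
    ContinuousLinearMap.smulRight_apply, Function.comp_apply, smul_eq_mul]
  congr 2
  ring

theorem Geo.rigm_sq (Γ : Geo n b) (o x v : E n) :
    ‖fderiv ℝ (Γ.rigT o) x v‖ ^ 2 = (‖fderiv ℝ (Γ.Xi o) x v‖ ^ 2 -
      b ^ 2 * fderiv ℝ (Γ.σ o) x v ^ 2) / (1 + b ^ 2 * Γ.σ o x / 2) ^ 2 := by
  have hw : 2 + b ^ 2 * Γ.σ o x ≠ 0 := by
    have := Γ.nonneg o x
    positivity
  rw [Γ.rigm_fderiv, norm_add_sq_real, norm_smul, norm_smul, mul_pow, mul_pow, Γ.norm_Xi,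
    Real.norm_eq_abs, Real.norm_eq_abs, sq_abs, sq_abs, real_inner_smul_left,
    real_inner_smul_right, real_inner_comm, Γ.inner_Xi]
  field_simp
  ring

theorem Geo.rig_map (Γ : Geo n b) {o : E n} {s : ℝ} (hs : 0 < s)
    (h : ∀ x, Γ.σ o x < s → ∀ ξ, ‖fderiv ℝ (Γ.Xi o) x (Γ.F x ξ)‖ ^ 2 =
      ‖ξ‖ ^ 2 + b ^ 2 * inner ℝ (Γ.gr (Γ.σ o) x) ξ ^ 2) :
    ∃ (ρ : ℝ) (T : E n → E n), 0 < ρ ∧ 0 < 4 - b ^ 2 * ρ ^ 2 ∧ ContDiff ℝ ∞ T ∧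
      BijOn T {x | Γ.σ o x < s} (ball 0 ρ) ∧ ∀ x, Γ.σ o x < s → ∀ v,
        ‖Γ.Fi x v‖ = ‖fderiv ℝ T x v‖ / (1 - b ^ 2 * ‖T x‖ ^ 2 / 4) := by
  have hws := rigm_pos b hs.le
  have hq : 0 < 2 * s / (1 + b ^ 2 * s / 2) := by positivity
  have hρ := Real.sqrt_pos.2 hq
  have hρ2 := Real.sq_sqrt hq.le
  have h4 : 0 < 4 - b ^ 2 * √(2 * s / (1 + b ^ 2 * s / 2)) ^ 2 := by
    have : 4 - b ^ 2 * (2 * s / (1 + b ^ 2 * s / 2)) = 4 / (1 + b ^ 2 * s / 2) := by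
      field_simp
      ring
    rw [hρ2, this]
    positivity
  refine ⟨√(2 * s / (1 + b ^ 2 * s / 2)), Γ.rigT o, hρ, h4, Γ.rigm_sm o, ⟨?_, ?_, ?_⟩, ?_⟩
  · intro x hx
    rw [mem_ball_zero_iff]
    refine Real.lt_sqrt_of_sq_lt ?_
    rw [Γ.rigm_norm]
    exact (rigm_lt b (Γ.nonneg o x) hs.le).2 hx
  · intro x _ y _ hxy
    have h1 : Γ.σ o x = Γ.σ o y := rigm_eq b (Γ.nonneg o x) (Γ.nonneg o y) (by
      rw [← Γ.rigm_norm, ← Γ.rigm_norm, hxy])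
    rw [Geo.rigT, Geo.rigT, h1] at hxy
    exact (Γ.bij o).1 (smul_right_injective _
      (inv_ne_zero (rigm_pos b (Γ.nonneg o y)).ne') hxy)
  · intro p hp
    rw [mem_ball_zero_iff] at hp
    have hp2 : ‖p‖ ^ 2 < 2 * s / (1 + b ^ 2 * s / 2) := by
      rw [← hρ2]
      exact pow_lt_pow_left₀ hp (norm_nonneg p) two_ne_zero
    have hd : 0 < 2 - b ^ 2 * ‖p‖ ^ 2 / 2 := by
      rw [hρ2] at h4
      have := mul_le_mul_of_nonneg_left hp2.le (sq_nonneg b)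
      linarith
    obtain ⟨t, ht⟩ : ∃ t, t = ‖p‖ ^ 2 / (2 - b ^ 2 * ‖p‖ ^ 2 / 2) := ⟨_, rfl⟩
    have ht0 : 0 ≤ t := ht ▸ div_nonneg (sq_nonneg _) hd.le
    have hwt := rigm_pos b ht0
    have ht1 : t * (2 - b ^ 2 * ‖p‖ ^ 2 / 2) = ‖p‖ ^ 2 := by
      rw [ht, div_mul_cancel₀ _ hd.ne']
    have ht2 : ‖p‖ ^ 2 = 2 * t / (1 + b ^ 2 * t / 2) := by
      rw [eq_div_iff hwt.ne']
      linarith
    obtain ⟨x, hx⟩ := (Γ.bij o).2 ((1 + b ^ 2 * t / 2) • p)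
    have hx' : Γ.Xi o x = (1 + b ^ 2 * t / 2) • p := hx
    have h1 := Γ.norm_Xi o x
    rw [hx', norm_smul, mul_pow, Real.norm_eq_abs, sq_abs, ht2] at h1
    have h2 : (1 + b ^ 2 * t / 2) ^ 2 * (2 * t / (1 + b ^ 2 * t / 2)) = 2 * t + b ^ 2 * t ^ 2 := by
      field_simp
    have h3 : (Γ.σ o x - t) * (2 + b ^ 2 * (Γ.σ o x + t)) = 0 := by
      rw [h2] at h1
      linear_combination -h1
    have h5 : 0 < 2 + b ^ 2 * (Γ.σ o x + t) := by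
      have := Γ.nonneg o x
      positivity
    have h6 : Γ.σ o x = t := sub_eq_zero.1 ((mul_eq_zero.1 h3).resolve_right h5.ne')
    refine ⟨x, ?_, ?_⟩
    · show Γ.σ o x < s
      rw [h6, ← rigm_lt b ht0 hs.le, ← ht2]
      exact hp2
    · rw [Geo.rigT, hx', h6, smul_smul, inv_mul_cancel₀ hwt.ne', one_smul]
  · intro x hx v
    have hw := rigm_pos b (Γ.nonneg o x)
    have hw' : 2 + b ^ 2 * Γ.σ o x ≠ 0 := by
      have := Γ.nonneg o x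
      positivity
    have h1 := h x hx (Γ.Fi x v)
    rw [Γ.toFrame.inner_gr, Γ.right] at h1
    have h2 := Γ.rigm_sq o x v
    rw [h1, add_sub_cancel_right, ← div_pow] at h2
    have h3 := (pow_left_inj₀ (norm_nonneg _) (div_nonneg (norm_nonneg _) hw.le) two_ne_zero).1 h2
    have h5 : 1 - b ^ 2 * (2 * Γ.σ o x / (1 + b ^ 2 * Γ.σ o x / 2)) / 4 =
        1 / (1 + b ^ 2 * Γ.σ o x / 2) := by
      field_simp
      ring
    rw [h3, Γ.rigm_norm, h5]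
    field_simp

end Vale.Agent.P219
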