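import Vale.Agent.P219.LDefs
import Vale.Agent.P219.RigM

/-!
The isometry of a model ball through the base point onto a centred ball.
-/

open scoped ContDiff Topology ENNReal
open MeasureTheory Set Filter Metric

noncomputable section

namespace Vale.Agent.P219

variable {n k : ℕ} {b : ℝ}

theorem offm_uniq {s t : ℝ} (hs : 0 ≤ s) (ht : 0 ≤ t)
    (h : 2 * s + b ^ 2 * s ^ 2 = 2 * t + b ^ 2 * t ^ 2) : s = t := by
  have h3 : (s - t) * (2 + b ^ 2 * (s + t)) = 0 := by linear_combination h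
  have h5 : 0 < 2 + b ^ 2 * (s + t) := by positivity
  exact sub_eq_zero.1 ((mul_eq_zero.1 h3).resolve_right h5.ne')

section Gen
variable {X : E n → E n} {s : E n → ℝ}

theorem offm_inner (hX : ContDiff ℝ ∞ X) (hs : ContDiff ℝ ∞ s)
    (hn : ∀ x, ‖X x‖ ^ 2 = 2 * s x + b ^ 2 * s x ^ 2) (x v : E n) :
    inner ℝ (X x) (fderiv ℝ X x v) = (1 + b ^ 2 * s x) * fderiv ℝ s x v := by
  have h1 := (hX.differentiable (by simp) x).hasFDerivAt.norm_sq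
  have h2 := (hs.differentiable (by simp) x).hasFDerivAt
  have h3 : HasFDerivAt (fun y => 2 * s y + b ^ 2 * s y ^ 2) _ x :=
    (h2.const_mul 2).add ((h2.pow 2).const_mul (b ^ 2))
  simp only [hn] at h1
  have h4 := DFunLike.congr_fun (h1.unique h3) v
  simp at h4
  linarith

theorem offm_fderiv (hX : ContDiff ℝ ∞ X) (hs : ContDiff ℝ ∞ s) (h0 : ∀ x, 0 ≤ s x) (x v : E n) :
    fderiv ℝ (fun x => (1 + b ^ 2 * s x / 2)⁻¹ • X x) x v =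
      (1 + b ^ 2 * s x / 2)⁻¹ • fderiv ℝ X x v +
      (-(b ^ 2 / 2 * fderiv ℝ s x v) / (1 + b ^ 2 * s x / 2) ^ 2) • X x := by
  have hw := rigm_pos b (h0 x)
  have h0 : HasDerivAt (fun t : ℝ => 1 + b ^ 2 * t / 2) (b ^ 2 * 1 / 2) (s x) :=
    (((hasDerivAt_id' (s x)).const_mul (b ^ 2)).div_const 2).const_add 1
  have h1 := (h0.fun_inv hw.ne').comp_hasFDerivAt x (hs.differentiable (by simp) x).hasFDerivAt
  have h2 : HasFDerivAt X (fderiv ℝ X x) x := (hX.differentiable (by simp) x).hasFDerivAt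
  have h3 := (h1.smul h2).fderiv
  have h4 : (fun x => (1 + b ^ 2 * s x / 2)⁻¹ • X x) =
    ((fun t : ℝ => (1 + b ^ 2 * t / 2)⁻¹) ∘ s) • X := rfl
  rw [h4, h3]
  simp only [add_apply, smul_apply,
    ContinuousLinearMap.smulRight_apply, Function.comp_apply, smul_eq_mul]
  congr 2
  ring

theorem offm_model (Φ : Frame n) (hX : ContDiff ℝ ∞ X) (hs : ContDiff ℝ ∞ s)
    (hb : Function.Bijective X) (h0 : ∀ x, 0 ≤ s x)
    (hn : ∀ x, ‖X x‖ ^ 2 = 2 * s x + b ^ 2 * s x ^ 2) {s0 : ℝ} (hs0 : 0 < s0)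
    (h : ∀ x, s x < s0 → ∀ v, ‖fderiv ℝ X x v‖ ^ 2 - b ^ 2 * fderiv ℝ s x v ^ 2 = ‖Φ.Fi x v‖ ^ 2) :
    Φ.Model b {x | s x < s0} := by
  have hws := rigm_pos b hs0.le
  have hq : 0 < 2 * s0 / (1 + b ^ 2 * s0 / 2) := by positivity
  have hρ := Real.sqrt_pos.2 hq
  have hρ2 := Real.sq_sqrt hq.le
  have h4 : 0 < 4 - b ^ 2 * √(2 * s0 / (1 + b ^ 2 * s0 / 2)) ^ 2 := by
    have : 4 - b ^ 2 * (2 * s0 / (1 + b ^ 2 * s0 / 2)) = 4 / (1 + b ^ 2 * s0 / 2) := by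
      field_simp
      ring
    rw [hρ2, this]
    positivity
  have hT : ∀ x, ‖(1 + b ^ 2 * s x / 2)⁻¹ • X x‖ ^ 2 = 2 * s x / (1 + b ^ 2 * s x / 2) := fun x => by
    have hw := rigm_pos b (h0 x)
    rw [norm_smul, mul_pow, hn, Real.norm_eq_abs, sq_abs]
    field_simp
  have hsm : ContDiff ℝ ∞ fun x => (1 + b ^ 2 * s x / 2)⁻¹ • X x :=
    ((contDiff_const.add ((contDiff_const.mul hs).div_const 2)).inv
      fun x => (rigm_pos b (h0 x)).ne').smul hX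
  refine ⟨√(2 * s0 / (1 + b ^ 2 * s0 / 2)), fun x => (1 + b ^ 2 * s x / 2)⁻¹ • X x, hρ, h4, hsm,
    ⟨?_, ?_, ?_⟩, ?_⟩
  · intro x hx
    rw [mem_ball_zero_iff]
    refine Real.lt_sqrt_of_sq_lt ?_
    rw [hT]
    exact (rigm_lt b (h0 x) hs0.le).2 hx
  · intro x _ y _ hxy
    have hxy' : (1 + b ^ 2 * s x / 2)⁻¹ • X x = (1 + b ^ 2 * s y / 2)⁻¹ • X y := hxy
    have h1 : s x = s y := rigm_eq b (h0 x) (h0 y) (by rw [← hT, ← hT, hxy'])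
    rw [h1] at hxy'
    exact hb.1 (smul_right_injective _ (inv_ne_zero (rigm_pos b (h0 y)).ne') hxy')
  · intro p hp
    rw [mem_ball_zero_iff] at hp
    have hp2 : ‖p‖ ^ 2 < 2 * s0 / (1 + b ^ 2 * s0 / 2) := by
      rw [← hρ2]
      exact pow_lt_pow_left₀ hp (norm_nonneg p) two_ne_zero
    have hd : 0 < 2 - b ^ 2 * ‖p‖ ^ 2 / 2 := by
      rw [hρ2] at h4
      have := mul_le_mul_of_nonneg_left hp2.le (sq_nonneg b)
      linarith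
    obtain ⟨t, ht⟩ : ∃ t, t = ‖p‖ ^ 2 / (2 - b ^ 2 * ‖p‖ ^ 2 / 2) := ⟨_, rfl⟩
    have ht0 : 0 ≤ t := ht ▸ div_nonneg (sq_nonneg _) hd.le
    have hwt := rigm_pos b ht0
    have ht1 : t * (2 - b ^ 2 * ‖p‖ ^ 2 / 2) = ‖p‖ ^ 2 := by
      rw [ht, div_mul_cancel₀ _ hd.ne']
    have ht2 : ‖p‖ ^ 2 = 2 * t / (1 + b ^ 2 * t / 2) := by
      rw [eq_div_iff hwt.ne']
      linarith
    obtain ⟨x, hx⟩ := hb.2 ((1 + b ^ 2 * t / 2) • p)
    have h1 := hn x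
    rw [hx, norm_smul, mul_pow, Real.norm_eq_abs, sq_abs, ht2] at h1
    have h2 : (1 + b ^ 2 * t / 2) ^ 2 * (2 * t / (1 + b ^ 2 * t / 2)) = 2 * t + b ^ 2 * t ^ 2 := by
      field_simp
    have h6 : s x = t := offm_uniq (h0 x) ht0 (h1.symm.trans h2)
    refine ⟨x, ?_, ?_⟩
    · show s x < s0
      rw [h6, ← rigm_lt b ht0 hs0.le, ← ht2]
      exact hp2
    · show (1 + b ^ 2 * s x / 2)⁻¹ • X x = p
      rw [hx, h6, smul_smul, inv_mul_cancel₀ hwt.ne', one_smul]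
  · intro x hx v
    have hw := rigm_pos b (h0 x)
    have hw' : 2 + b ^ 2 * s x ≠ 0 := by
      have := h0 x
      positivity
    have h2 : ‖fderiv ℝ (fun x => (1 + b ^ 2 * s x / 2)⁻¹ • X x) x v‖ ^ 2 =
        (‖fderiv ℝ X x v‖ ^ 2 - b ^ 2 * fderiv ℝ s x v ^ 2) / (1 + b ^ 2 * s x / 2) ^ 2 := by
      rw [offm_fderiv hX hs h0, norm_add_sq_real, norm_smul, norm_smul, mul_pow, mul_pow, hn,
        Real.norm_eq_abs, Real.norm_eq_abs, sq_abs, sq_abs, real_inner_smul_left,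
        real_inner_smul_right, real_inner_comm, offm_inner hX hs hn]
      field_simp
      ring
    rw [h x hx v, ← div_pow] at h2
    have h3 := (pow_left_inj₀ (norm_nonneg _) (div_nonneg (norm_nonneg _) hw.le) two_ne_zero).1 h2
    have h5 : 1 - b ^ 2 * (2 * s x / (1 + b ^ 2 * s x / 2)) / 4 = 1 / (1 + b ^ 2 * s x / 2) := by
      field_simp
      ring
    rw [h3, hT, h5]
    field_simp

end Gen

/-- The first component of the boost. -/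
def offX (b s0 : ℝ) (c ξ : E n) (s : ℝ) : E n :=
  ξ + (b ^ 2 * inner ℝ c ξ / (2 + b ^ 2 * s0) - (1 + b ^ 2 * s)) • c

/-- The second component of the boost. -/
def offS (b s0 : ℝ) (c ξ : E n) (s : ℝ) : ℝ := s0 + (1 + b ^ 2 * s0) * s - inner ℝ c ξ

section Boost
variable {s0 s : ℝ} {c ξ : E n}

theorem offm_sq (c ξ : E n) (μ : ℝ) :
    ‖ξ + μ • c‖ ^ 2 = ‖ξ‖ ^ 2 + 2 * μ * inner ℝ c ξ + μ ^ 2 * ‖c‖ ^ 2 := by
  rw [norm_add_sq_real, real_inner_smul_right, norm_smul, mul_pow, Real.norm_eq_abs, sq_abs,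
    real_inner_comm]
  ring

theorem offm_norm (h0 : 0 ≤ s0) (hc : ‖c‖ ^ 2 = 2 * s0 + b ^ 2 * s0 ^ 2)
    (hξ : ‖ξ‖ ^ 2 = 2 * s + b ^ 2 * s ^ 2) :
    ‖offX b s0 c ξ s‖ ^ 2 = 2 * offS b s0 c ξ s + b ^ 2 * offS b s0 c ξ s ^ 2 := by
  have hw : 2 + b ^ 2 * s0 ≠ 0 := by positivity
  rw [offX, offS, offm_sq, hc, hξ]
  field_simp
  ring

theorem offm_nonneg (h0 : 0 ≤ s0) (hc : ‖c‖ ^ 2 = 2 * s0 + b ^ 2 * s0 ^ 2) (hs : 0 ≤ s)
    (hξ : ‖ξ‖ ^ 2 = 2 * s + b ^ 2 * s ^ 2) : 0 ≤ offS b s0 c ξ s := by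
  have h1 := offm_norm h0 hc hξ
  have h2 : inner ℝ c ξ ^ 2 ≤ ‖c‖ ^ 2 * ‖ξ‖ ^ 2 := by
    rw [← mul_pow, ← sq_abs]
    exact pow_le_pow_left₀ (abs_nonneg _) (abs_real_inner_le_norm c ξ) 2
  rw [hc, hξ] at h2
  have h3 : (b ^ 2 * inner ℝ c ξ) ^ 2 ≤ ((1 + b ^ 2 * s0) * (1 + b ^ 2 * s)) ^ 2 := by
    have h4 := mul_le_mul_of_nonneg_left h2 (sq_nonneg (b ^ 2))
    have h5 : 0 ≤ b ^ 2 * (2 * s0 + b ^ 2 * s0 ^ 2) + b ^ 2 * (2 * s + b ^ 2 * s ^ 2) := by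
      positivity
    linarith
  have h4 := (abs_le_of_sq_le_sq' h3 (by positivity)).2
  have h5 : 0 < 2 + b ^ 2 * offS b s0 c ξ s := by
    rw [offS]
    linarith
  have h6 : 0 ≤ offS b s0 c ξ s * (2 + b ^ 2 * offS b s0 c ξ s) := by
    linarith [sq_nonneg ‖offX b s0 c ξ s‖]
  exact nonneg_of_mul_nonneg_left h6 h5

theorem offm_inv (h0 : 0 ≤ s0) (hc : ‖c‖ ^ 2 = 2 * s0 + b ^ 2 * s0 ^ 2) (ξ : E n) (s : ℝ) :
    offX b s0 (-c) (offX b s0 c ξ s) (offS b s0 c ξ s) = ξ := by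
  have hw : 2 + b ^ 2 * s0 ≠ 0 := by positivity
  rw [offX, smul_neg, ← neg_smul, offX, add_assoc, ← add_smul, inner_neg_left, inner_add_right,
    real_inner_smul_right, real_inner_self_eq_norm_sq, hc, offS, add_eq_left]
  refine smul_eq_zero_of_left ?_ _
  field_simp
  ring

theorem offm_lin (h0 : 0 ≤ s0) (hc : ‖c‖ ^ 2 = 2 * s0 + b ^ 2 * s0 ^ 2) (u : E n) (t : ℝ) :
    ‖u + (b ^ 2 * inner ℝ c u / (2 + b ^ 2 * s0) - b ^ 2 * t) • c‖ ^ 2 -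
      b ^ 2 * ((1 + b ^ 2 * s0) * t - inner ℝ c u) ^ 2 = ‖u‖ ^ 2 - b ^ 2 * t ^ 2 := by
  have hw : 2 + b ^ 2 * s0 ≠ 0 := by positivity
  rw [offm_sq, hc]
  field_simp
  ring

end Boost

theorem Geo.offm_boost (Γ : Geo n b) {s0 : ℝ} (h0 : 0 < s0) {y c : E n}
    (hc : ‖c‖ ^ 2 = 2 * s0 + b ^ 2 * s0 ^ 2)
    (hR : ∀ x, offS b s0 c (Γ.Xi y x) (Γ.σ y x) < s0 → Γ.REq y x) :
    Γ.Model b {x | offS b s0 c (Γ.Xi y x) (Γ.σ y x) < s0} := by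
  have hc' : ‖-c‖ ^ 2 = 2 * s0 + b ^ 2 * s0 ^ 2 := by rw [norm_neg, hc]
  have hi : ContDiff ℝ ∞ fun x => inner ℝ c (Γ.Xi y x) := contDiff_const.inner ℝ (Γ.Xi_sm y)
  have hn := fun x => offm_norm h0.le hc (Γ.norm_Xi y x)
  have hp := fun x => offm_nonneg h0.le hc (Γ.nonneg y x) (Γ.norm_Xi y x)
  refine offm_model (X := fun x => offX b s0 c (Γ.Xi y x) (Γ.σ y x))
    (s := fun x => offS b s0 c (Γ.Xi y x) (Γ.σ y x)) Γ.toFrame
    ((Γ.Xi_sm y).add ((((contDiff_const.mul hi).div_const _).sub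
      (contDiff_const.add (contDiff_const.mul (Γ.sm y)))).smul contDiff_const))
    ((contDiff_const.add (contDiff_const.mul (Γ.sm y))).sub hi) ⟨fun x x' hx => ?_, fun p => ?_⟩
    hp hn h0 fun x hx v => ?_
  · have hx' : offX b s0 c (Γ.Xi y x) (Γ.σ y x) = offX b s0 c (Γ.Xi y x') (Γ.σ y x') := hx
    have h1 := offm_uniq (hp x) (hp x') (by rw [← hn, ← hn, hx'])
    refine (Γ.bij y).1 (show Γ.Xi y x = Γ.Xi y x' from ?_)
    rw [← offm_inv h0.le hc (Γ.Xi y x) (Γ.σ y x), hx', h1, offm_inv h0.le hc]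
  · obtain ⟨x1, h1⟩ := (Γ.bij y).2 p
    have h1 : Γ.Xi y x1 = p := h1
    obtain ⟨x, h2⟩ := (Γ.bij y).2 (offX b s0 (-c) (Γ.Xi y x1) (Γ.σ y x1))
    have h2 : Γ.Xi y x = offX b s0 (-c) (Γ.Xi y x1) (Γ.σ y x1) := h2
    have h3 : Γ.σ y x = offS b s0 (-c) (Γ.Xi y x1) (Γ.σ y x1) :=
      offm_uniq (Γ.nonneg y x) (offm_nonneg h0.le hc' (Γ.nonneg y x1) (Γ.norm_Xi y x1))
        (by rw [← Γ.norm_Xi, ← offm_norm h0.le hc' (Γ.norm_Xi y x1), h2])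
    have h4 := offm_inv h0.le hc' (Γ.Xi y x1) (Γ.σ y x1)
    rw [neg_neg, ← h2, ← h3, h1] at h4
    exact ⟨x, h4⟩
  · have d1 : HasFDerivAt (Γ.Xi y) (fderiv ℝ (Γ.Xi y) x) x :=
      ((Γ.Xi_sm y).differentiable (by simp) x).hasFDerivAt
    have d2 := (Γ.diff y x).hasFDerivAt
    have d3 : HasFDerivAt (fun x => inner ℝ c (Γ.Xi y x)) _ x :=
      (innerSL ℝ c).hasFDerivAt.comp x d1
    have d4 : HasFDerivAt (fun x => offX b s0 c (Γ.Xi y x) (Γ.σ y x)) _ x :=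
      d1.add ((((d3.const_mul (b ^ 2)).mul_const (2 + b ^ 2 * s0)⁻¹).sub
        ((d2.const_mul (b ^ 2)).const_add 1)).smul_const c)
    have d5 : HasFDerivAt (fun x => offS b s0 c (Γ.Xi y x) (Γ.σ y x)) _ x :=
      ((d2.const_mul (1 + b ^ 2 * s0)).const_add s0).sub d3
    have h1 := hR x hx (Γ.Fi x v)
    rw [Γ.toFrame.inner_gr, Γ.right] at h1
    have h2 := offm_lin h0.le hc (fderiv ℝ (Γ.Xi y) x v) (fderiv ℝ (Γ.σ y) x v)
    rw [h1, add_sub_cancel_right] at h2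
    rw [d4.fderiv, d5.fderiv, ← h2]
    simp [div_eq_inv_mul]

theorem Geo.off_map (Γ : Geo n b) {h : ℝ} (hh : b < h) {y ν : E n} (hν : ‖ν‖ = 1)
    (hR : ∀ x ∈ Γ.offBall h y ν, Γ.REq y x) : Γ.Model b (Γ.offBall h y ν) := by
  have hb := Γ.b0
  have h1 : 0 < h ^ 2 - b ^ 2 := by nlinarith
  obtain ⟨l, hl, hl2⟩ : ∃ l > (0 : ℝ), l ^ 2 * (h ^ 2 - b ^ 2) = 1 :=
    ⟨(√(h ^ 2 - b ^ 2))⁻¹, inv_pos.2 (Real.sqrt_pos.2 h1), by
      rw [inv_pow, Real.sq_sqrt h1.le, inv_mul_cancel₀ h1.ne']⟩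
  have hg : 0 < 1 + h * l := by
    have := mul_pos (hb.trans_lt hh) hl
    linarith
  have h2 : 1 + b ^ 2 * (l ^ 2 / (1 + h * l)) = h * l := by
    rw [← mul_div_assoc, add_div' _ _ _ hg.ne', div_eq_iff hg.ne']
    linear_combination (-1) * hl2
  have h3 : ‖l • ν‖ ^ 2 = 2 * (l ^ 2 / (1 + h * l)) + b ^ 2 * (l ^ 2 / (1 + h * l)) ^ 2 := by
    rw [norm_smul, hν, mul_one, Real.norm_eq_abs, sq_abs]
    have h4 : l ^ 2 / (1 + h * l) * (1 + h * l) = l ^ 2 := div_mul_cancel₀ _ hg.ne'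
    linear_combination (-1) * h4 - l ^ 2 / (1 + h * l) * h2
  have e : Γ.offBall h y ν = {x | offS b (l ^ 2 / (1 + h * l)) (l • ν) (Γ.Xi y x) (Γ.σ y x) <
      l ^ 2 / (1 + h * l)} := by
    ext x
    rw [Geo.offBall, mem_ofPred_eq, mem_ofPred_eq, offS, h2, real_inner_smul_left, real_inner_comm,
      ← mul_lt_mul_iff_right₀ hl]
    constructor <;> intro h <;> linarith
  rw [e] at hR ⊢
  exact Γ.offm_boost (by positivity) h3 hR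

end Vale.Agent.P219
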