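import Vale.Agent.P219.LDefs
import Vale.Agent.P219.RigC

/-!
The mean curvature inequality for surfaces.
-/

open scoped ContDiff Topology ENNReal
open MeasureTheory Set Filter Metric

noncomputable section

namespace Vale.Agent.P219

variable {n k : ℕ} {b : ℝ}

/-- The null vectors of a nonnegative form are a subspace. -/
theorem wtwo_null (A : Op n) (C : ℝ) (hQ : ∀ ξ, C * ‖ξ‖ ^ 2 ≤ inner ℝ (A ξ) ξ) :
    ∃ N : Submodule ℝ (E n), ∀ ξ, ξ ∈ N ↔ inner ℝ (A ξ) ξ = C * ‖ξ‖ ^ 2 := by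
  have h3 : ∀ v, inner ℝ (A v) v = C * ‖v‖ ^ 2 → ∀ η,
      inner ℝ (A v) η + inner ℝ (A η) v = 2 * C * inner ℝ v η := by
    intro v hv η
    have hq : ∀ t : ℝ, 0 ≤ (inner ℝ (A η) η - C * ‖η‖ ^ 2) * (t * t) +
        (inner ℝ (A v) η + inner ℝ (A η) v - 2 * C * inner ℝ v η) * t + 0 := by
      intro t
      have := hQ (v + t • η)
      rw [map_add, map_smul, norm_add_sq_real, inner_add_left, inner_add_right, inner_add_right,
        real_inner_smul_right, real_inner_smul_right, real_inner_smul_left, real_inner_smul_left,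
        real_inner_smul_right, norm_smul, mul_pow, Real.norm_eq_abs, sq_abs] at this
      nlinarith
    have hd := discrim_le_zero hq
    rw [discrim] at hd
    have : inner ℝ (A v) η + inner ℝ (A η) v - 2 * C * inner ℝ v η = 0 :=
      pow_eq_zero_iff two_ne_zero |>.1 (le_antisymm (by nlinarith) (sq_nonneg _))
    linarith
  refine ⟨⟨⟨⟨{ξ | inner ℝ (A ξ) ξ = C * ‖ξ‖ ^ 2}, fun {u v} hu hv => ?_⟩, ?_⟩,
    fun c v hv => ?_⟩, fun ξ => Iff.rfl⟩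
  · have h1 := h3 u hu v
    simp only [mem_ofPred_eq] at hu hv ⊢
    rw [map_add, norm_add_sq_real, inner_add_left, inner_add_right, inner_add_right]
    linarith
  · simp
  · simp only [mem_ofPred_eq] at hv ⊢
    rw [map_smul, real_inner_smul_left, real_inner_smul_right, hv, norm_smul, mul_pow,
      Real.norm_eq_abs, sq_abs]
    ring

theorem Frame.wtwo_B (Φ : Frame n) {y : E n → E n} {x : E n} (hy : DifferentiableAt ℝ y x) :
    Φ.B y x (y x) = fderiv ℝ y x (Φ.F x (y x)) := by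
  have h1 := ((Φ.sF.differentiable (by simp) x).hasFDerivAt.clm_apply hy.hasFDerivAt).fderiv
  rw [Frame.B, h1]
  simp [Φ.left]

theorem Geo.wtwo_rad (Γ : Geo n b) (o x : E n) :
    inner ℝ (Γ.B (Γ.gr (Γ.σ o)) x (Γ.gr (Γ.σ o) x)) (Γ.gr (Γ.σ o) x) =
      (1 + b ^ 2 * Γ.σ o x) * ‖Γ.gr (Γ.σ o) x‖ ^ 2 := by
  have hd := (Γ.gr_sm o).differentiable (by simp) x
  have h1 := hd.hasFDerivAt.norm_sq
  have h2 := (Γ.diff o x).hasFDerivAt
  have h3 : HasFDerivAt (fun y => 2 * Γ.σ o y + b ^ 2 * Γ.σ o y ^ 2) _ x :=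
    (h2.const_mul 2).add ((h2.pow 2).const_mul (b ^ 2))
  simp only [Γ.grad] at h1
  have h4 := DFunLike.congr_fun (h1.unique h3) (Γ.F x (Γ.gr (Γ.σ o) x))
  have h5 := Γ.inner_gr (Γ.σ o) x (Γ.gr (Γ.σ o) x)
  rw [real_inner_self_eq_norm_sq] at h5
  rw [Γ.wtwo_B hd, real_inner_comm, h5]
  simp at h4
  linarith

theorem Geo.heq_of (Γ : Geo (k + 1) b) {o : E (k + 1)} {z : E (k + 1) × E (k + 1)} (hz : ‖z.2‖ = 1)
    (hH : Γ.Hs o z = k * (1 + b ^ 2 * Γ.σ o z.1)) (hp : Γ.pn o z ≠ 0) : Γ.HEq o z.1 := by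
  obtain ⟨N, hN⟩ := wtwo_null _ _ (Γ.hess o z.1)
  have h1 := sum_prj_sq hz
  rw [Nat.cast_add, Nat.cast_one, add_sub_cancel_right] at h1
  rw [Geo.Hs, Frame.dT, tr_sub_inner hz, ← h1, Finset.sum_mul] at hH
  have h2 : ∀ j, prj z.2 (ev j) ∈ N := fun j => by
    have := (Finset.sum_eq_sum_iff_of_le fun j _ =>
      (mul_comm _ _).trans_le (Γ.hess o z.1 (prj z.2 (ev j)))).1 hH.symm j (Finset.mem_univ j)
    rw [hN, ← this, mul_comm]
  have h3 : ∀ ξ, prj z.2 ξ ∈ N := fun ξ => by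
    have h4 : prj z.2 ξ = ∑ j, ξ j • prj z.2 (ev j) := by
      simp only [prj, smul_sub, Finset.sum_sub_distrib, smul_smul, ← Finset.sum_smul,
        real_inner_comm z.2, ← inner_ev, sum_inner_ev]
      simp only [inner_ev, sum_ev]
    rw [h4]
    exact N.sum_mem fun j _ => N.smul_mem _ (h2 j)
  have h5 : Γ.gr (Γ.σ o) z.1 ∈ N := (hN _).2 (Γ.wtwo_rad o z.1)
  have h6 : z.2 ∈ N := by
    have h7 := N.sub_mem h5 (h3 (Γ.gr (Γ.σ o) z.1))
    rw [prj, sub_sub_cancel] at h7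
    exact (N.smul_mem_iff hp).1 h7
  intro ξ
  have h8 := N.add_mem (h3 ξ) (N.smul_mem (inner ℝ ξ z.2) h6)
  rw [prj, sub_add_cancel] at h8
  exact (hN ξ).1 h8

theorem wtwo_pt {S H p g s D a τ : ℝ} (hD0 : D ≠ 0) (hD : D = τ ^ 2 + 2 * a * s)
    (ha : a = 1 + b ^ 2 * τ ^ 2 / 4) (hS : S = 2 * s + b ^ 2 * s ^ 2 - p ^ 2) :
    (2 * τ / D) ^ 2 + (2 * a * p / D - g) ^ 2 + 2 * a / D * (H - 2 * (1 + b ^ 2 * s)) +
      2 * (g * (2 * a / D * p)) =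
    g ^ 2 - b ^ 2 + (2 * a / D * H + -(4 * a ^ 2 / D ^ 2) * S) := by
  have key : 4 * a ^ 2 * (2 * s + b ^ 2 * s ^ 2) + 4 * τ ^ 2 + b ^ 2 * D ^ 2 -
      4 * a * D * (1 + b ^ 2 * s) = 0 := by
    rw [hD, ha]
    ring
  obtain ⟨I, hI⟩ : ∃ I, I = D⁻¹ := ⟨_, rfl⟩
  have hI1 : D * I = 1 := by rw [hI]; exact mul_inv_cancel₀ hD0
  simp only [div_eq_mul_inv _ D, div_eq_mul_inv _ (D ^ 2), ← inv_pow, ← hI]
  rw [hS]
  linear_combination I ^ 2 * key - (b ^ 2 * (D * I + 1) - 4 * a * I * (1 + b ^ 2 * s)) * hI1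

namespace Geo

variable (Γ : Geo 3 b) {W : Vf 3} {h : ℝ} {γ : E 3 → ℝ}

theorem wtwo_cont (o : E 3) {τ : ℝ} (hτ : 0 < τ) : Continuous fun z : E 3 × E 3 =>
    2 * aa b τ / Γ.D o τ z.1 * (Γ.Hs o z - 2 * (1 + b ^ 2 * Γ.σ o z.1)) :=
  (continuous_const.div ((Γ.D_sm o τ).continuous.comp continuous_fst)
    fun z => (Γ.D_pos o hτ z.1).ne').mul ((Γ.cont_Hs o).sub (continuous_const.mul
      (continuous_const.add (continuous_const.mul ((Γ.sm o).continuous.comp continuous_fst)))))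

theorem wtwo_Hs (o : E 3) {z : E 3 × E 3} (hz : ‖z.2‖ = 1) :
    0 ≤ Γ.Hs o z - 2 * (1 + b ^ 2 * Γ.σ o z.1) := by
  have := Γ.Hs_lower (k := 2) o hz
  rw [Nat.cast_ofNat] at this
  linarith

/-- The basic identity. -/
theorem wtwo_id (hF : Γ.FV W h γ) (o : E 3) {τ : ℝ} (hτ : 0 < τ) :
    ∫ z, Γ.la o τ z.1 ^ 2 ∂W.V + ∫ z, (Γ.P o τ z - γ z.1) ^ 2 ∂W.V +
      ∫ z, 2 * aa b τ / Γ.D o τ z.1 * (Γ.Hs o z - 2 * (1 + b ^ 2 * Γ.σ o z.1)) ∂W.V ≤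
      (h ^ 2 - b ^ 2) * W.mass := by
  have hφ : ContDiff ℝ 1 fun x => 2 * aa b τ / Γ.D o τ x :=
    contDiff_const.div ((Γ.D_sm o τ).of_le (by exact_mod_cast le_top))
      fun x => (Γ.D_pos o hτ x).ne'
  have hgt : ∀ z : E 3 × E 3, Γ.gt (fun x => 2 * aa b τ / Γ.D o τ x) z =
      (-(4 * aa b τ ^ 2 / Γ.D o τ z.1 ^ 2)) • Γ.gt (Γ.σ o) z := fun z => by
    have hD := (Γ.D_pos o hτ z.1).ne'
    have hDd : DifferentiableAt ℝ (Γ.D o τ) z.1 := (Γ.D_sm o τ).differentiable (by simp) z.1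
    have h1 := Γ.gt_comp (φ := fun t : ℝ => 2 * aa b τ * t⁻¹)
      ((hasDerivAt_inv hD).const_mul (2 * aa b τ)) hDd
    simp only [div_eq_mul_inv (2 * aa b τ)]
    rw [h1, Γ.gt_D, smul_smul]
    congr 1
    field_simp
    ring
  have hfv := Γ.fv_σ (k := 2) hF o hφ
  rw [Nat.cast_ofNat] at hfv
  have cγ : Continuous fun z : E 3 × E 3 => γ z.1 := hF.cont.comp continuous_fst
  have cφ : Continuous fun z : E 3 × E 3 => 2 * aa b τ / Γ.D o τ z.1 :=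
    hφ.continuous.comp continuous_fst
  have cl : Continuous fun z : E 3 × E 3 => Γ.la o τ z.1 :=
    (Γ.la_sm o hτ).continuous.comp continuous_fst
  have i2 := W.integrable ((cγ.pow 2).sub (continuous_const (y := b ^ 2)))
  have i3 := W.integrable ((cφ.mul (Γ.cont_Hs o)).add ((Γ.cont_gt hφ).inner (𝕜 := ℝ)
    (Γ.cont_gt ((Γ.sm o).of_le (by exact_mod_cast le_top)))))
  have j2 := W.integrable (cl.pow 2)
  have j3 := W.integrable (((Γ.cont_P o hτ).sub cγ).pow 2)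
  have j4 := W.integrable (Γ.wtwo_cont o hτ)
  have j5 := W.integrable (cγ.mul (cφ.mul (Γ.cont_pn o)))
  have key : ∫ z, (Γ.la o τ z.1 ^ 2 + (Γ.P o τ z - γ z.1) ^ 2 +
        2 * aa b τ / Γ.D o τ z.1 * (Γ.Hs o z - 2 * (1 + b ^ 2 * Γ.σ o z.1)) +
        2 * (γ z.1 * (2 * aa b τ / Γ.D o τ z.1 * Γ.pn o z))) ∂W.V =
      ∫ z, (γ z.1 ^ 2 - b ^ 2 + (2 * aa b τ / Γ.D o τ z.1 * Γ.Hs o z +
        inner ℝ (Γ.gt (fun x => 2 * aa b τ / Γ.D o τ x) z) (Γ.gt (Γ.σ o) z))) ∂W.V := by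
    refine W.integral_congr fun z _ hz => ?_
    rw [hgt, real_inner_smul_left, real_inner_self_eq_norm_sq]
    exact wtwo_pt (Γ.D_pos o hτ z.1).ne' rfl rfl (Γ.norm_gt_σ o hz)
  have h1 : ∫ z, (γ z.1 ^ 2 - b ^ 2) ∂W.V ≤ ∫ _z, (h ^ 2 - b ^ 2) ∂W.V := by
    refine W.integral_mono ((cγ.pow 2).sub continuous_const) continuous_const fun z _ _ => ?_
    have h2 : γ z.1 ^ 2 ≤ h ^ 2 := by
      rw [← sq_abs]
      exact pow_le_pow_left₀ (abs_nonneg _) (hF.bound z.1) 2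
    linarith
  rw [integral_const, smul_eq_mul, mul_comm] at h1
  have a1 := integral_add i2 i3
  have b1 := integral_add ((j2.add j3).add j4) (j5.const_mul (2 : ℝ))
  have b2 := integral_add (j2.add j3) j4
  have b3 := integral_add j2 j3
  simp only [Pi.add_apply, Pi.mul_apply, Pi.sub_apply, Pi.pow_apply, integral_const_mul]
    at a1 b1 b2 b3
  rw [Vf.mass]
  linarith

theorem wtwo_n2 (o : E 3) (τ : ℝ) : 0 ≤ ∫ z, (Γ.P o τ z - γ z.1) ^ 2 ∂W.V :=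
  integral_nonneg fun _ => sq_nonneg _

theorem wtwo_n3 (o : E 3) {τ : ℝ} (hτ : 0 < τ) :
    0 ≤ ∫ z, 2 * aa b τ / Γ.D o τ z.1 * (Γ.Hs o z - 2 * (1 + b ^ 2 * Γ.σ o z.1)) ∂W.V := by
  refine rigC_nonneg W fun z hz => mul_nonneg ?_ (Γ.wtwo_Hs o hz)
  have := Γ.D_pos o hτ z.1
  have := aa_ge b τ
  positivity

/-- The deficits at a point of density at least one. -/
theorem wtwo_small (hF : Γ.FV W h γ) {o : E 3}
    (ho : ∀ η > 0, ∃ᶠ s in 𝓝[>] (0 : ℝ), sph 2 - η ≤ ∫ w, lam (Γ.σ o w.1) s ^ 2 ∂W.V)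
    {η : ℝ} (hη : 0 < η) : ∃ τ, 0 < τ ∧ τ ≤ η ∧
      sph 2 - η + ∫ z, (Γ.P o τ z - γ z.1) ^ 2 ∂W.V +
      ∫ z, 2 * aa b τ / Γ.D o τ z.1 * (Γ.Hs o z - 2 * (1 + b ^ 2 * Γ.σ o z.1)) ∂W.V ≤
      (h ^ 2 - b ^ 2) * W.mass := by
  generalize hM : (h ^ 2 - b ^ 2) * W.mass = M
  have c1 : Continuous fun τ : ℝ => (aa b τ ^ 2 - 1) * M := by
    unfold aa
    fun_prop
  have t1 : ∀ᶠ τ in 𝓝 (0 : ℝ), (aa b τ ^ 2 - 1) * M < η / 2 :=
    (c1.tendsto 0).eventually_lt_const (by simp [aa, hη])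
  have t2 : ∀ᶠ τ in 𝓝[>] (0 : ℝ), τ ∈ Ioc 0 η := Ioc_mem_nhdsGT hη
  obtain ⟨τ, ⟨h1, h2⟩, h3, h4⟩ := (((ho (η / 2) (by positivity)).and_eventually
    (t1.filter_mono nhdsWithin_le_nhds)).and_eventually t2).exists
  refine ⟨τ, h3, h4, ?_⟩
  have h5 := Γ.wtwo_id hF o h3
  have h6 := Γ.wtwo_n2 (W := W) (γ := γ) o τ
  have h7 := Γ.wtwo_n3 (W := W) o h3
  have h8 : ∫ w, lam (Γ.σ o w.1) τ ^ 2 ∂W.V ≤ ∫ w, aa b τ ^ 2 * Γ.la o τ w.1 ^ 2 ∂W.V := by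
    refine W.integral_mono (((Γ.cont_lam o h3).continuous.comp continuous_fst).pow 2)
      (continuous_const.mul (((Γ.la_sm o h3).continuous.comp continuous_fst).pow 2))
      fun z _ _ => ?_
    rw [← mul_pow]
    exact pow_le_pow_left₀ (lam_pos (Γ.nonneg o z.1) h3).le (Γ.lam_le_la o h3 z.1) 2
  rw [integral_const_mul] at h8
  rw [hM] at h5
  have h9 : 0 ≤ aa b τ ^ 2 - 1 := by nlinarith [aa_ge b τ]
  have h10 : (aa b τ ^ 2 - 1) * ∫ w, Γ.la o τ w.1 ^ 2 ∂W.V ≤ (aa b τ ^ 2 - 1) * M :=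
    mul_le_mul_of_nonneg_left (by linarith) h9
  linarith

/-- The equality case at a point of density at least one. -/
theorem wtwo_eq (hF : Γ.FV W h fun _ => h) (he : (h ^ 2 - b ^ 2) * W.mass ≤ sph 2) {o : E 3}
    (ho : ∀ η > 0, ∃ᶠ s in 𝓝[>] (0 : ℝ), sph 2 - η ≤ ∫ w, lam (Γ.σ o w.1) s ^ 2 ∂W.V) :
    ∀ᵐ z ∂W.V, Γ.Hs o z = 2 * (1 + b ^ 2 * Γ.σ o z.1) ∧ Γ.pn o z = h * Γ.σ o z.1 := by
  obtain ⟨S, hS⟩ := W.cpt.bddAbove_image (Γ.sm o).continuous.continuousOn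
  obtain ⟨R, hR⟩ : ∃ R, R = 1 + 2 * (1 + b ^ 2 / 4) * max S 0 := ⟨_, rfl⟩
  have hR1 : 1 ≤ R := by
    have : 0 ≤ 2 * (1 + b ^ 2 / 4) * max S 0 := mul_nonneg (by positivity) (le_max_right _ _)
    linarith
  have cσ : Continuous fun z : E 3 × E 3 => Γ.σ o z.1 := (Γ.sm o).continuous.comp continuous_fst
  have cf : Continuous fun z : E 3 × E 3 => Γ.Hs o z - 2 * (1 + b ^ 2 * Γ.σ o z.1) +
      (Γ.pn o z - h * Γ.σ o z.1) ^ 2 :=
    ((Γ.cont_Hs o).sub (continuous_const.mul (continuous_const.add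
      (continuous_const.mul cσ)))).add (((Γ.cont_pn o).sub (continuous_const.mul cσ)).pow 2)
  have hm : 0 ≤ W.mass := measureReal_nonneg
  have key : ∀ η, 0 < η → η ≤ 1 → ∫ z, (Γ.Hs o z - 2 * (1 + b ^ 2 * Γ.σ o z.1) +
      (Γ.pn o z - h * Γ.σ o z.1) ^ 2) ∂W.V ≤ (R ^ 2 + h ^ 2 * W.mass) * η := by
    intro η hη hη1
    obtain ⟨τ, h0, h1, h2⟩ := Γ.wtwo_small hF ho hη
    have c2 : Continuous fun z => (Γ.P o τ z - h) ^ 2 :=
      ((Γ.cont_P o h0).sub continuous_const).pow 2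
    have c3 := Γ.wtwo_cont o h0
    have h3 := W.integral_mono cf ((continuous_const (y := R ^ 2)).mul (c2.add c3) |>.add
      (continuous_const (y := h ^ 2 * η))) fun z hz hν => by
        have ha := aa_ge b τ
        have ha' := errs_aa (b := b) h0 (h1.trans hη1)
        have hD := Γ.D_pos o h0 z.1
        have hs : Γ.σ o z.1 ≤ max S 0 := (hS (mem_image_of_mem _ hz)).trans (le_max_left _ _)
        have hs0 := Γ.nonneg o z.1
        have hτ2 : τ ^ 2 ≤ τ := by nlinarith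
        have hDR : Γ.D o τ z.1 ≤ R := by
          rw [hR, Geo.D]
          have := mul_le_mul ha' hs hs0 (by positivity)
          linarith
        have hH := Γ.wtwo_Hs o hν
        have e1 : Γ.pn o z - h * Γ.σ o z.1 =
            Γ.D o τ z.1 / (2 * aa b τ) * (Γ.P o τ z - h) + h * (τ ^ 2 / (2 * aa b τ)) := by
          rw [Geo.P]
          have : Γ.D o τ z.1 = τ ^ 2 + 2 * aa b τ * Γ.σ o z.1 := rfl
          field_simp
          rw [this]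
          ring
        have q1 : Γ.D o τ z.1 / (2 * aa b τ) ≤ R / 2 := by
          gcongr
          linarith
        have q2 : τ ^ 2 / (2 * aa b τ) ≤ τ ^ 2 / 2 := by
          gcongr
          linarith
        have q3 : 1 ≤ R ^ 2 * (2 * aa b τ / Γ.D o τ z.1) := by
          rw [← mul_div_assoc, one_le_div hD]
          nlinarith
        have q4 : (Γ.D o τ z.1 / (2 * aa b τ)) ^ 2 ≤ (R / 2) ^ 2 :=
          pow_le_pow_left₀ (by positivity) q1 2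
        have q5 : (τ ^ 2 / (2 * aa b τ)) ^ 2 ≤ η / 2 :=
          (pow_le_pow_left₀ (by positivity) q2 2).trans (by nlinarith)
        simp only [Pi.add_apply, Pi.mul_apply]
        rw [e1]
        generalize Γ.D o τ z.1 / (2 * aa b τ) = u at *
        generalize τ ^ 2 / (2 * aa b τ) = v at *
        generalize 2 * aa b τ / Γ.D o τ z.1 = w at *
        generalize Γ.P o τ z - h = p at *
        generalize Γ.Hs o z - 2 * (1 + b ^ 2 * Γ.σ o z.1) = H at *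
        nlinarith [mul_le_mul_of_nonneg_right q3 hH, mul_le_mul_of_nonneg_right q4 (sq_nonneg p),
          mul_le_mul_of_nonneg_left q5 (sq_nonneg h), sq_nonneg (u * p - h * v),
          mul_nonneg (sq_nonneg R) (sq_nonneg p)]
    have a1 := integral_add ((W.integrable (c2.add c3)).const_mul (R ^ 2))
      (integrable_const (μ := W.V) (h ^ 2 * η))
    have a2 := integral_add (W.integrable c2) (W.integrable c3)
    simp only [Pi.add_apply, Pi.mul_apply, integral_const_mul, integral_const, smul_eq_mul]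
      at a1 a2 h3
    rw [a1, a2] at h3
    have h4 := mul_le_mul_of_nonneg_left (show ∫ z, (Γ.P o τ z - h) ^ 2 ∂W.V +
      ∫ z, 2 * aa b τ / Γ.D o τ z.1 * (Γ.Hs o z - 2 * (1 + b ^ 2 * Γ.σ o z.1)) ∂W.V ≤ η by
        linarith) (sq_nonneg R)
    rw [Vf.mass]
    linarith
  have h0 := rigC_ae W cf (fun z hz => add_nonneg (Γ.wtwo_Hs o hz) (sq_nonneg _)) (by
    have t1 : Tendsto (fun η : ℝ => (R ^ 2 + h ^ 2 * W.mass) * η) (𝓝[>] 0) (𝓝 0) := by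
      have : Continuous fun η : ℝ => (R ^ 2 + h ^ 2 * W.mass) * η := by fun_prop
      simpa using (this.tendsto 0).mono_left nhdsWithin_le_nhds
    refine ge_of_tendsto t1 ?_
    filter_upwards [Ioc_mem_nhdsGT (zero_lt_one' ℝ)] with η hη using key η hη.1 hη.2)
  filter_upwards [h0, W.supp] with z h1 h2
  have h3 := Γ.wtwo_Hs o h2.2
  have h4 := sq_nonneg (Γ.pn o z - h * Γ.σ o z.1)
  refine ⟨by linarith, sub_eq_zero.1 (pow_eq_zero_iff two_ne_zero |>.1 (by linarith))⟩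

end Geo

theorem Geo.amc_two (Γ : Geo 3 b) {W : Vf 3} {h : ℝ} {γ : E 3 → ℝ} (hF : Γ.FV W h γ)
    (hD : Γ.Den W) (hm : 0 < W.mass) : sph 2 ≤ (h ^ 2 - b ^ 2) * W.mass := by
  have hV : W.V ≠ 0 := fun h0 => by simp [Vf.mass, h0] at hm
  have : (ae W.V).NeBot := ae_neBot.2 hV
  obtain ⟨z, hz⟩ := Filter.Eventually.exists hD
  refine le_of_forall_pos_le_add fun η hη => ?_
  obtain ⟨τ, h0, -, h2⟩ := Γ.wtwo_small hF hz hη
  have h6 := Γ.wtwo_n2 (W := W) (γ := γ) z.1 τ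
  have h7 := Γ.wtwo_n3 (W := W) z.1 h0
  linarith

theorem Geo.two_two (Γ : Geo 3 b) {W : Vf 3} {h : ℝ} (hF : Γ.FV W h fun _ => h) (hD : Γ.Den W)
    (hm : 0 < W.mass) (he : (h ^ 2 - b ^ 2) * W.mass ≤ sph 2) (hh : 0 < h) :
    ∃ y ν, Γ.Two W h y ν ∧ ∀ᵐ z ∂W.V, Γ.HEq y z.1 := by
  have hV : W.V ≠ 0 := fun h0 => by simp [Vf.mass, h0] at hm
  have : (ae W.V).NeBot := ae_neBot.2 hV
  have h1 : ∀ᵐ w ∂W.V, ∀ᵐ z ∂W.V, Γ.Hs w.1 z = 2 * (1 + b ^ 2 * Γ.σ w.1 z.1) ∧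
      Γ.pn w.1 z = h * Γ.σ w.1 z.1 := Filter.Eventually.mono hD fun w hw => Γ.wtwo_eq hF he hw
  have h2 : ∀ᵐ w ∂W.V, ∀ᵐ z ∂W.V, Γ.pn w.1 z = h * Γ.σ w.1 z.1 :=
    h1.mono fun w hw => hw.mono fun z hz => hz.2
  have c0 : Continuous fun x : (E 3 × E 3) × E 3 × E 3 => (x.1.1, x.2.1) := by fun_prop
  have c1 : Continuous fun x : (E 3 × E 3) × E 3 × E 3 => Γ.pn x.1.1 x.2 :=
    (Γ.gr_sm₂.continuous.comp c0).inner (𝕜 := ℝ) (continuous_snd.comp continuous_snd)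
  have c2 : Continuous fun x : (E 3 × E 3) × E 3 × E 3 => h * Γ.σ x.1.1 x.2.1 :=
    continuous_const.mul (Γ.cont.comp c0)
  rw [Measure.ae_ae_comm (isClosed_eq c1 c2).measurableSet] at h2
  obtain ⟨y, ⟨y1, y2⟩, y3⟩ := ((h1.and h2).and W.supp).exists
  refine ⟨y.1, y.2, ⟨y3.2, y2.mono fun w hw => ?_⟩, ?_⟩
  · rw [Γ.symm y.1]
    exact hw
  · filter_upwards [y1, W.supp] with z z1 z2
    by_cases hz : y.1 = z.1
    · rw [← hz]
      exact Γ.heq_self _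
    · refine Γ.heq_of (k := 2) z2.2 (by rw [Nat.cast_ofNat]; exact z1.1) ?_
      rw [z1.2]
      exact (mul_pos hh (Γ.pos _ _ hz)).ne'


end Vale.Agent.P219
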