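import Vale.Agent.P219.Iso
import Vale.Agent.P219.WTwo
import Vale.Agent.P219.HelL
import Vale.Agent.P219.HelR
import Vale.Agent.P219.OffB
import Vale.Agent.P219.OffM

/-!
The isoperimetric inequality for the perimeter in all dimensions.
-/

open scoped ContDiff Topology ENNReal
open MeasureTheory Set Filter Metric

noncomputable section

namespace Vale.Agent.P219

variable {n k : ℕ} {b : ℝ}

theorem Geo.liso_fv (Γ : Geo (k + 1) b) (hk1 : 1 ≤ k) {A : Set (E (k + 1))} (hA : BM A)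
    (hP : Γ.per A ≠ ⊤) (h0 : Γ.per A ≠ 0) {g : E (k + 1) → ℝ} (hg : ContDiff ℝ 1 g) {c : ℝ}
    (hc : ∀ x, |g x| ≤ c)
    (hmin : ∀ A', BM A' → Γ.per A' ≠ ⊤ → Wm k b (Γ.per A).toReal - ∫ x in A, g x * Γ.m x ≤
      Wm k b (Γ.per A').toReal - ∫ x in A', g x * Γ.m x) :
    ∃ (W : Vf (k + 1)) (h : ℝ), 0 < h ∧ Γ.GG A W ∧ Γ.Den W ∧ 0 < W.mass ∧
      W.mass = (Γ.per A).toReal ∧
      (h ^ 2 - b ^ 2) * W.mass ^ (2 / k : ℝ) = sph k ^ (2 / k : ℝ) ∧
      Γ.FV W (h * c) fun x => h * g x := by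
  have hk0 : (0 : ℝ) < k := by exact_mod_cast hk1
  have hpos : 0 < (Γ.per A).toReal := ENNReal.toReal_pos h0 hP
  obtain ⟨W, hG, hL, hm, hS⟩ := Γ.exists_vf hA hP
  obtain ⟨h, hh, hd, he⟩ := Wm_deriv hk1 b hpos
  refine ⟨W, h, hh, hG, Γ.den hk1 hA hG hS, hm ▸ hpos, hm, hm ▸ he,
    continuous_const.mul hg.continuous, fun x => ?_, fun y hy => ?_⟩
  · rw [abs_mul, abs_of_pos hh]
    exact mul_le_mul_of_nonneg_left (hc x) hh.le
  · have h1 := Γ.first_variation hA hP hG hL hm hg (Wm_mono hk1 b) hd hmin hy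
    simp only [mul_assoc]
    rw [integral_const_mul, ← h1]
    field_simp

theorem Geo.liso_two (Γ : Geo 3 b) {A : Set (E 3)} (hA : BM A)
    (hP : Γ.per A ≠ ⊤) : ∫ x in A, Γ.m x ≤ Wm 2 b (Γ.per A).toReal := by
  have hk1 : 1 ≤ 2 := by omega
  by_contra hlt
  rw [not_le] at hlt
  have hW0 : 0 ≤ Wm 2 b (Γ.per A).toReal := by
    rw [← Wm_zero hk1 b]
    exact Wm_mono hk1 b (mem_Ici.2 le_rfl) (mem_Ici.2 ENNReal.toReal_nonneg) ENNReal.toReal_nonneg
  have hV : 0 < ∫ x in A, Γ.m x := hW0.trans_lt hlt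
  obtain ⟨c, hc1, hc2⟩ := exists_between ((div_lt_one hV).2 hlt)
  rw [div_lt_iff₀ hV] at hc1
  have hc0 : 0 < c := by
    by_contra h
    nlinarith
  obtain ⟨s, hs⟩ := hA.bdd.isCompact_closure.bddAbove_image (Γ.sm 0).continuous.continuousOn
  have hs' : ∀ x ∈ A, Γ.σ 0 x ≤ |s| := fun x hx =>
    (hs (mem_image_of_mem _ (subset_closure hx))).trans (le_abs_self s)
  obtain ⟨χ, -, hχ, -, hχ0, hχ1, hχ2, -⟩ := exists_cut (lt_add_one |s|)
  set g : E 3 → ℝ := fun x => c * (1 - χ (Γ.σ 0 x)) with hg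
  have hgd : ContDiff ℝ 1 g :=
    contDiff_const.mul (contDiff_const.sub ((hχ.comp (Γ.sm 0)).of_le (by exact_mod_cast le_top)))
  have hgc : ∀ x, |g x| ≤ c := fun x => by
    have := hχ2 (Γ.σ 0 x)
    rw [hg, abs_of_nonneg (mul_nonneg hc0.le (by linarith [this.2]))]
    nlinarith [this.1]
  obtain ⟨B, hB, hBP, hmin⟩ := Γ.exists_min (Wm_cont hk1 b) (Wm_mono hk1 b) (Wm_top hk1 b)
    hgd.continuous 0 (s := |s| + 1) (by positivity) fun x hx => by simp [hg, hχ1 _ hx]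
  have hB0 : Γ.per B ≠ 0 := by
    intro h0
    have h1 := hmin A hA hP
    have h2 : ∫ x in A, g x * Γ.m x = c * ∫ x in A, Γ.m x := by
      rw [← integral_const_mul]
      exact setIntegral_congr_fun hA.meas fun x hx => by simp [hg, hχ0 _ (hs' x hx)]
    rw [h0, ENNReal.toReal_zero, Wm_zero hk1, setIntegral_measure_zero _ (Γ.vol_zero hB h0),
      h2] at h1
    linarith
  obtain ⟨W, h, hh, -, hD, hm, -, he, hF⟩ := Γ.liso_fv hk1 hB hBP hB0 hgd hgc hmin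
  have h1 := Γ.amc_two hF hD hm
  norm_num at he
  rw [← he] at h1
  have h3 := le_of_mul_le_mul_right h1 hm
  have h4 : h * c < h := mul_lt_of_lt_one_right hh hc2
  nlinarith [mul_pos hh hc0]

theorem sph_one : sph 1 = 2 * Real.pi := by
  rw [sph, sph_omega_two]
  norm_num

theorem Wm_one (b P : ℝ) : 4 * Real.pi * Wm 1 b P + b ^ 2 * Wm 1 b P ^ 2 = P ^ 2 := by
  have hd : ∀ u : ℝ, HasDerivAt (fun u => u ^ 2 / (√(1 + b ^ 2 * u ^ 2) + 1))
      (u ^ 1 / √(1 + b ^ 2 * u ^ 2)) u := fun u => by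
    have h1 := scal_sqrt_pos b u
    have h2 : (0 : ℝ) < 1 + b ^ 2 * u ^ 2 := by positivity
    have h3 := Real.sq_sqrt h2.le
    refine ((hasDerivAt_pow 2 u).div
      ((((hasDerivAt_pow 2 u).const_mul (b ^ 2)).const_add 1).sqrt h2.ne' |>.add_const 1)
      (by positivity)).congr_deriv ?_
    generalize √(1 + b ^ 2 * u ^ 2) = r at h1 h3 ⊢
    norm_num
    field_simp
    linear_combination u * h3
  have hi := intervalIntegral.integral_eq_sub_of_hasDerivAt (a := 0) (b := P / sph 1)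
    (fun u _ => hd u) ((scalF_cont 1 b).intervalIntegrable _ _)
  have h1 := scal_sqrt_pos b (P / sph 1)
  have h3 := Real.sq_sqrt (show (0 : ℝ) ≤ 1 + b ^ 2 * (P / sph 1) ^ 2 by positivity)
  rw [Wm, Nat.cast_one, div_one, Real.rpow_one, hi]
  obtain ⟨x, rfl⟩ : ∃ x, P = sph 1 * x := ⟨P / sph 1, by field_simp [(sph_pos 1).ne']⟩
  rw [mul_div_cancel_left₀ _ (sph_pos 1).ne'] at h1 h3 ⊢
  generalize √(1 + b ^ 2 * x ^ 2) = r at h1 h3 ⊢
  rw [sph_one]
  norm_num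
  field_simp
  linear_combination (-2 : ℝ) * x ^ 2 * h3

theorem Geo.liso_one (Γ : Geo 2 b) {A : Set (E 2)} (hA : BM A)
    (hP : Γ.per A ≠ ⊤) : ∫ x in A, Γ.m x ≤ Wm 1 b (Γ.per A).toReal := by
  obtain ⟨W, hG, -, hm, -⟩ := Γ.exists_vf hA hP
  have h1 := Γ.hel_le hA hG
  have h2 := Wm_one b (Γ.per A).toReal
  have h3 : 0 ≤ Wm 1 b (Γ.per A).toReal := by
    rw [← Wm_zero le_rfl b]
    exact Wm_mono le_rfl b (mem_Ici.2 le_rfl) (mem_Ici.2 ENNReal.toReal_nonneg)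
      ENNReal.toReal_nonneg
  rw [hm, ← h2] at h1
  by_contra h
  rw [not_le] at h
  nlinarith [Real.pi_pos, mul_le_mul_of_nonneg_left (pow_le_pow_left₀ h3 h.le 2) (sq_nonneg b)]

theorem Geo.liso (Γ : Geo (k + 1) b) (hk : 1 ≤ k) {A : Set (E (k + 1))} (hA : BM A)
    (hP : Γ.per A ≠ ⊤) : ∫ x in A, Γ.m x ≤ Wm k b (Γ.per A).toReal := by
  obtain rfl | rfl | hk3 : k = 1 ∨ k = 2 ∨ 3 ≤ k := by omega
  · exact Γ.liso_one hA hP
  · exact Γ.liso_two hA hP
  · exact Γ.iso hk3 hA hP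

theorem Frame.ae_closure (Φ : Frame n) {A : Set (E n)} {W : Vf n} (hA : BM A) (hP : Φ.per A ≠ ⊤)
    (hG : Φ.GG A W) (hm : W.mass = (Φ.per A).toReal) : ∀ᵐ z ∂W.V, z.1 ∈ closure A := by
  refine measure_null_of_locally_null _ fun z hz => ?_
  obtain ⟨r, hr, h1⟩ := Metric.mem_nhds_iff.1 (isClosed_closure.isOpen_compl.mem_nhds hz)
  obtain ⟨L, -, hL⟩ := exists_bump (n := n)
  obtain ⟨ζ, hζ, -, hs, hb, h2, -⟩ := hL z.1 r hr
  have hζ1 : ContDiff ℝ 1 ζ := hζ.of_le (by simp)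
  have c1 : Continuous fun w : E n × E n => ζ w.1 := hζ.continuous.comp continuous_fst
  have hW : W.mass = ∫ _w, (1 : ℝ) ∂W.V := by simp [Vf.mass]
  have h3 : Φ.per A ≤ ENNReal.ofReal (W.mass - ∫ w, ζ w.1 ∂W.V) := by
    refine iSup_le fun y => iSup_le fun hy => iSup_le fun hy1 => ENNReal.ofReal_le_ofReal ?_
    have c2 : Continuous fun w : E n × E n => inner ℝ (y w.1) w.2 :=
      (hy.continuous.comp continuous_fst).inner continuous_snd
    have h4 := hG (fun p => (1 - ζ p) • y p) ((contDiff_const.sub hζ1).smul hy)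
    rw [← setIntegral_congr_fun hA.meas (f := Φ.dv y) fun x hx => Φ.dv_congr (by
      filter_upwards [(isClosed_tsupport ζ).isOpen_compl.mem_nhds
        fun h => h1 (hs h) (subset_closure hx)] with p hp
      rw [image_eq_zero_of_notMem_tsupport hp, sub_zero, one_smul])] at h4
    rw [h4, hW, ← integral_sub (integrable_const _) (W.integrable c1)]
    refine W.integral_mono ?_ (continuous_const.sub c1) fun w _ hw => ?_
    · simp only [real_inner_smul_left]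
      exact (continuous_const.sub c1).mul c2
    · rw [real_inner_smul_left]
      refine mul_le_of_le_one_right (sub_nonneg.2 (hb _).2) ((real_inner_le_norm _ _).trans ?_)
      rw [hw, mul_one]
      exact hy1 _
  have h4 : 0 ≤ ∫ w, ζ w.1 ∂W.V := integral_nonneg fun w => (hb _).1
  have h5 : ∫ w, ζ w.1 ∂W.V ≤ W.mass := by
    rw [hW]
    exact W.integral_mono c1 continuous_const fun w _ _ => (hb _).2
  have h6 := ENNReal.toReal_le_of_le_ofReal (sub_nonneg.2 h5) h3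
  have h7 := (integral_eq_zero_iff_of_nonneg (fun w => (hb _).1) (W.integrable c1)).1
    (le_antisymm (by linarith) h4)
  refine ⟨{w | w.1 ∈ ball z.1 (r / 2)}, mem_nhdsWithin_of_mem_nhds
    (continuous_fst.continuousAt (ball_mem_nhds _ (half_pos hr))), measure_mono_null ?_ h7⟩
  intro w hw h
  have := h2 _ (ball_subset_closedBall hw)
  rw [show ζ w.1 = 0 from h] at this
  exact zero_ne_one this

theorem Geo.lmodel (Γ : Geo (k + 1) b) (hk : 1 ≤ k) (hR : Γ.Rig) {Ω : Set (E (k + 1))}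
    (hΩ : Dom Ω) (hne : Ω.Nonempty) (hP : Γ.per Ω ≠ ⊤)
    (he : Wm k b (Γ.per Ω).toReal ≤ ∫ x in Ω, Γ.m x) : Γ.Model b Ω := by
  have hA : BM Ω := ⟨hΩ.isOpen.measurableSet, hΩ.bdd⟩
  have h0 : volume Ω ≠ 0 := (hΩ.isOpen.measure_pos _ hne).ne'
  obtain ⟨W, h, hh, hG, hD, hm, hmP, he', hF⟩ := Γ.liso_fv hk hA hP
    (fun h => h0 (Γ.vol_zero hA h)) (g := fun _ => 1) contDiff_const (c := 1) (fun _ => by simp)
    fun A' hA' hP' => by
      simp only [one_mul]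
      linarith [Γ.liso hk hA' hP']
  simp only [mul_one] at hF
  have hb : b < h := by
    have h1 := Real.rpow_pos_of_pos (sph_pos k) (2 / k : ℝ)
    rw [← he'] at h1
    have h2 := (mul_pos_iff_of_pos_right (Real.rpow_pos_of_pos hm _)).1 h1
    exact lt_of_pow_lt_pow_left₀ 2 hh.le (by linarith)
  obtain rfl | rfl | hk3 : k = 1 ∨ k = 2 ∨ 3 ≤ k := by omega
  · have hV : 0 ≤ Wm 1 b (Γ.per Ω).toReal := by
      rw [← Wm_zero le_rfl b]
      exact Wm_mono le_rfl b (mem_Ici.2 le_rfl) (mem_Ici.2 ENNReal.toReal_nonneg)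
        ENNReal.toReal_nonneg
    obtain ⟨h1, h2⟩ := Γ.hel_eq hA hΩ.isOpen hG (by
      rw [hmP, ← Wm_one b]
      gcongr)
    have h3 := Γ.ae_closure hA hP hG hmP
    have : (ae W.V).NeBot := ae_neBot.2 fun h0 => by simp [Vf.mass, h0] at hm
    obtain ⟨w, ⟨w1, w2⟩, w3⟩ := ((h1.and h3).and W.supp).exists
    have hT := Γ.two_one hG hF hb (y := w.1) w3.2
      ((w1.and h3).mono fun z hz => ⟨hz.1, h2 _ w2 _ hz.2⟩)
    have h4 := Γ.off_ball hΩ hne hG hb hT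
    rw [h4]
    exact Γ.off_map hb w3.2 fun x hx => (Γ.of_Rm (h2 _ w2 _ (subset_closure (h4 ▸ hx)))).1
  · norm_num at he'
    obtain ⟨y, ν, hT, hH⟩ := Γ.two_two hF hD hm he'.le hh
    have h4 := Γ.off_ball hΩ hne hG hb hT
    have h5 := Γ.off_req hR hΩ hne hG hb hT hH
    rw [h4] at h5 ⊢
    exact Γ.off_map hb hT.1 h5
  · obtain ⟨o, s, hs, h1⟩ := Γ.round hk3 hF hD hm he'.le
    obtain ⟨h9, h10⟩ := Γ.rig_ball hΩ hne hG hs h1
    rw [h9]
    exact Γ.rig_map hs h10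

end Vale.Agent.P219
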