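import Vale.Agent.P219.JacODE
import Vale.Agent.P219.Chart0

/-!
Comparison estimates for the exponential map; smoothness of the logarithm.
-/

open scoped ContDiff Topology Manifold Bundle
open Set Filter

set_option maxSynthPendingDepth 3

noncomputable section

namespace Vale.Agent.P219.R

variable {n : ℕ} {b : ℝ}

/-- A smooth map with injective differential and a global right inverse that is also a left
inverse has a smooth inverse. -/
theorem Lg_inv {V : Type*} [NormedAddCommGroup V] [NormedSpace ℝ V] [FiniteDimensional ℝ V]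
    {H K : V → V} (hH : ContDiff ℝ ∞ H) (hi : ∀ p, Function.Injective (fderiv ℝ H p))
    (h1 : ∀ p, K (H p) = p) (h2 : ∀ p, H (K p) = p) : ContDiff ℝ ∞ K := by
  have := FiniteDimensional.complete ℝ V
  refine contDiff_iff_contDiffAt.2 fun y => ?_
  have hd : HasFDerivAt H (((LinearEquiv.ofInjectiveEndo (fderiv ℝ H (K y)).toLinearMap
      (hi (K y))).toContinuousLinearEquiv : V ≃L[ℝ] V) : V →L[ℝ] V) (K y) :=
    (hH.differentiable (by simp) (K y)).hasFDerivAt
  have h3 := hH.contDiffAt.to_localInverse hd (by simp)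
  have h4 := (hH.contDiffAt.hasStrictFDerivAt' hd (by simp)).eventually_right_inverse
  rw [h2] at h3 h4
  refine h3.congr_of_eventuallyEq (h4.mono fun z hz => ?_)
  exact (congrArg K hz).symm.trans (h1 _)

theorem Lg_sn {q : ℝ → ℝ} (hq : MQ b q) (r t : ℝ) :
    sn (b * r) t = 2 * t * deriv q ((r * t) ^ 2) := by
  rcases eq_or_ne r 0 with rfl | hr
  · simp [sn, hq.d0]
    ring
  have h := hq.d1 (r * t)
  refine mul_left_cancel₀ hr ?_
  rw [show r * (2 * t * deriv q ((r * t) ^ 2)) = 2 * (r * t) * deriv q ((r * t) ^ 2) by ring, h]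
  rcases eq_or_ne b 0 with rfl | hb
  · simp [sn]
  · rw [sn, sn, if_neg hb, if_neg (mul_ne_zero hb hr), mul_assoc]
    field_simp

namespace Xd

variable (X : Xd n b) {q : ℝ → ℝ} {o v w : E n}

theorem Lg_nonneg (x u : E n) : 0 ≤ X.G x u u := ip_nonneg (X.pd x) u

theorem Lg_scale (o v w : E n) (t : ℝ) :
    jsq X.G X.ex o v w t = t ^ 2 * jsq X.G X.ex o (t • v) w 1 := by
  simp only [jsq, one_smul, map_smul, smul_apply, smul_eq_mul]
  ring

theorem Lg_zero (o v : E n) : jsq X.G X.ex o v 0 = fun _ => 0 := by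
  funext t
  simp [jsq]

theorem Lg_cmp (hq : MQ b q) (h : X.G o w v = 0) (hw : w ≠ 0) :
    DifferentiableAt ℝ (jsq X.G X.ex o v w) 1 ∧
    X.G o w w * (2 * deriv q (X.G o v v)) ^ 2 ≤ jsq X.G X.ex o v w 1 ∧
    2 * (1 + b ^ 2 * q (X.G o v v)) * jsq X.G X.ex o v w 1 ≤
      2 * deriv q (X.G o v v) * deriv (jsq X.G X.ex o v w) 1 ∧
    (jsq X.G X.ex o v w 1 = X.G o w w * (2 * deriv q (X.G o v v)) ^ 2 → ∀ t ∈ Icc (0 : ℝ) 1,
      jsq X.G X.ex o v w t = X.G o w w * (2 * t * deriv q (t ^ 2 * X.G o v v)) ^ 2) := by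
  obtain ⟨F1, F2, h1, h2, h3, h4⟩ := X.jac o v w h
  obtain ⟨r, hr0, hr⟩ : ∃ r : ℝ, 0 ≤ r ∧ X.G o v v = r ^ 2 :=
    ⟨√(X.G o v v), Real.sqrt_nonneg _, (Real.sq_sqrt (X.Lg_nonneg o v)).symm⟩
  have := jac_cmp (c := b * r) (mul_nonneg X.b0 hr0) ((X.pd o).pos w hw) h1 h2
    (fun t => X.Lg_nonneg _ _) (by simp [jsq]) h3 (fun t => by rw [mul_pow b, ← hr]; exact h4 t)
  simp only [Lg_sn hq, mul_one, hq.cosh, mul_pow r] at this
  rw [(h1 1).deriv, hr]
  refine ⟨(h1 1).differentiableAt, this.1, this.2.1, fun he t ht => ?_⟩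
  rw [this.2.2 he t ht, mul_comm (t ^ 2)]

theorem decomp (o v u : E n) : ∃ (w : E n) (α : ℝ), u = w + α • v ∧ X.G o w v = 0 := by
  rcases eq_or_ne v 0 with rfl | hv
  · exact ⟨u, 0, by simp, by simp⟩
  have h := ((X.pd o).pos v hv).ne'
  refine ⟨u - (X.G o u v / X.G o v v) • v, X.G o u v / X.G o v v, by simp, ?_⟩
  simp only [map_sub, map_smul, sub_apply, smul_apply,
    smul_eq_mul]
  field_simp
  ring

theorem cmp1 (hq : MQ b q) (h : X.G o w v = 0) :
    (2 * deriv q (X.G o v v)) ^ 2 * X.G o w w ≤ jsq X.G X.ex o v w 1 := by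
  rcases eq_or_ne w 0 with rfl | hw
  · simp [X.Lg_zero]
  · exact (mul_comm _ _).trans_le (X.Lg_cmp hq h hw).2.1

theorem cmp2 (hq : MQ b q) (h : X.G o w v = 0) :
    DifferentiableAt ℝ (jsq X.G X.ex o v w) 1 ∧
      2 * (1 + b ^ 2 * q (X.G o v v)) * jsq X.G X.ex o v w 1 ≤
        2 * deriv q (X.G o v v) * deriv (jsq X.G X.ex o v w) 1 := by
  rcases eq_or_ne w 0 with rfl | hw
  · simp [X.Lg_zero]
  · exact ⟨(X.Lg_cmp hq h hw).1, (X.Lg_cmp hq h hw).2.2.1⟩

theorem cmp3 (hq : MQ b q) (h : X.G o w v = 0)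
    (he : jsq X.G X.ex o v w 1 = (2 * deriv q (X.G o v v)) ^ 2 * X.G o w w) {t : ℝ}
    (ht : t ∈ Icc (0 : ℝ) 1) : jsq X.G X.ex o (t • v) w 1 =
      (2 * deriv q (X.G o (t • v) (t • v))) ^ 2 * X.G o w w := by
  rcases eq_or_ne w 0 with rfl | hw
  · simp [X.Lg_zero]
  rcases eq_or_ne t 0 with rfl | h0
  · simp [jsq, X.zero, X.dzero, hq.d0]
  have h1 := (X.Lg_cmp hq h hw).2.2.2 (he.trans (mul_comm _ _)) t ht
  rw [X.Lg_scale] at h1
  have h2 : X.G o (t • v) (t • v) = t ^ 2 * X.G o v v := by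
    simp only [map_smul, smul_apply, smul_eq_mul]
    ring
  refine mul_left_cancel₀ (pow_ne_zero 2 h0) ?_
  rw [h1, h2]
  ring

theorem jsq_add (h : X.G o w v = 0) (α t : ℝ) : jsq X.G X.ex o v (w + α • v) t =
    jsq X.G X.ex o v w t + α ^ 2 * t ^ 2 * X.G o v v := by
  have h1 := X.gauss o (t • v) (t • w)
  have h2 := X.gauss o (t • v) (t • v)
  have h3 := (X.pd (X.ex o (t • v))).symm (fderiv ℝ (X.ex o) (t • v) (t • v))
    (fderiv ℝ (X.ex o) (t • v) (t • w))
  have h4 : X.G o (t • w) (t • v) = 0 := by simp [h]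
  have h5 : X.G o (t • v) (t • v) = t ^ 2 * X.G o v v := by
    simp only [map_smul, smul_apply, smul_eq_mul]
    ring
  rw [jsq, jsq, smul_add, smul_comm t α v]
  generalize t • w = a at *
  generalize t • v = c at *
  simp only [map_add, map_smul, add_apply, smul_apply,
    smul_eq_mul]
  rw [h3, h1, h2, h4, h5]
  ring

theorem dex_bij (o v : E n) : Function.Bijective (fderiv ℝ (X.ex o) v) := by
  have hi : Function.Injective (fderiv ℝ (X.ex o) v) := by
    refine (injective_iff_map_eq_zero _).2 fun u hu => ?_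
    obtain ⟨q, hq⟩ := exists_mq X.b0
    obtain ⟨w, α, rfl, h⟩ := X.decomp o v u
    have h1 := X.jsq_add h α 1
    have h2 := X.cmp1 hq h
    have h3 : jsq X.G X.ex o v (w + α • v) 1 = 0 := by simp [jsq, hu]
    have h4 := hq.pos _ (X.Lg_nonneg o v)
    have h5 := X.Lg_nonneg o w
    have h6 := X.Lg_nonneg o v
    have h7 : 0 ≤ (2 * deriv q (X.G o v v)) ^ 2 * X.G o w w := by positivity
    have h8 : 0 ≤ α ^ 2 * 1 ^ 2 * X.G o v v := by positivity
    have hw : w = 0 := by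
      by_contra hw
      have := (X.pd o).pos w hw
      have : 0 < (2 * deriv q (X.G o v v)) ^ 2 * X.G o w w := by positivity
      linarith
    rw [hw, zero_add, smul_eq_zero]
    by_contra hc
    push Not at hc
    have := (X.pd o).pos v hc.2
    have h9 := hc.1
    have : 0 < α ^ 2 * 1 ^ 2 * X.G o v v := by positivity
    linarith
  exact ⟨hi, (LinearMap.injective_iff_surjective (f := (fderiv ℝ (X.ex o) v).toLinearMap)).1 hi⟩

theorem lg_smooth : ContDiff ℝ ∞ fun p : E n × E n => X.lg p.1 p.2 := by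
  have hH : ContDiff ℝ ∞ fun p : E n × E n => (p.1, X.ex p.1 p.2) := contDiff_fst.prodMk X.sex
  refine (Lg_inv (K := fun p => (p.1, X.lg p.1 p.2)) hH (fun p => ?_)
    (fun p => by simp [X.lg_ex]) fun p => by simp [X.ex_lg]).snd
  refine (injective_iff_map_eq_zero _).2 fun u hu => ?_
  have d1 := (X.sex.differentiable (by simp) p).hasFDerivAt
  rw [(hasFDerivAt_fst.prodMk d1).fderiv] at hu
  have a1 : u.1 = 0 := congrArg Prod.fst hu
  have a2 : fderiv ℝ (fun p : E n × E n => X.ex p.1 p.2) p u = 0 := congrArg Prod.snd hu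
  have d2 : HasFDerivAt (X.ex p.1) _ p.2 :=
    HasFDerivAt.comp (f := fun v => (p.1, v)) p.2 d1 (hasFDerivAt_prodMk_right p.1 p.2)
  have a3 : fderiv ℝ (X.ex p.1) p.2 u.2 = 0 := by
    rw [d2.fderiv, ← a2]
    simp [← a1]
  exact Prod.ext a1 ((injective_iff_map_eq_zero _).1 (X.dex_bij p.1 p.2).1 _ a3)

end Xd


end Vale.Agent.P219.R
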