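import Vale.Agent.P219.Per
import Vale.Agent.P219.MollA

/-!
Strict approximation by smooth functions.
-/

open scoped ContDiff Topology ENNReal
open MeasureTheory Set Filter Metric

noncomputable section

namespace Vale.Agent.P219

variable {n k : ℕ} {b : ℝ}

theorem moll_unif (Φ : Frame n) (R : ℝ) {δ : ℝ} (hδ : 0 < δ) :
    ∃ d > 0, ∀ t : E n, ‖t‖ < d → ∀ p ∈ closedBall (0 : E n) R,
      ‖((Φ.m p)⁻¹ * Φ.m (p + t)) • (Φ.Fi p).comp (Φ.F (p + t))‖ ≤ 1 + δ := by
  have hm : Continuous Φ.m := Φ.m_smooth.continuous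
  have hc : Continuous fun z : E n × E n =>
      ‖((Φ.m z.2)⁻¹ * Φ.m (z.2 + z.1)) • (Φ.Fi z.2).comp (Φ.F (z.2 + z.1))‖ := by
    have c1 : Continuous fun z : E n × E n => (Φ.m z.2)⁻¹ :=
      (hm.comp continuous_snd).inv₀ fun z => (Φ.m_pos _).ne'
    have c2 : Continuous fun z : E n × E n => Φ.m (z.2 + z.1) :=
      hm.comp (continuous_snd.add continuous_fst)
    have c3 : Continuous fun z : E n × E n => Φ.Fi z.2 := Φ.sFi.continuous.comp continuous_snd
    have c4 : Continuous fun z : E n × E n => Φ.F (z.2 + z.1) :=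
      Φ.sF.continuous.comp (continuous_snd.add continuous_fst)
    have c5 : Continuous fun z : E n × E n => (Φ.m z.2)⁻¹ * Φ.m (z.2 + z.1) := c1.mul c2
    have c6 : Continuous fun z : E n × E n => (Φ.Fi z.2).comp (Φ.F (z.2 + z.1)) := c3.clm_comp c4
    exact (c5.smul c6).norm
  have h1 : ∀ᶠ t in 𝓝 (0 : E n), ∀ p ∈ closedBall (0 : E n) R,
      ‖((Φ.m p)⁻¹ * Φ.m (p + t)) • (Φ.Fi p).comp (Φ.F (p + t))‖ ≤ 1 + δ := by
    refine (isCompact_closedBall (0 : E n) R).eventually_forall_of_forall_eventually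
      (P := fun t p => ‖((Φ.m p)⁻¹ * Φ.m (p + t)) • (Φ.Fi p).comp (Φ.F (p + t))‖ ≤ 1 + δ)
      fun p _ => ?_
    have h2 : ‖((Φ.m p)⁻¹ * Φ.m (p + 0)) • (Φ.Fi p).comp (Φ.F (p + 0))‖ < 1 + δ := by
      have e : (Φ.Fi p).comp (Φ.F p) = ContinuousLinearMap.id ℝ (E n) := by
        ext1 v
        exact Φ.left p v
      rw [add_zero, inv_mul_cancel₀ (Φ.m_pos p).ne', one_smul, e]
      have := ContinuousLinearMap.norm_id_le (𝕜 := ℝ) (E := E n)
      linarith
    filter_upwards [(isOpen_lt hc continuous_const).mem_nhds (x := ((0 : E n), p)) h2] with z hz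
    exact le_of_lt hz
  obtain ⟨d, hd, h2⟩ := Metric.eventually_nhds_iff.1 h1
  exact ⟨d, hd, fun t ht => h2 (by simpa using ht)⟩

namespace Frame

variable (Φ : Frame n) {A : Set (E n)} {W : Vf n}

theorem exists_close (hA : BM A) (hP : Φ.per A ≠ ⊤) :
    ∃ R, ∀ ε > 0, ∃ f, Close A R ε f ∧ Φ.tv f ≤ (Φ.per A).toReal + ε := by
  obtain ⟨R₀, hR₀⟩ := hA.bdd.subset_ball (0 : E n)
  set u : E n → ℝ := A.indicator 1 with hu
  have hum : Measurable u := measurable_one.indicator hA.meas
  have hub : ∀ x, |u x| ≤ 1 := fun x => by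
    by_cases hx : x ∈ A <;> simp [hu, hx]
  have hu0 : ∀ p, R₀ ≤ dist p 0 → u p = 0 := fun p hp =>
    indicator_of_notMem (fun hh => absurd (mem_ball.1 (hR₀ hh)) (not_lt.mpr hp)) _
  have hL : Tendsto (fun j => ∫ x, |moll j u x - u x|) atTop (𝓝 0) := by
    have h1 := tendsto_integral_of_dominated_convergence (μ := volume)
      (F := fun j x => |moll j u x - u x|) (f := fun _ => (0 : ℝ))
      ((ball (0 : E n) (R₀ + 1)).indicator fun _ => (2 : ℝ))
      (fun j => (((moll_smooth hum hub j).continuous.measurable.sub hum).abs).aestronglyMeasurable)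
      ((integrable_indicator_iff measurableSet_ball).2 (integrableOn_const measure_ball_lt_top.ne))
      (fun j => Eventually.of_forall fun x => by
        rw [Real.norm_eq_abs, abs_abs]
        by_cases hx : x ∈ ball (0 : E n) (R₀ + 1)
        · rw [indicator_of_mem hx]
          have h2 := moll_abs_le hub j x
          have h3 := hub x
          have h4 := abs_sub (moll j u x) (u x)
          linarith
        · have h2 : R₀ + 1 ≤ dist x 0 := not_lt.mp hx
          rw [indicator_of_notMem hx, moll_zero hu0 j h2, hu0 x (by linarith)]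
          simp)
      (by
        filter_upwards [moll_tendsto hum hub] with x hx
        have := (hx.sub_const (u x)).abs
        simpa using this)
    simpa using h1
  refine ⟨R₀ + 1, fun ε hε => ?_⟩
  set P := (Φ.per A).toReal with hPdef
  have hP0 : 0 ≤ P := ENNReal.toReal_nonneg
  obtain ⟨d, hd, hK⟩ := moll_unif Φ (R₀ + 2) (δ := ε / (P + 1)) (by positivity)
  have h1 : ∀ᶠ j : ℕ in atTop, 1 / ((j : ℝ) + 1) < d :=
    tendsto_one_div_add_atTop_nhds_zero_nat.eventually (gt_mem_nhds hd)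
  obtain ⟨j, hj1, hj2⟩ := (h1.and (hL.eventually (ge_mem_nhds hε))).exists
  have hs := moll_smooth hum hub j
  refine ⟨moll j u, ⟨hs.of_le (by exact_mod_cast le_top),
    fun x hx => moll_zero hu0 j (by simpa using hx), hj2⟩, ?_⟩
  have h2 : (1 + ε / (P + 1)) * P ≤ P + ε := by
    have : ε / (P + 1) * P ≤ ε := by
      rw [div_mul_eq_mul_div, div_le_iff₀ (by positivity)]
      nlinarith
    linarith
  refine le_trans (moll_tv_le Φ hs (c₀ := 0) (R := R₀ + 1)
    (fun p hp => moll_zero hu0 j hp.le) fun y hy hy1 hy0 => ?_) h2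
  refine moll_dual hum hub j (Φ.cont_dv hy) (moll_cpt (moll_dv_zero Φ hy0)) fun t ht => ?_
  set Z : E n → E n := fun p => Φ.m p • Φ.F p (y p) with hZ
  have hZc : ContDiff ℝ 1 Z :=
    (Φ.m_smooth.of_le (by exact_mod_cast le_top)).smul
      ((Φ.sF.of_le (by exact_mod_cast le_top)).clm_apply hy)
  have hZt : ContDiff ℝ 1 fun p => Z (p + t) := hZc.comp (contDiff_id.add contDiff_const)
  have e1 : ∀ p, u p * Φ.dv y (p + t) =
      A.indicator (Φ.dv fun q => (Φ.m q)⁻¹ • Φ.Fi q (Z (q + t))) p := fun p => by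
    by_cases hp : p ∈ A
    · rw [hu, indicator_of_mem hp, indicator_of_mem hp, Φ.dv_coord (fun q => Z (q + t)),
        moll_dive_shift, Pi.one_apply, one_mul]
      rfl
    · rw [hu, indicator_of_notMem hp, indicator_of_notMem hp, zero_mul]
  simp_rw [e1]
  rw [integral_indicator hA.meas]
  refine (le_abs_self _).trans (Φ.abs_le_per hA hP (Φ.contDiff_coord hZt) fun p => ?_)
  by_cases hp : p ∈ closedBall (0 : E n) (R₀ + 2)
  · have e2 : (Φ.m p)⁻¹ • Φ.Fi p (Z (p + t)) =
        (((Φ.m p)⁻¹ * Φ.m (p + t)) • (Φ.Fi p).comp (Φ.F (p + t))) (y (p + t)) := by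
      simp [hZ, smul_smul]
    rw [e2]
    refine (ContinuousLinearMap.le_opNorm _ _).trans ?_
    exact (mul_le_of_le_one_right (norm_nonneg _) (hy1 _)).trans (hK t (ht.trans hj1) p hp)
  · have h3 : R₀ + 2 < dist p 0 := by simpa using hp
    have h4 := dist_triangle p (p + t) 0
    have h5 : dist p (p + t) = ‖t‖ := by simp
    have h6 := moll_scale_le j
    have h7 : y (p + t) = 0 := hy0 _ (by linarith)
    simp only [hZ, h7, map_zero, smul_zero, norm_zero]
    positivity

end Frame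


end Vale.Agent.P219
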