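import Vale.Agent.P219.Ge2

/-!
The monotonicity formula from small to large scales.
-/

open scoped ContDiff Topology ENNReal
open MeasureTheory Set Filter Metric

noncomputable section

namespace Vale.Agent.P219

variable {n k : ℕ} {b : ℝ}

theorem monoU_rp {D : ℝ} (hD : 0 < D) (j : ℕ) : D ^ (-((j : ℝ) / 2)) = 1 / √D ^ j := by
  rw [Real.rpow_neg hD.le, one_div, Real.sqrt_eq_rpow, ← Real.rpow_natCast, ← Real.rpow_mul hD.le]
  congr 2
  ring

theorem monoU_ker {ρ u : ℝ} (hu : 0 ≤ u) (hρ : 0 < ρ) : 0 ≤ ker k ρ u :=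
  mul_nonneg (mul_nonneg (by positivity) (Real.rpow_nonneg hu _))
    (Real.rpow_nonneg (by positivity) _)

theorem monoU_co {u s ρ : ℝ} (hu : 0 ≤ u) (hs : 0 < s) (hρ : s ≤ ρ) :
    ContinuousOn (fun t => lam u t) (uIcc s ρ) := by
  rw [uIcc_of_le hρ]
  refine ContinuousOn.div (by fun_prop) (by fun_prop) fun t ht => ?_
  have := hs.trans_le ht.1
  positivity

theorem monoU_ftc (hk : 1 ≤ k) {u s ρ : ℝ} (hu : 0 ≤ u) (hs : 0 < s) (hρ : s ≤ ρ) :
    ∫ t in s..ρ, k * lam u t ^ k * (t ^ 2 - 2 * u) / (t ^ 2 + 2 * u) / t =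
      lam u s ^ k - lam u ρ ^ k := by
  have h0 : ∀ t ∈ uIcc s ρ, 0 < t := fun t ht => by
    rw [uIcc_of_le hρ] at ht
    exact hs.trans_le ht.1
  rw [intervalIntegral.integral_eq_sub_of_hasDerivAt (f := fun t => -lam u t ^ k)]
  · ring
  · intro t ht
    have ht0 := h0 t ht
    have hD : t ^ 2 + 2 * u ≠ 0 := by positivity
    obtain ⟨j, rfl⟩ : ∃ j, k = j + 1 := ⟨k - 1, by omega⟩
    refine ((((hasDerivAt_const_mul (2 : ℝ)).fun_div
      ((hasDerivAt_pow 2 t).add_const (2 * u)) hD).fun_pow (j + 1)).fun_neg).congr_deriv ?_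
    rw [Nat.add_sub_cancel, pow_succ (lam u t), lam]
    field_simp
    push_cast
    ring
  · refine ContinuousOn.intervalIntegrable (ContinuousOn.div (ContinuousOn.div
      ((continuousOn_const.mul ((monoU_co hu hs hρ).pow k)).mul (by fun_prop)) (by fun_prop)
      fun t ht => ?_) continuousOn_id fun t ht => (h0 t ht).ne')
    have := h0 t ht
    positivity

theorem monoU_g (hk : 2 ≤ k) {u s ρ : ℝ} (hu : 0 ≤ u) (hs : 0 < s) (hρ : s ≤ ρ) :
    √u * ∫ t in s..ρ, lam u t ^ k / t ≤ 2 ^ k * ker k ρ u := by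
  have hρ0 := hs.trans_le hρ
  rcases hu.eq_or_lt with rfl | hu0
  · rw [Real.sqrt_zero, zero_mul]
    exact mul_nonneg (by positivity) (monoU_ker le_rfl hρ0)
  have h0 : ∀ t ∈ uIcc s ρ, 0 < t := fun t ht => by
    rw [uIcc_of_le hρ] at ht
    exact hs.trans_le ht.1
  have hv := Real.sqrt_pos.2 hu0
  obtain ⟨j, rfl⟩ : ∃ j, k = j + 2 := ⟨k - 2, by omega⟩
  have hq : ∀ t : ℝ, 0 < √(t ^ 2 + u) := fun t => Real.sqrt_pos.2 (by positivity)
  have h1 : ∀ t ∈ uIcc s ρ, HasDerivAt (fun t => (t / √(t ^ 2 + u)) ^ (j + 2))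
      ((j + 2) * t ^ (j + 1) * u / √(t ^ 2 + u) ^ (j + 4)) t := fun t _ => by
    refine (((hasDerivAt_id' t).fun_div (((hasDerivAt_pow 2 t).add_const u).sqrt
      (by positivity)) (hq t).ne').fun_pow (j + 2)).congr_deriv ?_
    have h2 := Real.sq_sqrt (by positivity : 0 ≤ t ^ 2 + u)
    have h3 := hq t
    generalize √(t ^ 2 + u) = q at h2 h3
    obtain rfl : u = q ^ 2 - t ^ 2 := by linarith
    rw [show j + 2 - 1 = j + 1 from rfl, div_pow]
    field_simp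
    push_cast
    ring
  have c1 : Continuous fun t : ℝ => (j + 2) * t ^ (j + 1) * u / √(t ^ 2 + u) ^ (j + 4) :=
    Continuous.div (by fun_prop) (by fun_prop) fun t => (pow_pos (hq t) _).ne'
  have h4 := intervalIntegral.integral_eq_sub_of_hasDerivAt h1 (c1.intervalIntegrable _ _)
  have h5 : ∫ t in s..ρ, lam u t ^ (j + 2) / t ≤ ∫ t in s..ρ, 2 ^ (j + 2) / √u ^ (j + 2) *
      ((j + 2) * t ^ (j + 1) * u / √(t ^ 2 + u) ^ (j + 4)) := by
    refine intervalIntegral.integral_mono_on hρ (((monoU_co hu hs hρ).pow _).div continuousOn_id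
      fun t ht => (h0 t ht).ne').intervalIntegrable ((c1.const_mul _).intervalIntegrable _ _)
      fun t ht => ?_
    have ht0 := hs.trans_le ht.1
    have h2 := Real.sq_sqrt (by positivity : 0 ≤ t ^ 2 + u)
    have h3 := hq t
    have h6 : √u ≤ √(t ^ 2 + u) := Real.sqrt_le_sqrt (by nlinarith)
    have h7 : lam u t ≤ 2 * t / √(t ^ 2 + u) ^ 2 :=
      div_le_div_of_nonneg_left (by positivity) (by positivity) (by linarith)
    refine (div_le_div_of_nonneg_right (pow_le_pow_left₀ (lam_pos hu ht0).le h7 _) ht0.le).trans ?_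
    have h8 := Real.sq_sqrt hu
    generalize √(t ^ 2 + u) = q at h3 h6
    generalize √u = v at hv h6 h8
    have h9 : v ^ j ≤ (j + 2) * q ^ j :=
      (pow_le_pow_left₀ hv.le h6 j).trans (le_mul_of_one_le_left (by positivity)
        (by linarith [Nat.cast_nonneg (α := ℝ) j]))
    rw [← h8, div_pow, div_div, div_mul_div_comm, div_le_div_iff₀ (by positivity) (by positivity)]
    refine le_trans (le_of_eq (by ring)) ((mul_le_mul_of_nonneg_left h9
      (by positivity : 0 ≤ 2 ^ (j + 2) * t ^ (j + 2) * v ^ 2 * q ^ (j + 4))).trans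
      (le_of_eq (by ring)))
  rw [intervalIntegral.integral_const_mul, h4] at h5
  have h6 : 0 ≤ (s / √(s ^ 2 + u)) ^ (j + 2) := by positivity
  refine (mul_le_mul_of_nonneg_left (h5.trans (mul_le_mul_of_nonneg_left (sub_le_self _ h6)
    (by positivity))) hv.le).trans (le_of_eq ?_)
  have h7 : ((j + 2 : ℕ) : ℝ) - 1 = ((j + 1 : ℕ) : ℝ) := by push_cast; ring
  rw [ker, h7, monoU_rp hu0, monoU_rp (by positivity), div_pow]
  have := hq ρ
  field_simp
  ring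

theorem monoU_alg {k t s a G H l θ : ℝ} (hk : 0 ≤ k) (ht : 0 < t) (hs : 0 ≤ s) (ha : 0 ≤ a)
    (hl : 0 ≤ l) (hθ : 0 ≤ θ) (hG : G ≤ 2 * s + a * s ^ 2) (hH : k * (1 + a * s) ≤ H) :
    θ * (k * l * (t ^ 2 - 2 * s) / (t ^ 2 + 2 * s)) ≤
      θ * l * H + θ * (-(2 * k * l / (t ^ 2 + 2 * s)) * G) := by
  have hD : 0 < t ^ 2 + 2 * s := by positivity
  obtain ⟨u, rfl⟩ : ∃ u, l = u * (t ^ 2 + 2 * s) := ⟨l / (t ^ 2 + 2 * s), by field_simp⟩
  have hu : 0 ≤ u := nonneg_of_mul_nonneg_left hl hD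
  have e1 : k * (u * (t ^ 2 + 2 * s)) * (t ^ 2 - 2 * s) / (t ^ 2 + 2 * s) =
      k * u * (t ^ 2 - 2 * s) := by field_simp
  have e2 : 2 * k * (u * (t ^ 2 + 2 * s)) / (t ^ 2 + 2 * s) = 2 * k * u := by field_simp
  rw [e1, e2, mul_assoc θ, ← mul_add]
  refine mul_le_mul_of_nonneg_left ?_ hθ
  have h1 := mul_le_mul_of_nonneg_left hH hl
  have h2 := mul_le_mul_of_nonneg_left hG (by positivity : 0 ≤ 2 * k * u)
  have h3 : 0 ≤ u * a * s * k * t ^ 2 := by positivity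
  nlinarith

theorem monoU_swap (W : Vf n) {F : ℝ → E n × E n → ℝ} {s ρ : ℝ} (hρ : s ≤ ρ)
    (hF : ContinuousOn (Function.uncurry F) (Icc s ρ ×ˢ univ)) :
    Integrable (Function.uncurry F) ((volume.restrict (uIoc s ρ)).prod W.V) := by
  have h1 : IntegrableOn (Function.uncurry F) (Icc s ρ ×ˢ (W.K ×ˢ sphere 0 1))
      ((volume.restrict (uIoc s ρ)).prod W.V) :=
    (hF.mono (prod_mono subset_rfl (subset_univ _))).integrableOn_compact
      (isCompact_Icc.prod (W.cpt.prod (isCompact_sphere 0 1)))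
  rwa [IntegrableOn, Measure.restrict_eq_self_of_ae_mem] at h1
  rw [uIoc_of_le hρ]
  filter_upwards [Measure.quasiMeasurePreserving_fst.ae (ae_restrict_mem measurableSet_Ioc),
    Measure.quasiMeasurePreserving_snd.ae W.supp] with p h2 h3
  exact ⟨Ioc_subset_Icc_self h2, h3.1, mem_sphere_zero_iff_norm.2 h3.2⟩

namespace Geo

variable (Γ : Geo (k + 1) b) {W : Vf (k + 1)} {h : ℝ} {γ : E (k + 1) → ℝ} {K : Set (E (k + 1))}

theorem monoU_key (hk : 1 ≤ k) (hF : Γ.FV W h γ) {x : E (k + 1)} {C t : ℝ} (hC0 : 0 ≤ C)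
    (hC : ∀ y ∈ W.K, ‖Γ.gr (Γ.σ x) y‖ ≤ C * √(Γ.σ x y)) {θ : E (k + 1) → ℝ}
    (hθ : ContDiff ℝ 1 θ) (hθ0 : ∀ y, 0 ≤ θ y) (ht : 0 < t) :
    ∫ w, θ w.1 * (k * lam (Γ.σ x w.1) t ^ k * (t ^ 2 - 2 * Γ.σ x w.1) /
      (t ^ 2 + 2 * Γ.σ x w.1) / t) ∂W.V ≤
    ∫ w, C * (1 + k * h) * (‖Γ.gt θ w‖ + θ w.1) * √(Γ.σ x w.1) *
      (lam (Γ.σ x w.1) t ^ k / t) ∂W.V := by
  have hh : 0 ≤ h := (abs_nonneg _).trans (hF.bound 0)
  have hσ : ContDiff ℝ 1 (Γ.σ x) := (Γ.sm x).of_le (by exact_mod_cast le_top)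
  have hl : ContDiff ℝ 1 fun y => lam (Γ.σ x y) t ^ k :=
    ((Γ.cont_lam x ht).of_le (by exact_mod_cast le_top)).pow k
  have hD : ∀ y, 0 < t ^ 2 + 2 * Γ.σ x y := fun y => by
    have := Γ.nonneg x y
    positivity
  have h1 := Γ.fv_σ hF x (hθ.mul hl)
  have c0 : Continuous fun w : E (k + 1) × E (k + 1) => Γ.σ x w.1 :=
    hσ.continuous.comp' continuous_fst
  have c1 : Continuous fun w : E (k + 1) × E (k + 1) => θ w.1 :=
    hθ.continuous.comp' continuous_fst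
  have c2 : Continuous fun w : E (k + 1) × E (k + 1) => lam (Γ.σ x w.1) t ^ k :=
    hl.continuous.comp' continuous_fst
  have c3 := ((c1.fun_mul c2).fun_mul (Γ.cont_Hs x)).fun_add
    ((Γ.cont_gt (hθ.mul hl)).inner (𝕜 := ℝ) (Γ.cont_gt hσ))
  have c4 := (hF.cont.comp' continuous_fst).fun_mul ((c1.fun_mul c2).fun_mul (Γ.cont_pn x))
  have c5 := Γ.cont_gt hθ
  have c6 : Continuous fun w : E (k + 1) × E (k + 1) => C * (1 + k * h) * (‖Γ.gt θ w‖ + θ w.1) *
      √(Γ.σ x w.1) * (lam (Γ.σ x w.1) t ^ k / t) := by fun_prop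
  rw [← sub_eq_zero, ← integral_const_mul,
    ← integral_sub (W.integrable c3) ((W.integrable c4).const_mul _)] at h1
  rw [← zero_add (∫ w, C * _ * _ * _ * _ ∂W.V), ← zero_div t, ← h1, ← integral_div,
    ← integral_add (W.integrable ((c3.fun_sub (c4.const_mul _)).div_const t)) (W.integrable c6)]
  refine W.integral_mono (c1.fun_mul ((Continuous.div ((c2.const_mul _).fun_mul (by fun_prop))
    (by fun_prop) fun w => (hD w.1).ne').div_const t))
    (((c3.fun_sub (c4.const_mul _)).div_const t).fun_add c6) fun z hz1 hz => ?_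
  have hs := Γ.nonneg x z.1
  have hl0 := pow_nonneg (lam_pos hs ht).le k
  have hd : HasDerivAt (fun s : ℝ => lam s t ^ k)
      (-(2 * k * lam (Γ.σ x z.1) t ^ k / (t ^ 2 + 2 * Γ.σ x z.1))) (Γ.σ x z.1) := by
    obtain ⟨j, rfl⟩ : ∃ j, k = j + 1 := ⟨k - 1, by omega⟩
    refine (((hasDerivAt_const _ (2 * t)).fun_div ((hasDerivAt_const_mul (2 : ℝ)).const_add
      (t ^ 2)) (hD z.1).ne').fun_pow (j + 1)).congr_deriv ?_
    have := hD z.1
    rw [Nat.add_sub_cancel, pow_succ (lam _ t), lam]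
    field_simp
    ring
  have h2 := monoU_alg (G := ‖Γ.gt (Γ.σ x) z‖ ^ 2) (Nat.cast_nonneg k) ht hs (sq_nonneg b) hl0
    (hθ0 z.1) (by rw [Γ.norm_gt_σ x hz]; exact sub_le_self _ (sq_nonneg _)) (Γ.Hs_lower x hz)
  have h3 := hC _ hz1
  have h4 : |inner ℝ (Γ.gt θ z) (Γ.gt (Γ.σ x) z)| ≤ ‖Γ.gt θ z‖ * (C * √(Γ.σ x z.1)) :=
    (abs_real_inner_le_norm _ _).trans
      (mul_le_mul_of_nonneg_left ((Γ.norm_gt_le _ hz).trans h3) (norm_nonneg _))
  have h5 : |γ z.1 * Γ.pn x z| ≤ h * (C * √(Γ.σ x z.1)) := by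
    rw [abs_mul]
    exact mul_le_mul (hF.bound _) ((Γ.abs_pn_le x hz).trans h3) (abs_nonneg _) hh
  have h6 := mul_le_mul_of_nonneg_left (neg_le_of_abs_le h4) hl0
  have h7 := mul_le_mul_of_nonneg_left (le_of_abs_le h5)
    (mul_nonneg (Nat.cast_nonneg k) (mul_nonneg (hθ0 z.1) hl0))
  have h8 : 0 ≤ C * √(Γ.σ x z.1) * lam (Γ.σ x z.1) t ^ k * (k * h * ‖Γ.gt θ z‖ + θ z.1) := by
    have := hθ0 z.1
    positivity
  rw [Γ.gt_mul (hθ.differentiable one_ne_zero _) (hl.differentiable one_ne_zero _),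
    Γ.gt_comp hd (Γ.diff x z.1), inner_add_left, real_inner_smul_left, real_inner_smul_left,
    real_inner_smul_left, real_inner_self_eq_norm_sq, ← mul_div_assoc, ← mul_div_assoc _ _ t,
    ← add_div]
  exact div_le_div_of_nonneg_right (by linarith) ht.le

theorem mono_up (hk : 3 ≤ k) (hF : Γ.FV W h γ) (hK : IsCompact K) :
    ∃ C > 0, ∀ x ∈ K, ∀ θ : E (k + 1) → ℝ, ContDiff ℝ 1 θ → (∀ y, 0 ≤ θ y) →
      ∀ s ρ : ℝ, 0 < s → s < ρ →
      ENNReal.ofReal (∫ w, θ w.1 * lam (Γ.σ x w.1) s ^ k ∂W.V -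
          ∫ w, θ w.1 * lam (Γ.σ x w.1) ρ ^ k ∂W.V) ≤
        ∫⁻ w, ENNReal.ofReal (C * ker k ρ (Γ.σ x w.1) * (‖Γ.gt θ w‖ + θ w.1)) ∂W.V := by
  obtain ⟨C, hC, h0⟩ := Γ.grad_le (hK.union W.cpt)
  have hh : 0 ≤ h := (abs_nonneg _).trans (hF.bound 0)
  refine ⟨C * (1 + k * h) * 2 ^ k, by positivity, fun x hx θ hθ hθ0 s ρ hs hρ => ?_⟩
  have c0 : Continuous fun w : E (k + 1) × E (k + 1) => Γ.σ x w.1 :=
    (Γ.sm x).continuous.comp' continuous_fst
  have c1 : Continuous fun w : E (k + 1) × E (k + 1) => θ w.1 :=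
    hθ.continuous.comp' continuous_fst
  have c2 : ∀ t, 0 < t → Continuous fun w : E (k + 1) × E (k + 1) =>
      θ w.1 * lam (Γ.σ x w.1) t ^ k := fun t ht =>
    c1.fun_mul (((Γ.cont_lam x ht).continuous.comp' continuous_fst).pow k)
  have c5 := Γ.cont_gt hθ
  have c3 := (Γ.sm x).continuous
  have c4 := hθ.continuous
  have hp : ∀ p ∈ Icc s ρ ×ˢ (univ : Set (E (k + 1) × E (k + 1))), p.1 ≠ 0 :=
    fun p hp => (hs.trans_le hp.1.1).ne'
  have hD : ∀ p ∈ Icc s ρ ×ˢ (univ : Set (E (k + 1) × E (k + 1))),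
      p.1 ^ 2 + 2 * Γ.σ x p.2.1 ≠ 0 := fun p hp => by
    have := Γ.nonneg x p.2.1
    have := hs.trans_le hp.1.1
    positivity
  have c6 : ContinuousOn (fun p : ℝ × E (k + 1) × E (k + 1) => lam (Γ.σ x p.2.1) p.1 ^ k)
      (Icc s ρ ×ˢ univ) := (ContinuousOn.div (Continuous.continuousOn (by fun_prop))
        (Continuous.continuousOn (by fun_prop)) hD).pow k
  have i1 := monoU_swap W (F := fun t w => θ w.1 * (k * lam (Γ.σ x w.1) t ^ k *
      (t ^ 2 - 2 * Γ.σ x w.1) / (t ^ 2 + 2 * Γ.σ x w.1) / t)) hρ.le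
    ((c1.comp continuous_snd).continuousOn.mul ((((continuousOn_const.mul c6).mul
      (Continuous.continuousOn (by fun_prop))).div (Continuous.continuousOn (by fun_prop))
      hD).div continuousOn_fst hp))
  have i2 := monoU_swap W (F := fun t w => C * (1 + k * h) * (‖Γ.gt θ w‖ + θ w.1) *
      √(Γ.σ x w.1) * (lam (Γ.σ x w.1) t ^ k / t)) hρ.le
    (ContinuousOn.mul (Continuous.continuousOn (by fun_prop)) (c6.div continuousOn_fst hp))
  have h1 := intervalIntegral.integral_mono_on hρ.le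
    (intervalIntegrable_iff.2 i1.integral_prod_left)
    (intervalIntegrable_iff.2 i2.integral_prod_left) fun t ht =>
    Γ.monoU_key (by omega) hF hC.le (fun y hy => h0 x (Or.inl hx) y (Or.inr hy)) hθ hθ0
      (hs.trans_le ht.1)
  simp only [Function.uncurry_apply_pair] at h1
  rw [intervalIntegral_integral_swap i1, intervalIntegral_integral_swap i2] at h1
  simp only [intervalIntegral.integral_const_mul,
    monoU_ftc (k := k) (by omega) (Γ.nonneg x _) hs hρ.le] at h1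
  simp only [mul_sub] at h1
  rw [integral_sub (W.integrable (c2 s hs)) (W.integrable (c2 ρ (hs.trans hρ)))] at h1
  refine ((ENNReal.ofReal_le_ofReal h1).trans ((Real.ofReal_le_enorm _).trans
    (enorm_integral_le_lintegral_enorm _))).trans (lintegral_mono fun w => ?_)
  have h2 := hθ0 w.1
  have h3 : 0 ≤ ∫ t in s..ρ, lam (Γ.σ x w.1) t ^ k / t :=
    intervalIntegral.integral_nonneg hρ.le fun t ht => div_nonneg
      (pow_nonneg (lam_pos (Γ.nonneg x _) (hs.trans_le ht.1)).le k) (hs.le.trans ht.1)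
  dsimp only
  rw [Real.enorm_eq_ofReal (by positivity), mul_assoc]
  exact ENNReal.ofReal_le_ofReal ((mul_le_mul_of_nonneg_left
    (monoU_g (by omega) (Γ.nonneg x _) hs hρ.le) (by positivity)).trans (le_of_eq (by ring)))

theorem point_ineq (hk : 3 ≤ k) (hF : Γ.FV W h γ) (hD : Γ.Den W) :
    ∃ C > 0, ∀ᵐ z ∂W.V, ∀ θ : E (k + 1) → ℝ, ContDiff ℝ 1 θ → (∀ y, 0 ≤ θ y) → 1 ≤ θ z.1 →
      ∀ ρ > 0, ENNReal.ofReal (sph k - ∫ w, θ w.1 * lam (Γ.σ z.1 w.1) ρ ^ k ∂W.V) ≤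
        ∫⁻ w, ENNReal.ofReal (C * ker k ρ (Γ.σ z.1 w.1) * (‖Γ.gt θ w‖ + θ w.1)) ∂W.V := by
  obtain ⟨C, hC, h0⟩ := Γ.mono_up hk hF W.cpt
  obtain ⟨c, hc, C', -, h1⟩ := Γ.cmp W.cpt
  refine ⟨C, hC, ?_⟩
  filter_upwards [hD, W.supp] with z hz hz1 θ hθ hθ0 hθ1 ρ hρ
  refine ENNReal.le_of_forall_pos_le_add fun e he _ => ?_
  have he0 : (0 : ℝ) < e := he
  obtain ⟨η, hη0, hη1, hη⟩ : ∃ η : ℝ, 0 < η ∧ η ≤ 1 ∧ η * (|sph k| + 1) ≤ e / 2 := by
    refine ⟨min 1 (e / 2 / (|sph k| + 1)), by positivity, min_le_left _ _, ?_⟩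
    rw [← le_div_iff₀ (by positivity)]
    exact min_le_right _ _
  obtain ⟨r, hr, h2⟩ := Metric.eventually_nhds_iff.1
    (hθ.continuous.continuousAt.eventually (lt_mem_nhds (by linarith : 1 - η < θ z.1)))
  have h3 : ∀ᶠ s in 𝓝[>] (0 : ℝ), (s / (c * r ^ 2)) ^ k * W.V.real univ < e / 2 := by
    refine nhdsWithin_le_nhds (ContinuousAt.eventually_lt (by fun_prop) continuousAt_const ?_)
    rw [zero_div, zero_pow (by omega), zero_mul]
    positivity
  obtain ⟨s, h4, h5, hs, hsρ⟩ := ((hz η hη0).and_eventually (h3.and (Ioo_mem_nhdsGT hρ))).exists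
  have c2 : Continuous fun w : E (k + 1) × E (k + 1) => lam (Γ.σ z.1 w.1) s ^ k :=
    ((Γ.cont_lam z.1 hs).continuous.comp' continuous_fst).pow k
  have h6 : ∫ w, ((1 - η) * lam (Γ.σ z.1 w.1) s ^ k - (s / (c * r ^ 2)) ^ k) ∂W.V ≤
      ∫ w, θ w.1 * lam (Γ.σ z.1 w.1) s ^ k ∂W.V := by
    refine W.integral_mono ((c2.const_mul _).sub continuous_const)
      ((hθ.continuous.comp' continuous_fst).mul c2) fun w hw _ => ?_
    have k1 := lam_pos (Γ.nonneg z.1 w.1) hs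
    have k2 := pow_nonneg k1.le k
    rcases lt_or_ge (dist w.1 z.1) r with k3 | k3
    · exact (sub_le_self _ (by positivity)).trans (mul_le_mul_of_nonneg_right (h2 k3).le k2)
    · refine le_trans (sub_nonpos.2 ((mul_le_of_le_one_left k2 (by linarith)).trans
        (pow_le_pow_left₀ k1.le ?_ k))) (mul_nonneg (hθ0 _) k2)
      rw [dist_comm, dist_eq_norm] at k3
      have k4 := (mul_le_mul_of_nonneg_left (pow_le_pow_left₀ hr.le k3 2) hc.le).trans
        (h1 _ hz1.1 _ hw).1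
      rw [lam, ← mul_div_mul_left s _ two_ne_zero]
      exact div_le_div_of_nonneg_left (by positivity) (by positivity) (by nlinarith)
  rw [integral_sub ((W.integrable c2).const_mul _) (integrable_const _), integral_const_mul,
    integral_const, smul_eq_mul, mul_comm (W.V.real univ)] at h6
  have h7 := mul_le_mul_of_nonneg_left h4 (by linarith : 0 ≤ 1 - η)
  have h8 := mul_le_mul_of_nonneg_left (le_abs_self (sph k)) hη0.le
  refine le_trans ?_ (add_le_add (h0 _ hz1.1 θ hθ hθ0 s ρ hs hsρ) ENNReal.ofReal_coe_nnreal.le)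
  exact (ENNReal.ofReal_le_ofReal (by nlinarith)).trans ENNReal.ofReal_add_le

end Geo


end Vale.Agent.P219
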