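import Vale.Agent.P219.Fr2

/-!
Elementary properties of the perimeter.
-/

open scoped ContDiff Topology ENNReal
open MeasureTheory Set Filter Metric

noncomputable section

namespace Vale.Agent.P219

variable {n k : ℕ} {b : ℝ}

namespace Frame

variable (Φ : Frame n) {A : Set (E n)} {W : Vf n}

theorem per_dv_const_smul {y : E n → E n} (hy : ContDiff ℝ 1 y) (a : ℝ) (x : E n) :
    Φ.dv (fun p => a • y p) x = a * Φ.dv y x := by
  have h := Φ.dv_smul (φ := fun _ => a) (y := y) (x := x) (differentiableAt_const a)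
    (hy.differentiable one_ne_zero x)
  rw [h, Φ.gr_const, inner_zero_left, mul_zero, add_zero]

theorem per_ofReal_le (A : Set (E n)) {y : E n → E n} (hy : ContDiff ℝ 1 y)
    (h1 : ∀ x, ‖y x‖ ≤ 1) : ENNReal.ofReal (∫ x in A, Φ.dv y x) ≤ Φ.per A :=
  le_iSup_of_le y (le_iSup_of_le hy (le_iSup_of_le h1 le_rfl))

theorem per_int_le (hP : Φ.per A ≠ ⊤) {y : E n → E n} (hy : ContDiff ℝ 1 y)
    (h1 : ∀ x, ‖y x‖ ≤ 1) : ∫ x in A, Φ.dv y x ≤ (Φ.per A).toReal :=
  (ENNReal.ofReal_le_iff_le_toReal hP).1 (Φ.per_ofReal_le A hy h1)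

theorem per_le_of_forall {P : ℝ}
    (h : ∀ y : E n → E n, ContDiff ℝ 1 y → (∀ x, ‖y x‖ ≤ 1) → ∫ x in A, Φ.dv y x ≤ max P 0) :
    Φ.per A ≤ ENNReal.ofReal P := by
  refine iSup_le fun y => iSup_le fun hy => iSup_le fun h1 => ?_
  refine (ENNReal.ofReal_le_ofReal (h y hy h1)).trans ?_
  rw [ENNReal.ofReal_max, ENNReal.ofReal_zero, max_eq_left (by simp)]

theorem per_le_of_eps {a P K : ℝ} (hK : 0 ≤ K) (h : ∀ ε > 0, a ≤ P + ε + K * ε) : a ≤ P := by
  refine le_of_forall_pos_le_add fun δ hδ => ?_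
  have h1 := h (δ / (K + 1)) (by positivity)
  have e : δ / (K + 1) + K * (δ / (K + 1)) = δ := by field_simp; ring
  linarith

theorem per_bound (hA : BM A) (R : ℝ) {g : E n → ℝ} (hg : Continuous g) :
    ∃ K : ℝ, 0 ≤ K ∧ ∀ x, (x ∈ A ∨ ‖x‖ < R) → |g x| ≤ K := by
  have hc : IsCompact (closure (A ∪ ball (0 : E n) R)) :=
    (hA.bdd.union isBounded_ball).isCompact_closure
  obtain ⟨C, hC⟩ := hc.exists_bound_of_continuousOn hg.continuousOn
  refine ⟨max C 0, le_max_right _ _, fun x hx => le_max_of_le_left (hC x (subset_closure ?_))⟩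
  rcases hx with hx | hx
  · exact Or.inl hx
  · exact Or.inr (mem_ball_zero_iff.2 hx)

theorem per_integrable_tv {f : E n → ℝ} (hf : ContDiff ℝ 1 f) (hc : HasCompactSupport f) :
    Integrable (fun x => ‖Φ.gr f x‖ * Φ.m x) := by
  refine ((Φ.cont_gr hf).norm.mul Φ.m_smooth.continuous).integrable_of_hasCompactSupport ?_
  refine HasCompactSupport.intro hc fun x hx => ?_
  have h0 : f =ᶠ[𝓝 x] fun _ => 0 := notMem_tsupport_iff_eventuallyEq.1 hx
  show ‖Φ.gr f x‖ * Φ.m x = 0
  rw [Φ.gr_congr h0, Φ.gr_const, norm_zero, zero_mul]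

theorem abs_le_per (hA : BM A) (hP : Φ.per A ≠ ⊤) {y : E n → E n} (hy : ContDiff ℝ 1 y) {c : ℝ}
    (hc : ∀ x, ‖y x‖ ≤ c) : |∫ x in A, Φ.dv y x| ≤ c * (Φ.per A).toReal := by
  have _ := hA
  have key : ∀ a : ℝ, |a| * c ≤ 1 → a * ∫ x in A, Φ.dv y x ≤ (Φ.per A).toReal := by
    intro a ha
    have h := Φ.per_int_le hP (y := fun p => a • y p) (hy.const_smul a) fun x => by
      rw [norm_smul, Real.norm_eq_abs]
      exact (mul_le_mul_of_nonneg_left (hc x) (abs_nonneg a)).trans ha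
    simp only [Φ.per_dv_const_smul hy, integral_const_mul] at h
    exact h
  rcases ((norm_nonneg _).trans (hc 0)).eq_or_lt with h0 | h0
  · have e : y = fun p => (0 : ℝ) • y p := by
      funext p
      rw [zero_smul]
      exact norm_le_zero_iff.1 (h0 ▸ hc p)
    have e2 : ∀ x, Φ.dv y x = 0 := by
      intro x
      rw [e, Φ.per_dv_const_smul hy, zero_mul]
    simp [e2, ← h0]
  · have h1 := key c⁻¹ (by rw [abs_of_pos (inv_pos.2 h0), inv_mul_cancel₀ h0.ne'])
    have h2 := key (-c⁻¹) (by rw [abs_neg, abs_of_pos (inv_pos.2 h0), inv_mul_cancel₀ h0.ne'])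
    rw [inv_mul_le_iff₀ h0] at h1
    rw [neg_mul, ← mul_neg, inv_mul_le_iff₀ h0] at h2
    exact abs_le.2 ⟨by linarith, h1⟩

theorem per_le_of_close (hA : BM A) {R P : ℝ}
    (h : ∀ ε > 0, ∃ f, Close A R ε f ∧ Φ.tv f ≤ P + ε) : Φ.per A ≤ ENNReal.ofReal P := by
  refine Φ.per_le_of_forall fun y hy h1 => le_max_of_le_left ?_
  have hd := Φ.cont_dv hy
  obtain ⟨K, hK, hb⟩ := per_bound hA R hd
  refine per_le_of_eps hK fun ε hε => ?_
  obtain ⟨f, hf, ht⟩ := h ε hε
  have hfc := hf.smooth.continuous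
  have i1 : Integrable (fun x => f x * Φ.dv y x) :=
    (hfc.mul hd).integrable_of_hasCompactSupport hf.compact.mul_right
  have i2 : Integrable (A.indicator (Φ.dv y)) :=
    (integrable_indicator_iff hA.meas).2 (hA.integrableOn hd)
  have i3 : Integrable (fun x => |f x - A.indicator 1 x|) :=
    ((hfc.integrable_of_hasCompactSupport hf.compact).sub
      ((integrable_indicator_iff hA.meas).2 (hA.integrableOn continuous_const))).abs
  have h2 : ∫ x, f x * Φ.dv y x ≤ Φ.tv f := by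
    rw [Φ.ibp hf.smooth hf.compact hy]
    refine (neg_le_abs _).trans ?_
    rw [← Real.norm_eq_abs]
    refine norm_integral_le_of_norm_le (Φ.per_integrable_tv hf.smooth hf.compact)
      (Eventually.of_forall fun x => ?_)
    rw [norm_mul, Real.norm_eq_abs (Φ.m x), abs_of_pos (Φ.m_pos x)]
    refine mul_le_mul_of_nonneg_right ?_ (Φ.m_pos x).le
    exact (norm_inner_le_norm _ _).trans (mul_le_of_le_one_right (norm_nonneg _) (h1 x))
  have h3 : ∫ x, A.indicator (Φ.dv y) x ≤
      ∫ x, (f x * Φ.dv y x + K * |f x - A.indicator 1 x|) := by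
    refine integral_mono i2 (i1.add (i3.const_mul K)) fun x => ?_
    show A.indicator (Φ.dv y) x ≤ f x * Φ.dv y x + K * |f x - A.indicator 1 x|
    by_cases hx : x ∈ A
    · rw [indicator_of_mem hx, indicator_of_mem hx, Pi.one_apply]
      have h4 : |Φ.dv y x * (f x - 1)| ≤ K * |f x - 1| := by
        rw [abs_mul]
        exact mul_le_mul_of_nonneg_right (hb x (Or.inl hx)) (abs_nonneg _)
      linarith [neg_abs_le (Φ.dv y x * (f x - 1))]
    · rw [indicator_of_notMem hx, indicator_of_notMem hx, sub_zero]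
      by_cases hR : ‖x‖ < R
      · have h4 : |Φ.dv y x * f x| ≤ K * |f x| := by
          rw [abs_mul]
          exact mul_le_mul_of_nonneg_right (hb x (Or.inr hR)) (abs_nonneg _)
        linarith [neg_abs_le (Φ.dv y x * f x)]
      · rw [hf.supp x (not_lt.1 hR)]
        simp
  rw [integral_indicator hA.meas, integral_add i1 (i3.const_mul K), integral_const_mul] at h3
  have h5 := mul_le_mul_of_nonneg_left hf.near hK
  linarith

theorem per_lsc (hA : BM A) {R P : ℝ}
    (h : ∀ ε > 0, ∃ A', MeasurableSet A' ∧ A' ⊆ ball 0 R ∧ volume.real (symmDiff A' A) ≤ ε ∧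
      Φ.per A' ≤ ENNReal.ofReal (P + ε)) : Φ.per A ≤ ENNReal.ofReal P := by
  refine Φ.per_le_of_forall fun y hy h1 => ?_
  have hd := Φ.cont_dv hy
  obtain ⟨K, hK, hb⟩ := per_bound hA R hd
  refine per_le_of_eps hK fun ε hε => ?_
  obtain ⟨A', hm, hs, hv, hp⟩ := h ε hε
  have hA' : BM A' := ⟨hm, isBounded_ball.subset hs⟩
  have hD : BM (symmDiff A' A) := ⟨hm.symmDiff hA.meas,
    (hA'.bdd.union hA.bdd).subset symmDiff_subset_union⟩
  have i1 : Integrable (A'.indicator (Φ.dv y)) :=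
    (integrable_indicator_iff hm).2 (hA'.integrableOn hd)
  have i2 : Integrable (A.indicator (Φ.dv y)) :=
    (integrable_indicator_iff hA.meas).2 (hA.integrableOn hd)
  have i3 : Integrable ((symmDiff A' A).indicator fun _ => K) :=
    (integrable_indicator_iff hD.meas).2 (hD.integrableOn continuous_const)
  have h2 : ∫ x in A', Φ.dv y x ≤ max P 0 + ε := by
    have h3 := (Φ.per_ofReal_le A' hy h1).trans
      (hp.trans (ENNReal.ofReal_le_ofReal (add_le_add_left (le_max_left P 0) ε)))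
    exact (ENNReal.ofReal_le_ofReal_iff (by positivity)).1 h3
  have h3 : ∫ x, A.indicator (Φ.dv y) x ≤
      ∫ x, (A'.indicator (Φ.dv y) x + (symmDiff A' A).indicator (fun _ => K) x) := by
    refine integral_mono i2 (i1.add i3) fun x => ?_
    show A.indicator (Φ.dv y) x ≤
      A'.indicator (Φ.dv y) x + (symmDiff A' A).indicator (fun _ => K) x
    by_cases hx : x ∈ A <;> by_cases hx' : x ∈ A'
    · rw [indicator_of_mem hx, indicator_of_mem hx']
      exact le_add_of_nonneg_right (indicator_nonneg (fun _ _ => hK) x)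
    · rw [indicator_of_mem hx, indicator_of_notMem hx', zero_add,
        indicator_of_mem (mem_symmDiff.2 (Or.inr ⟨hx, hx'⟩))]
      exact (le_abs_self _).trans (hb x (Or.inl hx))
    · rw [indicator_of_notMem hx, indicator_of_mem hx',
        indicator_of_mem (mem_symmDiff.2 (Or.inl ⟨hx', hx⟩))]
      have h4 := hb x (Or.inr (mem_ball_zero_iff.1 (hs hx')))
      linarith [neg_abs_le (Φ.dv y x)]
    · rw [indicator_of_notMem hx, indicator_of_notMem hx', zero_add]
      exact indicator_nonneg (fun _ _ => hK) x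
  rw [integral_indicator hA.meas, integral_add i1 i3, integral_indicator hm,
    integral_indicator hD.meas, setIntegral_const, smul_eq_mul, mul_comm] at h3
  have h5 := mul_le_mul_of_nonneg_left hv hK
  linarith

theorem per_empty : Φ.per ∅ = 0 := by
  simp [per]

theorem trans_per (R : ℝ) : ∃ C > 0, ∀ A : Set (E n), MeasurableSet A → A ⊆ ball 0 R →
    Φ.per A ≠ ⊤ → ∀ (z : E n) (φ : E n → ℝ), ContDiff ℝ 1 φ → (∀ x, |φ x| ≤ 1) →
      |∫ x in A, fderiv ℝ φ x z| ≤ C * (Φ.per A).toReal * ‖z‖ := by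
  obtain ⟨L, -, hL⟩ := exists_bump (n := n)
  have hr : 0 < 2 * max R 1 := by positivity
  obtain ⟨ζ, hζ, -, hts, h01, hone, -⟩ := hL 0 (2 * max R 1) hr
  have hcont : Continuous fun p => (Φ.m p)⁻¹ • Φ.Fi p :=
    (Φ.m_smooth.continuous.inv₀ fun p => (Φ.m_pos p).ne').smul Φ.sFi.continuous
  obtain ⟨C, hC⟩ := (isCompact_closedBall (0 : E n) (2 * max R 1)).exists_bound_of_continuousOn
    hcont.continuousOn
  refine ⟨max C 1, lt_max_of_lt_right one_pos, fun A hm hs hP z φ hφ hb => ?_⟩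
  have hZ : ContDiff ℝ 1 fun p => (ζ p * φ p) • z :=
    ((hζ.of_le (by simp)).mul hφ).smul contDiff_const
  have h := Φ.abs_le_per ⟨hm, isBounded_ball.subset hs⟩ hP (Φ.contDiff_coord hZ)
    (c := max C 1 * ‖z‖) fun p => by
      by_cases hp : p ∈ closedBall (0 : E n) (2 * max R 1)
      · have h1 : ‖((Φ.m p)⁻¹ • Φ.Fi p) ((ζ p * φ p) • z)‖ ≤ max C 1 * ‖z‖ := by
          refine (ContinuousLinearMap.le_opNorm _ _).trans ?_
          refine mul_le_mul ((hC p hp).trans (le_max_left _ _)) ?_ (norm_nonneg _) (by positivity)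
          rw [norm_smul, Real.norm_eq_abs, abs_mul, abs_of_nonneg (h01 p).1]
          exact mul_le_of_le_one_left (norm_nonneg _)
            (mul_le_one₀ (h01 p).2 (abs_nonneg _) (hb p))
        exact h1
      · have h0 : ζ p = 0 := by
          by_contra h0
          exact hp (ball_subset_closedBall (hts (subset_tsupport _ h0)))
        simp only [h0, zero_mul, zero_smul, map_zero, smul_zero, norm_zero]
        positivity
  have e : ∫ x in A, Φ.dv (fun p => (Φ.m p)⁻¹ • Φ.Fi p ((ζ p * φ p) • z)) x =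
      ∫ x in A, fderiv ℝ φ x z := by
    refine setIntegral_congr_fun hm fun x hx => ?_
    have hx' : x ∈ ball (0 : E n) (2 * max R 1 / 2) :=
      ball_subset_ball (by linarith [le_max_left R 1]) (hs hx)
    have hev : (fun p => ζ p * φ p) =ᶠ[𝓝 x] φ := by
      filter_upwards [isOpen_ball.mem_nhds hx'] with p hp
      rw [hone p (ball_subset_closedBall hp), one_mul]
    show Φ.dv (fun p => (Φ.m p)⁻¹ • Φ.Fi p ((ζ p * φ p) • z)) x = fderiv ℝ φ x z
    rw [Φ.dv_coord (fun p => (ζ p * φ p) • z) x, dive_smul_const (φ := fun p => ζ p * φ p)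
      (((hζ.of_le (by simp)).mul hφ).differentiable one_ne_zero x), hev.fderiv_eq]
  rw [e] at h
  linarith

theorem sharp_of_mass (hA : BM A) (hP : Φ.per A ≠ ⊤) (hG : Φ.GG A W)
    (hm : W.mass ≤ (Φ.per A).toReal) : W.Sharp := by
  have _ := hA
  have _ := hP
  have key : ∀ δ > 0, ∃ y : E n → E n, ContDiff ℝ 1 y ∧ (∀ x, ‖y x‖ ≤ 1) ∧
      (Φ.per A).toReal - δ ≤ ∫ x in A, Φ.dv y x := by
    intro δ hδ
    by_contra hcon
    push Not at hcon
    have h1 : Φ.per A ≤ ENNReal.ofReal ((Φ.per A).toReal - δ) :=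
      Φ.per_le_of_forall fun y hy h1 => le_max_of_le_left (hcon y hy h1).le
    have h2 := hcon (fun p => (0 : ℝ) • (0 : E n)) contDiff_const (fun x => by simp)
    simp only [Φ.per_dv_const_smul (y := fun _ => (0 : E n)) contDiff_const, zero_mul,
      integral_zero] at h2
    have h3 := ENNReal.toReal_le_of_le_ofReal h2.le h1
    linarith
  intro ε hε
  have hM : 0 ≤ W.mass := measureReal_nonneg
  obtain ⟨η, hη⟩ : ∃ η, η = ε / (W.mass + 1) := ⟨_, rfl⟩
  have hη0 : 0 < η := by rw [hη]; positivity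
  obtain ⟨y, hy, h1, h2⟩ := key (ε * η / 2) (by positivity)
  have hyc := hy.continuous
  refine ⟨y, hyc, ?_⟩
  have hin : Continuous fun z : E n × E n => inner ℝ (y z.1) z.2 :=
    (hyc.comp continuous_fst).inner continuous_snd
  have h3 : ∫ z, ‖z.2 - y z.1‖ ∂W.V ≤
      ∫ z, ((η / 2 + η⁻¹) - η⁻¹ * inner ℝ (y z.1) z.2) ∂W.V := by
    refine W.integral_mono (continuous_snd.sub (hyc.comp continuous_fst)).norm
      (continuous_const.sub (continuous_const.mul hin)) fun z _ hz => ?_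
    have h4 : ‖z.2 - y z.1‖ ^ 2 ≤ 2 - 2 * inner ℝ (y z.1) z.2 := by
      rw [norm_sub_sq_real, hz, real_inner_comm]
      nlinarith [h1 z.1, norm_nonneg (y z.1)]
    have h5 : η * ‖z.2 - y z.1‖ ≤ η * (η / 2 + η⁻¹ - η⁻¹ * inner ℝ (y z.1) z.2) := by
      have e : η * (η / 2 + η⁻¹ - η⁻¹ * inner ℝ (y z.1) z.2) =
          η ^ 2 / 2 + 1 - inner ℝ (y z.1) z.2 := by
        field_simp
      rw [e]
      nlinarith [sq_nonneg (η - ‖z.2 - y z.1‖)]
    exact le_of_mul_le_mul_left h5 hη0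
  rw [integral_sub (integrable_const _) ((W.integrable hin).const_mul _), integral_const,
    integral_const_mul, ← hG y hy, smul_eq_mul] at h3
  change _ ≤ W.mass * _ - _ at h3
  have h6 : η⁻¹ * (W.mass - ε * η / 2) ≤ η⁻¹ * ∫ x in A, Φ.dv y x :=
    mul_le_mul_of_nonneg_left (by linarith) (inv_pos.2 hη0).le
  have h7 : η⁻¹ * (W.mass - ε * η / 2) = η⁻¹ * W.mass - ε / 2 := by
    field_simp
  have h8 : W.mass * η ≤ ε := by
    rw [hη, ← mul_div_assoc, div_le_iff₀ (by positivity)]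
    nlinarith
  nlinarith

end Frame


end Vale.Agent.P219
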