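import Vale.Agent.P219.Ge1

/-!
The map to the sphere.
-/

open scoped ContDiff Topology ENNReal
open MeasureTheory Set Filter Metric

noncomputable section

namespace Vale.Agent.P219

variable {n k : ℕ} {b : ℝ}

theorem Geo.psi_hasD (Γ : Geo n b) (o : E n) (τ : ℝ) (x : E n) :
    HasFDerivAt (Γ.D o τ) ((2 * aa b τ) • fderiv ℝ (Γ.σ o) x) x :=
  ((Γ.diff o x).hasFDerivAt.const_mul (2 * aa b τ)).const_add (τ ^ 2)

theorem Geo.psi_la (Γ : Geo n b) (o : E n) {τ : ℝ} (hτ : 0 < τ) (x v : E n) :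
    fderiv ℝ (Γ.la o τ) x v =
      -(4 * τ * aa b τ / Γ.D o τ x ^ 2) * fderiv ℝ (Γ.σ o) x v := by
  have hD := (Γ.D_pos o hτ x).ne'
  have h1 : HasDerivAt (fun s : ℝ => 2 * τ * s⁻¹) (2 * τ * -(Γ.D o τ x ^ 2)⁻¹) (Γ.D o τ x) :=
    (hasDerivAt_inv hD).const_mul (2 * τ)
  have h2 : HasFDerivAt (Γ.la o τ) _ x := h1.comp_hasFDerivAt x (Γ.psi_hasD o τ x)
  rw [h2.fderiv]
  simp only [ContinuousLinearMap.smul_apply, smul_eq_mul]
  field_simp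
  ring

theorem Geo.psi_ps (Γ : Geo n b) (o : E n) {τ : ℝ} (hτ : 0 < τ) (x v : E n) :
    fderiv ℝ (Γ.ps o τ) x v = -(4 * τ ^ 2 / Γ.D o τ x ^ 2) * fderiv ℝ (Γ.σ o) x v := by
  have hD := (Γ.D_pos o hτ x).ne'
  have h1 : HasDerivAt (fun s : ℝ => τ ^ 2 - 2 * (2 - aa b τ) * s) (-(2 * (2 - aa b τ) * 1))
      (Γ.σ o x) := ((hasDerivAt_id _).const_mul _).const_sub _
  have h2 : HasDerivAt (fun s : ℝ => τ ^ 2 + 2 * aa b τ * s) (2 * aa b τ * 1) (Γ.σ o x) :=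
    ((hasDerivAt_id _).const_mul _).const_add _
  have h3 := h1.div h2 hD
  have h4 : HasFDerivAt (Γ.ps o τ) _ x := h3.comp_hasFDerivAt x (Γ.diff o x).hasFDerivAt
  rw [h4.fderiv]
  simp only [ContinuousLinearMap.smul_apply, smul_eq_mul, Geo.D]
  congr 1
  rw [← neg_div]
  congr 1
  ring

theorem Geo.psi_some (Γ : Geo n b) (o : E n) {τ : ℝ} (hτ : 0 < τ) (x v : E n) (i : Fin n) :
    fderiv ℝ (fun y => Γ.la o τ y * Γ.Xi o y i) x v =
      (Γ.la o τ x • fderiv ℝ (Γ.Xi o) x v + fderiv ℝ (Γ.la o τ) x v • Γ.Xi o x) i := by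
  have h1 : HasFDerivAt (Γ.la o τ) (fderiv ℝ (Γ.la o τ) x) x :=
    ((Γ.la_sm o hτ).differentiable (by simp) x).hasFDerivAt
  have h2 : HasFDerivAt (Γ.Xi o) (fderiv ℝ (Γ.Xi o) x) x :=
    ((Γ.Xi_sm o).differentiable (by simp) x).hasFDerivAt
  have h3 : HasFDerivAt (fun y => Γ.Xi o y i) _ x :=
    (EuclideanSpace.proj (𝕜 := ℝ) i).hasFDerivAt.comp x h2
  have h4 : HasFDerivAt (fun y => Γ.la o τ y * Γ.Xi o y i) _ x := h1.mul h3
  rw [h4.fderiv]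
  simp [mul_comm]

theorem Geo.psi_conf (Γ : Geo n b) (o : E n) {τ : ℝ} (hτ : 0 < τ) (x v : E n) :
    fderiv ℝ (Γ.ps o τ) x v ^ 2 +
      ∑ i, fderiv ℝ (fun y => Γ.la o τ y * Γ.Xi o y i) x v ^ 2 =
      Γ.la o τ x ^ 2 * (‖fderiv ℝ (Γ.Xi o) x v‖ ^ 2 - b ^ 2 * fderiv ℝ (Γ.σ o) x v ^ 2) := by
  have hD := (Γ.D_pos o hτ x).ne'
  simp only [Γ.psi_some o hτ]
  rw [← EuclideanSpace.real_norm_sq_eq, norm_add_sq_real, inner_smul_left, inner_smul_right,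
    real_inner_comm, Γ.inner_Xi, norm_smul, norm_smul, mul_pow, mul_pow, Γ.norm_Xi,
    Real.norm_eq_abs, Real.norm_eq_abs, sq_abs, sq_abs, Γ.psi_la o hτ, Γ.psi_ps o hτ]
  simp only [RCLike.conj_to_real, Geo.la]
  have hDe : Γ.D o τ x = τ ^ 2 + 2 * aa b τ * Γ.σ o x := rfl
  have ha : aa b τ = 1 + b ^ 2 * τ ^ 2 / 4 := rfl
  generalize Γ.D o τ x = D at hD hDe ⊢
  generalize aa b τ = a at ha hDe ⊢
  field_simp
  subst hDe ha
  ring

theorem Geo.exists_psi (Γ : Geo n b) (o : E n) {τ : ℝ} (hτ : 0 < τ) :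
    ∃ ψ : Option (Fin n) → E n → ℝ, (∀ i, ContDiff ℝ 1 (ψ i)) ∧ (∀ x, ∑ i, ψ i x ^ 2 = 1) ∧
      (∀ z : E n × E n, ∑ i, ‖Γ.gt (ψ i) z‖ ^ 2 = Γ.la o τ z.1 ^ 2 * Γ.Wd o z) ∧
      ∀ (W : Vf n) (ρ : E n → ℝ), Continuous ρ → Γ.Bal W ρ o τ →
        ∀ i, ∫ z, ρ z.1 * ψ i z.1 ∂W.V = 0 := by
  refine ⟨fun i => Option.casesOn i (Γ.ps o τ) fun i y => Γ.la o τ y * Γ.Xi o y i,
    fun i => ?_, fun x => ?_, fun z => ?_, fun W ρ hρ hB i => ?_⟩
  · cases i with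
    | none => exact (Γ.ps_sm o hτ).of_le (by exact_mod_cast le_top)
    | some i =>
      exact ((Γ.la_sm o hτ).mul ((EuclideanSpace.proj (𝕜 := ℝ) i).contDiff.comp
        (Γ.Xi_sm o))).of_le (by exact_mod_cast le_top)
  · have hD := (Γ.D_pos o hτ x).ne'
    rw [Fintype.sum_option]
    simp only [mul_pow]
    rw [← Finset.mul_sum, ← EuclideanSpace.real_norm_sq_eq, Γ.norm_Xi, Geo.ps, Geo.la]
    have hDe : Γ.D o τ x = τ ^ 2 + 2 * aa b τ * Γ.σ o x := rfl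
    have ha : aa b τ = 1 + b ^ 2 * τ ^ 2 / 4 := rfl
    generalize Γ.D o τ x = D at hD hDe ⊢
    generalize aa b τ = a at ha hDe ⊢
    field_simp
    subst hDe ha
    ring
  · simp only [Frame.gt_eq_prj, norm_prj_sq, Frame.inner_gr, Geo.Wd]
    rw [Finset.sum_comm, Finset.mul_sum]
    refine Finset.sum_congr rfl fun j _ => ?_
    rw [Fintype.sum_option]
    exact Γ.psi_conf o hτ _ _
  · cases i with
    | none => exact hB.2
    | some i =>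
      have hc : Continuous fun z : E n × E n => (ρ z.1 * Γ.la o τ z.1) • Γ.Xi o z.1 :=
        ((hρ.mul (Γ.la_sm o hτ).continuous).comp continuous_fst).smul
          ((Γ.Xi_sm o).continuous.comp continuous_fst)
      have h := (EuclideanSpace.proj (𝕜 := ℝ) i).integral_comp_comm (W.integrable hc)
      rw [hB.1, map_zero] at h
      rw [← h]
      refine integral_congr_ae (Eventually.of_forall fun z => ?_)
      simp [mul_assoc]

end Vale.Agent.P219
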