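import Vale.Agent.P219.Per

/-!
The perimeter of the image under a diffeomorphism.
-/

open scoped ContDiff Topology ENNReal
open MeasureTheory Set Filter Metric

noncomputable section

namespace Vale.Agent.P219

variable {n k : ℕ} {b : ℝ}

section Aux

variable {T Ti : E n → E n}

theorem push_inv (hT : ContDiff ℝ 1 T) (hTi : ContDiff ℝ 1 Ti) (h1 : ∀ x, Ti (T x) = x)
    (h2 : ∀ x, T (Ti x) = x) (x : E n) : (fderiv ℝ T x).inverse = fderiv ℝ Ti (T x) := by
  have d1 := hT.differentiable one_ne_zero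
  have d2 := hTi.differentiable one_ne_zero
  refine ContinuousLinearMap.inverse_eq ?_ ?_
  · have e : fderiv ℝ (T ∘ Ti) (T x) = (fderiv ℝ T (Ti (T x))).comp (fderiv ℝ Ti (T x)) :=
      fderiv_comp _ (d1 _) (d2 _)
    rw [h1, show T ∘ Ti = id from funext h2, fderiv_id] at e
    exact e.symm
  · have e : fderiv ℝ (Ti ∘ T) x = (fderiv ℝ Ti (T x)).comp (fderiv ℝ T x) :=
      fderiv_comp _ (d2 _) (d1 _)
    rw [show Ti ∘ T = id from funext h1, fderiv_id] at e
    exact e.symm

theorem push_cov (hT : ContDiff ℝ 1 T) (h1 : ∀ x, Ti (T x) = x) (h2 : ∀ x, T (Ti x) = x)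
    (g : E n → ℝ) : ∫ y, g y = ∫ x, |(fderiv ℝ T x).det| * g (T x) := by
  have h := integral_image_eq_integral_abs_det_fderiv_smul volume MeasurableSet.univ
    (fun x _ => (hT.differentiable one_ne_zero x).hasFDerivAt.hasFDerivWithinAt)
    (Function.LeftInverse.injective h1).injOn g
  rwa [image_univ, (Function.RightInverse.surjective h2).range_eq, Measure.restrict_univ] at h

theorem push_det (hT : ContDiff ℝ 1 T) : Continuous fun x => |(fderiv ℝ T x).det| :=
  (ContinuousLinearMap.continuous_det.comp (hT.continuous_fderiv one_ne_zero)).abs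

end Aux

namespace Frame

variable (Φ : Frame n) {A : Set (E n)} {W : Vf n}

theorem push_cont {T Ti : E n → E n} (hT : ContDiff ℝ 1 T)
    (hTi : ContDiff ℝ 1 Ti) (h1 : ∀ x, Ti (T x) = x) (h2 : ∀ x, T (Ti x) = x) :
    Continuous (Φ.jacT T) := by
  have c1 : Continuous fun x => (Φ.Fi x).comp ((fderiv ℝ T x).inverse.comp (Φ.F (T x))) := by
    simp only [push_inv hT hTi h1 h2]
    exact Φ.sFi.continuous.clm_comp (((hTi.continuous_fderiv one_ne_zero).comp
      hT.continuous).clm_comp (Φ.sF.continuous.comp hT.continuous))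
  have c2 : Continuous fun x => ContinuousLinearMap.adjoint
      ((Φ.Fi x).comp ((fderiv ℝ T x).inverse.comp (Φ.F (T x)))) :=
    (ContinuousLinearMap.adjoint (𝕜 := ℝ) (E := E n) (F := E n)).continuous.comp c1
  have c3 : Continuous fun x => Φ.m (T x) * |(fderiv ℝ T x).det| / Φ.m x :=
    ((Φ.m_smooth.continuous.comp hT.continuous).mul (push_det hT)).div Φ.m_smooth.continuous
      fun x => (Φ.m_pos x).ne'
  exact ((c2.comp continuous_fst).clm_apply continuous_snd).norm.mul (c3.comp continuous_fst)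

theorem push_tv {T Ti : E n → E n} (hT : ContDiff ℝ 1 T)
    (hTi : ContDiff ℝ 1 Ti) (h1 : ∀ x, Ti (T x) = x) (h2 : ∀ x, T (Ti x) = x) {f : E n → ℝ}
    (hf : ContDiff ℝ 1 f) :
    Φ.tv (f ∘ Ti) = ∫ x, Φ.jacT T (x, Φ.nrm f x) * (‖Φ.gr f x‖ * Φ.m x) := by
  rw [tv, push_cov hT h1 h2]
  refine integral_congr_ae (Eventually.of_forall fun x => ?_)
  have e : Φ.gr (f ∘ Ti) (T x) = ContinuousLinearMap.adjoint
      ((Φ.Fi x).comp ((fderiv ℝ T x).inverse.comp (Φ.F (T x)))) (Φ.gr f x) := by
    refine Φ.gr_ext fun ξ => ?_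
    rw [ContinuousLinearMap.adjoint_inner_left, inner_gr, push_inv hT hTi h1 h2,
      fderiv_comp _ (hf.differentiable one_ne_zero _) (hTi.differentiable one_ne_zero _), h1]
    simp only [ContinuousLinearMap.comp_apply, Φ.right]
  have hm := (Φ.m_pos x).ne'
  simp only [e, jacT, nrm, map_neg, map_smul, norm_neg, norm_smul, norm_inv, norm_norm]
  by_cases h0 : Φ.gr f x = 0
  · simp [h0]
  · have := norm_ne_zero_iff.2 h0
    field_simp

theorem per_image_le (hA : BM A) (hL : Φ.Lim A W) {T Ti : E n → E n} (hT : ContDiff ℝ 1 T)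
    (hTi : ContDiff ℝ 1 Ti) (h1 : ∀ x, Ti (T x) = x) (h2 : ∀ x, T (Ti x) = x) :
    BM (T '' A) ∧ Φ.per (T '' A) ≤ ENNReal.ofReal (∫ z, Φ.jacT T z ∂W.V) := by
  obtain ⟨R, hR⟩ := hL
  obtain ⟨R0, hR0⟩ := hA.bdd.subset_closedBall 0
  have hK := isCompact_closedBall (0 : E n) (max R R0)
  have hAK : A ⊆ closedBall 0 (max R R0) := hR0.trans (closedBall_subset_closedBall (le_max_right _ _))
  obtain ⟨R', hR'⟩ := hK.exists_bound_of_continuousOn hT.continuous.continuousOn
  obtain ⟨C, hC⟩ := hK.exists_bound_of_continuousOn (push_det hT).continuousOn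
  have eA : T '' A = Ti ⁻¹' A := congrFun (image_eq_preimage_of_inverse h1 h2) A
  have hB : BM (T '' A) := ⟨eA ▸ hTi.continuous.measurable hA.meas,
    (hK.image hT.continuous).isBounded.subset (image_mono hAK)⟩
  refine ⟨hB, Φ.per_le_of_close hB (R := R' + 1) fun ε hε => ?_⟩
  have hC1 : 0 < max C 1 := lt_max_of_lt_right one_pos
  obtain ⟨f, hf, hf'⟩ := hR _ (Φ.push_cont hT hTi h1 h2) (ε / max C 1) (div_pos hε hC1)
  refine ⟨f ∘ Ti, ⟨hf.smooth.comp hTi, fun y hy => hf.supp _ ?_, ?_⟩, ?_⟩
  · by_contra h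
    have := hR' (Ti y) (mem_closedBall_zero_iff.2 ((not_le.1 h).le.trans (le_max_left _ _)))
    rw [h2] at this
    linarith
  · have i1 : Integrable fun x => max C 1 * |f x - A.indicator 1 x| :=
      ((hf.smooth.continuous.integrable_of_hasCompactSupport hf.compact).sub
        ((integrable_indicator_iff hA.meas).2 (hA.integrableOn continuous_one))).abs.const_mul _
    rw [push_cov hT h1 h2]
    refine (integral_mono_of_nonneg (Eventually.of_forall fun x => by positivity) i1
      (Eventually.of_forall fun x => ?_)).trans ?_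
    · have e : (T '' A).indicator (1 : E n → ℝ) (T x) = A.indicator 1 x := by
        by_cases hx : x ∈ A
        · rw [indicator_of_mem hx, indicator_of_mem (mem_image_of_mem T hx)]
          rfl
        · rw [indicator_of_notMem hx, indicator_of_notMem]
          rwa [eA, mem_preimage, h1]
      simp only [Function.comp, h1, e]
      by_cases hx : x ∈ closedBall (0 : E n) (max R R0)
      · exact mul_le_mul_of_nonneg_right
          (((le_abs_self _).trans (hC x hx)).trans (le_max_left _ _)) (abs_nonneg _)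
      · rw [indicator_of_notMem fun h => hx (hAK h), hf.supp x
          ((le_max_left _ _).trans (not_le.1 (mt mem_closedBall_zero_iff.2 hx)).le)]
        simp
    · rw [integral_const_mul, ← le_div_iff₀' hC1]
      exact hf.near
  · rw [Φ.push_tv hT hTi h1 h2 hf.smooth]
    exact sub_le_iff_le_add'.1 ((abs_le.1 hf').2.trans (div_le_self hε.le (le_max_right _ _)))

end Frame


end Vale.Agent.P219
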