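import Vale.Agent.P219.Sig

/-!
The Rauch comparison for the logarithm map.
-/

open scoped ContDiff Topology Manifold Bundle
open Set Filter

set_option maxSynthPendingDepth 3

noncomputable section

namespace Vale.Agent.P219.R

variable {n : ℕ} {b : ℝ}

namespace Xd

variable (X : Xd n b) {q : ℝ → ℝ} {Φ : Frame n}

theorem Rauch_lg (o : E n) : Differentiable ℝ (X.lg o) :=
  (X.lg_smooth.comp (contDiff_const.prodMk contDiff_id : ContDiff ℝ ∞ fun p : E n => (o, p))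
    ).differentiable (by simp)

theorem Rauch_ex (o : E n) : Differentiable ℝ (X.ex o) :=
  (X.sex.comp (contDiff_const.prodMk contDiff_id : ContDiff ℝ ∞ fun p : E n => (o, p))
    ).differentiable (by simp)

theorem Rauch_P (hq : MQ b q) (Φ : Frame n) (o v : E n) :
    ∃ L : E n →L[ℝ] E n, HasFDerivAt (fun v => -((2 * deriv q (X.G o v v)) • Φ.Fi o v)) L v ∧
      ∀ u, L u = -Φ.Fi o ((2 * deriv q (X.G o v v)) • u +
        (4 * deriv (deriv q) (X.G o v v) * X.G o v u) • v) := by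
  have h1 : HasFDerivAt (fun v => X.G o v v) _ v :=
    (X.G o).hasFDerivAt.clm_apply (hasFDerivAt_id v)
  have h2 : HasDerivAt (deriv q) (deriv (deriv q) (X.G o v v)) (X.G o v v) :=
    (((contDiff_infty_iff_deriv.1 hq.smooth).2.differentiable (by simp)) _).hasDerivAt
  refine ⟨_, (((HasDerivAt.comp_hasFDerivAt (f := fun v => X.G o v v) v h2 h1).const_mul
    2).smul (Φ.Fi o).hasFDerivAt).neg, fun u => ?_⟩
  simp [(X.pd o).symm u v]
  congr 2
  ring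

theorem Rauch_eq (hq : MQ b q) (hΦ : X.ON Φ) (o : E n) : (fun y => Φ.gr (X.sig q y) o) =
    (fun v => -((2 * deriv q (X.G o v v)) • Φ.Fi o v)) ∘ X.lg o := by
  funext y
  conv_lhs => rw [← X.ex_lg o y]
  exact X.xi_eq hq hΦ o _

theorem Rauch_d (hq : MQ b q) (hΦ : X.ON Φ) (o v u : E n) :
    fderiv ℝ (fun y => Φ.gr (X.sig q y) o) (X.ex o v) (fderiv ℝ (X.ex o) v u) =
      -Φ.Fi o ((2 * deriv q (X.G o v v)) • u +
        (4 * deriv (deriv q) (X.G o v v) * X.G o v u) • v) := by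
  obtain ⟨L, hL, h⟩ := X.Rauch_P hq Φ o v
  have h1 : DifferentiableAt ℝ (fun y => Φ.gr (X.sig q y) o) (X.ex o v) := by
    rw [X.Rauch_eq hq hΦ]
    refine DifferentiableAt.comp _ ?_ (X.Rauch_lg o _)
    rw [X.lg_ex]
    exact hL.differentiableAt
  have h2 := h1.hasFDerivAt.comp v (X.Rauch_ex o v).hasFDerivAt
  have h3 : (fun y => Φ.gr (X.sig q y) o) ∘ X.ex o =
      fun v => -((2 * deriv q (X.G o v v)) • Φ.Fi o v) := funext fun v => X.xi_eq hq hΦ o v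
  rw [h3] at h2
  rw [← h, ← h2.unique hL]
  rfl

theorem Rauch_pn (hq : MQ b q) {o v u ξ : E n}
    (hξ : Φ.F (X.ex o v) ξ = fderiv ℝ (X.ex o) v u) :
    inner ℝ (Φ.gr (X.sig q o) (X.ex o v)) ξ = 2 * deriv q (X.G o v v) * X.G o v u := by
  rw [Φ.inner_gr, hξ, X.fderiv_sig hq]

theorem Rauch_id (hq : MQ b q) (hΦ : X.ON Φ) {o v w ξ : E n} {α : ℝ} (h : X.G o w v = 0)
    (hξ : Φ.F (X.ex o v) ξ = fderiv ℝ (X.ex o) v (w + α • v)) :
    ‖ξ‖ ^ 2 + b ^ 2 * inner ℝ (Φ.gr (X.sig q o) (X.ex o v)) ξ ^ 2 -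
      ‖fderiv ℝ (fun y => Φ.gr (X.sig q y) o) (X.ex o v) (Φ.F (X.ex o v) ξ)‖ ^ 2 =
      jsq X.G X.ex o v w 1 - (2 * deriv q (X.G o v v)) ^ 2 * X.G o w w := by
  have h' : X.G o v w = 0 := ((X.pd o).symm v w).trans h
  have h1 : ‖ξ‖ ^ 2 = jsq X.G X.ex o v w 1 + α ^ 2 * 1 ^ 2 * X.G o v v := by
    rw [← X.jsq_add h, ← real_inner_self_eq_norm_sq, ← hΦ (X.ex o v), hξ, jsq, one_smul, one_smul]
  have h2 := hq.d2 _ (X.Lg_nonneg o v)
  have h3 := hq.sq _ (X.Lg_nonneg o v)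
  rw [h1, X.Rauch_pn hq hξ, hξ, X.Rauch_d hq hΦ, norm_neg, ← real_inner_self_eq_norm_sq,
    X.norm_Fi hΦ]
  simp only [map_add, map_smul, add_apply, smul_apply, smul_eq_mul, h, h']
  generalize X.G o v v = s at *
  generalize deriv (deriv q) s = c2 at *
  generalize deriv q s = c1 at *
  generalize q s = c0 at *
  linear_combination (-α ^ 2 * s * (2 * c1 + 4 * s * c2 + 1 + b ^ 2 * c0)) * h2 +
    α ^ 2 * s * b ^ 2 * h3

theorem Rauch_dec (Φ : Frame n) (o v ξ : E n) : ∃ (w : E n) (α : ℝ), X.G o w v = 0 ∧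
    Φ.F (X.ex o v) ξ = fderiv ℝ (X.ex o) v (w + α • v) := by
  obtain ⟨u, hu⟩ := (X.dex_bij o v).2 (Φ.F (X.ex o v) ξ)
  obtain ⟨w, α, rfl, h⟩ := X.decomp o v u
  exact ⟨w, α, h, hu.symm⟩

theorem Rauch_smul (o v : E n) (t : ℝ) : X.G o (t • v) (t • v) = t ^ 2 * X.G o v v := by
  simp only [map_smul, smul_apply, smul_eq_mul]
  ring

theorem Rauch_bij (hq : MQ b q) (o : E n) :
    Function.Bijective fun v : E n => (2 * deriv q (X.G o v v)) • v := by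
  have h0 : ∀ v, √(X.G o ((2 * deriv q (X.G o v v)) • v) ((2 * deriv q (X.G o v v)) • v)) =
      sn b √(X.G o v v) := fun v => by
    have := hq.pos _ (X.Lg_nonneg o v)
    rw [X.Rauch_smul, Real.sqrt_mul (sq_nonneg _), Real.sqrt_sq (by positivity), ← hq.d1,
      Real.sq_sqrt (X.Lg_nonneg o v)]
    ring
  refine ⟨fun v v' (h : _ • v = _ • v') => ?_, fun u => ?_⟩
  · have h1 := h0 v
    rw [h, h0] at h1
    have h2 := (Real.sqrt_inj (X.Lg_nonneg o v') (X.Lg_nonneg o v)).1 (hq.mono.injective h1)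
    rw [h2] at h
    have := hq.pos _ (X.Lg_nonneg o v)
    exact smul_right_injective _ (by positivity) h
  · rcases eq_or_ne u 0 with rfl | hu
    · exact ⟨0, by simp⟩
    have h1 := (X.pd o).pos u hu
    have h2 := Real.sqrt_pos.2 h1
    obtain ⟨r, -, hr⟩ := hq.surj _ h2.le
    refine ⟨(r / √(X.G o u u)) • u, ?_⟩
    have h3 : (r / √(X.G o u u)) ^ 2 * X.G o u u = r ^ 2 := by
      rw [div_pow, Real.sq_sqrt h1.le, div_mul_cancel₀ _ h1.ne']
    simp only [X.Rauch_smul, h3, smul_smul]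
    rw [← mul_div_assoc, mul_right_comm, hq.d1, hr, div_self h2.ne', one_smul]

theorem sig_rauch (hq : MQ b q) (hΦ : X.ON Φ) (o x ξ : E n) :
    ‖fderiv ℝ (fun y => Φ.gr (X.sig q y) o) x (Φ.F x ξ)‖ ^ 2 ≤
      ‖ξ‖ ^ 2 + b ^ 2 * inner ℝ (Φ.gr (X.sig q o) x) ξ ^ 2 := by
  obtain ⟨v, rfl⟩ := (X.bij o).2 x
  obtain ⟨w, α, h, hξ⟩ := X.Rauch_dec Φ o v ξ
  linarith [X.Rauch_id hq hΦ h hξ, X.cmp1 hq h]

theorem sig_bij (hq : MQ b q) (hΦ : X.ON Φ) (o : E n) :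
    Function.Bijective fun y => Φ.gr (X.sig q y) o := by
  have h1 : Function.Bijective (Φ.Fi o) :=
    Function.bijective_iff_has_inverse.2 ⟨Φ.F o, Φ.right o, Φ.left o⟩
  have h2 : Function.Bijective (X.lg o) :=
    Function.bijective_iff_has_inverse.2 ⟨X.ex o, X.ex_lg o, X.lg_ex o⟩
  rw [X.Rauch_eq hq hΦ]
  refine Function.Bijective.comp ?_ h2
  have h3 := (neg_involutive.bijective.comp h1).comp (X.Rauch_bij hq o)
  simpa only [Function.comp_def, map_smul] using h3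

theorem sig_rigid (hq : MQ b q) (hΦ : X.ON Φ) (o : E n) (s : ℝ) (hs : 0 < s)
    (h : ∀ x, X.sig q o x = s → ∀ ξ, inner ℝ (Φ.gr (X.sig q o) x) ξ = 0 →
      ‖fderiv ℝ (fun y => Φ.gr (X.sig q y) o) x (Φ.F x ξ)‖ = ‖ξ‖) (x : E n)
    (hx : X.sig q o x < s) (ξ : E n) :
    ‖fderiv ℝ (fun y => Φ.gr (X.sig q y) o) x (Φ.F x ξ)‖ ^ 2 =
      ‖ξ‖ ^ 2 + b ^ 2 * inner ℝ (Φ.gr (X.sig q o) x) ξ ^ 2 := by
  obtain ⟨v, rfl⟩ := (X.bij o).2 x
  obtain ⟨w, α, hw, hξ⟩ := X.Rauch_dec Φ o v ξ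
  suffices jsq X.G X.ex o v w 1 = (2 * deriv q (X.G o v v)) ^ 2 * X.G o w w by
    linarith [X.Rauch_id hq hΦ hw hξ]
  rcases eq_or_ne v 0 with rfl | hv
  · simp [jsq, X.zero, X.dzero, hq.d0]
  rw [X.sig_ex] at hx
  have h0 := (X.pd o).pos v hv
  have hc : Continuous fun l : ℝ => q (l ^ 2 * X.G o v v) :=
    hq.smooth.continuous.comp (by fun_prop)
  have h1 : 0 < 2 * s / X.G o v v := by positivity
  obtain ⟨l, hl, he⟩ := intermediate_value_Icc (a := 1) (b := 1 + 2 * s / X.G o v v)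
    (by linarith) hc.continuousOn (show s ∈ Icc _ _ from ⟨by simpa using hx.le, by
      refine le_trans ?_ (hq.lower _ (by positivity))
      have : 2 * s / X.G o v v * X.G o v v = 2 * s := div_mul_cancel₀ _ h0.ne'
      nlinarith [mul_pos (mul_pos h1 h1) h0]⟩)
  have l0 : 0 < l := one_pos.trans_le hl.1
  have hw' : X.G o w (l • v) = 0 := by simp [hw]
  have hξ' : Φ.F (X.ex o (l • v)) (Φ.Fi (X.ex o (l • v)) (fderiv ℝ (X.ex o) (l • v) w)) =
      fderiv ℝ (X.ex o) (l • v) (w + (0 : ℝ) • l • v) := by rw [Φ.right, zero_smul, add_zero]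
  have h2 : inner ℝ (Φ.gr (X.sig q o) (X.ex o (l • v)))
      (Φ.Fi (X.ex o (l • v)) (fderiv ℝ (X.ex o) (l • v) w)) = 0 := by
    rw [X.Rauch_pn hq hξ', zero_smul, add_zero, (X.pd o).symm _ w, hw', mul_zero]
  have h3 := X.Rauch_id hq hΦ hw' hξ'
  rw [h _ (by rw [X.sig_ex, X.Rauch_smul]; exact he) _ h2, h2] at h3
  have h4 := X.cmp3 hq hw' (by linarith) (t := l⁻¹) ⟨by positivity, inv_le_one_of_one_le₀ hl.1⟩
  rwa [inv_smul_smul₀ l0.ne'] at h4

end Xd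


end Vale.Agent.P219.R
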