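import Vale.Agent.P219.Lg
import Vale.Agent.P219.Fr1

/-!
First order properties of the modified distance.
-/

open scoped ContDiff Topology Manifold Bundle
open Set Filter

set_option maxSynthPendingDepth 3

noncomputable section

namespace Vale.Agent.P219.R

variable {n : ℕ} {b : ℝ}

theorem sg_compact {A : Bil n} (hA : PD A) (R : ℝ) : IsCompact {w : E n | ip A w w ≤ R} := by
  have hc : Continuous fun w : E n => ip A w w := c0_cont A
  rcases subsingleton_or_nontrivial (E n) with h0 | h0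
  · exact (Set.toFinite _).isCompact
  obtain ⟨z, hz, hm⟩ := (isCompact_sphere (0 : E n) 1).exists_isMinOn
    (NormedSpace.sphere_nonempty.2 zero_le_one) hc.continuousOn
  have h0 : 0 < ip A z z := ip_pos hA fun h => by simp [h] at hz
  refine Metric.isCompact_of_isClosed_isBounded (isClosed_le hc continuous_const)
    ((Metric.isBounded_closedBall (x := (0 : E n)) (r := √(R / ip A z z))).subset fun w hw => ?_)
  rcases eq_or_ne w 0 with rfl | h
  · simp
  have h1 := norm_pos_iff.2 h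
  have h2 : ip A z z ≤ ip A (‖w‖⁻¹ • w) (‖w‖⁻¹ • w) := hm (by simp [norm_smul, h1.ne'])
  rw [ip_smul_left, ip_smul_right, ← mul_assoc, ← mul_inv, le_inv_mul_iff₀ (by positivity)] at h2
  rw [mem_closedBall_zero_iff]
  exact Real.le_sqrt_of_sq_le ((le_div_iff₀ h0).2 (by rw [sq]; exact h2.trans hw))

theorem sg_mono {q : ℝ → ℝ} (hq : MQ b q) : MonotoneOn q (Ici 0) :=
  monotoneOn_of_deriv_nonneg (convex_Ici 0) hq.smooth.continuous.continuousOn
    (hq.smooth.differentiable (by simp)).differentiableOn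
    fun s hs => (hq.pos s (interior_subset hs)).le

namespace Xd

variable (X : Xd n b) {q : ℝ → ℝ} {Φ : Frame n}

theorem sg_nonneg (o v : E n) : 0 ≤ X.G o v v := ip_nonneg (X.pd o) v

theorem sg_ex (o : E n) : ContDiff ℝ ∞ (X.ex o) := X.sex.comp (contDiff_const.prodMk contDiff_id)

theorem sg_dex (o v : E n) : HasFDerivAt (X.ex o) (fderiv ℝ (X.ex o) v) v :=
  ((X.sg_ex o).differentiable (by simp) v).hasFDerivAt

theorem sg_d (x y : E n) : X.d x y = √(X.G x (X.lg x y) (X.lg x y)) := by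
  rw [← X.dist, X.ex_lg]

theorem sig_ex (q : ℝ → ℝ) (o v : E n) : X.sig q o (X.ex o v) = q (X.G o v v) := by
  rw [sig, X.lg_ex]

theorem sig_smooth (hq : MQ b q) : ContDiff ℝ ∞ fun p : E n × E n => X.sig q p.1 p.2 :=
  hq.smooth.comp (((X.sG.comp contDiff_fst).clm_apply X.lg_smooth).clm_apply X.lg_smooth)

theorem sig_eq (hq : MQ b q) (x y : E n) : X.sig q x y = md b (X.d x y) := by
  rw [X.sg_d, ← hq.eq, Real.sq_sqrt (X.sg_nonneg _ _), sig]

theorem sig_symm (hq : MQ b q) (x y : E n) : X.sig q x y = X.sig q y x := by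
  rw [X.sig_eq hq, X.sig_eq hq, X.symm]

theorem sig_self (hq : MQ b q) (x : E n) : X.sig q x x = 0 := by
  have h1 := X.sig_ex q x 0
  have h2 := hq.eq 0
  rw [X.zero, map_zero] at h1
  rw [zero_pow two_ne_zero] at h2
  rw [h1, h2]
  simp [md]

theorem sig_pos (hq : MQ b q) (x y : E n) (h : x ≠ y) : 0 < X.sig q x y := by
  obtain ⟨v, rfl⟩ := (X.bij x).2 y
  have h1 : 0 < X.G x v v := (X.pd x).pos v fun hv => h (by rw [hv, X.zero])
  rw [X.sig_ex]
  exact (half_pos h1).trans_le (hq.lower _ h1.le)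

theorem sig_bdd (hq : MQ b q) (K : Set (E n)) (hK : IsCompact K) (s : ℝ) :
    Bornology.IsBounded {o | ∃ x ∈ K, X.sig q o x ≤ s} := by
  have h1 : Continuous (X.lg 0) :=
    X.lg_smooth.continuous.comp (continuous_const.prodMk continuous_id)
  have h2 : Continuous fun x => √(ip (X.G 0) (X.lg 0 x) (X.lg 0 x)) :=
    ((c0_cont (X.G 0)).comp h1).sqrt
  obtain ⟨C, hC⟩ := hK.exists_bound_of_continuousOn h2.continuousOn
  refine ((sg_compact (X.pd 0) ((C + √(2 * s)) ^ 2)).image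
    (X.sg_ex 0).continuous).isBounded.subset ?_
  rintro o ⟨x, hx, hs⟩
  refine ⟨X.lg 0 o, ?_, X.ex_lg 0 o⟩
  have h3 : X.d 0 x ≤ C := by
    rw [X.sg_d]
    exact (le_abs_self _).trans (hC x hx)
  have h4 : X.d x o ≤ √(2 * s) := by
    rw [X.symm, X.sg_d]
    refine Real.sqrt_le_sqrt ?_
    have := (hq.lower _ (X.sg_nonneg o (X.lg o x))).trans hs
    linarith
  have h5 := (X.tri 0 x o).trans (add_le_add h3 h4)
  rw [X.sg_d] at h5
  exact (Real.sqrt_le_left ((Real.sqrt_nonneg _).trans h5)).1 h5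

theorem sig_conn (hq : MQ b q) (o : E n) (s : ℝ) : IsPreconnected {x | X.sig q o x < s} := by
  have h1 : {x | X.sig q o x < s} = X.ex o '' {v | q (X.G o v v) < s} := by
    ext x
    refine ⟨fun h => ⟨X.lg o x, h, X.ex_lg o x⟩, ?_⟩
    rintro ⟨v, hv, rfl⟩
    rw [mem_ofPred_eq, X.sig_ex]
    exact hv
  have h2 : StarConvex ℝ (0 : E n) {v | q (X.G o v v) < s} := by
    intro v hv a c ha hc hac
    refine lt_of_le_of_lt (sg_mono hq (X.sg_nonneg _ _) (X.sg_nonneg _ _) ?_) hv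
    rw [smul_zero, zero_add, map_smul, map_smul, smul_apply, smul_eq_mul,
      smul_eq_mul, ← mul_assoc]
    exact mul_le_of_le_one_left (X.sg_nonneg _ _) (by nlinarith)
  rw [h1]
  refine IsPreconnected.image ?_ _ (X.sg_ex o).continuous.continuousOn
  rcases {v | q (X.G o v v) < s}.eq_empty_or_nonempty with h | h
  · rw [h]
    exact isPreconnected_empty
  · exact (h2.isPathConnected (h2.mem h)).isConnected.isPreconnected

theorem norm_Fi (hΦ : X.ON Φ) (x u v : E n) : inner ℝ (Φ.Fi x u) (Φ.Fi x v) = X.G x u v := by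
  rw [← hΦ x, Φ.right, Φ.right]

theorem fderiv_sig (hq : MQ b q) (o v u : E n) :
    fderiv ℝ (X.sig q o) (X.ex o v) (fderiv ℝ (X.ex o) v u) =
      2 * deriv q (X.G o v v) * X.G o v u := by
  have h0 : ContDiff ℝ ∞ (X.sig q o) := (X.sig_smooth hq).comp (contDiff_const.prodMk contDiff_id)
  have h1 := (h0.differentiable (by simp) (X.ex o v)).hasFDerivAt.comp v (X.sg_dex o v)
  have h2 : HasFDerivAt (fun v => X.G o v v) _ v :=
    (X.G o).hasFDerivAt.clm_apply (hasFDerivAt_id v)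
  have h3 := HasDerivAt.comp_hasFDerivAt (f := fun v => X.G o v v) v
    (hq.smooth.differentiable (by simp) (X.G o v v)).hasDerivAt h2
  have h4 : X.sig q o ∘ X.ex o = q ∘ fun v => X.G o v v := funext fun v => X.sig_ex q o v
  rw [h4] at h1
  have h5 := congrArg (fun L : E n →L[ℝ] ℝ => L u) (h1.unique h3)
  simp only [ContinuousLinearMap.comp_apply, smul_apply,
    add_apply, ContinuousLinearMap.id_apply, ContinuousLinearMap.flip_apply,
    smul_eq_mul] at h5
  rw [h5, (X.pd o).symm u v]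
  ring

theorem gr_sig (hq : MQ b q) (hΦ : X.ON Φ) (o v : E n) : Φ.gr (X.sig q o) (X.ex o v) =
    (2 * deriv q (X.G o v v)) • Φ.Fi (X.ex o v) (fderiv ℝ (X.ex o) v v) := by
  refine Φ.gr_ext fun ξ => ?_
  obtain ⟨u, hu⟩ := (X.dex_bij o v).2 (Φ.F (X.ex o v) ξ)
  rw [← hu, X.fderiv_sig hq, inner_smul_left, RCLike.conj_to_real, ← Φ.left (X.ex o v) ξ,
    X.norm_Fi hΦ, ← hu, (X.pd _).symm (fderiv ℝ (X.ex o) v v), X.gauss, (X.pd o).symm u v]

theorem sig_grad (hq : MQ b q) (hΦ : X.ON Φ) (o x : E n) :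
    ‖Φ.gr (X.sig q o) x‖ ^ 2 = 2 * X.sig q o x + b ^ 2 * X.sig q o x ^ 2 := by
  obtain ⟨v, rfl⟩ := (X.bij o).2 x
  rw [X.gr_sig hq hΦ, X.sig_ex, ← hq.sq _ (X.sg_nonneg o v), norm_smul, mul_pow, Real.norm_eq_abs,
    sq_abs, ← real_inner_self_eq_norm_sq, X.norm_Fi hΦ, X.gauss, mul_comm]

theorem xi_eq (hq : MQ b q) (hΦ : X.ON Φ) (o v : E n) :
    Φ.gr (X.sig q (X.ex o v)) o = -((2 * deriv q (X.G o v v)) • Φ.Fi o v) := by
  obtain ⟨R, hR⟩ : ∃ R, R = fderiv ℝ (X.ex o) v v := ⟨_, rfl⟩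
  have h1 : ∀ t : ℝ, X.ex (X.ex o v) (t • R) = X.ex o ((1 + t) • v) := fun t => by
    have := X.flow o v 1 t
    rwa [one_smul, ← hR] at this
  have h2 : X.ex (X.ex o v) (-R) = o := by
    have := h1 (-1)
    rwa [add_neg_cancel, zero_smul, X.zero, neg_one_smul] at this
  have h3 : HasDerivAt (fun t : ℝ => X.ex (X.ex o v) (t • R))
      (fderiv ℝ (X.ex (X.ex o v)) (-R) R) (-1) := by
    have a1 : HasDerivAt (fun t : ℝ => t • R) R (-1) := by
      simpa using (hasDerivAt_id (-1 : ℝ)).smul_const R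
    exact (X.sg_dex (X.ex o v) (-R)).comp_hasDerivAt_of_eq (-1) a1 (neg_one_smul ℝ R).symm
  have h4 : HasDerivAt (fun t : ℝ => X.ex o ((1 + t) • v)) (fderiv ℝ (X.ex o) 0 v) (-1) := by
    have a1 : HasDerivAt (fun t : ℝ => (1 + t) • v) v (-1) := by
      simpa using ((hasDerivAt_id (-1 : ℝ)).const_add 1).smul_const v
    exact (X.sg_dex o 0).comp_hasDerivAt_of_eq (-1) a1 (by rw [add_neg_cancel, zero_smul])
  rw [funext h1] at h3
  have h5 := h3.unique h4
  rw [X.dzero] at h5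
  have h6 : X.G (X.ex o v) (-R) (-R) = X.G o v v := by
    rw [map_neg, map_neg, neg_apply, neg_neg, hR, X.gauss]
  have h7 := X.gr_sig hq hΦ (X.ex o v) (-R)
  rwa [h2, h6, map_neg, h5, map_neg, smul_neg] at h7

end Xd


end Vale.Agent.P219.R
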