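import Vale.Agent.P219.Fr2

/-!
From the weak to the strong Sobolev inequality.
-/

open scoped ContDiff Topology ENNReal
open MeasureTheory Set Filter Metric

noncomputable section

namespace Vale.Agent.P219

variable {n k : ℕ} {b : ℝ}

theorem sobS_sum_rpow {p : ℝ} (hp : 1 ≤ p) (x : ℕ → ℝ) (hx : ∀ j, 0 ≤ x j) (N : ℕ) :
    ∑ j ∈ Finset.range N, x j ^ p ≤ (∑ j ∈ Finset.range N, x j) ^ p := by
  induction N with
  | zero =>
    simp only [Finset.range_zero, Finset.sum_empty]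
    exact Real.rpow_nonneg le_rfl p
  | succ N ih =>
    rw [Finset.sum_range_succ, Finset.sum_range_succ]
    have h1 := Real.add_rpow_le_rpow_add (Finset.sum_nonneg fun j (_ : j ∈ Finset.range N) => hx j)
      (hx N) hp
    linarith

theorem sobS_cut_sum {χ : ℝ → ℝ} (h0 : ∀ t, t ≤ 1 / 2 → χ t = 0) (h1 : ∀ t, 0 ≤ χ t ∧ χ t ≤ 1)
    {ε s : ℝ} (hε : 0 < ε) (hs : 0 ≤ s) (N : ℕ) :
    ∑ j ∈ Finset.range N, ε * 2 ^ j * χ ((ε * 2 ^ j)⁻¹ * s) ≤ ε * 2 ^ N ∧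
      ∑ j ∈ Finset.range N, ε * 2 ^ j * χ ((ε * 2 ^ j)⁻¹ * s) ≤ 4 * s := by
  induction N with
  | zero =>
    simp only [Finset.range_zero, Finset.sum_empty]
    constructor
    · positivity
    · positivity
  | succ N ih =>
    rw [Finset.sum_range_succ]
    have ht : 0 < ε * 2 ^ N := by positivity
    have h2 : ε * 2 ^ N * χ ((ε * 2 ^ N)⁻¹ * s) ≤ ε * 2 ^ N := by
      have := mul_le_mul_of_nonneg_left (h1 ((ε * 2 ^ N)⁻¹ * s)).2 ht.le
      linarith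
    have h3 : ε * 2 ^ (N + 1) = 2 * (ε * 2 ^ N) := by ring
    refine ⟨by linarith [ih.1], ?_⟩
    by_cases hc : (ε * 2 ^ N)⁻¹ * s ≤ 1 / 2
    · rw [h0 _ hc]
      linarith [ih.2]
    · have h4 : 1 / 2 < (ε * 2 ^ N)⁻¹ * s := not_le.mp hc
      rw [lt_inv_mul_iff₀ ht] at h4
      linarith [ih.1]

theorem sobS_der_sum {ψ : ℝ → ℝ} {L : ℝ} (hL : 0 < L) (h1 : ∀ t, 0 ≤ ψ t ∧ ψ t ≤ L)
    (h0 : ∀ t, t ≤ 1 / 2 ∨ 1 ≤ t → ψ t = 0) {ε s : ℝ} (hε : 0 < ε) (N : ℕ) :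
    ∑ j ∈ Finset.range N, ψ ((ε * 2 ^ j)⁻¹ * s) ≤ L ∧
      (ε * 2 ^ N ≤ 2 * s → ∑ j ∈ Finset.range N, ψ ((ε * 2 ^ j)⁻¹ * s) = 0) := by
  induction N with
  | zero =>
    simp only [Finset.range_zero, Finset.sum_empty]
    exact ⟨hL.le, fun _ => trivial⟩
  | succ N ih =>
    rw [Finset.sum_range_succ]
    have ht : 0 < ε * 2 ^ N := by positivity
    have h3 : ε * 2 ^ (N + 1) = 2 * (ε * 2 ^ N) := by ring
    constructor
    · by_cases hc : (ε * 2 ^ N)⁻¹ * s ≤ 1 / 2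
      · rw [h0 _ (Or.inl hc)]
        linarith [ih.1]
      · have h4 : 1 / 2 < (ε * 2 ^ N)⁻¹ * s := not_le.mp hc
        rw [lt_inv_mul_iff₀ ht] at h4
        rw [ih.2 (by linarith)]
        linarith [(h1 ((ε * 2 ^ N)⁻¹ * s)).2]
    · intro h5
      have h6 : 1 ≤ (ε * 2 ^ N)⁻¹ * s := by
        rw [le_inv_mul_iff₀ ht]
        linarith
      rw [ih.2 (by linarith), h0 _ (Or.inr h6)]
      simp

theorem sobS_layer {p ε s : ℝ} (hp : 0 ≤ p) (hε : 0 < ε) (hs : 0 ≤ s) (N : ℕ)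
    (hN : s < ε * 2 ^ N) :
    s ^ p ≤ ε ^ p + ∑ j ∈ Finset.range N,
      (if ε * 2 ^ j ≤ s then (2 * (ε * 2 ^ j)) ^ p else 0) := by
  induction N with
  | zero =>
    simp only [Finset.range_zero, Finset.sum_empty, add_zero]
    exact Real.rpow_le_rpow hs (by simpa using hN.le) hp
  | succ N ih =>
    rw [Finset.sum_range_succ]
    have hnn : 0 ≤ ∑ j ∈ Finset.range N,
        (if ε * 2 ^ j ≤ s then (2 * (ε * 2 ^ j)) ^ p else 0) := by
      refine Finset.sum_nonneg fun j _ => ?_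
      split_ifs
      · positivity
      · exact le_rfl
    by_cases hc : ε * 2 ^ N ≤ s
    · rw [if_pos hc]
      have h1 : s ^ p ≤ (2 * (ε * 2 ^ N)) ^ p :=
        Real.rpow_le_rpow hs (by have : ε * 2 ^ (N + 1) = 2 * (ε * 2 ^ N) := by ring
                                 linarith) hp
      have h2 : 0 ≤ ε ^ p := by positivity
      linarith
    · rw [if_neg hc]
      linarith [ih (not_le.mp hc)]

theorem Frame.sobS_level (Φ : Frame n) {W : Vf n} {a C : ℝ} (ha : 0 ≤ a)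
    (h : ∀ θ : E n → ℝ, ContDiff ℝ 1 θ → (∀ y, 0 ≤ θ y) →
      W.V.real {w | 1 ≤ θ w.1} ^ a ≤ C * ∫ w, (‖Φ.gt θ w‖ + θ w.1) ∂W.V)
    {χ : ℝ → ℝ} (hχ : ContDiff ℝ ∞ χ) (h1 : ∀ t, 1 ≤ t → χ t = 1) (h2 : ∀ t, 0 ≤ χ t)
    (h3 : ∀ t, 0 ≤ deriv χ t) {w : E n → ℝ} (hw : ContDiff ℝ 1 w) {t : ℝ} (ht : 0 < t) :
    t * W.V.real {z | t ≤ w z.1} ^ a ≤
      C * ∫ z, (deriv χ (t⁻¹ * w z.1) * ‖Φ.gt w z‖ + t * χ (t⁻¹ * w z.1)) ∂W.V := by
  have hχ1 : ContDiff ℝ 1 χ := hχ.of_le (by simp)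
  have hθ : ContDiff ℝ 1 fun y => χ (t⁻¹ * w y) := hχ1.comp (contDiff_const.mul hw)
  have h4 := h _ hθ fun y => h2 _
  have h5 : W.V.real {z | t ≤ w z.1} ≤ W.V.real {z | 1 ≤ χ (t⁻¹ * w z.1)} := by
    refine measureReal_mono fun z hz => ?_
    have hz' : t ≤ w z.1 := hz
    have : 1 ≤ t⁻¹ * w z.1 := by
      rw [le_inv_mul_iff₀ ht]
      linarith
    exact (h1 _ this).ge
  have h6 := Real.rpow_le_rpow measureReal_nonneg h5 ha
  have h7 : ∫ z, (deriv χ (t⁻¹ * w z.1) * ‖Φ.gt w z‖ + t * χ (t⁻¹ * w z.1)) ∂W.V =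
      t * ∫ z, (‖Φ.gt (fun y => χ (t⁻¹ * w y)) z‖ + χ (t⁻¹ * w z.1)) ∂W.V := by
    rw [← integral_const_mul]
    refine integral_congr_ae (Eventually.of_forall fun z => ?_)
    have hd : DifferentiableAt ℝ w z.1 := hw.differentiable (by simp) _
    have e1 : Φ.gt (fun y => χ (t⁻¹ * w y)) z =
        deriv χ (t⁻¹ * w z.1) • Φ.gt (fun y => t⁻¹ * w y) z :=
      Φ.gt_comp (f := fun y => t⁻¹ * w y) (hχ1.differentiable (by simp) _).hasDerivAt
        (hd.const_mul _)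
    have e2 := Φ.gt_const_mul (z := z) t⁻¹ hd
    simp only [e1, e2, norm_smul, Real.norm_eq_abs, abs_of_nonneg (h3 _),
      abs_of_pos (inv_pos.mpr ht)]
    field_simp
  rw [h7]
  have := mul_le_mul_of_nonneg_left (h6.trans h4) ht.le
  linarith

theorem Frame.sobS_l1 (Φ : Frame n) {W : Vf n} {a C : ℝ} (ha : 0 < a) (ha1 : a ≤ 1) (hC : 0 < C)
    (h : ∀ θ : E n → ℝ, ContDiff ℝ 1 θ → (∀ y, 0 ≤ θ y) →
      W.V.real {w | 1 ≤ θ w.1} ^ a ≤ C * ∫ w, (‖Φ.gt θ w‖ + θ w.1) ∂W.V) :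
    ∃ C' > 0, ∀ w : E n → ℝ, ContDiff ℝ 1 w → (∀ y, 0 ≤ w y) →
      ∫ z, w z.1 ^ a⁻¹ ∂W.V ≤ (C' * ∫ z, (‖Φ.gt w z‖ + w z.1) ∂W.V) ^ a⁻¹ := by
  obtain ⟨χ, L, hχ, hL, c0, c1, c2, c3, c4⟩ := exists_cut (show (1 / 2 : ℝ) < 1 by norm_num)
  have hp : 1 ≤ a⁻¹ := (one_le_inv₀ ha).mpr ha1
  have hp0 : 0 < a⁻¹ := inv_pos.mpr ha
  refine ⟨2 * C * (L + 4), by positivity, fun w hw hw0 => ?_⟩
  obtain ⟨M, hM⟩ := W.cpt.exists_bound_of_continuousOn hw.continuous.continuousOn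
  have hcw : Continuous fun z : E n × E n => w z.1 := hw.continuous.comp continuous_fst
  have hcg : Continuous fun z : E n × E n => ‖Φ.gt w z‖ := (Φ.cont_gt hw).norm
  have hcd : Continuous (deriv χ) := hχ.continuous_deriv (by simp)
  have key : ∀ ε > 0, ∫ z, w z.1 ^ a⁻¹ ∂W.V ≤ ε ^ a⁻¹ * W.V.real univ +
      (2 * C * (L + 4) * ∫ z, (‖Φ.gt w z‖ + w z.1) ∂W.V) ^ a⁻¹ := by
    intro ε hε
    obtain ⟨N, hN⟩ := pow_unbounded_of_one_lt (M / ε) (show (1 : ℝ) < 2 by norm_num)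
    have hN' : M < ε * 2 ^ N := by
      rw [div_lt_iff₀ hε] at hN
      linarith
    have hms : ∀ j : ℕ, MeasurableSet {z : E n × E n | ε * 2 ^ j ≤ w z.1} := fun j =>
      (isClosed_le continuous_const hcw).measurableSet
    have hint : ∀ j : ℕ, Integrable (fun z : E n × E n =>
        {z : E n × E n | ε * 2 ^ j ≤ w z.1}.indicator (fun _ => (2 * (ε * 2 ^ j)) ^ a⁻¹) z) W.V :=
      fun j => (integrable_const _).indicator (hms j)
    have s1 : ∫ z, w z.1 ^ a⁻¹ ∂W.V ≤ ∫ z, (ε ^ a⁻¹ + ∑ j ∈ Finset.range N,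
        {z : E n × E n | ε * 2 ^ j ≤ w z.1}.indicator (fun _ => (2 * (ε * 2 ^ j)) ^ a⁻¹) z)
          ∂W.V := by
      refine integral_mono_ae (W.integrable (hcw.rpow_const fun _ => Or.inr hp0.le))
        ((integrable_const _).add (integrable_finsetSum _ fun j _ => hint j)) ?_
      filter_upwards [W.supp] with z hz
      have h1 : w z.1 < ε * 2 ^ N := by
        have := hM z.1 hz.1
        rw [Real.norm_eq_abs] at this
        linarith [le_abs_self (w z.1)]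
      have h2 := sobS_layer hp0.le hε (hw0 z.1) N h1
      simpa only [indicator_apply, mem_ofPred_eq] using h2
    rw [integral_add (integrable_const _) (integrable_finsetSum _ fun j _ => hint j),
      integral_finsetSum _ fun j _ => hint j] at s1
    simp only [integral_const, smul_eq_mul, integral_indicator_const _ (hms _)] at s1
    have s2 : ∀ j : ℕ, W.V.real {z : E n × E n | ε * 2 ^ j ≤ w z.1} * (2 * (ε * 2 ^ j)) ^ a⁻¹ =
        (2 * (ε * 2 ^ j * W.V.real {z : E n × E n | ε * 2 ^ j ≤ w z.1} ^ a)) ^ a⁻¹ := by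
      intro j
      rw [← mul_assoc 2 (ε * 2 ^ j), Real.mul_rpow (x := 2 * (ε * 2 ^ j)) (by positivity)
        (by positivity), Real.rpow_rpow_inv measureReal_nonneg ha.ne', mul_comm]
    simp only [s2] at s1
    have s3 := sobS_sum_rpow hp
      (fun j => 2 * (ε * 2 ^ j * W.V.real {z : E n × E n | ε * 2 ^ j ≤ w z.1} ^ a))
      (fun j => by positivity) N
    have hcj : ∀ j : ℕ, Continuous fun z : E n × E n =>
        deriv χ ((ε * 2 ^ j)⁻¹ * w z.1) * ‖Φ.gt w z‖ +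
          ε * 2 ^ j * χ ((ε * 2 ^ j)⁻¹ * w z.1) := fun j =>
      ((hcd.comp (continuous_const.mul hcw)).mul hcg).add
        (continuous_const.mul (hχ.continuous.comp (continuous_const.mul hcw)))
    have s4 : ∑ j ∈ Finset.range N,
        2 * (ε * 2 ^ j * W.V.real {z : E n × E n | ε * 2 ^ j ≤ w z.1} ^ a) ≤
        2 * C * (L + 4) * ∫ z, (‖Φ.gt w z‖ + w z.1) ∂W.V := by
      have t1 : ∑ j ∈ Finset.range N,
          2 * (ε * 2 ^ j * W.V.real {z : E n × E n | ε * 2 ^ j ≤ w z.1} ^ a) ≤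
          ∑ j ∈ Finset.range N, 2 * C * ∫ z, (deriv χ ((ε * 2 ^ j)⁻¹ * w z.1) * ‖Φ.gt w z‖ +
            ε * 2 ^ j * χ ((ε * 2 ^ j)⁻¹ * w z.1)) ∂W.V := by
        refine Finset.sum_le_sum fun j _ => ?_
        have := Φ.sobS_level ha.le h hχ c1 (fun t => (c2 t).1) (fun t => (c3 t).1) hw
          (show 0 < ε * 2 ^ j by positivity)
        linarith
      rw [← Finset.mul_sum _ _ (2 * C),
        ← integral_finsetSum _ fun j _ => W.integrable (hcj j)] at t1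
      have t2 : ∫ z, ∑ j ∈ Finset.range N, (deriv χ ((ε * 2 ^ j)⁻¹ * w z.1) * ‖Φ.gt w z‖ +
            ε * 2 ^ j * χ ((ε * 2 ^ j)⁻¹ * w z.1)) ∂W.V ≤
          ∫ z, (L + 4) * (‖Φ.gt w z‖ + w z.1) ∂W.V := by
        refine W.integral_mono (continuous_finsetSum _ fun j _ => hcj j)
          (continuous_const.mul (hcg.add hcw)) fun z _ _ => ?_
        rw [Finset.sum_add_distrib, ← Finset.sum_mul]
        have u1 := (sobS_cut_sum c0 c2 hε (hw0 z.1) N).2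
        have u2 := (sobS_der_sum (s := w z.1) hL c3 c4 hε N).1
        have u3 := mul_le_mul_of_nonneg_right u2 (norm_nonneg (Φ.gt w z))
        have u4 := mul_nonneg hL.le (hw0 z.1)
        have u5 := norm_nonneg (Φ.gt w z)
        linarith
      rw [integral_const_mul] at t2
      have t3 := mul_le_mul_of_nonneg_left t2 (show 0 ≤ 2 * C by positivity)
      linarith
    have s5 := Real.rpow_le_rpow (Finset.sum_nonneg fun j _ => by positivity) s4 hp0.le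
    linarith
  have hlim : Tendsto (fun ε : ℝ => ε ^ a⁻¹ * W.V.real univ +
      (2 * C * (L + 4) * ∫ z, (‖Φ.gt w z‖ + w z.1) ∂W.V) ^ a⁻¹) (𝓝[>] 0)
      (𝓝 ((0 : ℝ) ^ a⁻¹ * W.V.real univ +
        (2 * C * (L + 4) * ∫ z, (‖Φ.gt w z‖ + w z.1) ∂W.V) ^ a⁻¹)) := by
    refine Tendsto.mono_left (Continuous.tendsto ?_ 0) nhdsWithin_le_nhds
    exact ((continuous_id.rpow_const fun _ => Or.inr hp0.le).mul continuous_const).add
      continuous_const
  rw [Real.zero_rpow hp0.ne', zero_mul, zero_add] at hlim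
  exact ge_of_tendsto hlim (eventually_nhdsWithin_of_forall fun ε hε => key ε hε)

theorem Frame.sob_strong (Φ : Frame (k + 1)) {W : Vf (k + 1)} (hk : 3 ≤ k) {C : ℝ} (hC : 0 < C)
    (h : ∀ θ : E (k + 1) → ℝ, ContDiff ℝ 1 θ → (∀ y, 0 ≤ θ y) →
      W.V.real {w | 1 ≤ θ w.1} ^ ((k - 1 : ℝ) / k) ≤ C * ∫ w, (‖Φ.gt θ w‖ + θ w.1) ∂W.V) :
    ∃ Y > 0, Φ.Sob W 1 Y := by
  have hk' : (3 : ℝ) ≤ k := by exact_mod_cast hk
  have hk0 : (0 : ℝ) < k := by linarith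
  have hk2 : (0 : ℝ) < k - 2 := by linarith
  have hk1 : (0 : ℝ) < k - 1 := by linarith
  have ha : (0 : ℝ) < (k - 1) / k := by positivity
  have ha1 : ((k - 1 : ℝ) / k) ≤ 1 := by
    rw [div_le_one hk0]
    linarith
  obtain ⟨C', hC', h1⟩ := Φ.sobS_l1 ha ha1 hC h
  obtain ⟨g, hg⟩ : ∃ g : ℝ, g = 2 * (k - 1) / (k - 2) := ⟨_, rfl⟩
  have hg1 : 1 < g := by
    rw [hg, one_lt_div hk2]
    linarith
  have hg0 : 0 < g := by linarith
  have hq : 0 < qq k := by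
    unfold qq
    positivity
  have e1 : g * ((k - 1 : ℝ) / k)⁻¹ = qq k := by
    rw [hg]
    unfold qq
    field_simp
  have e2 : (g - 1) * (2 : ℕ) = qq k := by
    rw [hg]
    unfold qq
    push_cast
    field_simp
    ring
  have e3 : ((k - 1 : ℝ) / k) = 1 / 2 + 2 / qq k / 2 := by
    unfold qq
    field_simp
    ring
  refine ⟨(2 * C' ^ 2 * g ^ 2)⁻¹, by positivity, fun u hu hu0 => ?_⟩
  have hw : ContDiff ℝ 1 fun y => u y ^ g :=
    (Real.contDiff_rpow_const_of_le (n := 1) (by simpa using hg1.le)).comp hu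
  have h2 := h1 _ hw fun y => Real.rpow_nonneg (hu0 y) g
  have hcu : Continuous fun z : E (k + 1) × E (k + 1) => u z.1 :=
    hu.continuous.comp continuous_fst
  have hcg : Continuous fun z : E (k + 1) × E (k + 1) => ‖Φ.gt u z‖ := (Φ.cont_gt hu).norm
  have hcp : Continuous fun z : E (k + 1) × E (k + 1) => u z.1 ^ (g - 1) :=
    hcu.rpow_const fun _ => Or.inr (by linarith)
  have f1 : ∫ z, (u z.1 ^ g) ^ ((k - 1 : ℝ) / k)⁻¹ ∂W.V = ∫ z, u z.1 ^ qq k ∂W.V := by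
    refine integral_congr_ae (Eventually.of_forall fun z => ?_)
    simp only
    rw [← Real.rpow_mul (hu0 _), e1]
  have f2 : ∫ z, (u z.1 ^ (g - 1)) ^ 2 ∂W.V = ∫ z, u z.1 ^ qq k ∂W.V := by
    refine integral_congr_ae (Eventually.of_forall fun z => ?_)
    simp only
    rw [← Real.rpow_natCast, ← Real.rpow_mul (hu0 _), e2]
  have f3 : ∫ z, (‖Φ.gt (fun y => u y ^ g) z‖ + u z.1 ^ g) ∂W.V =
      g * ∫ z, u z.1 ^ (g - 1) * ‖Φ.gt u z‖ ∂W.V + ∫ z, u z.1 ^ (g - 1) * u z.1 ∂W.V := by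
    have i1 : Integrable (fun z => g * (u z.1 ^ (g - 1) * ‖Φ.gt u z‖)) W.V :=
      W.integrable (continuous_const.mul (hcp.mul hcg))
    have i2 : Integrable (fun z => u z.1 ^ (g - 1) * u z.1) W.V := W.integrable (hcp.mul hcu)
    rw [← integral_const_mul, ← integral_add i1 i2]
    refine integral_congr_ae (Eventually.of_forall fun z => ?_)
    have d1 : Φ.gt (fun y => u y ^ g) z = (g * u z.1 ^ (g - 1)) • Φ.gt u z :=
      Φ.gt_comp (φ := fun t => t ^ g) (Real.hasDerivAt_rpow_const (Or.inr hg1.le))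
        (hu.differentiable (by simp) _)
    have d2 : u z.1 ^ g = u z.1 ^ (g - 1) * u z.1 := by
      rw [← Real.rpow_add_one' (hu0 _) (by linarith), sub_add_cancel]
    have d3 : 0 ≤ g * u z.1 ^ (g - 1) := mul_nonneg hg0.le (Real.rpow_nonneg (hu0 _) _)
    simp only
    rw [d1, norm_smul, Real.norm_eq_abs, abs_of_nonneg d3, ← d2]
    ring
  have f4 := W.integral_mul_le hcp hcg
  have f5 := W.integral_mul_le hcp hcu
  rw [f2] at f4 f5
  rw [f1, f3] at h2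
  unfold Frame.En
  have hA : 0 ≤ ∫ z, ‖Φ.gt u z‖ ^ 2 ∂W.V := integral_nonneg fun z => by positivity
  have hB : 0 ≤ ∫ z, u z.1 ^ 2 ∂W.V := integral_nonneg fun z => by positivity
  have hN : 0 ≤ ∫ z, u z.1 ^ qq k ∂W.V := integral_nonneg fun z => Real.rpow_nonneg (hu0 _) _
  have hI1 : 0 ≤ ∫ z, u z.1 ^ (g - 1) * ‖Φ.gt u z‖ ∂W.V :=
    integral_nonneg fun z => mul_nonneg (Real.rpow_nonneg (hu0 _) _) (norm_nonneg _)
  have hI2 : 0 ≤ ∫ z, u z.1 ^ (g - 1) * u z.1 ∂W.V :=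
    integral_nonneg fun z => mul_nonneg (Real.rpow_nonneg (hu0 _) _) (hu0 _)
  generalize ∫ z, ‖Φ.gt u z‖ ^ 2 ∂W.V = A at *
  generalize ∫ z, u z.1 ^ 2 ∂W.V = B at *
  generalize ∫ z, u z.1 ^ qq k ∂W.V = N at *
  generalize ∫ z, u z.1 ^ (g - 1) * ‖Φ.gt u z‖ ∂W.V = I1 at *
  generalize ∫ z, u z.1 ^ (g - 1) * u z.1 ∂W.V = I2 at *
  rcases hN.eq_or_lt with hN0 | hN0
  · rw [← hN0, Real.zero_rpow (by positivity)]
    linarith
  have g1 := Real.rpow_le_rpow hN h2 ha.le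
  rw [Real.rpow_inv_rpow (by positivity) ha.ne', e3, Real.rpow_add hN0, ← Real.sqrt_eq_rpow,
    Real.rpow_div_two_eq_sqrt _ hN] at g1
  have g2 : C' * (g * I1 + I2) ≤ √N * (C' * g * (√A + √B)) := by
    have a1 := mul_le_mul_of_nonneg_left f4 hg0.le
    have a2 : √N * √B ≤ g * (√N * √B) := le_mul_of_one_le_left (by positivity) hg1.le
    have a3 : g * I1 + I2 ≤ g * (√N * √A) + g * (√N * √B) := by linarith
    have a4 := mul_le_mul_of_nonneg_left a3 hC'.le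
    linarith
  have g3 := le_of_mul_le_mul_left (g1.trans g2) (Real.sqrt_pos.mpr hN0)
  have g4 := pow_le_pow_left₀ (by positivity) g3 2
  have g5 : (√N ^ (2 / qq k)) ^ 2 = N ^ (2 / qq k) := by
    rw [← Real.rpow_natCast, ← Real.rpow_mul (Real.sqrt_nonneg _), mul_comm,
      Real.rpow_mul (Real.sqrt_nonneg _), Real.rpow_natCast, Real.sq_sqrt hN]
  have g6 : (√A + √B) ^ 2 ≤ 2 * (A + B) := by
    have b1 := Real.sq_sqrt hA
    have b2 := Real.sq_sqrt hB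
    nlinarith [sq_nonneg (√A - √B)]
  rw [g5, mul_pow] at g4
  have g7 := mul_le_mul_of_nonneg_left g6 (sq_nonneg (C' * g))
  rw [inv_mul_le_iff₀ (by positivity)]
  nlinarith


end Vale.Agent.P219
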