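import Vale.Agent.P219.MonoU
import Vale.Agent.P219.Dens
import Vale.Agent.P219.Scal

/-!
The weak Sobolev inequality.
-/

open scoped ContDiff Topology ENNReal
open MeasureTheory Set Filter Metric

noncomputable section

namespace Vale.Agent.P219

variable {n k : ℕ} {b : ℝ}

theorem soba_ker {s : ℝ} (hs : 0 ≤ s) : ker k 1 s ≤ s ^ (-((k - 1 : ℝ) / 2)) := by
  rw [ker, one_pow, one_mul, one_pow]
  refine mul_le_of_le_one_right (Real.rpow_nonneg hs _) ?_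
  exact Real.rpow_le_one_of_one_le_of_nonpos (by linarith) (neg_nonpos.2 (by positivity))

theorem soba_alg (hk : 3 ≤ k) {S a M c d I : ℝ} (hS : 0 < S) (ha : 0 ≤ a) (haM : a ≤ M)
    (hc : 0 ≤ c) (hd : 0 ≤ d) (hI : 0 ≤ I)
    (h : S * a ≤ c * I * a + d * a ^ (1 / k : ℝ) * I) :
    a ^ ((k - 1 : ℝ) / k) ≤ (c * M ^ ((k - 1 : ℝ) / k) + d) / S * I := by
  have hk0 : (3 : ℝ) ≤ k := by exact_mod_cast hk
  have hp : (0 : ℝ) < (k - 1 : ℝ) / k := div_pos (by linarith) (by linarith)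
  have hM : 0 ≤ M := ha.trans haM
  rcases ha.eq_or_lt with rfl | ha0
  · rw [Real.zero_rpow hp.ne']
    positivity
  have h1 : a = a ^ ((k - 1 : ℝ) / k) * a ^ (1 / k : ℝ) := by
    rw [← Real.rpow_add ha0, ← add_div, sub_add_cancel, div_self (by linarith), Real.rpow_one]
  have h2 : a ^ ((k - 1 : ℝ) / k) ≤ M ^ ((k - 1 : ℝ) / k) := Real.rpow_le_rpow ha haM hp.le
  have h3 : 0 < a ^ (1 / k : ℝ) := Real.rpow_pos_of_pos ha0 _
  generalize a ^ ((k - 1 : ℝ) / k) = u at h1 h2 ⊢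
  generalize a ^ (1 / k : ℝ) = v at h1 h h3
  generalize M ^ ((k - 1 : ℝ) / k) = m at h2 ⊢
  subst h1
  rw [div_mul_eq_mul_div, le_div_iff₀ hS]
  have h4 : c * I * u ≤ c * I * m := mul_le_mul_of_nonneg_left h2 (mul_nonneg hc hI)
  have h5 : u * S ≤ c * I * u + d * I := le_of_mul_le_mul_right (by linarith) h3
  linarith

namespace Geo

variable (Γ : Geo (k + 1) b) {W : Vf (k + 1)} {h : ℝ} {γ : E (k + 1) → ℝ} {K : Set (E (k + 1))}

theorem soba_point (hk : 3 ≤ k) (hF : Γ.FV W h γ) (hD : Γ.Den W) :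
    ∃ C > 0, ∀ᵐ z ∂W.V, ∀ θ : E (k + 1) → ℝ, ContDiff ℝ 1 θ → (∀ y, 0 ≤ θ y) → 1 ≤ θ z.1 →
      ENNReal.ofReal (sph k) ≤ ENNReal.ofReal (2 ^ k * ∫ w, (‖Γ.gt θ w‖ + θ w.1) ∂W.V) +
        ∫⁻ w, ENNReal.ofReal (C * (‖Γ.gt θ w‖ + θ w.1)) *
          ENNReal.ofReal (Γ.σ w.1 z.1 ^ (-((k - 1 : ℝ) / 2))) ∂W.V := by
  obtain ⟨C, hC, h0⟩ := Γ.point_ineq hk hF hD
  refine ⟨C, hC, ?_⟩
  filter_upwards [h0] with z hz θ hθ hθ0 hθ1
  have h1 := hz θ hθ hθ0 hθ1 1 one_pos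
  have c1 : Continuous fun w : E (k + 1) × E (k + 1) => θ w.1 := hθ.continuous.comp continuous_fst
  have c2 : Continuous fun w : E (k + 1) × E (k + 1) => ‖Γ.gt θ w‖ + θ w.1 :=
    (Γ.cont_gt hθ).norm.add c1
  have h2 : ∫ w, θ w.1 * lam (Γ.σ z.1 w.1) 1 ^ k ∂W.V ≤
      2 ^ k * ∫ w, (‖Γ.gt θ w‖ + θ w.1) ∂W.V := by
    rw [← integral_const_mul]
    refine W.integral_mono
      (c1.mul (((Γ.cont_lam z.1 one_pos).continuous.comp continuous_fst).pow k))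
      (continuous_const.mul c2) fun w _ _ => ?_
    have h3 := lam_le (Γ.nonneg z.1 w.1) one_pos
    rw [div_one] at h3
    rw [mul_comm]
    exact mul_le_mul (pow_le_pow_left₀ (lam_pos (Γ.nonneg z.1 w.1) one_pos).le h3 k)
      (le_add_of_nonneg_left (norm_nonneg _)) (hθ0 _) (by positivity)
  have h4 : ENNReal.ofReal (sph k) ≤ ENNReal.ofReal (2 ^ k * ∫ w, (‖Γ.gt θ w‖ + θ w.1) ∂W.V) +
      ENNReal.ofReal (sph k - ∫ w, θ w.1 * lam (Γ.σ z.1 w.1) 1 ^ k ∂W.V) :=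
    (ENNReal.ofReal_le_ofReal (by linarith)).trans ENNReal.ofReal_add_le
  refine h4.trans (add_le_add le_rfl (h1.trans (lintegral_mono fun w => ?_)))
  have h5 : 0 ≤ C * (‖Γ.gt θ w‖ + θ w.1) := mul_nonneg hC.le (add_nonneg (norm_nonneg _) (hθ0 _))
  rw [← ENNReal.ofReal_mul h5, Γ.symm w.1 z.1, mul_right_comm]
  exact ENNReal.ofReal_le_ofReal (mul_le_mul_of_nonneg_left (soba_ker (Γ.nonneg _ _)) h5)

theorem soba_swap {C D p : ℝ} (hC : 0 ≤ C) (hD : 0 ≤ D) {A : Set (E (k + 1) × E (k + 1))}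
    (h1 : ∀ x ∈ W.K, ∫⁻ w in A, ENNReal.ofReal (Γ.σ x w.1 ^ p) ∂W.V ≤ ENNReal.ofReal D)
    {f : E (k + 1) × E (k + 1) → ℝ} (hf : Continuous f) (hf0 : ∀ w, 0 ≤ f w) :
    ∫⁻ z in A, ∫⁻ w, ENNReal.ofReal (C * f w) * ENNReal.ofReal (Γ.σ w.1 z.1 ^ p) ∂W.V ∂W.V ≤
      ENNReal.ofReal (C * D * ∫ w, f w ∂W.V) := by
  have c1 : Continuous fun q : (E (k + 1) × E (k + 1)) × (E (k + 1) × E (k + 1)) =>
      Γ.σ q.2.1 q.1.1 := Γ.cont.comp (continuous_snd.fst.prodMk continuous_fst.fst)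
  have m1 : Measurable fun q : (E (k + 1) × E (k + 1)) × (E (k + 1) × E (k + 1)) =>
      ENNReal.ofReal (C * f q.2) * ENNReal.ofReal (Γ.σ q.2.1 q.1.1 ^ p) :=
    ((continuous_const.mul (hf.comp continuous_snd)).measurable.ennreal_ofReal).mul
      (c1.measurable.pow_const p).ennreal_ofReal
  rw [lintegral_lintegral_swap m1.aemeasurable, ← integral_const_mul,
    ofReal_integral_eq_lintegral_ofReal (f := fun w => C * D * f w)
      (W.integrable (continuous_const.mul hf))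
      (Eventually.of_forall fun w => mul_nonneg (mul_nonneg hC hD) (hf0 w))]
  refine lintegral_mono_ae ?_
  filter_upwards [W.supp] with w hw
  rw [lintegral_const_mul' _ _ ENNReal.ofReal_ne_top, mul_right_comm,
    ENNReal.ofReal_mul (mul_nonneg hC (hf0 w))]
  exact mul_le_mul_right (h1 _ hw.1) _

theorem sob_weak (hk : 3 ≤ k) (hF : Γ.FV W h γ) (hD : Γ.Den W) :
    ∃ C > 0, ∀ θ : E (k + 1) → ℝ, ContDiff ℝ 1 θ → (∀ y, 0 ≤ θ y) →
      W.V.real {w | 1 ≤ θ w.1} ^ ((k - 1 : ℝ) / k) ≤ C * ∫ w, (‖Γ.gt θ w‖ + θ w.1) ∂W.V := by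
  obtain ⟨C, hC, h0⟩ := Γ.soba_point hk hF hD
  obtain ⟨C', hC', h1⟩ := Γ.dens_ker hk hF W.cpt
  have hS := sph_pos k
  have hM : 0 ≤ W.V.real univ := measureReal_nonneg
  refine ⟨(2 ^ k * W.V.real univ ^ ((k - 1 : ℝ) / k) + C * C') / sph k, by positivity,
    fun θ hθ hθ0 => ?_⟩
  have c1 : Continuous fun w : E (k + 1) × E (k + 1) => θ w.1 := hθ.continuous.comp continuous_fst
  have c2 : Continuous fun w : E (k + 1) × E (k + 1) => ‖Γ.gt θ w‖ + θ w.1 :=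
    (Γ.cont_gt hθ).norm.add c1
  have p2 : ∀ w : E (k + 1) × E (k + 1), 0 ≤ ‖Γ.gt θ w‖ + θ w.1 := fun w =>
    add_nonneg (norm_nonneg _) (hθ0 _)
  have hA : MeasurableSet {w : E (k + 1) × E (k + 1) | 1 ≤ θ w.1} :=
    (isClosed_le continuous_const c1).measurableSet
  have hI : 0 ≤ ∫ w, (‖Γ.gt θ w‖ + θ w.1) ∂W.V := integral_nonneg p2
  have h2 : ∀ᵐ z ∂W.V.restrict {w | 1 ≤ θ w.1}, ENNReal.ofReal (sph k) ≤
      ENNReal.ofReal (2 ^ k * ∫ w, (‖Γ.gt θ w‖ + θ w.1) ∂W.V) +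
        ∫⁻ w, ENNReal.ofReal (C * (‖Γ.gt θ w‖ + θ w.1)) *
          ENNReal.ofReal (Γ.σ w.1 z.1 ^ (-((k - 1 : ℝ) / 2))) ∂W.V := by
    filter_upwards [ae_restrict_of_ae h0, ae_restrict_mem hA] with z hz hz1
    exact hz θ hθ hθ0 hz1
  generalize {w : E (k + 1) × E (k + 1) | 1 ≤ θ w.1} = A at hA h2 ⊢
  have ha : 0 ≤ W.V.real A := measureReal_nonneg
  refine soba_alg hk hS ha (measureReal_mono (subset_univ _)) (by positivity) (by positivity) hI ?_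
  have h3 := Γ.soba_swap hC.le (by positivity) (fun x hx => h1 x hx A hA) c2 p2
  have h4 := lintegral_mono_ae h2
  rw [lintegral_add_left measurable_const, setLIntegral_const, setLIntegral_const] at h4
  have h5 := h4.trans (add_le_add le_rfl h3)
  rw [← ofReal_measureReal (s := A), ← ENNReal.ofReal_mul hS.le,
    ← ENNReal.ofReal_mul (by positivity),
    ← ENNReal.ofReal_add (by positivity) (by positivity),
    ENNReal.ofReal_le_ofReal_iff (by positivity)] at h5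
  linarith

end Geo


end Vale.Agent.P219
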