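import Mathlib

/-!
The generalized Cartan-Hadamard conjecture, for the Riemannian manifolds of Mathlib.
-/

open scoped ContDiff Bundle MeasureTheory

noncomputable section

namespace Vale.Agent.P219.Spec

/-- The function `sn_b`. -/
def sn (b r : ℝ) : ℝ := if b = 0 then r else Real.sinh (b * r) / b

/-- The volume of the Euclidean unit ball. -/
def omega (n : ℕ) : ℝ :=
  (MeasureTheory.volume (Metric.ball (0 : EuclideanSpace ℝ (Fin n)) 1)).toReal

/-- The boundary area of a geodesic ball of radius `r` in the space form of curvature `κ`. -/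
def modelArea (n : ℕ) (κ r : ℝ) : ℝ := n * omega n * sn (Real.sqrt (-κ)) r ^ (n - 1)

/-- The volume of a geodesic ball of radius `r` in the space form of curvature `κ`. -/
def modelVol (n : ℕ) (κ r : ℝ) : ℝ :=
  n * omega n * ∫ t in (0 : ℝ)..r, sn (Real.sqrt (-κ)) t ^ (n - 1)

/-- The model isoperimetric profile. -/
def profile (n : ℕ) (κ V : ℝ) : ℝ :=
  modelArea n κ (Function.invFunOn (modelVol n κ) (Set.Ici 0) V)

variable {n : ℕ} {V : Type} [NormedAddCommGroup V] [NormedSpace ℝ V]

section Coordinates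

/-- The derivative at `y` in the direction `a` of the metric coefficient `g(u, v)`. -/
def dG (g : V → V → V → ℝ) (y a u v : V) : ℝ := lineDeriv ℝ (fun z => g z u v) y a

/-- The matrix `g_ij` at `y` in the basis `e`. -/
def gram (e : Fin n → V) (g : V → V → V → ℝ) (y : V) : Matrix (Fin n) (Fin n) ℝ :=
  Matrix.of fun i j => g y (e i) (e j)

/-- The Christoffel map `Γ(u, v)ᵏ = gᵏˡ (∂_u g(v, e_l) + ∂_v g(u, e_l) - ∂_l g(u, v)) / 2`. -/
def chr (e : Fin n → V) (g : V → V → V → ℝ) (y u v : V) : V :=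
  ∑ k, (∑ l, (gram e g y)⁻¹ k l *
    ((dG g y u v (e l) + dG g y v u (e l) - dG g y (e l) u v) / 2)) • e k

/-- The curvature tensor `R(u, v) w = ∇_u ∇_v w - ∇_v ∇_u w` in coordinates. -/
def riem (e : Fin n → V) (g : V → V → V → ℝ) (y u v w : V) : V :=
  lineDeriv ℝ (fun z => chr e g z v w) y u - lineDeriv ℝ (fun z => chr e g z u w) y v +
    chr e g y u (chr e g y v w) - chr e g y v (chr e g y u w)

end Coordinates

section Manifold

variable {M : Type*} [MetricSpace M] [ChartedSpace V M]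

variable (V) in
/-- A domain: a bounded open set with smooth boundary. -/
def IsDomain (Ω : Set M) : Prop :=
  IsOpen Ω ∧ Bornology.IsBounded Ω ∧ ∀ x ∈ frontier Ω, ∃ (U : Set M) (φ : M → ℝ),
    IsOpen U ∧ x ∈ U ∧
    ContMDiffOn (modelWithCornersSelf ℝ V) (modelWithCornersSelf ℝ ℝ) ∞ φ U ∧
    mfderiv (modelWithCornersSelf ℝ V) (modelWithCornersSelf ℝ ℝ) φ x ≠ 0 ∧
    Ω ∩ U = {y ∈ U | φ y < 0}

/-- The differential of a map to the model space. -/
def dmap (Φ : M → V) (x : M) (v : TangentSpace (modelWithCornersSelf ℝ V) x) : V :=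
  mfderiv (modelWithCornersSelf ℝ V) (modelWithCornersSelf ℝ V) Φ x v

/-- The differential of a map from the model space. -/
def dinv (Ψ : V → M) (y u : V) : TangentSpace (modelWithCornersSelf ℝ V) (Ψ y) :=
  mfderiv (modelWithCornersSelf ℝ V) (modelWithCornersSelf ℝ V) Ψ y u

variable [Bundle.RiemannianBundle fun x : M => TangentSpace (modelWithCornersSelf ℝ V) x]

/-- The Riemannian metric. -/
def met (x : M) (u v : TangentSpace (modelWithCornersSelf ℝ V) x) : ℝ := inner ℝ u v

/-- The Riemannian metric read in the chart `c`. -/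
def chartMetric (c : OpenPartialHomeomorph M V) (y u v : V) : ℝ :=
  met (c.symm y) (dinv c.symm y u) (dinv c.symm y v)

variable (M) in
/-- All sectional curvatures are at most `κ`:
`g(R(u, v) v, u) ≤ κ (g(u, u) g(v, v) - g(u, v)²)`. -/
def SecLe (e : Fin n → V) (κ : ℝ) : Prop :=
  ∀ c ∈ atlas V M, ∀ y ∈ c.target, ∀ u v : V,
    chartMetric c y (riem e (chartMetric c) y u v v) u ≤
      κ * (chartMetric c y u u * chartMetric c y v v - chartMetric c y u v ^ 2)

variable (V) in
/-- `Ω` is isometric to a geodesic ball of the space form of curvature `κ`, realized as the set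
`0 < 4 + κ |y|²` in the Euclidean space `V` with the metric `|dy|² / (1 + κ |y|² / 4)²`, in which
the geodesic balls about the origin are the Euclidean balls of radius `ρ` with `0 < 4 + κ ρ²`. -/
def IsModelBall (κ : ℝ) (Ω : Set M) : Prop :=
  ∃ (ρ : ℝ) (Φ : M → V), 0 < ρ ∧ 0 < 4 + κ * ρ ^ 2 ∧
    ContMDiffOn (modelWithCornersSelf ℝ V) (modelWithCornersSelf ℝ V) ∞ Φ Ω ∧
    Set.BijOn Φ Ω (Metric.ball 0 ρ) ∧
    ∀ x ∈ Ω, ∀ v : TangentSpace (modelWithCornersSelf ℝ V) x,
      met x v v = ‖dmap Φ x v‖ ^ 2 / (1 + κ * ‖Φ x‖ ^ 2 / 4) ^ 2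

end Manifold

universe u

/-- The conjecture for the manifolds modelled on `V` with the basis `e`. -/
def Holds (e : Fin n → V) (κ : ℝ) : Prop :=
  ∀ (M : Type u) [MetricSpace M] [ChartedSpace V M] [IsManifold (modelWithCornersSelf ℝ V) ∞ M]
    [Bundle.RiemannianBundle fun x : M => TangentSpace (modelWithCornersSelf ℝ V) x]
    [IsContMDiffRiemannianBundle (modelWithCornersSelf ℝ V) ∞ V
      fun x : M => TangentSpace (modelWithCornersSelf ℝ V) x]
    [IsRiemannianManifold (modelWithCornersSelf ℝ V) M] [CompleteSpace M]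
    [SimplyConnectedSpace M] [MeasurableSpace M] [BorelSpace M], SecLe M e κ →
    ∀ Ω : Set M, IsDomain V Ω → μHE[n] Ω ≠ ⊤ ∧
      ENNReal.ofReal (profile n κ (μHE[n] Ω).toReal) ≤ μHE[n - 1] (frontier Ω) ∧
      (Ω.Nonempty → μHE[n - 1] (frontier Ω) = ENNReal.ofReal (profile n κ (μHE[n] Ω).toReal) →
        IsModelBall V κ Ω)

end Vale.Agent.P219.Spec
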