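import Vale.Agent.P219.Fr1

/-!
A second order expansion.
-/

open scoped ContDiff Topology ENNReal
open MeasureTheory Set Filter Metric

noncomputable section

namespace Vale.Agent.P219

variable {n k : ℕ} {b : ℝ}

theorem stabA_slope {f : ℝ → ℝ} {f' c : ℝ} (hf : HasDerivAt f f' 0) (hc : c < f') :
    ∃ δ > 0, ∀ s : ℝ, |s| ≤ δ → c * s ^ 2 ≤ (f s - f 0) * s := by
  have h := (hasDerivAt_iff_tendsto_slope.1 hf).eventually (lt_mem_nhds hc)
  rw [eventually_nhdsWithin_iff, Metric.eventually_nhds_iff] at h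
  obtain ⟨ε, hε, h⟩ := h
  refine ⟨ε / 2, by positivity, fun s hs => ?_⟩
  rcases eq_or_ne s 0 with rfl | h0
  · simp
  · have h1 := h (y := s) (by rw [Real.dist_eq, sub_zero]; linarith) h0
    rw [slope_def_field, sub_zero] at h1
    have h2 : (f s - f 0) * s = (f s - f 0) / s * s ^ 2 := by field_simp
    rw [h2]
    exact mul_le_mul_of_nonneg_right h1.le (sq_nonneg s)

theorem stabA_deriv {p s : ℝ} (hs : |s| < 1) :
    HasDerivAt (fun x : ℝ => (1 + x) ^ p) (p * (1 + s) ^ (p - 1)) s := by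
  have h0 : 1 + s ≠ 0 := by
    have := (abs_lt.1 hs).1
    linarith
  have h := ((hasDerivAt_id s).const_add 1).rpow_const (p := p) (Or.inl h0)
  simpa using h

theorem stabA_second {q c : ℝ} (hc : 2 * c < q * (q - 1)) :
    ∃ δ > 0, δ ≤ 1 / 2 ∧ ∀ s : ℝ, |s| ≤ δ → 1 + q * s + c * s ^ 2 ≤ (1 + s) ^ q := by
  have h1 : HasDerivAt (fun x : ℝ => q * (1 + x) ^ (q - 1)) (q * (q - 1)) 0 := by
    have h := (stabA_deriv (p := q - 1) (s := 0) (by simp)).const_mul q
    simpa using h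
  obtain ⟨δ, hδ, h2⟩ := stabA_slope h1 hc
  refine ⟨min δ (1 / 2), by positivity, min_le_right _ _, fun s hs => ?_⟩
  have hs1 : |s| ≤ δ := hs.trans (min_le_left _ _)
  have hs2 : |s| ≤ 1 / 2 := hs.trans (min_le_right _ _)
  have hd : ∀ x : ℝ, |x| ≤ 1 / 2 → HasDerivAt (fun x : ℝ => (1 + x) ^ q - q * x - c * x ^ 2)
      (q * (1 + x) ^ (q - 1) - q - c * (2 * x)) x := fun x hx => by
    have ha := stabA_deriv (p := q) (s := x) (by linarith)
    have hb : HasDerivAt (fun x : ℝ => q * x) q x := by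
      simpa using (hasDerivAt_id x).const_mul q
    have hc' : HasDerivAt (fun x : ℝ => c * x ^ 2) (c * (2 * x)) x := by
      simpa using (hasDerivAt_pow 2 x).const_mul c
    exact (ha.sub hb).sub hc'
  have key : ∀ x : ℝ, |x| ≤ δ → 0 ≤ (q * (1 + x) ^ (q - 1) - q - c * (2 * x)) * x := fun x hx => by
    have h := h2 x hx
    simp only [add_zero, Real.one_rpow, mul_one] at h
    nlinarith
  rcases lt_trichotomy s 0 with h0 | rfl | h0
  · have hin : ∀ x ∈ Icc s 0, |x| ≤ |s| := fun x hx => by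
      rw [abs_of_neg h0, abs_of_nonpos hx.2]
      linarith [hx.1]
    obtain ⟨ξ, hξ, he⟩ := exists_hasDerivAt_eq_slope
      (fun x : ℝ => (1 + x) ^ q - q * x - c * x ^ 2)
      (fun x => q * (1 + x) ^ (q - 1) - q - c * (2 * x)) h0
      (fun x hx => (hd x ((hin x hx).trans hs2)).continuousAt.continuousWithinAt)
      (fun x hx => hd x ((hin x (Ioo_subset_Icc_self hx)).trans hs2))
    have h3 := key ξ ((hin ξ (Ioo_subset_Icc_self hξ)).trans hs1)
    have h4 : q * (1 + ξ) ^ (q - 1) - q - c * (2 * ξ) ≤ 0 := by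
      by_contra h5
      push Not at h5
      have := mul_neg_of_pos_of_neg h5 hξ.2
      linarith
    rw [he, div_nonpos_iff] at h4
    simp only [add_zero, Real.one_rpow, mul_zero, sub_zero] at h4
    rcases h4 with h4 | h4
    · linarith [h4.2]
    · nlinarith [h4.1]
  · simp
  · have hin : ∀ x ∈ Icc 0 s, |x| ≤ |s| := fun x hx => by
      rw [abs_of_pos h0, abs_of_nonneg hx.1]
      exact hx.2
    obtain ⟨ξ, hξ, he⟩ := exists_hasDerivAt_eq_slope
      (fun x : ℝ => (1 + x) ^ q - q * x - c * x ^ 2)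
      (fun x => q * (1 + x) ^ (q - 1) - q - c * (2 * x)) h0
      (fun x hx => (hd x ((hin x hx).trans hs2)).continuousAt.continuousWithinAt)
      (fun x hx => hd x ((hin x (Ioo_subset_Icc_self hx)).trans hs2))
    have h3 := key ξ ((hin ξ (Ioo_subset_Icc_self hξ)).trans hs1)
    have h4 : 0 ≤ q * (1 + ξ) ^ (q - 1) - q - c * (2 * ξ) :=
      nonneg_of_mul_nonneg_left h3 hξ.1
    rw [he, div_nonneg_iff] at h4
    simp only [add_zero, Real.one_rpow, mul_zero, sub_zero] at h4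
    rcases h4 with h4 | h4
    · nlinarith [h4.1]
    · linarith [h4.2]

theorem stabA_first {p c : ℝ} (hc : c < p) :
    ∃ δ > 0, ∀ x : ℝ, 0 ≤ x → x ≤ δ → 1 + c * x ≤ (1 + x) ^ p := by
  have h1 : HasDerivAt (fun x : ℝ => (1 + x) ^ p) p 0 := by
    simpa using stabA_deriv (p := p) (s := 0) (by simp)
  obtain ⟨δ, hδ, h2⟩ := stabA_slope h1 hc
  refine ⟨δ, hδ, fun x hx hx' => ?_⟩
  rcases hx.eq_or_lt with rfl | h0
  · simp
  · have h := h2 x (by rwa [abs_of_pos h0])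
    simp only [add_zero, Real.one_rpow] at h
    have h3 : c * x * x ≤ ((1 + x) ^ p - 1) * x := by nlinarith
    have := le_of_mul_le_mul_right h3 h0
    linarith

theorem stab_taylor {q η : ℝ} (hq : 2 < q) (hη : 0 < η) : ∃ t₀ > 0, t₀ ≤ 1 / 2 ∧
    ∀ t : ℝ, |t| ≤ t₀ → ∀ (W : Vf n) (ρ ψ : E n → ℝ), Continuous ρ → Continuous ψ →
      (∀ x, 0 ≤ ρ x) → (∀ x, |ψ x| ≤ 1) → ∫ z, ρ z.1 ∂W.V = 1 → ∫ z, ρ z.1 * ψ z.1 ∂W.V = 0 →
      1 + ((q - 1) * ∫ z, ρ z.1 * ψ z.1 ^ 2 ∂W.V - η) * t ^ 2 ≤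
        (∫ z, ρ z.1 * (1 + t * ψ z.1) ^ q ∂W.V) ^ (2 / q) := by
  have hq0 : 0 < q := by linarith
  have hQ : 2 < q * (q - 1) := by nlinarith
  obtain ⟨e, he0, he1, he2⟩ : ∃ e : ℝ, 0 < e ∧ e ≤ 1 ∧ e ≤ η / 2 :=
    ⟨min 1 (η / 2), by positivity, min_le_left _ _, min_le_right _ _⟩
  obtain ⟨c, hc⟩ : ∃ c : ℝ, c = q * (q - 1) / 2 - e := ⟨_, rfl⟩
  obtain ⟨d, hd⟩ : ∃ d : ℝ, d = 2 / q - η / (q * (q - 1)) := ⟨_, rfl⟩
  have hc0 : 0 < c := by linarith
  have hcd : q - 1 - η ≤ d * c := by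
    have h1 : 2 / q * (q * (q - 1) / 2) = q - 1 := by field_simp
    have h2 : η / (q * (q - 1)) * (q * (q - 1) / 2) = η / 2 := by
      have : q - 1 ≠ 0 := by linarith
      field_simp
    have h3 : 2 / q ≤ 1 := by
      rw [div_le_one hq0]
      exact hq.le
    have h4 : 0 ≤ η / (q * (q - 1)) * e := by positivity
    have h5 : 2 / q * e ≤ e := by nlinarith
    rw [hc, hd]
    nlinarith
  obtain ⟨δ₁, hδ₁, hδ₁', h1⟩ := stabA_second (q := q) (c := c) (by linarith)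
  obtain ⟨δ₂, hδ₂, h2⟩ := stabA_first (p := 2 / q) (c := d) (by
    have : 0 < η / (q * (q - 1)) := by positivity
    linarith)
  refine ⟨min δ₁ (δ₂ / c), by positivity, (min_le_left _ _).trans hδ₁', ?_⟩
  intro t ht W ρ ψ hρ hψ hρ0 hψ1 hi1 hi0
  have ht1 : |t| ≤ δ₁ := ht.trans (min_le_left _ _)
  have ht2 : |t| ≤ δ₂ / c := ht.trans (min_le_right _ _)
  have htψ : ∀ x, |t * ψ x| ≤ δ₁ := fun x => by
    rw [abs_mul]
    exact (mul_le_of_le_one_right (abs_nonneg t) (hψ1 x)).trans ht1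
  have hρ' : Continuous fun z : E n × E n => ρ z.1 := hρ.comp continuous_fst
  have hψ' : Continuous fun z : E n × E n => ψ z.1 := hψ.comp continuous_fst
  obtain ⟨m, hm⟩ : ∃ m : ℝ, m = ∫ z, ρ z.1 * ψ z.1 ^ 2 ∂W.V := ⟨_, rfl⟩
  have hm0 : 0 ≤ m := by
    rw [hm]
    exact integral_nonneg fun z => mul_nonneg (hρ0 _) (sq_nonneg _)
  have hm1 : m ≤ 1 := by
    rw [hm, ← hi1]
    refine W.integral_mono (hρ'.mul (hψ'.pow 2)) hρ' fun z _ _ => ?_
    have h := hψ1 z.1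
    have h' : ψ z.1 ^ 2 ≤ 1 := by
      rw [← sq_abs]
      exact pow_le_one₀ (abs_nonneg _) h
    exact mul_le_of_le_one_right (hρ0 _) h'
  have hlow : 1 + c * t ^ 2 * m ≤ ∫ z, ρ z.1 * (1 + t * ψ z.1) ^ q ∂W.V := by
    have i1 : Integrable (fun z : E n × E n => ρ z.1) W.V := W.integrable hρ'
    have i2 : Integrable (fun z : E n × E n => q * t * (ρ z.1 * ψ z.1)) W.V :=
      (W.integrable (hρ'.mul hψ')).const_mul _
    have i3 : Integrable (fun z : E n × E n => c * t ^ 2 * (ρ z.1 * ψ z.1 ^ 2)) W.V :=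
      (W.integrable (hρ'.mul (hψ'.pow 2))).const_mul _
    have i12 : Integrable (fun z : E n × E n => ρ z.1 + q * t * (ρ z.1 * ψ z.1)) W.V := i1.add i2
    have e1 : ∫ z, (ρ z.1 + q * t * (ρ z.1 * ψ z.1) + c * t ^ 2 * (ρ z.1 * ψ z.1 ^ 2)) ∂W.V =
        1 + c * t ^ 2 * m := by
      rw [integral_add i12 i3, integral_add i1 i2, integral_const_mul, integral_const_mul, hi1,
        hi0, ← hm]
      ring
    rw [← e1]
    have hcont : Continuous fun z : E n × E n => (1 + t * ψ z.1) ^ q :=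
      (continuous_const.add (continuous_const.mul hψ')).rpow_const fun _ => Or.inr hq0.le
    refine W.integral_mono (by fun_prop) (hρ'.mul hcont) fun z _ _ => ?_
    have h := mul_le_mul_of_nonneg_left (h1 _ (htψ z.1)) (hρ0 z.1)
    nlinarith
  have hx0 : 0 ≤ c * t ^ 2 * m := by positivity
  have hx1 : c * t ^ 2 * m ≤ δ₂ := by
    have h3 : c * |t| ≤ δ₂ := by
      rw [le_div_iff₀ hc0] at ht2
      linarith
    have h4 : t ^ 2 ≤ |t| := by
      rw [← sq_abs]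
      nlinarith [abs_nonneg t]
    have h5 : c * t ^ 2 * m ≤ c * t ^ 2 := mul_le_of_le_one_right (by positivity) hm1
    nlinarith
  have h6 := h2 _ hx0 hx1
  have h7 := Real.rpow_le_rpow (by positivity) hlow (z := 2 / q) (by positivity)
  rw [← hm]
  have h8 : (q - 1) * m - η ≤ d * c * m := by nlinarith
  have h9 := mul_le_mul_of_nonneg_right h8 (sq_nonneg t)
  nlinarith

end Vale.Agent.P219
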