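import Vale.Agent.P219.Psi
import Vale.Agent.P219.StabA

/-!
Near stability.
-/

open scoped ContDiff Topology ENNReal
open MeasureTheory Set Filter Metric

noncomputable section

namespace Vale.Agent.P219

variable {n k : ℕ} {b : ℝ}

namespace Frame

variable (Φ : Frame n)

theorem stab_gt_sum {ι : Type*} (s : Finset ι) (f : ι → E n → ℝ) (z : E n × E n)
    (hf : ∀ i, Differentiable ℝ (f i)) :
    Φ.gt (fun y => ∑ i ∈ s, f i y) z = ∑ i ∈ s, Φ.gt (f i) z := by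
  classical
  induction s using Finset.induction_on with
  | empty => simpa using Φ.gt_const 0 z
  | insert a s ha ih =>
    simp only [Finset.sum_insert ha]
    rw [Φ.gt_add (hf a _) (DifferentiableAt.fun_sum fun i _ => hf i _), ih]

theorem stab_cont (C : ℝ) {u : E n → ℝ} (hu : ContDiff ℝ 1 u) :
    Continuous fun z : E n × E n => ‖Φ.gt u z‖ ^ 2 + C * u z.1 ^ 2 :=
  ((Φ.cont_gt hu).norm.pow 2).add (continuous_const.mul ((hu.continuous.comp continuous_fst).pow 2))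

theorem stab_En (W : Vf n) (C : ℝ) {u : E n → ℝ} (hu : ContDiff ℝ 1 u) :
    Φ.En W C u = ∫ z, (‖Φ.gt u z‖ ^ 2 + C * u z.1 ^ 2) ∂W.V := by
  have h1 : Integrable (fun z => ‖Φ.gt u z‖ ^ 2) W.V := W.integrable ((Φ.cont_gt hu).norm.pow 2)
  have h2 : Integrable (fun z : E n × E n => u z.1 ^ 2) W.V :=
    W.integrable ((hu.continuous.comp continuous_fst).pow 2)
  rw [En, integral_add h1 (h2.const_mul C), integral_const_mul]

theorem stab_par (W : Vf n) (C t : ℝ) {u ψ : E n → ℝ} (hu : ContDiff ℝ 1 u)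
    (hψ : ContDiff ℝ 1 ψ) :
    Φ.En W C (fun x => u x * (1 + t * ψ x)) + Φ.En W C (fun x => u x * (1 + -t * ψ x)) =
      2 * Φ.En W C u + 2 * t ^ 2 * Φ.En W C fun x => u x * ψ x := by
  have hw : ContDiff ℝ 1 fun x => u x * ψ x := hu.mul hψ
  have h1 : ∀ t : ℝ, ContDiff ℝ 1 fun x => u x * (1 + t * ψ x) := fun t =>
    hu.mul (contDiff_const.add (contDiff_const.mul hψ))
  have h2 : ∀ (t : ℝ) (z : E n × E n), Φ.gt (fun x => u x * (1 + t * ψ x)) z =
      Φ.gt u z + t • Φ.gt (fun x => u x * ψ x) z := fun t z => by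
    have hd := hw.differentiable one_ne_zero z.1
    rw [← Φ.gt_const_mul t hd, ← Φ.gt_add (hu.differentiable one_ne_zero z.1) (hd.const_mul t)]
    congr 1
    funext x
    ring
  rw [Φ.stab_En W C (h1 t), Φ.stab_En W C (h1 (-t)), Φ.stab_En W C hu, Φ.stab_En W C hw,
    ← integral_add (W.integrable (Φ.stab_cont C (h1 t))) (W.integrable (Φ.stab_cont C (h1 (-t)))),
    ← integral_const_mul, ← integral_const_mul,
    ← integral_add ((W.integrable (Φ.stab_cont C hu)).const_mul _)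
      ((W.integrable (Φ.stab_cont C hw)).const_mul _)]
  refine integral_congr_ae (Eventually.of_forall fun z => ?_)
  simp only [h2, norm_add_sq_real, inner_smul_right, norm_smul, mul_pow, Real.norm_eq_abs, sq_abs]
  ring

theorem stab_sum (W : Vf n) (C : ℝ) {ι : Type*} [Fintype ι] {u : E n → ℝ} {ψ : ι → E n → ℝ}
    (hu : ContDiff ℝ 1 u) (hψ : ∀ i, ContDiff ℝ 1 (ψ i)) (h1 : ∀ x, ∑ i, ψ i x ^ 2 = 1) :
    ∑ i, Φ.En W C (fun x => u x * ψ i x) =
      Φ.En W C u + ∫ z, u z.1 ^ 2 * ∑ i, ‖Φ.gt (ψ i) z‖ ^ 2 ∂W.V := by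
  have hd : ∀ i, Differentiable ℝ (ψ i) := fun i => (hψ i).differentiable one_ne_zero
  have h2 : ∀ z : E n × E n, ∑ i, (2 * ψ i z.1) • Φ.gt (ψ i) z = 0 := fun z => by
    rw [← Φ.gt_const 1 z, ← funext h1, Φ.stab_gt_sum _ _ z fun i => (hd i).fun_pow 2]
    refine Finset.sum_congr rfl fun i _ => ?_
    simp only [sq]
    rw [Φ.gt_mul (hd i _) (hd i _), two_mul, add_smul]
  have h3 : Continuous fun z : E n × E n => u z.1 ^ 2 * ∑ i, ‖Φ.gt (ψ i) z‖ ^ 2 :=
    ((hu.continuous.comp continuous_fst).pow 2).mul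
      (continuous_finsetSum _ fun i _ => (Φ.cont_gt (hψ i)).norm.pow 2)
  simp only [Φ.stab_En W C (hu.mul (hψ _))]
  rw [← integral_finsetSum _ fun i _ => W.integrable (Φ.stab_cont C (hu.mul (hψ i))),
    Φ.stab_En W C hu, ← integral_add (W.integrable (Φ.stab_cont C hu)) (W.integrable h3)]
  refine integral_congr_ae (Eventually.of_forall fun z => ?_)
  have h4 : ∀ i, ‖Φ.gt (fun x => u x * ψ i x) z‖ ^ 2 + C * (u z.1 * ψ i z.1) ^ 2 =
      (‖Φ.gt u z‖ ^ 2 + C * u z.1 ^ 2) * ψ i z.1 ^ 2 + u z.1 ^ 2 * ‖Φ.gt (ψ i) z‖ ^ 2 +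
        u z.1 * inner ℝ ((2 * ψ i z.1) • Φ.gt (ψ i) z) (Φ.gt u z) := fun i => by
    rw [Φ.gt_mul (hu.differentiable one_ne_zero _) (hd i _), norm_add_sq_real, inner_smul_right,
      real_inner_smul_left, real_inner_smul_left, norm_smul, norm_smul, mul_pow, mul_pow,
      Real.norm_eq_abs, Real.norm_eq_abs, sq_abs, sq_abs]
    ring
  simp only [h4, Finset.sum_add_distrib, ← Finset.mul_sum, h1, ← sum_inner, h2, inner_zero_left]
  ring

end Frame

namespace Geo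

variable (Γ : Geo (k + 1) b) {W : Vf (k + 1)} {h : ℝ} {γ : E (k + 1) → ℝ} {K : Set (E (k + 1))}

theorem stab (hk : 3 ≤ k) {C Y η : ℝ} (hY : 0 ≤ Y) (hS : Γ.Sob W C Y) (hη : 0 < η) :
    ∃ δ > 0, ∀ u : E (k + 1) → ℝ, ContDiff ℝ 1 u → (∀ x, 0 ≤ u x) →
      ∫ z, u z.1 ^ qq k ∂W.V = 1 → Γ.En W C u ≤ Y + δ → ∀ o τ, 0 < τ →
      Γ.Bal W (fun x => u x ^ qq k) o τ →
      (qq k - 2) * Y - η ≤ ∫ z, u z.1 ^ 2 * (Γ.la o τ z.1 ^ 2 * Γ.Wd o z) ∂W.V := by
  have hk' : (3 : ℝ) ≤ k := by exact_mod_cast hk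
  have hq : 2 < qq k := by
    rw [qq, lt_div_iff₀ (by linarith)]
    linarith
  have hN : (0 : ℝ) < (k + 2) * Y + 1 := by positivity
  obtain ⟨t, ht, ht', hT⟩ := stab_taylor (n := k + 1) hq
    (show 0 < η / (2 * ((k + 2) * Y + 1)) by positivity)
  refine ⟨η * t ^ 2 / (2 * (k + 3)), by positivity, fun u hu hu0 hu1 hE o τ hτ hB => ?_⟩
  obtain ⟨ψ, hψ, h1, h2, h3⟩ := Γ.exists_psi o hτ
  have hρ : Continuous fun x => u x ^ qq k := hu.continuous.rpow_const fun _ => Or.inr (by linarith)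
  have hb : ∀ i x, |ψ i x| ≤ 1 := fun i x => by
    rw [← sq_le_one_iff_abs_le_one, ← h1 x]
    exact Finset.single_le_sum (f := fun i => ψ i x ^ 2) (fun i _ => sq_nonneg _)
      (Finset.mem_univ i)
  have h4 : ∀ i (s : ℝ), |s| ≤ t → Y * (1 + ((qq k - 1) * ∫ z, u z.1 ^ qq k * ψ i z.1 ^ 2 ∂W.V -
      η / (2 * ((k + 2) * Y + 1))) * s ^ 2) ≤ Γ.En W C fun x => u x * (1 + s * ψ i x) := by
    intro i s hs
    have h0 : ∀ x, 0 ≤ 1 + s * ψ i x := fun x => by
      have : |s * ψ i x| ≤ 1 := by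
        rw [abs_mul]
        exact mul_le_one₀ (by linarith) (abs_nonneg _) (hb i x)
      linarith [neg_abs_le (s * ψ i x)]
    refine le_trans (mul_le_mul_of_nonneg_left ?_ hY) (hS _
      (hu.mul (contDiff_const.add (contDiff_const.mul (hψ i)))) fun x => mul_nonneg (hu0 x) (h0 x))
    simp only [Real.mul_rpow (hu0 _) (h0 _)]
    exact hT s hs W _ _ hρ (hψ i).continuous (fun x => Real.rpow_nonneg (hu0 x) _) (hb i) hu1
      (h3 W _ hρ hB i)
  have h5 : ∀ i, Y * t ^ 2 * (qq k - 1) * ∫ z, u z.1 ^ qq k * ψ i z.1 ^ 2 ∂W.V ≤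
      (η * t ^ 2 / (2 * (k + 3)) + Y * (η / (2 * ((k + 2) * Y + 1))) * t ^ 2) +
        t ^ 2 * Γ.En W C fun x => u x * ψ i x := fun i => by
    have a1 := h4 i t (abs_of_pos ht).le
    have a2 := h4 i (-t) (by rw [abs_neg, abs_of_pos ht])
    have a3 := Γ.stab_par W C t hu (hψ i)
    rw [neg_sq] at a2
    linarith
  have hi : ∀ i, Integrable (fun z : E (k + 1) × E (k + 1) => u z.1 ^ qq k * ψ i z.1 ^ 2) W.V :=
    fun i => W.integrable ((hρ.comp continuous_fst).mul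
      (((hψ i).continuous.comp continuous_fst).pow 2))
  have h6 := Finset.sum_le_sum fun i (_ : i ∈ Finset.univ) => h5 i
  rw [← Finset.mul_sum, Finset.sum_add_distrib, ← Finset.mul_sum, Γ.stab_sum W C hu hψ h1,
    ← integral_finsetSum _ fun i _ => hi i] at h6
  simp only [← Finset.mul_sum, h1, h2, mul_one, hu1, Finset.sum_const, Finset.card_univ,
    Fintype.card_option, Fintype.card_fin, nsmul_eq_mul] at h6
  push_cast at h6
  have h7 : (k + 2) * (Y * (η / (2 * ((k + 2) * Y + 1)))) ≤ η / 2 := by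
    rw [← mul_assoc, ← mul_div_assoc, div_le_div_iff₀ (by positivity) two_pos]
    nlinarith
  obtain ⟨d, hd⟩ : ∃ d, d = η * t ^ 2 / (2 * (k + 3)) := ⟨_, rfl⟩
  have hd0 : 0 ≤ d := by rw [hd]; positivity
  have hd1 : (k + 3) * d = η / 2 * t ^ 2 := by
    rw [hd]
    field_simp
  rw [← hd] at h6 hE
  have ht2 : 0 < t ^ 2 := by positivity
  have ht3 : t ^ 2 ≤ 1 := by nlinarith
  refine le_of_mul_le_mul_left ?_ ht2
  nlinarith [mul_le_mul_of_nonneg_left h7 ht2.le, mul_le_mul_of_nonneg_left hE ht2.le,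
    mul_le_mul_of_nonneg_left ht3 hd0]

end Geo


end Vale.Agent.P219
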