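import Mathlib

/-!
The objects of the generalized Cartan-Hadamard conjecture, for the Riemannian manifolds of Mathlib.
-/

open scoped ContDiff Bundle
open MeasureTheory

noncomputable section

namespace Vale.Agent.P219

/-- Euclidean space of dimension `n`. -/
abbrev E (n : ℕ) : Type := EuclideanSpace ℝ (Fin n)

/-- The function `sn_b`. -/
def sn (b r : ℝ) : ℝ := if b = 0 then r else Real.sinh (b * r) / b

/-- The volume of the Euclidean unit ball. -/
def omega (n : ℕ) : ℝ := (volume (Metric.ball (0 : E n) 1)).toReal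

/-- The boundary area of a geodesic ball of radius `r` in the space form of curvature `κ`. -/
def modelArea (n : ℕ) (κ r : ℝ) : ℝ := n * omega n * sn (Real.sqrt (-κ)) r ^ (n - 1)

/-- The volume of a geodesic ball of radius `r` in the space form of curvature `κ`. -/
def modelVol (n : ℕ) (κ r : ℝ) : ℝ :=
  n * omega n * ∫ t in (0 : ℝ)..r, sn (Real.sqrt (-κ)) t ^ (n - 1)

/-- The model isoperimetric profile. -/
def profile (n : ℕ) (κ V : ℝ) : ℝ :=
  modelArea n κ (Function.invFunOn (modelVol n κ) (Set.Ici 0) V)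

section Coordinates

variable {n : ℕ}

/-- The coordinate vectors. -/
def ev (i : Fin n) : E n := EuclideanSpace.single i 1

/-- The derivative at `y` in the direction `a` of the metric coefficient `g(u, v)`. -/
def dG (g : E n → E n → E n → ℝ) (y a u v : E n) : ℝ := lineDeriv ℝ (fun z => g z u v) y a

/-- The matrix `g_ij` at `y`. -/
def gram (g : E n → E n → E n → ℝ) (y : E n) : Matrix (Fin n) (Fin n) ℝ :=
  Matrix.of fun i j => g y (ev i) (ev j)

/-- The Christoffel map `Γ(u, v)ᵏ = gᵏˡ (∂_u g(v, e_l) + ∂_v g(u, e_l) - ∂_l g(u, v)) / 2`. -/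
def chr (g : E n → E n → E n → ℝ) (y u v : E n) : E n :=
  ∑ k, (∑ l, (gram g y)⁻¹ k l *
    ((dG g y u v (ev l) + dG g y v u (ev l) - dG g y (ev l) u v) / 2)) • ev k

/-- The curvature tensor `R(u, v) w = ∇_u ∇_v w - ∇_v ∇_u w` in coordinates. -/
def riem (g : E n → E n → E n → ℝ) (y u v w : E n) : E n :=
  lineDeriv ℝ (fun z => chr g z v w) y u - lineDeriv ℝ (fun z => chr g z u w) y v +
    chr g y u (chr g y v w) - chr g y v (chr g y u w)

end Coordinates

section Manifold

variable (n : ℕ) {M : Type*} [MetricSpace M] [ChartedSpace (E n) M]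

/-- A domain: a bounded open set with smooth boundary. -/
def IsDomain (Ω : Set M) : Prop :=
  IsOpen Ω ∧ Bornology.IsBounded Ω ∧ ∀ x ∈ frontier Ω, ∃ (U : Set M) (φ : M → ℝ),
    IsOpen U ∧ x ∈ U ∧
    ContMDiffOn (modelWithCornersSelf ℝ (E n)) (modelWithCornersSelf ℝ ℝ) ∞ φ U ∧
    mfderiv (modelWithCornersSelf ℝ (E n)) (modelWithCornersSelf ℝ ℝ) φ x ≠ 0 ∧
    Ω ∩ U = {y ∈ U | φ y < 0}

/-- The differential of a map to Euclidean space. -/
def dmap (Φ : M → E n) (x : M) (v : TangentSpace (modelWithCornersSelf ℝ (E n)) x) : E n :=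
  mfderiv (modelWithCornersSelf ℝ (E n)) (modelWithCornersSelf ℝ (E n)) Φ x v

variable [Bundle.RiemannianBundle fun x : M => TangentSpace (modelWithCornersSelf ℝ (E n)) x]

/-- The Riemannian metric read in the chart `e`. -/
def chartMetric (e : OpenPartialHomeomorph M (E n)) (y u v : E n) : ℝ :=
  inner ℝ (mfderiv (modelWithCornersSelf ℝ (E n)) (modelWithCornersSelf ℝ (E n)) e.symm y u)
    (mfderiv (modelWithCornersSelf ℝ (E n)) (modelWithCornersSelf ℝ (E n)) e.symm y v)

variable (M) in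
/-- All sectional curvatures are at most `κ`:
`g(R(u, v) v, u) ≤ κ (g(u, u) g(v, v) - g(u, v)²)`. -/
def SecLe (κ : ℝ) : Prop :=
  ∀ e ∈ atlas (E n) M, ∀ y ∈ e.target, ∀ u v : E n,
    chartMetric n e y (riem (chartMetric n e) y u v v) u ≤
      κ * (chartMetric n e y u u * chartMetric n e y v v - chartMetric n e y u v ^ 2)

/-- `Ω` is isometric to a geodesic ball of the space form of curvature `κ`, realized as the set
`0 < 4 + κ |y|²` with the metric `|dy|² / (1 + κ |y|² / 4)²`, in which the geodesic balls about the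
origin are the Euclidean balls of radius `ρ` with `0 < 4 + κ ρ²`. -/
def IsModelBall (κ : ℝ) (Ω : Set M) : Prop :=
  ∃ (ρ : ℝ) (Φ : M → E n), 0 < ρ ∧ 0 < 4 + κ * ρ ^ 2 ∧
    ContMDiffOn (modelWithCornersSelf ℝ (E n)) (modelWithCornersSelf ℝ (E n)) ∞ Φ Ω ∧
    Set.BijOn Φ Ω (Metric.ball 0 ρ) ∧
    ∀ x ∈ Ω, ∀ v : TangentSpace (modelWithCornersSelf ℝ (E n)) x,
      ‖v‖ = ‖dmap n Φ x v‖ / (1 + κ * ‖Φ x‖ ^ 2 / 4)

end Manifold

end Vale.Agent.P219
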