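import Vale.Agent.P219.Ge1
import Vale.Agent.P219.Per

/-!
Truncation by geodesic balls does not increase the perimeter.
-/

open scoped ContDiff Topology ENNReal
open MeasureTheory Set Filter Metric

noncomputable section

namespace Vale.Agent.P219

variable {n k : ℕ} {b : ℝ}

theorem trunc_cut (b : ℝ) {s δ : ℝ} (h0 : 0 < δ) (h1 : δ < s) : ∃ χ φ : ℝ → ℝ,
    ContDiff ℝ 1 χ ∧ ContDiff ℝ 1 φ ∧ (∀ t, t ≤ s - δ → χ t = 1) ∧ (∀ t, s ≤ t → χ t = 0) ∧
    (∀ t, 0 ≤ χ t ∧ χ t ≤ 1) ∧ (∀ t, deriv χ t ≤ 0) ∧ ∀ t, 0 ≤ t → 0 ≤ φ t ∧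
      φ t * √(2 * t + b ^ 2 * t ^ 2) = 1 - χ t ∧ deriv φ t * (2 * t + b ^ 2 * t ^ 2) +
        φ t * (1 + b ^ 2 * t) = -deriv χ t * √(2 * t + b ^ 2 * t ^ 2) := by
  obtain ⟨c, L, cs, -, c0, c1, c2, c3, -⟩ := exists_cut (zero_lt_one (α := ℝ))
  have cs1 : ContDiff ℝ 1 c := cs.of_le (by simp)
  set χ : ℝ → ℝ := fun t => c ((s - t) / δ)
  have χs : ContDiff ℝ 1 χ := cs1.comp (by fun_prop)
  have χ1 : ∀ t, t ≤ s - δ → χ t = 1 := fun t ht => c1 _ ((one_le_div h0).2 (by linarith))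
  have dχ : ∀ t, HasDerivAt χ (deriv c ((s - t) / δ) * (-1 / δ)) t := fun t =>
    (cs1.differentiable one_ne_zero _).hasDerivAt.comp t
      (((hasDerivAt_id t).const_sub s).div_const δ)
  have q0 : ∀ t : ℝ, 0 < t → 0 < 2 * t + b ^ 2 * t ^ 2 := fun t ht => by positivity
  have ev0 : ∀ t, t < s - δ →
      (fun t => (1 - χ t) / √(2 * t + b ^ 2 * t ^ 2)) =ᶠ[𝓝 t] fun _ => 0 := fun t ht =>
    (eventually_lt_nhds ht).mono fun r hr => by simp only [χ1 r hr.le, sub_self, zero_div]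
  refine ⟨χ, fun t => (1 - χ t) / √(2 * t + b ^ 2 * t ^ 2), χs, contDiff_iff_contDiffAt.2
    fun t => ?_, χ1, fun t ht => c0 _ (div_nonpos_of_nonpos_of_nonneg (by linarith) h0.le),
    fun t => c2 _, fun t => ?_, fun t ht => ⟨div_nonneg (sub_nonneg.2 (c2 _).2)
      (Real.sqrt_nonneg _), ?_⟩⟩
  · rcases lt_or_ge t (s - δ) with k | k
    · exact contDiffAt_const.congr_of_eventuallyEq (ev0 t k)
    · have := q0 t (by linarith)
      exact (contDiffAt_const.sub χs.contDiffAt).div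
        (ContDiffAt.sqrt (by fun_prop) this.ne') (Real.sqrt_pos.2 this).ne'
  · rw [(dχ t).deriv]
    exact mul_nonpos_of_nonneg_of_nonpos (c3 _).1
      (div_nonpos_of_nonpos_of_nonneg (by norm_num) h0.le)
  · rcases ht.eq_or_lt with rfl | k
    · simp [χ1 0 (by linarith)]
    · have q := q0 t k
      have r := Real.sqrt_pos.2 q
      have dq : HasDerivAt (fun t : ℝ => 2 * t + b ^ 2 * t ^ 2) (2 * 1 + b ^ 2 * (2 * t)) t :=
        ((hasDerivAt_id t).const_mul 2).add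
          (((hasDerivAt_pow 2 t).const_mul _).congr_deriv (by simp))
      have d := (((χs.differentiable one_ne_zero t).hasDerivAt.const_sub 1).div (dq.sqrt q.ne')
        r.ne').deriv
      refine ⟨div_mul_cancel₀ _ r.ne', ?_⟩
      rw [show deriv (fun t => (1 - χ t) / √(2 * t + b ^ 2 * t ^ 2)) t = _ from d]
      have e := Real.sq_sqrt q.le
      beta_reduce
      generalize √(2 * t + b ^ 2 * t ^ 2) = w at r e ⊢
      rw [← e]
      field_simp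
      ring

theorem trunc_le (Γ : Geo (k + 1) b) {A : Set (E (k + 1))} (hA : BM A) (o : E (k + 1))
    {s δ : ℝ} (h0 : 0 < δ) (h1 : δ < s) {y : E (k + 1) → E (k + 1)} (hy : ContDiff ℝ 1 y)
    (hy1 : ∀ x, ‖y x‖ ≤ 1) : ∃ χ : ℝ → ℝ, Continuous χ ∧ (∀ t, t ≤ s - δ → χ t = 1) ∧
      (∀ t, s ≤ t → χ t = 0) ∧ (∀ t, 0 ≤ χ t ∧ χ t ≤ 1) ∧
      ENNReal.ofReal (∫ x in A, χ (Γ.σ o x) * Γ.dv y x) ≤ Γ.per A := by
  obtain ⟨χ, φ, χs, φs, a1, a0, a2, a3, a4⟩ := trunc_cut b h0 h1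
  have σs : ContDiff ℝ 1 (Γ.σ o) := (Γ.sm o).of_le (by simp)
  have gs : ContDiff ℝ 1 (Γ.gr (Γ.σ o)) := (Γ.gr_sm o).of_le (by simp)
  have ng : ∀ x, ‖Γ.gr (Γ.σ o) x‖ = √(2 * Γ.σ o x + b ^ 2 * Γ.σ o x ^ 2) := fun x => by
    rw [← Γ.grad, Real.sqrt_sq (norm_nonneg _)]
  have s1 : ContDiff ℝ 1 fun x => χ (Γ.σ o x) := χs.comp σs
  have s2 : ContDiff ℝ 1 fun x => φ (Γ.σ o x) := φs.comp σs
  have ys : ContDiff ℝ 1 fun x => χ (Γ.σ o x) • y x + φ (Γ.σ o x) • Γ.gr (Γ.σ o) x :=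
    (s1.smul hy).add (s2.smul gs)
  refine ⟨χ, χs.continuous, a1, a0, a2, (ENNReal.ofReal_le_ofReal (setIntegral_mono
    (hA.integrableOn (s1.continuous.mul (Γ.cont_dv hy))) (hA.integrableOn (Γ.cont_dv ys))
    fun x => ?_)).trans (le_iSup₂_of_le _ ys (le_iSup_of_le (fun x => ?_) le_rfl))⟩
  · obtain ⟨b0, -, b2⟩ := a4 _ (Γ.nonneg o x)
    have d := fun {f : E (k + 1) → ℝ} (h : ContDiff ℝ 1 f) => h.differentiable one_ne_zero x
    have d' := fun {f : E (k + 1) → E (k + 1)} (h : ContDiff ℝ 1 f) =>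
      h.differentiable one_ne_zero x
    have k1 := mul_le_mul_of_nonneg_left (Γ.lap_lower o x) b0
    have k2 : inner ℝ (Γ.gr (Γ.σ o) x) (y x) ≤ √(2 * Γ.σ o x + b ^ 2 * Γ.σ o x ^ 2) :=
      (real_inner_le_norm _ _).trans (ng x ▸ mul_le_of_le_one_right (norm_nonneg _) (hy1 x))
    have k3 := mul_le_mul_of_nonpos_left k2 (a3 (Γ.σ o x))
    have k4 : 0 ≤ φ (Γ.σ o x) * (k * (1 + b ^ 2 * Γ.σ o x)) := by
      have := Γ.nonneg o x
      positivity
    have t1 : ContDiff ℝ 1 fun x => χ (Γ.σ o x) • y x := s1.smul hy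
    have t2 : ContDiff ℝ 1 fun x => φ (Γ.σ o x) • Γ.gr (Γ.σ o) x := s2.smul gs
    change χ (Γ.σ o x) * Γ.dv y x ≤ _
    rw [Γ.dv_add (d' t1) (d' t2), Γ.dv_smul (d s1) (d' hy),
      Γ.dv_smul (d s2) (d' gs), Γ.gr_comp (χs.differentiable one_ne_zero _).hasDerivAt (d σs),
      Γ.gr_comp (φs.differentiable one_ne_zero _).hasDerivAt (d σs), Γ.dv_eq (d' gs),
      real_inner_smul_left, real_inner_smul_left, real_inner_self_eq_norm_sq, Γ.grad]
    push_cast at k1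
    have k5 : 0 ≤ deriv χ (Γ.σ o x) * inner ℝ (Γ.gr (Γ.σ o) x) (y x) +
        φ (Γ.σ o x) * tr (Γ.B (Γ.gr (Γ.σ o)) x) +
        deriv φ (Γ.σ o x) * (2 * Γ.σ o x + b ^ 2 * Γ.σ o x ^ 2) := by linarith
    linarith [mul_nonneg (Γ.m_pos x).le k5]
  · obtain ⟨b0, b1, -⟩ := a4 _ (Γ.nonneg o x)
    refine (norm_add_le _ _).trans ?_
    rw [norm_smul, norm_smul, Real.norm_of_nonneg b0, Real.norm_of_nonneg (a2 _).1, ng, b1]
    linarith [mul_le_of_le_one_right (a2 (Γ.σ o x)).1 (hy1 x)]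

theorem Geo.per_inter_le (Γ : Geo (k + 1) b) {A : Set (E (k + 1))} (hA : BM A) (o : E (k + 1))
    {s : ℝ} (hs : 0 < s) : Γ.per (A ∩ {x | Γ.σ o x < s}) ≤ Γ.per A := by
  refine iSup_le fun y => iSup_le fun hy => iSup_le fun hy1 => ?_
  have p0 : ∀ j : ℕ, 0 < s / (j + 2) := fun j => by positivity
  have p1 : ∀ j : ℕ, s / (j + 2) < s := fun j =>
    div_lt_self hs (by linarith [Nat.cast_nonneg (α := ℝ) j])
  choose χ c1 c2 c3 c4 c5 using fun j : ℕ => trunc_le Γ hA o (p0 j) (p1 j) hy hy1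
  have mB : MeasurableSet {x | Γ.σ o x < s} :=
    (isOpen_lt (Γ.sm o).continuous continuous_const).measurableSet
  have lim : Tendsto (fun j : ℕ => s - s / (j + 2)) atTop (𝓝 (s - 0)) := tendsto_const_nhds.sub
    (tendsto_const_nhds.div_atTop (tendsto_natCast_atTop_atTop.atTop_add tendsto_const_nhds))
  rw [← setIntegral_indicator mB]
  refine le_of_tendsto' (ENNReal.tendsto_ofReal (tendsto_integral_of_dominated_convergence
    (F := fun j x => χ j (Γ.σ o x) * Γ.dv y x) (fun x => ‖Γ.dv y x‖)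
    (fun j => (((c1 j).comp (Γ.sm o).continuous).mul (Γ.cont_dv hy)).aestronglyMeasurable)
    (hA.integrableOn (Γ.cont_dv hy).norm)
    (fun j => ae_of_all _ fun x => ?_) (ae_of_all _ fun x => ?_))) c5
  · rw [norm_mul, Real.norm_of_nonneg (c4 j _).1]
    exact mul_le_of_le_one_left (norm_nonneg _) (c4 j _).2
  · rcases lt_or_ge (Γ.σ o x) s with h | h
    · rw [indicator_of_mem (show x ∈ {x | Γ.σ o x < s} from h)]
      refine tendsto_const_nhds.congr' ((lim.eventually (lt_mem_nhds (by simpa using h))).mono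
        fun j hj => ?_)
      simp only [c2 j _ hj.le, one_mul]
    · rw [indicator_of_notMem (show x ∉ {x | Γ.σ o x < s} from h.not_gt)]
      simp only [c3 _ _ h, zero_mul, tendsto_const_nhds]


end Vale.Agent.P219
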