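import Vale.Agent.P219.Fr2

/-!
The Hausdorff measure of top dimension in the chart.
-/

open scoped ContDiff Topology ENNReal
open MeasureTheory Set Filter Metric

noncomputable section

namespace Vale.Agent.P219

variable {n k : ℕ} {b : ℝ}

namespace Frame

variable (Φ : Frame n) {M : Type*} [MetricSpace M] [MeasurableSpace M] [BorelSpace M]

theorem vol_loc (ψ : M ≃ₜ E n) (hψ : Φ.Bilip ψ) {ε : ℝ} (hε : 0 < ε) (x₀ : E n) :
    ∃ U ∈ 𝓝 x₀, ∀ B ⊆ U, MeasurableSet B →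
      μHE[n] (ψ ⁻¹' B) ≤ ENNReal.ofReal ((1 + ε) ^ (n + 1)) *
        ∫⁻ x in B, ENNReal.ofReal (Φ.m x) := by
  obtain ⟨U, hU, h⟩ := hψ x₀ ε hε
  have hm : ∀ᶠ x in 𝓝 x₀, Φ.m x₀ < (1 + ε) * Φ.m x := by
    have hc : Continuous fun x => (1 + ε) * Φ.m x := continuous_const.mul Φ.m_smooth.continuous
    refine hc.continuousAt.eventually (lt_mem_nhds ?_)
    have := Φ.m_pos x₀
    nlinarith
  refine ⟨U ∩ {x | Φ.m x₀ < (1 + ε) * Φ.m x}, inter_mem hU hm, fun B hB hBm => ?_⟩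
  have h1 : (0 : ℝ) ≤ 1 + ε := by positivity
  have hlip : LipschitzOnWith ⟨1 + ε, h1⟩ (fun w => ψ.symm (Φ.F x₀ w)) (Φ.Fi x₀ '' B) := by
    refine LipschitzOnWith.of_dist_le_mul ?_
    rintro _ ⟨x, hx, rfl⟩ _ ⟨y, hy, rfl⟩
    have := (h (ψ.symm x) (ψ.symm y) (by simpa using (hB hx).1) (by simpa using (hB hy).1)).2
    simp only [Φ.right]
    rw [dist_eq_norm (Φ.Fi x₀ x), ← map_sub]
    simp only [Homeomorph.apply_symm_apply] at this
    exact this
  have him : (fun w => ψ.symm (Φ.F x₀ w)) '' (Φ.Fi x₀ '' B) = ψ ⁻¹' B := by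
    rw [image_image]
    simp only [Φ.right]
    exact congrFun ψ.image_symm B
  have h2 := hlip.hausdorffMeasure_image_le (d := n) (Nat.cast_nonneg n)
  rw [him] at h2
  have h3 : μHE[n] (ψ ⁻¹' B) ≤ ENNReal.ofReal ((1 + ε) ^ n) * μHE[n] (Φ.Fi x₀ '' B) := by
    simp only [Measure.euclideanHausdorffMeasure_def, Measure.smul_apply, ENNReal.smul_def,
      smul_eq_mul]
    rw [mul_left_comm]
    refine mul_le_mul_right (h2.trans (le_of_eq ?_)) _
    congr 1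
    rw [ENNReal.rpow_natCast, ENNReal.ofReal_pow h1]
    congr 1
    exact (ENNReal.ofReal_eq_coe_nnreal h1).symm
  rw [EuclideanSpace.euclideanHausdorffMeasure_eq_volume,
    Measure.addHaar_image_continuousLinearMap] at h3
  have h4 : ENNReal.ofReal (Φ.m x₀) * volume B ≤
      ENNReal.ofReal (1 + ε) * ∫⁻ x in B, ENNReal.ofReal (Φ.m x) := by
    rw [← lintegral_const_mul' _ _ ENNReal.ofReal_ne_top, ← setLIntegral_const]
    refine setLIntegral_mono' hBm fun x hx => ?_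
    rw [← ENNReal.ofReal_mul h1]
    exact ENNReal.ofReal_le_ofReal (le_of_lt (hB hx).2)
  refine h3.trans ?_
  rw [pow_succ, ENNReal.ofReal_mul (by positivity), mul_assoc]
  exact mul_le_mul_right h4 _

theorem vol_eps (ψ : M ≃ₜ E n) (hψ : Φ.Bilip ψ) {A : Set (E n)} (hA : MeasurableSet A)
    {ε : ℝ} (hε : 0 < ε) :
    μHE[n] (ψ ⁻¹' A) ≤ ENNReal.ofReal ((1 + ε) ^ (n + 1)) *
      ∫⁻ x in A, ENNReal.ofReal (Φ.m x) := by
  choose U hU h using Φ.vol_loc ψ hψ hε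
  obtain ⟨s, hs, hc⟩ := TopologicalSpace.countable_cover_nhds
    (f := fun x => interior (U x)) fun x => interior_mem_nhds.2 (hU x)
  have hne : s.Nonempty := by
    have : (0 : E n) ∈ ⋃ x ∈ s, interior (U x) := by rw [hc]; trivial
    obtain ⟨x, hx, -⟩ := mem_iUnion₂.1 this
    exact ⟨x, hx⟩
  obtain ⟨e, rfl⟩ := hs.exists_eq_range hne
  rw [biUnion_range] at hc
  set V : ℕ → Set (E n) := disjointed fun i => interior (U (e i)) with hV
  have hVm : ∀ i, MeasurableSet (V i) :=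
    MeasurableSet.disjointed fun i => isOpen_interior.measurableSet
  have hVc : ⋃ i, A ∩ V i = A := by
    rw [← inter_iUnion, hV, iUnion_disjointed, hc, inter_univ]
  have hd : Pairwise (Function.onFun Disjoint fun i => A ∩ V i) := fun i j hij =>
    (disjoint_disjointed _ hij).mono inter_subset_right inter_subset_right
  calc μHE[n] (ψ ⁻¹' A) = μHE[n] (⋃ i, ψ ⁻¹' (A ∩ V i)) := by rw [← preimage_iUnion, hVc]
    _ ≤ ∑' i, μHE[n] (ψ ⁻¹' (A ∩ V i)) := measure_iUnion_le _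
    _ ≤ ∑' i, ENNReal.ofReal ((1 + ε) ^ (n + 1)) *
        ∫⁻ x in A ∩ V i, ENNReal.ofReal (Φ.m x) :=
      ENNReal.tsum_le_tsum fun i => h (e i) _
        (inter_subset_right.trans ((disjointed_subset _ i).trans interior_subset))
        (hA.inter (hVm i))
    _ = _ := by
      rw [ENNReal.tsum_mul_left, ← lintegral_iUnion (fun i => hA.inter (hVm i)) hd, hVc]

theorem vol_le (ψ : M ≃ₜ E n) (hψ : Φ.Bilip ψ) {A : Set (E n)} (hA : MeasurableSet A) :
    μHE[n] (ψ ⁻¹' A) ≤ ∫⁻ x in A, ENNReal.ofReal (Φ.m x) := by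
  by_cases ht : ∫⁻ x in A, ENNReal.ofReal (Φ.m x) = ⊤
  · rw [ht]; exact le_top
  have hc : Continuous fun ε : ℝ => ENNReal.ofReal ((1 + ε) ^ (n + 1)) :=
    ENNReal.continuous_ofReal.comp (by fun_prop)
  have h1 : Tendsto (fun ε : ℝ => ENNReal.ofReal ((1 + ε) ^ (n + 1)) *
      ∫⁻ x in A, ENNReal.ofReal (Φ.m x)) (𝓝[>] 0)
      (𝓝 (ENNReal.ofReal ((1 + 0) ^ (n + 1)) * ∫⁻ x in A, ENNReal.ofReal (Φ.m x))) :=
    ENNReal.Tendsto.mul_const ((hc.tendsto 0).mono_left nhdsWithin_le_nhds) (Or.inr ht)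
  simp only [add_zero, one_pow, ENNReal.ofReal_one, one_mul] at h1
  exact ge_of_tendsto h1 (eventually_nhdsWithin_of_forall fun ε hε => Φ.vol_eps ψ hψ hA hε)

end Frame


end Vale.Agent.P219
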