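import Vale.Agent.P219.GDefs
import Vale.Agent.P219.Defs

/-!
The modified distance built from the exponential maps.
-/

open scoped ContDiff Topology Manifold Bundle
open Set Filter

set_option maxSynthPendingDepth 3

noncomputable section

namespace Vale.Agent.P219.R

variable {n : ℕ} {b : ℝ}

/-- The function `mq` with `mq (r²) = md r`. -/
structure MQ (b : ℝ) (q : ℝ → ℝ) : Prop where
  smooth : ContDiff ℝ ∞ q
  eq : ∀ r, q (r ^ 2) = md b r
  d1 : ∀ r, 2 * r * deriv q (r ^ 2) = sn b r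
  d0 : deriv q 0 = 1 / 2
  pos : ∀ s, 0 ≤ s → 0 < deriv q s
  d2 : ∀ s, 0 ≤ s → 2 * deriv q s + 4 * s * deriv (deriv q) s = 1 + b ^ 2 * q s
  sq : ∀ s, 0 ≤ s → s * (2 * deriv q s) ^ 2 = 2 * q s + b ^ 2 * q s ^ 2
  cosh : ∀ r, Real.cosh (b * r) = 1 + b ^ 2 * q (r ^ 2)
  lower : ∀ s, 0 ≤ s → s / 2 ≤ q s
  surj : ∀ y, 0 ≤ y → ∃ r, 0 ≤ r ∧ sn b r = y
  mono : StrictMono (sn b)

namespace Xd

variable (X : Xd n b)

/-- The logarithm map. -/
def lg (o x : E n) : E n := Function.invFun (X.ex o) x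

/-- The modified distance. -/
def sig (q : ℝ → ℝ) (o x : E n) : ℝ := q (X.G o (X.lg o x) (X.lg o x))

/-- The frame is orthonormal. -/
def ON (Φ : Frame n) : Prop := ∀ x u v, X.G x (Φ.F x u) (Φ.F x v) = inner ℝ u v

theorem lg_ex (o v : E n) : X.lg o (X.ex o v) = v := Function.leftInverse_invFun (X.bij o).1 v

theorem ex_lg (o x : E n) : X.ex o (X.lg o x) = x := Function.rightInverse_invFun (X.bij o).2 x

end Xd


end Vale.Agent.P219.R
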