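import Vale.Agent.P219.Conc
import Vale.Agent.P219.SobA
import Vale.Agent.P219.Sob
import Vale.Agent.P219.Bal
import Vale.Agent.P219.Stab
import Vale.Agent.P219.Hardy

/-!
The sharp Sobolev inequality.
-/

open scoped ContDiff Topology ENNReal
open MeasureTheory Set Filter Metric

noncomputable section

namespace Vale.Agent.P219

variable {n k : ℕ} {b : ℝ}

theorem yam_ck_pos (hk : 3 ≤ k) : 0 < ck k := by
  have h : (3 : ℝ) ≤ k := by exact_mod_cast hk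
  unfold ck
  have : (0 : ℝ) < k - 2 := by linarith
  positivity

theorem yam_qq_pos (hk : 3 ≤ k) : 0 < qq k := by
  have h : (3 : ℝ) ≤ k := by exact_mod_cast hk
  unfold qq
  have : (0 : ℝ) < k - 2 := by linarith
  positivity

theorem yam_qq_ck (hk : 3 ≤ k) : (qq k - 2) * ck k = k := by
  have h : (3 : ℝ) ≤ k := by exact_mod_cast hk
  have : (k : ℝ) - 2 ≠ 0 := by linarith
  unfold qq ck
  field_simp
  ring

theorem yam_exp (hk : 3 ≤ k) : 2 / qq k + 2 / k = 1 := by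
  have h : (3 : ℝ) ≤ k := by exact_mod_cast hk
  have h1 : (k : ℝ) - 2 ≠ 0 := by linarith
  have h2 : (k : ℝ) ≠ 0 := by linarith
  unfold qq
  field_simp
  ring

theorem Frame.yam_En_mul (Φ : Frame n) (W : Vf n) (C c : ℝ) {u : E n → ℝ} (hu : ContDiff ℝ 1 u) :
    Φ.En W C (fun x => c * u x) = c ^ 2 * Φ.En W C u := by
  unfold Frame.En
  have h1 : ∀ z : E n × E n, ‖Φ.gt (fun x => c * u x) z‖ ^ 2 = c ^ 2 * ‖Φ.gt u z‖ ^ 2 := by
    intro z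
    rw [Φ.gt_const_mul c (hu.differentiable one_ne_zero z.1), norm_smul, mul_pow, Real.norm_eq_abs,
      sq_abs]
  simp only [h1, mul_pow, integral_const_mul]
  ring

theorem Frame.yam_sob (Φ : Frame (k + 1)) (hk : 3 ≤ k) {W : Vf (k + 1)} {C Y : ℝ}
    (h0 : ∀ u : E (k + 1) → ℝ, ContDiff ℝ 1 u → 0 ≤ Φ.En W C u)
    (h1 : ∀ u : E (k + 1) → ℝ, ContDiff ℝ 1 u → (∀ x, 0 ≤ u x) → ∫ z, u z.1 ^ qq k ∂W.V = 1 →
      Y ≤ Φ.En W C u) : Φ.Sob W C Y := by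
  intro u hu hpos
  have hq := yam_qq_pos hk
  set N := ∫ z, u z.1 ^ qq k ∂W.V with hN
  have hN0 : 0 ≤ N := integral_nonneg fun z => Real.rpow_nonneg (hpos _) _
  rcases hN0.eq_or_lt with h | h
  · rw [← h, Real.zero_rpow (by positivity), mul_zero]
    exact h0 u hu
  · set c := N ^ (-(1 / qq k)) with hc
    have hc0 : 0 < c := Real.rpow_pos_of_pos h _
    have h2 : ∫ z, (c * u z.1) ^ qq k ∂W.V = 1 := by
      simp only [Real.mul_rpow hc0.le (hpos _), integral_const_mul]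
      rw [← hN, hc, ← Real.rpow_mul hN0, neg_mul, one_div_mul_cancel hq.ne', Real.rpow_neg_one,
        inv_mul_cancel₀ h.ne']
    have h3 := h1 (fun x => c * u x) (contDiff_const.mul hu)
      (fun x => mul_nonneg hc0.le (hpos x)) h2
    rw [Φ.yam_En_mul W C c hu] at h3
    have h4 : c ^ 2 * N ^ (2 / qq k) = 1 := by
      rw [hc, ← Real.rpow_natCast, ← Real.rpow_mul hN0, ← Real.rpow_add h]
      have : -(1 / qq k) * ((2 : ℕ) : ℝ) + 2 / qq k = 0 := by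
        push_cast
        ring
      rw [this, Real.rpow_zero]
    calc Y * N ^ (2 / qq k) ≤ c ^ 2 * Φ.En W C u * N ^ (2 / qq k) :=
          mul_le_mul_of_nonneg_right h3 (Real.rpow_nonneg hN0 _)
      _ = c ^ 2 * N ^ (2 / qq k) * Φ.En W C u := by ring
      _ = Φ.En W C u := by rw [h4, one_mul]

namespace Geo

variable (Γ : Geo (k + 1) b) {W : Vf (k + 1)} {h : ℝ} {γ : E (k + 1) → ℝ} {K : Set (E (k + 1))}

theorem yam_hardy (hk : 3 ≤ k) (hF : Γ.FV W h γ) (o : E (k + 1)) {τ : ℝ} (hτ : 0 < τ)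
    {u : E (k + 1) → ℝ} (hu : ContDiff ℝ 1 u) (ε : ℝ) :
    ∫ z, ‖Γ.er o τ u z‖ ^ 2 ∂W.V + ck k * ∫ z, u z.1 ^ 2 * Γ.la o τ z.1 ^ 2 ∂W.V +
        ck k * ∫ z, u z.1 ^ 2 * (Γ.P o τ z - γ z.1) ^ 2 ∂W.V + ε * ∫ z, u z.1 ^ 2 ∂W.V ≤
      Γ.En W (ck k * (h ^ 2 - b ^ 2) + ε) u := by
  have h1 := Γ.hardy_le hk hF o hτ hu ε
  have h2 : 0 ≤ ∫ z, 2 * be k * aa b τ * u z.1 ^ 2 / Γ.D o τ z.1 *
      (Γ.Hs o z - k * (1 + b ^ 2 * Γ.σ o z.1)) ∂W.V := by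
    refine integral_nonneg_of_ae ?_
    filter_upwards [W.supp] with z hz
    have h3 : (3 : ℝ) ≤ k := by exact_mod_cast hk
    have h4 : 0 ≤ be k := by
      unfold be
      linarith
    have h5 : 0 ≤ aa b τ := zero_le_one.trans (aa_ge b τ)
    have h6 := Γ.D_pos o hτ z.1
    exact mul_nonneg (by positivity) (sub_nonneg.2 (Γ.Hs_lower o hz.2))
  linarith

theorem yam_eps_le (hk : 3 ≤ k) (hF : Γ.FV W h γ) {u : E (k + 1) → ℝ} (hu : ContDiff ℝ 1 u)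
    (ε : ℝ) : ε * ∫ z, u z.1 ^ 2 ∂W.V ≤ Γ.En W (ck k * (h ^ 2 - b ^ 2) + ε) u := by
  have h1 := Γ.yam_hardy hk hF 0 one_pos hu ε
  have hc := (yam_ck_pos hk).le
  have h2 : 0 ≤ ∫ z, ‖Γ.er 0 1 u z‖ ^ 2 ∂W.V := integral_nonneg fun z => by positivity
  have h3 : 0 ≤ ck k * ∫ z, u z.1 ^ 2 * Γ.la 0 1 z.1 ^ 2 ∂W.V :=
    mul_nonneg hc (integral_nonneg fun z => by positivity)
  have h4 : 0 ≤ ck k * ∫ z, u z.1 ^ 2 * (Γ.P 0 1 z - γ z.1) ^ 2 ∂W.V :=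
    mul_nonneg hc (integral_nonneg fun z => by positivity)
  linarith

theorem yam_lower (hk : 3 ≤ k) (hF : Γ.FV W h γ) (hD : Γ.Den W) {ε : ℝ} (hε : 0 < ε) :
    ∃ Y > 0, ∀ u : E (k + 1) → ℝ, ContDiff ℝ 1 u → (∀ x, 0 ≤ u x) → ∫ z, u z.1 ^ qq k ∂W.V = 1 →
      Y ≤ Γ.En W (ck k * (h ^ 2 - b ^ 2) + ε) u := by
  obtain ⟨C₀, hC₀, hw⟩ := Γ.sob_weak hk hF hD
  obtain ⟨Y, hY, hS⟩ := Γ.toFrame.sob_strong hk hC₀ hw
  set C := ck k * (h ^ 2 - b ^ 2) + ε with hC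
  have hp : 0 < 1 + (|C| + 1) / ε := by positivity
  refine ⟨Y / (1 + (|C| + 1) / ε), by positivity, fun u hu hpos hN => ?_⟩
  have h1 := hS u hu hpos
  rw [hN, Real.one_rpow, mul_one] at h1
  have h2 := Γ.yam_eps_le hk hF hu ε
  rw [← hC] at h2
  rw [div_le_iff₀ hp]
  have hM : 0 ≤ ∫ z, u z.1 ^ 2 ∂W.V := integral_nonneg fun z => by positivity
  have h3 : ∫ z, u z.1 ^ 2 ∂W.V ≤ Γ.En W C u / ε := by
    rw [le_div_iff₀ hε, mul_comm]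
    exact h2
  have h4 := mul_le_mul_of_nonneg_left h3 (show 0 ≤ |C| + 1 by positivity)
  have h5 := mul_le_mul_of_nonneg_right (neg_le_abs C) hM
  have h6 : Γ.En W C u * (1 + (|C| + 1) / ε) = Γ.En W C u + (|C| + 1) * (Γ.En W C u / ε) := by
    ring
  rw [h6]
  unfold Frame.En at h1 h4 ⊢
  linarith

theorem yam_key (hk : 3 ≤ k) (hF : Γ.FV W h γ) (hD : Γ.Den W) {ε Y : ℝ} (hε : 0 < ε) (hY : 0 < Y)
    (hS : Γ.Sob W (ck k * (h ^ 2 - b ^ 2) + ε) Y)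
    (hmin : ∀ δ > 0, ∃ u : E (k + 1) → ℝ, ContDiff ℝ 1 u ∧ (∀ x, 0 ≤ u x) ∧
      ∫ z, u z.1 ^ qq k ∂W.V = 1 ∧ Γ.En W (ck k * (h ^ 2 - b ^ 2) + ε) u ≤ Y + δ)
    {η : ℝ} (hη : 0 < η) (hηY : ck k * η ≤ Y / 2) :
    ck k * sph k ^ (2 / k : ℝ) ≤ Y + (1 + ck k) * η := by
  have hc := yam_ck_pos hk
  have hk0 : (0 : ℝ) < k := by exact_mod_cast (show 0 < k by omega)
  obtain ⟨δ₁, hδ₁, hconc⟩ := Γ.conc (N := (Y + 1) / ck k) hk hF hD hY hS hη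
  obtain ⟨μ, hμ, hμ1, hμ2, hμ3, hμ4⟩ : ∃ μ > 0, 2 * μ ≤ δ₁ ∧ 2 * μ ≤ ck k * δ₁ ∧ 2 * μ ≤ ε * δ₁ ∧
      2 * μ ≤ Y := by
    refine ⟨min (min δ₁ (ck k * δ₁)) (min (ε * δ₁) Y) / 2, by positivity, ?_, ?_, ?_, ?_⟩
    · linarith [min_le_left (min δ₁ (ck k * δ₁)) (min (ε * δ₁) Y), min_le_left δ₁ (ck k * δ₁)]
    · linarith [min_le_left (min δ₁ (ck k * δ₁)) (min (ε * δ₁) Y), min_le_right δ₁ (ck k * δ₁)]
    · linarith [min_le_right (min δ₁ (ck k * δ₁)) (min (ε * δ₁) Y), min_le_left (ε * δ₁) Y]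
    · linarith [min_le_right (min δ₁ (ck k * δ₁)) (min (ε * δ₁) Y), min_le_right (ε * δ₁) Y]
  obtain ⟨δ₂, hδ₂, hstab⟩ := Γ.stab (η := k / ck k * μ) hk hY.le hS (by positivity)
  obtain ⟨u, hu, hpos, hN, hE⟩ := hmin (min (min δ₂ 1) (min μ η)) (by positivity)
  have d1 := (min_le_left (min δ₂ 1) (min μ η)).trans (min_le_left δ₂ 1)
  have d2 := (min_le_left (min δ₂ 1) (min μ η)).trans (min_le_right δ₂ 1)
  have d3 := (min_le_right (min δ₂ 1) (min μ η)).trans (min_le_left μ η)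
  have d4 := (min_le_right (min δ₂ 1) (min μ η)).trans (min_le_right μ η)
  generalize min (min δ₂ 1) (min μ η) = δ at hE d1 d2 d3 d4
  obtain ⟨o, τ, hτ, hB⟩ := Γ.balance hk hF (ρ := fun x => u x ^ qq k)
    (hu.continuous.rpow_const fun _ => Or.inr (yam_qq_pos hk).le)
    (fun x => Real.rpow_nonneg (hpos x) _) hN
  have h1 := hstab u hu hpos hN (by linarith) o τ hτ hB
  have hcu : Continuous fun z : E (k + 1) × E (k + 1) => u z.1 := hu.continuous.comp continuous_fst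
  have hcl : Continuous fun z : E (k + 1) × E (k + 1) => Γ.la o τ z.1 :=
    (Γ.la_sm o hτ).continuous.comp continuous_fst
  have h2 : ∫ z, u z.1 ^ 2 * (Γ.la o τ z.1 ^ 2 * Γ.Wd o z) ∂W.V ≤
      k * ∫ z, u z.1 ^ 2 * Γ.la o τ z.1 ^ 2 ∂W.V := by
    rw [← integral_const_mul]
    refine W.integral_mono ((hcu.pow 2).mul ((hcl.pow 2).mul (Γ.cont_Wd o)))
      (continuous_const.mul ((hcu.pow 2).mul (hcl.pow 2))) fun z _ hz => ?_
    have h3 := mul_le_mul_of_nonneg_left (Γ.Wd_le o hz)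
      (show 0 ≤ u z.1 ^ 2 * Γ.la o τ z.1 ^ 2 by positivity)
    linarith
  have h4 := Γ.yam_hardy hk hF o hτ hu ε
  have e1 : 0 ≤ ∫ z, ‖Γ.er o τ u z‖ ^ 2 ∂W.V := integral_nonneg fun z => by positivity
  have e2 : 0 ≤ ∫ z, u z.1 ^ 2 * (Γ.P o τ z - γ z.1) ^ 2 ∂W.V :=
    integral_nonneg fun z => by positivity
  have e3 : 0 ≤ ∫ z, u z.1 ^ 2 ∂W.V := integral_nonneg fun z => by positivity
  have h5 := hconc o τ hτ u hu hpos hN
  generalize ∫ z, u z.1 ^ 2 * Γ.la o τ z.1 ^ 2 ∂W.V = L at h2 h4 h5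
  generalize ∫ z, ‖Γ.er o τ u z‖ ^ 2 ∂W.V = A at h4 h5 e1
  generalize ∫ z, u z.1 ^ 2 * (Γ.P o τ z - γ z.1) ^ 2 ∂W.V = B at h4 h5 e2
  generalize ∫ z, u z.1 ^ 2 ∂W.V = M at h4 h5 e3
  have h6 : Y - μ ≤ ck k * L := by
    have h7 := mul_le_mul_of_nonneg_left (h1.trans h2) hc.le
    have h8 : ck k * ((qq k - 2) * Y - k / ck k * μ) = k * (Y - μ) := by
      have h9 : ck k * ((qq k - 2) * Y - k / ck k * μ) =
          (qq k - 2) * ck k * Y - k * μ * (ck k / ck k) := by ring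
      rw [h9, yam_qq_ck hk, div_self hc.ne']
      ring
    rw [h8, mul_left_comm] at h7
    exact le_of_mul_le_mul_left h7 hk0
  have e4 := mul_nonneg hc.le e2
  have e5 := mul_nonneg hε.le e3
  have h10 := h5 (le_of_mul_le_mul_left (by linarith) hc)
    (by rw [le_div_iff₀ hc]; linarith) (by linarith)
    (le_of_mul_le_mul_left (by linarith) hc) (le_of_mul_le_mul_left (by linarith) hε)
  have h11 := mul_le_mul_of_nonneg_left h10 hc.le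
  linarith

theorem yam_eps (hk : 3 ≤ k) (hF : Γ.FV W h γ) (hD : Γ.Den W) {ε : ℝ} (hε : 0 < ε) :
    Γ.Sob W (ck k * (h ^ 2 - b ^ 2) + ε) (ck k * sph k ^ (2 / k : ℝ)) := by
  have hc := yam_ck_pos hk
  have h0 : ∀ u : E (k + 1) → ℝ, ContDiff ℝ 1 u → 0 ≤ Γ.En W (ck k * (h ^ 2 - b ^ 2) + ε) u :=
    fun u hu => (mul_nonneg hε.le (integral_nonneg fun z => by positivity)).trans
      (Γ.yam_eps_le hk hF hu ε)
  refine Γ.toFrame.yam_sob hk h0 fun u hu hpos hN => ?_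
  obtain ⟨Y₁, hY₁, hlow⟩ := Γ.yam_lower hk hF hD hε
  set A : Set ℝ := {t | ∃ u : E (k + 1) → ℝ, ContDiff ℝ 1 u ∧ (∀ x, 0 ≤ u x) ∧
    ∫ z, u z.1 ^ qq k ∂W.V = 1 ∧ Γ.En W (ck k * (h ^ 2 - b ^ 2) + ε) u = t} with hA
  have hne : A.Nonempty := ⟨_, u, hu, hpos, hN, rfl⟩
  have hlb : Y₁ ∈ lowerBounds A := by
    rintro _ ⟨v, h1, h2, h3, rfl⟩
    exact hlow v h1 h2 h3
  have hY : 0 < sInf A := hY₁.trans_le (le_csInf hne hlb)
  have hS : Γ.Sob W (ck k * (h ^ 2 - b ^ 2) + ε) (sInf A) :=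
    Γ.toFrame.yam_sob hk h0 fun v h1 h2 h3 => csInf_le ⟨Y₁, hlb⟩ ⟨v, h1, h2, h3, rfl⟩
  have hmin : ∀ δ > 0, ∃ u : E (k + 1) → ℝ, ContDiff ℝ 1 u ∧ (∀ x, 0 ≤ u x) ∧
      ∫ z, u z.1 ^ qq k ∂W.V = 1 ∧ Γ.En W (ck k * (h ^ 2 - b ^ 2) + ε) u ≤ sInf A + δ := by
    intro δ hδ
    obtain ⟨_, ⟨v, h1, h2, h3, rfl⟩, h4⟩ := exists_lt_of_csInf_lt hne (lt_add_of_pos_right _ hδ)
    exact ⟨v, h1, h2, h3, h4.le⟩
  refine le_trans (le_of_forall_pos_le_add fun s hs => ?_)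
    (csInf_le ⟨Y₁, hlb⟩ ⟨u, hu, hpos, hN, rfl⟩)
  have h1 : min (s / (1 + ck k)) (sInf A / 2 / ck k) ≤ s / (1 + ck k) := min_le_left _ _
  have h2 : min (s / (1 + ck k)) (sInf A / 2 / ck k) ≤ sInf A / 2 / ck k := min_le_right _ _
  rw [le_div_iff₀ (by positivity)] at h1 h2
  have h3 := Γ.yam_key hk hF hD hε hY hS hmin (η := min (s / (1 + ck k)) (sInf A / 2 / ck k))
    (by positivity) (by linarith)
  linarith

theorem yamabe (hk : 3 ≤ k) (hF : Γ.FV W h γ) (hD : Γ.Den W) :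
    Γ.Sob W (ck k * (h ^ 2 - b ^ 2)) (ck k * sph k ^ (2 / k : ℝ)) := by
  intro u hu hpos
  refine le_of_forall_pos_le_add fun s hs => ?_
  have hM : 0 ≤ ∫ z, u z.1 ^ 2 ∂W.V := integral_nonneg fun z => by positivity
  have h1 := Γ.yam_eps hk hF hD (ε := s / (∫ z, u z.1 ^ 2 ∂W.V + 1)) (by positivity) u hu hpos
  have h2 : s / (∫ z, u z.1 ^ 2 ∂W.V + 1) * ∫ z, u z.1 ^ 2 ∂W.V ≤ s := by
    rw [div_mul_eq_mul_div, div_le_iff₀ (by positivity)]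
    nlinarith
  unfold Frame.En at h1 ⊢
  linarith

theorem amc (hk : 3 ≤ k) (hF : Γ.FV W h γ) (hD : Γ.Den W) (hm : 0 < W.mass) :
    sph k ^ (2 / k : ℝ) ≤ (h ^ 2 - b ^ 2) * W.mass ^ (2 / k : ℝ) := by
  have hc := yam_ck_pos hk
  have h1 := Γ.yamabe hk hF hD (fun _ => 1) contDiff_const fun _ => zero_le_one
  unfold Frame.En at h1
  simp only [Frame.gt_const, norm_zero, Real.one_rpow, one_pow, integral_const, smul_eq_mul,
    mul_one, ne_eq, OfNat.ofNat_ne_zero, not_false_eq_true, zero_pow, mul_zero, zero_add] at h1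
  have h2 : W.mass = W.mass ^ (2 / qq k) * W.mass ^ (2 / k : ℝ) := by
    rw [← Real.rpow_add hm, yam_exp hk, Real.rpow_one]
  have h3 : ck k * sph k ^ (2 / k : ℝ) * W.mass ^ (2 / qq k) ≤
      ck k * (h ^ 2 - b ^ 2) * W.mass := h1
  have h4 := Real.rpow_pos_of_pos hm (2 / qq k)
  refine le_of_mul_le_mul_left ?_ (mul_pos hc h4)
  calc ck k * W.mass ^ (2 / qq k) * sph k ^ (2 / k : ℝ) ≤ ck k * (h ^ 2 - b ^ 2) * W.mass := by
        linarith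
    _ = ck k * (h ^ 2 - b ^ 2) * (W.mass ^ (2 / qq k) * W.mass ^ (2 / k : ℝ)) := by rw [← h2]
    _ = _ := by ring

end Geo


end Vale.Agent.P219
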